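import Crest.Agent.R183.Cut2

/-! # R183 / Acyc : a short complex with almost null-homotopic `z_i^M` is almost acyclic over
`B/ξ`; bound of `H_0` of the Ulrich Čech complex. -/

set_option autoImplicit false

namespace Crest.Agent.R183

section
variable {n : ℕ} {W : Type} [CommRing W] {B : Type} [CommRing B] [Algebra (Pz W n) B]
  {ξ : B} {P : FC B} {pp : W} {ρ : ℕ}

/-- the Ulrich twist -/
def al0 (n : ℕ) : Fin n → ℤ := fun k => (k : ℕ)

theorem Acyc_ex {I : V n} (hI : I ≠ fun _ => false) : ∃ k, I k = true := by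
  by_contra h
  exact hI (funext fun k => by simpa using fun hk => h ⟨k, hk⟩)

theorem slabU_al0_bot (t : ℕ) :
    slabU (al0 n) 0 t (fun _ => false) (fun _ => false) =
      (topR (fun _ => false) ∩ ge (t : ℤ)) ∪ GG n := by
  ext μ
  simp only [slabU, cutR, topR, bq, ge, GG, al0, Set.mem_union, Set.mem_inter_iff, Set.mem_ofPred_eq,
    Bool.false_eq_true, false_and, exists_false, or_false, true_imp_iff]
  constructor
  · rintro (h | ⟨⟨h1, h2⟩, h3⟩)
    · exact Or.inl h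
    · exact Or.inr ⟨h2, fun k => ⟨h1 k, h3 k⟩⟩
  · rintro (h | ⟨h1, h2⟩)
    · exact Or.inl h
    · exact Or.inr ⟨⟨fun k => (h2 k).1, h1⟩, fun k => (h2 k).2⟩

theorem slabU_al0_ne (t : ℕ) {I : V n} (hI : I ≠ fun _ => false) :
    slabU (al0 n) 0 t (fun _ => false) I = cutR (al0 n) t I := by
  obtain ⟨k, hk⟩ := Acyc_ex hI
  refine Set.union_eq_left.2 ?_
  rintro μ ⟨⟨h1, -⟩, h3⟩
  exact ⟨h1, Or.inr ⟨k, hk, h3 k rfl⟩⟩

theorem Acyc_ent (P : FC B) : P.Ent (nn W n B ^ 0) := fun a b => by simp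

theorem Acyc_adm (P : FC B) (α : Fin n → ℤ) (t : ℤ) : Adm P 0 (fun _ => α) fun _ => t :=
  fun _ _ _ => ⟨le_rfl, by simp⟩

/-- for `v < 0`, if no `k + v = -1` then all `k + v < -1`, so `tdeg = deg ≤ n+1` (`cut_van`). -/
theorem van_al0_hi {K : ℕ} (H : Hx n pp ξ ρ) (hsq : P.Sq (kk W n ξ K)) (hdg : P.DegLe (n + 1))
    {tb : ℤ} (h0 : tb ≤ 0) (hK : 0 ≤ tb + K) {k : ℤ} (hk : (n : ℤ) + 2 ≤ k) :
    Van (DD W n ξ P) (XC W ξ P (fun _ => al0 n) fun _ => tb)
      (XC W ξ P (fun _ => al0 n) fun _ => 0) k := by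
  refine cut_van H (Acyc_ent P) hsq (Acyc_adm P _ _) (Acyc_adm P _ _) (fun _ => h0)
    (fun _ _ => hK) k fun b v _ hv hne => ?_
  have hall : ∀ j : Fin n, al0 n j + v < -1 := by
    intro j
    by_contra hj
    have hj' : (-1 - v).toNat < n := by
      have := j.2
      simp only [al0] at hj
      omega
    refine hne ⟨_, hj'⟩ ?_
    simp only [al0]
    omega
  have h1 : (Finset.univ.filter fun j => tyV (al0 n) v j = false) = ∅ :=
    Finset.filter_eq_empty_iff.2 fun j _ => by simp [tyV, hall j]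
  have h2 := hdg b
  simp only [tdeg, h1, Finset.card_empty]
  omega

theorem van_al0_lo {K : ℕ} (H : Hx n pp ξ ρ) (hsq : P.Sq (kk W n ξ K)) {t : ℤ} (h0 : 0 ≤ t)
    (hK : t ≤ K) {k : ℤ} (hk : k < n) :
    Van (DD W n ξ P) (XC W ξ P (fun _ => al0 n) fun _ => 0)
      (XC W ξ P (fun _ => al0 n) fun _ => t) k := by
  refine cut_van H (Acyc_ent P) hsq (Acyc_adm P _ _) (Acyc_adm P _ _) (fun _ => h0)
    (fun _ _ => by simpa using hK) k fun b v hv _ _ => ?_
  have h1 : (Finset.univ.filter fun j => tyV (al0 n) v j = false) = Finset.univ :=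
    Finset.filter_true_of_mem fun j _ => by
      simp only [tyV, al0, decide_eq_false_iff_not]
      omega
  simp only [tdeg, h1, Finset.card_univ, Fintype.card_fin]
  omega

theorem Acyc_tdeg (a : P.ι) : tdeg P n (a, fun _ => false) = P.deg a + n := by
  simp [tdeg]

/-- a family placed at the vertex `∅` -/
noncomputable def Acyc_emb (P : FC B) (g : P.ι → OO W n ξ) : P.ι × V n → OO W n ξ :=
  fun c => if c.2 = (fun _ => false) then g c.1 else 0

theorem Acyc_D_bot (y : P.ι × V n → OO W n ξ) (a : P.ι) :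
    DD W n ξ P y (a, fun _ => false) = ∑ b, P.d a b • y (b, fun _ => false) := by
  rw [Dc_apply]
  simp [sgnV]

theorem Acyc_GG_sub (t : ℤ) {I : V n} (hI : I ≠ fun _ => false) : GG n ⊆ cutR (al0 n) t I := by
  obtain ⟨k, hk⟩ := Acyc_ex hI
  rintro μ ⟨-, h⟩
  exact ⟨fun j _ => (h j).1, Or.inr ⟨k, hk, (h k).2⟩⟩

theorem Acyc_GG_sub0 : GG n ⊆ cutR (al0 n) 0 fun _ => false := by
  rintro μ ⟨h0, h⟩
  exact ⟨fun j _ => (h j).1, Or.inl h0⟩

theorem Acyc_GG_ge (t : ℤ) : GG n ∩ ge (0 + t) ⊆ cutR (al0 n) t fun _ => false := by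
  rintro μ ⟨⟨-, h⟩, h0⟩
  exact ⟨fun j _ => (h j).1, Or.inl (by simpa using h0)⟩

theorem Acyc_cutR_bot (t : ℤ) :
    cutR (al0 n) t (fun _ => false) = topR (fun _ => false) ∩ ge t := by
  simp [cutR, bq]

theorem Acyc_D_ne {g : P.ι → OO W n ξ} (hg : ∀ a, g a ∈ Om W ξ (GG n)) (t : ℤ) (a : P.ι)
    {I : V n} (hI : I ≠ fun _ => false) :
    DD W n ξ P (Acyc_emb P g) (a, I) ∈ Om W ξ (cutR (al0 n) t I) := by
  rw [Dc_apply]
  refine Submodule.add_mem _ (Submodule.smul_mem _ _ (Submodule.sum_mem _ fun b _ => ?_))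
    (Submodule.sum_mem _ fun k _ => ?_)
  · simp [Acyc_emb, hI]
  · split_ifs
    · refine Submodule.smul_mem _ _ ?_
      unfold Acyc_emb
      split_ifs
      · exact Om_mono (Acyc_GG_sub t hI) (hg _)
      · exact Submodule.zero_mem _
    · exact Submodule.zero_mem _

theorem Acyc_emb_mem {g : P.ι → OO W n ξ} {R : P.ι × V n → Set (Mon n)} {k : ℕ}
    (hg : ∀ a, g a ∈ Om W ξ (R (a, fun _ => false))) (h0 : ∀ a, P.deg a ≠ k → g a = 0) :
    Acyc_emb P g ∈ RC W ξ P R ((k : ℤ) + n) := by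
  refine (mem_PC P n).2 fun ⟨a, I⟩ => ?_
  unfold Acyc_emb
  by_cases hI : I = fun _ => false
  · subst hI
    simp only [if_true, Acyc_tdeg]
    exact ⟨fun _ => hg a, fun h => h0 a fun h' => h (by rw [h'])⟩
  · simp [hI]

theorem Acyc_mem_of {R R' : P.ι × V n → Set (Mon n)} {j : ℤ} {z : P.ι × V n → OO W n ξ}
    (hz : z ∈ RC W ξ P R j) (h : ∀ c, z c ∈ Om W ξ (R' c)) : z ∈ RC W ξ P R' j :=
  (mem_PC P n).2 fun c => ⟨fun _ => h c, ((mem_PC P n).1 hz c).2⟩

theorem Acyc_mon_mem {R : Set (Mon n)} {μ : Mon n} (h : μ ∈ R) :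
    toO ξ (mon W μ) ∈ Om W ξ R := Submodule.subset_span ⟨μ, h, rfl⟩

theorem Acyc_zero_G0 : (0 : Mon n) ∈ G0 n := mem_G0.2 ⟨⟨le_rfl, fun k => by simp⟩, rfl⟩

theorem Acyc_GG_coords {g : OO W n ξ} (hg : g ∈ Om W ξ (GG n)) :
    ∃ β : Mon n → B, g = ∑ μ ∈ G0 n, β μ • toO ξ (mon W μ) := by
  rw [Om_GG, Om] at hg
  obtain ⟨β, hβ⟩ := (Submodule.mem_span_image_finset_iff_exists_fun' B).1 hg
  exact ⟨β, hβ.symm⟩

theorem Acyc_slab {K : ℕ} (H : Hx n pp ξ ρ) (hsq : P.Sq (kk W n ξ K)) {t : ℕ} (hK : t ≤ K) :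
    Pair (DD W n ξ P) (XC W ξ P (fun _ => al0 n) fun _ => 0)
      (XC W ξ P (fun _ => al0 n) fun _ => (t : ℤ)) ∧
    (XC W ξ P (fun _ => al0 n) fun _ => (t : ℤ)) ≤
      (RC W ξ P fun x => slabU (al0 n) 0 t (fun _ => false) x.2) ∧
    (RC W ξ P fun x => slabU (al0 n) 0 t (fun _ => false) x.2) ≤
      (XC W ξ P (fun _ => al0 n) fun _ => 0) ∧
    St (DD W n ξ P) (RC W ξ P fun x => slabU (al0 n) 0 t (fun _ => false) x.2) ∧
    ∀ k, Van (DD W n ξ P) (XC W ξ P (fun _ => al0 n) fun _ => 0)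
      (RC W ξ P fun x => slabU (al0 n) 0 t (fun _ => false) x.2) k := by
  have hc : (fun _ : P.ι => (0 : ℤ)) ≤ fun _ => (t : ℤ) := fun _ => Int.natCast_nonneg t
  have hK' : ∀ _ _ : P.ι, (t : ℤ) ≤ 0 + K := fun _ _ => by omega
  have hs := slab H (Acyc_ent P) hsq (Acyc_adm P (al0 n) 0) (Acyc_adm P (al0 n) t) hc hK'
    (fun _ => false) fun _ v hv _ k => ⟨fun _ => by simp only [al0]; omega, fun h => by simp at h⟩
  refine ⟨XC_pair (Acyc_ent P) hsq (Acyc_adm P _ _) (Acyc_adm P _ _) hc hK',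
    RC_mono fun c => Set.subset_union_left, RC_mono fun c => ?_, hs.1, hs.2.2.1⟩
  rintro μ (⟨h1, h2 | h2⟩ | ⟨⟨h1, h2⟩, -⟩)
  · exact ⟨h1, Or.inl (le_trans (Int.natCast_nonneg t) h2)⟩
  · exact ⟨h1, Or.inr h2⟩
  · exact ⟨h1, Or.inl h2⟩

/-- Put `M' = (n+1) M`, `x̂ (a,I) = if I = ∅ then x a • 1 else 0` (degree `k+n`).  It lies in
`Zc (XC 0) (XC (t+M'))`; `cut_tn` with `t₁ = -M'`, `t₂ = t`; `Van.inj` with `van_al0_hi`, then `Van.inj`
with the upper part of `slab` (`ty = ∅`, `c = 0`, `c' = t`, `q' = 0`): `θ' x̂ = D y + l`,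
`y ∈ RC slabU`.  Evaluate at `(a,∅)`: `θ' x a • 1 - ∑ d a b • g b ∈ Om (top ∩ ge t) ⊓ Om GG`
(`Om_inter`), `g b ∈ Om GG = span (G0)` (zero unless `deg b = k+1`); conclude with `GG_free` at
`μ = 0 ∈ G0`. -/
theorem acyc {K M t k : ℕ} (H : Hx n pp ξ ρ) (hsq : P.Sq (kk W n ξ K)) (hdg : P.DegLe (n + 1))
    (θ : B) (hθ : ∀ i, θ * zB W n B i ^ M ∈ P.nh (kk W n ξ K)) (hK : t + 2 * ((n + 1) * M) ≤ K)
    (hk : 1 ≤ k) (x : P.ι → B) (hx : ∀ a, P.deg a ≠ k → x a = 0)
    (hdx : ∀ a, P.d.mulVec x a ∈ kk W n ξ (t + (n + 1) * M)) :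
    ∃ y : P.ι → B, (∀ a, P.deg a ≠ k + 1 → y a = 0) ∧
      ∀ a, θ ^ (n + 1) * x a - P.d.mulVec y a ∈ kk W n ξ t := by
  classical
  have h0GG : (0 : Mon n) ∈ GG n := (mem_G0.1 Acyc_zero_G0).1
  have hone : toO ξ (mon W (0 : Mon n)) ∈ Om W ξ (GG n) := Acyc_mon_mem h0GG
  set g : P.ι → OO W n ξ := fun a => x a • toO ξ (mon W (0 : Mon n)) with hg
  have hgG : ∀ a, g a ∈ Om W ξ (GG n) := fun a => Submodule.smul_mem _ _ hone
  have hg0 : ∀ a, P.deg a ≠ k → g a = 0 := fun a ha => by simp [hg, hx a ha]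
  have hX0 : Acyc_emb P g ∈ XC W ξ P (fun _ => al0 n) (fun _ => 0) ((k : ℤ) + n) :=
    Acyc_emb_mem (fun a => Om_mono Acyc_GG_sub0 (hgG a)) hg0
  have hDX : DD W n ξ P (Acyc_emb P g) ∈
      XC W ξ P (fun _ => al0 n) (fun _ => (t : ℤ) + (n + 1) * M) ((k : ℤ) + n - 1) := by
    refine Acyc_mem_of (XC_st (Acyc_ent P) (Acyc_adm P _ _) _ _ hX0) fun ⟨a, I⟩ => ?_
    by_cases hI : I = fun _ => false
    · subst hI
      have e : DD W n ξ P (Acyc_emb P g) (a, fun _ => false) =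
          P.d.mulVec x a • toO ξ (mon W (0 : Mon n)) := by
        rw [Acyc_D_bot]
        simp [Acyc_emb, hg, Matrix.mulVec, dotProduct, Finset.sum_smul, mul_smul]
      rw [e]
      refine Om_mono ?_ (smul_mem_Om (stab_GG n) (t := 0) (fun μ hμ => hμ.1) (hdx a) hone)
      have := Acyc_GG_ge (n := n) ((t : ℤ) + (n + 1) * M)
      push_cast
      exact this
    · exact Acyc_D_ne hgG _ a hI
  have h1 := cut_tn hsq θ hθ (al0 n) (t₁ := -(((n : ℤ) + 1) * M)) (t₂ := t)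
    (by have : (0 : ℤ) ≤ ((n : ℤ) + 1) * M := by positivity
        omega)
    (by have : ((t + 2 * ((n + 1) * M) : ℕ) : ℤ) ≤ K := by exact_mod_cast hK
        push_cast at this
        linarith) ((k : ℤ) + n) (Acyc_emb P g)
    (by rw [neg_add_cancel]; exact ⟨hX0, hDX⟩)
  have hMnn : (0 : ℤ) ≤ ((n : ℤ) + 1) * M := by positivity
  have hKz : (t : ℤ) + 2 * (((n : ℤ) + 1) * M) ≤ K := by exact_mod_cast hK
  have hDX' : DD W n ξ P (θ ^ (n + 1) • Acyc_emb P g) ∈
      XC W ξ P (fun _ => al0 n) (fun _ => (t : ℤ)) ((k : ℤ) + n - 1) := by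
    rw [map_smul]
    exact Submodule.smul_mem _ _ (XC_anti _ (fun _ => le_add_of_nonneg_right hMnn) _ hDX)
  have hp1 : Pair (DD W n ξ P) (XC W ξ P (fun _ => al0 n) fun _ => -(((n : ℤ) + 1) * M))
      (XC W ξ P (fun _ => al0 n) fun _ => (t : ℤ)) :=
    XC_pair (Acyc_ent P) hsq (Acyc_adm P _ _) (Acyc_adm P _ _) (fun _ => by
      show -(((n : ℤ) + 1) * M) ≤ (t : ℤ)
      omega) fun _ _ => by linarith
  have h2 := Van.inj hp1 (M := XC W ξ P (fun _ => al0 n) fun _ => 0)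
    (XC_anti _ fun _ => Int.natCast_nonneg t) (XC_anti _ fun _ => neg_nonpos.2 hMnn)
    (XC_st (Acyc_ent P) (Acyc_adm P _ _)) (k := (k : ℤ) + n)
    (van_al0_hi H hsq hdg (by linarith) (by have := Int.natCast_nonneg t; linarith) (by omega))
    ⟨⟨Submodule.smul_mem _ _ hX0, hDX'⟩, h1⟩
  obtain ⟨hp, hL, hU, hS, hV⟩ := Acyc_slab H hsq (t := t) (by omega)
  have hXS : Acyc_emb P g ∈
      RC W ξ P (fun x => slabU (al0 n) 0 t (fun _ => false) x.2) ((k : ℤ) + n) :=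
    Acyc_emb_mem (fun a => Om_mono (by rw [slabU_al0_bot]; exact Set.subset_union_right) (hgG a)) hg0
  obtain ⟨y, hy, hyD⟩ := mem_Bd.1 (Van.inj hp hL hU hS (hV _)
    ⟨⟨Submodule.smul_mem _ _ hXS, hDX'⟩, h2⟩)
  have hdec : ∀ b, ∃ β : Mon n → B, (P.deg b ≠ k + 1 → β 0 = 0) ∧
      y (b, fun _ => false) - ∑ μ ∈ G0 n, β μ • toO ξ (mon W μ) ∈
        Om W ξ (topR (fun _ => false) ∩ ge (t : ℤ)) := by
    intro b
    have hb := (mem_PC P n).1 hy (b, fun _ => false)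
    rw [Acyc_tdeg] at hb
    by_cases hbk : P.deg b = k + 1
    · have h3 := hb.1 (by rw [hbk]; push_cast; ring)
      simp only [slabU_al0_bot, Om_union] at h3
      obtain ⟨l, hl, g', hg', he⟩ := Submodule.mem_sup.1 h3
      obtain ⟨β, hβ⟩ := Acyc_GG_coords hg'
      exact ⟨β, fun h => absurd hbk h, by rw [← he, ← hβ, add_sub_cancel_right]; exact hl⟩
    · refine ⟨0, fun _ => rfl, ?_⟩
      rw [hb.2 (by omega)]
      simp
  choose β hβ0 hβ using hdec
  refine ⟨fun b => β b 0, hβ0, fun a => ?_⟩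
  by_cases hak : P.deg a = k
  · have h3 := ((mem_PC P n).1 hyD (a, fun _ => false)).1 (by rw [Acyc_tdeg, hak])
    beta_reduce at h3
    rw [Pi.sub_apply, Acyc_D_bot, Acyc_cutR_bot] at h3
    have e : ∑ μ ∈ G0 n, ((if μ = 0 then θ ^ (n + 1) * x a else 0) - ∑ b, P.d a b * β b μ) •
        toO ξ (mon W μ) = θ ^ (n + 1) • g a -
          ∑ b, P.d a b • ∑ μ ∈ G0 n, β b μ • toO ξ (mon W μ) := by
      simp only [sub_smul, Finset.sum_sub_distrib, ite_smul, zero_smul, Finset.sum_ite_eq',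
        Acyc_zero_G0, if_true, Finset.sum_smul, Finset.smul_sum, mul_smul, hg]
      rw [Finset.sum_comm]
    have h4 : θ ^ (n + 1) • g a - ∑ b, P.d a b • ∑ μ ∈ G0 n, β b μ • toO ξ (mon W μ) ∈
        Om W ξ (topR (fun _ => false) ∩ ge (t : ℤ)) := by
      have h5 := Submodule.add_mem _ h3
        (Submodule.sum_mem _ fun b (_ : b ∈ Finset.univ) => Submodule.smul_mem _ (P.d a b) (hβ b))
      convert h5 using 1
      simp only [Acyc_emb, Pi.smul_apply, if_true, smul_sub, Finset.sum_sub_distrib]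
      abel
    have h5 : θ ^ (n + 1) • g a - ∑ b, P.d a b • ∑ μ ∈ G0 n, β b μ • toO ξ (mon W μ) ∈
        Om W ξ (GG n) :=
      Submodule.sub_mem _ (Submodule.smul_mem _ _ (hgG a)) (Submodule.sum_mem _ fun b _ =>
        Submodule.smul_mem _ _ (Submodule.sum_mem _ fun μ hμ =>
          Submodule.smul_mem _ _ (Acyc_mon_mem (mem_G0.1 hμ).1)))
    have h6 : θ ^ (n + 1) • g a - ∑ b, P.d a b • ∑ μ ∈ G0 n, β b μ • toO ξ (mon W μ) ∈
        Om W ξ (GG n ∩ (topR (fun _ => false) ∩ ge (t : ℤ))) := by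
      rw [Om_inter H (stab_GG n) ((stab_topR _).inter (stab_ge _))]
      exact ⟨h5, h4⟩
    rw [← e] at h6
    have h7 := GG_free H t _ (Om_mono (Set.inter_subset_inter_right _ Set.inter_subset_right) h6) 0
      Acyc_zero_G0
    simpa [Matrix.mulVec, dotProduct] using h7
  · have h3 : P.d.mulVec (fun b => β b 0) a = 0 := by
      refine Finset.sum_eq_zero fun b _ => ?_
      by_cases hd : P.d a b = 0
      · simp [hd]
      · have := P.hd a b hd
        simp [hβ0 b (by omega)]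
    rw [h3, hx a hak]
    simp

/-- Apply `acyc` (`k = 1`) to `X (inr a₀) = x`, `X (inl b) = - c b` where
`y x ≡ ∑ d a₀ b c b` (`FC.mem_J_iff`), and read off the component `inr a₀`. -/
theorem acyc_cone {K M t : ℕ} (H : Hx n pp ξ ρ) {Cx : FC B} (h1 : Cx.One)
    (hsq : Cx.Sq (kk W n ξ K)) (hdg : Cx.DegLe n) (y θ : B)
    (hθ : ∀ i, θ * zB W n B i ^ M ∈ (Cx.cone y).nh (kk W n ξ K))
    (hK : t + 2 * ((n + 1) * M) ≤ K) (x : B)
    (hx : y * x ∈ Cx.J ⊔ kk W n ξ (t + (n + 1) * M)) :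
    θ ^ (n + 1) * x ∈ Cx.J ⊔ kk W n ξ t := by
  classical
  obtain ⟨a₀, ha₀, hu⟩ := h1
  obtain ⟨j, hj, κ, hκ, he⟩ := Submodule.mem_sup.1 hx
  obtain ⟨c, hc, rfl⟩ := (FC.mem_J_iff ha₀ hu j).1 hj
  have g1 : ∀ a : (Cx.cone y).ι, (Cx.cone y).deg a ≠ 1 →
      (Sum.elim (fun b => -c b) fun a => if a = a₀ then x else 0 : Cx.ι ⊕ Cx.ι → B) a = 0 := by
    rintro (b | a) h
    · simp [hc b h]
    · have : a ≠ a₀ := by
        rintro rfl
        exact h (by show Cx.deg a + 1 = 1; rw [ha₀])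
      simp [this]
  have g2 : ∀ a : (Cx.cone y).ι, (Cx.cone y).d.mulVec
      (Sum.elim (fun b => -c b) fun a => if a = a₀ then x else 0 : Cx.ι ⊕ Cx.ι → B) a ∈
      kk W n ξ (t + (n + 1) * M) := by
    rintro (a | a)
    · show ∑ b : Cx.ι ⊕ Cx.ι, (Matrix.fromBlocks Cx.d (y • (1 : Matrix Cx.ι Cx.ι B)) 0 (-Cx.d))
        (Sum.inl a) b * (Sum.elim (fun b => -c b) fun a => if a = a₀ then x else 0) b ∈ _
      by_cases ha : a = a₀
      · subst ha
        have : κ = -∑ b, Cx.d a b * c b + y * x := by rw [← he]; ring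
        rw [this] at hκ
        simpa [Fintype.sum_sum_type] using hκ
      · have h2 : ∑ b, Cx.d a b * c b = 0 := by
          refine Finset.sum_eq_zero fun b _ => ?_
          by_cases hd : Cx.d a b = 0
          · simp [hd]
          · have h3 := Cx.hd a b hd
            have h4 : Cx.deg a ≠ 0 := fun h => ha (hu a h)
            simp [hc b (by omega)]
        simp [Fintype.sum_sum_type, h2, ha]
    · show ∑ b : Cx.ι ⊕ Cx.ι, (Matrix.fromBlocks Cx.d (y • (1 : Matrix Cx.ι Cx.ι B)) 0 (-Cx.d))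
        (Sum.inr a) b * (Sum.elim (fun b => -c b) fun a => if a = a₀ then x else 0) b ∈ _
      have h2 : Cx.d a a₀ = 0 := by
        by_contra hd
        have := Cx.hd a a₀ hd
        omega
      simp [Fintype.sum_sum_type, h2]
  obtain ⟨z, -, hz⟩ := acyc (P := Cx.cone y) (k := 1) H (FC.cone_sq y hsq) (FC.cone_degLe y hdg)
    θ hθ hK le_rfl _ g1 g2
  have h2 := hz (Sum.inr a₀)
  have e : (Cx.cone y).d.mulVec z (Sum.inr a₀) = -∑ b, Cx.d a₀ b * z (Sum.inr b) := by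
    show ∑ b : Cx.ι ⊕ Cx.ι, (Matrix.fromBlocks Cx.d (y • (1 : Matrix Cx.ι Cx.ι B)) 0 (-Cx.d))
      (Sum.inr a₀) b * z b = _
    simp [Fintype.sum_sum_type]
  rw [e] at h2
  simp only [Sum.elim_inr, if_true] at h2
  have h3 : ∑ b, Cx.d a₀ b * z (Sum.inr b) ∈ Cx.J :=
    Ideal.sum_mem _ fun b _ => Ideal.mul_mem_right _ _ (Ideal.subset_span ⟨a₀, b, ha₀, rfl⟩)
  have h4 := Submodule.sub_mem _ (Submodule.mem_sup_right (S := Cx.J) h2)
    (Submodule.mem_sup_left h3)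
  simpa using h4

/-- `Van.surj` with the upper part of `slab`; `RC slabU n ≤ XC t n ⊔ ⨆ μ ∈ G0, span {Pi.single (a₀,∅) μ}`
(`Om_GG`), and each generator is killed modulo `Bd` by `J ⊔ kk t`
(`d a₀ b • single (a₀,∅) μ ≡ D (single (b,∅) μ)` modulo `XC t`); `len_iSup_le`, `len_cyclic_le`. -/
theorem hl_al0_le {K t : ℕ} (H : Hx n pp ξ ρ) (hsq : P.Sq (kk W n ξ K)) (h1 : P.One)
    (hK : t ≤ K) :
    hl (DD W n ξ P) (XC W ξ P (fun _ => al0 n) fun _ => 0)
      (XC W ξ P (fun _ => al0 n) fun _ => (t : ℤ)) n ≤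
      (n.factorial : ℕ) * cl (P.J ⊔ kk W n ξ t) := by
  classical
  obtain ⟨a₀, ha₀, hu⟩ := h1
  obtain ⟨hp, hL, hU, hS, hV⟩ := Acyc_slab H hsq hK
  set Bn := Bd (DD W n ξ P) (XC W ξ P (fun _ => al0 n) fun _ => 0)
    (XC W ξ P (fun _ => al0 n) fun _ => (t : ℤ)) n with hBn
  let e : Mon n → P.ι × V n → OO W n ξ := fun μ =>
    Acyc_emb P fun a => if a = a₀ then toO ξ (mon W μ) else 0
  have hXB : XC W ξ P (fun _ => al0 n) (fun _ => (t : ℤ)) n ≤ Bn := le_Bd _ _ _ _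
  have hsup : ∀ {g : P.ι → OO W n ξ} {R : P.ι × V n → Set (Mon n)},
      (∀ a, g a ∈ Om W ξ (R (a, fun _ => false))) → (∀ a, a ≠ a₀ → g a = 0) →
      Acyc_emb P g ∈ RC W ξ P R n := by
    intro g R h2 h3
    have := Acyc_emb_mem (k := 0) h2 fun a ha => h3 a fun h => ha (h ▸ ha₀)
    simpa using this
  have h1 : RC W ξ P (fun x => slabU (al0 n) 0 t (fun _ => false) x.2) n ≤
      (⨆ μ ∈ G0 n, Submodule.span B {e μ}) ⊔ Bn := by
    intro x hx
    have h2 := ((mem_PC P n).1 hx (a₀, fun _ => false)).1 (by rw [Acyc_tdeg, ha₀]; simp)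
    simp only [slabU_al0_bot, Om_union] at h2
    obtain ⟨l, hl, g, hg, he⟩ := Submodule.mem_sup.1 h2
    obtain ⟨β, hβ⟩ := Acyc_GG_coords hg
    have h3 : ∑ μ ∈ G0 n, β μ • e μ = Acyc_emb P fun a => if a = a₀ then g else 0 := by
      funext ⟨a, I⟩
      simp only [Finset.sum_apply, Pi.smul_apply, e, Acyc_emb]
      split_ifs <;> simp [hβ]
    rw [← add_sub_cancel (∑ μ ∈ G0 n, β μ • e μ) x]
    refine Submodule.add_mem_sup (Submodule.sum_mem _ fun μ hμ => Submodule.smul_mem _ _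
      (Submodule.mem_iSup_of_mem μ (Submodule.mem_iSup_of_mem hμ
        (Submodule.mem_span_singleton_self _)))) (hXB ?_)
    rw [h3]
    refine Acyc_mem_of (Submodule.sub_mem _ hx (hsup (fun a => ?_) fun a ha => by simp [ha]))
      fun ⟨a, I⟩ => ?_
    · split_ifs
      · exact Om_mono (by rw [slabU_al0_bot]; exact Set.subset_union_right) hg
      · exact Submodule.zero_mem _
    · have hc := (mem_PC P n).1 hx (a, I)
      by_cases hI : I = fun _ => false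
      · subst hI
        by_cases ha : a = a₀
        · subst ha
          simp only [Pi.sub_apply, Acyc_emb, if_true, ← he, add_sub_cancel_right, Acyc_cutR_bot]
          exact hl
        · have h4 : P.deg a ≠ 0 := fun h => ha (hu a h)
          rw [Acyc_tdeg] at hc
          simp [Acyc_emb, ha, hc.2 (by omega)]
      · simp only [Pi.sub_apply, Acyc_emb, hI, if_false, sub_zero]
        by_cases hd : tdeg P n (a, I) = n
        · have := hc.1 hd
          beta_reduce at this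
          rwa [slabU_al0_ne t hI] at this
        · rw [hc.2 hd]
          exact Submodule.zero_mem _
  have h2 : ∀ μ ∈ G0 n, len (Submodule.span B {e μ}) Bn ≤ cl (P.J ⊔ kk W n ξ t) := by
    intro μ hμ
    have hμG : toO ξ (mon W μ) ∈ Om W ξ (GG n) := Acyc_mon_mem (mem_G0.1 hμ).1
    have hite : ∀ (b a : P.ι), (if a = b then toO ξ (mon W μ) else 0) ∈ Om W ξ (GG n) := by
      intro b a
      split_ifs
      · exact hμG
      · exact Submodule.zero_mem _
    have he0 : e μ ∈ XC W ξ P (fun _ => al0 n) (fun _ => 0) n :=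
      hsup (fun a => Om_mono Acyc_GG_sub0 (hite a₀ a)) fun a ha => by simp [ha]
    rw [cl_eq_len]
    refine len_cyclic_le _ _ _ fun b hb => ?_
    have hle : P.J ⊔ kk W n ξ t ≤ Bn.comap (LinearMap.toSpanSingleton B _ (e μ)) := by
      refine sup_le (Ideal.span_le.2 ?_) fun r hr => ?_
      · rintro _ ⟨a, b, ha, rfl⟩
        obtain rfl := hu a ha
        show P.d a b • e μ ∈ Bn
        by_cases hd : P.d a b = 0
        · simp [hd]
        have hb1 : P.deg b = 1 := by rw [P.hd a b hd, ha]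
        have hy : Acyc_emb P (fun a' => if a' = b then toO ξ (mon W μ) else 0) ∈
            XC W ξ P (fun _ => al0 n) (fun _ => 0) ((n : ℤ) + 1) := by
          have := Acyc_emb_mem (P := P) (k := 1)
            (R := fun x => cutR (al0 n) 0 x.2) (fun a' => Om_mono Acyc_GG_sub0 (hite b a'))
            fun a' ha' => if_neg fun h : a' = b => ha' (by rw [h, hb1])
          rwa [Nat.cast_one, add_comm] at this
        refine mem_Bd.2 ⟨_, hy, Acyc_mem_of (Submodule.sub_mem _ (Submodule.smul_mem _ _ he0)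
          (hp.stU.succ hy)) fun ⟨a', I⟩ => ?_⟩
        by_cases hI : I = fun _ => false
        · subst hI
          rw [Pi.sub_apply, Acyc_D_bot]
          by_cases ha' : a' = a
          · subst ha'
            simp [e, Acyc_emb]
          · have h4 : P.d a' b = 0 := by
              by_contra h5
              have := P.hd a' b h5
              exact ha' (hu a' (by omega))
            simp [e, Acyc_emb, ha', h4]
        · rw [Pi.sub_apply]
          refine Submodule.sub_mem _ ?_ (Acyc_D_ne (hite b) _ a' hI)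
          simp [e, Acyc_emb, hI]
      · show r • e μ ∈ Bn
        refine hXB (Acyc_mem_of (Submodule.smul_mem _ _ he0) fun ⟨a', I⟩ => ?_)
        by_cases hI : I = fun _ => false
        · subst hI
          simp only [Pi.smul_apply, e, Acyc_emb, if_true]
          exact Om_mono (Acyc_GG_ge _)
            (smul_mem_Om (stab_GG n) (t := 0) (fun μ hμ => hμ.1) hr (hite a₀ a'))
        · simp [e, Acyc_emb, hI]
    exact hle hb
  calc _ ≤ len ((⨆ μ ∈ G0 n, Submodule.span B {e μ}) ⊔ Bn) Bn :=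
        len_mono ((Van.surj hp hL hU hS (hV n)).trans
          (sup_le ((inf_le_left : Zc _ _ _ _ ≤ _).trans h1) le_sup_right)) le_rfl
    _ = len (⨆ μ ∈ G0 n, Submodule.span B {e μ}) Bn := len_sup_left _ _
    _ ≤ ∑ μ ∈ G0 n, len (Submodule.span B {e μ}) Bn := len_iSup_le _ _ _
    _ ≤ ∑ _μ ∈ G0 n, cl (P.J ⊔ kk W n ξ t) := Finset.sum_le_sum h2
    _ = _ := by rw [Finset.sum_const, card_G0, nsmul_eq_mul]

end

end Crest.Agent.R183
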