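import Mathlib

/-! # R183 / Arith : the twists `r k ≈ q' * (critical points of ∏ (x - i))`. -/

set_option autoImplicit false
open Polynomial

namespace Crest.Agent.R183

/-- Rolle (`exists_deriv_eq_zero`) for `f = ∏_{i<n+1} (X - (i+1))` on `[k+1,k+2]`; `f'` has degree `n`,
leading coefficient `n+1` and the `n` distinct roots `c k`. -/
theorem exists_crit (n : ℕ) : ∃ c : Fin n → ℝ, (∀ k : Fin n, ((k : ℕ) : ℝ) + 1 < c k ∧
    c k < ((k : ℕ) : ℝ) + 2) ∧
    derivative (∏ i ∈ Finset.range (n + 1), (X - C ((i : ℝ) + 1))) =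
      C ((n : ℝ) + 1) * ∏ k, (X - C (c k)) := by
  set f : ℝ[X] := ∏ i ∈ Finset.range (n + 1), (X - C ((i : ℝ) + 1)) with hf
  have hroot : ∀ j : ℕ, j < n + 1 → f.eval ((j : ℝ) + 1) = 0 := by
    intro j hj
    rw [hf, eval_prod]
    exact Finset.prod_eq_zero (Finset.mem_range.2 hj) (by simp)
  have hex : ∀ k : Fin n, ∃ c : ℝ, (((k : ℕ) : ℝ) + 1 < c ∧ c < ((k : ℕ) : ℝ) + 2) ∧
      (derivative f).eval c = 0 := by
    intro k
    have h1 := hroot k (by omega)
    have h2 := hroot (k + 1) (by omega)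
    have h3 : ((k : ℕ) : ℝ) + 1 < ((k : ℕ) : ℝ) + 2 := by linarith
    obtain ⟨c, hc, hd⟩ := exists_deriv_eq_zero (f := fun x => f.eval x) h3
      f.continuous.continuousOn (by
        show f.eval _ = f.eval _
        rw [h1, ← h2]; congr 1; push_cast; ring)
    exact ⟨c, hc, by rwa [Polynomial.deriv] at hd⟩
  choose c hc hd using hex
  refine ⟨c, hc, ?_⟩
  have hinj : Function.Injective c := by
    intro a b hab
    have h1 := hc a
    have h2 := hc b
    have h3 : ((a : ℕ) : ℝ) < ((b : ℕ) : ℝ) + 1 := by linarith [h1.1, h2.2]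
    have h4 : ((b : ℕ) : ℝ) < ((a : ℕ) : ℝ) + 1 := by linarith [h1.2, h2.1]
    have h5 : (a : ℕ) < b + 1 := by exact_mod_cast h3
    have h6 : (b : ℕ) < a + 1 := by exact_mod_cast h4
    exact Fin.ext (by omega)
  have hfm : f.Monic := monic_prod_of_monic _ _ fun i _ => monic_X_sub_C _
  have hfd : f.natDegree = n + 1 := by
    rw [hf, natDegree_prod_of_monic _ _ fun i _ => monic_X_sub_C _]
    simp only [natDegree_X_sub_C, Finset.sum_const, Finset.card_range, smul_eq_mul, mul_one]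
  have hgm : (∏ k, (X - C (c k)) : ℝ[X]).Monic := monic_prod_of_monic _ _ fun i _ => monic_X_sub_C _
  have hgd : (∏ k, (X - C (c k)) : ℝ[X]).natDegree = n := by
    rw [natDegree_prod_of_monic _ _ fun i _ => monic_X_sub_C _]
    simp
  have hn0 : ((n : ℝ) + 1) ≠ 0 := by positivity
  refine Polynomial.eq_of_degree_sub_lt_of_eval_index_eq (s := Finset.univ) (v := c)
    hinj.injOn ?_ ?_
  · rw [Finset.card_univ, Fintype.card_fin, degree_lt_iff_coeff_zero]
    intro m hm
    rw [coeff_sub, coeff_derivative, coeff_C_mul]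
    rcases eq_or_lt_of_le hm with rfl | hm'
    · have e1 : f.coeff (n + 1) = 1 := by rw [← hfd]; exact hfm.coeff_natDegree
      have e2 : (∏ k, (X - C (c k)) : ℝ[X]).coeff n = 1 := by
        have := hgm.coeff_natDegree
        rwa [hgd] at this
      rw [e1, e2]; ring
    · rw [coeff_eq_zero_of_natDegree_lt (by omega), coeff_eq_zero_of_natDegree_lt (by omega)]
      ring
  · intro k _
    rw [hd k, eval_mul, eval_prod, Finset.prod_eq_zero (Finset.mem_univ k) (by simp), mul_zero]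

/-- `|∏ a - ∏ b| ≤ n * δ * M^(n-1)`-type estimate (we allow `M^n / M`: state with `M ≥ 1`). -/
theorem abs_prod_sub_prod_le {n : ℕ} (a b : Fin n → ℝ) (M δ : ℝ) (hM : 1 ≤ M)
    (ha : ∀ k, |a k| ≤ M) (hb : ∀ k, |b k| ≤ M) (h : ∀ k, |a k - b k| ≤ δ) :
    |∏ k, a k - ∏ k, b k| * M ≤ n * δ * M ^ n := by
  induction n with
  | zero => simp
  | succ n ih =>
    have h1 := ih (fun k => a k.succ) (fun k => b k.succ) (fun k => ha _) (fun k => hb _)
      (fun k => h _)
    have hδ : 0 ≤ δ := (abs_nonneg _).trans (h 0)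
    have hB : |∏ k : Fin n, b k.succ| ≤ M ^ n := by
      rw [Finset.abs_prod]
      calc ∏ k : Fin n, |b k.succ| ≤ ∏ _k : Fin n, M :=
            Finset.prod_le_prod (fun k _ => abs_nonneg _) fun k _ => hb _
        _ = M ^ n := by simp
    rw [Fin.prod_univ_succ, Fin.prod_univ_succ]
    set A := ∏ k : Fin n, a k.succ
    set B := ∏ k : Fin n, b k.succ
    have h2 : |a 0 * A - b 0 * B| ≤ M * |A - B| + δ * M ^ n := by
      calc |a 0 * A - b 0 * B| = |a 0 * (A - B) + (a 0 - b 0) * B| := by congr 1; ring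
        _ ≤ |a 0| * |A - B| + |a 0 - b 0| * |B| := by
            rw [← abs_mul, ← abs_mul]; exact abs_add_le _ _
        _ ≤ M * |A - B| + δ * M ^ n := by
            gcongr
            · exact ha 0
            · exact h 0
    have hM0 : 0 ≤ M := by linarith
    calc |a 0 * A - b 0 * B| * M ≤ (M * |A - B| + δ * M ^ n) * M := by gcongr
      _ = M * (|A - B| * M) + δ * M ^ (n + 1) := by ring
      _ ≤ M * (n * δ * M ^ n) + δ * M ^ (n + 1) := by gcongr
      _ = _ := by push_cast; ring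

/-- `r k = ⌈c k * q'⌉`.  `G x = (-1)^n q'^(n+1) f(x/q')/(n+1)` has `G' x = ∏ (c k q' - x)`,
`G (i q') - G 0 = n! q'^(n+1)`; mean value theorem on `[t-1,t]`, telescope over `t = 1..i q'`
(`v = -t`), and compare `∏ (r k - t)` with `∏ (c k q' - x_t)` by `abs_prod_sub_prod_le`
(`δ = 2`, `M = (n+3) q'`). -/
theorem exists_twist (n : ℕ) : ∃ Cst : ℝ, 0 ≤ Cst ∧ ∀ q' : ℕ, 1 ≤ q' → ∃ r : Fin n → ℤ,
    (∀ k : Fin n, (((k : ℕ) : ℤ) + 1) * q' ≤ r k ∧ r k ≤ (((k : ℕ) : ℤ) + 2) * q') ∧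
    ∀ i : ℕ, 1 ≤ i → i ≤ n + 1 →
      |∑ v ∈ Finset.Ico (-((i : ℤ) * q')) 0, ∏ k, ((r k + v : ℤ) : ℝ) -
        n.factorial * (q' : ℝ) ^ (n + 1)| ≤ Cst * (q' : ℝ) ^ n := by
  obtain ⟨c, hc, hder⟩ := exists_crit n
  set f : ℝ[X] := ∏ i ∈ Finset.range (n + 1), (X - C ((i : ℝ) + 1)) with hf
  refine ⟨2 * n * ((n : ℝ) + 3) ^ n, by positivity, fun q' hq' => ?_⟩
  have hq : (1 : ℝ) ≤ q' := by exact_mod_cast hq'
  have hq0 : (0 : ℝ) < q' := by linarith
  refine ⟨fun k => ⌈c k * q'⌉, fun k => ⟨?_, ?_⟩, fun i hi1 hi2 => ?_⟩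
  · have h1 : (((((k : ℕ) : ℤ) + 1) * q' : ℤ) : ℝ) ≤ c k * q' := by
      push_cast
      exact mul_le_mul_of_nonneg_right (hc k).1.le hq0.le
    have h2 := h1.trans (Int.le_ceil _)
    exact_mod_cast h2
  · rw [Int.ceil_le]
    push_cast
    exact mul_le_mul_of_nonneg_right (hc k).2.le hq0.le
  set G : ℝ → ℝ := fun x => (-1) ^ n * (q' : ℝ) ^ (n + 1) / (n + 1) * f.eval (x / q') with hG
  have hn0 : ((n : ℝ) + 1) ≠ 0 := by positivity
  have hGd : ∀ x, HasDerivAt G (∏ k, (c k * q' - x)) x := by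
    intro x
    have h1 : HasDerivAt (fun x : ℝ => x / q') (1 / q') x := (hasDerivAt_id x).div_const _
    have h2 := ((f.hasDerivAt (x / q')).comp x h1).const_mul
      ((-1) ^ n * (q' : ℝ) ^ (n + 1) / (n + 1))
    refine HasDerivAt.congr_deriv h2 (Eq.symm ?_)
    rw [hder, eval_mul, eval_C, eval_prod]
    simp only [eval_sub, eval_X, eval_C]
    have h3 : ∀ k, c k * q' - x = (-(q' : ℝ)) * (x / q' - c k) := by
      intro k
      field_simp
      ring
    simp only [h3, Finset.prod_mul_distrib, Finset.prod_const, Finset.card_univ, Fintype.card_fin]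
    rw [neg_pow]
    field_simp
    ring
  have hG1 : G ((i * q' : ℕ) : ℝ) = 0 := by
    simp only [hG]
    have : (((i * q' : ℕ) : ℝ)) / q' = i := by
      push_cast
      field_simp
    rw [this, hf, eval_prod,
      Finset.prod_eq_zero (i := i - 1) (Finset.mem_range.2 (by omega)) ?_, mul_zero]
    rw [Nat.cast_sub hi1]
    simp
  have hG0 : G ((0 : ℕ) : ℝ) = -(n.factorial * (q' : ℝ) ^ (n + 1)) := by
    simp only [hG, Nat.cast_zero, zero_div]
    rw [hf, eval_prod]
    simp only [eval_sub, eval_X, eval_C, zero_sub]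
    have h1 : ∏ j ∈ Finset.range (n + 1), -((j : ℝ) + 1) =
        (-1) ^ (n + 1) * ((n + 1).factorial : ℝ) := by
      rw [← Finset.prod_range_add_one_eq_factorial]
      push_cast
      rw [Finset.prod_neg, Finset.card_range]
    rw [h1, Nat.factorial_succ]
    push_cast
    have h2 : ((-1 : ℝ) ^ n) * (-1) ^ n = 1 := by rw [← mul_pow]; simp
    field_simp
    linear_combination (-1 : ℝ) * h2
  set N := i * q' with hN
  have hsum : ∑ v ∈ Finset.Ico (-((i : ℤ) * q')) 0, ∏ k, ((⌈c k * q'⌉ + v : ℤ) : ℝ) =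
      ∑ t ∈ Finset.range N, ∏ k, ((⌈c k * q'⌉ : ℝ) - ((t : ℝ) + 1)) := by
    symm
    refine Finset.sum_bij' (fun t _ => -((t : ℤ) + 1)) (fun v _ => (-v - 1).toNat) ?_ ?_ ?_ ?_ ?_
    · intro t ht
      rw [Finset.mem_range] at ht
      have : ((t : ℤ)) < (i : ℤ) * q' := by exact_mod_cast ht
      rw [Finset.mem_Ico]
      omega
    · intro v hv
      rw [Finset.mem_Ico] at hv
      rw [Finset.mem_range]
      have : ((N : ℕ) : ℤ) = (i : ℤ) * q' := by rw [hN]; push_cast; ring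
      omega
    · intro t _
      simp
    · intro v hv
      rw [Finset.mem_Ico] at hv
      show -((((-v - 1).toNat : ℕ) : ℤ) + 1) = v
      omega
    · intro t _
      refine Finset.prod_congr rfl fun k _ => ?_
      push_cast
      ring
  have htel : (n.factorial * (q' : ℝ) ^ (n + 1)) =
      ∑ t ∈ Finset.range N, (G ((t + 1 : ℕ) : ℝ) - G (t : ℝ)) := by
    rw [Finset.sum_range_sub (fun t : ℕ => G (t : ℝ)) N, hG1, hG0]
    ring
  rw [hsum, htel, ← Finset.sum_sub_distrib]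
  set M : ℝ := ((n : ℝ) + 3) * q' with hM
  have hn : (0 : ℝ) ≤ n := Nat.cast_nonneg n
  have hM1 : 1 ≤ M := by nlinarith
  have hNM : (N : ℝ) ≤ ((n : ℝ) + 1) * q' := by
    rw [hN]
    push_cast
    have : (i : ℝ) ≤ (n : ℝ) + 1 := by exact_mod_cast hi2
    gcongr
  have hterm : ∀ t ∈ Finset.range N,
      |∏ k, ((⌈c k * q'⌉ : ℝ) - ((t : ℝ) + 1)) - (G ((t + 1 : ℕ) : ℝ) - G (t : ℝ))| ≤
        n * 2 * M ^ n / M := by
    intro t ht
    rw [Finset.mem_range] at ht
    have ht' : (t : ℝ) + 1 ≤ N := by exact_mod_cast ht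
    have ht0 : (0 : ℝ) ≤ t := Nat.cast_nonneg t
    obtain ⟨x, hx, hxe⟩ := exists_hasDerivAt_eq_slope G (fun x => ∏ k, (c k * q' - x))
      (a := (t : ℝ)) (b := (t : ℝ) + 1) (by linarith)
      (fun x _ => (hGd x).continuousAt.continuousWithinAt) (fun x _ => hGd x)
    rw [add_sub_cancel_left, div_one] at hxe
    push_cast
    rw [← hxe, le_div_iff₀ (by linarith)]
    have hb : ∀ k, 0 ≤ c k * q' ∧ c k * q' ≤ ((n : ℝ) + 1) * q' := by
      intro k
      have h1 := hc k
      have h2 : ((k : ℕ) : ℝ) + 1 ≤ n := by exact_mod_cast k.2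
      have h3 : (0 : ℝ) ≤ ((k : ℕ) : ℝ) := Nat.cast_nonneg _
      exact ⟨mul_nonneg (by linarith [h1.1]) hq0.le,
        mul_le_mul_of_nonneg_right (by linarith [h1.2]) hq0.le⟩
    refine abs_prod_sub_prod_le _ _ M 2 hM1 (fun k => ?_) (fun k => ?_) (fun k => ?_)
    · have h1 := Int.le_ceil (c k * q')
      have h2 := Int.ceil_lt_add_one (c k * q')
      have h3 := hb k
      rw [abs_le]
      constructor <;> nlinarith [h3.1, h3.2]
    · have h3 := hb k
      rw [abs_le]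
      constructor <;> nlinarith [h3.1, h3.2, hx.1, hx.2]
    · have h1 := Int.le_ceil (c k * q')
      have h2 := Int.ceil_lt_add_one (c k * q')
      rw [abs_le]
      constructor <;> linarith [hx.1, hx.2]
  refine (Finset.abs_sum_le_sum_abs _ _).trans ((Finset.sum_le_sum hterm).trans ?_)
  rw [Finset.sum_const, Finset.card_range, nsmul_eq_mul]
  have hM0 : 0 < M := by linarith
  have hNM' : (N : ℝ) ≤ M := by nlinarith
  calc (N : ℝ) * (n * 2 * M ^ n / M) ≤ M * (n * 2 * M ^ n / M) := by gcongr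
    _ = n * 2 * M ^ n := by field_simp
    _ = _ := by rw [hM, mul_pow]; ring

end Crest.Agent.R183
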