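import Crest.Agent.R183.Theta

/-! # R183 / Canc : cancelling `g` modulo `(ξ) + 𝔫^K`, and the `κ`-bounds for a root `γ` of `g`. -/

set_option autoImplicit false

namespace Crest.Agent.R183

section
variable {W : Type} [CommRing W] {n : ℕ}

/-- polynomials all of whose monomials have weight `≥ t` -/
def wI (W : Type) [CommRing W] {n : ℕ} (w : Fin (n + 1) → ℕ) (t : ℕ) : Ideal (Pz W n) where
  carrier := {f | ∀ μ ∈ f.support, t ≤ Finsupp.weight w μ}
  add_mem' := by
    intro a b ha hb μ hμ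
    rcases Finset.mem_union.1 (MvPolynomial.support_add hμ) with h | h
    exacts [ha μ h, hb μ h]
  zero_mem' := by simp
  smul_mem' := by
    intro r f hf μ hμ
    obtain ⟨ν, -, ν', h', rfl⟩ := Finset.mem_add.1 (MvPolynomial.support_mul _ _ hμ)
    rw [map_add]
    exact (hf ν' h').trans (Nat.le_add_left _ _)

theorem canca_mem_wI {w : Fin (n + 1) → ℕ} {t : ℕ} {f : Pz W n} :
    f ∈ wI W w t ↔ ∀ μ, Finsupp.weight w μ < t → f.coeff μ = 0 := by
  constructor
  · intro h μ hμ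
    by_contra h0
    exact absurd (h μ (MvPolynomial.mem_support_iff.2 h0)) (not_le.2 hμ)
  · intro h μ hμ
    by_contra h0
    exact MvPolynomial.mem_support_iff.1 hμ (h μ (not_le.1 h0))

theorem canca_mul_mem {w : Fin (n + 1) → ℕ} {s t : ℕ} {f g : Pz W n} (hf : f ∈ wI W w s)
    (hg : g ∈ wI W w t) : f * g ∈ wI W w (s + t) := by
  intro μ hμ
  obtain ⟨ν, h, ν', h', rfl⟩ := Finset.mem_add.1 (MvPolynomial.support_mul _ _ hμ)
  rw [map_add]
  exact add_le_add (hf ν h) (hg ν' h')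

theorem canca_anti {w : Fin (n + 1) → ℕ} {s t : ℕ} (h : s ≤ t) {f : Pz W n} (hf : f ∈ wI W w t) :
    f ∈ wI W w s := fun μ hμ => h.trans (hf μ hμ)

theorem canca_map_mem {W' : Type} [CommRing W'] (φ : W →+* W') {w : Fin (n + 1) → ℕ} {t : ℕ}
    {f : Pz W n} (hf : f ∈ wI W w t) : MvPolynomial.map φ f ∈ wI W' w t :=
  fun μ hμ => hf μ (MvPolynomial.support_map_subset φ f hμ)

theorem canca_lift {w : Fin (n + 1) → ℕ} {t : ℕ} (pp : W) {x : Pz W n}
    (hx : MvPolynomial.map (Ideal.Quotient.mk (Ideal.span {pp})) x ∈ wI _ w t) :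
    ∃ x₂ : Pz W n, x - MvPolynomial.C pp * x₂ ∈ wI W w t := by
  classical
  have h1 : ∀ μ : Fin (n + 1) →₀ ℕ, ∃ c : W, Finsupp.weight w μ < t → x.coeff μ = pp * c := by
    intro μ
    by_cases hμ : Finsupp.weight w μ < t
    · have h2 := canca_mem_wI.1 hx μ hμ
      rw [MvPolynomial.coeff_map, Ideal.Quotient.eq_zero_iff_mem, Ideal.mem_span_singleton] at h2
      obtain ⟨c, hc⟩ := h2
      exact ⟨c, fun _ => hc⟩
    · exact ⟨0, fun h => absurd h hμ⟩
  choose c hc using h1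
  refine ⟨∑ μ ∈ x.support, MvPolynomial.monomial μ (c μ), canca_mem_wI.2 fun μ hμ => ?_⟩
  rw [MvPolynomial.coeff_sub, MvPolynomial.coeff_C_mul, MvPolynomial.coeff_sum]
  simp only [MvPolynomial.coeff_monomial, Finset.sum_ite_eq']
  split_ifs with h
  · rw [hc μ hμ, sub_self]
  · rw [MvPolynomial.notMem_support_iff.1 h, mul_zero, sub_self]

/-- if `f ∉ wI t` take `μ ∈ f.support` of minimal weight; `coeff (μ + μ₀) (g f) = coeff μ f`. -/
theorem wI_cancel (w : Fin (n + 1) → ℕ) {g f : Pz W n} (μ₀ : Fin (n + 1) →₀ ℕ) {t : ℕ}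
    (hg : g - MvPolynomial.monomial μ₀ 1 ∈ wI W w (Finsupp.weight w μ₀ + 1))
    (h : g * f ∈ wI W w (t + Finsupp.weight w μ₀)) : f ∈ wI W w t := by
  by_contra hf
  have hf' : ∃ ν ∈ f.support, Finsupp.weight w ν < t := by
    by_contra h0
    exact hf fun ν hν => not_lt.1 fun h1 => h0 ⟨ν, hν, h1⟩
  obtain ⟨ν, hν, hνt⟩ := hf'
  obtain ⟨μ, hμ, hmin⟩ := Finset.exists_min_image f.support (Finsupp.weight w) ⟨ν, hν⟩
  have hμt : Finsupp.weight w μ < t := (hmin ν hν).trans_lt hνt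
  have h1 := canca_mem_wI.1 (canca_mul_mem hg (show f ∈ wI W w (Finsupp.weight w μ) from hmin))
    (μ₀ + μ) (by rw [map_add]; omega)
  have h2 := canca_mem_wI.1 h (μ₀ + μ) (by rw [map_add]; omega)
  rw [sub_mul, MvPolynomial.coeff_sub, h2, MvPolynomial.coeff_monomial_mul, one_mul, zero_sub,
    neg_eq_zero] at h1
  exact MvPolynomial.mem_support_iff.1 hμ h1

/-- `pp f = a + g x`; reduce mod `pp` (`MvPolynomial.map (Ideal.Quotient.mk _)`), `wI_cancel` over
`W/pp` gives `x = x₁ + pp x₂` with `x₁ ∈ wI (K - weight μ₀)`, then `pp (f - g x₂) ∈ wI K`. -/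
theorem wI_sat (w : Fin (n + 1) → ℕ) {pp : W} (hp : ∀ x : W, pp * x = 0 → x = 0) {g f : Pz W n}
    (μ₀ : Fin (n + 1) →₀ ℕ) {K : ℕ}
    (hg : g - MvPolynomial.monomial μ₀ 1 ∈ wI W w (Finsupp.weight w μ₀ + 1))
    (h : MvPolynomial.C pp * f ∈ wI W w K ⊔ Ideal.span {g}) : f ∈ wI W w K ⊔ Ideal.span {g} := by
  obtain ⟨a, ha, b, hb, e⟩ := Submodule.mem_sup.1 h
  obtain ⟨x, rfl⟩ := Ideal.mem_span_singleton'.1 hb
  set φ := Ideal.Quotient.mk (Ideal.span {pp}) with hφ
  have hg0 : g ∈ wI W w (Finsupp.weight w μ₀) := by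
    rw [← sub_add_cancel g (MvPolynomial.monomial μ₀ 1)]
    refine add_mem (canca_anti (Nat.le_succ _) hg) fun μ hμ => ?_
    rw [Finset.mem_singleton.1 (MvPolynomial.support_monomial_subset hμ)]
  have hx : MvPolynomial.map φ x ∈ wI _ w (K - Finsupp.weight w μ₀) := by
    rcases le_or_gt K (Finsupp.weight w μ₀) with hK | hK
    · rw [Nat.sub_eq_zero_of_le hK]
      exact fun _ _ => Nat.zero_le _
    refine wI_cancel w (g := MvPolynomial.map φ g) μ₀ ?_ ?_
    · have := canca_map_mem φ hg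
      rwa [map_sub, MvPolynomial.map_monomial, map_one] at this
    · rw [Nat.sub_add_cancel hK.le]
      have e2 := congrArg (MvPolynomial.map φ) e
      have hpp : φ pp = 0 := Ideal.Quotient.eq_zero_iff_mem.2 (Ideal.mem_span_singleton_self pp)
      rw [map_add, map_mul, map_mul, MvPolynomial.map_C, hpp, map_zero, zero_mul] at e2
      have e3 : MvPolynomial.map φ g * MvPolynomial.map φ x = -MvPolynomial.map φ a := by
        linear_combination e2
      rw [e3]
      exact neg_mem (canca_map_mem φ ha)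
  obtain ⟨x₂, hx₂⟩ := canca_lift pp hx
  have h1 : MvPolynomial.C pp * (f - x₂ * g) ∈ wI W w K := by
    have e2 : MvPolynomial.C pp * (f - x₂ * g) = a + g * (x - MvPolynomial.C pp * x₂) := by
      linear_combination -e
    rw [e2]
    exact add_mem ha (canca_anti (by omega) (canca_mul_mem hg0 hx₂))
  have h2 : f - x₂ * g ∈ wI W w K := canca_mem_wI.2 fun μ hμ => hp _ (by
    rw [← MvPolynomial.coeff_C_mul]
    exact canca_mem_wI.1 h1 μ hμ)
  rw [← sub_add_cancel f (x₂ * g)]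
  exact Submodule.add_mem_sup h2 (Ideal.mul_mem_left _ _ (Ideal.mem_span_singleton_self g))

theorem XI_pow_le_wI {w : Fin (n + 1) → ℕ} (hw : ∀ i, 1 ≤ w i) (K : ℕ) : XI W n ^ K ≤ wI W w K := by
  intro f hf μ hμ
  refine ((MvPolynomial.mem_pow_idealOfVars_iff K f).1 hf μ hμ).trans ?_
  rw [Finsupp.degree_apply, Finsupp.weight_apply, Finsupp.sum]
  exact Finset.sum_le_sum fun i _ => Nat.le_mul_of_pos_right _ (hw i)

theorem wI_le_XI_pow {w : Fin (n + 1) → ℕ} {c : ℕ} (hc : 1 ≤ c) (hw : ∀ i, w i ≤ c) (K : ℕ) :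
    wI W w (c * K) ≤ XI W n ^ K := by
  intro f hf
  refine (MvPolynomial.mem_pow_idealOfVars_iff K f).2 fun μ hμ => ?_
  refine Nat.le_of_mul_le_mul_left ((hf μ hμ).trans ?_) hc
  rw [Finsupp.degree_apply, Finsupp.weight_apply, Finsupp.sum, Finset.mul_sum]
  refine Finset.sum_le_sum fun i _ => ?_
  rw [smul_eq_mul, mul_comm]
  exact Nat.mul_le_mul_right _ (hw i)

variable {B : Type} [CommRing B] [Algebra (Pz W n) B] {pp : W} {ξ : B} {ρ : ℕ}

theorem canca_mem_map_iff {P : Type} [CommRing P] {B : Type} [CommRing B] [Algebra P B]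
    {κ : Type} (e : Module.Basis κ P B) (I : Ideal P) (b : B) :
    b ∈ I.map (algebraMap P B) ↔ ∀ j, e.repr b j ∈ I := by
  constructor
  · intro hb
    have h1 : b ∈ I • (⊤ : Submodule P B) := by
      rw [Ideal.smul_top_eq_map]
      exact hb
    refine Submodule.smul_induction_on (p := fun b => ∀ j, e.repr b j ∈ I) h1 ?_ ?_
    · intro r hr m _ j
      rw [map_smul, Finsupp.smul_apply, smul_eq_mul]
      exact I.mul_mem_right _ hr
    · intro x y hx hy j
      rw [map_add, Finsupp.add_apply]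
      exact add_mem (hx j) (hy j)
  · intro h
    rw [← e.linearCombination_repr b, Finsupp.linearCombination_apply]
    refine Ideal.sum_mem _ fun j _ => ?_
    show e.repr b j • e j ∈ _
    rw [Algebra.smul_def]
    exact Ideal.mul_mem_right _ _ (Ideal.mem_map_of_mem _ (h j))

/-- coordinates in a basis (`b ∈ I.map ↔ all coordinates in I`).  `g y = ξ x + a`: as in `xi_reg`,
`pp^r x ≡ ν^r x ≡ 0` modulo `(I ⊔ (g)) B`, so `x = a' + g x'` by `h2`, and `g (y - ξ x') ∈ I B`. -/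
theorem cancel_abs (H : Hx n pp ξ ρ) (I I' : Ideal (Pz W n)) (g : Pz W n) {t : ℕ}
    (hI : XI W n ^ t ≤ I) (h1 : ∀ f, g * f ∈ I → f ∈ I')
    (h2 : ∀ f, MvPolynomial.C pp * f ∈ I ⊔ Ideal.span {g} → f ∈ I ⊔ Ideal.span {g}) (y : B)
    (hy : algebraMap (Pz W n) B g * y ∈ Ideal.span {ξ} ⊔ I.map (algebraMap (Pz W n) B)) :
    y ∈ Ideal.span {ξ} ⊔ I'.map (algebraMap (Pz W n) B) := by
  classical
  have := H.free
  let e := Module.Free.chooseBasis (Pz W n) B
  obtain ⟨b, hb, a, ha, e1⟩ := Submodule.mem_sup.1 hy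
  obtain ⟨x, rfl⟩ := Ideal.mem_span_singleton'.1 hb
  set J := (I ⊔ Ideal.span {g}).map (algebraMap (Pz W n) B) with hJ
  have hIJ : I.map (algebraMap (Pz W n) B) ≤ J := Ideal.map_mono le_sup_left
  have hgJ : algebraMap (Pz W n) B g ∈ J :=
    Ideal.mem_map_of_mem _ (Ideal.mem_sup_right (Ideal.mem_span_singleton_self g))
  have hξx : ξ * x ∈ J := by
    have e2 : ξ * x = algebraMap (Pz W n) B g * y - a := by linear_combination e1
    rw [e2]
    exact sub_mem (J.mul_mem_right _ hgJ) (hIJ ha)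
  set π := algebraMap (Pz W n) B (MvPolynomial.C pp) with hπ
  have hν : (π - ξ) ^ t ∈ J := by
    refine hIJ (Ideal.map_mono hI ?_)
    rw [Ideal.map_pow]
    have h3 := H.xi
    rw [nn_eq_map] at h3
    exact Ideal.pow_mem_pow h3 t
  have hπx : π ^ t * x ∈ J := by
    obtain ⟨d, hd⟩ := sub_dvd_pow_sub_pow π (π - ξ) t
    have e2 : π ^ t * x = (π - ξ) ^ t * x + d * (ξ * x) := by linear_combination x * hd
    rw [e2]
    exact add_mem (J.mul_mem_right _ hν) (J.mul_mem_left _ hξx)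
  have h2' : ∀ (r : ℕ) (f : Pz W n), MvPolynomial.C pp ^ r * f ∈ I ⊔ Ideal.span {g} →
      f ∈ I ⊔ Ideal.span {g} := by
    intro r
    induction r with
    | zero => intro f hf; rwa [pow_zero, one_mul] at hf
    | succ r ih =>
      intro f hf
      rw [pow_succ, mul_assoc] at hf
      exact h2 f (ih _ hf)
  have hxJ : x ∈ J := by
    rw [hπ, ← map_pow, ← Algebra.smul_def] at hπx
    refine (canca_mem_map_iff e _ x).2 fun j => h2' t _ ?_
    have := (canca_mem_map_iff e _ _).1 hπx j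
    rwa [map_smul, Finsupp.smul_apply, smul_eq_mul] at this
  rw [hJ, Ideal.map_sup, Ideal.map_span, Set.image_singleton] at hxJ
  obtain ⟨a', ha', b', hb', e2⟩ := Submodule.mem_sup.1 hxJ
  obtain ⟨x', rfl⟩ := Ideal.mem_span_singleton'.1 hb'
  have h3 : g • (y - x' * ξ) ∈ I.map (algebraMap (Pz W n) B) := by
    have e3 : g • (y - x' * ξ) = a' * ξ + a := by
      rw [Algebra.smul_def]
      linear_combination -e1 - ξ * e2
    rw [e3]
    exact add_mem (Ideal.mul_mem_right _ _ ha') ha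
  have h4 : y - x' * ξ ∈ I'.map (algebraMap (Pz W n) B) := by
    refine (canca_mem_map_iff e _ _).2 fun j => h1 _ ?_
    have := (canca_mem_map_iff e _ _).1 h3 j
    rwa [map_smul, Finsupp.smul_apply, smul_eq_mul] at this
  rw [← add_sub_cancel (x' * ξ) y]
  exact Submodule.add_mem_sup (Ideal.mul_mem_left _ _ (Ideal.mem_span_singleton_self ξ)) h4

theorem cancb_wI_anti (w : Fin (n + 1) → ℕ) {s t : ℕ} (h : s ≤ t) : wI W w t ≤ wI W w s :=
  fun _ hf μ hμ => h.trans (hf μ hμ)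

theorem cancb_X_pow_mem (w : Fin (n + 1) → ℕ) (i : Fin (n + 1)) {q t : ℕ} (h : t ≤ q * w i) :
    (MvPolynomial.X i : Pz W n) ^ q ∈ wI W w t := by
  intro μ hμ
  rw [MvPolynomial.X_pow_eq_monomial] at hμ
  rw [Finset.mem_singleton.1 (MvPolynomial.support_monomial_subset hμ), Finsupp.weight_single]
  exact h

theorem cancb_nn_pow (t : ℕ) : nn W n B ^ t = (XI W n ^ t).map (algebraMap (Pz W n) B) := by
  rw [nn_eq_map, Ideal.map_pow]
  rfl

theorem cancb_zp : zp W n B =
    (Ideal.span (Set.range fun i : Fin n => (MvPolynomial.X i.succ : Pz W n))).map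
      (algebraMap (Pz W n) B) := by
  rw [Ideal.map_span, ← Set.range_comp]
  rfl

theorem cancb_zp_le : zp W n B ≤ nn W n B :=
  Ideal.span_mono (by rintro _ ⟨i, rfl⟩; exact ⟨i.succ, rfl⟩)

/-- weights `w 0 = 1`, `w (succ i) = o + 1`. -/
theorem cancel (H : Hx n pp ξ ρ) {g : Pz W n} {o q K K' : ℕ} (hq : 1 ≤ q)
    (hg : g - MvPolynomial.X 0 ^ (o * q) ∈
      Ideal.span (Set.range fun i : Fin n => (MvPolynomial.X i.succ : Pz W n) ^ q))
    (hK : (o + 1) * K' + o * q ≤ K) (y : B) (hy : algebraMap (Pz W n) B g * y ∈ kk W n ξ K) :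
    y ∈ kk W n ξ K' := by
  let w : Fin (n + 1) → ℕ := Fin.cons 1 fun _ => o + 1
  have hw1 : ∀ i, 1 ≤ w i := fun i => Fin.cases le_rfl (fun _ => Nat.le_add_left 1 o) i
  have hw2 : ∀ i, w i ≤ o + 1 := fun i => Fin.cases (Nat.le_add_left 1 o) (fun _ => le_rfl) i
  have hμ : Finsupp.weight w (Finsupp.single 0 (o * q)) = o * q := by
    rw [Finsupp.weight_single]
    exact mul_one _
  have hg' : g - MvPolynomial.monomial (Finsupp.single 0 (o * q)) 1 ∈
      wI W w (Finsupp.weight w (Finsupp.single 0 (o * q)) + 1) := by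
    rw [← MvPolynomial.X_pow_eq_monomial, hμ]
    refine (Ideal.span_le.2 ?_ : _ ≤ wI W w (o * q + 1)) hg
    rintro _ ⟨i, rfl⟩
    refine cancb_X_pow_mem w _ ?_
    show o * q + 1 ≤ q * (o + 1)
    nlinarith
  have h := cancel_abs H (wI W w K) (wI W w (K - o * q)) g (XI_pow_le_wI hw1 K)
    (fun f hf => wI_cancel w _ hg' (by rwa [hμ, Nat.sub_add_cancel (by omega)]))
    (fun f hf => wI_sat w H.reg _ hg' hf) y (by
      refine (sup_le_sup_left ?_ _ : kk W n ξ K ≤ _) hy
      rw [cancb_nn_pow]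
      exact Ideal.map_mono (XI_pow_le_wI hw1 K))
  refine (sup_le_sup_left ?_ _ : _ ≤ kk W n ξ K') h
  rw [cancb_nn_pow]
  exact Ideal.map_mono ((cancb_wI_anti w (by omega)).trans
    (wI_le_XI_pow (Nat.le_add_left 1 o) hw2 K'))

/-- weights `w 0 = 1`, `w (succ i) = K`, for which `wI s = (X)^s ⊔ (X')` whenever `s ≤ K`. -/
theorem line_cancel (H : Hx n pp ξ ρ) {K j : ℕ} (x : B)
    (hx : zB W n B 0 ^ j * x ∈ kk W n ξ K ⊔ zp W n B) : x ∈ kk W n ξ (K - j) ⊔ zp W n B := by
  rcases le_or_gt K j with hj | hj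
  · rw [Nat.sub_eq_zero_of_le hj]
    refine Ideal.mem_sup_left (Ideal.mem_sup_right ?_)
    rw [pow_zero, Ideal.one_eq_top]
    trivial
  let w : Fin (n + 1) → ℕ := Fin.cons 1 fun _ => K
  have hw1 : ∀ i, 1 ≤ w i := fun i => Fin.cases le_rfl (fun _ => (by omega : 1 ≤ K)) i
  have hμ : Finsupp.weight w (Finsupp.single 0 j) = j := by
    rw [Finsupp.weight_single]
    exact mul_one _
  have hg' : (MvPolynomial.X 0 : Pz W n) ^ j - MvPolynomial.monomial (Finsupp.single 0 j) 1 ∈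
      wI W w (Finsupp.weight w (Finsupp.single 0 j) + 1) := by
    rw [← MvPolynomial.X_pow_eq_monomial, sub_self]
    exact zero_mem _
  have h := cancel_abs H (wI W w K) (wI W w (K - j)) (MvPolynomial.X 0 ^ j) (XI_pow_le_wI hw1 K)
    (fun f hf => wI_cancel w _ hg' (by rwa [hμ, Nat.sub_add_cancel hj.le]))
    (fun f hf => wI_sat w H.reg _ hg' hf) x (by
      rw [map_pow]
      refine (sup_le (sup_le_sup_left ?_ _) (le_sup_of_le_right ?_) :
        kk W n ξ K ⊔ zp W n B ≤ _) hx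
      · rw [cancb_nn_pow]
        exact Ideal.map_mono (XI_pow_le_wI hw1 K)
      · rw [cancb_zp]
        refine Ideal.map_mono (Ideal.span_le.2 ?_)
        rintro _ ⟨i, rfl⟩
        have := cancb_X_pow_mem (W := W) w i.succ (q := 1) (t := K) (one_mul K).ge
        rwa [pow_one] at this)
  have h2 : wI W w (K - j) ≤ XI W n ^ (K - j) ⊔
      Ideal.span (Set.range fun i : Fin n => (MvPolynomial.X i.succ : Pz W n)) := by
    intro f hf
    rw [f.as_sum]
    refine Ideal.sum_mem _ fun μ hμ => ?_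
    by_cases h0 : ∀ i : Fin n, μ i.succ = 0
    · have e : μ = Finsupp.single 0 (μ 0) := by
        ext i
        refine Fin.cases (by simp) (fun i => ?_) i
        rw [h0, Finsupp.single_eq_of_ne (Fin.succ_ne_zero i)]
      have h3 := hf μ hμ
      rw [e, Finsupp.weight_single] at h3
      replace h3 : K - j ≤ μ 0 := h3.trans (mul_one _).le
      rw [e, ← MvPolynomial.C_mul_X_pow_eq_monomial]
      exact Ideal.mem_sup_left (Ideal.mul_mem_left _ _ (Ideal.pow_le_pow_right h3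
        (Ideal.pow_mem_pow (Ideal.subset_span (Set.mem_range_self 0)) _)))
    · obtain ⟨i, hi⟩ := not_forall.1 h0
      obtain ⟨c, hc⟩ := (MvPolynomial.X_dvd_monomial (r := f.coeff μ)).2 (Or.inr hi)
      rw [hc]
      exact Ideal.mem_sup_right (Ideal.mul_mem_right _ _ (Ideal.subset_span ⟨i, rfl⟩))
  refine (sup_le (le_sup_of_le_left le_sup_left) ((Ideal.map_mono h2).trans ?_) :
    _ ≤ kk W n ξ (K - j) ⊔ zp W n B) h
  rw [Ideal.map_sup, ← cancb_nn_pow, ← cancb_zp]
  exact sup_le_sup_right le_sup_right _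

/-- `kap_pow_le`, `kap_top_ideal`. -/
theorem cl_sup_pow_le {A : Type*} [CommRing A] (I : Ideal A) (γ : A) (m : ℕ) :
    cl (I ⊔ Ideal.span {γ ^ m}) ≤ m * cl (I ⊔ Ideal.span {γ}) := by
  rw [cl_eq_len, cl_eq_len, ← kap_top_ideal, ← kap_top_ideal]
  exact kap_pow_le γ m ⊤ I

/-- `I = kk K ⊔ zp`.  `cl (I + γ^q) = cl (I + z₀^(oq)) ≤ o q ρ` (`cl_sup_pow_le`), and
`cl (I + γ^(j+1)) = cl (I + γ^j) + cl ((I : γ^j) + γ)` with
`(I : γ^j) ≤ (I : z₀^(oq)) ≤ kk r ⊔ zp` (`line_cancel`); cancel `q`. -/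
theorem line_le (H : Hx n pp ξ ρ) {g : Pz W n} {γ : B} {o q K r : ℕ} (hq : 1 ≤ q)
    (hg : g - MvPolynomial.X 0 ^ (o * q) ∈
      Ideal.span (Set.range fun i : Fin n => (MvPolynomial.X i.succ : Pz W n) ^ q))
    (hγ : γ ^ q - algebraMap (Pz W n) B g ∈ kk W n ξ K) (hK : r + o * q ≤ K) :
    cl (kk W n ξ r ⊔ zp W n B ⊔ Ideal.span {γ}) ≤ (o * ρ : ℕ) := by
  set I := kk W n ξ K ⊔ zp W n B with hI
  set c := cl (kk W n ξ r ⊔ zp W n B ⊔ Ideal.span {γ}) with hc
  have h1 : γ ^ q - zB W n B 0 ^ (o * q) ∈ I := by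
    have h2 : algebraMap (Pz W n) B g - zB W n B 0 ^ (o * q) ∈ zp W n B := by
      have h3 : Ideal.span (Set.range fun i : Fin n => (MvPolynomial.X i.succ : Pz W n) ^ q) ≤
          Ideal.span (Set.range fun i : Fin n => (MvPolynomial.X i.succ : Pz W n)) := by
        refine Ideal.span_le.2 ?_
        rintro _ ⟨i, rfl⟩
        exact Ideal.pow_mem_of_mem _ (Ideal.subset_span (Set.mem_range_self i)) _ hq
      have h4 := Ideal.mem_map_of_mem (algebraMap (Pz W n) B) (h3 hg)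
      rwa [← cancb_zp, map_sub, map_pow] at h4
    rw [← sub_add_sub_cancel _ (algebraMap (Pz W n) B g)]
    exact Submodule.add_mem_sup hγ h2
  have h2 : ∀ j, j ≤ q → j * c ≤ cl (I ⊔ Ideal.span {γ ^ j}) := by
    intro j
    induction j with
    | zero => intro _; simp
    | succ j ih =>
      intro hj
      rw [cl_eq_add_colon _ (γ ^ j), Nat.cast_succ, add_mul, one_mul]
      refine add_le_add ((ih (by omega)).trans (cl_anti (sup_le (sup_le_sup_left ?_ _)
        le_sup_right))) (cl_anti fun x hx => ?_)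
      · exact Ideal.span_singleton_le_span_singleton.2 (pow_dvd_pow γ j.le_succ)
      · have h3 : x * γ ^ j ∈ I ⊔ Ideal.span {γ ^ (j + 1)} := by
          simpa [Submodule.mem_colon] using hx
        obtain ⟨a, ha, b, hb, e⟩ := Submodule.mem_sup.1 h3
        obtain ⟨b, rfl⟩ := Ideal.mem_span_singleton'.1 hb
        obtain ⟨k, rfl⟩ := Nat.exists_eq_add_of_le hj
        have h4 : zB W n B 0 ^ (o * (j + 1 + k)) * (x - b * γ) ∈ I := by
          have e2 : zB W n B 0 ^ (o * (j + 1 + k)) * (x - b * γ) = γ ^ (k + 1) * a -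
              (x - b * γ) * (γ ^ (j + 1 + k) - zB W n B 0 ^ (o * (j + 1 + k))) := by
            linear_combination (-γ ^ (k + 1)) * e
          rw [e2]
          exact sub_mem (I.mul_mem_left _ ha) (I.mul_mem_left _ h1)
        have h5 := line_cancel H _ h4
        rw [← sub_add_cancel x (b * γ)]
        exact Submodule.add_mem_sup (sup_le_sup_right (kk_anti ξ (by omega)) _ h5)
          (Ideal.mul_mem_left _ _ (Ideal.mem_span_singleton_self γ))
  have h3 : cl (I ⊔ Ideal.span {γ ^ q}) ≤ (o * q : ℕ) * (ρ : ℕ∞) := by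
    refine (cl_anti (sup_le le_sup_left ?_)).trans
      ((cl_sup_pow_le I (zB W n B 0) (o * q)).trans ?_)
    · rw [Ideal.span_singleton_le_iff_mem, ← sub_sub_cancel (γ ^ q) (zB W n B 0 ^ (o * q))]
      exact sub_mem (Ideal.mem_sup_right (Ideal.mem_span_singleton_self _)) (Ideal.mem_sup_left h1)
    · rw [← H.rho]
      refine mul_le_mul_right (cl_anti (sup_le
        (le_sup_of_le_left (le_sup_of_le_left le_sup_left)) (Ideal.span_le.2 ?_))) _
      rintro _ ⟨i, rfl⟩
      refine Fin.cases (Ideal.mem_sup_right (Ideal.mem_span_singleton_self _)) (fun i => ?_) i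
      exact Ideal.mem_sup_left (Ideal.mem_sup_right (Ideal.subset_span ⟨i, rfl⟩))
  have h4 := (h2 q le_rfl).trans h3
  clear_value c
  induction c using ENat.recTopCoe with
  | top =>
    rw [ENat.mul_top (by exact_mod_cast (by omega : q ≠ 0)), ← Nat.cast_mul] at h4
    exact absurd (top_le_iff.1 h4) (ENat.natCast_ne_top _)
  | coe c =>
    have h5 : q * c ≤ q * (o * ρ) := by
      have : q * c ≤ o * q * ρ := by exact_mod_cast h4
      linarith
    exact_mod_cast Nat.le_of_mul_le_mul_left h5 hq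

/-- `cl_pow_le'` with `y = z'`. -/
theorem cl_kk_sup_le (ξ γ : B) (r : ℕ) : cl (kk W n ξ r ⊔ Ideal.span {γ}) ≤
    (r ^ n : ℕ) * cl (kk W n ξ r ⊔ zp W n B ⊔ Ideal.span {γ}) := by
  rw [sup_right_comm]
  refine (cl_anti (sup_le le_rfl ?_)).trans
    (cl_pow_le' (fun i : Fin n => zB W n B i.succ) (kk W n ξ r ⊔ Ideal.span {γ}) r)
  exact le_sup_of_le_left (le_sup_of_le_right (Ideal.pow_right_mono cancb_zp_le r))

end

end Crest.Agent.R183
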