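import Crest.Agent.R183.Len

/-! # R183 / Chain : homology of a pair of chains of submodules inside one module `X` with an
endomorphism `D` (only a *relative* `D² = 0` is assumed).  Long exact sequence, elementwise. -/

set_option autoImplicit false

namespace Crest.Agent.R183

abbrev Ch (B X : Type*) [CommRing B] [AddCommGroup X] [Module B X] := ℤ → Submodule B X

section
variable {B : Type*} [CommRing B] {X : Type*} [AddCommGroup X] [Module B X]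
  {X' : Type*} [AddCommGroup X'] [Module B X']

def St (D : X →ₗ[B] X) (N : Ch B X) : Prop := ∀ k, ∀ x ∈ N k, D x ∈ N (k - 1)

def Zc (D : X →ₗ[B] X) (U L : Ch B X) : Ch B X := fun k => U k ⊓ (L (k - 1)).comap D

def Bd (D : X →ₗ[B] X) (U L : Ch B X) : Ch B X := fun k => (U (k + 1)).map D ⊔ L k

structure Pair (D : X →ₗ[B] X) (U L : Ch B X) : Prop where
  le : L ≤ U
  stU : St D U
  stL : St D L
  dd : ∀ k, ∀ x ∈ U k, D (D x) ∈ L (k - 2)

noncomputable def hl (D : X →ₗ[B] X) (U L : Ch B X) (k : ℤ) : ℕ∞ := len (Zc D U L k) (Bd D U L k)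

def HSm (θ : B) (c : ℕ∞) (D : X →ₗ[B] X) (U L : Ch B X) (k : ℤ) : Prop :=
  Sm θ c (Zc D U L k) (Bd D U L k)

def Van (D : X →ₗ[B] X) (U L : Ch B X) (k : ℤ) : Prop := Zc D U L k ≤ Bd D U L k

def Supp (U : Ch B X) (a b : ℤ) : Prop := ∀ k, k < a ∨ b < k → U k = ⊥

theorem mem_Zc {D : X →ₗ[B] X} {U L : Ch B X} {k : ℤ} {x : X} :
    x ∈ Zc D U L k ↔ x ∈ U k ∧ D x ∈ L (k - 1) := Iff.rfl

theorem mem_Bd {D : X →ₗ[B] X} {U L : Ch B X} {k : ℤ} {x : X} :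
    x ∈ Bd D U L k ↔ ∃ y ∈ U (k + 1), x - D y ∈ L k := by
  constructor
  · intro hx
    obtain ⟨_, ⟨y, hy, rfl⟩, z, hz, rfl⟩ := Submodule.mem_sup.1 hx
    exact ⟨y, hy, by rwa [add_sub_cancel_left]⟩
  · rintro ⟨y, hy, hz⟩
    exact Submodule.mem_sup.2 ⟨D y, ⟨y, hy, rfl⟩, x - D y, hz, add_sub_cancel _ _⟩

theorem map_mem_Bd {D : X →ₗ[B] X} {U L : Ch B X} {k : ℤ} {y : X} (hy : y ∈ U (k + 1)) :
    D y ∈ Bd D U L k := Submodule.mem_sup_left ⟨y, hy, rfl⟩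

theorem le_Bd (D : X →ₗ[B] X) (U L : Ch B X) (k : ℤ) : L k ≤ Bd D U L k := le_sup_right

theorem St.succ {D : X →ₗ[B] X} {N : Ch B X} (h : St D N) {k : ℤ} {x : X} (hx : x ∈ N (k + 1)) :
    D x ∈ N k := by
  have := h _ x hx
  rwa [add_sub_cancel_right] at this

theorem Pair.dd' {D : X →ₗ[B] X} {U L : Ch B X} (h : Pair D U L) {k j : ℤ} (hj : j + 2 = k) {x : X}
    (hx : x ∈ U k) : D (D x) ∈ L j := by
  have := h.dd _ x hx
  rwa [← hj, add_sub_cancel_right] at this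

theorem St.sup {D : X →ₗ[B] X} {N N' : Ch B X} (h : St D N) (h' : St D N') : St D (N ⊔ N') := by
  intro k x hx
  obtain ⟨y, hy, z, hz, rfl⟩ := Submodule.mem_sup.1 hx
  rw [map_add]
  exact Submodule.add_mem_sup (h k y hy) (h' k z hz)

theorem St.inf {D : X →ₗ[B] X} {N N' : Ch B X} (h : St D N) (h' : St D N') : St D (N ⊓ N') := by
  exact fun k x hx => ⟨h k x hx.1, h' k x hx.2⟩

theorem Zc_mono (D : X →ₗ[B] X) {U L U' L' : Ch B X} (hU : U ≤ U') (hL : L ≤ L') :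
    Zc D U L ≤ Zc D U' L' := by
  exact fun k x hx => ⟨hU k hx.1, hL (k - 1) hx.2⟩

theorem Bd_mono (D : X →ₗ[B] X) {U L U' L' : Ch B X} (hU : U ≤ U') (hL : L ≤ L') :
    Bd D U L ≤ Bd D U' L' := by
  exact fun k => sup_le_sup (Submodule.map_mono (hU (k + 1))) (hL k)

theorem Pair.bd_le_zc {D : X →ₗ[B] X} {U L : Ch B X} (h : Pair D U L) : Bd D U L ≤ Zc D U L := by
  refine fun k => sup_le ?_ fun x hx => ⟨h.le k hx, h.stL k x hx⟩
  rintro _ ⟨y, hy, rfl⟩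
  exact ⟨h.stU.succ hy, h.dd' (by ring) hy⟩

theorem Pair.sub {D : X →ₗ[B] X} {U L M : Ch B X} (h : Pair D U L) (hL : L ≤ M) (hU : M ≤ U)
    (hM : St D M) : Pair D M L := by
  exact ⟨hL, hM, h.stL, fun k x hx => h.dd k x (hU k hx)⟩

theorem Pair.quot {D : X →ₗ[B] X} {U L M : Ch B X} (h : Pair D U L) (hL : L ≤ M) (hU : M ≤ U)
    (hM : St D M) : Pair D U M := by
  exact ⟨hU, h.stU, hM, fun k x hx => hL _ (h.dd k x hx)⟩

variable {D : X →ₗ[B] X} {U L M : Ch B X}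

/-- exactness at `H_k(U/L)`. -/
theorem exact_mid (h : Pair D U L) (hL : L ≤ M) (hU : M ≤ U) (hM : St D M) (k : ℤ) :
    Zc D U L k ⊓ Bd D U M k = Zc D M L k ⊔ Bd D U L k := by
  refine le_antisymm ?_ (sup_le (le_inf (Zc_mono D hU le_rfl k) fun x hx => le_Bd D U M k hx.1)
    (le_inf (h.bd_le_zc k) (Bd_mono D le_rfl hL k)))
  rintro x ⟨hx, hx'⟩
  obtain ⟨y, hy, hm⟩ := mem_Bd.1 hx'
  rw [← sub_add_cancel x (D y)]
  refine Submodule.add_mem_sup (mem_Zc.2 ⟨hm, ?_⟩) (map_mem_Bd hy)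
  rw [map_sub]
  exact Submodule.sub_mem _ hx.2 (h.dd' (by ring) hy)

theorem Pair.bd_le_comap (h : Pair D U L) {k j : ℤ} (hj : j + 1 = k) :
    Bd D U M k ≤ (Bd D M L j).comap D := by
  subst hj
  intro x hx
  obtain ⟨y, hy, hm⟩ := mem_Bd.1 hx
  refine Submodule.mem_comap.2 (mem_Bd.2 ⟨_, hm, ?_⟩)
  rw [map_sub, sub_sub_cancel]
  exact h.dd' (by ring) hy

theorem Pair.map_zc_le (h : Pair D U L) {k j : ℤ} (hj : j + 1 = k) :
    (Zc D U M k).map D ≤ Zc D M L j := by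
  subst hj
  rintro _ ⟨y, hy, rfl⟩
  have h1 := (mem_Zc.1 hy).2
  rw [add_sub_cancel_right] at h1
  exact mem_Zc.2 ⟨h1, h.dd' (by ring) hy.1⟩

/-- exactness at `H_k(U/M)` (the connecting map is `D`). -/
theorem exact_quot (h : Pair D U L) (hL : L ≤ M) (hU : M ≤ U) (hM : St D M) (k : ℤ) :
    Zc D U M k ⊓ (Bd D M L (k - 1)).comap D = Zc D U L k ⊔ Bd D U M k := by
  refine le_antisymm ?_ (sup_le
    (le_inf (Zc_mono D le_rfl hL k) fun x hx => le_Bd D M L (k - 1) hx.2)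
    (le_inf ((h.quot hL hU hM).bd_le_zc k) (h.bd_le_comap (by ring))))
  rintro x ⟨hx, hx'⟩
  obtain ⟨y, hy, hm⟩ := mem_Bd.1 (Submodule.mem_comap.1 hx')
  rw [sub_add_cancel] at hy
  rw [← sub_add_cancel x y]
  refine Submodule.add_mem_sup (mem_Zc.2 ⟨Submodule.sub_mem _ hx.1 (hU k hy), ?_⟩)
    (le_Bd D U M k hy)
  rwa [map_sub]

/-- exactness at `H_k(M/L)`. -/
theorem exact_sub (h : Pair D U L) (hL : L ≤ M) (hU : M ≤ U) (hM : St D M) (k : ℤ) :
    Zc D M L k ⊓ Bd D U L k = (Zc D U M (k + 1)).map D ⊔ Bd D M L k := by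
  refine le_antisymm ?_ (sup_le (le_inf (h.map_zc_le rfl) ?_)
    (le_inf ((h.sub hL hU hM).bd_le_zc k) (Bd_mono D hU le_rfl k)))
  · rintro x ⟨hx, hx'⟩
    obtain ⟨y, hy, hm⟩ := mem_Bd.1 hx'
    rw [← add_sub_cancel (D y) x]
    refine Submodule.add_mem_sup ⟨y, mem_Zc.2 ⟨hy, ?_⟩, rfl⟩ (le_Bd D M L k hm)
    rw [add_sub_cancel_right, ← sub_sub_cancel x (D y)]
    exact Submodule.sub_mem _ hx.1 (hL k hm)
  · rintro _ ⟨y, hy, rfl⟩
    exact map_mem_Bd hy.1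

theorem hl_mid_le (h : Pair D U L) (hL : L ≤ M) (hU : M ≤ U) (hM : St D M) (k : ℤ) :
    hl D U L k ≤ hl D M L k + hl D U M k := by
  rw [hl, len_split _ (Bd_mono D le_rfl hL k), exact_mid h hL hU hM, len_sup_left, add_comm]
  exact add_le_add (len_mono le_rfl (Bd_mono D hU le_rfl k))
    (len_mono (Zc_mono D le_rfl hL k) le_rfl)

theorem hl_quot_le (h : Pair D U L) (hL : L ≤ M) (hU : M ≤ U) (hM : St D M) (k : ℤ) :
    hl D U M k ≤ hl D U L k + hl D M L (k - 1) := by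
  rw [hl, len_split _ (h.bd_le_comap (sub_add_cancel k 1)), exact_quot h hL hU hM, len_sup_left,
    ← len_map, add_comm]
  exact add_le_add (len_mono le_rfl (Bd_mono D le_rfl hL k))
    (len_mono (h.map_zc_le (sub_add_cancel k 1)) le_rfl)

theorem hl_sub_le (h : Pair D U L) (hL : L ≤ M) (hU : M ≤ U) (hM : St D M) (k : ℤ) :
    hl D M L k ≤ hl D U M (k + 1) + hl D U L k := by
  rw [hl, len_split _ (Bd_mono D hU le_rfl k), exact_sub h hL hU hM, len_sup_left, len_map,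
    add_comm]
  exact add_le_add (len_mono le_rfl (h.bd_le_comap rfl)) (len_mono (Zc_mono D hU le_rfl k) le_rfl)

theorem sm_inf_right_b {θ : B} {c : ℕ∞} {A A' : Submodule B X} (h : Sm θ c A A') :
    Sm θ c A (A ⊓ A') := by
  unfold Sm at h ⊢
  rw [len_inf_right, kap_inf_right]
  exact h

/-- Same three statements for `HSm`: filter `Z ≥ Z ⊓ (next Bd) ≥ Bd` and use `Sm.trans`,
`Sm.mono`, `Sm.map_iff`, `kap_inf_right`/`len_inf_right` and the exactness identities. -/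
theorem HSm.mid {θ : B} {c₁ c₂ : ℕ∞} (h : Pair D U L) (hL : L ≤ M) (hU : M ≤ U) (hM : St D M)
    {k : ℤ} (h₁ : HSm θ c₁ D M L k) (h₂ : HSm θ c₂ D U M k) : HSm θ (c₁ + c₂) D U L k := by
  have e := exact_mid h hL hU hM k
  have a1 : Sm θ c₂ (Zc D U L k) (Zc D U L k ⊓ Bd D U M k) :=
    sm_inf_right_b (Sm.mono h₂ le_rfl ((Zc_mono D le_rfl hL k).trans le_sup_left))
  have a2 : Sm θ c₁ (Zc D U L k ⊓ Bd D U M k) (Bd D U L k) := by
    rw [e]
    exact Sm.mono (Sm.mono h₁ (Bd_mono D hU le_rfl k) le_sup_left) le_rfl le_rfl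
  rw [add_comm]
  exact Sm.trans a1 a2 inf_le_left

theorem HSm.quot {θ : B} {c₁ c₂ : ℕ∞} (h : Pair D U L) (hL : L ≤ M) (hU : M ≤ U) (hM : St D M)
    {k : ℤ} (h₁ : HSm θ c₁ D U L k) (h₂ : HSm θ c₂ D M L (k - 1)) : HSm θ (c₁ + c₂) D U M k := by
  have e := exact_quot h hL hU hM k
  have hz : (Zc D U M k).map D ≤ Zc D M L (k - 1) := by
    rintro _ ⟨x, hx, rfl⟩
    refine ⟨hx.2, ?_⟩
    have := h.dd k x hx.1
    rw [show k - 2 = k - 1 - 1 by ring] at this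
    exact this
  have a1 : Sm θ c₂ (Zc D U M k) (Zc D U M k ⊓ (Bd D M L (k - 1)).comap D) :=
    sm_inf_right_b ((Sm.map_iff D _ _).1 (Sm.mono h₂ le_rfl (hz.trans le_sup_left)))
  have a2 : Sm θ c₁ (Zc D U M k ⊓ (Bd D M L (k - 1)).comap D) (Bd D U M k) := by
    rw [e]
    exact Sm.mono (Sm.mono h₁ (Bd_mono D le_rfl hL k) le_sup_left) le_rfl le_rfl
  rw [add_comm]
  exact Sm.trans a1 a2 inf_le_left

theorem HSm.sub {θ : B} {c₁ c₂ : ℕ∞} (h : Pair D U L) (hL : L ≤ M) (hU : M ≤ U) (hM : St D M)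
    {k : ℤ} (h₁ : HSm θ c₁ D U M (k + 1)) (h₂ : HSm θ c₂ D U L k) : HSm θ (c₁ + c₂) D M L k := by
  have e := exact_sub h hL hU hM k
  have hb : Bd D U M (k + 1) ≤ (Bd D M L k).comap D := by
    refine sup_le ?_ ?_
    · rintro _ ⟨y, hy, rfl⟩
      have := h.dd (k + 1 + 1) y hy
      rw [show k + 1 + 1 - 2 = k by ring] at this
      exact Submodule.mem_sup_right this
    · intro m hm
      exact Submodule.mem_sup_left ⟨m, hm, rfl⟩
  have a1 : Sm θ c₂ (Zc D M L k) (Zc D M L k ⊓ Bd D U L k) :=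
    sm_inf_right_b (Sm.mono h₂ le_rfl ((Zc_mono D hU le_rfl k).trans le_sup_left))
  have a2 : Sm θ c₁ (Zc D M L k ⊓ Bd D U L k) (Bd D M L k) := by
    rw [e]
    exact Sm.mono ((Sm.map_iff D _ _).2 (Sm.mono h₁ hb le_sup_left)) le_rfl le_rfl
  rw [add_comm]
  exact Sm.trans a1 a2 inf_le_left

theorem van_iff_hl {k : ℤ} : Van D U L k ↔ hl D U L k = 0 := len_eq_zero_iff.symm

theorem Van.hsm {k : ℤ} (h : Van D U L k) (θ : B) : HSm θ 0 D U L k := Sm.zero θ h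

theorem Van.mid (h : Pair D U L) (hL : L ≤ M) (hU : M ≤ U) (hM : St D M) {k : ℤ}
    (h₁ : Van D M L k) (h₂ : Van D U M k) : Van D U L k := by
  have h3 : Zc D U L k ≤ Zc D U L k ⊓ Bd D U M k :=
    le_inf le_rfl ((Zc_mono D le_rfl hL k).trans h₂)
  rw [exact_mid h hL hU hM] at h3
  exact h3.trans (sup_le (le_trans h₁ (Bd_mono D hU le_rfl k)) le_rfl)

/-- if `H_{k+1}(U/M) = 0` then `H_k(M/L) → H_k(U/L)` is injective. -/
theorem Van.inj (h : Pair D U L) (hL : L ≤ M) (hU : M ≤ U) (hM : St D M) {k : ℤ}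
    (h₁ : Van D U M (k + 1)) : Zc D M L k ⊓ Bd D U L k ≤ Bd D M L k := by
  rw [exact_sub h hL hU hM]
  exact sup_le (Submodule.map_le_iff_le_comap.2 (le_trans h₁ (h.bd_le_comap rfl))) le_rfl

/-- if `H_k(U/M) = 0` then `H_k(M/L) → H_k(U/L)` is surjective. -/
theorem Van.surj (h : Pair D U L) (hL : L ≤ M) (hU : M ≤ U) (hM : St D M) {k : ℤ}
    (h₁ : Van D U M k) : Zc D U L k ≤ Zc D M L k ⊔ Bd D U L k := by
  rw [← exact_mid h hL hU hM]
  exact le_inf le_rfl ((Zc_mono D le_rfl hL k).trans h₁)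

/-- sandwich: `U ≥ U₁ ≥ L₁ ≥ L` with acyclic outer parts. -/
theorem hl_sandwich {U₁ L₁ : Ch B X} (h : Pair D U L) (h1 : L ≤ L₁) (h2 : L₁ ≤ U₁) (h3 : U₁ ≤ U)
    (s1 : St D L₁) (s2 : St D U₁) (vU : ∀ k, Van D U U₁ k) (vL : ∀ k, Van D L₁ L k) (k : ℤ) :
    hl D U L k = hl D U₁ L₁ k := by
  have hL : L ≤ U₁ := h1.trans h2
  have p1 : Pair D U₁ L := h.sub hL h3 s2
  have e1 : hl D U L k = hl D U₁ L k := by
    apply le_antisymm
    · have := hl_mid_le h hL h3 s2 k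
      rwa [van_iff_hl.1 (vU k), add_zero] at this
    · have := hl_sub_le h hL h3 s2 k
      rwa [van_iff_hl.1 (vU (k + 1)), zero_add] at this
  have e2 : hl D U₁ L k = hl D U₁ L₁ k := by
    apply le_antisymm
    · have := hl_mid_le p1 h1 h2 s1 k
      rwa [van_iff_hl.1 (vL k), zero_add] at this
    · have := hl_quot_le p1 h1 h2 s1 k
      rwa [van_iff_hl.1 (vL (k - 1)), add_zero] at this
  rw [e1, e2]

theorem HSm.sandwich {θ : B} {c : ℕ∞} {U₁ L₁ : Ch B X} (h : Pair D U L) (h1 : L ≤ L₁)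
    (h2 : L₁ ≤ U₁) (h3 : U₁ ≤ U) (s1 : St D L₁) (s2 : St D U₁) (vU : ∀ k, Van D U U₁ k)
    (vL : ∀ k, Van D L₁ L k) {k : ℤ} (hs : HSm θ c D U₁ L₁ k) : HSm θ c D U L k := by
  have hL : L ≤ U₁ := h1.trans h2
  have p1 : Pair D U₁ L := h.sub hL h3 s2
  have a1 := HSm.mid p1 h1 h2 s1 ((vL k).hsm θ) hs
  have a2 := HSm.mid h hL h3 s2 a1 ((vU k).hsm θ)
  rwa [zero_add, add_zero] at a2

/-- `Φ` induces an isomorphism of the subquotient `U/L` onto `U'/L'` shifted by `s`,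
commuting with the differentials up to the unit `u`. -/
structure Iso (Φ : X →ₗ[B] X') (s : ℤ) (U L : Ch B X) (U' L' : Ch B X') : Prop where
  surj : ∀ k, (U k).map Φ ⊔ L' (k + s) = U' (k + s)
  inj : ∀ k, U k ⊓ (L' (k + s)).comap Φ = L k

variable {D' : X' →ₗ[B] X'} {U' L' : Ch B X'} {Φ : X →ₗ[B] X'} {s : ℤ} {u : Bˣ}

theorem Iso.mem_zc (hI : Iso Φ s U L U' L') (hΦ : ∀ x, Φ (D x) = (u : B) • D' (Φ x))
    (h : Pair D U L) {k : ℤ} {x : X} (hx : x ∈ U k) :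
    x ∈ Zc D U L k ↔ Φ x ∈ Zc D' U' L' (k + s) := by
  have hU' : Φ x ∈ U' (k + s) := by
    rw [← hI.surj k]; exact Submodule.mem_sup_left ⟨x, hx, rfl⟩
  have hD : D x ∈ U (k - 1) := h.stU k x hx
  have key : D x ∈ L (k - 1) ↔ D' (Φ x) ∈ L' (k + s - 1) := by
    rw [← hI.inj (k - 1), show k - 1 + s = k + s - 1 by ring]
    simp only [Submodule.mem_inf, Submodule.mem_comap, hD, true_and, hΦ]
    exact Submodule.smul_mem_iff_of_isUnit _ u.isUnit
  simp only [Zc, Submodule.mem_inf, Submodule.mem_comap, hx, hU', true_and]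
  exact key

theorem Iso.mem_bd (hI : Iso Φ s U L U' L') (hΦ : ∀ x, Φ (D x) = (u : B) • D' (Φ x))
    (h : Pair D U L) (h' : Pair D' U' L') {k : ℤ} {x : X} (hx : x ∈ U k) :
    x ∈ Bd D U L k ↔ Φ x ∈ Bd D' U' L' (k + s) := by
  constructor
  · intro hb
    obtain ⟨_, ⟨y, hy, rfl⟩, l, hl, rfl⟩ := Submodule.mem_sup.1 hb
    have hy' : Φ y ∈ U' (k + s + 1) := by
      rw [show k + s + 1 = k + 1 + s by ring, ← hI.surj (k + 1)]
      exact Submodule.mem_sup_left ⟨y, hy, rfl⟩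
    have hl' : Φ l ∈ L' (k + s) := by
      rw [← hI.inj k] at hl
      exact hl.2
    rw [map_add, hΦ]
    exact Submodule.add_mem _
      (Submodule.smul_mem _ _ (Submodule.mem_sup_left ⟨Φ y, hy', rfl⟩)) (Submodule.mem_sup_right hl')
  · intro hb
    obtain ⟨_, ⟨y', hy', rfl⟩, l', hl', e⟩ := Submodule.mem_sup.1 hb
    rw [show k + s + 1 = k + 1 + s by ring, ← hI.surj (k + 1)] at hy'
    obtain ⟨_, ⟨y, hy, rfl⟩, l'', hl'', rfl⟩ := Submodule.mem_sup.1 hy'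
    have hDl : D' l'' ∈ L' (k + s) := by
      have := h'.stL _ l'' hl''
      rwa [show k + 1 + s - 1 = k + s by ring] at this
    have hDy : D y ∈ U k := by
      have := h.stU _ y hy
      rwa [show k + 1 - 1 = k by ring] at this
    have hz : x - ((u⁻¹ : Bˣ) : B) • D y ∈ L k := by
      rw [← hI.inj k]
      refine ⟨Submodule.sub_mem _ hx (Submodule.smul_mem _ _ hDy), ?_⟩
      have : Φ (x - ((u⁻¹ : Bˣ) : B) • D y) = D' l'' + l' := by
        rw [map_sub, map_smul, hΦ, smul_smul, Units.inv_mul, one_smul, ← e, map_add]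
        abel
      show Φ _ ∈ L' (k + s)
      rw [this]
      exact Submodule.add_mem _ hDl hl'
    have : x = ((u⁻¹ : Bˣ) : B) • D y + (x - ((u⁻¹ : Bˣ) : B) • D y) := by abel
    rw [this]
    exact Submodule.add_mem _
      (Submodule.smul_mem _ _ (Submodule.mem_sup_left ⟨y, hy, rfl⟩)) (Submodule.mem_sup_right hz)

theorem Iso.zc_le (hI : Iso Φ s U L U' L') (hΦ : ∀ x, Φ (D x) = (u : B) • D' (Φ x))
    (h : Pair D U L) (h' : Pair D' U' L') (k : ℤ) :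
    Zc D' U' L' (k + s) = (Zc D U L k).map Φ ⊔ L' (k + s) := by
  have hLz : L' (k + s) ≤ Zc D' U' L' (k + s) := fun l hl => ⟨h'.le _ hl, h'.stL _ l hl⟩
  apply le_antisymm
  · intro z hz
    have hz1 : z ∈ U' (k + s) := hz.1
    rw [← hI.surj k] at hz1
    obtain ⟨_, ⟨x, hx, rfl⟩, l, hl, rfl⟩ := Submodule.mem_sup.1 hz1
    have hx' : Φ x ∈ Zc D' U' L' (k + s) := by
      have := Submodule.sub_mem _ hz (hLz hl)
      rwa [add_sub_cancel_right] at this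
    exact Submodule.add_mem _
      (Submodule.mem_sup_left ⟨x, (hI.mem_zc hΦ h hx).2 hx', rfl⟩) (Submodule.mem_sup_right hl)
  · refine sup_le ?_ hLz
    rintro _ ⟨x, hx, rfl⟩
    exact (hI.mem_zc hΦ h hx.1).1 hx

theorem Iso.hl_eq (hI : Iso Φ s U L U' L') (hΦ : ∀ x, Φ (D x) = (u : B) • D' (Φ x))
    (h : Pair D U L) (h' : Pair D' U' L') (k : ℤ) : hl D U L k = hl D' U' L' (k + s) := by
  have hLb : L' (k + s) ≤ Bd D' U' L' (k + s) := le_sup_right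
  have e : Zc D U L k ⊓ (Bd D' U' L' (k + s)).comap Φ = Zc D U L k ⊓ Bd D U L k := by
    ext x
    constructor
    · rintro ⟨h1, h2⟩
      exact ⟨h1, (hI.mem_bd hΦ h h' h1.1).2 h2⟩
    · rintro ⟨h1, h2⟩
      exact ⟨h1, (hI.mem_bd hΦ h h' h1.1).1 h2⟩
  unfold hl
  rw [hI.zc_le hΦ h h' k, ← len_sup_left (_ ⊔ L' (k + s)), sup_assoc, sup_eq_right.2 hLb,
    len_sup_left, len_map, ← len_inf_right _ (Submodule.comap _ _), e, len_inf_right]

theorem Iso.hsm {θ : B} {c : ℕ∞} (hI : Iso Φ s U L U' L')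
    (hΦ : ∀ x, Φ (D x) = (u : B) • D' (Φ x)) (h : Pair D U L) (h' : Pair D' U' L') {k : ℤ}
    (hs : HSm θ c D' U' L' (k + s)) : HSm θ c D U L k := by
  have a1 : Sm θ c ((Zc D U L k).map Φ) (Bd D' U' L' (k + s)) := by
    refine Sm.mono hs le_rfl (le_trans ?_ le_sup_left)
    rw [hI.zc_le hΦ h h' k]
    exact le_sup_left
  have a2 := sm_inf_right_b ((Sm.map_iff Φ _ _).1 a1)
  refine Sm.mono a2 ?_ le_sup_left
  rintro x ⟨h1, h2⟩
  exact (hI.mem_bd hΦ h h' h1.1).2 h2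

/-- Iterated homotopy ("tail nullity").  Induction on `s ≤ R` of: `x ∈ V s k ⊓ F (R-s) k`,
`D x ∈ W s (k-1)` ⟹ `θ^s • x ∈ Bd D (V 0) (W 0) k`.  Step: `θx - D h x = h D x + e₁ + e₂`,
`e₁ ∈ V s ⊓ F (R-s)`, `e₂ ∈ W s`, and `D e₁ = θ D x - D D h x - D (h D x) - D e₂ ∈ W s`. -/
theorem tn_iter (D h : X →ₗ[B] X) (θ : B) (R : ℕ) (V W F : ℕ → Ch B X)
    (hV : ∀ s, s < R → V (s + 1) ≤ V s) (hW : ∀ s, s < R → W (s + 1) ≤ W s)
    (h1 : ∀ s, s < R → ∀ k, ∀ x ∈ V (s + 1) k, h x ∈ V s (k + 1))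
    (h2 : ∀ s, s < R → ∀ k, ∀ x ∈ W (s + 1) k, h x ∈ W s (k + 1))
    (h3 : ∀ s, s < R → ∀ r k, ∀ x ∈ V (s + 1) k, x ∈ F r k →
      θ • x - D (h x) - h (D x) ∈ (V s k ⊓ F (r + 1) k) ⊔ W s k)
    (h4 : ∀ s, s < R → St D (W s))
    (h5 : ∀ s, s < R → ∀ k, ∀ x ∈ V s k, D (D x) ∈ W s (k - 2))
    (hF0 : ∀ k, F 0 k = ⊤) (hFR : ∀ k, F R k = ⊥) (k : ℤ) :
    ∀ x ∈ Zc D (V R) (W R) k, θ ^ R • x ∈ Bd D (V 0) (W 0) k := by
  have hV0 : ∀ s, s ≤ R → V s ≤ V 0 := by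
    intro s
    induction s with
    | zero => exact fun _ => le_rfl
    | succ s ih => exact fun hs => (hV s hs).trans (ih (by omega))
  have hW0 : ∀ s, s ≤ R → W s ≤ W 0 := by
    intro s
    induction s with
    | zero => exact fun _ => le_rfl
    | succ s ih => exact fun hs => (hW s hs).trans (ih (by omega))
  have key : ∀ s, s ≤ R → ∀ x ∈ V s k, x ∈ F (R - s) k → D x ∈ W s (k - 1) →
      θ ^ s • x ∈ Bd D (V 0) (W 0) k := by
    intro s
    induction s with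
    | zero =>
      intro _ x _ hx _
      rw [Nat.sub_zero, hFR, Submodule.mem_bot] at hx
      rw [hx, smul_zero]
      exact Submodule.zero_mem _
    | succ s ih =>
      intro hs x hxV hxF hxW
      have hs' : s < R := hs
      obtain ⟨e₁, he₁, e₂, he₂, he⟩ := Submodule.mem_sup.1 (h3 s hs' _ k x hxV hxF)
      have a1 : h x ∈ V s (k + 1) := h1 s hs' k x hxV
      have a2 : h (D x) ∈ W s k := by
        have := h2 s hs' _ _ hxW
        rwa [sub_add_cancel] at this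
      have a3 : D (D (h x)) ∈ W s (k - 1) := by
        have := h5 s hs' _ _ a1
        rwa [show k + 1 - 2 = k - 1 by ring] at this
      have a4 : e₁ ∈ F (R - s) k := by
        have := he₁.2
        rwa [show R - (s + 1) + 1 = R - s by omega] at this
      have a5 : D e₁ ∈ W s (k - 1) := by
        rw [eq_sub_of_add_eq he, map_sub, map_sub, map_sub, map_smul]
        exact Submodule.sub_mem _ (Submodule.sub_mem _ (Submodule.sub_mem _
          (Submodule.smul_mem _ _ (hW s hs' _ hxW)) a3) (h4 s hs' k _ a2)) (h4 s hs' k _ he₂)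
      have a6 : θ • x = e₁ + (D (h x) + (h (D x) + e₂)) := by
        rw [eq_sub_of_add_eq he]
        abel
      rw [pow_succ, mul_smul, a6, smul_add]
      exact Submodule.add_mem _ (ih hs'.le e₁ he₁.1 a4 a5) (Submodule.smul_mem _ _
        (Submodule.add_mem _ (map_mem_Bd (hV0 s hs'.le _ a1))
          (le_Bd D _ _ k (hW0 s hs'.le k (Submodule.add_mem _ a2 he₂)))))
  intro x hx
  refine key R le_rfl x hx.1 ?_ hx.2
  rw [Nat.sub_self, hF0]
  trivial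

end

end Crest.Agent.R183
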