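import Mathlib

/-! # R183 / CohenAuxa : `p`-bases (auxiliary file for task Cohen-a, helper53). -/

set_option autoImplicit false
open IsLocalRing Polynomial

namespace Crest.Agent.R183

theorem CA_exists_eq {C : Type} [CommRing C] [IsLocalRing C] [IsHausdorff (maximalIdeal C) C]
    {π : C} (hπ : maximalIdeal C = Ideal.span {π}) {x : C} (hx : x ≠ 0) :
    ∃ (j : ℕ) (u : Cˣ), x = u * π ^ j := by
  classical
  have hex : ∃ j, ¬ π ^ (j + 1) ∣ x := by
    by_contra hcon
    push Not at hcon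
    apply hx
    refine IsHausdorff.haus' (I := maximalIdeal C) x fun n => ?_
    rw [SModEq.zero, smul_eq_mul, Ideal.mul_top, hπ, Ideal.span_singleton_pow,
      Ideal.mem_span_singleton]
    exact (pow_dvd_pow π (Nat.le_succ n)).trans (hcon n)
  have h1 : π ^ (Nat.find hex) ∣ x := by
    rcases h : Nat.find hex with _ | j
    · simp
    · have := Nat.find_min hex (m := j) (by omega)
      exact not_not.1 this
  obtain ⟨u, hu⟩ := h1
  have h2 : IsUnit u := by
    by_contra hnu
    have : u ∈ maximalIdeal C := (mem_maximalIdeal u).2 hnu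
    rw [hπ, Ideal.mem_span_singleton] at this
    obtain ⟨v, hv⟩ := this
    apply Nat.find_spec hex
    refine ⟨v, ?_⟩
    rw [pow_succ, mul_assoc, ← hv]
    exact hu
  obtain ⟨u, rfl⟩ := h2
  exact ⟨_, u, by rw [mul_comm]; exact hu⟩

section PBasis
variable {k : Type} [Field k]

/-- copy of `PInd` -/
def CAInd (q : ℕ) (β : Set k) : Prop :=
  ∀ (S : Finset (k →₀ ℕ)) (a : (k →₀ ℕ) → k), (∀ μ ∈ S, ↑μ.support ⊆ β ∧ ∀ b, μ b < q) →
    ∑ μ ∈ S, a μ ^ q * μ.prod (fun b n => b ^ n) = 0 → ∀ μ ∈ S, a μ = 0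

theorem CAInd.inj {q : ℕ} {β : Set k} (h : CAInd q β) {ι : Type} (T : Finset ι)
    (f : ι → (k →₀ ℕ)) (hf : Set.InjOn f T) (a : ι → k)
    (hT : ∀ i ∈ T, ↑(f i).support ⊆ β ∧ ∀ b, f i b < q)
    (h0 : ∑ i ∈ T, a i ^ q * (f i).prod (fun b n => b ^ n) = 0) : ∀ i ∈ T, a i = 0 := by
  classical
  intro i hi
  haveI : Nonempty ι := ⟨i⟩
  have hinv : ∀ j ∈ T, Function.invFunOn f T (f j) = j := fun j hj =>
    hf.leftInvOn_invFunOn hj
  have := h (T.image f) (fun μ => a (Function.invFunOn f T μ)) (by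
    intro μ hμ
    obtain ⟨j, hj, rfl⟩ := Finset.mem_image.1 hμ
    exact hT j hj) (by
    rw [Finset.sum_image hf, ← h0]
    refine Finset.sum_congr rfl fun j hj => ?_
    rw [hinv j hj]) (f i) (Finset.mem_image_of_mem f hi)
  simpa only [hinv i hi] using this

theorem CA_prod_add (μ ν : k →₀ ℕ) :
    (μ + ν).prod (fun b n => b ^ n) =
      μ.prod (fun b n => b ^ n) * ν.prod (fun b n => b ^ n) :=
  Finsupp.prod_add_index' (fun _ => pow_zero _) (fun _ _ _ => pow_add _ _ _)

theorem CA_prod_smul (c : ℕ) (μ : k →₀ ℕ) :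
    (c • μ).prod (fun b n => b ^ n) = μ.prod (fun b n => b ^ n) ^ c := by
  induction c with
  | zero => simp
  | succ c ih => rw [succ_nsmul, CA_prod_add, ih, pow_succ]

theorem CA_ind_one (β : Set k) : CAInd 1 β := by
  intro S a hS h0 μ hμ
  have hz : ∀ ν ∈ S, ν = 0 := fun ν hν => by
    ext b
    have := (hS ν hν).2 b
    simp only [Finsupp.coe_zero, Pi.zero_apply]
    omega
  rw [Finset.sum_eq_single μ (fun ν hν hne => absurd ((hz ν hν).trans (hz μ hμ).symm) hne)
    (fun h => absurd hμ h), hz μ hμ] at h0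
  rw [hz μ hμ]
  simpa using h0

theorem CA_ind_empty (q : ℕ) : CAInd q (∅ : Set k) := by
  intro S a hS h0 μ hμ
  have hz : ∀ ν ∈ S, ν = 0 := fun ν hν => by
    have := (hS ν hν).1
    rw [Set.subset_empty_iff, Finset.coe_eq_empty, Finsupp.support_eq_empty] at this
    exact this
  rw [Finset.sum_eq_single μ (fun ν hν hne => absurd ((hz ν hν).trans (hz μ hμ).symm) hne)
    (fun h => absurd hμ h), hz μ hμ] at h0
  rw [hz μ hμ]
  simp only [Finsupp.prod_zero_index, mul_one] at h0
  exact eq_zero_of_pow_eq_zero h0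

variable (p : ℕ) [Fact p.Prime] [CharP k p]

theorem CA_li (K : Subfield k) {y : k} (hy : y ∉ K) (hyp : y ^ p ∈ K) (c : ℕ → k)
    (hc : ∀ i, c i ∈ K) (h0 : ∑ i ∈ Finset.range p, c i * y ^ i = 0) : ∀ i < p, c i = 0 := by
  have hp : p.Prime := Fact.out
  have hirr : Irreducible (X ^ p - C (⟨y ^ p, hyp⟩ : K)) := by
    refine X_pow_sub_C_irreducible_of_prime hp fun b hb => hy ?_
    have h1 : (b : k) ^ p = y ^ p := by
      have := congrArg Subtype.val hb
      simpa using this
    have h2 : (b : k) = y := frobenius_inj k p h1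
    exact h2 ▸ b.2
  have hmin : X ^ p - C (⟨y ^ p, hyp⟩ : K) = minpoly K y := by
    refine minpoly.eq_of_irreducible_of_monic hirr ?_ (monic_X_pow_sub_C _ hp.ne_zero)
    simp only [map_sub, map_pow, aeval_X, aeval_C]
    exact sub_self _
  have hdeg : (minpoly K y).natDegree = p := by
    rw [← hmin, natDegree_X_pow_sub_C]
  have hli := linearIndependent_pow (K := K) y
  rw [hdeg] at hli
  have := Fintype.linearIndependent_iff.1 hli (fun i => ⟨c i, hc i⟩) (by
    rw [← h0, ← Fin.sum_univ_eq_sum_range (fun i => c i * y ^ i) p]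
    rfl)
  intro i hi
  exact congrArg Subtype.val (this ⟨i, hi⟩)

theorem CAInd.insert {β : Set k} (h : CAInd p β) {y : k}
    (hy : y ∉ Subring.closure (Set.range (fun x : k => x ^ p) ∪ β)) :
    CAInd p (insert y β) := by
  classical
  have hp : p.Prime := Fact.out
  set R := Subring.closure (Set.range (fun x : k => x ^ p) ∪ β) with hR
  have hpow : ∀ x : k, x ^ p ∈ R := fun x => Subring.subset_closure (Or.inl ⟨x, rfl⟩)
  have hβ : ∀ b ∈ β, b ∈ R := fun b hb => Subring.subset_closure (Or.inr hb)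
  let K : Subfield k :=
    { R with
      inv_mem' := fun x hx => by
        by_cases hx0 : x = 0
        · rw [hx0, inv_zero]; exact R.zero_mem
        · have e : x⁻¹ = x⁻¹ ^ p * x ^ (p - 1) := by
            obtain ⟨q, hq⟩ : ∃ q, p = q + 1 := ⟨p - 1, by have := hp.pos; omega⟩
            rw [hq, Nat.add_sub_cancel, pow_succ', mul_assoc, ← mul_pow, inv_mul_cancel₀ hx0,
              one_pow, mul_one]
          rw [e]
          exact R.mul_mem (hpow _) (R.pow_mem hx _) }
  intro S a hS h0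
  have hsupp : ∀ μ ∈ S, ↑(μ.erase y).support ⊆ β := by
    intro μ hμ b hb
    rw [Finsupp.support_erase, Finset.coe_erase] at hb
    rcases (hS μ hμ).1 hb.1 with h1 | h1
    · exact absurd h1 hb.2
    · exact h1
  let c : ℕ → k := fun i =>
    ∑ μ ∈ S.filter (fun μ => μ y = i), a μ ^ p * (μ.erase y).prod (fun b n => b ^ n)
  have hc : ∀ i, c i ∈ K := by
    intro i
    change c i ∈ R
    refine R.sum_mem fun μ hμ => R.mul_mem (hpow _) ?_
    refine R.prod_mem fun b hb => R.pow_mem (hβ b ?_) _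
    exact hsupp μ (Finset.mem_filter.1 hμ).1 hb
  have hsum : ∑ i ∈ Finset.range p, c i * y ^ i = 0 := by
    rw [← h0, ← Finset.sum_fiberwise_of_maps_to (s := S) (t := Finset.range p)
      (g := fun μ => μ y) (fun μ hμ => Finset.mem_range.2 ((hS μ hμ).2 y))]
    refine Finset.sum_congr rfl fun i _ => ?_
    rw [Finset.sum_mul]
    refine Finset.sum_congr rfl fun μ hμ => ?_
    have e : μ = μ.erase y + Finsupp.single y i := by
      rw [← (Finset.mem_filter.1 hμ).2, Finsupp.erase_add_single]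
    conv_rhs => rw [e, CA_prod_add, Finsupp.prod_single_index (pow_zero _), ← e]
    ring
  have hz := CA_li p K hy (hpow y) c hc hsum
  intro μ hμ
  refine h.inj (S.filter (fun ν => ν y = μ y)) (fun ν => ν.erase y) ?_ a ?_
    (hz _ ((hS μ hμ).2 y)) μ (Finset.mem_filter.2 ⟨hμ, rfl⟩)
  · intro ν hν ν' hν' hνν
    have e1 := (Finset.mem_filter.1 (Finset.mem_coe.1 hν)).2
    have e2 := (Finset.mem_filter.1 (Finset.mem_coe.1 hν')).2
    rw [← Finsupp.erase_add_single y ν, ← Finsupp.erase_add_single y ν', e1, e2]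
    exact congrArg (· + Finsupp.single y (μ y)) hνν
  · intro ν hν
    refine ⟨hsupp ν (Finset.mem_filter.1 hν).1, fun b => ?_⟩
    rw [Finsupp.erase_apply]
    split_ifs
    · exact hp.pos
    · exact (hS ν (Finset.mem_filter.1 hν).1).2 b

theorem CA_exists_pbasis (k : Type) [Field k] [CharP k p] : ∃ β : Set k, CAInd p β ∧
    Subring.closure (Set.range (fun x : k => x ^ p) ∪ β) = ⊤ := by
  classical
  obtain ⟨β, -, hβ⟩ := zorn_subset_nonempty {β : Set k | CAInd p β} (by
    intro c hc hch hne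
    refine ⟨⋃₀ c, ?_, fun s hs => Set.subset_sUnion_of_mem hs⟩
    intro S a hS h0
    obtain ⟨t, ht, hsub⟩ := DirectedOn.exists_mem_subset_of_finite_of_subset_sUnion hne
      hch.directedOn (s := ↑(S.biUnion Finsupp.support)) (Finset.finite_toSet _) (by
        intro b hb
        obtain ⟨μ, hμ, hb⟩ := Finset.mem_biUnion.1 (Finset.mem_coe.1 hb)
        exact (hS μ hμ).1 hb)
    refine hc ht S a (fun μ hμ => ⟨fun b hb => hsub ?_, (hS μ hμ).2⟩) h0
    exact Finset.mem_coe.2 (Finset.mem_biUnion.2 ⟨μ, hμ, hb⟩)) ∅ (CA_ind_empty p)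
  refine ⟨β, hβ.prop, ?_⟩
  rw [eq_top_iff]
  intro y _
  by_contra hy
  have h1 : insert y β ⊆ β :=
    hβ.le_of_ge (CAInd.insert p hβ.prop hy) (Set.subset_insert y β)
  exact hy (Subring.subset_closure (Or.inr (h1 (Set.mem_insert y β))))

theorem CAInd.pow {β : Set k} (h : CAInd p β) (n : ℕ) : CAInd (p ^ n) β := by
  classical
  have hp : p.Prime := Fact.out
  induction n with
  | zero => rw [pow_zero]; exact CA_ind_one β
  | succ n ih =>
    intro S a hS h0
    let lo : (k →₀ ℕ) → (k →₀ ℕ) := fun μ => μ.mapRange (· % p) (Nat.zero_mod p)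
    let hi : (k →₀ ℕ) → (k →₀ ℕ) := fun μ => μ.mapRange (· / p) (Nat.zero_div p)
    have hdec : ∀ μ, μ = lo μ + p • hi μ := by
      intro μ
      ext b
      simp only [lo, hi, Finsupp.add_apply, Finsupp.smul_apply, Finsupp.mapRange_apply,
        smul_eq_mul]
      exact (Nat.mod_add_div _ _).symm
    let c : (k →₀ ℕ) → k := fun ν =>
      ∑ μ ∈ S.filter (fun μ => lo μ = ν), a μ ^ p ^ n * (hi μ).prod (fun b n => b ^ n)
    have hsum : ∑ ν ∈ S.image lo, c ν ^ p * ν.prod (fun b n => b ^ n) = 0 := by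
      rw [← h0, ← Finset.sum_fiberwise_of_maps_to (s := S) (t := S.image lo)
        (g := lo) (fun μ hμ => Finset.mem_image_of_mem lo hμ)]
      refine Finset.sum_congr rfl fun ν _ => ?_
      rw [sum_pow_char, Finset.sum_mul]
      refine Finset.sum_congr rfl fun μ hμ => ?_
      have e := hdec μ
      rw [(Finset.mem_filter.1 hμ).2] at e
      have e2 : μ.prod (fun b n => b ^ n) =
          ν.prod (fun b n => b ^ n) * (hi μ).prod (fun b n => b ^ n) ^ p := by
        conv_lhs => rw [e, CA_prod_add, CA_prod_smul]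
      rw [e2, mul_pow, ← pow_mul, ← pow_succ]
      ring
    have hz := h (S.image lo) c (by
      intro ν hν
      obtain ⟨μ, hμ, rfl⟩ := Finset.mem_image.1 hν
      refine ⟨fun b hb => (hS μ hμ).1 (Finsupp.support_mapRange hb), fun b => ?_⟩
      simp only [lo, Finsupp.mapRange_apply]
      exact Nat.mod_lt _ hp.pos) hsum
    intro μ hμ
    refine ih.inj (S.filter (fun ν => lo ν = lo μ)) hi ?_ a ?_
      (hz _ (Finset.mem_image_of_mem lo hμ)) μ (Finset.mem_filter.2 ⟨hμ, rfl⟩)
    · intro ν hν ν' hν' hνν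
      have e1 := (Finset.mem_filter.1 (Finset.mem_coe.1 hν)).2
      have e2 := (Finset.mem_filter.1 (Finset.mem_coe.1 hν')).2
      rw [hdec ν, hdec ν', e1, e2, hνν]
    · intro ν hν
      have hνS := (Finset.mem_filter.1 hν).1
      refine ⟨fun b hb => (hS ν hνS).1 (Finsupp.support_mapRange hb), fun b => ?_⟩
      simp only [hi, Finsupp.mapRange_apply]
      refine Nat.div_lt_of_lt_mul ?_
      rw [← pow_succ']
      exact (hS ν hνS).2 b

theorem CA_closure_pow_eq_top {β : Set k}
    (h : Subring.closure (Set.range (fun x : k => x ^ p) ∪ β) = ⊤) (n : ℕ) :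
    Subring.closure (Set.range (fun x : k => x ^ p ^ n) ∪ β) = ⊤ := by
  induction n with
  | zero =>
    rw [eq_top_iff]
    intro y _
    exact Subring.subset_closure (Or.inl ⟨y, by simp⟩)
  | succ n ih =>
    set R := Subring.closure (Set.range (fun x : k => x ^ p ^ (n + 1)) ∪ β) with hR
    have h1 : Subring.closure (Set.range (fun x : k => x ^ p ^ n) ∪ β) ≤
        R.comap (frobenius k p) := by
      rw [Subring.closure_le]
      rintro x (⟨z, rfl⟩ | hx)
      · change (z ^ p ^ n) ^ p ∈ R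
        rw [← pow_mul, ← pow_succ]
        exact Subring.subset_closure (Or.inl ⟨z, rfl⟩)
      · change x ^ p ∈ R
        exact R.pow_mem (Subring.subset_closure (Or.inr hx)) _
    rw [eq_top_iff, ← h, Subring.closure_le]
    rintro x (⟨z, rfl⟩ | hx)
    · exact h1 (ih ▸ Subring.mem_top z)
    · exact Subring.subset_closure (Or.inr hx)

end PBasis

end Crest.Agent.R183
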