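import Mathlib
import Crest.Agent.R183.CohenAuxa

/-! # R183 / Cohen : coefficient rings of complete filtered rings and of fibre products. -/

set_option autoImplicit false
open IsLocalRing

namespace Crest.Agent.R183

/-- a field or a complete discrete valuation ring -/
class Coef (C : Type) [CommRing C] : Prop extends IsDomain C, IsLocalRing C, IsPrincipalIdealRing C where
  compl : IsAdicComplete (maximalIdeal C) C

attribute [instance] Coef.compl

/-- a complete Noetherian local ring -/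
class CLN (R : Type) [CommRing R] : Prop extends IsLocalRing R where
  noeth : IsNoetherianRing R
  compl : IsAdicComplete (maximalIdeal R) R

attribute [instance] CLN.noeth CLN.compl

instance Coef.toCLN (C : Type) [CommRing C] [Coef C] : CLN C where
  noeth := inferInstance
  compl := inferInstance

theorem Coef.of_field (l : Type) [Field l] : Coef l where
  compl := inferInstance

/-- `WittVector.isDiscreteValuationRing`, `WittVector.isAdicCompleteIdealSpanP`,
`WittVector.irreducible` + `Irreducible.maximalIdeal_eq`. -/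
theorem Coef.of_witt (p : ℕ) [Fact p.Prime] (l : Type) [Field l] [CharP l p] [PerfectRing l p] :
    ∃ _ : Coef (WittVector p l),
      maximalIdeal (WittVector p l) = Ideal.span {(p : WittVector p l)} ∧
      (p : WittVector p l) ≠ 0 := by
  have hm : maximalIdeal (WittVector p l) = Ideal.span {(p : WittVector p l)} :=
    (WittVector.irreducible p).maximalIdeal_eq
  exact ⟨{ compl := hm ▸ WittVector.isAdicCompleteIdealSpanP }, hm,
    (WittVector.irreducible p).ne_zero⟩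

/-- Krull intersection: take the largest `j` with `π^j ∣ x`. -/
theorem Coef.exists_eq {C : Type} [CommRing C] [Coef C] {π : C}
    (hπ : maximalIdeal C = Ideal.span {π}) {x : C} (hx : x ≠ 0) :
    ∃ (j : ℕ) (u : Cˣ), x = u * π ^ j :=
  CA_exists_eq hπ hx

section PBasis
variable {k : Type} [Field k]

/-- the monomials in `β` with exponents `< q` are independent over `k^q` -/
def PInd (q : ℕ) (β : Set k) : Prop :=
  ∀ (S : Finset (k →₀ ℕ)) (a : (k →₀ ℕ) → k), (∀ μ ∈ S, ↑μ.support ⊆ β ∧ ∀ b, μ b < q) →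
    ∑ μ ∈ S, a μ ^ q * μ.prod (fun b n => b ^ n) = 0 → ∀ μ ∈ S, a μ = 0

variable (p : ℕ) [Fact p.Prime] [CharP k p]

/-- `K = closure (k^p ∪ β)` is a field (integral over the field `k^p`); if `y ∉ K` then
`X^p - C (y^p)` is irreducible over `K` (`X_pow_sub_C_irreducible_of_prime`, Frobenius injective), so
`1, y, …, y^(p-1)` are `K`-independent; group the sum by `μ y`. -/
theorem PInd.insert {β : Set k} (h : PInd p β) {y : k}
    (hy : y ∉ Subring.closure (Set.range (fun x : k => x ^ p) ∪ β)) : PInd p (insert y β) :=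
  CAInd.insert p h hy

/-- Zorn (`zorn_subset`); a finite union of supports lies in one member of a chain. -/
theorem exists_pbasis (k : Type) [Field k] [CharP k p] : ∃ β : Set k, PInd p β ∧
    Subring.closure (Set.range (fun x : k => x ^ p) ∪ β) = ⊤ :=
  CA_exists_pbasis p k

/-- group by `μ₀ = μ.mapRange (· % p)`, `μ = μ₀ + p • μ.mapRange (· / p)`; `sum_pow_char`. -/
theorem PInd.pow {β : Set k} (h : PInd p β) (n : ℕ) : PInd (p ^ n) β :=
  CAInd.pow p h n

/-- apply `frobenius` to the previous step (`Subring.closure_induction`). -/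
theorem closure_pow_eq_top {β : Set k}
    (h : Subring.closure (Set.range (fun x : k => x ^ p) ∪ β) = ⊤) (n : ℕ) :
    Subring.closure (Set.range (fun x : k => x ^ p ^ n) ∪ β) = ⊤ :=
  CA_closure_pow_eq_top p h n

end PBasis

/-- a complete separated multiplicative filtration with `P / 𝔞 1` a field -/
structure CFil (P : Type) [CommRing P] (𝔞 : ℕ → Ideal P) : Prop where
  anti : Antitone 𝔞
  zero : 𝔞 0 = ⊤
  mul : ∀ m n, 𝔞 m * 𝔞 n ≤ 𝔞 (m + n)
  max : (𝔞 1).IsMaximal
  haus : ∀ x, (∀ n, x ∈ 𝔞 n) → x = 0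
  prec : ∀ f : ℕ → P, (∀ n, f (n + 1) - f n ∈ 𝔞 n) → ∃ L, ∀ n, L - f n ∈ 𝔞 n

section CFil
variable {P : Type} [CommRing P] {𝔞 : ℕ → Ideal P}

theorem CFil.pow_mem (H : CFil P 𝔞) {x : P} (hx : x ∈ 𝔞 1) (n : ℕ) : x ^ n ∈ 𝔞 n := by
  induction n with
  | zero => rw [H.zero]; trivial
  | succ n ih => exact pow_succ x n ▸ H.mul n 1 (Ideal.mul_mem_mul ih hx)

/-- geometric series: `x y = 1 - m`, and the inverse of `1 - m` is the limit of `∑_{i<n} m^i`; it lies
in every closed subring containing `m`. -/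
theorem CFil.exists_inv (H : CFil P 𝔞) (D : Subring P)
    (hcl : ∀ x, (∀ n, ∃ d ∈ D, x - d ∈ 𝔞 n) → x ∈ D) (hres : ∀ x, ∃ d ∈ D, x - d ∈ 𝔞 1) {x : P}
    (hxD : x ∈ D) (hx : x ∉ 𝔞 1) : ∃ y ∈ D, x * y = 1 := by
  obtain ⟨y, i, hi, hy⟩ := H.max.exists_inv hx
  obtain ⟨d, hd, hyd⟩ := hres y
  have hm : 1 - x * d ∈ 𝔞 1 := by
    rw [show 1 - x * d = i + x * (y - d) by rw [← hy]; ring]
    exact add_mem hi (Ideal.mul_mem_left _ _ hyd)
  have hmD : 1 - x * d ∈ D := sub_mem D.one_mem (mul_mem hxD hd)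
  obtain ⟨L, hL⟩ := H.prec (fun n => ∑ j ∈ Finset.range n, (1 - x * d) ^ j) fun n => by
    rw [Finset.sum_range_succ, add_sub_cancel_left]
    exact H.pow_mem hm n
  refine ⟨d * L, mul_mem hd (hcl L fun n => ⟨_, sum_mem fun j _ => D.pow_mem hmD j, hL n⟩), ?_⟩
  refine sub_eq_zero.1 (H.haus _ fun n => ?_)
  have h1 := mul_neg_geom_sum (1 - x * d) n
  rw [show x * (d * L) - 1 = x * d * (L - ∑ j ∈ Finset.range n, (1 - x * d) ^ j) -
    (1 - x * d) ^ n by linear_combination h1]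
  exact sub_mem (Ideal.mul_mem_left _ _ (hL n)) (H.pow_mem hm n)

/-- `D ∩ 𝔞 n = π^n D` -/
theorem CFil.cohenb_div (H : CFil P 𝔞) (D : Subring P)
    (hcl : ∀ x, (∀ n, ∃ d ∈ D, x - d ∈ 𝔞 n) → x ∈ D) (hres : ∀ x, ∃ d ∈ D, x - d ∈ 𝔞 1) {π : P}
    (hπ1 : π ∈ 𝔞 1) (hπ : ∀ n, π ^ n ∉ 𝔞 (n + 1))
    (hdiv : ∀ n, ∀ d ∈ D, d ∈ 𝔞 1 → ∃ d' ∈ D, d - π * d' ∈ 𝔞 n) (n : ℕ) :
    ∀ d ∈ D, d ∈ 𝔞 n → ∃ d' ∈ D, d = π ^ n * d' := by
  have hmul : ∀ n, ∀ x ∈ 𝔞 n, π * x ∈ 𝔞 (n + 1) := fun n x hx =>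
    mul_comm x π ▸ H.mul n 1 (Ideal.mul_mem_mul hx hπ1)
  have hA : ∀ n, ∀ d ∈ D, d ∈ 𝔞 n ∨ ∃ j < n, ∃ v ∈ D, v ∉ 𝔞 1 ∧ d - π ^ j * v ∈ 𝔞 n := by
    intro n
    induction n with
    | zero => exact fun d _ => Or.inl (by rw [H.zero]; trivial)
    | succ n ih =>
      intro d hd
      by_cases h1 : d ∈ 𝔞 1
      · obtain ⟨d', hd', h2⟩ := hdiv (n + 1) d hd h1
        rcases ih d' hd' with h3 | ⟨j, hj, v, hv, hv1, h3⟩
        · exact Or.inl (by simpa using add_mem h2 (hmul n _ h3))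
        · refine Or.inr ⟨j + 1, by omega, v, hv, hv1, ?_⟩
          rw [show d - π ^ (j + 1) * v = d - π * d' + π * (d' - π ^ j * v) by ring]
          exact add_mem h2 (hmul n _ h3)
      · exact Or.inr ⟨0, by omega, d, hd, h1, by simp⟩
  have hC : ∀ n, ∀ x ∈ D, π * x ∈ 𝔞 (n + 1) → x ∈ 𝔞 n := by
    intro n x hx h1
    refine (hA n x hx).resolve_right ?_
    rintro ⟨j, hj, v, hv, hv1, h2⟩
    obtain ⟨y, -, hy⟩ := H.exists_inv D hcl hres hv hv1
    refine hπ (j + 1) (H.anti (show j + 1 + 1 ≤ n + 1 by omega) ?_)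
    rw [show π ^ (j + 1) = (π * x - π * (x - π ^ j * v)) * y by linear_combination -π ^ (j + 1) * hy]
    exact Ideal.mul_mem_right _ _ (sub_mem h1 (hmul n _ h2))
  have hD : ∀ d ∈ D, d ∈ 𝔞 1 → ∃ d' ∈ D, d = π * d' := by
    intro d hd h1
    choose f hf hf' using fun n => hdiv (n + 1) d hd h1
    obtain ⟨L, hL⟩ := H.prec f fun n => hC n _ (sub_mem (hf _) (hf _)) (by
      rw [show π * (f (n + 1) - f n) = d - π * f n - (d - π * f (n + 1)) by ring]
      exact sub_mem (hf' n) (H.anti (Nat.le_succ _) (hf' (n + 1))))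
    refine ⟨L, hcl L fun n => ⟨_, hf n, hL n⟩, sub_eq_zero.1 (H.haus _ fun n => ?_)⟩
    rw [show d - π * L = d - π * f n - π * (L - f n) by ring]
    exact H.anti (Nat.le_succ n) (sub_mem (hf' n) (hmul n _ (hL n)))
  induction n with
  | zero => exact fun d hd _ => ⟨d, hd, by simp⟩
  | succ n ih =>
    intro d hd h1
    obtain ⟨d', hd', rfl⟩ := hD d hd (H.anti (Nat.le_add_left 1 n) h1)
    obtain ⟨d'', hd'', rfl⟩ := ih d' hd' (hC n d' hd' h1)
    exact ⟨d'', hd'', by ring⟩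

/-- for `x ∈ D` and `n`: `x ∈ 𝔞 n` or `x ≡ π^j v (mod 𝔞 n)` with `j < n`, `v ∈ D \ 𝔞 1`.  Hence
`π x ∈ 𝔞 (n+1) → x ∈ 𝔞 n`, the approximate quotients `d'` converge, `D ∩ 𝔞 1 = π D`,
`D ∩ 𝔞 n = π^n D`.  So `D` is local (`exists_inv`), every nonzero element is `unit * π^j`, `π^j ≠ 0`:
domain, PID (an ideal is generated by `π^j` with `j` minimal), `π`-adically complete. -/
theorem CFil.coef_of_subring (H : CFil P 𝔞) (D : Subring P)
    (hcl : ∀ x, (∀ n, ∃ d ∈ D, x - d ∈ 𝔞 n) → x ∈ D) (hres : ∀ x, ∃ d ∈ D, x - d ∈ 𝔞 1) (π : D)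
    (hπ1 : (π : P) ∈ 𝔞 1) (hπ : ∀ n, (π : P) ^ n ∉ 𝔞 (n + 1))
    (hdiv : ∀ n, ∀ d ∈ D, d ∈ 𝔞 1 → ∃ d' ∈ D, d - π * d' ∈ 𝔞 n) :
    ∃ _ : Coef D, maximalIdeal D = Ideal.span {π} := by
  classical
  have hone : (1 : P) ∉ 𝔞 1 := fun h => H.max.ne_top ((Ideal.eq_top_iff_one _).2 h)
  have hdvd : ∀ (n : ℕ) (x : D), (x : P) ∈ 𝔞 n ↔ π ^ n ∣ x := by
    refine fun n x => ⟨fun h => ?_, ?_⟩
    · obtain ⟨d, hd, e⟩ := H.cohenb_div D hcl hres hπ1 hπ hdiv n x x.2 h
      exact ⟨⟨d, hd⟩, Subtype.ext e⟩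
    · rintro ⟨y, rfl⟩
      exact Ideal.mul_mem_right (y : P) _ (H.pow_mem hπ1 n)
  have hunit : ∀ x : D, IsUnit x ↔ (x : P) ∉ 𝔞 1 := by
    refine fun x => ⟨fun h hx => ?_, fun h => ?_⟩
    · obtain ⟨y, hy⟩ := h.exists_right_inv
      have h1 : (x : P) * y = 1 := congrArg Subtype.val hy
      exact hone (h1 ▸ Ideal.mul_mem_right _ _ hx)
    · obtain ⟨y, hy, e⟩ := H.exists_inv D hcl hres x.2 h
      exact IsUnit.of_mul_eq_one (⟨y, hy⟩ : D) (Subtype.ext e)
  have hnt : Nontrivial D := ⟨1, 0, fun h => hone (by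
    rw [show (1 : P) = 0 from congrArg Subtype.val h]
    exact zero_mem _)⟩
  have hloc : IsLocalRing D := IsLocalRing.of_isUnit_or_isUnit_one_sub_self fun a => by
    rw [hunit, hunit]
    by_contra h
    push Not at h
    exact hone (by simpa using add_mem h.1 h.2)
  have hmax : maximalIdeal D = Ideal.span {π} := by
    ext x
    rw [mem_maximalIdeal, mem_nonunits_iff, hunit, not_not, hdvd, pow_one, Ideal.mem_span_singleton]
  have hfac : ∀ x : D, x ≠ 0 → ∃ (j : ℕ) (u : D), IsUnit u ∧ x = π ^ j * u := by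
    intro x hx
    have hex : ∃ n, (x : P) ∉ 𝔞 (n + 1) := by
      by_contra h
      push Not at h
      exact hx (Subtype.ext (H.haus _ fun n => H.anti (Nat.le_succ n) (h n)))
    have h1 : (x : P) ∈ 𝔞 (Nat.find hex) := by
      rcases h : Nat.find hex with _ | j
      · rw [H.zero]; trivial
      · exact not_not.1 (Nat.find_min hex (m := j) (by omega))
    obtain ⟨u, hu⟩ := (hdvd _ x).1 h1
    refine ⟨_, u, (hunit u).2 fun h => Nat.find_spec hex ?_, hu⟩
    have h2 := H.mul _ 1 (Ideal.mul_mem_mul (H.pow_mem hπ1 (Nat.find hex)) h)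
    rwa [show (π : P) ^ Nat.find hex * u = x from (congrArg Subtype.val hu).symm] at h2
  have hnz : NoZeroDivisors D := ⟨fun {a b} hab => by
    by_contra h
    push Not at h
    obtain ⟨i, u, hu, rfl⟩ := hfac a h.1
    obtain ⟨j, v, hv, rfl⟩ := hfac b h.2
    have h1 : π ^ (i + j) = 0 := (hu.mul hv).mul_left_eq_zero.1 (by rw [← hab]; ring)
    refine hπ (i + j) ?_
    rw [show (π : P) ^ (i + j) = 0 from congrArg Subtype.val h1]
    exact zero_mem _⟩
  have hdom : IsDomain D := NoZeroDivisors.to_isDomain D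
  have hpid : IsPrincipalIdealRing D := ⟨fun I => by
    have hmem : ∀ (j : ℕ) (u : D), IsUnit u → π ^ j * u ∈ I → π ^ j ∈ I := fun j u hu h =>
      (I.mul_unit_mem_iff_mem hu).1 h
    by_cases hex : ∃ j, π ^ j ∈ I
    · refine ⟨π ^ Nat.find hex, le_antisymm (fun x hx => ?_) ?_⟩
      · rw [Ideal.submodule_span_eq, Ideal.mem_span_singleton]
        by_cases h0 : x = 0
        · exact h0 ▸ dvd_zero _
        · obtain ⟨j, u, hu, rfl⟩ := hfac x h0
          exact (pow_dvd_pow π (Nat.find_min' hex (hmem j u hu hx))).mul_right u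
      · rw [Ideal.submodule_span_eq, Ideal.span_singleton_le_iff_mem]
        exact Nat.find_spec hex
    · refine ⟨0, le_antisymm (fun x hx => ?_) (by simp)⟩
      by_contra h
      obtain ⟨j, u, hu, rfl⟩ := hfac x fun h0 => h (by rw [h0]; exact zero_mem _)
      exact hex ⟨j, hmem j u hu hx⟩⟩
  have hsm : ∀ (n : ℕ) (x y : D),
      x ≡ y [SMOD (maximalIdeal D ^ n • ⊤ : Submodule D D)] ↔ (x : P) - y ∈ 𝔞 n := by
    intro n x y
    rw [SModEq.sub_mem, smul_eq_mul, Ideal.mul_top, hmax, Ideal.span_singleton_pow,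
      Ideal.mem_span_singleton, ← hdvd]
    rfl
  have hhaus : IsHausdorff (maximalIdeal D) D := ⟨fun x hx =>
    Subtype.ext (H.haus _ fun n => by simpa using (hsm n x 0).1 (hx n))⟩
  have hprec : IsPrecomplete (maximalIdeal D) D := ⟨fun f hf => by
    obtain ⟨L, hL⟩ := H.prec (fun n => f n) fun n => (hsm n _ _).1 (hf (Nat.le_succ n)).symm
    exact ⟨⟨L, hcl L fun n => ⟨_, (f n).2, hL n⟩⟩, fun n => ((hsm n _ _).2 (hL n)).symm⟩⟩
  exact ⟨{ compl := {} }, hmax⟩

section CharP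
variable (p : ℕ) [Fact p.Prime] {k : Type} (s : k → P) (β : Set k)

/-- the subring generated by the `n`-th ghost components and the lifts of `β` -/
noncomputable def Cn (n : ℕ) : Subring P :=
  Subring.closure (Set.range (WittVector.ghostComponent n : WittVector p P →+* P) ∪ s '' β)

/-- `WittVector.ghostComponent_frobenius`. -/
theorem Cn_anti (n : ℕ) : Cn p s β (n + 1) ≤ Cn p s β n := by
  refine Subring.closure_mono (Set.union_subset_union_left _ ?_)
  rintro _ ⟨x, rfl⟩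
  exact ⟨WittVector.frobenius x, WittVector.ghostComponent_frobenius n x⟩

theorem Cn_antitone : Antitone (Cn p s β) := antitone_nat_of_succ_le (Cn_anti p s β)

theorem Cn_ghost_mem (n : ℕ) (x : WittVector p P) : WittVector.ghostComponent n x ∈ Cn p s β n :=
  Subring.subset_closure (Or.inl ⟨x, rfl⟩)

theorem Cn_mono_mem (n : ℕ) {μ : k →₀ ℕ} (hμ : ↑μ.support ⊆ β) :
    μ.prod (fun b m => s b ^ m) ∈ Cn p s β n :=
  Subring.prod_mem _ fun b hb => by
    have h : s b ∈ Cn p s β n := Subring.subset_closure (Or.inr ⟨b, hμ hb, rfl⟩)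
    exact Subring.pow_mem _ h _

/-- generators of the span used in `Cn_repr` -/
def CnGen (n : ℕ) : Set P :=
  {c | ∃ (μ : k →₀ ℕ) (w : WittVector p P), (↑μ.support ⊆ β ∧ ∀ b, μ b < p ^ n) ∧
    c = WittVector.ghostComponent n w * μ.prod (fun b m => s b ^ m)}

theorem CnGen_mul_lift {n : ℕ} {b : k} (hb : b ∈ β) {t : P} (ht : t ∈ CnGen p s β n) :
    s b * t ∈ CnGen p s β n := by
  classical
  obtain ⟨μ, w, ⟨hμ1, hμ2⟩, rfl⟩ := ht
  have hadd : ∀ μ ν : k →₀ ℕ, (μ + ν).prod (fun b m => s b ^ m) =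
      μ.prod (fun b m => s b ^ m) * ν.prod (fun b m => s b ^ m) := fun μ ν =>
    Finsupp.prod_add_index' (fun _ => pow_zero _) (fun _ _ _ => pow_add _ _ _)
  have hsingle : ∀ m : ℕ, (Finsupp.single b m).prod (fun b m => s b ^ m) = s b ^ m := fun m =>
    Finsupp.prod_single_index (pow_zero _)
  by_cases h : μ b + 1 < p ^ n
  · refine ⟨μ + Finsupp.single b 1, w, ⟨?_, fun b' => ?_⟩, ?_⟩
    · intro b' hb'
      rcases Finset.mem_union.1 (Finsupp.support_add hb') with h1 | h1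
      · exact hμ1 h1
      · rw [Finset.mem_singleton.1 (Finsupp.support_single_subset h1)]
        exact hb
    · by_cases hbb : b' = b
      · subst hbb
        simpa using h
      · simpa [Finsupp.single_eq_of_ne hbb] using hμ2 b'
    · rw [hadd, hsingle]
      ring
  · have h' : μ b + 1 = p ^ n := by have := hμ2 b; omega
    refine ⟨μ.erase b, WittVector.teichmuller p (s b) * w, ⟨?_, fun b' => ?_⟩, ?_⟩
    · intro b' hb'
      rw [Finsupp.support_erase] at hb'
      exact hμ1 (Finset.mem_of_mem_erase hb')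
    · by_cases hbb : b' = b
      · subst hbb
        rw [Finsupp.erase_same]
        omega
      · rw [Finsupp.erase_ne hbb]
        exact hμ2 b'
    · have h1 : μ.prod (fun b m => s b ^ m) =
          s b ^ μ b * (μ.erase b).prod (fun b m => s b ^ m) := by
        conv_lhs => rw [← Finsupp.single_add_erase b μ]
        rw [hadd, hsingle]
      rw [h1, map_mul, WittVector.ghostComponent_teichmuller, ← h']
      ring

theorem Cn_mul_span {n : ℕ} {c : P} (hc : c ∈ Cn p s β n) :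
    ∀ t ∈ AddSubgroup.closure (CnGen p s β n), c * t ∈ AddSubgroup.closure (CnGen p s β n) := by
  have key : ∀ c : P, (∀ t ∈ CnGen p s β n, c * t ∈ CnGen p s β n) →
      ∀ t ∈ AddSubgroup.closure (CnGen p s β n), c * t ∈ AddSubgroup.closure (CnGen p s β n) := by
    intro c h t ht
    induction ht using AddSubgroup.closure_induction with
    | mem x hx => exact AddSubgroup.subset_closure (h x hx)
    | zero => rw [mul_zero]; exact zero_mem _
    | add x y _ _ hx hy => rw [mul_add]; exact add_mem hx hy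
    | neg x _ hx => rw [mul_neg]; exact neg_mem hx
  unfold Cn at hc
  induction hc using Subring.closure_induction with
  | mem x hx =>
    rcases hx with ⟨w', rfl⟩ | ⟨b, hb, rfl⟩
    · refine key _ ?_
      rintro _ ⟨μ, w, hμ, rfl⟩
      exact ⟨μ, w' * w, hμ, by rw [map_mul, mul_assoc]⟩
    · exact key _ fun t ht => CnGen_mul_lift p s β hb ht
  | zero => intro t _; rw [zero_mul]; exact zero_mem _
  | one => intro t ht; rwa [one_mul]
  | add x y _ _ hx hy => intro t ht; rw [add_mul]; exact add_mem (hx t ht) (hy t ht)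
  | neg x _ hx => intro t ht; rw [neg_mul]; exact neg_mem (hx t ht)
  | mul x y _ _ hx hy => intro t ht; rw [mul_assoc]; exact hx _ (hy t ht)

/-- the span over the subring `range (ghostComponent n)` of the reduced monomials is closed under
multiplication by each `s b` (`s b ^ p^n = ghostComponent n (teichmuller p (s b))`), hence is a
subring. -/
theorem Cn_repr {n : ℕ} {c : P} (hc : c ∈ Cn p s β n) :
    ∃ (S : Finset (k →₀ ℕ)) (x : (k →₀ ℕ) → WittVector p P),
      (∀ μ ∈ S, ↑μ.support ⊆ β ∧ ∀ b, μ b < p ^ n) ∧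
      c = ∑ μ ∈ S, WittVector.ghostComponent n (x μ) * μ.prod (fun b m => s b ^ m) := by
  classical
  have h1 : (1 : P) ∈ AddSubgroup.closure (CnGen p s β n) :=
    AddSubgroup.subset_closure ⟨0, 1, ⟨by simp, fun b => by
      simpa using pow_pos (Fact.out : p.Prime).pos n⟩, by simp⟩
  have h2 := Cn_mul_span p s β hc 1 h1
  rw [mul_one] at h2
  clear hc
  induction h2 using AddSubgroup.closure_induction with
  | mem x hx =>
    obtain ⟨μ, w, hμ, rfl⟩ := hx
    exact ⟨{μ}, fun _ => w, by simpa using hμ, by simp⟩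
  | zero => exact ⟨∅, fun _ => 0, by simp, by simp⟩
  | add x y _ _ hx hy =>
    obtain ⟨S, a, hS, rfl⟩ := hx
    obtain ⟨S', a', hS', rfl⟩ := hy
    refine ⟨S ∪ S', fun μ => (if μ ∈ S then a μ else 0) + (if μ ∈ S' then a' μ else 0), ?_, ?_⟩
    · intro μ hμ
      rcases Finset.mem_union.1 hμ with h | h
      · exact hS μ h
      · exact hS' μ h
    · simp only [map_add, add_mul, Finset.sum_add_distrib]
      congr 1
      · rw [← Finset.sum_subset (Finset.subset_union_left (s₂ := S'))]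
        · exact Finset.sum_congr rfl fun μ hμ => by rw [if_pos hμ]
        · intro μ _ hμ
          rw [if_neg hμ, map_zero, zero_mul]
      · rw [← Finset.sum_subset (Finset.subset_union_right (s₁ := S))]
        · exact Finset.sum_congr rfl fun μ hμ => by rw [if_pos hμ]
        · intro μ _ hμ
          rw [if_neg hμ, map_zero, zero_mul]
  | neg x _ hx =>
    obtain ⟨S, a, hS, rfl⟩ := hx
    exact ⟨S, fun μ => -a μ, hS, by simp [Finset.sum_neg_distrib]⟩

/-- `ghostComponent_apply`, `aeval_wittPolynomial`, `Finset.sum_range_succ'`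
(or `x = teichmuller x₀ + verschiebung (x.shift 1)`). -/
theorem ghost_succ (n : ℕ) (x : WittVector p P) : ∃ x' : WittVector p P,
    WittVector.ghostComponent (n + 1) x =
      x.coeff 0 ^ p ^ (n + 1) + p * WittVector.ghostComponent n x' := by
  refine ⟨x.shift 1, ?_⟩
  simp only [WittVector.ghostComponent_apply, aeval_wittPolynomial]
  rw [Finset.sum_range_succ', add_comm, Finset.mul_sum]
  congr 1
  · simp
  · refine Finset.sum_congr rfl fun i _ => ?_
    rw [WittVector.shift_coeff, add_comm 1 i, Nat.add_sub_add_right]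
    ring

variable {s β} [Field k] [CharP k p] (π : P →+* k) (hπ : RingHom.ker π = 𝔞 1) (hs : ∀ x, π (s x) = x)
include hπ hs

theorem Cn_res (hβ : Subring.closure (Set.range (fun x : k => x ^ p) ∪ β) = ⊤) (n : ℕ) (x : P) :
    ∃ c ∈ Cn p s β n, x - c ∈ 𝔞 1 := by
  have h : Subring.closure (Set.range (fun x : k => x ^ p ^ n) ∪ β) ≤ (Cn p s β n).map π := by
    rw [Subring.closure_le]
    rintro _ (⟨y, rfl⟩ | hy)
    · refine ⟨_, Cn_ghost_mem p s β n (WittVector.teichmuller p (s y)), ?_⟩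
      rw [WittVector.ghostComponent_teichmuller, map_pow, hs]
    · exact ⟨s _, Subring.subset_closure (Or.inr ⟨_, hy, rfl⟩), hs _⟩
  rw [closure_pow_eq_top p hβ n] at h
  obtain ⟨c, hc, hcx⟩ := h (Subring.mem_top (π x))
  refine ⟨c, hc, ?_⟩
  rw [← hπ, RingHom.mem_ker, map_sub, hcx, sub_self]

/-- KEY.  `Cn_repr`, `ghost_succ`, `PInd.pow`; `n + 2 ≤ p^(n+1)`. -/
theorem Cn_key (H : CFil P 𝔞) (hβ : PInd p β) (n : ℕ) {c : P} (hc : c ∈ Cn p s β (n + 1))
    (h1 : c ∈ 𝔞 1) : ∃ c' ∈ Cn p s β n, c - p * c' ∈ 𝔞 (n + 2) := by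
  obtain ⟨S, x, hS, rfl⟩ := Cn_repr p s β hc
  choose x' hx' using fun μ => ghost_succ p n (x μ)
  refine ⟨∑ μ ∈ S, WittVector.ghostComponent n (x' μ) * μ.prod (fun b m => s b ^ m),
    Subring.sum_mem _ fun μ hμ =>
      Subring.mul_mem _ (Cn_ghost_mem p s β n _) (Cn_mono_mem p s β n (hS μ hμ).1), ?_⟩
  have h0 : ∑ μ ∈ S, π ((x μ).coeff 0) ^ p ^ (n + 1) * μ.prod (fun b m => b ^ m) = 0 := by
    rw [← hπ, RingHom.mem_ker, map_sum] at h1
    rw [← h1]
    refine Finset.sum_congr rfl fun μ _ => ?_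
    rw [hx', map_mul, map_add, map_mul, map_natCast, CharP.cast_eq_zero, zero_mul, add_zero,
      map_pow, map_finsuppProd]
    simp only [map_pow, hs]
  have h2 := PInd.pow p hβ (n + 1) S (fun μ => π ((x μ).coeff 0)) hS h0
  rw [Finset.mul_sum, ← Finset.sum_sub_distrib]
  refine Ideal.sum_mem _ fun μ hμ => ?_
  have h3 : (x μ).coeff 0 ∈ 𝔞 1 := by
    rw [← hπ, RingHom.mem_ker]
    exact h2 μ hμ
  have h4 : (x μ).coeff 0 ^ p ^ (n + 1) ∈ 𝔞 (n + 2) :=
    H.anti (Nat.lt_pow_self (Fact.out : p.Prime).one_lt) (H.pow_mem h3 _)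
  have h5 : WittVector.ghostComponent (n + 1) (x μ) * μ.prod (fun b m => s b ^ m) -
      p * (WittVector.ghostComponent n (x' μ) * μ.prod (fun b m => s b ^ m)) =
      (x μ).coeff 0 ^ p ^ (n + 1) * μ.prod (fun b m => s b ^ m) := by
    rw [hx']
    ring
  rw [h5]
  exact Ideal.mul_mem_right _ _ h4

/-- induction on `n`; `C (n+1) ⊆ C (n+2) + p C (n+1) + 𝔞 (n+2)`, iterate, `p^(n+2) ∈ 𝔞 (n+2)`. -/
theorem Cn_approx (H : CFil P 𝔞) (hβ : PInd p β)
    (hβ' : Subring.closure (Set.range (fun x : k => x ^ p) ∪ β) = ⊤) (n : ℕ) {c : P}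
    (hc : c ∈ Cn p s β n) : ∃ c' ∈ Cn p s β (n + 1), c - c' ∈ 𝔞 (n + 1) := by
  have hp1 : (p : P) ∈ 𝔞 1 := by
    rw [← hπ, RingHom.mem_ker, map_natCast, CharP.cast_eq_zero]
  induction n generalizing c with
  | zero => exact Cn_res p π hπ hs hβ' 1 c
  | succ n ih =>
    have step : ∀ c ∈ Cn p s β (n + 1), ∃ c1 ∈ Cn p s β (n + 2), ∃ c3 ∈ Cn p s β (n + 1),
        c - c1 - p * c3 ∈ 𝔞 (n + 2) := by
      intro c hc
      obtain ⟨c1, hc1, h1⟩ := Cn_res p π hπ hs hβ' (n + 2) c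
      obtain ⟨c2, hc2, h2⟩ :=
        Cn_key p π hπ hs H hβ n (Subring.sub_mem _ hc (Cn_anti p s β (n + 1) hc1)) h1
      obtain ⟨c3, hc3, h3⟩ := ih hc2
      refine ⟨c1, hc1, c3, hc3, ?_⟩
      have h4 : (c2 - c3) * p ∈ 𝔞 (n + 2) := H.mul (n + 1) 1 (Ideal.mul_mem_mul h3 hp1)
      have h5 : c - c1 - p * c3 = (c - c1 - p * c2) + (c2 - c3) * p := by ring
      rw [h5]
      exact add_mem h2 h4
    have iter : ∀ j : ℕ, ∃ c1 ∈ Cn p s β (n + 2), ∃ c3 ∈ Cn p s β (n + 1),
        c - c1 - p ^ j * c3 ∈ 𝔞 (n + 2) := by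
      intro j
      induction j with
      | zero => exact ⟨0, zero_mem _, c, hc, by simp⟩
      | succ j ihj =>
        obtain ⟨c1, hc1, c3, hc3, h1⟩ := ihj
        obtain ⟨d1, hd1, d3, hd3, h2⟩ := step c3 hc3
        refine ⟨c1 + p ^ j * d1,
          add_mem hc1 (mul_mem (pow_mem (natCast_mem _ p) j) hd1), d3, hd3, ?_⟩
        have h5 : c - (c1 + p ^ j * d1) - p ^ (j + 1) * d3 =
            (c - c1 - p ^ j * c3) + p ^ j * (c3 - d1 - p * d3) := by ring
        rw [h5]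
        exact add_mem h1 (Ideal.mul_mem_left _ _ h2)
    obtain ⟨c1, hc1, c3, -, h1⟩ := iter (n + 2)
    refine ⟨c1, hc1, ?_⟩
    have h5 : c - c1 = (c - c1 - p ^ (n + 2) * c3) + p ^ (n + 2) * c3 := by ring
    rw [h5]
    exact add_mem h1 (Ideal.mul_mem_right _ _ (H.pow_mem hp1 _))

/-- every element of `Cn n` is congruent to a limit of elements of all the `Cn m` -/
theorem Cn_lim (H : CFil P 𝔞) (hβ : PInd p β)
    (hβ' : Subring.closure (Set.range (fun x : k => x ^ p) ∪ β) = ⊤) (n : ℕ) {c : P}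
    (hc : c ∈ Cn p s β n) :
    ∃ d : P, (∀ m, ∃ c' ∈ Cn p s β m, d - c' ∈ 𝔞 (m + 1)) ∧ c - d ∈ 𝔞 (n + 1) := by
  have hstep : ∀ (j : ℕ) (c : Cn p s β (n + j)), ∃ c' : Cn p s β (n + (j + 1)),
      (c : P) - c' ∈ 𝔞 (n + j + 1) := by
    intro j c
    obtain ⟨c', hc', h⟩ := Cn_approx p π hπ hs H hβ hβ' (n + j) c.2
    exact ⟨⟨c', hc'⟩, h⟩
  choose nx hnx using hstep
  let f : (j : ℕ) → Cn p s β (n + j) := fun j => Nat.rec (motive := fun j => Cn p s β (n + j))
    ⟨c, hc⟩ (fun j c => nx j c) j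
  have hf : ∀ j, (f (j + 1) : P) - f j ∈ 𝔞 (n + j + 1) := by
    intro j
    rw [← neg_sub]
    exact neg_mem (hnx j (f j))
  obtain ⟨L, hL⟩ := H.prec (fun j => (f j : P)) fun j => H.anti (by omega) (hf j)
  refine ⟨L, fun m => ⟨f (m + 1), Cn_antitone p s β (by omega) (f (m + 1)).2, hL (m + 1)⟩, ?_⟩
  have h0 : ∀ j, (f j : P) - c ∈ 𝔞 (n + 1) := by
    intro j
    induction j with
    | zero =>
      have : (f 0 : P) = c := rfl
      rw [this, sub_self]
      exact zero_mem _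
    | succ j ih =>
      have : (f (j + 1) : P) - c = ((f (j + 1) : P) - f j) + (f j - c) := by ring
      rw [this]
      exact add_mem (H.anti (by omega) (hf j)) ih
  have h1 : c - L = -((L - f (n + 1)) + (f (n + 1) - c)) := by ring
  rw [h1]
  exact neg_mem (add_mem (hL (n + 1)) (h0 (n + 1)))

/-- `D = {x | ∀ n, ∃ c ∈ Cn n, x - c ∈ 𝔞 (n+1)}`; every `c ∈ Cn n` is congruent modulo `𝔞 (n+1)` to an
element of `D` (iterate `Cn_approx`, `H.prec`). -/
theorem exists_subring_charP (H : CFil P 𝔞) (hβ : PInd p β)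
    (hβ' : Subring.closure (Set.range (fun x : k => x ^ p) ∪ β) = ⊤) : ∃ D : Subring P,
    (∀ x, (∀ n, ∃ d ∈ D, x - d ∈ 𝔞 n) → x ∈ D) ∧ (∀ x, ∃ d ∈ D, x - d ∈ 𝔞 1) ∧
      ∀ n, ∀ d ∈ D, d ∈ 𝔞 1 → ∃ d' ∈ D, d - p * d' ∈ 𝔞 n := by
  let D : Subring P :=
    { carrier := {x | ∀ m, ∃ c ∈ Cn p s β m, x - c ∈ 𝔞 (m + 1)}
      mul_mem' := by
        intro x y hx hy m
        obtain ⟨c, hc, h1⟩ := hx m
        obtain ⟨d, hd, h2⟩ := hy m
        refine ⟨c * d, mul_mem hc hd, ?_⟩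
        have : x * y - c * d = (x - c) * y + c * (y - d) := by ring
        rw [this]
        exact add_mem (Ideal.mul_mem_right _ _ h1) (Ideal.mul_mem_left _ _ h2)
      one_mem' := fun m => ⟨1, one_mem _, by simp⟩
      add_mem' := by
        intro x y hx hy m
        obtain ⟨c, hc, h1⟩ := hx m
        obtain ⟨d, hd, h2⟩ := hy m
        refine ⟨c + d, add_mem hc hd, ?_⟩
        have : x + y - (c + d) = (x - c) + (y - d) := by ring
        rw [this]
        exact add_mem h1 h2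
      zero_mem' := fun m => ⟨0, zero_mem _, by simp⟩
      neg_mem' := by
        intro x hx m
        obtain ⟨c, hc, h1⟩ := hx m
        refine ⟨-c, neg_mem hc, ?_⟩
        have : -x - -c = -(x - c) := by ring
        rw [this]
        exact neg_mem h1 }
  have hD : ∀ x, x ∈ D ↔ ∀ m, ∃ c ∈ Cn p s β m, x - c ∈ 𝔞 (m + 1) := fun x => Iff.rfl
  refine ⟨D, fun x hx => (hD x).2 fun m => ?_, fun x => ?_, fun n d hd hd1 => ?_⟩
  · obtain ⟨d, hd, h1⟩ := hx (m + 1)
    obtain ⟨c, hc, h2⟩ := (hD d).1 hd m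
    refine ⟨c, hc, ?_⟩
    have : x - c = (x - d) + (d - c) := by ring
    rw [this]
    exact add_mem h1 h2
  · obtain ⟨c, hc, h1⟩ := Cn_res p π hπ hs hβ' 0 x
    obtain ⟨d, hd, h2⟩ := Cn_lim p π hπ hs H hβ hβ' 0 hc
    refine ⟨d, (hD d).2 hd, ?_⟩
    have : x - d = (x - c) + (c - d) := by ring
    rw [this]
    exact add_mem h1 h2
  · obtain ⟨c, hc, h1⟩ := (hD d).1 hd (n + 1)
    have hc1 : c ∈ 𝔞 1 := by
      have : c = d - (d - c) := by ring
      rw [this]
      exact sub_mem hd1 (H.anti (by omega) h1)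
    obtain ⟨c', hc', h2⟩ := Cn_key p π hπ hs H hβ n hc hc1
    obtain ⟨d', hd', h3⟩ := Cn_lim p π hπ hs H hβ hβ' n hc'
    refine ⟨d', (hD d').2 hd', ?_⟩
    have : d - p * d' = (d - c) + (c - p * c') + p * (c' - d') := by ring
    rw [this]
    exact add_mem (add_mem (H.anti (by omega) h1) (H.anti (by omega) h2))
      (Ideal.mul_mem_left _ _ (H.anti (by omega) h3))

end CharP

theorem Cd_smooth (k : Type) [Field k] [CharZero k] : Algebra.FormallySmooth ℤ k := by
  obtain ⟨s, hs⟩ := exists_isTranscendenceBasis ℚ k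
  have := hs.isAlgebraic_field
  have : Algebra.FormallySmooth ℚ k := .of_algebraicIndependent_of_isSeparable hs.1
  have : Algebra.FormallySmooth ℤ ℚ := .of_isLocalization (nonZeroDivisors ℤ)
  exact .comp ℤ ℚ k

theorem CFil.Cd_le (H : CFil P 𝔞) (n : ℕ) : 𝔞 (n + 2) ≤ 𝔞 (n + 1) := H.anti (Nat.le_succ (n + 1))

theorem CFil.Cd_step (H : CFil P 𝔞) {k : Type} [Field k] [CharZero k] (n : ℕ)
    (g : k →+* P ⧸ 𝔞 (n + 1)) : ∃ g' : k →+* P ⧸ 𝔞 (n + 2), ∀ x,
      Ideal.Quotient.factor (H.Cd_le n) (g' x) = g x := by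
  have := Cd_smooth k
  have hn : IsNilpotent (RingHom.ker
      (Ideal.Quotient.factor (H.Cd_le n)).toIntAlgHom) := by
    refine ⟨2, ?_⟩
    rw [sq, Submodule.zero_eq_bot, eq_bot_iff, Ideal.mul_le]
    intro a ha b hb
    obtain ⟨a, rfl⟩ := Ideal.Quotient.mk_surjective a
    obtain ⟨b, rfl⟩ := Ideal.Quotient.mk_surjective b
    have ha' : a ∈ 𝔞 (n + 1) := Ideal.Quotient.eq_zero_iff_mem.1 ha
    have hb' : b ∈ 𝔞 (n + 1) := Ideal.Quotient.eq_zero_iff_mem.1 hb
    rw [← map_mul, Ideal.mem_bot, Ideal.Quotient.eq_zero_iff_mem]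
    exact H.anti (by omega) (H.mul _ _ (Ideal.mul_mem_mul ha' hb'))
  have hs : Function.Surjective (Ideal.Quotient.factor (H.Cd_le n)).toIntAlgHom :=
    Ideal.Quotient.factor_surjective (H.Cd_le n)
  exact ⟨(Algebra.FormallySmooth.liftOfSurjective g.toIntAlgHom
    (Ideal.Quotient.factor (H.Cd_le n)).toIntAlgHom hs hn).toRingHom, fun x =>
      Algebra.FormallySmooth.liftOfSurjective_apply g.toIntAlgHom _ hs hn x⟩

theorem CFil.Cd_ext (H : CFil P 𝔞) {a b : P}
    (h : ∀ n, Ideal.Quotient.mk (𝔞 (n + 1)) a = Ideal.Quotient.mk (𝔞 (n + 1)) b) : a = b :=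
  sub_eq_zero.1 (H.haus _ fun n => H.anti (Nat.le_succ n) (Ideal.Quotient.eq.1 (h n)))

/-- `k` is formally smooth over `ℤ` (`ℚ` is a localisation; `exists_isTranscendenceBasis`,
`Algebra.FormallySmooth.of_algebraicIndependent_of_isSeparable`); lift successively to
`P ⧸ 𝔞 (n+1)` (`Algebra.FormallySmooth.liftOfSurjective`, square-zero kernels), pass to the limit. -/
theorem CFil.exists_section (H : CFil P 𝔞) {k : Type} [Field k] [CharZero k] (π : P →+* k)
    (hsurj : Function.Surjective π) (hπ : RingHom.ker π = 𝔞 1) :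
    ∃ j : k →+* P, ∀ x, π (j x) = x := by
  choose st hst using fun n (g : k →+* P ⧸ 𝔞 (n + 1)) => H.Cd_step n g
  let g₀ : k →+* P ⧸ 𝔞 1 :=
    π.liftOfSurjective hsurj ⟨Ideal.Quotient.mk _, by rw [hπ, Ideal.mk_ker]⟩
  have hg₀ : ∀ y, g₀ (π y) = Ideal.Quotient.mk _ y := fun y =>
    π.liftOfSurjective_comp_apply hsurj _ y
  let g : ∀ n, k →+* P ⧸ 𝔞 (n + 1) := fun n => Nat.rec g₀ (fun n g => st n g) n
  have hg : ∀ n x, Ideal.Quotient.factor (H.Cd_le n) (g (n + 1) x) = g n x :=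
    fun n x => hst n (g n) x
  choose f hf using fun n x => Ideal.Quotient.mk_surjective (g n x)
  have hd : ∀ n x, f (n + 1) x - f n x ∈ 𝔞 (n + 1) := fun n x => by
    rw [← Ideal.Quotient.eq, hf n, ← hg, ← hf (n + 1)]
    rfl
  choose L hL using fun x => H.prec (fun n => f n x) fun n => H.anti (Nat.le_succ n) (hd n x)
  have hL' : ∀ n x, Ideal.Quotient.mk (𝔞 (n + 1)) (L x) = g n x := fun n x => by
    rw [← hf, Ideal.Quotient.eq, ← sub_add_sub_cancel _ (f (n + 1) x)]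
    exact Ideal.add_mem _ (hL x (n + 1)) (hd n x)
  refine ⟨{ toFun := L
            map_one' := H.Cd_ext fun n => by rw [hL', map_one, map_one]
            map_mul' := fun a b => H.Cd_ext fun n => by rw [map_mul, hL', hL', hL', map_mul]
            map_zero' := H.Cd_ext fun n => by rw [hL', map_zero, map_zero]
            map_add' := fun a b => H.Cd_ext fun n => by rw [map_add, hL', hL', hL', map_add] },
    fun x => ?_⟩
  obtain ⟨y, rfl⟩ := hsurj x
  change π (L (π y)) = π y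
  rw [← sub_eq_zero, ← map_sub, ← RingHom.mem_ker, hπ, ← Ideal.Quotient.eq]
  exact (hL' 0 _).trans (hg₀ y)

/-- COEFFICIENT RING THEOREM. -/
theorem CFil.exists_coef (H : CFil P 𝔞) {k : Type} [Field k] (π : P →+* k)
    (hsurj : Function.Surjective π) (hπ : RingHom.ker π = 𝔞 1) (p : ℕ) [CharP k p]
    (hp : p ≠ 0 → ∀ n, (p : P) ^ n ∉ 𝔞 (n + 1)) :
    ∃ (C : Type) (_ : CommRing C) (_ : Coef C) (j : C →+* P), (∀ x, ∃ c, x - j c ∈ 𝔞 1) ∧
      maximalIdeal C = Ideal.span {(p : C)} := by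
  by_cases h0 : p = 0
  · subst h0
    have : CharZero k := CharP.charP_to_charZero k
    obtain ⟨j, hj⟩ := H.exists_section π hsurj hπ
    refine ⟨k, inferInstance, Coef.of_field k, j, fun x => ⟨π x, ?_⟩, ?_⟩
    · rw [← hπ, RingHom.mem_ker, map_sub, hj, sub_self]
    · rw [maximalIdeal_eq_bot, Nat.cast_zero, Ideal.span_singleton_zero]
  · have : Fact p.Prime := ⟨CharP.char_prime_of_ne_zero k h0⟩
    obtain ⟨β, hβ, hβ'⟩ := exists_pbasis p k
    obtain ⟨D, hcl, hres, hdiv⟩ :=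
      exists_subring_charP p π hπ (Function.surjInv_eq hsurj) H hβ hβ'
    have h1 : (p : P) ∈ 𝔞 1 := by
      rw [← hπ, RingHom.mem_ker, map_natCast, CharP.cast_eq_zero]
    obtain ⟨hC, hm⟩ := H.coef_of_subring D hcl hres (p : D) (by simpa using h1)
      (by simpa using hp h0) (by simpa using hdiv)
    refine ⟨D, inferInstance, hC, D.subtype, fun x => ?_, hm⟩
    obtain ⟨d, hd, hx⟩ := hres x
    exact ⟨⟨d, hd⟩, hx⟩

end CFil

theorem Cd_haus {A : Type} [CommRing A] (I : Ideal A) [IsHausdorff I A] {x : A}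
    (h : ∀ n, x ∈ I ^ n) : x = 0 :=
  IsHausdorff.haus' (I := I) x fun n => by simpa [SModEq.zero] using h n

theorem Cd_prec {A : Type} [CommRing A] (I : Ideal A) [IsPrecomplete I A] (f : ℕ → A)
    (h : ∀ n, f (n + 1) - f n ∈ I ^ n) : ∃ L, ∀ n, L - f n ∈ I ^ n := by
  have h1 : ∀ m n, m ≤ n → f n - f m ∈ I ^ m := fun m n hmn => by
    induction n, hmn using Nat.le_induction with
    | base => simp
    | succ n hmn ih =>
      rw [← sub_add_sub_cancel _ (f n)]
      exact Ideal.add_mem _ (Ideal.pow_le_pow_right hmn (h n)) ih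
  obtain ⟨L, hL⟩ := IsPrecomplete.prec' (I := I) f fun {m n} hmn => by
    refine SModEq.symm ?_
    simpa [SModEq.sub_mem] using h1 m n hmn
  exact ⟨L, fun n => by simpa [SModEq.sub_mem] using (hL n).symm⟩

theorem Cd_map_pow {A B : Type} [CommRing A] [CommRing B] [IsLocalRing A] [IsLocalRing B]
    (f : A →+* B) [IsLocalHom f] {n : ℕ} {x : A} (hx : x ∈ maximalIdeal A ^ n) :
    f x ∈ maximalIdeal B ^ n := by
  refine Ideal.pow_right_mono (map_maximalIdeal_le f) n ?_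
  rw [← Ideal.map_pow]
  exact Ideal.mem_map_of_mem _ hx

/-- FIBRE PRODUCT.  `P = φ.pullback ψ`, `𝔞 n = comap fst (𝔪_R^n) ⊓ comap snd (𝔪_Λ^n)`,
`π = residue R ∘ fst`.  `σ` is injective by `Coef.exists_eq` (if `p = 0`, `C` is a field). -/
theorem exists_coef_pair {R S Λ : Type} [CommRing R] [CommRing S] [CommRing Λ] [IsLocalRing R]
    [IsAdicComplete (maximalIdeal R) R] [IsLocalRing Λ] [IsAdicComplete (maximalIdeal Λ) Λ]
    [IsLocalRing S] [IsHausdorff (maximalIdeal S) S] (φ : R →+* S) [IsLocalHom φ] (ψ : Λ →+* S)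
    (hψ : Function.Surjective ψ) (p : ℕ) [CharP (ResidueField S) p]
    (hp : p ≠ 0 → ∀ n, (p : Λ) ^ n ∉ maximalIdeal Λ ^ (n + 1)) :
    ∃ (C : Type) (_ : CommRing C) (_ : Coef C) (ρ : C →+* R) (σ : C →+* Λ),
      φ.comp ρ = ψ.comp σ ∧ (∀ r, ∃ c, r - ρ c ∈ maximalIdeal R) ∧
      maximalIdeal C = Ideal.span {(p : C)} ∧ Function.Injective σ := by
  have : IsLocalHom ψ := hψ.isLocalHom
  have : CharP (ResidueField R) p := (RingHom.charP_iff_charP (ResidueField.map φ) p).2 ‹_›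
  let 𝔞 : ℕ → Ideal (φ.pullback ψ) := fun n =>
    (maximalIdeal R ^ n).comap (φ.pullbackFst ψ) ⊓ (maximalIdeal Λ ^ n).comap (φ.pullbackSnd ψ)
  have hsq : ∀ x, φ (φ.pullbackFst ψ x) = ψ (φ.pullbackSnd ψ x) := fun x => x.2
  have hs1 := RingHom.surjective_pullbackFst_of_surjective φ ψ hψ
  have hsurj : Function.Surjective ((residue R).comp (φ.pullbackFst ψ)) :=
    residue_surjective.comp hs1
  have hker : RingHom.ker ((residue R).comp (φ.pullbackFst ψ)) = 𝔞 1 := by
    ext x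
    simp only [𝔞, pow_one, RingHom.mem_ker, RingHom.comp_apply, residue_eq_zero_iff, Ideal.mem_inf,
      Ideal.mem_comap]
    refine ⟨fun h => ⟨h, ?_⟩, fun h => h.1⟩
    rw [← maximalIdeal_comap ψ, Ideal.mem_comap]
    exact hsq x ▸ map_nonunit φ (φ.pullbackFst ψ x) h
  have H : CFil (φ.pullback ψ) 𝔞 :=
    { anti := fun m n hmn => inf_le_inf (Ideal.comap_mono (Ideal.pow_le_pow_right hmn))
        (Ideal.comap_mono (Ideal.pow_le_pow_right hmn))
      zero := by simp [𝔞]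
      mul := fun m n => Ideal.mul_le.2 fun a ha b hb => by
        refine ⟨?_, ?_⟩
        · change φ.pullbackFst ψ (a * b) ∈ maximalIdeal R ^ (m + n)
          rw [map_mul, pow_add]
          exact Ideal.mul_mem_mul ha.1 hb.1
        · change φ.pullbackSnd ψ (a * b) ∈ maximalIdeal Λ ^ (m + n)
          rw [map_mul, pow_add]
          exact Ideal.mul_mem_mul ha.2 hb.2
      max := hker ▸ RingHom.ker_isMaximal_of_surjective _ hsurj
      haus := fun x hx => Subtype.ext (Prod.ext (Cd_haus (maximalIdeal R) fun n => (hx n).1)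
        (Cd_haus (maximalIdeal Λ) fun n => (hx n).2))
      prec := fun f hf => by
        obtain ⟨a, ha⟩ := Cd_prec (maximalIdeal R) (fun n => φ.pullbackFst ψ (f n))
          fun n => (hf n).1
        obtain ⟨b, hb⟩ := Cd_prec (maximalIdeal Λ) (fun n => φ.pullbackSnd ψ (f n))
          fun n => (hf n).2
        have hab : φ a = ψ b := by
          refine sub_eq_zero.1 (Cd_haus (maximalIdeal S) fun n => ?_)
          have e : φ a - ψ b = φ (a - φ.pullbackFst ψ (f n)) - ψ (b - φ.pullbackSnd ψ (f n)) := by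
            rw [map_sub, map_sub, hsq, sub_sub_sub_cancel_right]
          rw [e]
          exact Ideal.sub_mem _ (Cd_map_pow φ (ha n)) (Cd_map_pow ψ (hb n))
        exact ⟨⟨(a, b), hab⟩, fun n => ⟨ha n, hb n⟩⟩ }
  obtain ⟨C, _, _, j, hj, hm⟩ := H.exists_coef _ hsurj hker p fun h0 n hn => hp h0 n (by
    have h2 : φ.pullbackSnd ψ ((p : φ.pullback ψ) ^ n) ∈ maximalIdeal Λ ^ (n + 1) := hn.2
    rwa [map_pow, map_natCast] at h2)
  refine ⟨C, _, ‹_›, (φ.pullbackFst ψ).comp j, (φ.pullbackSnd ψ).comp j,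
    RingHom.ext fun c => hsq (j c), fun r => ?_, hm, ?_⟩
  · obtain ⟨x, rfl⟩ := hs1 r
    obtain ⟨c, hc⟩ := hj x
    refine ⟨c, ?_⟩
    have h2 : φ.pullbackFst ψ (x - j c) ∈ maximalIdeal R ^ 1 := hc.1
    rwa [map_sub, pow_one] at h2
  · rw [injective_iff_map_eq_zero]
    intro x hx
    by_contra hx0
    obtain ⟨i, u, rfl⟩ := Coef.exists_eq hm hx0
    rw [map_mul, (u.isUnit.map _).mul_right_eq_zero, map_pow, map_natCast] at hx
    by_cases h0 : p = 0
    · subst h0
      rcases i with _ | i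
      · simp at hx
      · simp at hx0
    · exact hp h0 i (hx ▸ Ideal.zero_mem _)

end Crest.Agent.R183
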