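import Crest.Agent.R183.Acyc

/-! # R183 / KT : from `(y)` to `(y)^k`. -/

set_option autoImplicit false

namespace Crest.Agent.R183

noncomputable def Lk (W : Type) [CommRing W] (n : ℕ) {B : Type} [CommRing B] [Algebra (Pz W n) B]
    (ξ : B) (F : FC B) {d : ℕ} (y : Fin d → B) (κ : Fin d → ℕ) (t : ℕ) : ℕ∞ :=
  cl (F.J ⊔ Ideal.span (Set.range fun l => y l ^ κ l) ⊔ kk W n ξ t)

section
variable {n : ℕ} {W : Type} [CommRing W] {B : Type} [CommRing B] [Algebra (Pz W n) B]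
  {ξ : B} {pp : W} {ρ : ℕ}

theorem KTa_key (H : Hx n pp ξ ρ) {t kb : ℕ} {θ : B}
    (hkb : cl (kk W n ξ t ⊔ Ideal.span {θ}) ≤ kb) {Z E : Ideal B} (hE : kk W n ξ t ≤ E)
    (h : ∀ x ∈ Z, θ * x ∈ E) : len Z E ≤ kb := by
  have hf : len (⊤ : Ideal B) (kk W n ξ t) ≠ ⊤ := by
    rw [← cl_eq_len]
    exact ne_top_of_le_ne_top (ENat.natCast_ne_top _) (cl_kk_le H t)
  refine (len_le_kap θ (A := ⊤) hE (le_top.trans le_sup_left) hf h).trans ?_
  rw [kap_top_ideal, ← cl_eq_len]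
  exact hkb

theorem KTa_span_le {d k : ℕ} (y : Fin d → B) {κ : Fin d → ℕ} (hκ : ∀ l, κ l ≤ k) :
    Ideal.span (Set.range fun l => y l ^ k) ≤ Ideal.span (Set.range fun l => y l ^ κ l) := by
  rw [Ideal.span_le]
  rintro _ ⟨l, rfl⟩
  exact Ideal.mem_of_dvd _ (pow_dvd_pow (y l) (hκ l)) (Ideal.subset_span ⟨l, rfl⟩)

theorem KTa_span_update {d : ℕ} (y : Fin (d + 1) → B) (κ : Fin (d + 1) → ℕ) (i : Fin (d + 1))
    (s : ℕ) : Ideal.span (Set.range fun l => y l ^ Function.update κ i s l) =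
      Ideal.span {z | z ∈ List.ofFn fun j => y (i.succAbove j) ^ κ (i.succAbove j)} ⊔
        Ideal.span {y i ^ s} := by
  rw [← Ideal.span_union]
  congr 1
  ext z
  simp only [Set.mem_range, Fin.exists_iff_succAbove i, Function.update_self,
    Function.update_of_ne (Fin.succAbove_ne i _), Set.mem_union, Set.mem_ofPred_eq, List.mem_ofFn,
    Set.mem_singleton_iff]
  rw [or_comm, eq_comm]

/-- `θ 𝔫^M' ⊆ J + (y^k) + kk K` (`FC.nh_le_J`, `pow_le_frob`); `len_add`, `len_le_kap` with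
`A' = kk (2M')`, `kap_top_ideal`, `cl_kk_le`. -/
theorem Lk_level (H : Hx n pp ξ ρ) {F : FC B} (h1 : F.One) {d k K M kb : ℕ} (y : Fin d → B) (θ : B)
    (hθ : ∀ i, θ * zB W n B i ^ M ∈
      F.nh (kk W n ξ K) ⊔ Ideal.span (Set.range fun l => y l ^ k))
    (hK : 3 * ((n + 1) * M) ≤ K)
    (hkb : cl (kk W n ξ (2 * ((n + 1) * M)) ⊔ Ideal.span {θ ^ (n + 1)}) ≤ kb) (κ : Fin d → ℕ)
    (hκ : ∀ l, κ l ≤ k) :
    Lk W n ξ F y κ (2 * ((n + 1) * M)) ≤ Lk W n ξ F y κ ((n + 1) * M) + kb := by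
  unfold Lk
  rw [cl_eq_len, cl_eq_len]
  refine (len_le_add _ _ _).trans (add_le_add_right (KTa_key H hkb le_sup_right ?_) _)
  have h2 : Ideal.span (Set.range fun i => zB W n B i ^ M) ≤
      (F.J ⊔ Ideal.span (Set.range fun l => y l ^ κ l) ⊔ kk W n ξ (2 * ((n + 1) * M))).colon {θ} := by
    rw [Ideal.span_le]
    rintro _ ⟨i, rfl⟩
    rw [SetLike.mem_coe, Submodule.mem_colon_singleton, smul_eq_mul, mul_comm _ θ]
    have h3 : F.nh (kk W n ξ K) ⊔ Ideal.span (Set.range fun l => y l ^ k) ≤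
        F.J ⊔ Ideal.span (Set.range fun l => y l ^ κ l) ⊔ kk W n ξ (2 * ((n + 1) * M)) :=
      sup_le ((FC.nh_le_J h1 _).trans (sup_le (le_sup_left.trans le_sup_left)
        ((kk_anti ξ (by omega)).trans le_sup_right)))
        ((KTa_span_le y hκ).trans (le_sup_right.trans le_sup_left))
    exact h3 (hθ i)
  have h3 : F.J ⊔ Ideal.span (Set.range fun l => y l ^ κ l) ⊔ kk W n ξ ((n + 1) * M) ≤
      (F.J ⊔ Ideal.span (Set.range fun l => y l ^ κ l) ⊔ kk W n ξ (2 * ((n + 1) * M))).colon {θ} := by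
    refine sup_le (fun x hx => ?_) (sup_le (fun x hx => ?_) ((pow_le_frob (zB W n B) M).trans h2))
    · rw [Submodule.mem_colon_singleton, smul_eq_mul]
      exact Ideal.mul_mem_right _ _ (Ideal.mem_sup_left hx)
    · rw [Submodule.mem_colon_singleton, smul_eq_mul]
      exact Ideal.mul_mem_right _ _ (Ideal.mem_sup_right (Ideal.mem_sup_left hx))
  intro x hx
  have h4 := h3 hx
  rw [Submodule.mem_colon_singleton, smul_eq_mul] at h4
  rw [pow_succ, mul_assoc, mul_comm θ]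
  exact Ideal.mul_mem_left _ _ h4

/-- `C' = kos l F` with `l` the list of the `y j ^ κ j`, `j ≠ i` (length `d₁`, e.g.
`List.ofFn fun j => y (i.succAbove j) ^ κ (i.succAbove j)`), `E = C'.J ⊔ kk (2M')`.
`cl (E + y^(s+1)) = cl (E + y^s) + cl ((E : y^s) + y)` (`cl_eq_add_colon`); `acyc_cone` (with `t = M'`)
says `θ' (E : y^s) ≤ C'.J ⊔ kk M'`; `len_le_kap`; `Lk_level`. -/
theorem Lk_step (H : Hx n pp ξ ρ) {F : FC B} (h1 : F.One) {d₁ c k K M kb : ℕ} (hn : d₁ + c = n)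
    (hdg : F.DegLe c) (hsq : F.Sq (kk W n ξ K)) (y : Fin (d₁ + 1) → B) (θ : B)
    (hθ : ∀ i, θ * zB W n B i ^ M ∈
      F.nh (kk W n ξ K) ⊔ Ideal.span (Set.range fun l => y l ^ k))
    (hK : 3 * ((n + 1) * M) ≤ K)
    (hkb : cl (kk W n ξ (2 * ((n + 1) * M)) ⊔ Ideal.span {θ ^ (n + 1)}) ≤ kb)
    (κ : Fin (d₁ + 1) → ℕ) (hκ : ∀ l, κ l ≤ k) (i : Fin (d₁ + 1)) {s : ℕ} (hs : s + 1 ≤ k) :
    Lk W n ξ F y (Function.update κ i s) (2 * ((n + 1) * M)) +
      Lk W n ξ F y (Function.update κ i 1) (2 * ((n + 1) * M)) ≤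
      Lk W n ξ F y (Function.update κ i (s + 1)) (2 * ((n + 1) * M)) + 2 * kb := by
  have hupd : ∀ r, r ≤ k → ∀ l, Function.update κ i r l ≤ k := fun r hr l => by
    by_cases h : l = i
    · rw [h, Function.update_self]; exact hr
    · rw [Function.update_of_ne h]; exact hκ l
  have hlev := Lk_level H h1 y θ hθ hK hkb (Function.update κ i 1) (hupd 1 (by omega))
  obtain ⟨l, hl⟩ : ∃ l, l = List.ofFn fun j => y (i.succAbove j) ^ κ (i.succAbove j) := ⟨_, rfl⟩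
  have hL : ∀ r t, Lk W n ξ F y (Function.update κ i r) t =
      cl ((FC.kos l F).J ⊔ kk W n ξ t ⊔ Ideal.span {y i ^ r}) := fun r t => by
    rw [Lk, KTa_span_update, ← hl, FC.kos_J l h1]
    congr 1
    ac_rfl
  have hdg' : (FC.kos l F).DegLe n := by
    have := FC.kos_degLe l hdg
    rwa [hl, List.length_ofFn, add_comm, hn, ← hl] at this
  have hθ' : ∀ j, θ * zB W n B j ^ M ∈ ((FC.kos l F).cone (y i ^ s)).nh (kk W n ξ K) := fun j => by
    refine SetLike.le_def.1 (sup_le ?_ ?_) (hθ j)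
    · exact (le_sup_left.trans (FC.nh_le_kos F _ l)).trans (le_sup_left.trans (FC.nh_le_cone _ _ _))
    · refine (KTa_span_le y (hupd s (by omega))).trans ?_
      rw [KTa_span_update, ← hl]
      exact (sup_le_sup_right (le_sup_right.trans (FC.nh_le_kos F _ l)) _).trans
        (FC.nh_le_cone _ _ _)
  rw [hL, hL] at hlev
  rw [hL, hL, hL]
  obtain ⟨E, hE⟩ : ∃ E, E = (FC.kos l F).J ⊔ kk W n ξ (2 * ((n + 1) * M)) := ⟨_, rfl⟩
  rw [← hE] at hlev ⊢
  have h2 : E ⊔ Ideal.span {y i ^ (s + 1)} ⊔ Ideal.span {y i ^ s} = E ⊔ Ideal.span {y i ^ s} := by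
    have : Ideal.span {y i ^ (s + 1)} ≤ Ideal.span {y i ^ s} :=
      Ideal.span_singleton_le_span_singleton.2 (pow_dvd_pow _ (Nat.le_succ s))
    rw [sup_assoc, sup_eq_right.2 this]
  have h3 : len ((E ⊔ Ideal.span {y i ^ (s + 1)}).colon {y i ^ s})
      ((FC.kos l F).J ⊔ kk W n ξ ((n + 1) * M) ⊔ Ideal.span {y i ^ 1}) ≤ kb := by
    refine KTa_key H hkb ((kk_anti ξ (by omega)).trans (le_sup_right.trans le_sup_left))
      fun x hx => ?_
    rw [Submodule.mem_colon_singleton, smul_eq_mul] at hx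
    obtain ⟨e, he, b, hb, hx⟩ := Submodule.mem_sup.1 hx
    obtain ⟨a, rfl⟩ := Ideal.mem_span_singleton'.1 hb
    have h4 : y i ^ s * (x - a * y i) ∈
        (FC.kos l F).J ⊔ kk W n ξ ((n + 1) * M + (n + 1) * M) := by
      have e1 : y i ^ s * (x - a * y i) = e := by linear_combination -hx
      rw [e1, ← two_mul, ← hE]
      exact he
    have h5 := acyc_cone H (FC.kos_one l h1) (FC.kos_sq l hsq) hdg' (y i ^ s) θ hθ' (by omega) _ h4
    have e2 : θ ^ (n + 1) * x = θ ^ (n + 1) * (x - a * y i) + (θ ^ (n + 1) * a) * y i ^ 1 := by ring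
    rw [e2]
    exact Submodule.add_mem_sup h5 (Ideal.mul_mem_left _ _ (Ideal.mem_span_singleton_self _))
  have h4 : cl ((FC.kos l F).J ⊔ kk W n ξ ((n + 1) * M) ⊔ Ideal.span {y i ^ 1}) ≤
      cl ((E ⊔ Ideal.span {y i ^ (s + 1)}).colon {y i ^ s}) + kb := by
    rw [cl_eq_len, cl_eq_len]
    exact (len_le_add _ _ _).trans (add_le_add_right h3 _)
  rw [cl_eq_add_colon (E ⊔ Ideal.span {y i ^ (s + 1)}) (y i ^ s), h2, add_assoc, two_mul, ← add_assoc
    (cl (Submodule.colon _ _))]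
  exact add_le_add_right (hlev.trans (add_le_add_left h4 _)) _

/-- `κ⁽ʳ⁾ l = if l < r then k else 1`; `k L(κ⁽ʳ⁾) ≤ L(κ⁽ʳ⁺¹⁾) + 2 k kb`, so
`k^r L(1) ≤ L(κ⁽ʳ⁾) + 2 r k^r kb`; then `cl_frob_le_pow`, `choose_le_pow_succ`, cancel the finite
`L(1)` (`cl_kk_le`), and `cl_anti`. -/
theorem ktrick (H : Hx n pp ξ ρ) {F : FC B} (h1 : F.One) {d₁ c k K M kb : ℕ} (hn : d₁ + c = n)
    (hk : 1 ≤ k) (hdg : F.DegLe c) (hsq : F.Sq (kk W n ξ K)) (y : Fin (d₁ + 1) → B) (θ : B)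
    (hθ : ∀ i, θ * zB W n B i ^ M ∈
      F.nh (kk W n ξ K) ⊔ Ideal.span (Set.range fun l => y l ^ k))
    (hK : 3 * ((n + 1) * M) ≤ K)
    (hkb : cl (kk W n ξ (2 * ((n + 1) * M)) ⊔ Ideal.span {θ ^ (n + 1)}) ≤ kb) :
    ((k + d₁).choose (d₁ + 1) : ℕ) *
        cl (F.J ⊔ Ideal.span (Set.range y) ⊔ kk W n ξ ((n + 1) * M)) ≤
      cl (F.J ⊔ Ideal.span (Set.range y) ^ k ⊔ kk W n ξ (2 * ((n + 1) * M))) +
        (2 * (d₁ + 1) * k ^ (d₁ + 1) * kb : ℕ) := by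
  classical
  obtain ⟨T, hT⟩ : ∃ T, T = 2 * ((n + 1) * M) := ⟨_, rfl⟩
  have hfin : ∀ I : Ideal B, ∃ m : ℕ, cl (I ⊔ kk W n ξ T) = m := fun I => by
    have a1 : cl (I ⊔ kk W n ξ T) ≤ ((T + n).choose (n + 1) * ρ : ℕ) :=
      (cl_anti le_sup_right).trans (cl_kk_le H T)
    exact ⟨_, (ENat.natCast_toNat (ne_top_of_le_ne_top (ENat.natCast_ne_top _) a1)).symm⟩
  choose l hl using hfin
  obtain ⟨L, hL⟩ : ∃ L : (Fin (d₁ + 1) → ℕ) → ℕ, ∀ κ, Lk W n ξ F y κ T = L κ :=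
    ⟨fun κ => l (F.J ⊔ Ideal.span (Set.range fun j => y j ^ κ j)), fun κ => hl _⟩
  have s1 : ∀ κ : Fin (d₁ + 1) → ℕ, (∀ j, κ j ≤ k) → ∀ (i : Fin (d₁ + 1)) (s : ℕ), s ≤ k →
      s * L (Function.update κ i 1) ≤ L (Function.update κ i s) + 2 * s * kb := by
    intro κ hκ i s hs
    induction s with
    | zero => simp
    | succ s ih =>
      have a1 := Lk_step H h1 hn hdg hsq y θ hθ hK hkb κ hκ i hs
      rw [← hT, hL, hL, hL] at a1
      have a2 : L (Function.update κ i s) + L (Function.update κ i 1) ≤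
          L (Function.update κ i (s + 1)) + 2 * kb := by exact_mod_cast a1
      have a3 := ih (by omega)
      nlinarith
  obtain ⟨κ, hκ⟩ : ∃ κ : ℕ → Fin (d₁ + 1) → ℕ,
      κ = fun (r : ℕ) (j : Fin (d₁ + 1)) => if j.val < r then k else 1 := ⟨_, rfl⟩
  have s2 : ∀ r, r ≤ d₁ + 1 → k ^ r * L (κ 0) ≤ L (κ r) + 2 * r * k ^ r * kb := by
    intro r hr
    induction r with
    | zero => simp
    | succ r ih =>
      have a1 := s1 (κ r) (fun j => by rw [hκ]; dsimp only; split_ifs <;> omega) ⟨r, hr⟩ k le_rfl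
      have e1 : Function.update (κ r) ⟨r, hr⟩ 1 = κ r := by
        rw [Function.update_eq_self_iff, hκ]
        simp
      have e2 : Function.update (κ r) ⟨r, hr⟩ k = κ (r + 1) := by
        funext j
        by_cases hj : j = ⟨r, hr⟩
        · rw [hj, Function.update_self, hκ]
          simp
        · rw [Function.update_of_ne hj, hκ]
          have : j.val ≠ r := fun e => hj (Fin.ext e)
          dsimp only
          split_ifs <;> omega
      rw [e1, e2] at a1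
      have a2 := Nat.mul_le_mul_left k (ih (by omega))
      have a3 : k * kb ≤ k ^ (r + 1) * kb :=
        Nat.mul_le_mul_right _ (Nat.le_self_pow (by omega) k)
      rw [pow_succ] at a3 ⊢
      nlinarith
  have s3 := s2 (d₁ + 1) le_rfl
  have e0 : (L (κ 0) : ℕ∞) = cl (F.J ⊔ kk W n ξ T ⊔ Ideal.span (Set.range y)) := by
    rw [← hL, Lk, sup_right_comm, hκ]
    simp
  have e1 : (L (κ (d₁ + 1)) : ℕ∞) =
      cl (F.J ⊔ kk W n ξ T ⊔ Ideal.span (Set.range fun i => y i ^ k)) := by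
    rw [← hL, Lk, sup_right_comm, hκ]
    simp only [Fin.is_lt, if_true]
  have s4 := cl_frob_le_pow y (F.J ⊔ kk W n ξ T) k
  rw [← e0, ← e1, sup_right_comm, hl] at s4
  have s5 : L (κ (d₁ + 1)) ≤ l (F.J ⊔ Ideal.span (Set.range y) ^ k) +
      (k ^ (d₁ + 1) - (k + d₁).choose (d₁ + 1)) * L (κ 0) := by exact_mod_cast s4
  have s6 := choose_le_pow_succ d₁ k
  have s7 : (k + d₁).choose (d₁ + 1) * L (κ 0) ≤ l (F.J ⊔ Ideal.span (Set.range y) ^ k) +
      2 * (d₁ + 1) * k ^ (d₁ + 1) * kb := by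
    obtain ⟨e, he⟩ := Nat.exists_eq_add_of_le s6
    rw [he, Nat.add_sub_cancel_left] at s5
    have a1 : k ^ (d₁ + 1) * L (κ 0) = (k + d₁).choose (d₁ + 1) * L (κ 0) + e * L (κ 0) := by
      rw [← add_mul, ← he]
    omega
  have s8 : cl (F.J ⊔ Ideal.span (Set.range y) ⊔ kk W n ξ ((n + 1) * M)) ≤ L (κ 0) := by
    rw [e0, sup_right_comm F.J (kk W n ξ T)]
    exact cl_anti (sup_le_sup_left (kk_anti ξ (by omega)) _)
  rw [← hT, hl]
  refine (mul_le_mul_right s8 _).trans ?_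
  exact_mod_cast s7

end

end Crest.Agent.R183
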