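import Mathlib

/-! # R183 / FC : finite free complexes as one square matrix with a degree function,
modulo an ideal; cones, Koszul lists, null-homotopic scalars. -/

set_option autoImplicit false

namespace Crest.Agent.R183

structure FC (B : Type) [CommRing B] where
  ι : Type
  [fin : Fintype ι]
  [dec : DecidableEq ι]
  deg : ι → ℕ
  d : Matrix ι ι B
  hd : ∀ a b, d a b ≠ 0 → deg b = deg a + 1

attribute [instance] FC.fin FC.dec

namespace FC
variable {B : Type} [CommRing B] {B' : Type} [CommRing B']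

def Sq (P : FC B) (𝔨 : Ideal B) : Prop := ∀ a c, (P.d * P.d) a c ∈ 𝔨

/-- `s` is a homotopy for the scalar `t` modulo `𝔨`. -/
structure Htp (P : FC B) (𝔨 : Ideal B) (t : B) (s : Matrix P.ι P.ι B) : Prop where
  hdeg : ∀ a b, s a b ≠ 0 → P.deg a = P.deg b + 1
  heq : ∀ a b, (P.d * s + s * P.d - t • (1 : Matrix P.ι P.ι B)) a b ∈ 𝔨

theorem Htp.add {P : FC B} {𝔨 : Ideal B} {t t' : B} {s s' : Matrix P.ι P.ι B}
    (h : P.Htp 𝔨 t s) (h' : P.Htp 𝔨 t' s') : P.Htp 𝔨 (t + t') (s + s') := by
  refine ⟨fun a b hab => ?_, fun a b => ?_⟩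
  · by_cases h0 : s a b = 0
    · exact h'.hdeg a b (by simpa [h0] using hab)
    · exact h.hdeg a b h0
  · have e : P.d * (s + s') + (s + s') * P.d - (t + t') • (1 : Matrix P.ι P.ι B) =
        (P.d * s + s * P.d - t • (1 : Matrix P.ι P.ι B)) +
          (P.d * s' + s' * P.d - t' • (1 : Matrix P.ι P.ι B)) := by
      rw [mul_add, add_mul, add_smul]; abel
    rw [e, Matrix.add_apply]
    exact 𝔨.add_mem (h.heq a b) (h'.heq a b)

theorem Htp.smul {P : FC B} {𝔨 : Ideal B} {t : B} {s : Matrix P.ι P.ι B} (r : B)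
    (h : P.Htp 𝔨 t s) : P.Htp 𝔨 (r * t) (r • s) := by
  refine ⟨fun a b hab => h.hdeg a b fun h0 => hab (by simp [h0]), fun a b => ?_⟩
  have e : P.d * (r • s) + (r • s) * P.d - (r * t) • (1 : Matrix P.ι P.ι B) =
      r • (P.d * s + s * P.d - t • (1 : Matrix P.ι P.ι B)) := by
    rw [Matrix.mul_smul, Matrix.smul_mul, mul_smul, smul_sub, smul_add]
  rw [e, Matrix.smul_apply, smul_eq_mul]
  exact 𝔨.mul_mem_left r (h.heq a b)

theorem Htp.of_mem (P : FC B) {𝔨 : Ideal B} {t : B} (ht : t ∈ 𝔨) : P.Htp 𝔨 t 0 := by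
  refine ⟨fun a b hab => absurd rfl hab, fun a b => ?_⟩
  simp only [mul_zero, zero_mul, add_zero, zero_sub, Matrix.neg_apply, Matrix.smul_apply,
    smul_eq_mul]
  exact 𝔨.neg_mem (𝔨.mul_mem_right _ ht)

/-- the ideal of null-homotopic scalars -/
def nh (P : FC B) (𝔨 : Ideal B) : Ideal B where
  carrier := {t | ∃ s, P.Htp 𝔨 t s}
  add_mem' := fun ⟨_, h⟩ ⟨_, h'⟩ => ⟨_, h.add h'⟩
  zero_mem' := ⟨0, Htp.of_mem P 𝔨.zero_mem⟩
  smul_mem' := fun r _ ⟨_, h⟩ => ⟨_, h.smul r⟩

theorem le_nh (P : FC B) (𝔨 : Ideal B) : 𝔨 ≤ P.nh 𝔨 := fun _ ht => ⟨0, Htp.of_mem P ht⟩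

theorem nh_mono (P : FC B) {𝔨 𝔨' : Ideal B} (h : 𝔨 ≤ 𝔨') : P.nh 𝔨 ≤ P.nh 𝔨' := by
  rintro t ⟨s, hs⟩
  exact ⟨s, hs.hdeg, fun a b => h (hs.heq a b)⟩

def J (P : FC B) : Ideal B := Ideal.span {t | ∃ a b, P.deg a = 0 ∧ t = P.d a b}

def One (P : FC B) : Prop := ∃! a, P.deg a = 0

def Ent (P : FC B) (𝔞 : Ideal B) : Prop := ∀ a b, P.d a b ∈ 𝔞

def DegLe (P : FC B) (c : ℕ) : Prop := ∀ a, P.deg a ≤ c

/-- exact in degree `k` -/
def ExactAt (P : FC B) (k : ℕ) : Prop :=
  ∀ v : P.ι → B, (∀ a, P.deg a ≠ k → v a = 0) → P.d.mulVec v = 0 →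
    ∃ v' : P.ι → B, (∀ a, P.deg a ≠ k + 1 → v' a = 0) ∧ P.d.mulVec v' = v

/-- look at the diagonal entry `(a₀,a₀)`; `s a₀ b = 0`. -/
theorem nh_le_J {P : FC B} (h : P.One) (𝔨 : Ideal B) : P.nh 𝔨 ≤ P.J ⊔ 𝔨 := by
  rintro t ⟨s, hs⟩
  obtain ⟨a₀, h0, -⟩ := h
  have h1 := hs.heq a₀ a₀
  have h2 : (s * P.d) a₀ a₀ = 0 := by
    rw [Matrix.mul_apply]
    refine Finset.sum_eq_zero fun b _ => ?_
    have : s a₀ b = 0 := by
      by_contra hne
      have := hs.hdeg a₀ b hne
      omega
    rw [this, zero_mul]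
  have h3 : (P.d * s) a₀ a₀ ∈ P.J := by
    rw [Matrix.mul_apply]
    exact Ideal.sum_mem _ fun b _ => Ideal.mul_mem_right _ _ (Ideal.subset_span ⟨a₀, b, h0, rfl⟩)
  have h4 : t = (P.d * s) a₀ a₀ - (P.d * s + s * P.d - t • (1 : Matrix P.ι P.ι B)) a₀ a₀ := by
    simp [h2]
  rw [h4]
  exact Ideal.sub_mem _ (Ideal.mem_sup_left h3) (Ideal.mem_sup_right h1)

/-- elements of `J` are `∑ b, d a₀ b * c b` with `c` supported in degree 1. -/
theorem mem_J_iff {P : FC B} {a₀ : P.ι} (h0 : P.deg a₀ = 0) (hu : ∀ a, P.deg a = 0 → a = a₀)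
    (t : B) : t ∈ P.J ↔ ∃ c : P.ι → B, (∀ b, P.deg b ≠ 1 → c b = 0) ∧ t = ∑ b, P.d a₀ b * c b := by
  constructor
  · intro ht
    induction ht using Submodule.span_induction with
    | mem x hx =>
      obtain ⟨a, b, ha, rfl⟩ := hx
      obtain rfl := hu a ha
      by_cases hb : P.deg b = 1
      · refine ⟨Pi.single b 1, fun b' hb' => ?_, ?_⟩
        · have : b' ≠ b := fun e => hb' (e ▸ hb)
          simp [this]
        · simp [Pi.single_apply]
      · refine ⟨0, fun _ _ => rfl, ?_⟩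
        have : P.d a b = 0 := by
          by_contra hne
          have := P.hd a b hne
          omega
        simp [this]
    | zero => exact ⟨0, fun _ _ => rfl, by simp⟩
    | add x y _ _ hx hy =>
      obtain ⟨c, hc, rfl⟩ := hx
      obtain ⟨c', hc', rfl⟩ := hy
      exact ⟨c + c', fun b hb => by simp [hc b hb, hc' b hb],
        by simp [mul_add, Finset.sum_add_distrib]⟩
    | smul r x _ hx =>
      obtain ⟨c, hc, rfl⟩ := hx
      refine ⟨r • c, fun b hb => by simp [hc b hb], ?_⟩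
      simp only [smul_eq_mul, Finset.mul_sum, Pi.smul_apply]
      exact Finset.sum_congr rfl fun b _ => by ring
  · rintro ⟨c, -, rfl⟩
    exact Ideal.sum_mem _ fun b _ => Ideal.mul_mem_right _ _ (Ideal.subset_span ⟨a₀, b, h0, rfl⟩)

def cone (y : B) (P : FC B) : FC B where
  ι := P.ι ⊕ P.ι
  deg := Sum.elim P.deg (fun a => P.deg a + 1)
  d := Matrix.fromBlocks P.d (y • (1 : Matrix P.ι P.ι B)) 0 (-P.d)
  hd := by
    rintro (a | a) (b | b) h
    · simpa using P.hd a b (by simpa using h)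
    · have : a = b := by
        by_contra hne
        exact h (by simp [hne])
      simp [this]
    · exact absurd (by simp) h
    · simpa using P.hd a b (by simpa using h)

theorem fca_cone_d (P : FC B) (y : B) :
    (P.cone y).d = Matrix.fromBlocks P.d (y • (1 : Matrix P.ι P.ι B)) 0 (-P.d) := rfl

theorem fca_blocks_mem {ι : Type} {𝔨 : Ideal B} {M₁ M₂ M₃ M₄ : Matrix ι ι B}
    (h₁ : ∀ a b, M₁ a b ∈ 𝔨) (h₂ : ∀ a b, M₂ a b ∈ 𝔨) (h₃ : ∀ a b, M₃ a b ∈ 𝔨)
    (h₄ : ∀ a b, M₄ a b ∈ 𝔨) (a b : ι ⊕ ι) : Matrix.fromBlocks M₁ M₂ M₃ M₄ a b ∈ 𝔨 := by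
  rcases a with a | a <;> rcases b with b | b
  · exact h₁ a b
  · exact h₂ a b
  · exact h₃ a b
  · exact h₄ a b

theorem fca_cone_htp_eq (P : FC B) (y t : B) (s : Matrix P.ι P.ι B) :
    Matrix.fromBlocks P.d (y • (1 : Matrix P.ι P.ι B)) 0 (-P.d) * Matrix.fromBlocks s 0 0 (-s) +
      Matrix.fromBlocks s 0 0 (-s) * Matrix.fromBlocks P.d (y • (1 : Matrix P.ι P.ι B)) 0 (-P.d) -
      t • (1 : Matrix (P.ι ⊕ P.ι) (P.ι ⊕ P.ι) B) =
    Matrix.fromBlocks (P.d * s + s * P.d - t • (1 : Matrix P.ι P.ι B)) 0 0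
      (P.d * s + s * P.d - t • (1 : Matrix P.ι P.ι B)) := by
  rw [Matrix.fromBlocks_multiply, Matrix.fromBlocks_multiply, ← Matrix.fromBlocks_one,
    Matrix.fromBlocks_smul, Matrix.fromBlocks_add, sub_eq_add_neg, Matrix.fromBlocks_neg,
    Matrix.fromBlocks_add]
  congr 1 <;> simp [sub_eq_add_neg]

theorem fca_cone_self_eq (P : FC B) (y : B) :
    Matrix.fromBlocks P.d (y • (1 : Matrix P.ι P.ι B)) 0 (-P.d) *
        Matrix.fromBlocks (0 : Matrix P.ι P.ι B) (0 : Matrix P.ι P.ι B) (1 : Matrix P.ι P.ι B)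
          (0 : Matrix P.ι P.ι B) +
      Matrix.fromBlocks (0 : Matrix P.ι P.ι B) (0 : Matrix P.ι P.ι B) (1 : Matrix P.ι P.ι B)
          (0 : Matrix P.ι P.ι B) *
        Matrix.fromBlocks P.d (y • (1 : Matrix P.ι P.ι B)) 0 (-P.d) -
      y • (1 : Matrix (P.ι ⊕ P.ι) (P.ι ⊕ P.ι) B) = 0 := by
  rw [Matrix.fromBlocks_multiply, Matrix.fromBlocks_multiply, ← Matrix.fromBlocks_one,
    Matrix.fromBlocks_smul, Matrix.fromBlocks_add, sub_eq_add_neg, Matrix.fromBlocks_neg,
    Matrix.fromBlocks_add, ← Matrix.fromBlocks_zero]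
  congr 1 <;> simp

theorem cone_sq {P : FC B} {𝔨 : Ideal B} (y : B) (h : P.Sq 𝔨) : (P.cone y).Sq 𝔨 := by
  intro a c
  have e : Matrix.fromBlocks P.d (y • (1 : Matrix P.ι P.ι B)) 0 (-P.d) *
      Matrix.fromBlocks P.d (y • (1 : Matrix P.ι P.ι B)) 0 (-P.d) =
      Matrix.fromBlocks (P.d * P.d) 0 0 (P.d * P.d) := by
    rw [Matrix.fromBlocks_multiply]
    congr 1 <;> simp
  have h2 := fca_blocks_mem (𝔨 := 𝔨) (M₂ := 0) (M₃ := 0) h (fun _ _ => 𝔨.zero_mem)
    (fun _ _ => 𝔨.zero_mem) h a c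
  rw [← e] at h2
  exact h2

theorem cone_htp {P : FC B} {𝔨 : Ideal B} (y : B) {t : B} {s : Matrix P.ι P.ι B}
    (h : P.Htp 𝔨 t s) : (P.cone y).Htp 𝔨 t (Matrix.fromBlocks s 0 0 (-s)) := by
  refine ⟨?_, fun a b => ?_⟩
  · rintro (a | a) (b | b) hab
    · exact h.hdeg a b hab
    · exact absurd rfl hab
    · exact absurd rfl hab
    · have := h.hdeg a b (by simpa using hab)
      change P.deg a + 1 = P.deg b + 1 + 1
      omega
  · have h2 := fca_blocks_mem (𝔨 := 𝔨) (M₂ := 0) (M₃ := 0) h.heq (fun _ _ => 𝔨.zero_mem)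
      (fun _ _ => 𝔨.zero_mem) h.heq a b
    rw [← fca_cone_htp_eq P y t s] at h2
    exact h2

/-- homotopy `fromBlocks 0 0 1 0`. -/
theorem cone_self (P : FC B) (𝔨 : Ideal B) (y : B) : y ∈ (P.cone y).nh 𝔨 := by
  refine ⟨Matrix.fromBlocks (0 : Matrix P.ι P.ι B) (0 : Matrix P.ι P.ι B) (1 : Matrix P.ι P.ι B)
    (0 : Matrix P.ι P.ι B), ?_, fun a b => ?_⟩
  · rintro (a | a) (b | b) hab
    · exact absurd rfl hab
    · exact absurd rfl hab
    · have : a = b := by
        by_contra hne
        exact hab (by simp [hne])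
      subst this
      rfl
    · exact absurd rfl hab
  · have h2 : (0 : Matrix (P.ι ⊕ P.ι) (P.ι ⊕ P.ι) B) a b ∈ 𝔨 := 𝔨.zero_mem
    rw [← fca_cone_self_eq P y] at h2
    exact h2

theorem nh_le_cone (P : FC B) (𝔨 : Ideal B) (y : B) :
    P.nh 𝔨 ⊔ Ideal.span {y} ≤ (P.cone y).nh 𝔨 := by
  refine sup_le ?_ ?_
  · rintro t ⟨s, hs⟩
    exact ⟨_, cone_htp y hs⟩
  · rw [Ideal.span_le, Set.singleton_subset_iff]
    exact cone_self P 𝔨 y

theorem cone_one {P : FC B} (y : B) (h : P.One) : (P.cone y).One := by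
  obtain ⟨a₀, h0, hu⟩ := h
  refine ⟨Sum.inl a₀, h0, ?_⟩
  rintro (a | a) ha
  · exact congrArg Sum.inl (hu a ha)
  · exact absurd ha (Nat.succ_ne_zero _)

theorem cone_J {P : FC B} (y : B) (h : P.One) : (P.cone y).J = P.J ⊔ Ideal.span {y} := by
  obtain ⟨a₀, h0, -⟩ := h
  refine le_antisymm (Ideal.span_le.2 ?_) (sup_le (Ideal.span_le.2 ?_) (Ideal.span_le.2 ?_))
  · rintro _ ⟨a | a, b | b, ha, rfl⟩
    · exact Ideal.mem_sup_left (Ideal.subset_span ⟨a, b, ha, rfl⟩)
    · refine Ideal.mem_sup_right ?_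
      change y * (1 : Matrix P.ι P.ι B) a b ∈ Ideal.span {y}
      exact Ideal.mul_mem_right _ _ (Ideal.subset_span rfl)
    · exact absurd ha (Nat.succ_ne_zero _)
    · exact absurd ha (Nat.succ_ne_zero _)
  · rintro _ ⟨a, b, ha, rfl⟩
    exact Ideal.subset_span ⟨Sum.inl a, Sum.inl b, ha, rfl⟩
  · rintro _ rfl
    refine Ideal.subset_span ⟨Sum.inl a₀, Sum.inr a₀, h0, ?_⟩
    change _ = _ * (1 : Matrix P.ι P.ι B) a₀ a₀
    simp

theorem cone_ent {P : FC B} {𝔞 : Ideal B} {y : B} (hy : y ∈ 𝔞) (h : P.Ent 𝔞) :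
    (P.cone y).Ent 𝔞 := by
  intro a b
  exact fca_blocks_mem (𝔨 := 𝔞) (M₂ := y • (1 : Matrix P.ι P.ι B)) (M₃ := 0) (M₄ := -P.d) h
    (fun _ _ => 𝔞.mul_mem_right _ hy) (fun _ _ => 𝔞.zero_mem) (fun a b => 𝔞.neg_mem (h a b)) a b

theorem cone_degLe {P : FC B} {c : ℕ} (y : B) (h : P.DegLe c) : (P.cone y).DegLe (c + 1) := by
  rintro (a | a)
  · exact (h a).trans (Nat.le_succ c)
  · exact Nat.succ_le_succ (h a)

theorem cone_card (P : FC B) (y : B) : Fintype.card (P.cone y).ι = 2 * Fintype.card P.ι := by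
  change Fintype.card (P.ι ⊕ P.ι) = _
  rw [Fintype.card_sum, two_mul]

theorem cone_alt (P : FC B) (y : B) : ∑ a : (P.cone y).ι, (-1 : ℝ) ^ (P.cone y).deg a = 0 := by
  change ∑ a : P.ι ⊕ P.ι, (-1 : ℝ) ^ Sum.elim P.deg (fun a => P.deg a + 1) a = 0
  rw [Fintype.sum_sum_type, ← Finset.sum_add_distrib]
  exact Finset.sum_eq_zero fun a _ => by simp [pow_succ]

def kos : List B → FC B → FC B
  | [], F => F
  | y :: l, F => (kos l F).cone y

theorem fca_span_cons (y : B) (l : List B) :
    Ideal.span {z | z ∈ y :: l} = Ideal.span {z | z ∈ l} ⊔ Ideal.span {y} := by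
  rw [← Ideal.span_union]
  congr 1
  ext z
  simp

theorem kos_sq {F : FC B} {𝔨 : Ideal B} (l : List B) (h : F.Sq 𝔨) : (kos l F).Sq 𝔨 := by
  induction l with
  | nil => exact h
  | cons y l ih => exact cone_sq y ih

theorem nh_le_kos (F : FC B) (𝔨 : Ideal B) (l : List B) :
    F.nh 𝔨 ⊔ Ideal.span {y | y ∈ l} ≤ (kos l F).nh 𝔨 := by
  induction l with
  | nil => simp [kos]
  | cons y l ih =>
    rw [fca_span_cons, ← sup_assoc]
    exact (sup_le_sup_right ih _).trans (nh_le_cone _ 𝔨 y)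

theorem kos_one {F : FC B} (l : List B) (h : F.One) : (kos l F).One := by
  induction l with
  | nil => exact h
  | cons y l ih => exact cone_one y ih

theorem kos_J {F : FC B} (l : List B) (h : F.One) :
    (kos l F).J = F.J ⊔ Ideal.span {y | y ∈ l} := by
  induction l with
  | nil => simp [kos]
  | cons y l ih =>
    rw [fca_span_cons, ← sup_assoc, ← ih]
    exact cone_J y (kos_one l h)

theorem kos_ent {F : FC B} {𝔞 : Ideal B} {l : List B} (hl : ∀ y ∈ l, y ∈ 𝔞) (h : F.Ent 𝔞) :
    (kos l F).Ent 𝔞 := by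
  induction l with
  | nil => exact h
  | cons y l ih =>
    exact cone_ent (hl y List.mem_cons_self) (ih fun z hz => hl z (List.mem_cons_of_mem _ hz))

theorem kos_degLe {F : FC B} {c : ℕ} (l : List B) (h : F.DegLe c) :
    (kos l F).DegLe (c + l.length) := by
  induction l with
  | nil => exact h
  | cons y l ih => exact cone_degLe y ih

theorem kos_card (F : FC B) (l : List B) :
    Fintype.card (kos l F).ι = 2 ^ l.length * Fintype.card F.ι := by
  induction l with
  | nil =>
    change Fintype.card F.ι = _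
    simp
  | cons y l ih =>
    change Fintype.card ((kos l F).cone y).ι = _
    rw [cone_card, ih, List.length_cons, pow_succ]
    ring

def map (P : FC B) (φ : B →+* B') : FC B' where
  ι := P.ι
  deg := P.deg
  d := P.d.map φ
  hd := fun a b h => P.hd a b (fun h0 => h (by simp [h0]))

theorem map_sq {P : FC B} (φ : B →+* B') (h : P.Sq ⊥) : (P.map φ).Sq ⊥ := by
  intro a c
  have h1 : (P.d * P.d) a c = 0 := by simpa using h a c
  have h2 : ((P.map φ).d * (P.map φ).d) a c = φ ((P.d * P.d) a c) := by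
    change (P.d.map φ * P.d.map φ) a c = _
    rw [← Matrix.map_mul]
    rfl
  rw [h2, h1, map_zero]
  exact Ideal.zero_mem _

theorem map_J (P : FC B) (φ : B →+* B') : (P.map φ).J = P.J.map φ := by
  unfold J
  rw [Ideal.map_span]
  congr 1
  ext t
  constructor
  · rintro ⟨a, b, ha, rfl⟩
    exact ⟨P.d a b, ⟨a, b, ha, rfl⟩, rfl⟩
  · rintro ⟨_, ⟨a, b, ha, rfl⟩, rfl⟩
    exact ⟨a, b, ha, rfl⟩

theorem map_nh (P : FC B) (φ : B →+* B') : (P.nh ⊥).map φ ≤ (P.map φ).nh ⊥ := by
  rw [Ideal.map_le_iff_le_comap]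
  rintro t ⟨s, hs⟩
  refine ⟨s.map φ, fun a b h => hs.hdeg a b (fun h0 => h (by simp [h0])), fun (a : P.ι) (b : P.ι) => ?_⟩
  have h1 : (P.d * s + s * P.d - t • (1 : Matrix P.ι P.ι B)) a b = 0 := by
    simpa only [Ideal.mem_bot] using hs.heq a b
  have h2 := congrArg φ h1
  rw [Ideal.mem_bot]
  change (P.d.map φ * s.map φ + s.map φ * P.d.map φ - φ t • (1 : Matrix P.ι P.ι B')) a b = 0
  rw [← Matrix.map_mul, ← Matrix.map_mul]
  have h3 : φ ((1 : Matrix P.ι P.ι B) a b) = (1 : Matrix P.ι P.ι B') a b := by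
    by_cases hab : a = b
    · subst hab
      rw [Matrix.one_apply_eq, Matrix.one_apply_eq, map_one]
    · rw [Matrix.one_apply_ne hab, Matrix.one_apply_ne hab, map_zero]
  simp only [Matrix.sub_apply, Matrix.add_apply, Matrix.smul_apply, smul_eq_mul, map_sub, map_add,
    map_mul, map_zero, Matrix.map_apply] at h2 ⊢
  rw [h3] at h2
  exact h2

theorem map_map (P : FC B) {B'' : Type} [CommRing B''] (φ : B →+* B') (ψ : B' →+* B'') :
    (P.map φ).map ψ = P.map (ψ.comp φ) := rfl

theorem flat_cycle_b {κ ι : Type} [Fintype κ] [DecidableEq κ] [Fintype ι] [DecidableEq ι]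
    (D : Matrix κ ι B) (φ : B →+* B') (hφ : φ.Flat) (v : ι → B')
    (hv : (D.map φ).mulVec v = 0) :
    ∃ (n : ℕ) (w : Fin n → ι → B) (y : Fin n → B'), (∀ j, D.mulVec (w j) = 0) ∧
      ∀ b, v b = ∑ j, φ (w j b) * y j := by
  let _ : Algebra B B' := φ.toAlgebra
  have _ : Module.Flat B B' := hφ
  have hsm : ∀ (r : B) (z : B'), r • z = φ r * z := fun r z => Algebra.smul_def r z
  let x : (ι → B) →ₗ[B] B' := Fintype.linearCombination B v
  have hx : ∀ n : ι → B, x n = ∑ b, φ (n b) * v b := by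
    intro n
    simp only [x, Fintype.linearCombination_apply, hsm]
  let f : (κ → B) →ₗ[B] (ι → B) := Matrix.vecMulLinear D
  have hxf : x ∘ₗ f = 0 := by
    apply LinearMap.ext
    intro c
    have h1 : ∀ r, ∑ b, φ (D r b) * v b = 0 := fun r => by
      simpa [Matrix.mulVec, dotProduct] using congrFun hv r
    simp only [LinearMap.comp_apply, hx, f, Matrix.vecMulLinear_apply, Matrix.vecMul, dotProduct,
      map_sum, map_mul, Finset.sum_mul, LinearMap.zero_apply]
    rw [Finset.sum_comm]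
    refine Finset.sum_eq_zero fun r _ => ?_
    simp only [mul_assoc, ← Finset.mul_sum, h1, mul_zero]
  obtain ⟨n, a, y, hya, haf⟩ := Module.Flat.exists_factorization_of_comp_eq_zero_of_free hxf
  refine ⟨n, fun j b => a (Pi.single b 1) j, fun j => y (Finsupp.single j 1), fun j => ?_,
    fun b => ?_⟩
  · funext r
    have h1 : a (f (Pi.single r 1)) = 0 := by
      have := LinearMap.congr_fun haf (Pi.single r 1)
      simpa using this
    have h2 : f (Pi.single r 1) = ∑ b, D r b • (Pi.single b 1 : ι → B) := by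
      funext b
      simp [f, Finset.sum_apply, Pi.single_apply]
    rw [h2, map_sum] at h1
    have h3 := congrArg (fun z => z j) h1
    simpa [Matrix.mulVec, dotProduct, Finset.sum_apply'] using h3
  · have h1 : v b = x (Pi.single b 1) := by
      simp [hx, Pi.single_apply]
    rw [h1, hya, LinearMap.comp_apply]
    conv_lhs => rw [← Finsupp.univ_sum_single (a (Pi.single b 1))]
    rw [map_sum]
    refine Finset.sum_congr rfl fun j _ => ?_
    rw [← hsm, ← map_smul, Finsupp.smul_single, smul_eq_mul, mul_one]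

/-- flat base change keeps exactness.  E.g. restrict to the index subtypes of degree `k+1`, `k`
and use `Module.Flat.lTensor_exact` + `TensorProduct.piScalarRight`, or the equational criterion
(`Module.Flat.exists_factorization_of_comp_eq_zero_of_free`): a cycle over `B'` is a
`B'`-combination of cycles over `B`. -/
theorem ExactAt.map_flat {P : FC B} {k : ℕ} (h : P.ExactAt k) (φ : B →+* B') (hφ : φ.Flat) :
    (P.map φ).ExactAt k := by
  intro v hv1 hv2
  let D : Matrix (P.ι ⊕ P.ι) P.ι B :=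
    Matrix.fromRows P.d (Matrix.diagonal fun b => if P.deg b = k then 0 else 1)
  have hD : (D.map φ).mulVec v = 0 := by
    funext r
    rcases r with r | r
    · exact congrFun hv2 r
    · simp only [D, Matrix.mulVec, dotProduct, Matrix.map_apply, Matrix.fromRows_apply_inr,
        Pi.zero_apply]
      refine Finset.sum_eq_zero fun b _ => ?_
      by_cases hb : P.deg b = k
      · by_cases hrb : r = b
        · subst hrb
          simp [hb]
        · simp [Matrix.diagonal_apply_ne _ hrb]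
      · have : v b = 0 := hv1 b hb
        rw [this, mul_zero]
  obtain ⟨n, w, y, hw, hvw⟩ := flat_cycle_b D φ hφ v hD
  have hw' : ∀ j, ∃ v' : P.ι → B, (∀ a, P.deg a ≠ k + 1 → v' a = 0) ∧ P.d.mulVec v' = w j := by
    intro j
    refine h (w j) (fun a ha => ?_) ?_
    · have h1 := congrFun (hw j) (Sum.inr a)
      simpa [D, Matrix.fromRows_mulVec, Matrix.mulVec_diagonal, ha] using h1
    · funext a
      exact congrFun (hw j) (Sum.inl a)
  choose u hu1 hu2 using hw'
  refine ⟨fun a => ∑ j, φ (u j a) * y j, fun a ha => ?_, ?_⟩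
  · refine Finset.sum_eq_zero fun j _ => ?_
    rw [hu1 j a ha, map_zero, zero_mul]
  · funext a
    rw [hvw a]
    change ∑ b : P.ι, φ (P.d a b) * ∑ j, φ (u j b) * y j = _
    simp only [Finset.mul_sum]
    rw [Finset.sum_comm]
    refine Finset.sum_congr rfl fun j _ => ?_
    rw [← hu2 j]
    simp only [Matrix.mulVec, dotProduct, map_sum, map_mul, Finset.sum_mul, mul_assoc]

theorem J_le_nh_step_b {P : FC B} (h1 : P.One) (hsq : P.Sq ⊥) (hex : ∀ k, 1 ≤ k → P.ExactAt k)
    {j : B} (hj : j ∈ P.J) (t : ℕ) :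
    ∃ s : Matrix P.ι P.ι B, (∀ a b, s a b ≠ 0 → P.deg a = P.deg b + 1) ∧
      ∀ a b, P.deg b < t →
        (P.d * s) a b + (s * P.d) a b = j * (1 : Matrix P.ι P.ι B) a b := by
  induction t with
  | zero => exact ⟨0, fun a b h => absurd rfl h, fun a b h => absurd h (Nat.not_lt_zero _)⟩
  | succ t ih =>
    obtain ⟨s, hs1, hs2⟩ := ih
    have hdd : P.d * P.d = 0 := by
      ext a c
      simpa using hsq a c
    have hlift : ∀ b, P.deg b = t → ∃ v' : P.ι → B, (∀ a, P.deg a ≠ t + 1 → v' a = 0) ∧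
        P.d.mulVec v' = fun a => j * (1 : Matrix P.ι P.ι B) a b - (s * P.d) a b := by
      intro b hb
      rcases Nat.eq_zero_or_pos t with ht | ht
      · subst ht
        obtain ⟨a₀, h0, hu⟩ := h1
        obtain rfl : b = a₀ := hu b hb
        obtain ⟨c, hc1, hc2⟩ := (mem_J_iff hb hu j).1 hj
        refine ⟨c, hc1, ?_⟩
        funext a
        have hsd : (s * P.d) a b = 0 := by
          rw [Matrix.mul_apply]
          refine Finset.sum_eq_zero fun e _ => ?_
          have : P.d e b = 0 := by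
            by_contra hne
            have := P.hd e b hne
            omega
          rw [this, mul_zero]
        rw [hsd, sub_zero]
        by_cases hab : a = b
        · subst hab
          simp only [Matrix.one_apply_eq, mul_one]
          rw [hc2]
          rfl
        · rw [Matrix.one_apply_ne hab, mul_zero]
          refine Finset.sum_eq_zero fun e _ => ?_
          by_cases he : P.d a e = 0
          · simp [he]
          · have h2 := P.hd a e he
            have h3 : P.deg a ≠ 0 := fun h => hab (hu a h)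
            have h4 : c e = 0 := hc1 e (by omega)
            simp [h4]
      · refine hex t ht _ (fun a ha => ?_) ?_
        · have hab : a ≠ b := fun e => ha (e ▸ hb)
          rw [Matrix.one_apply_ne hab, mul_zero, zero_sub, neg_eq_zero, Matrix.mul_apply]
          refine Finset.sum_eq_zero fun e _ => ?_
          by_cases he : P.d e b = 0
          · rw [he, mul_zero]
          · have h2 := P.hd e b he
            have h3 : s a e = 0 := by
              by_contra hne
              have := hs1 a e hne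
              omega
            rw [h3, zero_mul]
        · funext a
          have e1 : P.d.mulVec (fun a => j * (1 : Matrix P.ι P.ι B) a b - (s * P.d) a b) a =
              j * P.d a b - (P.d * s * P.d) a b := by
            rw [Matrix.mul_assoc, Matrix.mul_apply (M := P.d)]
            simp only [Matrix.mulVec, dotProduct, mul_sub, Finset.sum_sub_distrib]
            congr 1
            simp [Matrix.one_apply, mul_comm]
          have e2 : (P.d * s * P.d) a b + (s * P.d * P.d) a b = j * P.d a b := by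
            rw [Matrix.mul_apply, Matrix.mul_apply, ← Finset.sum_add_distrib]
            have : ∀ e, (P.d * s) a e * P.d e b + (s * P.d) a e * P.d e b =
                j * (1 : Matrix P.ι P.ι B) a e * P.d e b := by
              intro e
              by_cases he : P.d e b = 0
              · simp [he]
              · have h2 := P.hd e b he
                rw [← add_mul, hs2 a e (by omega)]
            rw [Finset.sum_congr rfl fun e _ => this e]
            simp [Matrix.one_apply]
          rw [Matrix.mul_assoc s, hdd, Matrix.mul_zero, Matrix.zero_apply, add_zero] at e2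
          rw [e1, e2, sub_self]
          rfl
    choose! V hV1 hV2 using hlift
    let s' : Matrix P.ι P.ι B := fun a b => if P.deg b = t then V b a else s a b
    refine ⟨s', fun a b h => ?_, fun a b hb => ?_⟩
    · by_cases hb : P.deg b = t
      · simp only [s', if_pos hb] at h
        by_contra hne
        exact h (hV1 b hb a (by omega))
      · simp only [s', if_neg hb] at h
        exact hs1 a b h
    · have e1 : (s' * P.d) a b = (s * P.d) a b := by
        rw [Matrix.mul_apply, Matrix.mul_apply]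
        refine Finset.sum_congr rfl fun e _ => ?_
        by_cases he : P.d e b = 0
        · simp [he]
        · have h2 := P.hd e b he
          have h3 : P.deg e ≠ t := by omega
          simp only [s', if_neg h3]
      rw [e1]
      by_cases hbt : P.deg b = t
      · have e2 : (P.d * s') a b = P.d.mulVec (V b) a := by
          rw [Matrix.mul_apply]
          simp only [s', if_pos hbt, Matrix.mulVec, dotProduct]
        rw [e2, hV2 b hbt]
        simp
      · have e2 : (P.d * s') a b = (P.d * s) a b := by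
          rw [Matrix.mul_apply, Matrix.mul_apply]
          simp only [s', if_neg hbt]
        rw [e2]
        exact hs2 a b (by omega)

/-- Comparison theorem.  Induct on `t`: there is `s` (degree condition, columns of degree `≥ t`
zero) such that the identity `d s + s d = j` holds on all columns `b` of degree `< t`.  For a column
`b` of degree `t`, `v = j e_b - s (d e_b)` is supported in degree `t` and `d v = 0`; for `t = 0` use
`mem_J_iff`, for `t ≥ 1` use exactness. -/
theorem J_le_nh {P : FC B} (h1 : P.One) (hsq : P.Sq ⊥) (hex : ∀ k, 1 ≤ k → P.ExactAt k) :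
    P.J ≤ P.nh ⊥ := by
  intro j hj
  obtain ⟨s, hs1, hs2⟩ := J_le_nh_step_b h1 hsq hex hj ((Finset.univ.sup P.deg) + 1)
  refine ⟨s, hs1, fun a b => ?_⟩
  have hb : P.deg b ≤ Finset.univ.sup P.deg := Finset.le_sup (Finset.mem_univ b)
  rw [Ideal.mem_bot, Matrix.sub_apply, Matrix.add_apply, hs2 a b (by omega)]
  simp

end FC

end Crest.Agent.R183
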