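import Crest.Agent.R183.Tower
import Crest.Agent.R183.FC

/-! # R183 / LowerAuxc : real-arithmetic helpers for the final assembly `lower`. -/

set_option autoImplicit false

namespace Crest.Agent.R183

theorem lc_sg_mul_self (k : ℤ) : sg k * sg k = 1 := by
  unfold sg
  rw [← mul_zpow]
  simp

theorem lc_abs_sg (k : ℤ) : |sg k| = 1 := by
  unfold sg
  rw [abs_zpow]
  simp

theorem lc_sg_add (d : ℕ) (n : ℤ) : sg n * sg ((d : ℤ) + n) = (-1 : ℝ) ^ d := by
  have h := lc_sg_mul_self n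
  unfold sg at h ⊢
  rw [zpow_add₀ (by norm_num), zpow_natCast, mul_left_comm, h, mul_one]

theorem lc_abs_le {s x e : ℝ} (hs : |s| = 1) (h : |x| ≤ e) : |s * x| ≤ e := by
  rw [abs_mul, hs, one_mul]; exact h

section
variable {B : Type*} [CommRing B] {X : Type*} [AddCommGroup X] [Module B X]

/-- only one degree matters -/
theorem lc_schi_near {D : X →ₗ[B] X} {U L : ℕ → Ch B X} {c : ℕ} {a b k₀ : ℤ} (h1 : a ≤ k₀)
    (h2 : k₀ ≤ b) (h : ∀ k, k ≠ k₀ → sig D U L k ≤ c) :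
    |sg k₀ * schi a b D U L - ((sig D U L k₀).toNat : ℝ)| ≤ ((b : ℝ) - a + 1) * c := by
  have hk : k₀ ∈ Finset.Icc a b := Finset.mem_Icc.2 ⟨h1, h2⟩
  unfold schi
  rw [← Finset.add_sum_erase _ _ hk, mul_add, ← mul_assoc, lc_sg_mul_self, one_mul,
    add_sub_cancel_left]
  refine lc_abs_le (lc_abs_sg k₀) ?_
  refine (Finset.abs_sum_le_sum_abs _ _).trans ?_
  have hb : ∀ k ∈ (Finset.Icc a b).erase k₀, |sg k * ((sig D U L k).toNat : ℝ)| ≤ (c : ℝ) := by
    intro k hk'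
    refine lc_abs_le (lc_abs_sg k) ?_
    rw [abs_of_nonneg (Nat.cast_nonneg _)]
    have h3 := ENat.toNat_le_of_le_natCast (h k (Finset.ne_of_mem_erase hk'))
    exact_mod_cast h3
  refine (Finset.sum_le_card_nsmul _ _ _ hb).trans ?_
  rw [nsmul_eq_mul]
  refine mul_le_mul_of_nonneg_right ?_ (Nat.cast_nonneg _)
  have h4 : ((Finset.Icc a b).erase k₀).card ≤ (Finset.Icc a b).card := Finset.card_erase_le
  have h5 : (((Finset.Icc a b).card : ℤ)) = b + 1 - a := Int.card_Icc_of_le a b (by omega)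
  have h6 : ((((Finset.Icc a b).erase k₀).card : ℤ)) ≤ b - a + 1 := by omega
  exact_mod_cast h6

theorem lc_schi_const (a b : ℤ) (D : X →ₗ[B] X) (U L : Ch B X) :
    schi a b D (fun _ => U) (fun _ => L) = chi a b D U L := rfl

end

/-- alternating sum over a complex with Euler characteristic zero and one index in degree zero -/
theorem lc_alt {B : Type} [CommRing B] (P : FC B) (h1 : P.One)
    (h0 : ∑ a : P.ι, (-1 : ℝ) ^ P.deg a = 0) (S : P.ι → ℝ) (T e : ℝ) (he : 0 ≤ e)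
    (hS0 : ∀ a, P.deg a = 0 → S a = 0) (hS : ∀ a, P.deg a ≠ 0 → |S a - T| ≤ e) :
    ∑ a : P.ι, (-1 : ℝ) ^ P.deg a * S a ≤ -T + Fintype.card P.ι * e := by
  obtain ⟨a₀, ha₀, hu⟩ := h1
  have e1 : ∑ a : P.ι, (-1 : ℝ) ^ P.deg a * S a =
      ∑ a : P.ι, (-1 : ℝ) ^ P.deg a * (S a - T) := by
    simp only [mul_sub, Finset.sum_sub_distrib]
    rw [← Finset.sum_mul, h0, zero_mul, sub_zero]
  rw [e1, ← Finset.add_sum_erase _ _ (Finset.mem_univ a₀), hS0 a₀ ha₀, ha₀]
  have hb : ∀ a ∈ Finset.univ.erase a₀, (-1 : ℝ) ^ P.deg a * (S a - T) ≤ e := by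
    intro a ha
    have hne : P.deg a ≠ 0 := fun h => Finset.ne_of_mem_erase ha (hu a h)
    refine (le_abs_self _).trans (lc_abs_le ?_ (hS a hne))
    simp
  have h2 := Finset.sum_le_card_nsmul _ _ _ hb
  rw [nsmul_eq_mul] at h2
  have h3 : ((Finset.univ.erase a₀).card : ℝ) ≤ Fintype.card P.ι := by
    exact_mod_cast Finset.card_le_univ _
  have h4 := mul_le_mul_of_nonneg_right h3 he
  simp only [pow_zero, one_mul, zero_sub]
  linarith

end Crest.Agent.R183
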