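import Crest.Agent.R183.Acyc
import Crest.Agent.R183.Arith
import Crest.Agent.R183.LowerAuxc

/-! # R183 / Lower : the lower bound for `H_0` of a short complex with entries in `𝔫^q'`. -/

set_option autoImplicit false

namespace Crest.Agent.R183

section
variable {n : ℕ} {W : Type} [CommRing W] {B : Type} [CommRing B] [Algebra (Pz W n) B]
  {ξ : B} {P : FC B} {pp : W} {ρ : ℕ}

/-- level `j` -/
def lev (n M j : ℕ) : ℤ := (j : ℤ) * ((n + 1) * M)

theorem lowa_lev_nonneg (n M j : ℕ) : 0 ≤ lev n M j := by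
  unfold lev
  positivity

theorem lowa_lev_succ (n M j : ℕ) : lev n M (j + 1) = lev n M j + (n + 1) * M := by
  unfold lev
  push_cast
  ring

theorem lowa_lev_mono (n M : ℕ) {j j' : ℕ} (h : j ≤ j') : lev n M j ≤ lev n M j' :=
  mul_le_mul_of_nonneg_right (by exact_mod_cast h) (by positivity)

theorem lowa_adm_const (q' : ℕ) (α : Fin n → ℤ) (t : ℤ) :
    Adm P q' (fun _ => α) (fun _ => t) := fun _ _ _ => ⟨le_rfl, le_add_of_nonneg_right (by positivity)⟩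

/-- `good_of_TN` with `N = XC α c`, `N' = RC (topR ∩ bq α)`, `Y j = RC (topR ∩ ge (lev j))`;
`N ⊔ Y j = N`, `N' ⊔ Y j = lv .. j = XC α (lev j)`; `cut_tn`, `cut_hsm`. -/
theorem good_cut {q' K M A kl : ℕ} (H : Hx n pp ξ ρ) (hE : P.Ent (nn W n B ^ q'))
    (hsq : P.Sq (kk W n ξ K)) (θ : B) (hθ : ∀ i, θ * zB W n B i ^ M ∈ P.nh (kk W n ξ K))
    (α : Fin n → ℤ) {c : P.ι → ℤ} (h : Adm P q' (fun _ => α) c) (hc : ∀ b, c b ≤ 0)
    (hK : ∀ b, lev n M 4 ≤ c b + K) (hA1 : ∀ b, -(A : ℤ) ≤ c b) (hA2 : lev n M 1 ≤ A)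
    (hA3 : ∀ k, |α k| ≤ A)
    (hkl : cl (kk W n ξ (2 * A) ⊔ zp W n B ⊔ Ideal.span {(θ ^ (n + 1)) ^ 2}) ≤ kl) :
    Good (θ ^ (n + 1)) (Fintype.card P.ι * 2 ^ n * (4 * A + 1) ^ n * kl) (DD W n ξ P)
      (fun _ => XC W ξ P (fun _ => α) c) (fun j => XC W ξ P (fun _ => α) fun _ => lev n M j) := by
  have hcl : ∀ j, c ≤ fun _ => lev n M j := fun j b => (hc b).trans (lowa_lev_nonneg n M j)
  have hle : ∀ j, (XC W ξ P (fun _ => α) fun _ => lev n M j) ≤ XC W ξ P (fun _ => α) c :=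
    fun j => XC_anti _ (hcl j)
  have hlv : ∀ j, lv (XC W ξ P (fun _ => α) c) ⊥
      (fun j => XC W ξ P (fun _ => α) fun _ => lev n M j) j =
      XC W ξ P (fun _ => α) fun _ => lev n M j := fun j => by
    rw [lv, bot_sup_eq, inf_eq_right.2 (hle j)]
  have key := good_of_TN (θ := θ ^ (n + 1))
    (c := Fintype.card P.ι * 2 ^ n * (4 * A + 1) ^ n * kl) (D := DD W n ξ P)
    (N := XC W ξ P (fun _ => α) c) (N' := ⊥)
    (Y := fun j => XC W ξ P (fun _ => α) fun _ => lev n M j) bot_le (XC_st hE h)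
    (fun k x hx => by
      rw [Pi.bot_apply, Submodule.mem_bot] at hx ⊢
      rw [hx, map_zero])
    (fun j => XC_st hE (lowa_adm_const q' α _))
    (fun j j' hj => XC_anti _ fun _ => lowa_lev_mono n M hj)
    (by
      rw [hlv]
      exact (XC_pair hE hsq h (lowa_adm_const q' α _) (hcl 4) fun _ b => hK b).dd)
    (by
      intro j j' hj hj' k x hx
      rw [hlv, hlv] at hx ⊢
      rcases isEmpty_or_nonempty P.ι with he | ⟨⟨b⟩⟩
      · rw [Subsingleton.elim (θ ^ (n + 1) • x) 0]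
        exact Submodule.zero_mem _
      · simp only [lowa_lev_succ] at hx
        refine cut_tn hsq θ hθ α (lowa_lev_mono n M hj) ?_ k x hx
        have h1 := hK b
        have h2 := hc b
        have h3 := lowa_lev_mono n M (Nat.succ_le_succ hj')
        have h4 := lowa_lev_nonneg n M j
        rw [lowa_lev_succ] at h3
        linarith)
    (by
      intro k
      rw [sup_eq_left.2 (hle 1), bot_sup_eq]
      refine cut_hsm H hE hsq h (lowa_adm_const q' α _) (hcl 1) (fun _ b => ?_) A hA1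
        (fun _ => hA2) (fun _ => hA3) _ kl hkl k
      exact (lowa_lev_mono n M (by norm_num)).trans (hK b))
  simpa only [sup_eq_left.2 (hle _), bot_sup_eq] using key

/-- `cut_tn` with `t₁ = tb`, `t₂ = lev 2`, then `Van.inj` for `XC tb ≥ XC c ≥ XC (lev 2)`. -/
theorem kill_hi {q' K M : ℕ} (hE : P.Ent (nn W n B ^ q'))
    (hsq : P.Sq (kk W n ξ K)) (θ : B) (hθ : ∀ i, θ * zB W n B i ^ M ∈ P.nh (kk W n ξ K))
    (α : Fin n → ℤ) {c : P.ι → ℤ} (h : Adm P q' (fun _ => α) c) (hc : ∀ b, c b ≤ 0) {tb : ℤ}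
    (htb : ∀ b, tb + (n + 1) * M ≤ c b) (htb0 : tb ≤ 0) (hK : lev n M 3 ≤ tb + K) (k : ℤ)
    (hv : Van (DD W n ξ P) (XC W ξ P (fun _ => α) fun _ => tb) (XC W ξ P (fun _ => α) c) (k + 1)) :
    ∀ x ∈ Zc (DD W n ξ P) (XC W ξ P (fun _ => α) c) (XC W ξ P (fun _ => α) fun _ => lev n M 3) k,
      θ ^ (n + 1) • x ∈ Bd (DD W n ξ P) (XC W ξ P (fun _ => α) c)
        (XC W ξ P (fun _ => α) fun _ => lev n M 1) k := by
  intro x hx
  have hM : (0 : ℤ) ≤ (n + 1) * M := by positivity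
  have h3 : lev n M 3 = lev n M 2 + (n + 1) * M := lowa_lev_succ n M 2
  have h2 := lowa_lev_nonneg n M 2
  have hx1 : x ∈ Zc (DD W n ξ P) (XC W ξ P (fun _ => α) fun _ => tb + (n + 1) * M)
      (XC W ξ P (fun _ => α) fun _ => lev n M 2 + (n + 1) * M) k := by
    rw [← h3]
    exact Zc_mono _ (XC_anti _ htb) le_rfl k hx
  have hb := cut_tn hsq θ hθ α (htb0.trans h2) (by rw [← h3]; exact hK) k x hx1
  have hp : Pair (DD W n ξ P) (XC W ξ P (fun _ => α) fun _ => tb)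
      (XC W ξ P (fun _ => α) fun _ => lev n M 2) :=
    XC_pair hE hsq (lowa_adm_const q' α _) (lowa_adm_const q' α _) (fun _ => htb0.trans h2)
      fun _ _ => by linarith
  have hz : x ∈ Zc (DD W n ξ P) (XC W ξ P (fun _ => α) c)
      (XC W ξ P (fun _ => α) fun _ => lev n M 2) k :=
    Zc_mono _ le_rfl (XC_anti _ fun _ => lowa_lev_mono n M (by norm_num)) k hx
  have := Van.inj hp (XC_anti _ fun b => (hc b).trans h2)
    (XC_anti _ fun b => (le_add_of_nonneg_right hM).trans (htb b)) (XC_st hE h) hv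
    ⟨Submodule.smul_mem _ _ hz, hb⟩
  exact Bd_mono _ le_rfl (XC_anti _ fun _ => lowa_lev_mono n M (by norm_num)) k this

/-- sheared cut -/
def cQ (P : FC B) (q' : ℕ) : P.ι → ℤ := fun b => -((P.deg b : ℤ) * q')

theorem adm_cQ (q' : ℕ) (α : Fin n → ℤ) : Adm P q' (fun _ => α) (cQ P q') := by
  intro a b hab
  refine ⟨le_rfl, le_of_eq ?_⟩
  simp only [cQ, P.hd a b hab]
  push_cast
  ring

/-- for `v < -deg*q'` all `k` with `k + 2 ≤ deg` have `r k + v < 0`, so `tdeg ≤ n+1`. -/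
theorem van_Q_hi {q' K : ℕ} (H : Hx n pp ξ ρ) (hE : P.Ent (nn W n B ^ q'))
    (hsq : P.Sq (kk W n ξ K)) (hdg : P.DegLe (n + 1)) (r : Fin n → ℤ)
    (hr : ∀ k : Fin n, r k ≤ (((k : ℕ) : ℤ) + 2) * q') {tb : ℤ} (h0 : tb ≤ -(((n : ℤ) + 1) * q'))
    (hK : 0 ≤ tb + K) {k : ℤ} (hk : (n : ℤ) + 2 ≤ k) :
    Van (DD W n ξ P) (XC W ξ P (fun _ k => r k - 1) fun _ => tb)
      (XC W ξ P (fun _ k => r k - 1) (cQ P q')) k := by
  have hq : (0 : ℤ) ≤ q' := by positivity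
  have hd : ∀ b, (P.deg b : ℤ) ≤ n + 1 := fun b => by exact_mod_cast hdg b
  refine cut_van H hE hsq (lowa_adm_const q' _ _) (adm_cQ q' _) (fun b => ?_) (fun a _ => ?_) k ?_
  · exact h0.trans (neg_le_neg (mul_le_mul_of_nonneg_right (hd b) hq))
  · exact (neg_nonpos.2 (by positivity)).trans hK
  · intro b v _ hv _ he
    have hsub : (Finset.univ.filter fun j : Fin n => (j : ℕ) < P.deg b - 1) ⊆
        Finset.univ.filter fun j => ¬ tyV (fun k => r k - 1) v j = false := by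
      intro j hj
      have hj' : ((j : ℕ) : ℤ) + 2 ≤ P.deg b := by
        have := (Finset.mem_filter.1 hj).2
        omega
      have h1 := (hr j).trans (mul_le_mul_of_nonneg_right hj' hq)
      have h2 : r j - 1 + v < -1 := by
        simp only [cQ] at hv
        linarith
      simpa [tyV] using h2
    have h1 := Finset.card_le_card hsub
    have h2 := Finset.card_filter_add_card_filter_not (s := Finset.univ)
      fun j => tyV (fun k => r k - 1) v j = false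
    rw [Fin.card_filter_val_lt] at h1
    rw [Finset.card_univ, Fintype.card_fin] at h2
    have h3 := hdg b
    simp only [tdeg] at he
    omega

/-- for `v ≥ -deg*q'`, `r k + v < 0` forces `k + 1 < deg`, so `tdeg ≥ n`. -/
theorem van_Q_lo {q' K : ℕ} (H : Hx n pp ξ ρ) (hE : P.Ent (nn W n B ^ q'))
    (hsq : P.Sq (kk W n ξ K)) (hdg : P.DegLe (n + 1)) (r : Fin n → ℤ)
    (hr : ∀ k : Fin n, (((k : ℕ) : ℤ) + 1) * q' ≤ r k) {t : ℤ} (h0 : 0 ≤ t)
    (hK : t + (n + 1) * q' ≤ K) {k : ℤ} (hk : k < n) :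
    Van (DD W n ξ P) (XC W ξ P (fun _ k => r k - 1) (cQ P q'))
      (XC W ξ P (fun _ k => r k - 1) fun _ => t) k := by
  have hq : (0 : ℤ) ≤ q' := by positivity
  have hd : ∀ b, (P.deg b : ℤ) ≤ n + 1 := fun b => by exact_mod_cast hdg b
  refine cut_van H hE hsq (adm_cQ q' _) (lowa_adm_const q' _ _) (fun b => ?_) (fun _ b => ?_) k ?_
  · exact (neg_nonpos.2 (by positivity)).trans h0
  · have := mul_le_mul_of_nonneg_right (hd b) hq
    simp only [cQ]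
    linarith
  · intro b v hv _ _ he
    have hsub : (Finset.univ.filter fun j => ¬ tyV (fun k => r k - 1) v j = false) ⊆
        Finset.univ.filter fun j : Fin n => (j : ℕ) < P.deg b - 1 := by
      intro j hj
      have h2 : r j - 1 + v < -1 := by simpa [tyV] using hj
      have h3 : (((j : ℕ) : ℤ) + 1) * q' < (P.deg b : ℤ) * q' := by
        have := hr j
        simp only [cQ] at hv
        linarith
      have h4 := lt_of_mul_lt_mul_right h3 hq
      refine Finset.mem_filter.2 ⟨Finset.mem_univ _, ?_⟩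
      omega
    have h1 := Finset.card_le_card hsub
    have h2 := Finset.card_filter_add_card_filter_not (s := Finset.univ)
      fun j => tyV (fun k => r k - 1) v j = false
    rw [Fin.card_filter_val_lt] at h1
    rw [Finset.card_univ, Fintype.card_fin] at h2
    simp only [tdeg] at he
    omega

/-- thick regions -/
def thR (α₀ α : Fin n → ℤ) (t : ℤ) (I : V n) : Set (Mon n) :=
  topR I ∩ (ge t ∪ bq α₀ I ∪ (ge 0 ∩ bq α I))

theorem thR_self (α₀ : Fin n → ℤ) (t : ℤ) (I : V n) : thR α₀ α₀ t I = cutR α₀ t I := by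
  rw [thR, cutR, Set.union_assoc, Set.union_eq_left.2 Set.inter_subset_right]

/-- excision (`PC_iso_id`, `Om_union`, `Om_inter`). -/
theorem iso_thick (H : Hx n pp ξ ρ) (α₀ : Fin n → ℤ) (α : P.ι → Fin n → ℤ) (h : ∀ b, α₀ ≤ α b)
    {t : ℤ} (ht : 0 ≤ t) :
    Iso LinearMap.id 0 (XC W ξ P (fun _ => α₀) fun _ => 0)
      (RC W ξ P fun x => thR α₀ (α x.1) t x.2) (XC W ξ P α fun _ => 0) (XC W ξ P α fun _ => t) := by
  have hge : (ge t : Set (Mon n)) ⊆ ge 0 := fun μ hμ => ht.trans hμ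
  refine PC_iso_id P n (funext fun x => ?_) (funext fun x => ?_)
  · rw [Pi.sup_apply, ← Om_union]
    congr 1
    have := bq_mono (h x.1) x.2
    ext μ
    have h1 := @this μ
    have h2 := @hge μ
    simp only [cutR, Set.mem_union, Set.mem_inter_iff]
    tauto
  · rw [Pi.inf_apply, ← Om_inter H (stab_cutR _ _ _) (stab_cutR _ _ _)]
    congr 1
    have := bq_mono (h x.1) x.2
    ext μ
    have h1 := @this μ
    have h2 := @hge μ
    simp only [cutR, thR, Set.mem_union, Set.mem_inter_iff]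
    tauto

theorem st_thick (α₀ : Fin n → ℤ) (α : P.ι → Fin n → ℤ) (hα : ∀ a b, P.d a b ≠ 0 → α b ≤ α a)
    (t : ℤ) : St (DD W n ξ P) (RC W ξ P fun x => thR α₀ (α x.1) t x.2) := by
  refine PC_st P n (fun a b I hab x hx => Submodule.smul_mem _ _ (Om_mono ?_ hx))
    fun a I k _ => Om_mono ?_
  · exact Set.inter_subset_inter_right _ (Set.union_subset_union_right _
      (Set.inter_subset_inter_right _ (bq_mono (hα a b hab) I)))
  · exact Set.inter_subset_inter (topR_update I k) (Set.union_subset_union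
      (Set.union_subset_union_right _ (bq_update α₀ I k))
      (Set.inter_subset_inter_right _ (bq_update (α a) I k)))

/-- levels of the tail filtration of the thick part -/
def thL (α₀ α : Fin n → ℤ) (t : ℤ) (I : V n) : Set (Mon n) :=
  topR I ∩ (bq α₀ I ∪ (ge t ∩ bq α I))

theorem lowb_lev_nonneg (n M j : ℕ) : 0 ≤ lev n M j := by unfold lev; positivity

theorem lowb_lev_succ (n M j : ℕ) : lev n M (j + 1) = lev n M j + ((n + 1 : ℕ) : ℤ) * M := by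
  unfold lev; push_cast; ring

theorem lowb_lev_mono (n M : ℕ) {j j' : ℕ} (h : j ≤ j') : lev n M j ≤ lev n M j' := by
  unfold lev
  exact mul_le_mul_of_nonneg_right (by exact_mod_cast h) (by positivity)

theorem lowb_stab (α₀ α : Fin n → ℤ) (t : ℤ) (I : V n) : Stab (thL α₀ α t I) :=
  (stab_topR I).inter ((stab_bq α₀ I).union ((stab_ge t).inter (stab_bq α I)))

theorem lowb_mono (α₀ : Fin n → ℤ) {α α' : Fin n → ℤ} (h : α ≤ α') {t t' : ℤ} (ht : t' ≤ t)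
    (I : V n) : thL α₀ α t I ⊆ thL α₀ α' t' I := by
  rintro μ ⟨h1, h2 | ⟨h2, h3⟩⟩
  · exact ⟨h1, Or.inl h2⟩
  · exact ⟨h1, Or.inr ⟨le_trans ht h2, bq_mono h I h3⟩⟩

theorem lowb_update (α₀ α : Fin n → ℤ) (t : ℤ) (I : V n) (k : Fin n) :
    thL α₀ α t (Function.update I k false) ⊆ thL α₀ α t I := by
  rintro μ ⟨h1, h2 | ⟨h2, h3⟩⟩
  · exact ⟨topR_update I k h1, Or.inl (bq_update α₀ I k h2)⟩
  · exact ⟨topR_update I k h1, Or.inr ⟨h2, bq_update α I k h3⟩⟩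

theorem lowb_jump (α₀ : Fin n → ℤ) {α α' : Fin n → ℤ} (h : α ≤ α') {t t' tb : ℤ} {K : ℕ}
    (h1 : tb ≤ t) (h2 : t' ≤ tb + K) (I : V n) :
    ∀ μ ∈ thL α₀ α t I, (μ.1 < tb ∨ tb + K ≤ μ.1) → μ ∈ thL α₀ α' t' I := by
  rintro μ ⟨a1, a2 | ⟨a2, a3⟩⟩ hμ
  · exact ⟨a1, Or.inl a2⟩
  · have a2' : t ≤ μ.1 := a2
    refine ⟨a1, Or.inr ⟨?_, bq_mono h I a3⟩⟩
    show t' ≤ μ.1
    omega

theorem lowb_ent (P : FC B) : P.Ent (nn W n B ^ 0) := fun a b => by
  rw [pow_zero, Ideal.one_eq_top]; trivial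

theorem lowb_st (α₀ : Fin n → ℤ) (α : P.ι → Fin n → ℤ) (hα : ∀ a b, P.d a b ≠ 0 → α b ≤ α a)
    (t : ℤ) : St (DD W n ξ P) (RC W ξ P fun x => thL α₀ (α x.1) t x.2) :=
  RC_st (lowb_ent P) (fun c => lowb_stab _ _ _ _) (fun _ => 0)
    (fun a b I hab _ hμ _ => lowb_mono α₀ (hα a b hab) le_rfl I hμ)
    (fun a I k _ => lowb_update α₀ (α a) t I k)

theorem lowb_dd {K : ℕ} (hsq : P.Sq (kk W n ξ K)) (α₀ : Fin n → ℤ) (α : P.ι → Fin n → ℤ)
    (hα : ∀ a b, P.d a b ≠ 0 → α b ≤ α a) {t t' : ℤ} (h : t' ≤ t + K) :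
    ∀ k, ∀ x ∈ RC W ξ P (fun x => thL α₀ (α x.1) t x.2) k,
      DD W n ξ P (DD W n ξ P x) ∈ RC W ξ P (fun x => thL α₀ (α x.1) t' x.2) (k - 2) :=
  RC_dd hsq (fun c => lowb_stab _ _ _ _) (fun _ => t)
    (fun a m b I h1 h2 => lowb_jump α₀ ((hα m b h2).trans (hα a m h1)) le_rfl h I)

theorem lowb_tn {K M m' : ℕ} (hsq : P.Sq (kk W n ξ K)) (θ : B)
    (α₀ : Fin n → ℤ) (α : P.ι → Fin n → ℤ)
    (hm : ∀ b k, α b k ≤ α₀ k + m') (hα : ∀ a b, P.d a b ≠ 0 → α b ≤ α a)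
    (e : Fin (n + 1) → B) (he : ∀ i, e i ∈ Ideal.span {zB W n B 0 ^ m'})
    (s : Fin (n + 1) → Matrix P.ι P.ι B)
    (hs : ∀ i, P.Htp (kk W n ξ K) (θ * zB W n B i ^ M - e i) (s i))
    (hsα : ∀ i a b, s i a b ≠ 0 → α b ≤ α a) {t₁ t₂ : ℤ}
    (hK : t₂ + ((n + 1 : ℕ) : ℤ) * M ≤ t₁ + K) (k : ℤ) :
    ∀ x ∈ Zc (DD W n ξ P) (RC W ξ P fun x => thL α₀ (α x.1) (t₁ + ((n + 1 : ℕ) : ℤ) * M) x.2)
        (RC W ξ P fun x => thL α₀ (α x.1) (t₂ + ((n + 1 : ℕ) : ℤ) * M) x.2) k,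
      θ ^ (n + 1) • x ∈ Bd (DD W n ξ P) (RC W ξ P fun x => thL α₀ (α x.1) t₁ x.2)
        (RC W ξ P fun x => thL α₀ (α x.1) t₂ x.2) k := by
  have hM : (0 : ℤ) ≤ M := Int.natCast_nonneg M
  have hanti : ∀ (t₀ : ℤ) (t : ℕ) (c : P.ι × V n),
      thL α₀ (α c.1) (t₀ + ((t + 1 : ℕ) : ℤ) * M) c.2 ⊆ thL α₀ (α c.1) (t₀ + (t : ℤ) * M) c.2 := by
    intro t₀ t c
    refine lowb_mono α₀ le_rfl ?_ c.2
    push_cast; nlinarith
  have hch : ∀ (t₀ : ℤ) (t : ℕ) (c : P.ι × V n), ∀ ν ∈ chartR c.2 M,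
      ∀ μ ∈ thL α₀ (α c.1) (t₀ + ((t + 1 : ℕ) : ℤ) * M) c.2,
        ν + μ ∈ thL α₀ (α c.1) (t₀ + (t : ℤ) * M) c.2 := by
    rintro t₀ t c ν hν μ ⟨h1, h2 | ⟨h2, h3⟩⟩
    · exact ⟨chart_topR hν h1, Or.inl (chart_bq hν h2)⟩
    · refine ⟨chart_topR hν h1, Or.inr ⟨?_, chart_bq hν h3⟩⟩
      have h2' : t₀ + ((t + 1 : ℕ) : ℤ) * M ≤ μ.1 := h2
      have h4 : ν.1 = -(M : ℤ) := hν.1
      show t₀ + (t : ℤ) * M ≤ ν.1 + μ.1
      push_cast at h2'
      linarith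
  have key := RC_tn (K := K) (M := M) θ e s hs
    (fun t c => thL α₀ (α c.1) (t₁ + (t : ℤ) * M) c.2) (fun t c => thL α₀ (α c.1) (t₂ + (t : ℤ) * M) c.2)
    (fun t c => lowb_stab _ _ _ _) (fun t _ c => hanti t₁ t c) (fun t _ c => hanti t₂ t c)
    (fun t _ c => hch t₁ t c) (fun t _ c => hch t₂ t c)
    (fun t i a b I h => lowb_mono α₀ (hsα i a b h) le_rfl I)
    (fun t i a b I h => lowb_mono α₀ (hsα i a b h) le_rfl I)
    (fun t a I k _ => lowb_update α₀ (α a) _ I k) ?_ t₁ ?_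
    (fun t _ => lowb_st α₀ α hα _) (fun t _ => lowb_dd hsq α₀ α hα ?_) k
  · simpa only [Nat.cast_zero, zero_mul, add_zero] using key
  · intro t _ i c x hx
    obtain ⟨r, hr⟩ := Ideal.mem_span_singleton'.1 (he i)
    rw [← hr, mul_smul]
    refine Submodule.smul_mem _ _ (z0_pow_smul_mem_Om m' ?_ hx)
    rintro μ ⟨h1, h2⟩
    refine ⟨fun k hk => by simpa using h1 k hk, Or.inl ?_⟩
    have hm0 : (0 : ℤ) ≤ m' := Int.natCast_nonneg m'
    rcases h2 with ⟨k, hk, h2⟩ | ⟨-, k, hk, h2⟩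
    · refine ⟨k, hk, ?_⟩
      simp only [Prod.snd_add, Prod.fst_add, Pi.add_apply, Pi.zero_apply]
      linarith
    · refine ⟨k, hk, ?_⟩
      simp only [Prod.snd_add, Prod.fst_add, Pi.add_apply, Pi.zero_apply]
      linarith [hm c.1 k]
  · intro t ht i a b I hab
    have hle : α b ≤ α a := by
      rcases hab with rfl | hab
      · exact le_rfl
      · by_contra hne
        apply hab
        rw [Matrix.add_apply, Matrix.mul_apply, Matrix.mul_apply, Finset.sum_eq_zero,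
          Finset.sum_eq_zero, add_zero]
        · intro m _
          by_contra h
          exact hne ((hα m b (right_ne_zero_of_mul h)).trans (hsα i a m (left_ne_zero_of_mul h)))
        · intro m _
          by_contra h
          exact hne ((hsα i m b (right_ne_zero_of_mul h)).trans (hα a m (left_ne_zero_of_mul h)))
    have ht' : (t : ℤ) ≤ n := by exact_mod_cast ht
    have ht0 : (0 : ℤ) ≤ t := Int.natCast_nonneg t
    refine lowb_jump α₀ hle (by nlinarith) ?_ I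
    push_cast at hK
    nlinarith
  · have hn0 : (0 : ℤ) ≤ ((n + 1 : ℕ) : ℤ) * M := by positivity
    linarith

theorem lowb_le_th (α₀ : Fin n → ℤ) (α : P.ι → Fin n → ℤ) (t : ℤ) :
    XC W ξ P (fun _ => α₀) (fun _ => t) ≤ RC W ξ P fun x => thR α₀ (α x.1) t x.2 :=
  RC_mono fun _ _ hμ => ⟨hμ.1, Or.inl hμ.2⟩

/-- `good_of_TN` with `N = RC (topR ∩ (bq α₀ ∪ (ge 0 ∩ bq α)))`, `N' = RC (topR ∩ bq α₀)`,
`Y j = RC (topR ∩ ge (lev j))`, `lv j = RC (topR ∩ (bq α₀ ∪ (ge (lev j) ∩ bq α)))`.  TN by `RC_tn`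
(`tb = lev j`; `he` by `z0_pow_smul_mem_Om`).  Smallness: `HSm.sub` for
`XC α₀ 0 ≥ thick ≥ XC α₀ (lev 1)`, using `cut_hsm` (with `q' = 0`) twice and `Iso.hsm iso_thick`. -/
theorem good_thick {K M A kl m' : ℕ} (H : Hx n pp ξ ρ) (hsq : P.Sq (kk W n ξ K)) (θ : B)
    (α₀ : Fin n → ℤ) (α : P.ι → Fin n → ℤ) (h0 : ∀ b, α₀ ≤ α b)
    (hm : ∀ b k, α b k ≤ α₀ k + m') (hα : ∀ a b, P.d a b ≠ 0 → α b ≤ α a)
    (e : Fin (n + 1) → B) (he : ∀ i, e i ∈ Ideal.span {zB W n B 0 ^ m'})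
    (s : Fin (n + 1) → Matrix P.ι P.ι B)
    (hs : ∀ i, P.Htp (kk W n ξ K) (θ * zB W n B i ^ M - e i) (s i))
    (hsα : ∀ i a b, s i a b ≠ 0 → α b ≤ α a)
    (hK : lev n M 4 ≤ K) (hA2 : lev n M 1 ≤ A) (hA3 : ∀ k, |α₀ k| ≤ A) (hA4 : ∀ b k, |α b k| ≤ A)
    (hkl : cl (kk W n ξ (2 * A) ⊔ zp W n B ⊔ Ideal.span {(θ ^ (n + 1)) ^ 2}) ≤ kl) :
    Good (θ ^ (n + 1)) (2 * (Fintype.card P.ι * 2 ^ n * (4 * A + 1) ^ n * kl)) (DD W n ξ P)
      (fun j => RC W ξ P fun x => thR α₀ (α x.1) (lev n M j) x.2)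
      (fun j => XC W ξ P (fun _ => α₀) fun _ => lev n M j) := by
  have hl0 := lowb_lev_nonneg n M
  set N : Ch B (P.ι × V n → OO W n ξ) := RC W ξ P fun x => thL α₀ (α x.1) 0 x.2 with hN
  set N' : Ch B (P.ι × V n → OO W n ξ) := RC W ξ P fun x => topR x.2 ∩ bq α₀ x.2 with hN'
  set Y : ℕ → Ch B (P.ι × V n → OO W n ξ) :=
    fun j => RC W ξ P fun x => topR x.2 ∩ ge (lev n M j) with hY
  have e1 : ∀ j, N ⊔ Y j = RC W ξ P fun x => thR α₀ (α x.1) (lev n M j) x.2 := by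
    intro j
    rw [hN, hY, ← RC_union]
    congr 1
    funext x
    ext μ
    simp only [thL, thR, Set.mem_union, Set.mem_inter_iff]
    tauto
  have e2 : ∀ j, N' ⊔ Y j = XC W ξ P (fun _ => α₀) fun _ => lev n M j := by
    intro j
    rw [hN', hY, ← RC_union, XC]
    congr 1
    funext x
    ext μ
    simp only [cutR, Set.mem_union, Set.mem_inter_iff]
    tauto
  have e3 : ∀ j, lv N N' Y j = RC W ξ P fun x => thL α₀ (α x.1) (lev n M j) x.2 := by
    intro j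
    rw [lv, hN, hN', hY, ← RC_inter H (fun c => lowb_stab _ _ _ _)
      (fun c => (stab_topR _).inter (stab_ge _)), ← RC_union]
    congr 1
    funext x
    ext μ
    have : μ ∈ (ge (lev n M j) : Set (Mon n)) → μ ∈ (ge 0 : Set (Mon n)) :=
      fun h => le_trans (hl0 j) h
    simp only [thL, Set.mem_union, Set.mem_inter_iff]
    tauto
  have hK1 : lev n M 1 ≤ K := (lowb_lev_mono n M (by norm_num)).trans hK
  have hsm : ∀ β : P.ι → Fin n → ℤ, (∀ a b, P.d a b ≠ 0 → β b ≤ β a) → (∀ b k, |β b k| ≤ A) →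
      Pair (DD W n ξ P) (XC W ξ P β fun _ => 0) (XC W ξ P β fun _ => lev n M 1) ∧
      ∀ k, HSm ((θ ^ (n + 1)) ^ 2) ((Fintype.card P.ι * 2 ^ n * (4 * A + 1) ^ n * kl : ℕ) : ℕ∞)
        (DD W n ξ P) (XC W ξ P β fun _ => 0) (XC W ξ P β fun _ => lev n M 1) k := by
    intro β hβ hβA
    have a0 : ∀ t : ℤ, Adm P 0 β fun _ => t := fun t a b hab => ⟨hβ a b hab, by simp⟩
    exact ⟨XC_pair (lowb_ent P) hsq (a0 0) (a0 _) (fun _ => hl0 1) (fun _ _ => by simpa using hK1),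
      fun k => cut_hsm H (lowb_ent P) hsq (a0 0) (a0 _) (fun _ => hl0 1)
        (fun _ _ => by simpa using hK1) A (fun _ => by simp) (fun _ => hA2) hβA _ kl hkl k⟩
  obtain ⟨p0, s0⟩ := hsm (fun _ => α₀) (fun _ _ _ => le_rfl) (fun _ => hA3)
  obtain ⟨p1, s1⟩ := hsm α hα hA4
  have hU : (RC W ξ P fun x => thR α₀ (α x.1) (lev n M 1) x.2) ≤
      XC W ξ P (fun _ => α₀) fun _ => 0 := by
    refine RC_mono ?_
    rintro c μ ⟨h1, (h2 | h2) | ⟨h2, -⟩⟩
    · exact ⟨h1, Or.inl (le_trans (hl0 1) h2)⟩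
    · exact ⟨h1, Or.inr h2⟩
    · exact ⟨h1, Or.inl h2⟩
  have hL := lowb_le_th (W := W) (ξ := ξ) α₀ α (lev n M 1)
  have hM := st_thick (W := W) (ξ := ξ) α₀ α hα (lev n M 1)
  have key := good_of_TN (θ := θ ^ (n + 1))
    (c := 2 * (Fintype.card P.ι * 2 ^ n * (4 * A + 1) ^ n * kl)) (D := DD W n ξ P)
    (N := N) (N' := N') (Y := Y) ?_ (lowb_st α₀ α hα 0) ?_ ?_ ?_ ?_ ?_ ?_
  · simpa only [e1, e2] using key
  · exact RC_mono fun _ _ hμ => ⟨hμ.1, Or.inl hμ.2⟩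
  · exact RC_st (lowb_ent P) (fun c => (stab_topR _).inter (stab_bq _ _)) (fun _ => 0)
      (fun a b I _ _ hμ _ => hμ)
      (fun a I k _ μ hμ => ⟨topR_update I k hμ.1, bq_update α₀ I k hμ.2⟩)
  · exact fun j => RC_st (lowb_ent P) (fun c => (stab_topR _).inter (stab_ge _)) (fun _ => 0)
      (fun a b I _ _ hμ _ => hμ) (fun a I k _ μ hμ => ⟨topR_update I k hμ.1, hμ.2⟩)
  · exact fun j j' hj => RC_mono fun _ _ hμ => ⟨hμ.1, le_trans (lowb_lev_mono n M hj) hμ.2⟩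
  · rw [e3]
    exact lowb_dd hsq α₀ α hα (by simpa using hK)
  · intro j j' _ hj' k
    rw [e3, e3, e3, e3, lowb_lev_succ, lowb_lev_succ]
    refine lowb_tn hsq θ α₀ α hm hα e he s hs hsα ?_ k
    rw [← lowb_lev_succ]
    have := lowb_lev_mono n M (show j' + 1 ≤ 4 by omega)
    linarith [hl0 j]
  · intro k
    rw [e1, e2, two_mul, Nat.cast_add]
    refine HSm.sub p0 hL hU hM ?_ (s0 k)
    exact Iso.hsm (u := 1) (iso_thick H α₀ α h0 (hl0 1)) (fun x => by simp) (p0.quot hL hU hM) p1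
      (s1 _)

theorem lowb_telescope (f : ℤ → ℝ) (N : ℕ) :
    ∑ k ∈ Finset.Icc (0 : ℤ) N, (f k - f (k - 1)) = f N - f (-1) := by
  induction N with
  | zero => simp
  | succ N ih =>
    have : Finset.Icc (0 : ℤ) ((N + 1 : ℕ) : ℤ) = insert ((N : ℤ) + 1) (Finset.Icc (0 : ℤ) N) := by
      ext k
      simp only [Finset.mem_Icc, Finset.mem_insert]
      omega
    rw [this, Finset.sum_insert (by simp), ih, add_sub_cancel_right]
    push_cast
    ring

theorem lowb_sg (k : ℤ) : sg (k - 1) = -sg k := by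
  unfold sg
  rw [zpow_sub_one₀ (by norm_num)]
  norm_num

theorem lowb_sig_zero {X : Type*} [AddCommGroup X] [Module B X] (D : X →ₗ[B] X)
    (U L : ℕ → Ch B X) {k : ℤ} (h : U 3 k = ⊥) : sig D U L k = 0 := by
  refine len_eq_zero_iff.2 (le_trans ?_ bot_le)
  rw [← h]
  exact inf_le_left

/-- The thick part has stable Euler characteristic `≈ 0`: `aal` for `Th ≥ Th^inl ≥ L`, where
`Th^inl` uses the twist `Sum.elim (fun _ => α) (fun _ => α₀)` and the block homotopies `FC.cone_htp`;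
the quotient tower is `Good` by `Good.transfer` along `coneShift_iso`/`coneShift_D` (`thR_self`), and
`sig_transfer` gives `schi quot = - schi sub` (boundary terms vanish by `PC_supp`). -/
theorem thick_small {K M A kl m' : ℕ} (H : Hx n pp ξ ρ) (Cx : FC B) (y : B) (hdg : Cx.DegLe n)
    (hsq : Cx.Sq (kk W n ξ K)) (θ : B) (α₀ α : Fin n → ℤ) (h0 : α₀ ≤ α)
    (hm : ∀ k, α k ≤ α₀ k + m')
    (hθ : ∀ i, θ * zB W n B i ^ M ∈ (Cx.cone y).nh (kk W n ξ K))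
    (hθ' : ∀ i, θ * zB W n B i ^ M ∈ Cx.nh (kk W n ξ K) ⊔ Ideal.span {zB W n B 0 ^ m'})
    (hK : lev n M 4 ≤ K) (hA2 : lev n M 1 ≤ A) (hA3 : ∀ k, |α₀ k| ≤ A) (hA4 : ∀ k, |α k| ≤ A)
    (hkl : cl (kk W n ξ (2 * A) ⊔ zp W n B ⊔ Ideal.span {(θ ^ (n + 1)) ^ 2}) ≤ kl) :
    |schi 0 (((n + 1 : ℕ) : ℤ) + n) (DD W n ξ (Cx.cone y))
      (fun j => RC W ξ (Cx.cone y) fun x => thR α₀ α (lev n M j) x.2)
      (fun j => XC W ξ (Cx.cone y) (fun _ => α₀) fun _ => lev n M j)| ≤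
      3 * (2 * (n : ℝ) + 2) *
        ((2 * (Fintype.card (Cx.cone y).ι * 2 ^ n * (4 * A + 1) ^ n * kl) : ℕ) : ℝ) := by
  have hsqP := FC.cone_sq y hsq
  choose s hs using hθ
  have hθ2 : ∀ i, ∃ e ∈ Ideal.span {zB W n B 0 ^ m'}, ∃ s', Cx.Htp (kk W n ξ K)
      (θ * zB W n B i ^ M - e) s' := by
    intro i
    obtain ⟨u, ⟨s', hs'⟩, e, he, h⟩ := Submodule.mem_sup.1 (hθ' i)
    exact ⟨e, he, s', by rwa [← h, add_sub_cancel_right]⟩
  choose e he s' hs' using hθ2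
  set β : (Cx.cone y).ι → Fin n → ℤ := Sum.elim (fun _ => α) (fun _ => α₀) with hβ
  have hβd : ∀ a b, (Cx.cone y).d a b ≠ 0 → β b ≤ β a := by
    rintro (a | a) (b | b) h
    · exact le_rfl
    · exact h0
    · exact absurd rfl h
    · exact le_rfl
  have hB := good_thick (P := Cx.cone y) (m' := m') H hsqP θ α₀ (fun _ => α) (fun _ => h0)
    (fun _ => hm) (fun _ _ _ => le_rfl) (fun _ => 0) (fun _ => Ideal.zero_mem _) s
    (fun i => by rw [sub_zero]; exact hs i) (fun _ _ _ _ => le_rfl) hK hA2 hA3 (fun _ => hA4) hkl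
  have hA := good_thick (P := Cx.cone y) (m' := m') H hsqP θ α₀ β
    (by rintro (b | b); exacts [h0, le_rfl])
    (by
      rintro (b | b) k
      · exact hm k
      · exact le_add_of_nonneg_right (Int.natCast_nonneg m'))
    hβd e he (fun i => Matrix.fromBlocks (s' i) 0 0 (-(s' i))) (fun i => FC.cone_htp y (hs' i))
    (by
      rintro i (a | a) (b | b) h
      · exact le_rfl
      · exact h0
      · exact absurd rfl h
      · exact le_rfl)
    hK hA2 hA3 (by rintro (b | b); exacts [hA4, hA3]) hkl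
  have hMU : ∀ t : ℤ, (RC W ξ (Cx.cone y) fun x => thR α₀ (β x.1) t x.2) ≤
      RC W ξ (Cx.cone y) fun x => thR α₀ α t x.2 := by
    intro t
    refine RC_mono ?_
    rintro ⟨a, I⟩ μ ⟨h1, h2 | ⟨h2, h3⟩⟩
    · exact ⟨h1, Or.inl h2⟩
    · refine ⟨h1, Or.inr ⟨h2, bq_mono ?_ I h3⟩⟩
      rcases a with a | a
      exacts [le_rfl, h0]
  have htw : Tw (DD W n ξ (Cx.cone y))
      (fun j => RC W ξ (Cx.cone y) fun x => thR α₀ α (lev n M j) x.2)
      (fun j => RC W ξ (Cx.cone y) fun x => thR α₀ (β x.1) (lev n M j) x.2) :=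
    ⟨fun j hj => (hB.tw.pair j hj).quot (lowb_le_th α₀ β _) (hMU _) (st_thick α₀ β hβd _),
      hB.tw.antiU, hA.tw.antiU⟩
  have hI : ∀ t : ℤ, Iso (coneShift n Cx y) (-1)
      (RC W ξ (Cx.cone y) fun x => thR α₀ α t x.2)
      (RC W ξ (Cx.cone y) fun x => thR α₀ (β x.1) t x.2)
      (RC W ξ (Cx.cone y) fun x => thR α₀ (β x.1) t x.2)
      (XC W ξ (Cx.cone y) (fun _ => α₀) fun _ => t) := by
    intro t
    have h := coneShift_iso n Cx y (fun c => Om W ξ (thR α₀ α t c.2)) (fun c => Om W ξ (cutR α₀ t c.2))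
      (fun c => Om_mono fun _ hμ => ⟨hμ.1, Or.inl hμ.2⟩)
    have a1 : (fun c : (Cx.cone y).ι × V n => Sum.elim (fun _ : Cx.ι => Om W ξ (thR α₀ α t c.2))
        (fun _ : Cx.ι => Om W ξ (thR α₀ α t c.2)) c.1) = fun c => Om W ξ (thR α₀ α t c.2) := by
      funext ⟨a, I⟩
      rcases a with a | a <;> rfl
    have a2 : (fun c : (Cx.cone y).ι × V n => Sum.elim (fun _ : Cx.ι => Om W ξ (thR α₀ α t c.2))
        (fun _ : Cx.ι => Om W ξ (cutR α₀ t c.2)) c.1) = fun c => Om W ξ (thR α₀ (β c.1) t c.2) := by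
      funext ⟨a, I⟩
      rcases a with a | a
      · rfl
      · show Om W ξ (cutR α₀ t I) = Om W ξ (thR α₀ α₀ t I)
        rw [thR_self]
    have a3 : (fun c : (Cx.cone y).ι × V n => Sum.elim (fun _ : Cx.ι => Om W ξ (cutR α₀ t c.2))
        (fun _ : Cx.ι => Om W ξ (cutR α₀ t c.2)) c.1) = fun c => Om W ξ (cutR α₀ t c.2) := by
      funext ⟨a, I⟩
      rcases a with a | a <;> rfl
    rw [a1, a2, a3] at h
    exact h
  have hC := Good.transfer htw hA (coneShift_D n Cx y) (fun j _ => hI _)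
  have hsup : ∀ R : (Cx.cone y).ι × V n → Set (Mon n),
      Supp (RC W ξ (Cx.cone y) R) 0 (((n + 1 : ℕ) : ℤ) + n) :=
    fun R => PC_supp _ n (FC.cone_degLe y hdg) _
  have hal := aal hA hB hC (a := 0) (b := ((n + 1 : ℕ) : ℤ) + n) (by positivity) (hsup _)
  have hsig := sig_transfer htw hA.tw (coneShift_D n Cx y) (fun j _ => hI _)
  have hzero : schi 0 (((n + 1 : ℕ) : ℤ) + n) (DD W n ξ (Cx.cone y))
      (fun j => RC W ξ (Cx.cone y) fun x => thR α₀ (β x.1) (lev n M j) x.2)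
      (fun j => XC W ξ (Cx.cone y) (fun _ => α₀) fun _ => lev n M j) +
      schi 0 (((n + 1 : ℕ) : ℤ) + n) (DD W n ξ (Cx.cone y))
      (fun j => RC W ξ (Cx.cone y) fun x => thR α₀ α (lev n M j) x.2)
      (fun j => RC W ξ (Cx.cone y) fun x => thR α₀ (β x.1) (lev n M j) x.2) = 0 := by
    unfold schi
    simp only [hsig]
    set g : ℤ → ℕ∞ := sig (DD W n ξ (Cx.cone y))
      (fun j => RC W ξ (Cx.cone y) fun x => thR α₀ (β x.1) (lev n M j) x.2)
      (fun j => XC W ξ (Cx.cone y) (fun _ => α₀) fun _ => lev n M j) with hg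
    have t1 := lowb_telescope (fun k => sg k * ((g k).toNat : ℝ)) (n + 1 + n)
    have z1 : g (-1) = 0 := lowb_sig_zero _ _ _ (hsup _ _ (Or.inl (by norm_num)))
    have z2 : g ((n + 1 + n : ℕ) : ℤ) = 0 := by
      have := hsig (((n + 1 + n : ℕ) : ℤ) + 1)
      rw [add_neg_cancel_right] at this
      rw [← this]
      exact lowb_sig_zero _ _ _ (hsup _ _ (Or.inr (by push_cast; linarith)))
    rw [z1, z2, Nat.cast_add (n + 1) n] at t1
    simp only [ENat.toNat_zero, Nat.cast_zero, mul_zero, sub_zero] at t1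
    rw [← Finset.sum_add_distrib, ← t1]
    refine Finset.sum_congr rfl fun k _ => ?_
    rw [lowb_sg, sub_eq_add_neg k 1]
    ring
  rw [sub_sub, hzero, sub_zero] at hal
  refine hal.trans (le_of_eq ?_)
  push_cast
  ring

end

/-- MAIN LOWER BOUND.  `P = cone y Cx`, `r` from `exists_twist`, `α = r - 1`, `α₀ = al0 n`,
`c₀ = card P.ι * 2^n * (4A+1)^n * kl`, `s = sg n`, `tb = -(n+1)q' - (n+1)M`.
(1) `s * schi Q ≥ -(2n+2) c₀` (`van_Q_lo`+`sig_le_hl`, `van_Q_hi`+`kill_hi`+`Good.sig_le`).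
(2) `aal` for `Q ≥ X₀^α ≥ tail`, quotient tower constant (`Good.const`, `cut_hsm`), its `schi` is
`chi`, computed by `cut_chi`: `s * chi = ρ ∑_b (-1)^deg b S(deg b)`, `S 0 = 0`,
`S i = n! q'^(n+1) + O(q'^n)`; `FC.cone_alt` and `One` give `= -ρ n! q'^(n+1) + O(..)`.
(3) `aal` for `X₀^{α₀} ≥ thick ≥ tail` (`good_cut`, `good_thick` with `e = 0`, `Good.transfer` and
`sig_transfer` along `iso_thick`), `thick_small`.
(4) `s * schi X₀^{α₀} ≤ sig n + (2n+2) c₀` (`van_al0_lo`, `van_al0_hi`), `sig n ≤ hl ≤ n! * cl`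
(`hl_al0_le`; the `cl` is finite by `cl_kk_le`).  Divide by `n! ≥ 1`. -/
theorem lower (n : ℕ) : ∃ Cst : ℝ, 0 ≤ Cst ∧ ∀ {W : Type} [CommRing W] {B : Type} [CommRing B]
    [Algebra (Pz W n) B] {pp : W} {ξ : B} {ρ : ℕ} (_ : Hx n pp ξ ρ) (Cx : FC B) (y θ : B)
    (q' K M A kl : ℕ), 1 ≤ q' → Cx.One → Cx.DegLe n → (Cx.cone y).Ent (nn W n B ^ q') →
    Cx.Sq (kk W n ξ K) → (∀ i, θ * zB W n B i ^ M ∈ (Cx.cone y).nh (kk W n ξ K)) →
    (∀ i, θ * zB W n B i ^ M ∈ Cx.nh (kk W n ξ K) ⊔ Ideal.span {zB W n B 0 ^ ((n + 1) * q')}) →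
    5 * ((n + 1) * M) + (n + 1) * q' ≤ K → (n + 1) * M + (n + 1) * q' ≤ A →
    cl (kk W n ξ (2 * A) ⊔ zp W n B ⊔ Ideal.span {(θ ^ (n + 1)) ^ 2}) ≤ kl →
    (ρ : ℝ) * (q' : ℝ) ^ (n + 1) - Cst * Fintype.card Cx.ι * ρ * (q' : ℝ) ^ n -
        Cst * Fintype.card Cx.ι * (4 * (A : ℝ) + 1) ^ n * kl ≤
      ((cl ((Cx.cone y).J ⊔ kk W n ξ ((n + 1) * M))).toNat : ℝ) := by
  obtain ⟨C₀, hC₀, htw⟩ := exists_twist n
  refine ⟨2 * C₀ + 17 * (2 * n + 2) * 2 * 2 ^ n, by positivity, ?_⟩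
  intro W _ B _ _ pp ξ ρ H Cx y θ q' K M A kl hq h1 hdg hE hsq hθ hθ' hK hA hkl
  obtain ⟨r, hr, hS⟩ := htw q' hq
  set P : FC B := Cx.cone y with hP
  have hsqP : P.Sq (kk W n ξ K) := FC.cone_sq y hsq
  have hdgP : P.DegLe (n + 1) := FC.cone_degLe y hdg
  have h1P : P.One := FC.cone_one y h1
  have hE0 : P.Ent (nn W n B ^ 0) := fun a b => by simp
  have hKz : 5 * (((n : ℤ) + 1) * M) + ((n : ℤ) + 1) * q' ≤ K := by exact_mod_cast hK
  have hAz : ((n : ℤ) + 1) * M + ((n : ℤ) + 1) * q' ≤ A := by exact_mod_cast hA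
  have hqz : (1 : ℤ) ≤ q' := by exact_mod_cast hq
  have hM0 : (0 : ℤ) ≤ ((n : ℤ) + 1) * M := by positivity
  have hnq : (n : ℤ) + 1 ≤ ((n : ℤ) + 1) * q' := by nlinarith
  have hn0 : (0 : ℤ) ≤ n := by positivity
  have hl1 : lev n M 1 = ((n : ℤ) + 1) * M := by simp [lev]
  have hl3 : lev n M 3 = 3 * (((n : ℤ) + 1) * M) := by simp [lev]
  have hl4 : lev n M 4 = 4 * (((n : ℤ) + 1) * M) := by simp [lev]
  have hlev0 : ∀ j, 0 ≤ lev n M j := fun j => by unfold lev; positivity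
  have hkn : ∀ k : Fin n, ((k : ℕ) : ℤ) + 1 ≤ n := fun k => by have := k.2; omega
  have hr1 : ∀ k : Fin n, ((k : ℕ) : ℤ) + 1 ≤ r k := fun k => by
    have := (hr k).1
    have h3 : (0 : ℤ) ≤ (k : ℕ) := by positivity
    nlinarith
  have hr2 : ∀ k : Fin n, r k ≤ ((n : ℤ) + 1) * q' := fun k => by
    have := (hr k).2
    have h3 := hkn k
    nlinarith
  set α : Fin n → ℤ := fun k => r k - 1 with hα
  have hα0 : al0 n ≤ α := fun k => by
    have := hr1 k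
    show ((k : ℕ) : ℤ) ≤ r k - 1
    omega
  have hαm : ∀ k, α k ≤ al0 n k + (((n + 1) * q' : ℕ) : ℤ) := fun k => by
    have := hr2 k
    have h3 : (0 : ℤ) ≤ (k : ℕ) := by positivity
    show r k - 1 ≤ ((k : ℕ) : ℤ) + (((n + 1) * q' : ℕ) : ℤ)
    push_cast
    omega
  have hαA : ∀ k, |α k| ≤ A := fun k => by
    have := hr1 k
    have := hr2 k
    have h3 : (0 : ℤ) ≤ (k : ℕ) := by positivity
    show |r k - 1| ≤ A
    rw [abs_le]
    constructor <;> omega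
  have hα0A : ∀ k, |al0 n k| ≤ A := fun k => by
    have := hkn k
    have h3 : (0 : ℤ) ≤ (k : ℕ) := by positivity
    show |((k : ℕ) : ℤ)| ≤ A
    rw [abs_le]
    constructor <;> omega
  have hcQ1 : ∀ b, cQ P q' b ≤ 0 := fun b => by
    unfold cQ
    have : (0 : ℤ) ≤ (P.deg b : ℤ) * q' := by positivity
    omega
  have hcQ2 : ∀ b, -(((n : ℤ) + 1) * q') ≤ cQ P q' b := fun b => by
    unfold cQ
    have h3 : (P.deg b : ℤ) ≤ n + 1 := by exact_mod_cast hdgP b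
    have : (P.deg b : ℤ) * q' ≤ ((n : ℤ) + 1) * q' :=
      mul_le_mul_of_nonneg_right h3 (by positivity)
    omega
  have adm0 : ∀ (q : ℕ) (β : Fin n → ℤ), Adm P q (fun _ => β) (fun _ => 0) := fun q β a b _ =>
    ⟨le_rfl, by positivity⟩
  set c₀ : ℕ := Fintype.card P.ι * 2 ^ n * (4 * A + 1) ^ n * kl with hc₀
  set bb : ℤ := ((n + 1 : ℕ) : ℤ) + n with hbb
  have hbb0 : (0 : ℤ) ≤ bb := by positivity
  have hbbn : (n : ℤ) ≤ bb := by rw [hbb]; push_cast; omega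
  have hbbR : ((bb : ℤ) : ℝ) - ((0 : ℤ) : ℝ) + 1 = 2 * n + 2 := by rw [hbb]; push_cast; ring
  -- the towers
  have gQ : Good (θ ^ (n + 1)) c₀ (DD W n ξ P) (fun _ => XC W ξ P (fun _ => α) (cQ P q'))
      (fun j => XC W ξ P (fun _ => α) fun _ => lev n M j) :=
    good_cut H hE hsqP θ hθ α (adm_cQ q' α) hcQ1 (fun b => by have := hcQ2 b; omega)
      (fun b => by have := hcQ2 b; omega) (by omega) hαA hkl
  have gX : Good (θ ^ (n + 1)) c₀ (DD W n ξ P) (fun _ => XC W ξ P (fun _ => α) fun _ => 0)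
      (fun j => XC W ξ P (fun _ => α) fun _ => lev n M j) :=
    good_cut H hE hsqP θ hθ α (adm0 q' α) (fun _ => le_rfl) (fun b => by omega)
      (fun b => by omega) (by omega) hαA hkl
  have gX0 : Good (θ ^ (n + 1)) c₀ (DD W n ξ P) (fun _ => XC W ξ P (fun _ => al0 n) fun _ => 0)
      (fun j => XC W ξ P (fun _ => al0 n) fun _ => lev n M j) :=
    good_cut H hE hsqP θ hθ (al0 n) (adm0 q' _) (fun _ => le_rfl) (fun b => by omega)
      (fun b => by omega) (by omega) hα0A hkl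
  have hKQ : ∀ a b : P.ι, (fun _ => (0 : ℤ)) a ≤ cQ P q' b + K := fun a b => by
    have := hcQ2 b
    show (0 : ℤ) ≤ _
    omega
  have gC : Good (θ ^ (n + 1)) c₀ (DD W n ξ P) (fun _ => XC W ξ P (fun _ => α) (cQ P q'))
      (fun _ => XC W ξ P (fun _ => α) fun _ => 0) :=
    Good.const (XC_pair hE hsqP (adm_cQ q' α) (adm0 q' α) hcQ1 hKQ)
      (cut_hsm H hE hsqP (adm_cQ q' α) (adm0 q' α) hcQ1 hKQ A
        (fun b => by have := hcQ2 b; omega) (fun _ => by positivity) (fun _ => hαA) _ kl hkl)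
  -- (1)
  have s1 : ∀ k, k ≠ (n : ℤ) → sig (DD W n ξ P) (fun _ => XC W ξ P (fun _ => α) (cQ P q'))
      (fun j => XC W ξ P (fun _ => α) fun _ => lev n M j) k ≤ c₀ := by
    intro k hk
    rcases lt_or_gt_of_ne hk with hk | hk
    · refine (sig_le_hl gQ.tw k).trans ?_
      have := van_Q_lo H hE hsqP hdgP r (fun k => (hr k).1) (t := lev n M 1) (hlev0 1)
        (by omega) hk
      rw [van_iff_hl.1 this]
      exact zero_le
    · refine gQ.sig_le k ?_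
      refine kill_hi hE hsqP θ hθ α (adm_cQ q' α) hcQ1
        (tb := -(((n : ℤ) + 1) * q') - ((n : ℤ) + 1) * M) (fun b => by have := hcQ2 b; omega)
        (by omega) (by omega) k ?_
      exact van_Q_hi H hE hsqP hdgP r (fun k => (hr k).2) (by omega) (by omega) (by omega)
  have e1 := lc_schi_near (a := 0) (b := bb) hn0 hbbn s1
  -- (2)
  have e2 := aal gX gQ gC hbb0 (PC_supp P n hdgP _)
  rw [lc_schi_const, cut_chi H hE hsqP hdgP (adm_cQ q' α) (adm0 q' α) hcQ1 hKQ] at e2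
  have e2' : sg n * ((ρ : ℝ) * ∑ b, sg ((P.deg b : ℤ) + n) *
      ∑ v ∈ Finset.Ico (cQ P q' b) 0, ∏ k, ((α k + v + 1 : ℤ) : ℝ)) ≤
      ρ * (-(n.factorial * (q' : ℝ) ^ (n + 1)) + Fintype.card P.ι * (C₀ * (q' : ℝ) ^ n)) := by
    rw [mul_left_comm]
    refine mul_le_mul_of_nonneg_left ?_ (Nat.cast_nonneg _)
    rw [Finset.mul_sum]
    rw [Finset.sum_congr rfl fun b _ => by rw [← mul_assoc, lc_sg_add]]
    refine lc_alt P h1P (FC.cone_alt Cx y) _ _ _ (by positivity) ?_ ?_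
    · intro a ha
      simp [cQ, ha]
    · intro a ha
      have h3 := hS (P.deg a) (Nat.one_le_iff_ne_zero.2 ha) (hdgP a)
      have h4 : ∀ v : ℤ, ∏ k, ((α k + v + 1 : ℤ) : ℝ) = ∏ k, ((r k + v : ℤ) : ℝ) := fun v =>
        Finset.prod_congr rfl fun k _ => by
          rw [show α k + v + 1 = r k + v by simp only [hα]; ring]
      simp only [h4]
      exact h3
  -- (3)
  choose s hs using hθ
  have hθ : ∀ i, θ * zB W n B i ^ M ∈ P.nh (kk W n ξ K) := fun i => ⟨s i, hs i⟩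
  have gT : Good (θ ^ (n + 1)) (2 * c₀) (DD W n ξ P)
      (fun j => RC W ξ P fun x => thR (al0 n) ((fun _ => α) x.1) (lev n M j) x.2)
      (fun j => XC W ξ P (fun _ => al0 n) fun _ => lev n M j) :=
    good_thick (m' := (n + 1) * q') H hsqP θ (al0 n) (fun _ => α) (fun _ => hα0)
      (fun _ => hαm) (fun _ _ _ => le_rfl) (fun _ => 0) (fun _ => Ideal.zero_mem _) s
      (fun i => by rw [sub_zero]; exact hs i) (fun _ _ _ _ => le_rfl) (by omega) (by omega) hα0A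
      (fun _ => hαA) hkl
  have hiso : ∀ j, Iso LinearMap.id 0 (XC W ξ P (fun _ => al0 n) fun _ => 0)
      (RC W ξ P fun x => thR (al0 n) ((fun _ => α) x.1) (lev n M j) x.2)
      (XC W ξ P (fun _ => α) fun _ => 0) (XC W ξ P (fun _ => α) fun _ => lev n M j) := fun j =>
    iso_thick H (al0 n) (fun _ => α) (fun _ => hα0) (hlev0 j)
  have twC : Tw (DD W n ξ P) (fun _ => XC W ξ P (fun _ => al0 n) fun _ => 0)
      (fun j => RC W ξ P fun x => thR (al0 n) ((fun _ => α) x.1) (lev n M j) x.2) := by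
    refine ⟨fun j hj => ?_, fun _ _ _ => le_rfl, gT.tw.antiU⟩
    refine (gX0.tw.pair j hj).quot (gT.tw.pair j hj).le (fun k => ?_) (gT.tw.pair j hj).stU
    rw [← (hiso j).inj k]
    exact inf_le_left
  have hid : ∀ x, (LinearMap.id : (P.ι × V n → OO W n ξ) →ₗ[B] _) (DD W n ξ P x) =
      ((1 : Bˣ) : B) • DD W n ξ P (LinearMap.id (R := B) x) := fun x => by simp
  have gC2 := Good.transfer twC (gX.of_le (c' := 2 * c₀) (by omega)) hid (fun j _ => hiso j)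
  have e3 := aal gT (gX0.of_le (c' := 2 * c₀) (by omega)) gC2 hbb0 (PC_supp P n hdgP _)
  have e3' : schi 0 bb (DD W n ξ P) (fun _ => XC W ξ P (fun _ => al0 n) fun _ => 0)
      (fun j => RC W ξ P fun x => thR (al0 n) ((fun _ => α) x.1) (lev n M j) x.2) =
      schi 0 bb (DD W n ξ P) (fun _ => XC W ξ P (fun _ => α) fun _ => 0)
      (fun j => XC W ξ P (fun _ => α) fun _ => lev n M j) := by
    unfold schi
    refine Finset.sum_congr rfl fun k _ => ?_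
    rw [sig_transfer twC gX.tw hid (fun j _ => hiso j) k, add_zero]
  rw [e3'] at e3
  have e4 := thick_small H Cx y hdg hsq θ (al0 n) α hα0 hαm hθ hθ' (by omega) (by omega) hα0A hαA
    hkl
  -- (4)
  have s5 : ∀ k, k ≠ (n : ℤ) → sig (DD W n ξ P) (fun _ => XC W ξ P (fun _ => al0 n) fun _ => 0)
      (fun j => XC W ξ P (fun _ => al0 n) fun _ => lev n M j) k ≤ c₀ := by
    intro k hk
    rcases lt_or_gt_of_ne hk with hk | hk
    · refine (sig_le_hl gX0.tw k).trans ?_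
      have := van_al0_lo H hsqP (t := lev n M 1) (hlev0 1) (by omega) hk
      rw [van_iff_hl.1 this]
      exact zero_le
    · refine gX0.sig_le k ?_
      refine kill_hi hE hsqP θ hθ (al0 n) (adm0 q' _) (fun _ => le_rfl)
        (tb := -(((n : ℤ) + 1) * M)) (fun b => by show _ ≤ (0 : ℤ); omega)
        (by omega) (by omega) k ?_
      exact van_al0_hi H hsqP hdgP (by omega) (by omega) (by omega)
  have e5 := lc_schi_near (a := 0) (b := bb) hn0 hbbn s5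
  have hfin : cl (P.J ⊔ kk W n ξ ((n + 1) * M)) ≠ ⊤ :=
    ne_top_of_le_ne_top (ENat.natCast_ne_top _) ((cl_anti le_sup_right).trans (cl_kk_le H _))
  have e6 : ((sig (DD W n ξ P) (fun _ => XC W ξ P (fun _ => al0 n) fun _ => 0)
      (fun j => XC W ξ P (fun _ => al0 n) fun _ => lev n M j) n).toNat : ℝ) ≤
      n.factorial * ((cl (P.J ⊔ kk W n ξ ((n + 1) * M))).toNat : ℝ) := by
    have h3 := sig_le_hl gX0.tw n
    have h4 := hl_al0_le (t := (n + 1) * M) H hsqP h1P (by omega)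
    have h5 : (((n + 1) * M : ℕ) : ℤ) = lev n M 1 := by rw [hl1]; push_cast; ring
    rw [h5] at h4
    have h6 := h3.trans h4
    obtain ⟨m, hm⟩ := ENat.ne_top_iff_exists.1 hfin
    rw [← hm, ← Nat.cast_mul] at h6
    have h7 := ENat.toNat_le_of_le_natCast h6
    rw [← hm, ENat.toNat_natCast]
    exact_mod_cast h7
  -- final arithmetic
  rw [hbbR] at e1 e2 e3 e5
  have f2 := lc_abs_le (lc_abs_sg n) e2
  have f3 := lc_abs_le (lc_abs_sg n) e3
  have f4 := lc_abs_le (lc_abs_sg n) e4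
  rw [abs_le] at e1 f2 f3 f4 e5
  rw [mul_sub, mul_sub] at f2 f3
  have hc₀R : (c₀ : ℝ) = 2 * Fintype.card Cx.ι * 2 ^ n * (4 * (A : ℝ) + 1) ^ n * kl := by
    rw [hc₀, hP, FC.cone_card]; push_cast; ring
  have hNR : (Fintype.card P.ι : ℝ) = 2 * Fintype.card Cx.ι := by
    rw [hP, FC.cone_card]; push_cast; ring
  have hsig0 : (0 : ℝ) ≤ ((sig (DD W n ξ P) (fun _ => XC W ξ P (fun _ => α) (cQ P q'))
      (fun j => XC W ξ P (fun _ => α) fun _ => lev n M j) n).toNat : ℝ) := Nat.cast_nonneg _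
  have h2c : ((2 * c₀ : ℕ) : ℝ) = 2 * (c₀ : ℝ) := by push_cast; ring
  rw [h2c] at f3 f4
  have main : (ρ : ℝ) * (n.factorial * (q' : ℝ) ^ (n + 1)) -
      ρ * (Fintype.card P.ι * (C₀ * (q' : ℝ) ^ n)) - 17 * (2 * n + 2) * c₀ ≤
      n.factorial * ((cl (P.J ⊔ kk W n ξ ((n + 1) * M))).toNat : ℝ) := by
    have f4' := f4.1
    linarith [e1.1, f2.2, f3.1, e5.2, e6, e2', hsig0]
  have hf1 : (1 : ℝ) ≤ n.factorial := by exact_mod_cast Nat.factorial_pos n
  set E₁ : ℝ := Fintype.card Cx.ι * ρ * (q' : ℝ) ^ n with hE₁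
  set E₂ : ℝ := Fintype.card Cx.ι * (4 * (A : ℝ) + 1) ^ n * kl with hE₂
  have hE₁0 : 0 ≤ E₁ := by positivity
  have hE₂0 : 0 ≤ E₂ := by positivity
  set C₁ : ℝ := 17 * (2 * n + 2) * 2 * 2 ^ n with hC₁
  have hC₁0 : 0 ≤ C₁ := by positivity
  have m1 : (ρ : ℝ) * (Fintype.card P.ι * (C₀ * (q' : ℝ) ^ n)) = 2 * C₀ * E₁ := by
    rw [hNR, hE₁]; ring
  have m2 : 17 * (2 * (n : ℝ) + 2) * c₀ = C₁ * E₂ := by
    rw [hc₀R, hE₂, hC₁]; ring
  rw [m1, m2] at main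
  have m3 : (ρ : ℝ) * (q' : ℝ) ^ (n + 1) - (2 * C₀ * E₁ + C₁ * E₂) ≤
      ((cl (P.J ⊔ kk W n ξ ((n + 1) * M))).toNat : ℝ) := by
    have hpos : (0 : ℝ) < n.factorial := by linarith
    refine le_of_mul_le_mul_left ?_ hpos
    have h3 : 0 ≤ 2 * C₀ * E₁ + C₁ * E₂ := by positivity
    nlinarith
  have m4 : (2 * C₀ + C₁) * Fintype.card Cx.ι * ρ * (q' : ℝ) ^ n = (2 * C₀ + C₁) * E₁ := by
    rw [hE₁]; ring
  have m5 : (2 * C₀ + C₁) * Fintype.card Cx.ι * (4 * (A : ℝ) + 1) ^ n * kl =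
      (2 * C₀ + C₁) * E₂ := by
    rw [hE₂]; ring
  rw [m4, m5]
  have h8 : 0 ≤ C₁ * E₁ := by positivity
  have h9 : 0 ≤ 2 * C₀ * E₂ := by positivity
  nlinarith

end Crest.Agent.R183
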