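import Crest.Agent.R183.Theta

/-! # R183 / NabAuxa : auxiliary lemmas for `Nab` (the operators `∇_i`, coefficientwise extension). -/

set_option autoImplicit false
open Polynomial

namespace Crest.Agent.R183

section
variable {W : Type} [CommRing W] {n : ℕ}

/-- `∇_i (z^μ) = (μ i / q) z^(μ - q e_i)` -/
noncomputable def naNab (W : Type) [CommRing W] (n q : ℕ) (i : Fin (n + 1)) :
    Pz W n →ₗ[W] Pz W n :=
  (MvPolynomial.basisMonomials (Fin (n + 1)) W).constr W fun μ =>
    MvPolynomial.monomial (μ - Finsupp.single i q) ((μ i / q : ℕ) : W)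

theorem naNab_monomial (q : ℕ) (i : Fin (n + 1)) (μ : Fin (n + 1) →₀ ℕ) (a : W) :
    naNab W n q i (MvPolynomial.monomial μ a) =
      MvPolynomial.monomial (μ - Finsupp.single i q) (a * ((μ i / q : ℕ) : W)) := by
  have h1 : MvPolynomial.monomial μ a = a • MvPolynomial.basisMonomials (Fin (n + 1)) W μ := by
    rw [MvPolynomial.coe_basisMonomials, MvPolynomial.smul_monomial, smul_eq_mul, mul_one]
  rw [h1, map_smul, naNab, Module.Basis.constr_basis, MvPolynomial.smul_monomial, smul_eq_mul]

theorem naNab_X_pow_mul {q : ℕ} (hq : 1 ≤ q) (i j : Fin (n + 1)) (f : Pz W n) :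
    naNab W n q i (MvPolynomial.X j ^ q * f) =
      (if i = j then f else 0) + MvPolynomial.X j ^ q * naNab W n q i f := by
  induction f using MvPolynomial.induction_on' with
  | add f g hf hg =>
    rw [mul_add, map_add, hf, hg, map_add, mul_add]
    split_ifs <;> ring
  | monomial μ a =>
    rw [MvPolynomial.X_pow_eq_monomial, MvPolynomial.monomial_mul, one_mul, naNab_monomial,
      naNab_monomial, MvPolynomial.monomial_mul, one_mul]
    split_ifs with hij
    · subst hij
      rw [add_tsub_cancel_left, Finsupp.add_apply, Finsupp.single_eq_same,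
        Nat.add_div_left _ hq, Nat.cast_add, Nat.cast_one, mul_add, mul_one, map_add, add_comm]
      congr 1
      by_cases hμ : q ≤ μ i
      · rw [add_tsub_cancel_of_le (Finsupp.single_le_iff.2 hμ)]
      · rw [Nat.div_eq_of_lt (not_le.1 hμ)]
        simp
    · rw [zero_add, Finsupp.add_apply, Finsupp.single_eq_of_ne hij, zero_add]
      congr 2
      ext k
      simp only [Finsupp.coe_tsub, Finsupp.coe_add, Pi.sub_apply, Pi.add_apply,
        Finsupp.single_apply]
      split_ifs with h1 h2 h2
      · exact absurd (h2.trans h1.symm) hij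
      · omega
      · omega
      · omega

theorem naNab_mem (q : ℕ) (i : Fin (n + 1)) (K : ℕ) (f : Pz W n) (hf : f ∈ XI W n ^ K) :
    naNab W n q i f ∈ XI W n ^ (K - q) := by
  have hX : XI W n = MvPolynomial.idealOfVars (Fin (n + 1)) W := rfl
  rw [hX] at hf ⊢
  rw [MvPolynomial.mem_pow_idealOfVars_iff] at hf
  rw [f.as_sum, map_sum]
  refine Ideal.sum_mem _ fun μ hμ => ?_
  rw [naNab_monomial]
  by_cases h0 : f.coeff μ * ((μ i / q : ℕ) : W) = 0
  · rw [h0, map_zero]
    exact Ideal.zero_mem _
  rw [MvPolynomial.monomial_mem_pow_idealOfVars_iff _ _ h0]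
  have h1 := hf μ hμ
  have h2 : μ ≤ μ - Finsupp.single i q + Finsupp.single i q := le_tsub_add
  have h3 := Finsupp.degree_mono h2
  rw [map_add, Finsupp.degree_single] at h3
  omega

end

section
variable {B : Type} [CommRing B]

/-- coefficientwise extension of an additive map to polynomials -/
noncomputable def naHat (N : B →+ B) : B[X] →+ B[X] where
  toFun p := p.sum fun k b => monomial k (N b)
  map_zero' := sum_zero_index _
  map_add' p r := sum_add_index p r _ (fun _ => by simp) (fun _ _ _ => by simp)

theorem naHat_coeff (N : B →+ B) (p : B[X]) (k : ℕ) : (naHat N p).coeff k = N (p.coeff k) := by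
  change (p.sum fun k b => monomial k (N b)).coeff k = _
  rw [coeff_sum, Polynomial.sum_def, Finset.sum_eq_single k]
  · simp
  · intro j _ hj
    rw [coeff_monomial, if_neg hj]
  · intro hk
    rw [notMem_support_iff.1 hk]
    simp

theorem naHat_X_mul (N : B →+ B) (p : B[X]) : naHat N (X * p) = X * naHat N p := by
  ext k
  rcases k with _ | k
  · simp [naHat_coeff]
  · simp [naHat_coeff, coeff_X_mul]

end

end Crest.Agent.R183
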