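import Crest.Agent.R183.Theta
import Crest.Agent.R183.NabAuxa

/-! # R183 / Nab : upper bound for the sum over all roots. -/

set_option autoImplicit false
open Polynomial

namespace Crest.Agent.R183

section
variable {W : Type} [CommRing W] {n : ℕ}

/-- the constant-coefficient derivation `∑ Dr i ∂_i` -/
noncomputable def der (Dr : Fin (n + 1) → W) : Derivation W (Pz W n) (Pz W n) :=
  MvPolynomial.mkDerivation W (fun i => MvPolynomial.C (Dr i))

/-- the ideal `(pp, X, w)` -/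
noncomputable def mm (n : ℕ) (pp : W) : Ideal (Pz W n)[X] :=
  Ideal.span {C (MvPolynomial.C pp)} ⊔ (XI W n).map C ⊔ Ideal.span {X}

/-- `∇_i (z^μ) = (μ i / q) z^(μ - q e_i)` (`W`-linear, e.g. `MvPolynomial.basisMonomials.constr` or
`Finsupp.lsum`), `∇ = ∑ C (σ (Dr i)) ∇_i`; Leibniz by `MvPolynomial.induction_on` in `c`. -/
theorem exists_nabla0 (σ : W →+* W) {q : ℕ} (hq : 1 ≤ q) (Dr : Fin (n + 1) → W) :
    ∃ N : Pz W n →+ Pz W n,
      (∀ c f, N (phiq n σ q c * f) = phiq n σ q (der Dr c) * f + phiq n σ q c * N f) ∧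
      ∀ K, ∀ f ∈ XI W n ^ K, N f ∈ XI W n ^ (K - q) := by
  have hX : ∀ j f, ∑ i, MvPolynomial.C (σ (Dr i)) * naNab W n q i (MvPolynomial.X j ^ q * f) =
      MvPolynomial.C (σ (Dr j)) * f +
        MvPolynomial.X j ^ q * ∑ i, MvPolynomial.C (σ (Dr i)) * naNab W n q i f := by
    intro j f
    simp only [naNab_X_pow_mul hq, mul_add, Finset.sum_add_distrib, mul_ite, mul_zero,
      Finset.sum_ite_eq', Finset.mem_univ, if_true, Finset.mul_sum]
    congr 1
    exact Finset.sum_congr rfl fun i _ => by ring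
  let N : Pz W n →ₗ[W] Pz W n := ∑ i, σ (Dr i) • naNab W n q i
  have hN : ∀ f, N f = ∑ i, MvPolynomial.C (σ (Dr i)) * naNab W n q i f := by
    intro f
    simp only [N, LinearMap.sum_apply, LinearMap.smul_apply, MvPolynomial.smul_eq_C_mul]
  refine ⟨N.toAddMonoidHom, fun c => ?_, fun K f hf => ?_⟩
  · simp only [LinearMap.toAddMonoidHom_coe]
    induction c using MvPolynomial.induction_on with
    | C a =>
      intro f
      have h1 : phiq n σ q (MvPolynomial.C a) = MvPolynomial.C (σ a) := by simp [phiq]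
      have h2 : der Dr (MvPolynomial.C a : Pz W n) = 0 := MvPolynomial.derivation_C _ a
      rw [h1, h2, map_zero, zero_mul, zero_add, ← MvPolynomial.smul_eq_C_mul, map_smul,
        MvPolynomial.smul_eq_C_mul]
    | add c d hc hd =>
      intro f
      rw [map_add, add_mul, map_add, hc, hd, map_add, map_add]
      ring
    | mul_X c j hc =>
      intro f
      have h1 : phiq n σ q (MvPolynomial.X j) = MvPolynomial.X j ^ q := by simp [phiq]
      have h2 : der Dr (MvPolynomial.X j : Pz W n) = MvPolynomial.C (Dr j) :=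
        MvPolynomial.mkDerivation_X _ _ _
      have h3 : phiq n σ q (MvPolynomial.C (Dr j)) = MvPolynomial.C (σ (Dr j)) := by simp [phiq]
      rw [map_mul (phiq n σ q), mul_assoc, hc, Derivation.leibniz, h2, smul_eq_mul, smul_eq_mul,
        map_add, map_mul (phiq n σ q), map_mul (phiq n σ q), h1, h3, hN, hX, ← hN]
      ring
  · rw [LinearMap.toAddMonoidHom_coe, hN]
    exact Ideal.sum_mem _ fun i _ => Ideal.mul_mem_left _ _ (naNab_mem q i K f hf)

variable {B : Type} [CommRing B] [Algebra (Pz W n) B]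

/-- apply `exists_nabla0` to the coordinates in a basis of `B`. -/
theorem exists_nabla (hB : Module.Free (Pz W n) B) (σ : W →+* W) {q : ℕ} (hq : 1 ≤ q)
    (Dr : Fin (n + 1) → W) : ∃ N : B →+ B,
      (∀ c b, N (algebraMap _ B (phiq n σ q c) * b) =
        algebraMap _ B (phiq n σ q (der Dr c)) * b + algebraMap _ B (phiq n σ q c) * N b) ∧
      ∀ K, ∀ b ∈ nn W n B ^ K, N b ∈ nn W n B ^ (K - q) := by
  obtain ⟨N₀, h1, h2⟩ := exists_nabla0 σ hq Dr
  let e := Module.Free.chooseBasis (Pz W n) B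
  let N : B →+ B := (e.repr.symm.toLinearMap.toAddMonoidHom.comp
    (Finsupp.mapRange.addMonoidHom N₀)).comp e.repr.toLinearMap.toAddMonoidHom
  have hN : ∀ b i, e.repr (N b) i = N₀ (e.repr b i) := by
    intro b i
    simp [N]
  have hmem : ∀ (I : Ideal (Pz W n)) (b : B),
      b ∈ I.map (algebraMap (Pz W n) B) ↔ ∀ i, e.repr b i ∈ I := by
    intro I b
    constructor
    · intro hb
      have hb' : b ∈ I • (⊤ : Submodule (Pz W n) B) := by
        rw [Ideal.smul_top_eq_map]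
        exact hb
      refine Submodule.smul_induction_on hb' (fun r hr m _ i => ?_) fun x y hx hy i => ?_
      · rw [map_smul, Finsupp.smul_apply, smul_eq_mul]
        exact I.mul_mem_right _ hr
      · rw [map_add, Finsupp.add_apply]
        exact I.add_mem (hx i) (hy i)
    · intro hb
      rw [← e.linearCombination_repr b, Finsupp.linearCombination_apply, Finsupp.sum]
      refine Ideal.sum_mem _ fun i _ => ?_
      rw [Algebra.smul_def]
      exact Ideal.mul_mem_right _ _ (Ideal.mem_map_of_mem _ (hb i))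
  have hnn : ∀ K, nn W n B ^ K = (XI W n ^ K).map (algebraMap (Pz W n) B) := by
    intro K
    rw [Ideal.map_pow, XI, Ideal.map_span, ← Set.range_comp]
    rfl
  refine ⟨N, fun c b => ?_, fun K b hb => ?_⟩
  · apply e.repr.injective
    ext1 i
    rw [hN, ← Algebra.smul_def, ← Algebra.smul_def, ← Algebra.smul_def, map_add, map_smul,
      map_smul, map_smul, Finsupp.add_apply, Finsupp.smul_apply, Finsupp.smul_apply,
      Finsupp.smul_apply, smul_eq_mul, smul_eq_mul, smul_eq_mul, h1, hN]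
  · rw [hnn, hmem] at hb ⊢
    intro i
    rw [hN]
    exact h2 K _ (hb i)

/-- MATRIX FACTORISATION HOMOTOPY.  Extend `N` coefficientwise to `B[X]`; `T b x = N̂ (C b x) - C b N̂ x`
commutes with multiplication by `(c.map φ)` for all `c`, so preserves `𝔍 = 𝔧.map (mapRingHom φ)`;
`T (φ h) x = C (φ (D h)) x`, `T (b' π) x = T b' (π x) + b' T π x`, and `T ε x ∈ 𝔍` for `ε ∈ 𝔢`. -/
theorem hfact (φ : Pz W n →+* B) (Dc : Pz W n → Pz W n) (N : B →+ B)
    (hN : ∀ c b, N (φ c * b) = φ (Dc c) * b + φ c * N b) (𝔧 : Ideal (Pz W n)[X]) (h : Pz W n)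
    (b' π ε : B) (hh : φ h = b' * π + ε)
    (hε : ∀ b, C (N (ε * b)) ∈ 𝔧.map (mapRingHom φ) ∧ C ε ∈ 𝔧.map (mapRingHom φ)) (x : B[X])
    (hx : C π * x ∈ 𝔧.map (mapRingHom φ)) :
    C (φ (Dc h)) * x ∈ 𝔧.map (mapRingHom φ) ⊔ Ideal.span {C b'} := by
  have hC : ∀ c y, naHat N (C (φ c) * y) = C (φ (Dc c)) * y + C (φ c) * naHat N y := by
    intro c y
    ext k
    simp only [naHat_coeff, coeff_C_mul, coeff_add, hN]
  let T : B[X] → B[X] := fun y => naHat N (C b' * y) - C b' * naHat N y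
  have hTadd : ∀ y z, T (y + z) = T y + T z := by
    intro y z
    simp only [T, mul_add, map_add]
    ring
  have hT0 : T 0 = 0 := by simp [T]
  have hTX : ∀ y, T (X * y) = X * T y := by
    intro y
    simp only [T]
    rw [mul_left_comm, naHat_X_mul, naHat_X_mul]
    ring
  have hTC : ∀ c y, T (C (φ c) * y) = C (φ c) * T y := by
    intro c y
    simp only [T]
    rw [mul_left_comm, hC, hC]
    ring
  have hTm : ∀ (c : (Pz W n)[X]) y, T (c.map φ * y) = c.map φ * T y := by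
    intro c
    induction c using Polynomial.induction_on with
    | C c => intro y; rw [Polynomial.map_C, hTC]
    | add c d hc hd => intro y; rw [Polynomial.map_add, add_mul, hTadd, hc, hd, add_mul]
    | monomial k c hc =>
      intro y
      rw [pow_succ, ← mul_assoc, Polynomial.map_mul _ (q := X), map_X, mul_assoc, hc, hTX,
        mul_assoc]
  have hTJ : ∀ z ∈ 𝔧.map (mapRingHom φ), ∀ y, T (z * y) ∈ 𝔧.map (mapRingHom φ) := by
    intro z hz
    refine Submodule.span_induction (p := fun z _ => ∀ y, T (z * y) ∈ 𝔧.map (mapRingHom φ))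
      ?_ ?_ ?_ ?_ hz
    · rintro _ ⟨c, hc, rfl⟩ y
      rw [coe_mapRingHom, hTm]
      exact Ideal.mul_mem_right _ _ (Ideal.mem_map_of_mem (mapRingHom φ) hc)
    · intro y
      rw [zero_mul, hT0]
      exact Ideal.zero_mem _
    · intro z z' _ _ hz hz' y
      rw [add_mul, hTadd]
      exact Ideal.add_mem _ (hz y) (hz' y)
    · intro a z _ hz y
      rw [smul_eq_mul, mul_comm a, mul_assoc]
      exact hz _
  have h1 := hTJ _ hx 1
  rw [mul_one] at h1
  have h2 : naHat N (C ε * x) ∈ 𝔧.map (mapRingHom φ) := by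
    refine Ideal.polynomial_mem_ideal_of_coeff_mem_ideal _ _ fun k => ?_
    rw [Ideal.mem_comap, naHat_coeff, coeff_C_mul]
    exact (hε _).1
  have h3 : C (φ (Dc h)) * x = (T (C π * x) + naHat N (C ε * x) - C ε * naHat N x) +
      C b' * (naHat N (C π * x) - C π * naHat N x) := by
    have h4 := hC h x
    rw [hh, C_add, C_mul, add_mul, map_add, mul_assoc] at h4
    simp only [T]
    linear_combination -h4
  rw [h3]
  exact Submodule.add_mem_sup (Ideal.sub_mem _ (Ideal.add_mem _ h1 h2)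
    (Ideal.mul_mem_right _ _ (hε 0).2)) (Ideal.mul_mem_right _ _ (Ideal.mem_span_singleton_self _))

/-- `derivative_prod`: modulo `X - C (w j)` the derivative of `∏ (X - C w)` is a multiple of
`∏_{i<j} (X - C (w i))`. -/
theorem ffact {A : Type} [CommRing A] {e : ℕ} (w : Fin e → A) (F : A[X]) (I : Ideal A[X])
    (hF : ∀ r, C ((F - ∏ j, (X - C (w j))).coeff r) ∈ I) (j : Fin e) (x : A[X])
    (hx : (∏ i ∈ Finset.univ.filter (· < j), (X - C (w i))) * x ∈ I) :
    derivative F * x ∈ I ⊔ Ideal.span {X - C (w j)} := by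
  classical
  have h1 : derivative (F - ∏ j, (X - C (w j))) ∈ I := by
    refine Ideal.polynomial_mem_ideal_of_coeff_mem_ideal _ _ fun k => ?_
    rw [Ideal.mem_comap, coeff_derivative, C_mul]
    exact Ideal.mul_mem_right _ _ (hF _)
  have h2 : derivative F = derivative (F - ∏ j, (X - C (w j))) +
      ∑ i, ∏ k ∈ Finset.univ.erase i, (X - C (w k)) := by
    rw [derivative_sub, derivative_prod_finset]
    simp
  rw [h2, add_mul, Finset.sum_mul]
  refine Ideal.add_mem _ (Ideal.mem_sup_left (Ideal.mul_mem_right _ _ h1))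
    (Ideal.sum_mem _ fun i _ => ?_)
  by_cases hi : i = j
  · subst hi
    have h3 : Finset.univ.filter (· < i) ⊆ Finset.univ.erase i := by
      intro k hk
      exact Finset.mem_erase.2 ⟨(Finset.mem_filter.1 hk).2.ne, Finset.mem_univ _⟩
    rw [← Finset.prod_sdiff h3, mul_assoc]
    exact Ideal.mem_sup_left (Ideal.mul_mem_left _ _ hx)
  · refine Ideal.mem_sup_right (Ideal.mul_mem_right _ _ (Ideal.mem_span_singleton.2 ?_))
    exact Finset.dvd_prod_of_mem (fun k => X - C (w k))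
      (Finset.mem_erase.2 ⟨Ne.symm hi, Finset.mem_univ _⟩)

theorem nabb_phi_C (σ : W →+* W) (q : ℕ) (c : W) :
    ((algebraMap (Pz W n) B).comp (phiq n σ q)) (MvPolynomial.C c) =
      algebraMap (Pz W n) B (MvPolynomial.C (σ c)) := by
  simp [phiq]

theorem nabb_phi_X (σ : W →+* W) (q : ℕ) (i : Fin (n + 1)) :
    ((algebraMap (Pz W n) B).comp (phiq n σ q)) (MvPolynomial.X i) = zB W n B i ^ q := by
  simp [phiq, zB]

theorem nabb_frob_le (σ : W →+* W) (q : ℕ) :
    (Ideal.span (Set.range fun i => zB W n B i ^ q)).map (C : B →+* B[X]) ≤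
      ((XI W n).map C).map (mapRingHom ((algebraMap (Pz W n) B).comp (phiq n σ q))) := by
  rw [Ideal.map_le_iff_le_comap, Ideal.span_le]
  rintro _ ⟨i, rfl⟩
  have h := Ideal.mem_map_of_mem (mapRingHom ((algebraMap (Pz W n) B).comp (phiq n σ q)))
    (Ideal.mem_map_of_mem (C : Pz W n →+* (Pz W n)[X])
      (Ideal.subset_span ⟨i, rfl⟩ : MvPolynomial.X i ∈ XI W n))
  rwa [coe_mapRingHom, map_C, nabb_phi_X] at h

/-- the image of `mm` is the `comap` under `evalRingHom 0` of `(pp, z^q)`; `cl_comap_surj`,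
`cl_frob_le`. -/
theorem cl_mm_le (σ : W →+* W) {pp : W} (hσ : σ pp = pp) (q ρ : ℕ)
    (hρ : cl (Ideal.span {algebraMap (Pz W n) B (MvPolynomial.C pp)} ⊔ nn W n B) = ρ) :
    cl ((mm n pp).map (mapRingHom ((algebraMap (Pz W n) B).comp (phiq n σ q)))) ≤
      (q ^ (n + 1) * ρ : ℕ) := by
  have h1 := cl_frob_le (zB W n B) (Ideal.span {algebraMap (Pz W n) B (MvPolynomial.C pp)}) q
  rw [← cl_comap_surj (evalRingHom 0) (fun b => ⟨C b, eval_C⟩)] at h1
  refine (cl_anti fun x hx => ?_).trans (h1.trans (le_of_eq ?_))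
  · rw [← X_mul_divX_add x, coeff_zero_eq_eval_zero]
    refine Ideal.add_mem _ (Ideal.mul_mem_right _ _ ?_) ?_
    · have h := Ideal.mem_map_of_mem (mapRingHom ((algebraMap (Pz W n) B).comp (phiq n σ q)))
        (Ideal.mem_sup_right (Ideal.mem_span_singleton_self X) : X ∈ mm n pp)
      rwa [coe_mapRingHom, map_X] at h
    · have h2 := Ideal.mem_map_of_mem (C : B →+* B[X]) (Ideal.mem_comap.1 hx)
      rw [Ideal.map_sup] at h2
      refine (sup_le ?_ ((nabb_frob_le σ q).trans (Ideal.map_mono (le_sup_of_le_left le_sup_right))) :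
        _ ≤ _) h2
      rw [Ideal.map_span, Set.image_singleton, Ideal.span_singleton_le_iff_mem]
      have h := Ideal.mem_map_of_mem (mapRingHom ((algebraMap (Pz W n) B).comp (phiq n σ q)))
        (Ideal.mem_sup_left (Ideal.mem_sup_left (Ideal.mem_span_singleton_self _)) :
          C (MvPolynomial.C pp) ∈ mm n pp)
      rwa [coe_mapRingHom, map_C, nabb_phi_C, hσ] at h
  · rw [Nat.cast_mul, ← hρ]
    rfl

theorem nabb_pow_mem {A : Type} [CommRing A] {I J : Ideal A} {h y : A} {N : ℕ} (hh : h ∈ J)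
    (hy : h - y ∈ I) (hI : I ^ N ≤ J) : y ^ N ∈ J := by
  have h1 : (y - h) ^ N ∈ J := hI (Ideal.pow_mem_pow (by simpa using I.neg_mem hy) N)
  obtain ⟨c, hc⟩ := sub_dvd_pow_sub_pow y (y - h) N
  rw [sub_sub_cancel] at hc
  rw [← sub_add_cancel (y ^ N) ((y - h) ^ N), hc]
  exact J.add_mem (J.mul_mem_right _ hh) h1

theorem nabb_xi {A B : Type} [CommRing A] [CommRing B] (φ : A →+* B) (𝔧 : Ideal A[X]) (ξ w : B) :
    cl (𝔧.map (eval₂RingHom φ w) ⊔ Ideal.span {ξ}) =
      cl (𝔧.map (mapRingHom φ) ⊔ Ideal.span {C ξ} ⊔ Ideal.span {X - C w}) := by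
  have e : (evalRingHom w).comp (mapRingHom φ) = eval₂RingHom φ w :=
    Polynomial.ringHom_ext (fun a => by simp) (by simp)
  rw [← ker_evalRingHom, ← cl_map_surj _ (fun b => ⟨C b, eval_C⟩), Ideal.map_sup, Ideal.map_map, e,
    Ideal.map_span, Set.image_singleton, coe_evalRingHom, eval_C]

/-- UPPER BOUND.  `𝔍 = 𝔧.map (mapRingHom φ)`; `LenLe.map`, `LenLe.cl_le`, `cl_mm_le` bound `cl 𝔍`,
`cl (𝔍 + C φ(Dh))`, `cl (𝔍 + (f.map φ)')`.  `C 𝔫^((N₁+n+1) q) ⊆ 𝔍` (`pow_le_frob_pow`), and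
`C (C pp^(a N₁)) ∈ 𝔧`.  `fact_lemma` for the `C (ξ i)` with `Δ i = 1` for `i = 0` and `C φ(Dh)` otherwise
(`hfact` with `π = ∏_{i'<i} ξ i'`, `b' = υ ∏_{i' ≥ i} ξ i'`), then for each `i` `fact_lemma` for the
`X - C (w i j)` over `𝔍 + C (ξ i)` (`ffact`); finally `cl_map_surj` with `evalRingHom (w i j)`
(`ker_evalRingHom`). -/
theorem upper {pp : W} {ρ K₀ q m N₁ L0 L1 L2 : ℕ} (σ : W →+* W) (hσ : σ pp = pp) (hq : 1 ≤ q)
    {h g : Pz W n} {f : (Pz W n)[X]} {𝒯 : Type} {num : 𝒯 → (Pz W n)[X]} {wt : 𝒯 → ℕ} {a e : ℕ}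
    (ha : 1 ≤ a) {ξ : Fin a → B} {υ : B} {γ : Fin a → B} {w : Fin a → Fin e → B}
    {u : Fin a → Fin e → 𝒯 → B}
    (hR : RootsAt pp ρ K₀ q m ((algebraMap (Pz W n) B).comp (phiq n σ q)) h g f num wt ξ υ γ w u)
    (hρ : cl (Ideal.span {algebraMap (Pz W n) B (MvPolynomial.C pp)} ⊔ nn W n B) = ρ)
    (hh : h - MvPolynomial.C (pp ^ a) ∈ XI W n) (Dr : Fin (n + 1) → W) (𝔧 : Ideal (Pz W n)[X])
    (jh : C h ∈ 𝔧) (jX : (XI W n).map C ^ N₁ ≤ 𝔧) (hK1 : N₁ + n + 2 ≤ K₀) (hK2 : a * N₁ ≤ K₀)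
    (l0 : LenLe (mm n pp) 𝔧 L0) (l1 : LenLe (mm n pp) (𝔧 ⊔ Ideal.span {C (der Dr h)}) L1)
    (l2 : LenLe (mm n pp) (𝔧 ⊔ Ideal.span {derivative f}) L2) :
    ∑ i, ∑ j, cl (𝔧.map (eval₂RingHom ((algebraMap (Pz W n) B).comp (phiq n σ q)) (w i j)) ⊔
        Ideal.span {ξ i}) ≤ ((L0 + (a - 1) * L1 + a * e * L2) * (q ^ (n + 1) * ρ) : ℕ) := by
  obtain ⟨a, rfl⟩ : ∃ a', a = a' + 1 := ⟨a - 1, by omega⟩
  obtain ⟨N, hN1, hN2⟩ := exists_nabla (hR.hx 0).free σ hq Dr
  have hm := cl_mm_le (B := B) σ hσ q ρ hρ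
  have hfr := nabb_frob_le (n := n) (B := B) σ q
  have hC := nabb_phi_C (n := n) (B := B) σ q
  change ∀ c b, N (((algebraMap (Pz W n) B).comp (phiq n σ q)) c * b) =
    ((algebraMap (Pz W n) B).comp (phiq n σ q)) (der Dr c) * b +
      ((algebraMap (Pz W n) B).comp (phiq n σ q)) c * N b at hN1
  generalize (algebraMap (Pz W n) B).comp (phiq n σ q) = φ at *
  obtain ⟨c, hc⟩ : ∃ c : ℕ, c = q ^ (n + 1) * ρ := ⟨_, rfl⟩
  rw [← hc] at hm ⊢
  have k0 : cl (𝔧.map (mapRingHom φ)) ≤ L0 * c :=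
    (l0.map _).cl_le.trans (mul_le_mul' le_rfl hm)
  have k1 : cl (𝔧.map (mapRingHom φ) ⊔ Ideal.span {C (φ (der Dr h))}) ≤ L1 * c := by
    have := (l1.map (mapRingHom φ)).cl_le.trans (mul_le_mul' le_rfl hm)
    rwa [Ideal.map_sup, Ideal.map_span, Set.image_singleton, coe_mapRingHom, map_C] at this
  have k2 : cl (𝔧.map (mapRingHom φ) ⊔ Ideal.span {derivative (f.map φ)}) ≤ L2 * c := by
    have := (l2.map (mapRingHom φ)).cl_le.trans (mul_le_mul' le_rfl hm)
    rwa [Ideal.map_sup, Ideal.map_span, Set.image_singleton, coe_mapRingHom, ← derivative_map] at this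
  have hfin : cl (𝔧.map (mapRingHom φ)) ≠ ⊤ :=
    ne_top_of_le_ne_top (by rw [← Nat.cast_mul]; exact ENat.natCast_ne_top _) k0
  have hn : ∀ t, (N₁ + (n + 1)) * q ≤ t → ∀ b ∈ nn W n B ^ t, C b ∈ 𝔧.map (mapRingHom φ) :=
    fun t ht b hb => by
      have h1 := Ideal.mem_map_of_mem (C : B →+* B[X])
        (pow_le_frob_pow (zB W n B) hq N₁ (Ideal.pow_le_pow_right ht hb))
      rw [Ideal.map_pow] at h1
      have h2 := Ideal.pow_right_mono hfr N₁ h1
      rw [← Ideal.map_pow] at h2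
      exact Ideal.map_mono jX h2
  have hK3 : (N₁ + (n + 1)) * q ≤ K₀ * q - q := by
    have := Nat.mul_le_mul_right q hK1
    rw [show (N₁ + n + 2) * q = (N₁ + (n + 1)) * q + q by ring] at this
    omega
  have hK4 : (N₁ + (n + 1)) * q ≤ K₀ * q := hK3.trans (Nat.sub_le _ _)
  have hP : algebraMap (Pz W n) B (MvPolynomial.C pp) ^ K₀ = φ (MvPolynomial.C (pp ^ K₀)) := by
    rw [map_pow, map_pow, hC, hσ]
  have hp : C (φ (MvPolynomial.C (pp ^ K₀))) ∈ 𝔧.map (mapRingHom φ) := by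
    have h1 : C h - C (MvPolynomial.C (pp ^ (a + 1))) ∈ (XI W n).map (C : Pz W n →+* _) := by
      rw [← map_sub]
      exact Ideal.mem_map_of_mem _ hh
    have h2 := nabb_pow_mem jh h1 jX
    rw [← map_pow, ← map_pow, ← pow_mul] at h2
    have h3 : (C (MvPolynomial.C (pp ^ K₀)) : (Pz W n)[X]) ∈ 𝔧 := by
      rw [← Nat.add_sub_cancel' hK2, pow_add, map_mul, map_mul]
      exact 𝔧.mul_mem_right _ h2
    have h4 := Ideal.mem_map_of_mem (mapRingHom φ) h3
    rwa [coe_mapRingHom, map_C] at h4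
  have hε : ∀ b, C (N ((φ h - υ * ∏ i, ξ i) * b)) ∈ 𝔧.map (mapRingHom φ) ∧
      C (φ h - υ * ∏ i, ξ i) ∈ 𝔧.map (mapRingHom φ) := fun b => by
    obtain ⟨e₁, h1, e₂, h2, h3⟩ := Submodule.mem_sup.1 hR.r1a
    obtain ⟨d, rfl⟩ := Ideal.mem_span_singleton'.1 h2
    rw [← h3, hP]
    constructor
    · rw [add_mul, map_add, map_add, mul_comm d, mul_assoc, hN1, MvPolynomial.derivation_C, map_zero,
        zero_mul, zero_add, C_mul]
      exact Ideal.add_mem _ (hn _ hK3 _ (hN2 _ _ (Ideal.mul_mem_right _ _ h1)))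
        (Ideal.mul_mem_right _ _ hp)
    · rw [map_add, map_mul]
      exact Ideal.add_mem _ (hn _ hK4 _ h1) (Ideal.mul_mem_left _ _ hp)
  have f1 := fact_lemma (𝔧.map (mapRingHom φ)) hfin (fun i => C (ξ i))
    (fun i => if i = 0 then 1 else C (φ (der Dr h))) fun j x hx => by
      split_ifs with hj
      · subst hj
        refine Ideal.mem_sup_left ?_
        simpa using hx
      · rw [← map_prod] at hx
        have h1 := hfact φ (der Dr) N hN1 𝔧 h (υ * ∏ i ∈ Finset.univ.filter (fun i => ¬ i < j), ξ i)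
          (∏ i ∈ Finset.univ.filter (· < j), ξ i) _ (by
            rw [mul_assoc, mul_comm (∏ i ∈ _, ξ i), Finset.prod_filter_mul_prod_filter_not]
            exact (add_sub_cancel _ _).symm) hε x hx
        have h2 : ξ j ∣ υ * ∏ i ∈ Finset.univ.filter (fun i => ¬ i < j), ξ i :=
          (Finset.dvd_prod_of_mem ξ (by simp)).mul_left υ
        exact (sup_le_sup_left (α := Ideal B[X])
          (Ideal.span_singleton_le_span_singleton.2 (_root_.map_dvd C h2)) _ :) h1
  have f2 : ∑ j : Fin (a + 1), cl (𝔧.map (mapRingHom φ) ⊔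
      Ideal.span {if j = 0 then 1 else C (φ (der Dr h))}) ≤ a * (L1 * c) := by
    rw [Fin.sum_univ_succ, if_pos rfl, Ideal.span_singleton_one, sup_top_eq, cl_top, zero_add]
    refine (Finset.sum_le_card_nsmul _ _ (L1 * c : ℕ∞) fun j _ => ?_).trans (by simp)
    rw [if_neg (Fin.succ_ne_zero j)]
    exact k1
  have f3 : ∀ i, ∑ j, cl (𝔧.map (eval₂RingHom φ (w i j)) ⊔ Ideal.span {ξ i}) ≤
      cl (𝔧.map (mapRingHom φ) ⊔ Ideal.span {C (ξ i)}) + e * (L2 * c) := fun i => by
    have h1 := fact_lemma (𝔧.map (mapRingHom φ) ⊔ Ideal.span {C (ξ i)})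
      (ne_top_of_le_ne_top hfin (cl_anti le_sup_left)) (fun j => X - C (w i j))
      (fun _ => derivative (f.map φ)) fun j x hx => ffact (w i) (f.map φ) _ (fun r => by
        obtain ⟨e₁, h1, e₂, h2, h3⟩ := Submodule.mem_sup.1 (hR.r2 i r)
        obtain ⟨d, rfl⟩ := Ideal.mem_span_singleton'.1 h1
        rw [← h3, map_add, map_mul]
        exact Ideal.add_mem _
          (Ideal.mem_sup_right (Ideal.mul_mem_left _ _ (Ideal.mem_span_singleton_self _)))
          (Ideal.mem_sup_left (hn _ hK4 _ h2))) j x hx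
    simp only [nabb_xi]
    refine h1.trans (add_le_add le_rfl ?_)
    refine (Finset.sum_le_card_nsmul _ _ (L2 * c : ℕ∞) fun j _ => ?_).trans (by simp)
    exact (cl_anti (sup_le_sup_right le_sup_left _)).trans k2
  refine (Finset.sum_le_sum fun i _ => f3 i).trans ?_
  rw [Finset.sum_add_distrib, Finset.sum_const, Finset.card_univ, Fintype.card_fin, nsmul_eq_mul]
  refine (add_le_add (f1.trans (add_le_add k0 f2)) le_rfl).trans (le_of_eq ?_)
  rw [Nat.add_sub_cancel]
  push_cast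
  ring

end

end Crest.Agent.R183
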