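import Crest.Agent.R183.Canc
import Crest.Agent.R183.KT
import Crest.Agent.R183.Nab
import Crest.Agent.R183.Lower

/-! # R183 / Core : the finite core inequality over `𝕎 l`. -/

set_option autoImplicit false
open Polynomial

namespace Crest.Agent.R183

/-- the numerical shape of the finite data; `n = d₁ + c` -/
structure Shape where
  d₁ : ℕ
  c : ℕ
  k : ℕ
  a : ℕ
  e : ℕ
  o : ℕ
  ν : ℕ
  δ : ℕ
  N₀ : ℕ
  N₁ : ℕ
  ng : ℕ
  ι : Type
  [fι : Fintype ι]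
  [dι : DecidableEq ι]
  deg : ι → ℕ
  a₀ : ι
  hk : 1 ≤ k
  ha : 1 ≤ a
  he : 1 ≤ e
  ho : 1 ≤ o
  hν : 1 ≤ ν
  hδ : 1 ≤ δ
  h0 : deg a₀ = 0
  hu : ∀ b, deg b = 0 → b = a₀
  hc : ∀ b, deg b ≤ c

attribute [instance] Shape.fι Shape.dι

/-- names of the finitely many elements that are represented as fractions `num / g` -/
inductive Tau (ι : Type) (d₁ c k ng : ℕ)
  | dd (a b : ι)
  | yy (l : Fin (d₁ + 1))
  | s1 (i : Fin (d₁ + c + 1)) (a b : ι)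
  | s2 (i : Fin (d₁ + c + 1)) (a b : ι)
  | t1 (i : Fin (d₁ + c + 1)) (l : Fin (d₁ + 1))
  | t2 (i : Fin (d₁ + c + 1)) (l : Fin d₁)
  | t0 (i : Fin (d₁ + c + 1))
  | tj (r : Fin ng) (b : ι)
  | tw (r : Fin ng) (f : Fin k → Fin (d₁ + 1))
  deriving Fintype

/-- names of the equations -/
inductive Eqn (ι : Type) (n ng : ℕ)
  | sq (a b : ι)
  | h1 (i : Fin (n + 1)) (a b : ι)
  | h2 (i : Fin (n + 1)) (a b : ι)
  | jj (r : Fin ng)
  deriving Fintype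

namespace Shape
variable (sh : Shape)

abbrev n : ℕ := sh.d₁ + sh.c
abbrev 𝒯 : Type := Tau sh.ι sh.d₁ sh.c sh.k sh.ng
abbrev ℰ : Type := Eqn sh.ι sh.n sh.ng

def wt : sh.𝒯 → ℕ
  | .dd _ _ => sh.ν
  | .yy _ => sh.ν
  | _ => 0

def dg : sh.ℰ → ℕ
  | .sq _ _ => 2
  | .h1 _ _ _ => sh.k + 1
  | .h2 _ _ _ => 2
  | .jj _ => sh.k + 1

variable {A : Type} [CommRing A] {A' : Type} [CommRing A']

def Dm (v : sh.𝒯 → A) : Matrix sh.ι sh.ι A :=
  fun a b => if sh.deg b = sh.deg a + 1 then v (.dd a b) else 0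

def S1 (v : sh.𝒯 → A) (i : Fin (sh.n + 1)) : Matrix sh.ι sh.ι A :=
  fun a b => if sh.deg a = sh.deg b + 1 then v (.s1 i a b) else 0

def S2 (v : sh.𝒯 → A) (i : Fin (sh.n + 1)) : Matrix sh.ι sh.ι A :=
  fun a b => if sh.deg a = sh.deg b + 1 then v (.s2 i a b) else 0

/-- the equations, homogeneous of degree `dg` in `(G, v)` -/
def eqs (G : A) (v : sh.𝒯 → A) (x : Fin (sh.n + 1) → A) (jg : Fin sh.ng → A) : sh.ℰ → A
  | .sq a b => (sh.Dm v * sh.Dm v) a b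
  | .h1 i a b => G ^ (sh.k - 1) * (sh.Dm v * sh.S1 v i + sh.S1 v i * sh.Dm v) a b -
      if a = b then G ^ (sh.k + 1) * x i ^ sh.N₀ - ∑ l, v (.yy l) ^ sh.k * v (.t1 i l) else 0
  | .h2 i a b => (sh.Dm v * sh.S2 v i + sh.S2 v i * sh.Dm v) a b -
      if a = b then G ^ 2 * x i ^ sh.N₀ - G * x 0 ^ ((sh.n + 1) * sh.ν) * v (.t0 i) -
        ∑ l, v (.yy l.succ) * v (.t2 i l) else 0
  | .jj r => G ^ (sh.k + 1) * jg r - G ^ (sh.k - 1) * ∑ b, sh.Dm v sh.a₀ b * v (.tj r b) -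
      ∑ f : Fin sh.k → Fin (sh.d₁ + 1), (∏ j, v (.yy (f j))) * v (.tw r f)

theorem eqs_map (φ : A →+* A') (G : A) (v : sh.𝒯 → A) (x : Fin (sh.n + 1) → A)
    (jg : Fin sh.ng → A) (ε : sh.ℰ) :
    φ (sh.eqs G v x jg ε) = sh.eqs (φ G) (φ ∘ v) (φ ∘ x) (φ ∘ jg) ε := by
  cases ε <;>
    simp only [eqs, Dm, S1, S2, Matrix.mul_apply, Matrix.add_apply, map_sub, map_add, map_mul, map_pow,
      map_sum, map_prod, apply_ite φ, map_zero, Function.comp_apply]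

theorem corea_Dm_smul (t : A) (v : sh.𝒯 → A) : sh.Dm (fun τ => t * v τ) = t • sh.Dm v := by
  ext a b
  simp [Dm]

theorem corea_S1_smul (t : A) (v : sh.𝒯 → A) (i : Fin (sh.n + 1)) :
    sh.S1 (fun τ => t * v τ) i = t • sh.S1 v i := by
  ext a b
  simp [S1]

theorem corea_S2_smul (t : A) (v : sh.𝒯 → A) (i : Fin (sh.n + 1)) :
    sh.S2 (fun τ => t * v τ) i = t • sh.S2 v i := by
  ext a b
  simp [S2]

theorem eqs_smul (t G : A) (v : sh.𝒯 → A) (x : Fin (sh.n + 1) → A) (jg : Fin sh.ng → A)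
    (ε : sh.ℰ) :
    sh.eqs (t * G) (fun τ => t * v τ) x jg ε = t ^ sh.dg ε * sh.eqs G v x jg ε := by
  have hk : t ^ sh.k = t ^ (sh.k - 1) * t := by
    rw [← pow_succ, Nat.sub_add_cancel sh.hk]
  cases ε with
  | sq a b =>
    simp only [eqs, dg, corea_Dm_smul, Matrix.smul_mul, Matrix.mul_smul, Matrix.smul_apply, smul_eq_mul]
    ring
  | h1 i a b =>
    have e : ∑ l, (t * v (.yy l)) ^ sh.k * (t * v (.t1 i l)) =
        t ^ (sh.k + 1) * ∑ l, v (.yy l) ^ sh.k * v (.t1 i l) := by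
      rw [Finset.mul_sum]
      exact Finset.sum_congr rfl fun l _ => by ring
    simp only [eqs, dg, corea_Dm_smul, corea_S1_smul, Matrix.smul_mul, Matrix.mul_smul,
      Matrix.add_apply, Matrix.smul_apply, smul_eq_mul, e]
    simp only [mul_pow, pow_succ t sh.k, hk]
    split_ifs <;> ring
  | h2 i a b =>
    have e : ∑ l : Fin sh.d₁, (t * v (.yy l.succ)) * (t * v (.t2 i l)) =
        t ^ 2 * ∑ l : Fin sh.d₁, v (.yy l.succ) * v (.t2 i l) := by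
      rw [Finset.mul_sum]
      exact Finset.sum_congr rfl fun l _ => by ring
    simp only [eqs, dg, corea_Dm_smul, corea_S2_smul, Matrix.smul_mul, Matrix.mul_smul,
      Matrix.add_apply, Matrix.smul_apply, smul_eq_mul, e]
    split_ifs <;> ring
  | jj r =>
    have e : ∑ f : Fin sh.k → Fin (sh.d₁ + 1), (∏ j, t * v (.yy (f j))) * (t * v (.tw r f)) =
        t ^ (sh.k + 1) * ∑ f : Fin sh.k → Fin (sh.d₁ + 1), (∏ j, v (.yy (f j))) * v (.tw r f) := by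
      rw [Finset.mul_sum]
      refine Finset.sum_congr rfl fun f _ => ?_
      rw [Finset.prod_mul_distrib, Finset.prod_const, Finset.card_univ, Fintype.card_fin]
      ring
    have e' : ∑ b, t * sh.Dm v sh.a₀ b * (t * v (.tj r b)) =
        t ^ 2 * ∑ b, sh.Dm v sh.a₀ b * v (.tj r b) := by
      rw [Finset.mul_sum]
      exact Finset.sum_congr rfl fun l _ => by ring
    simp only [eqs, dg, corea_Dm_smul, Matrix.smul_apply, smul_eq_mul, e, e', mul_pow, pow_succ t sh.k,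
      hk]
    ring

theorem dg_le (ε : sh.ℰ) : sh.dg ε ≤ sh.k + 1 := by
  have := sh.hk
  cases ε <;> simp only [dg] <;> omega

/-- the complex with differential `Dm v` -/
def fc (v : sh.𝒯 → A) : FC A where
  ι := sh.ι
  deg := sh.deg
  d := sh.Dm v
  hd := fun a b h => by
    by_contra h'
    exact h (if_neg h')

theorem fc_one (v : sh.𝒯 → A) : (sh.fc v).One := ⟨sh.a₀, sh.h0, sh.hu⟩

section
variable {sh} {G : A} {v : sh.𝒯 → A} {x : Fin (sh.n + 1) → A} {jg : Fin sh.ng → A} {𝔨 : Ideal A}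

theorem fc_sq (h : ∀ ε, sh.eqs G v x jg ε ∈ 𝔨) : (sh.fc v).Sq 𝔨 := fun a b => h (.sq a b)

theorem corea_nh {t : A} (s : Matrix sh.ι sh.ι A) (h1 : ∀ a b, ¬sh.deg a = sh.deg b + 1 → s a b = 0)
    (h2 : ∀ a b, (sh.Dm v * s + s * sh.Dm v) a b - (if a = b then t else 0) ∈ 𝔨) :
    t ∈ (sh.fc v).nh 𝔨 := by
  refine ⟨s, fun a b hab => by_contra fun h' => hab (h1 a b h'), fun (a b : sh.ι) => ?_⟩
  have e : (sh.Dm v * s + s * sh.Dm v - t • (1 : Matrix sh.ι sh.ι A)) a b =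
      (sh.Dm v * s + s * sh.Dm v) a b - (if a = b then t else 0) := by
    simp [Matrix.one_apply]
  exact e ▸ h2 a b

/-- homotopy `G^(k-1) • S1 v i`. -/
theorem fc_h1 (h : ∀ ε, sh.eqs G v x jg ε ∈ 𝔨) (i : Fin (sh.n + 1)) :
    G ^ (sh.k + 1) * x i ^ sh.N₀ ∈
      (sh.fc v).nh 𝔨 ⊔ Ideal.span (Set.range fun l => v (.yy l) ^ sh.k) := by
  have h1 : G ^ (sh.k + 1) * x i ^ sh.N₀ - ∑ l, v (.yy l) ^ sh.k * v (.t1 i l) ∈ (sh.fc v).nh 𝔨 := by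
    refine corea_nh (G ^ (sh.k - 1) • sh.S1 v i) (fun a b hab => by simp [S1, hab]) fun a b => ?_
    rw [Matrix.mul_smul, Matrix.smul_mul, ← smul_add]
    exact h (.h1 i a b)
  rw [← sub_add_cancel (G ^ (sh.k + 1) * x i ^ sh.N₀) (∑ l, v (.yy l) ^ sh.k * v (.t1 i l))]
  exact Submodule.add_mem_sup h1 (Ideal.sum_mem _ fun l _ =>
    Ideal.mul_mem_right _ _ (Ideal.subset_span ⟨l, rfl⟩))

theorem fc_h2 (h : ∀ ε, sh.eqs G v x jg ε ∈ 𝔨) (i : Fin (sh.n + 1)) :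
    G ^ 2 * x i ^ sh.N₀ ∈ (sh.fc v).nh 𝔨 ⊔ Ideal.span {x 0 ^ ((sh.n + 1) * sh.ν)} ⊔
      Ideal.span (Set.range fun l : Fin sh.d₁ => v (.yy l.succ)) := by
  have h1 : G ^ 2 * x i ^ sh.N₀ - G * x 0 ^ ((sh.n + 1) * sh.ν) * v (.t0 i) -
      ∑ l : Fin sh.d₁, v (.yy l.succ) * v (.t2 i l) ∈ (sh.fc v).nh 𝔨 :=
    corea_nh (sh.S2 v i) (fun a b hab => if_neg hab) fun a b => h (.h2 i a b)
  have e : G ^ 2 * x i ^ sh.N₀ = (G ^ 2 * x i ^ sh.N₀ - G * x 0 ^ ((sh.n + 1) * sh.ν) * v (.t0 i) -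
      ∑ l : Fin sh.d₁, v (.yy l.succ) * v (.t2 i l)) + G * x 0 ^ ((sh.n + 1) * sh.ν) * v (.t0 i) +
      ∑ l : Fin sh.d₁, v (.yy l.succ) * v (.t2 i l) := by ring
  rw [e]
  exact Submodule.add_mem_sup (Submodule.add_mem_sup h1 (Ideal.mul_mem_right _ _
    (Ideal.mul_mem_left _ _ (Ideal.mem_span_singleton_self _)))) (Ideal.sum_mem _ fun l _ =>
    Ideal.mul_mem_right _ _ (Ideal.subset_span ⟨l, rfl⟩))

/-- `span_pow_eq_words`. -/
theorem fc_jj (h : ∀ ε, sh.eqs G v x jg ε ∈ 𝔨) (r : Fin sh.ng) :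
    G ^ (sh.k + 1) * jg r ∈
      (sh.fc v).J ⊔ Ideal.span (Set.range fun l => v (.yy l)) ^ sh.k ⊔ 𝔨 := by
  have e : G ^ (sh.k + 1) * jg r = G ^ (sh.k - 1) * ∑ b, sh.Dm v sh.a₀ b * v (.tj r b) +
      ∑ f : Fin sh.k → Fin (sh.d₁ + 1), (∏ j, v (.yy (f j))) * v (.tw r f) +
      sh.eqs G v x jg (.jj r) := by
    simp only [eqs]
    ring
  rw [e, span_pow_eq_words]
  exact Submodule.add_mem_sup (Submodule.add_mem_sup (Ideal.mul_mem_left _ _ (Ideal.sum_mem _ fun b _ =>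
    Ideal.mul_mem_right _ _ (Ideal.subset_span ⟨sh.a₀, b, sh.h0, rfl⟩))) (Ideal.sum_mem _ fun f _ =>
    Ideal.mul_mem_right _ _ (Ideal.subset_span ⟨f, rfl⟩))) (h (.jj r))

end

def Kf : ℕ := 5 * ((sh.n + 1) * sh.N₀) + (sh.n + 1) * sh.ν
def A₀ : ℕ := (sh.n + 1) * (sh.N₀ + sh.ν)
def Kseq : ℕ → ℕ
  | 0 => sh.Kf
  | j + 1 => (sh.o + 1) * Kseq j + sh.o
def K₀ : ℕ := sh.Kseq (sh.k + 1) + 2 * sh.A₀ + sh.o + sh.N₁ + sh.n + 2 + sh.a * sh.N₁
/-- the binomial coefficient -/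
def Cb : ℕ := (sh.k + sh.d₁).choose (sh.d₁ + 1)

end Shape

structure Data (W : Type) [CommRing W] (sh : Shape) where
  h : Pz W sh.n
  g : Pz W sh.n
  f : (Pz W sh.n)[X]
  num : sh.𝒯 → (Pz W sh.n)[X]
  jg : Fin sh.ng → (Pz W sh.n)[X]
  Dr : Fin (sh.n + 1) → W

namespace Data
variable {W : Type} [CommRing W] {sh : Shape} (D : Data W sh)

noncomputable def jj (N : ℕ) : Ideal (Pz W sh.n)[X] := Ideal.span (Set.range D.jg) ⊔ rr D.h D.f N

structure Valid (pp : W) (N L0 L1 L2 : ℕ) : Prop where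
  hh : D.h - MvPolynomial.C (pp ^ sh.a) ∈ XI W sh.n
  mon : D.f.Monic
  deg : D.f.natDegree = sh.e
  hfc : ∀ r, r < sh.e → D.f.coeff r ∈ XI W sh.n ⊔ Ideal.span {MvPolynomial.C pp}
  hg : D.g - MvPolynomial.X 0 ^ sh.o ∈
    Ideal.span (Set.range fun i : Fin sh.n => (MvPolynomial.X i.succ : Pz W sh.n))
  int : ∀ τ, Intg D.h D.g D.f N sh.δ (sh.wt τ) (D.num τ)
  eq : ∀ ε, sh.eqs (C D.g) D.num (fun i => C (MvPolynomial.X i)) D.jg ε ∈ rr D.h D.f N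
  jX : (XI W sh.n).map C ^ sh.N₁ ≤ D.jj N
  l0 : LenLe (mm sh.n pp) (D.jj N) L0
  l1 : LenLe (mm sh.n pp) (D.jj N ⊔ Ideal.span {C (der D.Dr D.h)}) L1
  l2 : LenLe (mm sh.n pp) (D.jj N ⊔ Ideal.span {derivative D.f}) L2

end Data

/-- the core inequality for all valid data over `W` (with `h = 0` if `fld`) -/
def CoreAt (sh : Shape) (N : ℕ) (W : Type) [CommRing W] (pp : W) (fld : Prop) : Prop :=
  ∀ (D : Data W sh) (L0 L1 L2 : ℕ), D.Valid pp N L0 L1 L2 → (fld → D.h = 0) →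
    sh.a * sh.e * sh.ν ^ (sh.n + 1) * sh.Cb ≤ L0 + (sh.a - 1) * L1 + sh.a * sh.e * L2

section
variable {W : Type} [CommRing W] {sh : Shape} {B : Type} [CommRing B] [Algebra (Pz W sh.n) B]

/-- the hypotheses at one pair `(i, j)` of roots -/
structure PairAt (D : Data W sh) (pp : W) (ρ q m : ℕ) (σ : W →+* W) (ξ γ w : B) (u : sh.𝒯 → B) :
    Prop where
  hm : m < q
  hx : Hx sh.n pp ξ ρ
  r1 : algebraMap _ B (phiq sh.n σ q D.h) ∈ kk W sh.n ξ (sh.K₀ * q)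
  r2 : D.f.eval₂ ((algebraMap _ B).comp (phiq sh.n σ q)) w ∈ kk W sh.n ξ (sh.K₀ * q)
  r3 : γ ^ q - algebraMap _ B (phiq sh.n σ q D.g) ∈ kk W sh.n ξ (sh.K₀ * q)
  r4a : ∀ τ, u τ ∈ nn W sh.n B ^ (sh.wt τ * (q - m))
  r4b : ∀ τ, algebraMap _ B (phiq sh.n σ q D.g) * u τ -
    γ ^ m * (D.num τ).eval₂ ((algebraMap _ B).comp (phiq sh.n σ q)) w ∈ kk W sh.n ξ (sh.K₀ * q)

/-- `r2`: evaluate `f.map φ - ∏ (X - C w)` at `w i j`. -/
theorem RootsAt.pair {D : Data W sh} {pp : W} {ρ q m : ℕ} {σ : W →+* W} {ξ : Fin sh.a → B} {υ : B}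
    {γ : Fin sh.a → B} {w : Fin sh.a → Fin sh.e → B} {u : Fin sh.a → Fin sh.e → sh.𝒯 → B}
    (hR : RootsAt pp ρ sh.K₀ q m ((algebraMap _ B).comp (phiq sh.n σ q)) D.h D.g D.f D.num sh.wt
      ξ υ γ w u) (hm : m < q) (i : Fin sh.a) (j : Fin sh.e) :
    PairAt D pp ρ q m σ (ξ i) (γ i) (w i j) (u i j) := by
  refine ⟨hm, hR.hx i, hR.r1b i, ?_, hR.r3 i, hR.r4a i j, hR.r4b i j⟩
  have h1 : (∏ j', (X - C (w i j'))).eval (w i j) = 0 := by
    rw [eval_prod]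
    exact Finset.prod_eq_zero (Finset.mem_univ j) (by simp)
  rw [eval₂_eq_eval_map, ← sub_zero (eval _ _), ← h1, ← eval_sub, eval_eq_sum_range]
  exact Ideal.sum_mem _ fun r _ => Ideal.mul_mem_right _ _ (hR.r2 i r)

variable {D : Data W sh} {pp : W} {ρ q m N L0 L1 L2 : ℕ} {σ : W →+* W} {ξ γ w : B} {u : sh.𝒯 → B}

theorem PairAt.rr_le (P : PairAt D pp ρ q m σ ξ γ w u) (hN : sh.K₀ ≤ N) :
    (rr D.h D.f N).map (eval₂RingHom ((algebraMap _ B).comp (phiq sh.n σ q)) w) ≤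
      kk W sh.n ξ (sh.K₀ * q) := by
  rw [rr, Ideal.map_sup, Ideal.map_pow, Ideal.map_span, sup_le_iff, Ideal.span_le]
  refine ⟨?_, ?_⟩
  · rintro _ ⟨y, rfl | rfl, rfl⟩
    · simpa using P.r1
    · exact P.r2
  · have h1 : ((XI W sh.n).map C).map (eval₂RingHom ((algebraMap _ B).comp (phiq sh.n σ q)) w) ≤
        nn W sh.n B ^ q := by
      rw [XI, Ideal.map_span, Ideal.map_span, Ideal.span_le]
      rintro _ ⟨_, ⟨_, ⟨i, rfl⟩, rfl⟩, rfl⟩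
      have e : eval₂RingHom ((algebraMap _ B).comp (phiq sh.n σ q)) w (C (MvPolynomial.X i)) =
          zB W sh.n B i ^ q := by simp [phiq, zB]
      rw [e]
      exact Ideal.pow_mem_pow (Ideal.subset_span (Set.mem_range_self i)) q
    refine (Ideal.pow_right_mono h1 N).trans (le_sup_of_le_right ?_)
    rw [← pow_mul]
    exact Ideal.pow_le_pow_right (by rw [mul_comm q]; exact Nat.mul_le_mul_right q hN)

theorem phiq_g (V : D.Valid pp N L0 L1 L2) (σ : W →+* W) (q : ℕ) :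
    phiq sh.n σ q D.g - MvPolynomial.X 0 ^ (sh.o * q) ∈
      Ideal.span (Set.range fun i : Fin sh.n => (MvPolynomial.X i.succ : Pz W sh.n) ^ q) := by
  have h := Ideal.mem_map_of_mem (phiq sh.n σ q) V.hg
  have e : ∀ i, phiq sh.n σ q (MvPolynomial.X i) = MvPolynomial.X i ^ q := fun i => by simp [phiq]
  rw [map_sub, map_pow, e, ← pow_mul, mul_comm q, Ideal.map_span, ← Set.range_comp] at h
  simpa only [Function.comp_def, e] using h

/-- TRANSFER.  With `G = φ g`, `λ = γ^m`: modulo `kk (K₀ q)`,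
`G^r eqs λ u = eqs (G λ) (G u) ≡ eqs (λ G) (λ ev num) = λ^r ev (eqs (C g) num) ≡ 0`
(`eqs_smul`, `eqs_map` for `ev` and for the quotient map); then `cancel` `r ≤ k+1` times along `Kseq`. -/
theorem PairAt.eqs_mem (P : PairAt D pp ρ q m σ ξ γ w u) (V : D.Valid pp N L0 L1 L2)
    (hN : sh.K₀ ≤ N) (ε : sh.ℰ) :
    sh.eqs (γ ^ m) u (fun i => zB W sh.n B i ^ q)
      (fun r => (D.jg r).eval₂ ((algebraMap _ B).comp (phiq sh.n σ q)) w) ε ∈
      kk W sh.n ξ (sh.Kf * q) := by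
  have hq : 1 ≤ q := Nat.one_le_of_lt P.hm
  set G := algebraMap _ B (phiq sh.n σ q D.g) with hG
  set ev := eval₂RingHom ((algebraMap _ B).comp (phiq sh.n σ q)) w with hev
  have h1 := P.rr_le hN (Ideal.mem_map_of_mem ev (V.eq ε))
  have e1 : ev (C D.g) = G := by simp [hev, hG]
  have e2 : (ev ∘ fun i => C (MvPolynomial.X i)) = fun i => zB W sh.n B i ^ q := by
    funext i
    simp [hev, phiq, zB]
  rw [sh.eqs_map, e1, e2] at h1
  have h2 : ∀ j y, G ^ j * y ∈ kk W sh.n ξ (sh.Kseq j * q) → y ∈ kk W sh.n ξ (sh.Kf * q) := by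
    intro j
    induction j with
    | zero => intro y hy; rwa [pow_zero, one_mul] at hy
    | succ j ih =>
      intro y hy
      rw [pow_succ', mul_assoc] at hy
      exact ih y (cancel P.hx hq (phiq_g V σ q) (le_of_eq (by rw [Shape.Kseq]; ring)) _ hy)
  refine h2 (sh.k + 1) _ (kk_anti ξ (Nat.mul_le_mul_right q (by rw [Shape.K₀]; omega) :
    _ ≤ sh.K₀ * q) ?_)
  rw [← Nat.sub_add_cancel (sh.dg_le ε), pow_add, mul_assoc]
  refine Ideal.mul_mem_left _ _ ?_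
  have e3 : (Ideal.Quotient.mk (kk W sh.n ξ (sh.K₀ * q)) ∘ fun τ => G * u τ) =
      Ideal.Quotient.mk _ ∘ fun τ => γ ^ m * (ev ∘ D.num) τ :=
    funext fun τ => Ideal.Quotient.eq.2 (P.r4b τ)
  rw [← Ideal.Quotient.eq_zero_iff_mem, ← sh.eqs_smul, sh.eqs_map, e3, mul_comm G, ← sh.eqs_map,
    sh.eqs_smul, Ideal.Quotient.eq_zero_iff_mem]
  exact Ideal.mul_mem_left _ _ h1

/-- `cl_sup_pow_le`, `line_le`. -/
theorem PairAt.kl_le (P : PairAt D pp ρ q m σ ξ γ w u) (V : D.Valid pp N L0 L1 L2) {r : ℕ}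
    (hr : r ≤ 2 * (sh.A₀ * q)) (s : ℕ) :
    cl (kk W sh.n ξ r ⊔ zp W sh.n B ⊔ Ideal.span {γ ^ s}) ≤ (s * (sh.o * ρ) : ℕ) := by
  refine (cl_sup_pow_le _ γ s).trans ?_
  rw [Nat.cast_mul s]
  refine mul_le_mul_right (line_le P.hx (Nat.one_le_of_lt P.hm) (phiq_g V σ q) P.r3 ?_) _
  have h : (2 * sh.A₀ + sh.o) * q ≤ sh.K₀ * q := Nat.mul_le_mul_right q (by rw [Shape.K₀]; omega)
  rw [add_mul, mul_assoc] at h
  omega

/-- `cl_sup_pow_le`, `cl_kk_sup_le`, `line_le`. -/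
theorem PairAt.kb_le (P : PairAt D pp ρ q m σ ξ γ w u) (V : D.Valid pp N L0 L1 L2) {r : ℕ}
    (hr : r ≤ 2 * (sh.A₀ * q)) (s : ℕ) :
    cl (kk W sh.n ξ r ⊔ Ideal.span {γ ^ s}) ≤ (s * (r ^ sh.n * (sh.o * ρ)) : ℕ) := by
  refine (cl_sup_pow_le _ γ s).trans ?_
  rw [Nat.cast_mul s, Nat.cast_mul (r ^ sh.n)]
  refine mul_le_mul_right ((cl_kk_sup_le ξ γ r).trans (mul_le_mul_right ?_ _)) _
  have h := P.kl_le V hr 1
  rwa [pow_one, one_mul] at h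

end

/-- `lower` for `Cx = FC.kos (List.ofFn fun l => u (.yy l.succ)) (sh.fc u)`, `y = u (.yy 0)`,
`θ = (γ^m)^(k+1)`, `q' = ν (q - m)`, `K = Kf q`, `M = N₀ q`, `A = A₀ q`,
`kl = m (k+1) (n+1) 2 (o ρ)`; `q' ≤ ν q`, `4 A + 1 ≤ (4 A₀ + 1) q`, `card = 2^d₁ card ι`. -/
theorem pair_lower (sh : Shape) : ∃ Cst : ℝ, 0 ≤ Cst ∧ ∀ {W : Type} [CommRing W] {B : Type}
    [CommRing B] [Algebra (Pz W sh.n) B] {D : Data W sh} {pp : W} {ρ q m N L0 L1 L2 : ℕ}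
    {σ : W →+* W} {ξ γ w : B} {u : sh.𝒯 → B}, PairAt D pp ρ q m σ ξ γ w u →
    D.Valid pp N L0 L1 L2 → sh.K₀ ≤ N →
    (ρ : ℝ) * ((sh.ν * (q - m) : ℕ) : ℝ) ^ (sh.n + 1) - Cst * ρ * (m + 1) * (q : ℝ) ^ sh.n ≤
      ((cl ((sh.fc u).J ⊔ Ideal.span (Set.range fun l => u (.yy l)) ⊔
        kk W sh.n ξ ((sh.n + 1) * (sh.N₀ * q)))).toNat : ℝ) := by
  obtain ⟨C₀, hC₀, hlow⟩ := lower sh.n
  refine ⟨C₀ * (2 ^ sh.d₁ * Fintype.card sh.ι) * ((sh.ν : ℝ) ^ sh.n +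
    (4 * (sh.A₀ : ℝ) + 1) ^ sh.n * ((sh.k + 1) * (sh.n + 1) * 2 * sh.o)), by positivity, ?_⟩
  intro W _ B _ _ D pp ρ q m N L0 L1 L2 σ ξ γ w u P V hN
  have hm := P.hm
  have hE := P.eqs_mem V hN
  obtain ⟨l, hl⟩ : ∃ l, l = List.ofFn fun j : Fin sh.d₁ => u (.yy j.succ) := ⟨_, rfl⟩
  have hlen : l.length = sh.d₁ := by rw [hl, List.length_ofFn]
  have hsp : Ideal.span {y | y ∈ l} =
      Ideal.span (Set.range fun j : Fin sh.d₁ => u (.yy j.succ)) := by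
    congr 1
    ext z
    simp only [hl, Set.mem_ofPred_eq, List.mem_ofFn, Set.mem_range]
  have hsp2 : Ideal.span {y | y ∈ l} ⊔ Ideal.span {u (.yy 0)} =
      Ideal.span (Set.range fun j => u (.yy j)) := by
    rw [hsp, ← Ideal.span_union]
    congr 1
    ext z
    simp only [Set.mem_union, Set.mem_range, Set.mem_singleton_iff, Fin.exists_fin_succ]
    rw [or_comm, eq_comm]
  have hq' : sh.ν * (q - m) ≤ sh.ν * q := Nat.mul_le_mul_left _ (Nat.sub_le _ _)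
  have hq'' : (sh.n + 1) * (sh.ν * (q - m)) ≤ (sh.n + 1) * (sh.ν * q) := Nat.mul_le_mul_left _ hq'
  have hdg : (FC.kos l (sh.fc u)).DegLe sh.n := by
    have := FC.kos_degLe (F := sh.fc u) l sh.hc
    rwa [hlen, add_comm] at this
  have hent : (sh.fc u).Ent (nn W sh.n B ^ (sh.ν * (q - m))) := fun a b => by
    change sh.Dm u a b ∈ _
    unfold Shape.Dm
    split_ifs
    · exact P.r4a (.dd a b)
    · exact Ideal.zero_mem _
  have key := hlow P.hx (FC.kos l (sh.fc u)) (u (.yy 0)) ((γ ^ m) ^ (sh.k + 1)) (sh.ν * (q - m))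
    (sh.Kf * q) (sh.N₀ * q) (sh.A₀ * q) (m * (sh.k + 1) * (sh.n + 1) * 2 * (sh.o * ρ))
    (Nat.mul_pos sh.hν (Nat.sub_pos_of_lt hm)) (FC.kos_one l (sh.fc_one u)) hdg
    (FC.cone_ent (P.r4a (.yy 0)) (FC.kos_ent (fun y hy => by
      rw [hl, List.mem_ofFn] at hy
      obtain ⟨j, rfl⟩ := hy
      exact P.r4a (.yy j.succ)) hent))
    (FC.kos_sq l (Shape.fc_sq hE))
    (fun i => by
      have h1 := Shape.fc_h1 hE i
      rw [← pow_mul (zB W sh.n B i), mul_comm q] at h1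
      refine SetLike.le_def.1 (sup_le ?_ ?_) h1
      · exact (le_sup_left.trans (FC.nh_le_kos _ _ l)).trans
          (le_sup_left.trans (FC.nh_le_cone _ _ _))
      · refine le_trans ?_ ((sup_le_sup_right (le_sup_right.trans (FC.nh_le_kos _ _ l)) _).trans
          (FC.nh_le_cone _ _ _))
        rw [hsp2, Ideal.span_le]
        rintro _ ⟨j, rfl⟩
        exact Ideal.pow_mem_of_mem _ (Ideal.subset_span (Set.mem_range_self j)) _ sh.hk)
    (fun i => by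
      have h1 := Shape.fc_h2 hE i
      rw [← pow_mul (zB W sh.n B i), mul_comm q, ← pow_mul (zB W sh.n B 0)] at h1
      obtain ⟨k', hk'⟩ := Nat.exists_eq_add_of_le' sh.hk
      rw [show sh.k + 1 = k' + 2 by omega, pow_add, mul_assoc]
      refine Ideal.mul_mem_left _ _ (SetLike.le_def.1 (sup_le (sup_le_sup ?_ ?_) ?_) h1)
      · exact le_sup_left.trans (FC.nh_le_kos _ _ l)
      · refine Ideal.span_singleton_le_span_singleton.2 (pow_dvd_pow _ (hq''.trans (le_of_eq ?_)))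
        ring
      · rw [← hsp]
        exact (le_sup_right.trans (FC.nh_le_kos _ _ l)).trans le_sup_left)
    (by
      refine (Nat.add_le_add_left hq'' _).trans (le_of_eq ?_)
      unfold Shape.Kf
      ring)
    (by
      refine (Nat.add_le_add_left hq'' _).trans (le_of_eq ?_)
      unfold Shape.A₀
      ring)
    (by
      rw [← pow_mul, ← pow_mul, ← pow_mul, ← mul_assoc m, ← mul_assoc (m * _)]
      exact P.kl_le V le_rfl _)
  rw [FC.cone_J _ (FC.kos_one l (sh.fc_one u)), FC.kos_J l (sh.fc_one u), sup_assoc (sh.fc u).J,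
    hsp2, FC.kos_card, hlen] at key
  refine le_trans ?_ key
  have hc : Fintype.card (sh.fc u).ι = Fintype.card sh.ι := rfl
  rw [hc, sub_sub]
  refine sub_le_sub_left ?_ _
  have hq1 : (1 : ℝ) ≤ q := by exact_mod_cast (by omega : 1 ≤ q)
  have e1 : ((sh.ν * (q - m) : ℕ) : ℝ) ^ sh.n ≤ (sh.ν : ℝ) ^ sh.n * (q : ℝ) ^ sh.n := by
    rw [← mul_pow]
    exact pow_le_pow_left₀ (Nat.cast_nonneg _) (by exact_mod_cast hq') _
  have e2 : (4 * ((sh.A₀ * q : ℕ) : ℝ) + 1) ^ sh.n ≤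
      (4 * (sh.A₀ : ℝ) + 1) ^ sh.n * (q : ℝ) ^ sh.n := by
    rw [← mul_pow]
    refine pow_le_pow_left₀ (by positivity) ?_ _
    push_cast
    linarith
  have hm0 : (0 : ℝ) ≤ m := Nat.cast_nonneg _
  calc _ ≤ C₀ * ((2 ^ sh.d₁ * Fintype.card sh.ι : ℕ) : ℝ) * ρ *
        ((m + 1) * ((sh.ν : ℝ) ^ sh.n * (q : ℝ) ^ sh.n)) +
        C₀ * ((2 ^ sh.d₁ * Fintype.card sh.ι : ℕ) : ℝ) *
          ((4 * (sh.A₀ : ℝ) + 1) ^ sh.n * (q : ℝ) ^ sh.n) *
          (((m + 1) * (sh.k + 1) * (sh.n + 1) * 2 * (sh.o * ρ) : ℕ) : ℝ) := by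
        refine add_le_add (mul_le_mul_of_nonneg_left (e1.trans (le_mul_of_one_le_left
          (by positivity) (by linarith))) (by positivity)) ?_
        gcongr
        omega
    _ = _ := by
        push_cast
        ring

/-- `pair_lower`, `ktrick` (with `kb` from `kb_le`), and, with `r = 2 (n+1) N₀ q`,
`E = J ⊔ (y)^k ⊔ kk r`, `𝔍 = jj.map ev ⊔ kk r`: `θ 𝔍 ≤ E` (`fc_jj`, `rr_le`), so
`cl E ≤ cl 𝔍 + len 𝔍 E ≤ cl 𝔍 + cl (kk r ⊔ (θ))` (`len_le_add`, `len_le_kap`, `kap_top_ideal`);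
`cl 𝔍 ≤ cl (jj.map ev ⊔ (ξ))`.  All `cl` containing `kk r` are finite (`cl_kk_le`). -/
theorem pair_bound (sh : Shape) : ∃ Cst : ℝ, 0 ≤ Cst ∧ ∀ {W : Type} [CommRing W] {B : Type}
    [CommRing B] [Algebra (Pz W sh.n) B] {D : Data W sh} {pp : W} {ρ q m N L0 L1 L2 : ℕ}
    {σ : W →+* W} {ξ γ w : B} {u : sh.𝒯 → B}, PairAt D pp ρ q m σ ξ γ w u →
    D.Valid pp N L0 L1 L2 → sh.K₀ ≤ N → ∀ L : ℕ,
    cl ((D.jj N).map (eval₂RingHom ((algebraMap _ B).comp (phiq sh.n σ q)) w) ⊔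
      Ideal.span {ξ}) ≤ L →
    (sh.Cb : ℝ) * ρ * ((sh.ν * (q - m) : ℕ) : ℝ) ^ (sh.n + 1) -
      Cst * ρ * (m + 1) * (q : ℝ) ^ sh.n ≤ L := by
  obtain ⟨C₁, hC₁, hlow⟩ := pair_lower sh
  refine ⟨sh.Cb * C₁ + (1 + 2 * (sh.d₁ + 1) * (sh.k : ℝ) ^ (sh.d₁ + 1) * (sh.n + 1)) *
    ((sh.k + 1) * (2 * ((sh.n + 1) * sh.N₀)) ^ sh.n * sh.o), by positivity, ?_⟩
  intro W _ B _ _ D pp ρ q m N L0 L1 L2 σ ξ γ w u P V hN L hL
  have hE := P.eqs_mem V hN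
  have h1 := hlow P V hN
  obtain ⟨r, hr⟩ : ∃ r, r = 2 * ((sh.n + 1) * (sh.N₀ * q)) := ⟨_, rfl⟩
  have hrA : r ≤ 2 * (sh.A₀ * q) := by
    rw [hr, Shape.A₀, mul_assoc, add_mul sh.N₀]
    gcongr
    exact Nat.le_add_right _ _
  have hK3 : 3 * ((sh.n + 1) * (sh.N₀ * q)) ≤ sh.Kf * q := by
    rw [Shape.Kf, add_mul (5 * _), mul_assoc 5, mul_assoc (sh.n + 1)]
    omega
  have hrK : r ≤ sh.K₀ * q := by
    refine hrA.trans ?_
    rw [← mul_assoc]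
    refine Nat.mul_le_mul_right _ ?_
    unfold Shape.K₀
    omega
  have h2 := ktrick P.hx (sh.fc_one u) (rfl : sh.d₁ + sh.c = sh.n) sh.hk sh.hc (Shape.fc_sq hE)
    (fun l => u (.yy l)) ((γ ^ m) ^ (sh.k + 1)) (M := sh.N₀ * q)
    (kb := m * (sh.k + 1) * (sh.n + 1) * (r ^ sh.n * (sh.o * ρ)))
    (fun i => by
      have h1 := Shape.fc_h1 hE i
      rwa [← pow_mul (zB W sh.n B i), mul_comm q] at h1) hK3
    (by
      rw [← pow_mul, ← pow_mul, ← mul_assoc m, ← hr]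
      exact P.kb_le V hrA _)
  rw [← hr] at h2
  have h3 : cl (kk W sh.n ξ r ⊔ Ideal.span {(γ ^ m) ^ (sh.k + 1)}) ≤
      (m * (sh.k + 1) * (r ^ sh.n * (sh.o * ρ)) : ℕ) := by
    rw [← pow_mul]
    exact P.kb_le V hrA _
  have h4 := KTa_key P.hx h3
    (Z := (D.jj N).map (eval₂RingHom ((algebraMap _ B).comp (phiq sh.n σ q)) w) ⊔ Ideal.span {ξ})
    (E := (sh.fc u).J ⊔ Ideal.span (Set.range fun l => u (.yy l)) ^ sh.k ⊔ kk W sh.n ξ r)
    le_sup_right (fun x hx => by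
      have h5 : (D.jj N).map (eval₂RingHom ((algebraMap _ B).comp (phiq sh.n σ q)) w) ⊔
          Ideal.span {ξ} ≤ ((sh.fc u).J ⊔ Ideal.span (Set.range fun l => u (.yy l)) ^ sh.k ⊔
            kk W sh.n ξ r).colon {(γ ^ m) ^ (sh.k + 1)} := by
        have h6 : kk W sh.n ξ r ≤ ((sh.fc u).J ⊔
            Ideal.span (Set.range fun l => u (.yy l)) ^ sh.k ⊔
            kk W sh.n ξ r).colon {(γ ^ m) ^ (sh.k + 1)} := fun x hx => by
          rw [Submodule.mem_colon_singleton, smul_eq_mul]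
          exact Ideal.mul_mem_right _ _ (Ideal.mem_sup_right hx)
        rw [Data.jj, Ideal.map_sup, Ideal.map_span]
        refine sup_le (sup_le ?_ (((P.rr_le hN).trans (kk_anti ξ hrK)).trans h6))
          (le_sup_left.trans h6)
        rw [Ideal.span_le]
        rintro _ ⟨_, ⟨j, rfl⟩, rfl⟩
        rw [SetLike.mem_coe, Submodule.mem_colon_singleton, smul_eq_mul, mul_comm]
        exact sup_le_sup_left (kk_anti ξ (by omega)) _ (Shape.fc_jj hE j)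
      have h7 := h5 hx
      rwa [Submodule.mem_colon_singleton, smul_eq_mul, mul_comm] at h7)
  have h5 : cl ((sh.fc u).J ⊔ Ideal.span (Set.range fun l => u (.yy l)) ^ sh.k ⊔ kk W sh.n ξ r) ≤
      L + (m * (sh.k + 1) * (r ^ sh.n * (sh.o * ρ)) : ℕ) := by
    rw [cl_eq_len] at hL ⊢
    exact (len_le_add _ _ _).trans (add_le_add hL h4)
  have h6 := h2.trans (add_le_add_left h5 _)
  have hfin : cl ((sh.fc u).J ⊔ Ideal.span (Set.range fun l => u (.yy l)) ⊔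
      kk W sh.n ξ ((sh.n + 1) * (sh.N₀ * q))) ≠ ⊤ :=
    ne_top_of_le_ne_top (ENat.natCast_ne_top _) ((cl_anti le_sup_right).trans (cl_kk_le P.hx _))
  obtain ⟨X, hX⟩ := ENat.ne_top_iff_exists.1 hfin
  rw [← hX] at h1 h6
  rw [ENat.toNat_natCast] at h1
  have h7 : sh.Cb * X ≤ L + m * (sh.k + 1) * (r ^ sh.n * (sh.o * ρ)) +
      2 * (sh.d₁ + 1) * sh.k ^ (sh.d₁ + 1) *
        (m * (sh.k + 1) * (sh.n + 1) * (r ^ sh.n * (sh.o * ρ))) := by
    unfold Shape.Cb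
    exact_mod_cast h6
  have h8 : (sh.Cb : ℝ) * X ≤ L + m * (sh.k + 1) * ((r : ℝ) ^ sh.n * (sh.o * ρ)) +
      2 * (sh.d₁ + 1) * (sh.k : ℝ) ^ (sh.d₁ + 1) *
        (m * (sh.k + 1) * (sh.n + 1) * ((r : ℝ) ^ sh.n * (sh.o * ρ))) := by
    exact_mod_cast h7
  have h9 : (r : ℝ) ^ sh.n = (2 * ((sh.n + 1) * sh.N₀)) ^ sh.n * (q : ℝ) ^ sh.n := by
    rw [← mul_pow, hr]
    push_cast
    ring
  rw [h9] at h8
  have h10 := mul_le_mul_of_nonneg_left h1 (Nat.cast_nonneg sh.Cb : (0 : ℝ) ≤ _)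
  have h11 : (0 : ℝ) ≤ (1 + 2 * (sh.d₁ + 1) * (sh.k : ℝ) ^ (sh.d₁ + 1) * (sh.n + 1)) *
    ((sh.k + 1) * (2 * ((sh.n + 1) * sh.N₀)) ^ sh.n * sh.o) * ρ * (q : ℝ) ^ sh.n := by positivity
  linarith

/-- divide by `q^(n+1)` and let `q → ∞`: `(q - m)/q ≥ 1 - 2/E`, `(m+1)/q ≤ 2/E` for `q ≥ 2E`;
Bernoulli `(1 - 2/E)^(n+1) ≥ 1 - 2(n+1)/E`; choose `E` with total error `< 1`. -/
theorem core_arith (n ν P : ℕ) (Cst : ℝ) (hC : 0 ≤ Cst) : ∃ E : ℕ, 2 ≤ E ∧ ∃ Q : ℕ, ∀ q L : ℕ,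
    Q ≤ q → q / E + 1 < q ∧
      ((P : ℝ) * ((ν * (q - (q / E + 1)) : ℕ) : ℝ) ^ (n + 1) -
        Cst * (((q / E + 1 : ℕ) : ℝ) + 1) * (q : ℝ) ^ n ≤ L * (q : ℝ) ^ (n + 1) →
        P * ν ^ (n + 1) ≤ L) := by
  obtain ⟨S, hS⟩ : ∃ S : ℕ, S = P * ν ^ (n + 1) := ⟨_, rfl⟩
  obtain ⟨E, hE⟩ := exists_nat_gt (2 * (n + 1) * S + 3 * Cst + 2 : ℝ)
  have hS0 : (0 : ℝ) ≤ 2 * (n + 1) * S := by positivity
  have hE2 : (2 : ℝ) ≤ E := by linarith
  have hE2' : 2 ≤ E := by exact_mod_cast hE2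
  refine ⟨E, hE2', E + 3, fun q L hq => ?_⟩
  have h1 : q / E + 1 < q := by
    have := Nat.div_le_div_left (a := q) hE2' two_pos
    omega
  refine ⟨h1, fun h => ?_⟩
  have hEq : (E : ℝ) ≤ q := by exact_mod_cast (by omega : E ≤ q)
  have hE0 : (0 : ℝ) < E := by linarith
  have hq0 : (0 : ℝ) < q := by linarith
  obtain ⟨t, ht⟩ : ∃ t : ℝ, t = 1 / E := ⟨_, rfl⟩
  have ht0 : 0 < t := by rw [ht]; positivity
  have htE : t * E = 1 := by rw [ht]; field_simp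
  have h2 : ((q / E : ℕ) : ℝ) ≤ t * q := by
    rw [ht, one_div_mul_eq_div]
    exact Nat.cast_div_le
  have h3 : 1 ≤ t * q := by nlinarith
  have h4 : 2 * t ≤ 1 := by nlinarith
  have h5 : (1 - (n + 1) * (2 * t)) * (q : ℝ) ^ (n + 1) ≤ ((q : ℝ) - (q / E : ℕ) - 1) ^ (n + 1) := by
    have h6 := one_add_mul_le_pow (a := -(2 * t)) (by linarith) (n + 1)
    push_cast at h6
    refine le_trans (mul_le_mul_of_nonneg_right (by linarith) (by positivity) :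
      _ ≤ (1 + -(2 * t)) ^ (n + 1) * _) ?_
    rw [← mul_pow]
    exact pow_le_pow_left₀ (mul_nonneg (by linarith) hq0.le) (by linarith) _
  rw [Nat.cast_mul, Nat.cast_sub h1.le, mul_pow, ← mul_assoc, Nat.cast_add, Nat.cast_one,
    ← sub_sub, ← Nat.cast_pow, ← Nat.cast_mul, ← hS] at h
  have h7 := mul_le_mul_of_nonneg_left h5 (Nat.cast_nonneg (α := ℝ) S)
  have h8 : Cst * ((q / E : ℕ) + 1 + 1) * (q : ℝ) ^ n ≤ Cst * (3 * t) * (q : ℝ) ^ (n + 1) := by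
    rw [pow_succ', ← mul_assoc, mul_assoc Cst (3 * t)]
    exact mul_le_mul_of_nonneg_right (mul_le_mul_of_nonneg_left (by linarith) hC) (by positivity)
  have h9 : S * (1 - (n + 1) * (2 * t)) - Cst * (3 * t) ≤ L :=
    le_of_mul_le_mul_right (by linarith) (pow_pos hq0 (n + 1))
  have h10 := mul_lt_mul_of_pos_left hE ht0
  have h11 : (S : ℝ) < L + 1 := by linarith
  rw [← hS]
  exact Nat.lt_succ_iff.1 (by exact_mod_cast h11)

/-- CORE over Witt vectors: `core_arith` with `P = a e Cb`, `Cst := a e Cst`; `roots` with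
`K₀ = sh.K₀`; `upper` with `𝔧 = D.jj N` (each summand is finite, take `toNat`), `pair_bound` summed
over `(i,j)`; cancel `ρ ≥ 1`. -/
theorem coreW (sh : Shape) : ∃ N, ∀ (p : ℕ) [Fact p.Prime] (l : Type) [Field l] [CharP l p]
    [PerfectRing l p], CoreAt sh N (WittVector p l) p False := by
  obtain ⟨Cst, hC, hpb⟩ := pair_bound sh
  obtain ⟨E, hE, Q, hQ⟩ := core_arith sh.n sh.ν (sh.a * sh.e * sh.Cb) (sh.a * sh.e * Cst)
    (by positivity)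
  obtain ⟨N, hN, hroots⟩ := roots sh.n sh.a sh.e sh.δ sh.K₀ E sh.ha sh.he sh.hδ hE
  refine ⟨N, fun p _ l _ _ _ D L0 L1 L2 V _ => ?_⟩
  have hg : D.g ∈ XI (WittVector p l) sh.n := by
    have h1 : Ideal.span (Set.range fun i : Fin sh.n =>
        (MvPolynomial.X i.succ : Pz (WittVector p l) sh.n)) ≤ XI (WittVector p l) sh.n := by
      refine Ideal.span_mono ?_
      rintro _ ⟨i, rfl⟩
      exact ⟨_, rfl⟩
    have h2 : (MvPolynomial.X 0 : Pz (WittVector p l) sh.n) ^ sh.o ∈ XI (WittVector p l) sh.n :=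
      Ideal.pow_mem_of_mem _ (Ideal.subset_span (Set.mem_range_self 0)) _ sh.ho
    simpa using add_mem (h1 V.hg) h2
  obtain ⟨B, _, _, ρ, hρ1, hρ, hq⟩ :=
    hroots p l D.h D.g D.f sh.𝒯 D.num sh.wt V.hh V.mon V.deg V.hfc hg V.int
  obtain ⟨q, hQq, σ, ξ, υ, γ, w, u, hR⟩ := hq Q
  obtain ⟨hm, har⟩ := hQ q (L0 + (sh.a - 1) * L1 + sh.a * sh.e * L2) hQq
  have hup := upper σ (map_natCast σ p) (le_trans (Nat.le_add_left 1 _) hm.le) sh.ha hR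
    (by rw [map_natCast, map_natCast]; exact hρ)
    V.hh D.Dr (D.jj N)
    (Ideal.mem_sup_right (Ideal.mem_sup_left (Ideal.subset_span (by simp)))) V.jX
    (by unfold Shape.K₀; omega) (by unfold Shape.K₀; omega) V.l0 V.l1 V.l2
  set c : Fin sh.a → Fin sh.e → ℕ∞ := fun i j => cl ((D.jj N).map
    (eval₂RingHom ((algebraMap _ B).comp (phiq sh.n σ q)) (w i j)) ⊔ Ideal.span {ξ i}) with hc
  have hfin : ∀ i j, c i j ≠ ⊤ := by
    intro i j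
    have h1 : c i j ≤ ∑ j, c i j :=
      Finset.single_le_sum (f := fun j => c i j) (fun _ _ => zero_le) (Finset.mem_univ j)
    have h2 : ∑ j, c i j ≤ ∑ i, ∑ j, c i j :=
      Finset.single_le_sum (f := fun i => ∑ j, c i j) (fun _ _ => zero_le) (Finset.mem_univ i)
    exact ne_top_of_le_ne_top (ENat.natCast_ne_top _) (h1.trans (h2.trans hup))
  choose Lc hLc using fun i j => ENat.ne_top_iff_exists.1 (hfin i j)
  have hsum : ∑ i, ∑ j, Lc i j ≤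
      (L0 + (sh.a - 1) * L1 + sh.a * sh.e * L2) * (q ^ (sh.n + 1) * ρ) := by
    have h1 : ((∑ i, ∑ j, Lc i j : ℕ) : ℕ∞) = ∑ i, ∑ j, c i j := by
      simp only [Nat.cast_sum, hLc]
    rw [← ENat.natCast_le_natCast, h1]
    exact hup
  have hlow : ∀ i j, (sh.Cb : ℝ) * ρ * ((sh.ν * (q - (q / E + 1)) : ℕ) : ℝ) ^ (sh.n + 1) -
      Cst * ρ * (((q / E + 1 : ℕ) : ℝ) + 1) * (q : ℝ) ^ sh.n ≤ Lc i j := fun i j =>
    hpb (RootsAt.pair hR hm i j) V hN (Lc i j) (hLc i j).ge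
  have hs := Finset.sum_le_sum (s := Finset.univ) fun i _ =>
    Finset.sum_le_sum (s := Finset.univ) fun j _ => hlow i j
  simp only [Finset.sum_const, Finset.card_univ, Fintype.card_fin, nsmul_eq_mul] at hs
  have hsum' : ∑ i, ∑ j, (Lc i j : ℝ) ≤
      ((L0 + (sh.a - 1) * L1 + sh.a * sh.e * L2 : ℕ) : ℝ) * ((q : ℝ) ^ (sh.n + 1) * ρ) := by
    exact_mod_cast hsum
  have hρ0 : (0 : ℝ) < ρ := by exact_mod_cast hρ1
  have := har (le_of_mul_le_mul_right (by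
    refine le_trans (le_of_eq ?_) ((hs.trans hsum').trans (le_of_eq (mul_assoc _ _ _).symm))
    rw [Nat.cast_mul (sh.a * sh.e), Nat.cast_mul sh.a]
    ring) hρ0)
  calc sh.a * sh.e * sh.ν ^ (sh.n + 1) * sh.Cb = sh.a * sh.e * sh.Cb * sh.ν ^ (sh.n + 1) := by ring
    _ ≤ _ := this

end Crest.Agent.R183
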