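import Crest.Agent.R183.Core

/-! # R183 / CoreFAuxa : transport of the ideals along a map of constants -/

set_option autoImplicit false
open Polynomial

namespace Crest.Agent.R183

section
variable {P W : Type} [CommRing P] [CommRing W]

/-- the map `P[X][w] → W[X][w]` -/
noncomputable def cfaH (n : ℕ) (Φ : P →+* W) : (Pz P n)[X] →+* (Pz W n)[X] :=
  mapRingHom (MvPolynomial.map Φ)

theorem cfaH_apply (n : ℕ) (Φ : P →+* W) (f : (Pz P n)[X]) :
    cfaH n Φ f = f.map (MvPolynomial.map Φ) := rfl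

theorem cfaH_C (n : ℕ) (Φ : P →+* W) (g : Pz P n) :
    cfaH n Φ (C g) = C (MvPolynomial.map Φ g) := by
  simp [cfaH_apply]

theorem cfaH_X (n : ℕ) (Φ : P →+* W) : cfaH n Φ X = X := by
  simp [cfaH_apply]

theorem cfa_map_XI (n : ℕ) (Φ : P →+* W) : (XI P n).map (MvPolynomial.map Φ) = XI W n := by
  rw [XI, XI, Ideal.map_span, ← Set.range_comp]
  congr 2
  funext i
  simp

theorem cfa_map_C (n : ℕ) (Φ : P →+* W) (I : Ideal (Pz P n)) :
    (I.map C).map (cfaH n Φ) = (I.map (MvPolynomial.map Φ)).map C := by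
  rw [Ideal.map_map, Ideal.map_map]
  congr 1
  exact RingHom.ext fun g => cfaH_C n Φ g

theorem cfa_map_XIC (n : ℕ) (Φ : P →+* W) :
    ((XI P n).map C).map (cfaH n Φ) = (XI W n).map C := by
  rw [cfa_map_C, cfa_map_XI]

theorem cfa_map_succ (n : ℕ) (Φ : P →+* W) :
    (Ideal.span (Set.range fun i : Fin n => (MvPolynomial.X i.succ : Pz P n))).map
      (MvPolynomial.map Φ) =
      Ideal.span (Set.range fun i : Fin n => (MvPolynomial.X i.succ : Pz W n)) := by
  rw [Ideal.map_span, ← Set.range_comp]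
  congr 2
  funext i
  simp

theorem cfa_map_mm (n : ℕ) (Φ : P →+* W) (x : P) : (mm n x).map (cfaH n Φ) = mm n (Φ x) := by
  rw [mm, mm, Ideal.map_sup, Ideal.map_sup, cfa_map_XIC, Ideal.map_span, Ideal.map_span,
    Set.image_singleton, Set.image_singleton, cfaH_C, cfaH_X, MvPolynomial.map_C]

theorem cfa_map_CC (n : ℕ) (Φ : P →+* W) (𝔎 : Ideal P) :
    (𝔎.map (MvPolynomial.C : P →+* Pz P n)).map (MvPolynomial.map Φ) =
      (𝔎.map Φ).map MvPolynomial.C := by
  rw [Ideal.map_map, Ideal.map_map]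
  congr 1
  exact RingHom.ext fun g => MvPolynomial.map_C Φ g

theorem cfa_surj (n : ℕ) {π : P →+* W} (hπ : Function.Surjective π) :
    Function.Surjective (cfaH n π) :=
  Polynomial.map_surjective _ (MvPolynomial.map_surjective π hπ)

theorem cfa_ker (n : ℕ) (π : P →+* W) :
    RingHom.ker (cfaH n π) = ((RingHom.ker π).map MvPolynomial.C).map C := by
  rw [cfaH, Polynomial.ker_mapRingHom, MvPolynomial.ker_map]

theorem cfa_derivative (n : ℕ) (Φ : P →+* W) (f : (Pz P n)[X]) :
    cfaH n Φ (derivative f) = derivative (cfaH n Φ f) := by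
  rw [cfaH_apply, cfaH_apply, derivative_map]

theorem LenLe.cfa_sup {A : Type} [CommRing A] {𝔪 I : Ideal A} {L : ℕ} (h : LenLe 𝔪 I L) :
    LenLe (𝔪 ⊔ I) I L := by
  obtain ⟨θ, h1, h2⟩ := h
  refine ⟨θ, fun r x hx => ?_, h2⟩
  obtain ⟨a, ha, b, hb, rfl⟩ := Submodule.mem_sup.1 hx
  rw [add_mul]
  exact Ideal.add_mem _ (h1 r a ha) (Submodule.mem_sup_left (Ideal.mul_mem_right _ _ hb))

/-- an ideal containing the kernel of an onto map is the preimage of its image -/
theorem cfa_comap {A B : Type} [CommRing A] [CommRing B] {φ : A →+* B}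
    (hφ : Function.Surjective φ) {I : Ideal A} {J : Ideal B} (h1 : I.map φ = J)
    (h2 : RingHom.ker φ ≤ I) : J.comap φ = I := by
  rw [← h1, Ideal.comap_map_of_surjective φ hφ, sup_eq_left]
  exact h2

end

end Crest.Agent.R183
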