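import Mathlib

/-! # R183 / CoreFAuxc : `ℤ` is Jacobson, finite type `ℤ`-fields are finite, Witt points. -/

set_option autoImplicit false

namespace Crest.Agent.R183

theorem isJacobsonRing_int_auxc : IsJacobsonRing ℤ := by
  rw [isJacobsonRing_iff_prime_eq]
  intro P hP
  by_cases h0 : P = ⊥
  · subst h0
    refine le_antisymm (fun x hx => ?_) Ideal.le_jacobson
    rw [Ideal.mem_bot]
    by_contra hx0
    obtain ⟨q, hq, hqp⟩ := Nat.exists_infinite_primes (x.natAbs + 1)
    have hqi : Prime (q : ℤ) := Nat.prime_iff_prime_int.1 hqp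
    have hmax : (Ideal.span {(q : ℤ)}).IsMaximal :=
      ((Ideal.span_singleton_prime hqi.ne_zero).2 hqi).isMaximal
        (by simpa [Ideal.span_singleton_eq_bot] using hqi.ne_zero)
    have hmem : x ∈ Ideal.span {(q : ℤ)} :=
      (Ideal.mem_sInf.1 hx) ⟨bot_le, hmax⟩
    rw [Ideal.mem_span_singleton] at hmem
    have h1 : q ∣ x.natAbs := Int.natCast_dvd.1 hmem
    have h2 := Nat.le_of_dvd (Int.natAbs_pos.2 hx0) h1
    omega
  · exact Ideal.jacobson_eq_self_of_isMaximal (H := hP.isMaximal h0)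

theorem finite_of_finiteType_int_auxc (K : Type) [Field K] [Algebra.FiniteType ℤ K] :
    Finite K := by
  have := isJacobsonRing_int_auxc
  have hfin : Module.Finite ℤ K := finite_of_finite_type_of_isJacobsonRing ℤ K
  have hp : ringChar K ≠ 0 := by
    intro h0
    have : CharP K 0 := h0 ▸ ringChar.charP K
    have : CharZero K := CharP.charP_to_charZero K
    have hinj : Function.Injective (algebraMap ℤ K) := (algebraMap ℤ K).injective_int
    exact Int.not_isField (isField_of_isIntegral_of_isField hinj (Field.toIsField K))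
  have : Fact (ringChar K).Prime := ⟨(CharP.char_is_prime_or_zero K (ringChar K)).resolve_right hp⟩
  let : Algebra (ZMod (ringChar K)) K := ZMod.algebra K (ringChar K)
  have : Module.Finite (ZMod (ringChar K)) K :=
    Module.Finite.of_restrictScalars_finite ℤ (ZMod (ringChar K)) K
  exact Module.finite_of_finite (ZMod (ringChar K))

theorem finite_of_finiteType_int_auxc' (K : Type) [Field K] [alg : Algebra ℤ K]
    [h : Algebra.FiniteType ℤ K] : Finite K := by
  have e : alg = Ring.toIntAlgebra K := Subsingleton.elim _ _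
  subst e
  exact finite_of_finiteType_int_auxc K

theorem exists_witt_point_auxc (l : Type) [CommRing l] [Nontrivial l]
    (s : Finset (MvPolynomial l ℤ))
    (hs : ∀ x ∈ s, MvPolynomial.eval₂Hom (Int.castRingHom l) id x = 0) :
    ∃ (p : ℕ) (_ : Fact p.Prime) (l₀ : Type) (_ : Field l₀) (_ : CharP l₀ p) (_ : PerfectRing l₀ p)
      (Φ : MvPolynomial l ℤ →+* WittVector p l₀),
      ∀ x ∈ s, Φ x ∈ Ideal.span {(p : WittVector p l₀)} := by
  classical
  -- the finite set of variables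
  set t : Finset l := s.biUnion MvPolynomial.vars with ht
  have hval : Function.Injective (Subtype.val : t → l) := Subtype.val_injective
  -- restriction map
  let κ : MvPolynomial l ℤ →+* MvPolynomial t ℤ := (MvPolynomial.killCompl (R := ℤ) hval).toRingHom
  let ψ : MvPolynomial t ℤ →+* l := MvPolynomial.eval₂Hom (Int.castRingHom l) Subtype.val
  have hψ : ∀ x ∈ s, ψ (κ x) = 0 := by
    intro x hx
    have hsub : (x.vars : Set l) ⊆ Set.range (Subtype.val : t → l) := by
      intro v hv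
      exact ⟨⟨v, Finset.mem_biUnion.2 ⟨x, hx, hv⟩⟩, rfl⟩
    obtain ⟨q, hq⟩ := MvPolynomial.exists_rename_eq_of_vars_subset_range x _ hval hsub
    have h1 : κ x = q := by
      rw [← hq]; exact MvPolynomial.killCompl_rename_app hval q
    have h2 := hs x hx
    rw [← hq, MvPolynomial.eval₂Hom_rename] at h2
    rw [h1]; exact h2
  have hker : RingHom.ker ψ ≠ ⊤ := RingHom.ker_ne_top ψ
  obtain ⟨𝔪, h𝔪, hle⟩ := Ideal.exists_le_maximal _ hker
  let : Field (MvPolynomial t ℤ ⧸ 𝔪) := Ideal.Quotient.field 𝔪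
  have : Algebra.FiniteType ℤ (MvPolynomial t ℤ ⧸ 𝔪) :=
    Algebra.FiniteType.of_surjective (Ideal.Quotient.mkₐ ℤ 𝔪) (Ideal.Quotient.mkₐ_surjective ℤ 𝔪)
  have : Finite (MvPolynomial t ℤ ⧸ 𝔪) := finite_of_finiteType_int_auxc' _
  have hp : (ringChar (MvPolynomial t ℤ ⧸ 𝔪)).Prime := CharP.char_is_prime (MvPolynomial t ℤ ⧸ 𝔪) _
  have hF : Fact (ringChar (MvPolynomial t ℤ ⧸ 𝔪)).Prime := ⟨hp⟩
  have : ExpChar (MvPolynomial t ℤ ⧸ 𝔪) (ringChar (MvPolynomial t ℤ ⧸ 𝔪)) := ExpChar.prime hp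
  let Φ₀ : MvPolynomial t ℤ →+* WittVector (ringChar (MvPolynomial t ℤ ⧸ 𝔪)) (MvPolynomial t ℤ ⧸ 𝔪) :=
    MvPolynomial.eval₂Hom (Int.castRingHom _)
      (fun i => WittVector.teichmuller _ (Ideal.Quotient.mk 𝔪 (MvPolynomial.X i)))
  have hΦ₀ : WittVector.constantCoeff.comp Φ₀ = Ideal.Quotient.mk 𝔪 := by
    apply MvPolynomial.ringHom_ext
    · intro r
      simp only [eq_intCast, map_intCast]
    · intro i
      simp [Φ₀]
  refine ⟨ringChar (MvPolynomial t ℤ ⧸ 𝔪), hF, MvPolynomial t ℤ ⧸ 𝔪, inferInstance, inferInstance,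
    inferInstance, Φ₀.comp κ, fun x hx => ?_⟩
  rw [WittVector.mem_span_p_iff_coeff_zero_eq_zero]
  have h1 : WittVector.constantCoeff (Φ₀ (κ x)) = Ideal.Quotient.mk 𝔪 (κ x) := by
    rw [← hΦ₀]; rfl
  have h2 : Ideal.Quotient.mk 𝔪 (κ x) = 0 :=
    Ideal.Quotient.eq_zero_iff_mem.2 (hle (hψ x hx))
  rw [h2] at h1
  exact h1

end Crest.Agent.R183
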