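import Crest.Agent.R183.Core
import Crest.Agent.R183.CoreFAuxa
import Crest.Agent.R183.CoreFAuxc

/-! # R183 / CoreF : the core inequality over an arbitrary nonzero ring (`h = 0`, `a = 1`),
by specialisation to a finite field and lifting to its Witt vectors. -/

set_option autoImplicit false
open Polynomial

namespace Crest.Agent.R183

namespace Data
variable {W : Type} [CommRing W] {sh : Shape} (D : Data W sh)

/-- relation ideal modulo an ideal `𝔎` of constants -/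
noncomputable def rK (𝔎 : Ideal W) (N : ℕ) : Ideal (Pz W sh.n)[X] :=
  Ideal.span {D.f} ⊔ (XI W sh.n).map C ^ N ⊔ (𝔎.map MvPolynomial.C).map C

noncomputable def jK (𝔎 : Ideal W) (N : ℕ) : Ideal (Pz W sh.n)[X] :=
  Ideal.span (Set.range D.jg) ⊔ D.rK 𝔎 N

/-- validity modulo `𝔎` (no `h`) -/
structure ValidK (𝔎 : Ideal W) (N L0 L2 : ℕ) : Prop where
  mon : D.f.Monic
  deg : D.f.natDegree = sh.e
  hfc : ∀ r, r < sh.e → D.f.coeff r ∈ XI W sh.n ⊔ 𝔎.map MvPolynomial.C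
  hg : D.g - MvPolynomial.X 0 ^ sh.o ∈
    Ideal.span (Set.range fun i : Fin sh.n => (MvPolynomial.X i.succ : Pz W sh.n))
  int : ∀ τ, ∃ b : Fin sh.δ → (Pz W sh.n)[X],
    (∀ j : Fin sh.δ, b j ∈ (XI W sh.n).map C ^ (((j : ℕ) + 1) * sh.wt τ)) ∧
    D.num τ ^ sh.δ + ∑ j : Fin sh.δ, C D.g ^ ((j : ℕ) + 1) * b j *
      D.num τ ^ (sh.δ - ((j : ℕ) + 1)) ∈ D.rK 𝔎 N
  eq : ∀ ε, sh.eqs (C D.g) D.num (fun i => C (MvPolynomial.X i)) D.jg ε ∈ D.rK 𝔎 N
  jX : (XI W sh.n).map C ^ sh.N₁ ≤ D.jK 𝔎 N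
  l0 : LenLe (mm sh.n (0 : W)) (D.jK 𝔎 N) L0
  l2 : LenLe (mm sh.n (0 : W)) (D.jK 𝔎 N ⊔ Ideal.span {derivative D.f}) L2

end Data

section
variable {P W : Type} [CommRing P] [CommRing W] {sh : Shape}

/-- `π̂ = mapRingHom (MvPolynomial.map π)` is onto with kernel `((ker π).map C).map C`
(`Polynomial.ker_mapRingHom`, `MvPolynomial.ker_map`).  Lift `f` by
`lifts_and_natDegree_eq_and_monic`, `g` as `X 0^o + ∑ (lifts) X i.succ`, `b j` inside the power of
`(X)` (`Ideal.mem_map_iff_of_surjective`), everything else arbitrarily;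
`rK (ker π) = comap π̂ (rr 0 f N)`; `LenLe.comap_surj`, `LenLe.mono`; `Shape.eqs_map`. -/
theorem Data.Valid.lift (π : P →+* W) (hπ : Function.Surjective π) {D : Data W sh}
    {N L0 L1 L2 : ℕ} (V : D.Valid 0 N L0 L1 L2) (h0 : D.h = 0) :
    ∃ D' : Data P sh, D'.ValidK (RingHom.ker π) N L0 L2 := by
  have hs := MvPolynomial.map_surjective (σ := Fin (sh.n + 1)) π hπ
  have hS := cfa_surj sh.n hπ
  obtain ⟨f, hf, hfd, hfm⟩ := lifts_and_natDegree_eq_and_monic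
    (mem_lifts_of_surjective hs D.f) V.mon
  have hg := V.hg
  rw [← cfa_map_succ sh.n π, Ideal.mem_map_iff_of_surjective _ hs] at hg
  obtain ⟨g₁, hg₁, hg₂⟩ := hg
  choose num hnum using fun τ => hS (D.num τ)
  choose jg hjg using fun r => hS (D.jg r)
  obtain ⟨D', hD'⟩ : ∃ D' : Data P sh, D' = ⟨0, MvPolynomial.X 0 ^ sh.o + g₁, f, num, jg, 0⟩ :=
    ⟨_, rfl⟩
  have ef : cfaH sh.n π D'.f = D.f := by rw [hD']; exact hf
  have eg : MvPolynomial.map π D'.g = D.g := by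
    rw [hD']
    simp only [map_add, map_pow, MvPolynomial.map_X, hg₂]
    ring
  have en : ∀ τ, cfaH sh.n π (D'.num τ) = D.num τ := by rw [hD']; exact hnum
  have ej : ∀ r, cfaH sh.n π (D'.jg r) = D.jg r := by rw [hD']; exact hjg
  have hk : RingHom.ker (cfaH sh.n π) ≤ D'.rK (RingHom.ker π) N := by
    rw [cfa_ker]
    exact le_sup_right
  have mr : (D'.rK (RingHom.ker π) N).map (cfaH sh.n π) = rr D.h D.f N := by
    rw [Data.rK, ← cfa_ker, Ideal.map_sup, Ideal.map_sup, Ideal.map_pow, cfa_map_XIC,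
      Ideal.map_span, Set.image_singleton, ef, (Ideal.map_eq_bot_iff_le_ker _).2 le_rfl, rr, h0,
      map_zero, Ideal.span_insert_zero, sup_bot_eq]
  have mj : (D'.jK (RingHom.ker π) N).map (cfaH sh.n π) = D.jj N := by
    rw [Data.jK, Ideal.map_sup, mr, Ideal.map_span, ← Set.range_comp, Data.jj]
    congr 3
    exact funext ej
  have cr := cfa_comap hS mr hk
  have cj := cfa_comap hS mj (hk.trans le_sup_right)
  have hm : mm sh.n (0 : P) ≤ (mm sh.n (0 : W)).comap (cfaH sh.n π) := by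
    rw [← Ideal.map_le_iff_le_comap, cfa_map_mm, map_zero]
  refine ⟨D', by rw [hD']; exact hfm, by rw [hD', ← V.deg]; exact hfd, fun r hr => ?_, ?_,
    fun τ => ?_, fun ε => ?_, ?_, ?_, ?_⟩
  · have h1 := V.hfc r hr
    rw [map_zero, Ideal.span_singleton_zero, sup_bot_eq, ← ef, cfaH_apply, coeff_map,
      ← cfa_map_XI sh.n π, ← Ideal.mem_comap, Ideal.comap_map_of_surjective _ hs,
      ← RingHom.ker_eq_comap_bot, MvPolynomial.ker_map] at h1
    exact h1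
  · rw [hD']
    simpa using hg₁
  · obtain ⟨b, hb1, hb2⟩ := V.int τ
    simp only [← cfa_map_XIC sh.n π, ← Ideal.map_pow, Ideal.mem_map_iff_of_surjective _ hS] at hb1
    choose b' hb' hb'' using hb1
    refine ⟨b', fun j => by rw [← Ideal.map_pow]; exact hb' j, ?_⟩
    rw [← cr, Ideal.mem_comap]
    simpa only [map_add, map_pow, map_sum, map_mul, cfaH_C, en, eg, hb''] using hb2
  · rw [← cr, Ideal.mem_comap, Shape.eqs_map, cfaH_C, eg]
    have h1 := V.eq ε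
    have e1 : cfaH sh.n π ∘ D'.num = D.num := funext en
    have e2 : cfaH sh.n π ∘ D'.jg = D.jg := funext ej
    have e3 : (cfaH sh.n π ∘ fun i => C (MvPolynomial.X i)) = fun i => C (MvPolynomial.X i) :=
      funext fun i => by simp only [Function.comp_apply, cfaH_C, MvPolynomial.map_X]
    rw [e1, e2, e3]
    exact h1
  · rw [← cj, ← Ideal.map_le_iff_le_comap, Ideal.map_pow, cfa_map_XIC]
    exact V.jX
  · exact (V.l0.comap_surj _ hS).mono hm cj.le
  · refine (V.l2.comap_surj _ hS).mono hm (cfa_comap hS ?_ ?_).le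
    · rw [Ideal.map_sup, mj, Ideal.map_span, Set.image_singleton, cfa_derivative, ef]
    · exact (hk.trans le_sup_right).trans le_sup_left

/-- `x ∈ I ⊔ 𝔎.map φ → ∀ᶠ s in atTop, x ∈ I ⊔ (span s).map φ` (finsets of the subtype `𝔎`). -/
theorem ev_mem_sup_map {A : Type} [CommRing A] (φ : P →+* A) (𝔎 : Ideal P) (I : Ideal A) {x : A}
    (hx : x ∈ I ⊔ 𝔎.map φ) : ∀ᶠ s : Finset 𝔎 in Filter.atTop,
      x ∈ I ⊔ (Ideal.span ((fun y : 𝔎 => (y : P)) '' s)).map φ := by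
  let T : Ideal A :=
    { carrier := {x | ∀ᶠ s : Finset 𝔎 in Filter.atTop,
        x ∈ I ⊔ (Ideal.span ((fun y : 𝔎 => (y : P)) '' s)).map φ}
      add_mem' := fun ha hb => (ha.and hb).mono fun _ h => Ideal.add_mem _ h.1 h.2
      zero_mem' := Filter.Eventually.of_forall fun _ => Ideal.zero_mem _
      smul_mem' := fun c _ hb => hb.mono fun _ h => Submodule.smul_mem _ c h }
  have h : I ⊔ 𝔎.map φ ≤ T := by
    refine sup_le (fun y hy => Filter.Eventually.of_forall fun _ => Ideal.mem_sup_left hy) ?_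
    refine Ideal.map_le_iff_le_comap.2 fun y hy => ?_
    refine (Filter.eventually_ge_atTop ({⟨y, hy⟩} : Finset 𝔎)).mono fun s hs => ?_
    refine Ideal.mem_sup_right (Ideal.mem_map_of_mem _ (Ideal.subset_span ⟨⟨y, hy⟩, ?_, rfl⟩))
    exact hs (Finset.mem_singleton_self _)
  exact h hx

theorem ev_le_sup_map {A : Type} [CommRing A] (φ : P →+* A) (𝔎 : Ideal P) (I : Ideal A)
    {J : Ideal A} (hJ : J.FG) (hx : J ≤ I ⊔ 𝔎.map φ) : ∀ᶠ s : Finset 𝔎 in Filter.atTop,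
      J ≤ I ⊔ (Ideal.span ((fun y : 𝔎 => (y : P)) '' s)).map φ := by
  obtain ⟨t, rfl⟩ := hJ
  have h := (Filter.eventually_all_finset t).2 fun x hxt =>
    ev_mem_sup_map φ 𝔎 I (hx (Ideal.subset_span (Finset.mem_coe.2 hxt)))
  exact h.mono fun s hs => Ideal.span_le.2 fun x hxt => hs x hxt

/-- same `θ`; apply `ev_le_sup_map` to `𝔪 * span {θ r}` and to `⊤`. -/
theorem ev_lenLe {A : Type} [CommRing A] (φ : P →+* A) (𝔎 : Ideal P) (I : Ideal A)
    {𝔪 : Ideal A} (h𝔪 : 𝔪.FG) {L : ℕ} (h : LenLe 𝔪 (I ⊔ 𝔎.map φ) L) :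
    ∀ᶠ s : Finset 𝔎 in Filter.atTop,
      LenLe 𝔪 (I ⊔ (Ideal.span ((fun y : 𝔎 => (y : P)) '' s)).map φ) L := by
  obtain ⟨θ, h1, h2⟩ := h
  have e1 : ∀ r, ∀ᶠ s : Finset 𝔎 in Filter.atTop, 𝔪 * Ideal.span {θ r} ≤
      (I ⊔ Ideal.span (θ '' {s | s < r})) ⊔
        (Ideal.span ((fun y : 𝔎 => (y : P)) '' s)).map φ := by
    intro r
    refine ev_le_sup_map φ 𝔎 _ (h𝔪.mul (Submodule.fg_span_singleton _)) ?_
    rw [sup_right_comm, Ideal.mul_le]
    intro x hx y hy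
    obtain ⟨c, rfl⟩ := Ideal.mem_span_singleton'.1 hy
    rw [mul_left_comm]
    exact Ideal.mul_mem_left _ _ (h1 r x hx)
  have e2 : ∀ᶠ s : Finset 𝔎 in Filter.atTop, Ideal.span {(1 : A)} ≤
      (I ⊔ Ideal.span (Set.range θ)) ⊔ (Ideal.span ((fun y : 𝔎 => (y : P)) '' s)).map φ := by
    refine ev_le_sup_map φ 𝔎 _ (Submodule.fg_span_singleton _) ?_
    rw [sup_right_comm, h2]
    exact le_top
  filter_upwards [Filter.eventually_all.2 e1, e2] with s hs1 hs2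
  refine ⟨θ, fun r x hx => ?_, ?_⟩
  · rw [sup_right_comm]
    exact hs1 r (Ideal.mul_mem_mul hx (Ideal.mem_span_singleton_self _))
  · rw [sup_right_comm, eq_top_iff, ← Ideal.span_singleton_one]
    exact hs2

/-- finitely many conditions (`Filter.eventually_all`, `Ideal.map_map`), then `Eventually.exists`. -/
theorem Data.ValidK.shrink {D : Data P sh} {𝔎 : Ideal P} {N L0 L2 : ℕ} (V : D.ValidK 𝔎 N L0 L2) :
    ∃ s : Finset P, (∀ x ∈ s, x ∈ 𝔎) ∧ D.ValidK (Ideal.span s) N L0 L2 := by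
  classical
  set ψ : P →+* (Pz P sh.n)[X] := (C : Pz P sh.n →+* _).comp MvPolynomial.C with hψ
  set I0 : Ideal (Pz P sh.n)[X] := Ideal.span {D.f} ⊔ (XI P sh.n).map C ^ N with hI0
  have hr : ∀ K : Ideal P, D.rK K N = I0 ⊔ K.map ψ := fun K => by
    rw [Data.rK, Ideal.map_map]
  have hj : ∀ K : Ideal P, D.jK K N = (Ideal.span (Set.range D.jg) ⊔ I0) ⊔ K.map ψ := fun K => by
    rw [Data.jK, hr, ← sup_assoc]
  have hj2 : ∀ K : Ideal P, D.jK K N ⊔ Ideal.span {derivative D.f} =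
      (Ideal.span (Set.range D.jg) ⊔ I0 ⊔ Ideal.span {derivative D.f}) ⊔ K.map ψ := fun K => by
    rw [hj, sup_right_comm]
  have fX : (XI P sh.n).FG := Submodule.fg_span (Set.finite_range _)
  have fX' : ((XI P sh.n).map (C : Pz P sh.n →+* (Pz P sh.n)[X])).FG := fX.map _
  have fm : (mm sh.n (0 : P)).FG :=
    Submodule.FG.sup (Submodule.FG.sup (Submodule.fg_span_singleton _) fX')
      (Submodule.fg_span_singleton _)
  choose b hb1 hb2 using V.int
  have e1 := (Filter.eventually_all_finset (Finset.range sh.e)).2 fun r hr' =>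
    ev_mem_sup_map MvPolynomial.C 𝔎 _ (V.hfc r (Finset.mem_range.1 hr'))
  have e2 := Filter.eventually_all.2 fun τ => ev_mem_sup_map ψ 𝔎 I0 (hr 𝔎 ▸ hb2 τ)
  have e3 := Filter.eventually_all.2 fun ε => ev_mem_sup_map ψ 𝔎 I0 (hr 𝔎 ▸ V.eq ε)
  have e4 := ev_le_sup_map ψ 𝔎 _ (fX'.pow (n := sh.N₁)) (hj 𝔎 ▸ V.jX)
  have e5 := ev_lenLe ψ 𝔎 _ fm (hj 𝔎 ▸ V.l0)
  have e6 := ev_lenLe ψ 𝔎 _ fm (hj2 𝔎 ▸ V.l2)
  obtain ⟨s, h1, h2, h3, h4, h5, h6⟩ := (e1.and (e2.and (e3.and (e4.and (e5.and e6))))).exists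
  refine ⟨s.image fun y : 𝔎 => (y : P), fun x hx => ?_, ?_⟩
  · obtain ⟨y, -, rfl⟩ := Finset.mem_image.1 hx
    exact y.2
  rw [Finset.coe_image]
  refine ⟨V.mon, V.deg, fun r hr' => h1 r (Finset.mem_range.2 hr'), V.hg,
    fun τ => ⟨b τ, hb1 τ, ?_⟩, fun ε => ?_, ?_, ?_, ?_⟩
  · rw [hr]; exact h2 τ
  · rw [hr]; exact h3 ε
  · rw [hj]; exact h4
  · rw [hj]; exact h5
  · rw [hj2]; exact h6

/-- map all data by `Φ`, take `h = C pp`, `Dr = 0`; `LenLe.map`, then enlarge `mm n 0` to `mm n pp`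
since `C (C pp) ∈ jj`. -/
theorem Data.ValidK.push (Φ : P →+* W) [Nontrivial W] (pp : W) {D : Data P sh} {𝔎 : Ideal P}
    {N L0 L2 : ℕ} (V : D.ValidK 𝔎 N L0 L2) (h𝔎 : ∀ x ∈ 𝔎, Φ x ∈ Ideal.span {pp}) (ha : sh.a = 1) :
    ∃ D' : Data W sh, D'.Valid pp N L0 L0 L2 := by
  obtain ⟨D', hD'⟩ : ∃ D' : Data W sh, D' = ⟨MvPolynomial.C pp, MvPolynomial.map Φ D.g,
      cfaH sh.n Φ D.f, cfaH sh.n Φ ∘ D.num, cfaH sh.n Φ ∘ D.jg, 0⟩ := ⟨_, rfl⟩
  have eh : D'.h = MvPolynomial.C pp := by rw [hD']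
  have eg : D'.g = MvPolynomial.map Φ D.g := by rw [hD']
  have ef : D'.f = cfaH sh.n Φ D.f := by rw [hD']
  have en : D'.num = cfaH sh.n Φ ∘ D.num := by rw [hD']
  have ej : D'.jg = cfaH sh.n Φ ∘ D.jg := by rw [hD']
  have hK : (𝔎.map (MvPolynomial.C : P →+* Pz P sh.n)).map (MvPolynomial.map Φ) ≤
      Ideal.span {MvPolynomial.C pp} := by
    rw [cfa_map_CC, ← Set.image_singleton, ← Ideal.map_span]
    exact Ideal.map_mono (Ideal.map_le_iff_le_comap.2 h𝔎)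
  have hp : Ideal.span {C (MvPolynomial.C pp)} ≤ rr D'.h D'.f N := by
    rw [rr, eh]
    exact le_sup_of_le_left (Ideal.span_mono (by simp))
  have mr : (D.rK 𝔎 N).map (cfaH sh.n Φ) ≤ rr D'.h D'.f N := by
    rw [Data.rK, Ideal.map_sup, Ideal.map_sup, Ideal.map_pow, cfa_map_XIC, cfa_map_C,
      Ideal.map_span, Set.image_singleton, ← ef]
    refine sup_le (sup_le (le_sup_of_le_left (Ideal.span_mono (by simp))) le_sup_right)
      ((Ideal.map_mono hK).trans ?_)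
    rw [Ideal.map_span, Set.image_singleton]
    exact hp
  have mj : (D.jK 𝔎 N).map (cfaH sh.n Φ) ≤ D'.jj N := by
    rw [Data.jK, Ideal.map_sup, Ideal.map_span, ← Set.range_comp, Data.jj, ej]
    exact sup_le_sup_left mr _
  have key : ∀ (I : Ideal (Pz P sh.n)[X]) (J : Ideal (Pz W sh.n)[X]) (L : ℕ),
      LenLe (mm sh.n (0 : P)) I L → I.map (cfaH sh.n Φ) ≤ J → D'.jj N ≤ J →
      LenLe (mm sh.n pp) J L := by
    intro I J L h1 h2 h3
    refine ((h1.map (cfaH sh.n Φ)).mono le_rfl h2).cfa_sup.mono ?_ le_rfl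
    rw [cfa_map_mm, mm, mm]
    exact sup_le (sup_le (le_sup_of_le_right (hp.trans (le_sup_right.trans h3)))
      (le_sup_of_le_left (le_sup_of_le_left le_sup_right))) (le_sup_of_le_left le_sup_right)
  refine ⟨D', ?_, ?_, ?_, fun r hr => ?_, ?_, fun τ => ?_, fun ε => ?_, ?_, ?_, ?_, ?_⟩
  · rw [eh, ha, pow_one, sub_self]
    exact zero_mem _
  · rw [ef]
    exact V.mon.map _
  · rw [ef, cfaH_apply, V.mon.natDegree_map, V.deg]
  · have h1 := Ideal.mem_map_of_mem (MvPolynomial.map Φ) (V.hfc r hr)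
    rw [Ideal.map_sup, cfa_map_XI] at h1
    rw [ef, cfaH_apply, coeff_map]
    exact sup_le_sup_left hK _ h1
  · have h1 := Ideal.mem_map_of_mem (MvPolynomial.map Φ) V.hg
    rw [cfa_map_succ, map_sub, map_pow, MvPolynomial.map_X] at h1
    rw [eg]
    exact h1
  · obtain ⟨b, hb1, hb2⟩ := V.int τ
    refine ⟨fun j => cfaH sh.n Φ (b j), fun j => ?_, ?_⟩
    · rw [← cfa_map_XIC sh.n Φ, ← Ideal.map_pow]
      exact Ideal.mem_map_of_mem _ (hb1 j)
    · have h1 := mr (Ideal.mem_map_of_mem _ hb2)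
      simp only [map_add, map_pow, map_sum, map_mul, cfaH_C] at h1
      rw [en, eg]
      exact h1
  · have h1 := mr (Ideal.mem_map_of_mem _ (V.eq ε))
    have e3 : (cfaH sh.n Φ ∘ fun i => C (MvPolynomial.X i)) = fun i => C (MvPolynomial.X i) :=
      funext fun i => by simp only [Function.comp_apply, cfaH_C, MvPolynomial.map_X]
    rw [Shape.eqs_map, cfaH_C, e3, ← eg, ← en, ← ej] at h1
    exact h1
  · refine le_trans ?_ ((Ideal.map_mono V.jX).trans mj)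
    rw [Ideal.map_pow, cfa_map_XIC]
  · exact key _ _ _ V.l0 mj le_rfl
  · exact key _ _ _ V.l0 (mj.trans le_sup_left) le_sup_left
  · refine key _ _ _ V.l2 ?_ le_sup_left
    rw [Ideal.map_sup, Ideal.map_span, Set.image_singleton, cfa_derivative, ← ef]
    exact sup_le_sup_right mj _

end

/-- a field that is a finitely generated `ℤ`-algebra is finite.  If `ℤ → K` were injective,
`finite_of_finite_type_of_isJacobsonRing` (or `Int` Jacobson + `isField_of_isIntegral_of_isField`)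
makes `K` integral over `ℤ`, so `ℤ` would be a field; so `K` has char `p`, is finite type hence
finite over `ZMod p`. -/
theorem finite_of_finiteType_int (K : Type) [Field K] [Algebra.FiniteType ℤ K] : Finite K :=
  finite_of_finiteType_int_auxc K

/-- `s` involves finitely many variables (`MvPolynomial.exists_finset_rename`-type lemmas, or `vars`):
`s = rename val '' s₀`, `s₀ ⊆ P₀ = MvPolynomial t ℤ`; `span s₀ ≠ ⊤`; `𝔪 ⊇ s₀` maximal, `l₀ = P₀/𝔪`
finite, `p = ringChar l₀`; `Φ₀ = eval₂Hom (Int.castRingHom _) (teichmuller ∘ mk ∘ X)`,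
`Φ = Φ₀ ∘ killCompl`; `constantCoeff ∘ Φ₀ = mk`; `WittVector.mem_span_p_iff_coeff_zero_eq_zero`. -/
theorem exists_witt_point (l : Type) [CommRing l] [Nontrivial l] (s : Finset (MvPolynomial l ℤ))
    (hs : ∀ x ∈ s, MvPolynomial.eval₂Hom (Int.castRingHom l) id x = 0) :
    ∃ (p : ℕ) (_ : Fact p.Prime) (l₀ : Type) (_ : Field l₀) (_ : CharP l₀ p) (_ : PerfectRing l₀ p)
      (Φ : MvPolynomial l ℤ →+* WittVector p l₀),
      ∀ x ∈ s, Φ x ∈ Ideal.span {(p : WittVector p l₀)} :=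
  exists_witt_point_auxc l s hs

theorem coreF (sh : Shape) (ha : sh.a = 1) : ∃ N, ∀ (l : Type) [CommRing l] [Nontrivial l],
    CoreAt sh N l 0 True := by
  obtain ⟨N, hN⟩ := coreW sh
  refine ⟨N, fun l _ _ D L0 L1 L2 V h0 => ?_⟩
  have hπ : Function.Surjective (MvPolynomial.eval₂Hom (Int.castRingHom l) (id : l → l)) :=
    fun x => ⟨MvPolynomial.X x, by simp⟩
  obtain ⟨D', V'⟩ := V.lift _ hπ (h0 trivial)
  obtain ⟨s, hs, V''⟩ := V'.shrink
  obtain ⟨p, _, l₀, _, _, _, Φ, hΦ⟩ := exists_witt_point l s hs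
  obtain ⟨D₃, V₃⟩ := V''.push Φ (p : WittVector p l₀)
    (fun x hx => (Ideal.span_le.2 (fun y hy => Ideal.mem_comap.2 (hΦ y hy)) :
      Ideal.span (s : Set _) ≤ Ideal.comap Φ _) hx) ha
  have := hN p l₀ D₃ L0 L0 L2 V₃ False.elim
  simpa [ha] using this

end Crest.Agent.R183
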