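import Crest.Agent.R183.Tower
import Crest.Agent.R183.FC

/-! # R183 / Cube : total complex of `P ⊗ (cube of identities)` with values in a module `O`, and
chains given by a family of submodules of `O`.  A vertex `I : V n`; `I k = true` means `k ∈ I`. -/

set_option autoImplicit false

namespace Crest.Agent.R183

abbrev V (n : ℕ) := Fin n → Bool

section
variable {B : Type} [CommRing B] (P : FC B) (n : ℕ) (O : Type) [AddCommGroup O] [Module B O]

def tdeg (c : P.ι × V n) : ℤ :=
  (P.deg c.1 : ℤ) + ((Finset.univ.filter (fun k => c.2 k = false)).card : ℤ)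

def sgnV {n : ℕ} (B : Type) [CommRing B] (I : V n) : B := ∏ k, if I k = true then -1 else 1

def epsV {n : ℕ} (B : Type) [CommRing B] (I : V n) (k : Fin n) : B :=
  ∏ j, if j < k ∧ I j = true then -1 else 1

def Dc : (P.ι × V n → O) →ₗ[B] (P.ι × V n → O) where
  toFun x := fun c => sgnV B c.2 • ∑ b, P.d c.1 b • x (b, c.2) +
    ∑ k, if c.2 k = true then epsV B c.2 k • x (c.1, Function.update c.2 k false) else 0
  map_add' x y := by
    funext c
    simp only [Pi.add_apply, smul_add, Finset.sum_add_distrib]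
    have : ∀ k, (if c.2 k = true then epsV B c.2 k • x (c.1, Function.update c.2 k false) +
        epsV B c.2 k • y (c.1, Function.update c.2 k false) else 0) =
        (if c.2 k = true then epsV B c.2 k • x (c.1, Function.update c.2 k false) else 0) +
        (if c.2 k = true then epsV B c.2 k • y (c.1, Function.update c.2 k false) else 0) := by
      intro k; split_ifs <;> simp
    simp only [this, Finset.sum_add_distrib]
    abel
  map_smul' r x := by
    funext c
    simp only [Pi.smul_apply, RingHom.id_apply, smul_add, Finset.smul_sum]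
    congr 1
    · refine Finset.sum_congr rfl fun b _ => ?_
      rw [smul_comm (P.d c.1 b) r, smul_comm (sgnV B c.2) r]
    · refine Finset.sum_congr rfl fun k _ => ?_
      split_ifs
      · rw [smul_comm]
      · simp

theorem Dc_apply (x : P.ι × V n → O) (c : P.ι × V n) :
    Dc P n O x c = sgnV B c.2 • ∑ b, P.d c.1 b • x (b, c.2) +
      ∑ k, if c.2 k = true then epsV B c.2 k • x (c.1, Function.update c.2 k false) else 0 := rfl

theorem cubeA_sgn_sq {n : ℕ} (B : Type) [CommRing B] (I : V n) : sgnV B I * sgnV B I = 1 := by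
  unfold sgnV
  rw [← Finset.prod_mul_distrib]
  refine Finset.prod_eq_one fun k _ => ?_
  split_ifs <;> simp

theorem cubeA_prod_neg {n : ℕ} {B : Type} [CommRing B] (f g : Fin n → B) (k : Fin n)
    (hk : f k = -g k) (h : ∀ j, j ≠ k → f j = g j) : ∏ j, f j = -∏ j, g j := by
  rw [← Finset.mul_prod_erase _ f (Finset.mem_univ k), ← Finset.mul_prod_erase _ g (Finset.mem_univ k),
    hk, neg_mul]
  congr 2
  exact Finset.prod_congr rfl fun j hj => h j (Finset.ne_of_mem_erase hj)

theorem cubeA_sgn_update {n : ℕ} (B : Type) [CommRing B] {I : V n} {k : Fin n} (hk : I k = true) :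
    sgnV B (Function.update I k false) = -sgnV B I := by
  unfold sgnV
  refine cubeA_prod_neg _ _ k (by simp [hk]) fun j hj => ?_
  rw [Function.update_of_ne hj]

theorem cubeA_eps_update_lt {n : ℕ} (B : Type) [CommRing B] {I : V n} {k j : Fin n}
    (hk : I k = true) (hkj : k < j) : epsV B (Function.update I k false) j = -epsV B I j := by
  unfold epsV
  refine cubeA_prod_neg _ _ k (by simp [hk, hkj]) fun i hi => ?_
  rw [Function.update_of_ne hi]

theorem cubeA_eps_update_ge {n : ℕ} (B : Type) [CommRing B] (I : V n) {k j : Fin n} (b : Bool)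
    (hkj : ¬ k < j) : epsV B (Function.update I k b) j = epsV B I j := by
  unfold epsV
  refine Finset.prod_congr rfl fun i _ => ?_
  by_cases hi : i = k
  · subst hi
    simp [hkj]
  · rw [Function.update_of_ne hi]

theorem cubeA_tdeg_update (a : P.ι) {I : V n} {k : Fin n} (hk : I k = true) :
    tdeg P n (a, Function.update I k false) = tdeg P n (a, I) + 1 := by
  unfold tdeg
  have e : Finset.univ.filter (fun j => Function.update I k false j = false) =
      insert k (Finset.univ.filter (fun j => I j = false)) := by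
    ext j
    by_cases hj : j = k
    · subst hj
      simp
    · simp [hj]
  have hn : k ∉ Finset.univ.filter (fun j => I j = false) := by simp [hk]
  dsimp only
  rw [e, Finset.card_insert_of_notMem hn]
  push_cast
  ring

theorem cubeA_tdeg_d {a b : P.ι} (I : V n) (h : P.d a b ≠ 0) :
    tdeg P n (b, I) = tdeg P n (a, I) + 1 := by
  unfold tdeg
  dsimp only
  rw [P.hd a b h]
  push_cast
  ring

theorem cubeA_tdeg_dd {a b : P.ι} (I : V n) (h : (P.d * P.d) a b ≠ 0) :
    tdeg P n (b, I) = tdeg P n (a, I) + 2 := by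
  rw [Matrix.mul_apply] at h
  obtain ⟨c, -, hc⟩ := Finset.exists_ne_zero_of_sum_ne_zero h
  rw [cubeA_tdeg_d P n I (right_ne_zero_of_mul hc), cubeA_tdeg_d P n I (left_ne_zero_of_mul hc)]
  ring

theorem cubeA_cech (y : V n → O) (I : V n) :
    (∑ k, if I k = true then epsV B I k • ∑ j, (if Function.update I k false j = true then
      epsV B (Function.update I k false) j •
        y (Function.update (Function.update I k false) j false) else 0) else 0) = 0 := by
  have e : ∀ k, (if I k = true then epsV B I k • ∑ j, (if Function.update I k false j = true then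
      epsV B (Function.update I k false) j •
        y (Function.update (Function.update I k false) j false) else 0) else 0) =
      ∑ j, (if I k = true ∧ I j = true ∧ j ≠ k then
        (epsV B I k * epsV B (Function.update I k false) j) •
          y (Function.update (Function.update I k false) j false) else 0) := by
    intro k
    by_cases hk : I k = true
    · rw [if_pos hk, Finset.smul_sum]
      refine Finset.sum_congr rfl fun j _ => ?_
      by_cases hj : j = k
      · subst hj
        simp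
      · rw [Function.update_of_ne hj]
        by_cases hI : I j = true
        · rw [if_pos hI, if_pos ⟨hk, hI, hj⟩, smul_smul]
        · rw [if_neg hI, if_neg (fun h => hI h.2.1), smul_zero]
    · rw [if_neg hk]
      refine (Finset.sum_eq_zero fun j _ => ?_).symm
      rw [if_neg (fun h => hk h.1)]
  simp only [e]
  rw [← Finset.sum_product']
  refine Finset.sum_involution (fun p _ => p.swap) ?_ ?_ (fun p _ => by simp) (fun p _ => rfl)
  · rintro ⟨k, j⟩ -
    simp only [Prod.swap]
    by_cases h : I k = true ∧ I j = true ∧ j ≠ k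
    · obtain ⟨hk, hj, hne⟩ := h
      rw [if_pos ⟨hk, hj, hne⟩, if_pos ⟨hj, hk, hne.symm⟩, Function.update_comm hne, ← add_smul]
      rcases lt_or_gt_of_ne hne with hlt | hlt
      · rw [cubeA_eps_update_ge B I false (not_lt.2 hlt.le), cubeA_eps_update_lt B hj hlt]
        simp [mul_comm]
      · rw [cubeA_eps_update_lt B hk hlt, cubeA_eps_update_ge B I false (not_lt.2 hlt.le)]
        simp [mul_comm]
    · rw [if_neg h, if_neg (fun h' => h ⟨h'.2.1, h'.1, h'.2.2.symm⟩), add_zero]
  · rintro ⟨k, j⟩ - h hs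
    have : j = k := congrArg Prod.fst hs
    exact h (if_neg fun h' => h'.2.2 this)

/-- cross terms cancel: `sgnV (update I k false) = - sgnV I` for `I k = true`; the Čech part squares
to zero: for `j < k` in `I`, `epsV (I-k) j = epsV I j` and `epsV (I-j) k = - epsV I k`
(`Finset.sum_involution` or split the double sum in `j<k`, `k<j`). -/
theorem Dc_Dc (x : P.ι × V n → O) (c : P.ι × V n) :
    Dc P n O (Dc P n O x) c = ∑ b, (P.d * P.d) c.1 b • x (b, c.2) := by
  obtain ⟨a, I⟩ := c
  rw [Dc_apply]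
  simp only [Dc_apply]
  have h1 : sgnV B I • ∑ b, P.d a b • sgnV B I • ∑ b', P.d b b' • x (b', I) =
      ∑ b, (P.d * P.d) a b • x (b, I) := by
    simp only [Finset.smul_sum, smul_smul, Matrix.mul_apply, Finset.sum_smul]
    rw [Finset.sum_comm]
    refine Finset.sum_congr rfl fun b' _ => Finset.sum_congr rfl fun b _ => ?_
    congr 1
    linear_combination (P.d a b * P.d b b') * cubeA_sgn_sq B I
  have h2 : sgnV B I • ∑ b, P.d a b • ∑ k, (if I k = true then
      epsV B I k • x (b, Function.update I k false) else 0) +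
      ∑ k, (if I k = true then epsV B I k • sgnV B (Function.update I k false) •
        ∑ b, P.d a b • x (b, Function.update I k false) else 0) = 0 := by
    simp only [Finset.smul_sum]
    rw [Finset.sum_comm, ← Finset.sum_add_distrib]
    refine Finset.sum_eq_zero fun k _ => ?_
    by_cases hk : I k = true
    · simp only [if_pos hk, cubeA_sgn_update B hk, smul_smul]
      rw [← Finset.sum_add_distrib]
      refine Finset.sum_eq_zero fun b _ => ?_
      rw [← add_smul]
      have : sgnV B I * (P.d a b * epsV B I k) + epsV B I k * (-sgnV B I * P.d a b) = 0 := by ring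
      rw [this, zero_smul]
    · simp [if_neg hk]
  have h3 := cubeA_cech (B := B) n O (fun J => x (a, J)) I
  have h4 : ∀ (k : Fin n) (u v : O), (if I k = true then u + v else 0) =
      (if I k = true then u else 0) + (if I k = true then v else 0) := by
    intro k u v
    split_ifs <;> simp
  simp only [h4, smul_add, Finset.sum_add_distrib]
  rw [h1, h3, add_zero, add_assoc, h2, add_zero]

variable {O}

def PC (A : P.ι × V n → Submodule B O) : Ch B (P.ι × V n → O) :=
  fun k => Submodule.pi Set.univ (fun c => if tdeg P n c = k then A c else ⊥)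

theorem mem_PC {A : P.ι × V n → Submodule B O} {k : ℤ} {x : P.ι × V n → O} :
    x ∈ PC P n A k ↔ ∀ c, (tdeg P n c = k → x c ∈ A c) ∧ (tdeg P n c ≠ k → x c = 0) := by
  simp only [PC, Submodule.mem_pi, Set.mem_univ, true_imp_iff]
  refine forall_congr' fun c => ?_
  by_cases h : tdeg P n c = k
  · simp [h]
  · simp [h]

theorem PC_mono {A A' : P.ι × V n → Submodule B O} (h : A ≤ A') : PC P n A ≤ PC P n A' := by
  intro k x hx
  rw [mem_PC] at hx ⊢
  exact fun c => ⟨fun hc => h c ((hx c).1 hc), (hx c).2⟩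

theorem PC_sup (A A' : P.ι × V n → Submodule B O) :
    PC P n (A ⊔ A') = PC P n A ⊔ PC P n A' := by
  refine le_antisymm ?_ (sup_le (PC_mono P n le_sup_left) (PC_mono P n le_sup_right))
  intro k x hx
  rw [mem_PC] at hx
  have key : ∀ c, ∃ y z : O, ((tdeg P n c = k → y ∈ A c) ∧ (tdeg P n c ≠ k → y = 0)) ∧
      ((tdeg P n c = k → z ∈ A' c) ∧ (tdeg P n c ≠ k → z = 0)) ∧ y + z = x c := by
    intro c
    by_cases hc : tdeg P n c = k
    · obtain ⟨y, hy, z, hz, e⟩ := Submodule.mem_sup.1 ((hx c).1 hc)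
      exact ⟨y, z, ⟨fun _ => hy, fun h => absurd hc h⟩, ⟨fun _ => hz, fun h => absurd hc h⟩, e⟩
    · exact ⟨0, 0, ⟨fun h => absurd h hc, fun _ => rfl⟩, ⟨fun h => absurd h hc, fun _ => rfl⟩,
        by rw [(hx c).2 hc, add_zero]⟩
  choose y z hy hz e using key
  exact Submodule.mem_sup.2 ⟨y, (mem_PC P n).2 hy, z, (mem_PC P n).2 hz, funext e⟩

theorem PC_inf (A A' : P.ι × V n → Submodule B O) :
    PC P n (A ⊓ A') = PC P n A ⊓ PC P n A' := by
  refine le_antisymm (le_inf (PC_mono P n inf_le_left) (PC_mono P n inf_le_right)) ?_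
  intro k x hx
  obtain ⟨h1, h2⟩ := Submodule.mem_inf.1 hx
  rw [mem_PC] at h1 h2 ⊢
  exact fun c => ⟨fun hc => Submodule.mem_inf.2 ⟨(h1 c).1 hc, (h2 c).1 hc⟩, (h1 c).2⟩

theorem PC_supp {c : ℕ} (h : P.DegLe c) (A : P.ι × V n → Submodule B O) :
    Supp (PC P n A) 0 ((c : ℤ) + n) := by
  intro k hk
  rw [eq_bot_iff]
  intro x hx
  rw [mem_PC] at hx
  rw [Submodule.mem_bot]
  funext c'
  refine (hx c').2 ?_
  have h1 := h c'.1
  have h2 : (Finset.univ.filter (fun k => c'.2 k = false)).card ≤ n := by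
    simpa using Finset.card_filter_le Finset.univ (fun k => c'.2 k = false)
  unfold tdeg
  omega

theorem PC_st2 {A A' : P.ι × V n → Submodule B O}
    (h1 : ∀ a b I, P.d a b ≠ 0 → ∀ x ∈ A (b, I), P.d a b • x ∈ A' (a, I))
    (h2 : ∀ a I k, I k = true → A (a, Function.update I k false) ≤ A' (a, I)) :
    ∀ k, ∀ x ∈ PC P n A k, Dc P n O x ∈ PC P n A' (k - 1) := by
  intro k x hx
  rw [mem_PC] at hx ⊢
  rintro ⟨a, I⟩
  rw [Dc_apply]
  dsimp only
  refine ⟨fun hc => ?_, fun hc => ?_⟩
  · refine add_mem (Submodule.smul_mem _ _ (sum_mem fun b _ => ?_)) (sum_mem fun j _ => ?_)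
    · by_cases hd : P.d a b = 0
      · rw [hd, zero_smul]
        exact zero_mem _
      · refine h1 a b I hd _ ((hx (b, I)).1 ?_)
        rw [cubeA_tdeg_d P n I hd, hc]
        ring
    · split_ifs with hj
      · refine Submodule.smul_mem _ _ (h2 a I j hj ((hx _).1 ?_))
        rw [cubeA_tdeg_update P n a hj, hc]
        ring
      · exact zero_mem _
  · rw [Finset.sum_eq_zero, Finset.sum_eq_zero, smul_zero, add_zero]
    · intro j _
      split_ifs with hj
      · rw [(hx _).2, smul_zero]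
        rw [cubeA_tdeg_update P n a hj]
        omega
      · rfl
    · intro b _
      by_cases hd : P.d a b = 0
      · rw [hd, zero_smul]
      · rw [(hx _).2, smul_zero]
        rw [cubeA_tdeg_d P n I hd]
        omega

theorem PC_st {A : P.ι × V n → Submodule B O}
    (h1 : ∀ a b I, P.d a b ≠ 0 → ∀ x ∈ A (b, I), P.d a b • x ∈ A (a, I))
    (h2 : ∀ a I k, I k = true → A (a, Function.update I k false) ≤ A (a, I)) :
    St (Dc P n O) (PC P n A) := PC_st2 P n h1 h2

theorem PC_dd {A A' : P.ι × V n → Submodule B O}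
    (h : ∀ a b I, (P.d * P.d) a b ≠ 0 → ∀ x ∈ A (b, I), (P.d * P.d) a b • x ∈ A' (a, I)) :
    ∀ k, ∀ x ∈ PC P n A k, Dc P n O (Dc P n O x) ∈ PC P n A' (k - 2) := by
  intro k x hx
  rw [mem_PC] at hx ⊢
  rintro ⟨a, I⟩
  rw [Dc_Dc]
  dsimp only
  refine ⟨fun hc => sum_mem fun b _ => ?_, fun hc => Finset.sum_eq_zero fun b _ => ?_⟩
  · by_cases hd : (P.d * P.d) a b = 0
    · rw [hd, zero_smul]
      exact zero_mem _
    · refine h a b I hd _ ((hx (b, I)).1 ?_)
      rw [cubeA_tdeg_dd P n I hd, hc]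
      ring
  · by_cases hd : (P.d * P.d) a b = 0
    · rw [hd, zero_smul]
    · rw [(hx _).2, smul_zero]
      rw [cubeA_tdeg_dd P n I hd]
      omega

theorem cubeb_eps_sq (I : V n) (k : Fin n) : epsV B I k * epsV B I k = 1 := by
  unfold epsV
  rw [← Finset.prod_mul_distrib]
  refine Finset.prod_eq_one fun j _ => ?_
  split_ifs <;> simp

theorem cubeb_tdeg (a : P.ι) {J : V n} {k₀ : Fin n} (hJ : J k₀ = false) :
    tdeg P n (a, J) = tdeg P n (a, Function.update J k₀ true) + 1 := by
  have e : Finset.univ.filter (fun k => J k = false) =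
      insert k₀ (Finset.univ.filter (fun k => Function.update J k₀ true k = false)) := by
    ext k
    by_cases hk : k = k₀
    · subst hk
      simp [hJ]
    · simp [hk]
  unfold tdeg
  simp only
  rw [e, Finset.card_insert_of_notMem (by simp)]
  push_cast
  ring

theorem cubeb_D_true {z : P.ι × V n → O} {k₀ : Fin n}
    (hz : ∀ a I, I k₀ = true → z (a, I) = 0) (a : P.ι) {I : V n} (hI : I k₀ = true) :
    Dc P n O z (a, I) = epsV B I k₀ • z (a, Function.update I k₀ false) := by
  rw [Dc_apply]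
  simp only
  rw [Finset.sum_eq_zero (fun b _ => by rw [hz b I hI, smul_zero]), smul_zero, zero_add,
    Finset.sum_eq_single k₀, if_pos hI]
  · intro k _ hk
    rw [hz a _ (by rw [Function.update_of_ne hk.symm, hI]), smul_zero, ite_self]
  · intro h
    exact absurd (Finset.mem_univ _) h

/-- A pair which is a cone of the identity in direction `k₀` is acyclic.  Write
`x (a,I) = y (a,I-k₀) + n'` for `I k₀ = true`, put `ỹ (a,J) = epsV (J+k₀) k₀ • y (a,J)` (zero if
`J k₀ = true`); `x₁ = x - D ỹ - n'` vanishes at vertices containing `k₀`, `D x₁ ∈ PC A'`, and its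
component at `(a, J+k₀)` is `± x₁ (a,J)`. -/
theorem van_dir {A A' : P.ι × V n → Submodule B O} (hp : Pair (Dc P n O) (PC P n A) (PC P n A'))
    (k₀ : Fin n)
    (h1 : ∀ a J, J k₀ = false →
      A (a, Function.update J k₀ true) ≤ A (a, J) ⊔ A' (a, Function.update J k₀ true))
    (h2 : ∀ a J, J k₀ = false → A (a, J) ⊓ A' (a, Function.update J k₀ true) ≤ A' (a, J))
    (k : ℤ) : Van (Dc P n O) (PC P n A) (PC P n A') k := by
  classical
  rintro x ⟨hx, hDx⟩
  have hx' := (mem_PC P n).1 hx
  have hy : ∀ c : P.ι × V n, ∃ y : O, c.2 k₀ = false →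
      (tdeg P n c = k + 1 → y ∈ A c ∧
        x (c.1, Function.update c.2 k₀ true) - y ∈ A' (c.1, Function.update c.2 k₀ true)) ∧
      (tdeg P n c ≠ k + 1 → y = 0) := by
    rintro ⟨a, J⟩
    by_cases hJ : J k₀ = false
    · by_cases hd : tdeg P n (a, J) = k + 1
      · have hd' : tdeg P n (a, Function.update J k₀ true) = k := by
          have := cubeb_tdeg P n a hJ
          omega
        obtain ⟨y, hy, m, hm, e⟩ := Submodule.mem_sup.1 (h1 a J hJ ((hx' _).1 hd'))
        refine ⟨y, fun _ => ⟨fun _ => ⟨hy, ?_⟩, fun h => absurd hd h⟩⟩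
        simp only
        rw [← e, add_sub_cancel_left]
        exact hm
      · exact ⟨0, fun _ => ⟨fun h => absurd h hd, fun _ => rfl⟩⟩
    · exact ⟨0, fun h => absurd h hJ⟩
  choose y hy using hy
  set w : P.ι × V n → O := fun c =>
    if c.2 k₀ = false then epsV B (Function.update c.2 k₀ true) k₀ • y c else 0 with hw
  have hwm : w ∈ PC P n A (k + 1) := by
    refine (mem_PC P n).2 fun c => ?_
    simp only [hw]
    split_ifs with hc
    · exact ⟨fun hd => Submodule.smul_mem _ _ ((hy c hc).1 hd).1,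
        fun hd => by rw [(hy c hc).2 hd, smul_zero]⟩
    · exact ⟨fun _ => Submodule.zero_mem _, fun _ => rfl⟩
  have hw0 : ∀ a I, I k₀ = true → w (a, I) = 0 := by
    intro a I hI
    simp [hw, hI]
  have hDw : ∀ a I, I k₀ = true → Dc P n O w (a, I) = y (a, Function.update I k₀ false) := by
    intro a I hI
    rw [cubeb_D_true P n hw0 a hI]
    simp only [hw, Function.update_self, if_true, Function.update_idem]
    rw [← hI, Function.update_eq_self, smul_smul, cubeb_eps_sq, one_smul]
  have hDwm : Dc P n O w ∈ PC P n A k := by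
    have := hp.stU _ _ hwm
    rwa [add_sub_cancel_right] at this
  have hx1 : x - Dc P n O w ∈ PC P n A k := Submodule.sub_mem _ hx hDwm
  have hx1' := (mem_PC P n).1 hx1
  set m : P.ι × V n → O := fun c => if c.2 k₀ = true then (x - Dc P n O w) c else 0 with hm
  have hmm : m ∈ PC P n A' k := by
    refine (mem_PC P n).2 ?_
    rintro ⟨a, I⟩
    simp only [hm]
    split_ifs with hI
    · refine ⟨fun hd => ?_, (hx1' _).2⟩
      have hJ : Function.update I k₀ false k₀ = false := Function.update_self ..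
      have e : Function.update (Function.update I k₀ false) k₀ true = I := by
        rw [Function.update_idem, ← hI, Function.update_eq_self]
      have hd' : tdeg P n (a, Function.update I k₀ false) = k + 1 := by
        rw [cubeb_tdeg P n a hJ, e, hd]
      have := ((hy (a, Function.update I k₀ false) hJ).1 hd').2
      simp only [e] at this
      rw [Pi.sub_apply, hDw a I hI]
      exact this
    · exact ⟨fun _ => Submodule.zero_mem _, fun _ => rfl⟩
  set z : P.ι × V n → O := x - Dc P n O w - m with hz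
  have hz0 : ∀ a I, I k₀ = true → z (a, I) = 0 := by
    intro a I hI
    simp [hz, hm, hI]
  have hzm : z ∈ PC P n A k := Submodule.sub_mem _ hx1 (hp.le k hmm)
  have hzm' := (mem_PC P n).1 hzm
  have hDz : Dc P n O z ∈ PC P n A' (k - 1) := by
    rw [hz, map_sub, map_sub]
    refine Submodule.sub_mem _ (Submodule.sub_mem _ hDx ?_) (hp.stL _ _ hmm)
    have := hp.dd _ _ hwm
    rwa [show k + 1 - 2 = k - 1 by ring] at this
  have hzm2 : z ∈ PC P n A' k := by
    refine (mem_PC P n).2 ?_
    rintro ⟨a, J⟩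
    refine ⟨fun hd => ?_, (hzm' _).2⟩
    by_cases hJ : J k₀ = true
    · rw [hz0 a J hJ]
      exact Submodule.zero_mem _
    · have hJ' : J k₀ = false := by simpa using hJ
      refine h2 a J hJ' ⟨(hzm' _).1 hd, ?_⟩
      have hd' : tdeg P n (a, Function.update J k₀ true) = k - 1 := by
        have := cubeb_tdeg P n a hJ'
        omega
      have h3 := (((mem_PC P n).1 hDz) _).1 hd'
      rw [cubeb_D_true P n hz0 a (Function.update_self ..), Function.update_idem, ← hJ',
        Function.update_eq_self] at h3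
      have h4 := Submodule.smul_mem _ (epsV B (Function.update J k₀ true) k₀) h3
      rwa [smul_smul, cubeb_eps_sq, one_smul] at h4
  have e : x = Dc P n O w + (m + z) := by
    rw [hz]
    abel
  rw [e]
  exact Submodule.add_mem_sup (Submodule.mem_map_of_mem hwm) (Submodule.add_mem _ hmm hzm2)

theorem cubeb_single_le {A A' : P.ι × V n → Submodule B O}
    (c₀ : P.ι × V n) (h : ∀ c, c ≠ c₀ → A c ≤ A' c) {k : ℤ}
    (hk : k ≠ tdeg P n c₀) : PC P n A k ≤ PC P n A' k := by
  intro x hx
  have hx' := (mem_PC P n).1 hx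
  refine (mem_PC P n).2 fun c => ⟨fun hd => h c ?_ ((hx' c).1 hd), (hx' c).2⟩
  rintro rfl
  exact hk hd.symm

/-- pair concentrated at one place `c₀` : in every degree `≠ tdeg c₀` the two chains agree. -/
theorem single_van {A A' : P.ι × V n → Submodule B O}
    (hle : A' ≤ A) (c₀ : P.ι × V n) (h : ∀ c, c ≠ c₀ → A c ≤ A' c) {k : ℤ}
    (hk : k ≠ tdeg P n c₀) : Van (Dc P n O) (PC P n A) (PC P n A') k := by
  exact fun x hx => Submodule.mem_sup_right (cubeb_single_le P n c₀ h hk hx.1)

theorem cubeb_single_zc {A A' : P.ι × V n → Submodule B O}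
    (hp : Pair (Dc P n O) (PC P n A) (PC P n A'))
    (c₀ : P.ι × V n) (h : ∀ c, c ≠ c₀ → A c ≤ A' c) :
    Zc (Dc P n O) (PC P n A) (PC P n A') (tdeg P n c₀) = PC P n A (tdeg P n c₀) := by
  refine le_antisymm inf_le_left fun x hx => ⟨hx, ?_⟩
  exact cubeb_single_le P n c₀ h (by omega) (hp.stU _ _ hx)

theorem cubeb_single_bd {A A' : P.ι × V n → Submodule B O}
    (hp : Pair (Dc P n O) (PC P n A) (PC P n A'))
    (c₀ : P.ι × V n) (h : ∀ c, c ≠ c₀ → A c ≤ A' c) :
    Bd (Dc P n O) (PC P n A) (PC P n A') (tdeg P n c₀) = PC P n A' (tdeg P n c₀) := by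
  refine le_antisymm (sup_le ?_ le_rfl) le_sup_right
  rintro _ ⟨x, hx, rfl⟩
  have := hp.stL _ _ (cubeb_single_le P n c₀ h (by omega) hx)
  rwa [add_sub_cancel_right] at this

theorem cubeb_single_term {A A' : P.ι × V n → Submodule B O}
    (c₀ : P.ι × V n) (h : ∀ c, c ≠ c₀ → A c ≤ A' c) (k : ℤ) {c : P.ι × V n} (hc : c ≠ c₀) :
    (if tdeg P n c = k then A c else ⊥) ≤ (if tdeg P n c = k then A' c else ⊥) := by
  split_ifs
  · exact h c hc
  · exact le_rfl

theorem cubeb_single_len {A A' : P.ι × V n → Submodule B O}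
    (c₀ : P.ι × V n) (h : ∀ c, c ≠ c₀ → A c ≤ A' c) :
    len (PC P n A (tdeg P n c₀)) (PC P n A' (tdeg P n c₀)) = len (A c₀) (A' c₀) := by
  classical
  unfold PC
  rw [len_pi, Finset.sum_eq_single c₀, if_pos rfl, if_pos rfl]
  · intro c _ hc
    exact len_eq_zero_iff.2 (cubeb_single_term P n c₀ h _ hc)
  · intro h'
    exact absurd (Finset.mem_univ _) h'

theorem cubeb_single_kap (θ : B) {A A' : P.ι × V n → Submodule B O}
    (c₀ : P.ι × V n) (h : ∀ c, c ≠ c₀ → A c ≤ A' c) :
    kap θ (PC P n A (tdeg P n c₀)) (PC P n A' (tdeg P n c₀)) = kap θ (A c₀) (A' c₀) := by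
  classical
  unfold PC
  rw [kap_pi, Finset.sum_eq_single c₀, if_pos rfl, if_pos rfl]
  · intro c _ hc
    exact le_antisymm (Sm.zero θ (cubeb_single_term P n c₀ h _ hc)).2 bot_le
  · intro h'
    exact absurd (Finset.mem_univ _) h'

theorem single_hl {A A' : P.ι × V n → Submodule B O}
    (hp : Pair (Dc P n O) (PC P n A) (PC P n A'))
    (hle : A' ≤ A) (c₀ : P.ι × V n) (h : ∀ c, c ≠ c₀ → A c ≤ A' c) :
    hl (Dc P n O) (PC P n A) (PC P n A') (tdeg P n c₀) = len (A c₀) (A' c₀) := by
  unfold hl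
  rw [cubeb_single_zc P n hp c₀ h, cubeb_single_bd P n hp c₀ h, cubeb_single_len P n c₀ h]

theorem single_hsm {θ : B} {e : ℕ∞} {A A' : P.ι × V n → Submodule B O}
    (hp : Pair (Dc P n O) (PC P n A) (PC P n A'))
    (hle : A' ≤ A) (c₀ : P.ι × V n) (h : ∀ c, c ≠ c₀ → A c ≤ A' c) (hs : Sm θ e (A c₀) (A' c₀))
    (k : ℤ) : HSm θ e (Dc P n O) (PC P n A) (PC P n A') k := by
  by_cases hk : k = tdeg P n c₀
  · subst hk
    unfold HSm Sm
    rw [cubeb_single_zc P n hp c₀ h, cubeb_single_bd P n hp c₀ h, cubeb_single_len P n c₀ h,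
      cubeb_single_kap P n θ c₀ h]
    exact hs
  · exact Sm.of_le ((single_van P n hle c₀ h hk).hsm θ) bot_le

/-- the homotopy used in `cube_tn` -/
def cubeTnH {m : ℕ} (s : Fin m → Matrix P.ι P.ι B) (c : Fin m → V n → (O →ₗ[B] O)) :
    (P.ι × V n → O) →ₗ[B] (P.ι × V n → O) :=
  LinearMap.pi fun z => sgnV B z.2 • ∑ i, ∑ b, s i z.1 b • (c i z.2).comp (LinearMap.proj (b, z.2))

theorem cubeTnH_apply {m : ℕ} (s : Fin m → Matrix P.ι P.ι B) (c : Fin m → V n → (O →ₗ[B] O))
    (x : P.ι × V n → O) (z : P.ι × V n) :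
    cubeTnH P n s c x z = sgnV B z.2 • ∑ i, ∑ b, s i z.1 b • c i z.2 (x (b, z.2)) := by
  simp [cubeTnH, LinearMap.sum_apply]

/-- the Čech part of `Dc` -/
def cubeTnE (x : P.ι × V n → O) : P.ι × V n → O := fun z =>
  ∑ k, if z.2 k = true then epsV B z.2 k • x (z.1, Function.update z.2 k false) else 0

def cubeTnF (r : ℕ) : Submodule B (P.ι × V n → O) :=
  Submodule.pi {z | (Finset.univ.filter (fun k => z.2 k = true)).card < r} (fun _ => ⊥)

theorem mem_cubeTnF {r : ℕ} {x : P.ι × V n → O} : x ∈ cubeTnF P n r ↔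
    ∀ z : P.ι × V n, (Finset.univ.filter (fun k => z.2 k = true)).card < r → x z = 0 := by
  simp [cubeTnF, Submodule.mem_pi]

theorem cubeTn_card_false {I : V n} {k : Fin n} (h : I k = true) :
    (Finset.univ.filter (fun j => Function.update I k false j = false)).card =
      (Finset.univ.filter (fun j => I j = false)).card + 1 := by
  rw [← Finset.card_insert_of_notMem (a := k) (by simp [h])]
  congr 1
  ext j
  by_cases hj : j = k
  · subst hj; simp
  · simp [hj]

theorem cubeTn_card_true {I : V n} {k : Fin n} (h : I k = true) :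
    (Finset.univ.filter (fun j => I j = true)).card =
      (Finset.univ.filter (fun j => Function.update I k false j = true)).card + 1 := by
  rw [← Finset.card_insert_of_notMem (a := k) (by simp)]
  congr 1
  ext j
  by_cases hj : j = k
  · subst hj; simp [h]
  · simp [hj]

theorem cubeTn_sgn_sq (I : V n) : sgnV B I * sgnV B I = 1 := by
  unfold sgnV
  rw [← Finset.prod_mul_distrib]
  exact Finset.prod_eq_one fun k _ => by split_ifs <;> simp

theorem cubeTn_deg {s : Matrix P.ι P.ι B} (h1 : ∀ a b, s a b ≠ 0 → P.deg a = P.deg b + 1)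
    {a b : P.ι} (hab : P.deg a ≠ P.deg b) : (P.d * s + s * P.d) a b = 0 := by
  rw [Matrix.add_apply, Matrix.mul_apply, Matrix.mul_apply, Finset.sum_eq_zero, Finset.sum_eq_zero,
    add_zero]
  · intro z _
    by_contra hne
    have k1 := h1 a z (left_ne_zero_of_mul hne)
    have k2 := P.hd z b (right_ne_zero_of_mul hne)
    omega
  · intro z _
    by_contra hne
    have k1 := P.hd a z (left_ne_zero_of_mul hne)
    have k2 := h1 z b (right_ne_zero_of_mul hne)
    omega

theorem cubeTnH_mem {m : ℕ} (s : Fin m → Matrix P.ι P.ι B) (c : Fin m → V n → (O →ₗ[B] O))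
    (h1 : ∀ i a b, s i a b ≠ 0 → P.deg a = P.deg b + 1) {A A' : P.ι × V n → Submodule B O}
    (h2 : ∀ i a b I, s i a b ≠ 0 → ∀ x ∈ A (b, I), c i I x ∈ A' (a, I)) {k : ℤ}
    {x : P.ι × V n → O} (hx : x ∈ PC P n A k) : cubeTnH P n s c x ∈ PC P n A' (k + 1) := by
  rw [mem_PC] at hx ⊢
  rintro ⟨a, I⟩
  rw [cubeTnH_apply]
  refine ⟨fun hc => Submodule.smul_mem _ _ (Submodule.sum_mem _ fun i _ =>
    Submodule.sum_mem _ fun b _ => ?_), fun hc => ?_⟩
  · by_cases hs : s i a b = 0
    · simp only [hs, zero_smul]; exact Submodule.zero_mem _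
    · refine Submodule.smul_mem _ _ (h2 i a b I hs _ ((hx (b, I)).1 ?_))
      have := h1 i a b hs
      simp only [tdeg] at hc ⊢
      omega
  · have e : ∀ i b, s i a b • c i I (x (b, I)) = 0 := by
      intro i b
      by_cases hs : s i a b = 0
      · rw [hs, zero_smul]
      · rw [(hx (b, I)).2 ?_, map_zero, smul_zero]
        have := h1 i a b hs
        simp only [tdeg] at hc ⊢
        omega
    simp only [e, Finset.sum_const_zero, smul_zero]

theorem cubeTnH_F {m : ℕ} (s : Fin m → Matrix P.ι P.ι B) (c : Fin m → V n → (O →ₗ[B] O)) {r : ℕ}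
    {x : P.ι × V n → O} (hx : x ∈ cubeTnF P n r) : cubeTnH P n s c x ∈ cubeTnF P n r := by
  rw [mem_cubeTnF] at hx ⊢
  rintro ⟨a, I⟩ hz
  rw [cubeTnH_apply]
  have e : ∀ b, x (b, I) = 0 := fun b => hx (b, I) hz
  simp only [e, map_zero, smul_zero, Finset.sum_const_zero]

theorem cubeTnE_mem {A : P.ι × V n → Submodule B O}
    (h3 : ∀ a I k, I k = true → A (a, Function.update I k false) ≤ A (a, I)) {k : ℤ}
    {x : P.ι × V n → O} (hx : x ∈ PC P n A k) : cubeTnE P n x ∈ PC P n A (k - 1) := by
  rw [mem_PC] at hx ⊢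
  rintro ⟨a, I⟩
  unfold cubeTnE
  refine ⟨fun hc => Submodule.sum_mem _ fun j _ => ?_, fun hc => Finset.sum_eq_zero fun j _ => ?_⟩
  · split_ifs with hj
    · refine Submodule.smul_mem _ _ (h3 a I j hj ((hx _).1 ?_))
      have := cubeTn_card_false n hj
      simp only [tdeg] at hc this ⊢
      omega
    · exact Submodule.zero_mem _
  · split_ifs with hj
    · rw [(hx _).2 ?_, smul_zero]
      have := cubeTn_card_false n hj
      simp only [tdeg] at hc this ⊢
      omega
    · rfl

theorem cubeTnE_F {r : ℕ} {x : P.ι × V n → O} (hx : x ∈ cubeTnF P n r) :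
    cubeTnE P n x ∈ cubeTnF P n (r + 1) := by
  rw [mem_cubeTnF] at hx ⊢
  rintro ⟨a, I⟩ hz
  unfold cubeTnE
  refine Finset.sum_eq_zero fun j _ => ?_
  split_ifs with hj
  · rw [hx _ ?_, smul_zero]
    have := cubeTn_card_true n hj
    simp only at hz this ⊢
    omega
  · rfl

theorem cubeTn_id {m : ℕ} (θ : B) (s : Fin m → Matrix P.ι P.ι B)
    (c : Fin m → V n → (O →ₗ[B] O)) (x : P.ι × V n → O) :
    θ • x - Dc P n O (cubeTnH P n s c x) - cubeTnH P n s c (Dc P n O x) =
      (fun z : P.ι × V n =>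
        θ • x z - ∑ i, ∑ b, (P.d * s i + s i * P.d) z.1 b • c i z.2 (x (b, z.2))) -
      (cubeTnE P n (cubeTnH P n s c x) + cubeTnH P n s c (cubeTnE P n x)) := by
  funext ⟨a, I⟩
  have e1 : Dc P n O (cubeTnH P n s c x) (a, I) =
      ∑ i, ∑ b, (P.d * s i) a b • c i I (x (b, I)) + cubeTnE P n (cubeTnH P n s c x) (a, I) := by
    rw [Dc_apply]
    congr 1
    simp only [cubeTnH_apply, Finset.smul_sum, smul_smul, Matrix.mul_apply, Finset.sum_smul]
    rw [Finset.sum_comm]
    refine Finset.sum_congr rfl fun i _ => ?_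
    rw [Finset.sum_comm]
    refine Finset.sum_congr rfl fun b _ => Finset.sum_congr rfl fun z _ => ?_
    congr 1
    linear_combination (P.d a z * s i z b) * cubeTn_sgn_sq (B := B) n I
  have e2 : cubeTnH P n s c (Dc P n O x) (a, I) =
      ∑ i, ∑ b, (s i * P.d) a b • c i I (x (b, I)) + cubeTnH P n s c (cubeTnE P n x) (a, I) := by
    have e3 : ∀ b, Dc P n O x (b, I) =
        sgnV B I • ∑ z, P.d b z • x (z, I) + cubeTnE P n x (b, I) := fun b => rfl
    simp only [cubeTnH_apply, e3, map_add, smul_add, Finset.sum_add_distrib]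
    congr 1
    simp only [map_smul, map_sum, Finset.smul_sum, smul_smul, Matrix.mul_apply, Finset.sum_smul]
    refine Finset.sum_congr rfl fun i _ => ?_
    rw [Finset.sum_comm]
    refine Finset.sum_congr rfl fun b _ => Finset.sum_congr rfl fun z _ => ?_
    congr 1
    linear_combination (s i a z * P.d z b) * cubeTn_sgn_sq (B := B) n I
  simp only [Pi.sub_apply, Pi.add_apply, Pi.smul_apply, e1, e2, Matrix.add_apply, add_smul,
    Finset.sum_add_distrib]
  abel

/-- Tail nullity on the cube: `tn_iter` with `R = n+1`,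
`h x (a,I) = sgnV I • ∑ i, ∑ b, s i a b • c i I (x (b,I))` and
`F r k = {x | ∀ c, #{j | c.2 j = true} < r → x c = 0}`.  One has
`(θx - D h x - h D x)(a,I) = [θ x(a,I) - ∑ i b, (d s_i + s_i d) a b • c i I (x (b,I))] - [Čech terms]`;
the first bracket defines an element of `PC (Wf t) k` (by `h4` applied to `b ↦ x (b,I)`; it vanishes
in the wrong degree since `(d s + s d) a b ≠ 0 → deg a = deg b`), the Čech terms only involve
`x (b, I - k)` and lie in `PC (Vf t) k ⊓ F (r+1) k` by `h2V`, `h3`. -/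
theorem cube_tn {m : ℕ} (θ : B) (s : Fin m → Matrix P.ι P.ι B)
    (c : Fin m → V n → (O →ₗ[B] O)) (Vf Wf : ℕ → P.ι × V n → Submodule B O)
    (hV : ∀ t, t ≤ n → Vf (t + 1) ≤ Vf t) (hW : ∀ t, t ≤ n → Wf (t + 1) ≤ Wf t)
    (h1 : ∀ i a b, s i a b ≠ 0 → P.deg a = P.deg b + 1)
    (h2V : ∀ t, t ≤ n → ∀ i a b I, s i a b ≠ 0 → ∀ x ∈ Vf (t + 1) (b, I), c i I x ∈ Vf t (a, I))
    (h2W : ∀ t, t ≤ n → ∀ i a b I, s i a b ≠ 0 → ∀ x ∈ Wf (t + 1) (b, I), c i I x ∈ Wf t (a, I))
    (h3 : ∀ t a I k, I k = true → Vf t (a, Function.update I k false) ≤ Vf t (a, I))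
    (h4 : ∀ t, t ≤ n → ∀ I (x : P.ι → O), (∀ b, x b ∈ Vf (t + 1) (b, I)) → ∀ a,
      θ • x a - ∑ i, ∑ b, (P.d * s i + s i * P.d) a b • c i I (x b) ∈ Wf t (a, I))
    (h5 : ∀ t, t ≤ n → St (Dc P n O) (PC P n (Wf t)))
    (h6 : ∀ t, t ≤ n → ∀ k, ∀ x ∈ PC P n (Vf t) k,
      Dc P n O (Dc P n O x) ∈ PC P n (Wf t) (k - 2)) (k : ℤ) :
    ∀ x ∈ Zc (Dc P n O) (PC P n (Vf (n + 1))) (PC P n (Wf (n + 1))) k,
      θ ^ (n + 1) • x ∈ Bd (Dc P n O) (PC P n (Vf 0)) (PC P n (Wf 0)) k := by
  refine tn_iter (Dc P n O) (cubeTnH P n s c) θ (n + 1) (fun t => PC P n (Vf t))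
    (fun t => PC P n (Wf t)) (fun r _ => cubeTnF P n r)
    (fun t ht => PC_mono P n (hV t (by omega))) (fun t ht => PC_mono P n (hW t (by omega)))
    (fun t ht k x hx => cubeTnH_mem P n s c h1 (h2V t (by omega)) hx)
    (fun t ht k x hx => cubeTnH_mem P n s c h1 (h2W t (by omega)) hx) ?_
    (fun t ht => h5 t (by omega)) (fun t ht => h6 t (by omega)) ?_ ?_ k
  · intro t ht r k x hx hxF
    have ht' : t ≤ n := by omega
    rw [cubeTn_id P n θ s c x]
    refine Submodule.sub_mem _ (Submodule.mem_sup_right ?_) (Submodule.mem_sup_left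
      (Submodule.add_mem _ ⟨?_, ?_⟩ ⟨?_, ?_⟩))
    · rw [mem_PC] at hx ⊢
      rintro ⟨a, I⟩
      refine ⟨fun _ => h4 t ht' I (fun b => x (b, I)) (fun b => ?_) a, fun hc => ?_⟩
      · by_cases hb : tdeg P n (b, I) = k
        · exact (hx (b, I)).1 hb
        · rw [(hx (b, I)).2 hb]; exact Submodule.zero_mem _
      · have e : ∀ i b, (P.d * s i + s i * P.d) a b • c i I (x (b, I)) = 0 := by
          intro i b
          by_cases hab : P.deg a = P.deg b
          · rw [(hx (b, I)).2 (by simpa only [tdeg, hab] using hc), map_zero, smul_zero]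
          · rw [cubeTn_deg P (h1 i) hab, zero_smul]
        simp only [(hx (a, I)).2 hc, e, smul_zero, Finset.sum_const_zero, sub_zero]
    · have := cubeTnE_mem P n (h3 t) (cubeTnH_mem P n s c h1 (h2V t ht') hx)
      rwa [add_sub_cancel_right] at this
    · exact cubeTnE_F P n (cubeTnH_F P n s c hxF)
    · have := cubeTnH_mem P n s c h1 (h2V t ht') (cubeTnE_mem P n (h3 (t + 1)) hx)
      rwa [sub_add_cancel] at this
    · exact cubeTnH_F P n s c (cubeTnE_F P n hxF)
  · intro _
    exact eq_top_iff.2 fun x _ => (mem_cubeTnF P n).2 fun _ h => absurd h (Nat.not_lt_zero _)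
  · intro _
    refine eq_bot_iff.2 fun x hx => ?_
    rw [Submodule.mem_bot]
    funext z
    refine (mem_cubeTnF P n).1 hx z (Nat.lt_succ_of_le ?_)
    exact (Finset.card_filter_le _ _).trans (by simp)

/-- For a cone: move the `inr` components to `inl`, with sign `sgnV`. -/
def coneShift (C : FC B) (y : B) :
    ((C.cone y).ι × V n → O) →ₗ[B] ((C.cone y).ι × V n → O) where
  toFun x := fun c => match c.1 with
    | Sum.inl a => sgnV B c.2 • x (Sum.inr a, c.2)
    | Sum.inr _ => 0
  map_add' x x' := by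
    funext ⟨a, I⟩
    rcases a with a | a <;> simp
  map_smul' r x := by
    funext ⟨a, I⟩
    rcases a with a | a
    · simp [smul_comm r]
    · simp

theorem cubeA_shift_inl (C : FC B) (y : B) (x : (C.cone y).ι × V n → O) (a : C.ι) (I : V n) :
    coneShift n C y x (Sum.inl a, I) = sgnV B I • x (Sum.inr a, I) := rfl

theorem cubeA_shift_inr (C : FC B) (y : B) (x : (C.cone y).ι × V n → O) (a : C.ι) (I : V n) :
    coneShift n C y x (Sum.inr a, I) = 0 := rfl

omit [Module B O] in
theorem cubeA_cone_sum (C : FC B) (y : B) (f : (C.cone y).ι → O) :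
    ∑ b, f b = ∑ b : C.ι, f (Sum.inl b) + ∑ b : C.ι, f (Sum.inr b) :=
  Fintype.sum_sum_type (α₁ := C.ι) (α₂ := C.ι) f

theorem cubeA_tdeg_inr (C : FC B) (y : B) (a : C.ι) (I : V n) :
    tdeg (C.cone y) n (Sum.inr a, I) = tdeg (C.cone y) n (Sum.inl a, I) + 1 := by
  have e1 : (C.cone y).deg (Sum.inr a) = C.deg a + 1 := rfl
  have e2 : (C.cone y).deg (Sum.inl a) = C.deg a := rfl
  unfold tdeg
  dsimp only
  rw [e1, e2]
  push_cast
  ring

theorem coneShift_D (C : FC B) (y : B) (x : (C.cone y).ι × V n → O) :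
    coneShift n C y (Dc (C.cone y) n O x) =
      ((-1 : Bˣ) : B) • Dc (C.cone y) n O (coneShift n C y x) := by
  funext ⟨a, I⟩
  have d11 : ∀ a b : C.ι, (C.cone y).d (Sum.inl a) (Sum.inl b) = C.d a b := fun _ _ => rfl
  have d21 : ∀ a b : C.ι, (C.cone y).d (Sum.inr a) (Sum.inl b) = 0 := fun _ _ => rfl
  have d22 : ∀ a b : C.ι, (C.cone y).d (Sum.inr a) (Sum.inr b) = -C.d a b := fun _ _ => rfl
  rcases a with a | a
  · rw [cubeA_shift_inl, Pi.smul_apply, Dc_apply, Dc_apply]
    dsimp only
    rw [cubeA_cone_sum, cubeA_cone_sum]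
    simp only [d11, d21, d22, cubeA_shift_inl, cubeA_shift_inr, zero_smul, smul_zero,
      Finset.sum_const_zero, zero_add, add_zero, Units.val_neg, Units.val_one, smul_add,
      Finset.smul_sum]
    congr 1
    · refine Finset.sum_congr rfl fun b _ => ?_
      simp only [smul_smul]
      congr 1
      ring
    · refine Finset.sum_congr rfl fun k _ => ?_
      split_ifs with hk
      · rw [cubeA_sgn_update B hk]
        simp only [smul_smul]
        congr 1
        ring
      · simp
  · rw [cubeA_shift_inr, Pi.smul_apply, Dc_apply]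
    dsimp only
    rw [cubeA_cone_sum]
    simp only [d21, cubeA_shift_inr, zero_smul, smul_zero, Finset.sum_const_zero, add_zero,
      ite_self]

/-- the quotient "`inr` part" is isomorphic to the sub "`inl` part" shifted by one. -/
theorem coneShift_iso (C : FC B) (y : B) (A A' : C.ι × V n → Submodule B O) (hle : A' ≤ A) :
    Iso (coneShift n C y) (-1)
      (PC (C.cone y) n (fun c => Sum.elim (fun a => A (a, c.2)) (fun a => A (a, c.2)) c.1))
      (PC (C.cone y) n (fun c => Sum.elim (fun a => A (a, c.2)) (fun a => A' (a, c.2)) c.1))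
      (PC (C.cone y) n (fun c => Sum.elim (fun a => A (a, c.2)) (fun a => A' (a, c.2)) c.1))
      (PC (C.cone y) n (fun c => Sum.elim (fun a => A' (a, c.2)) (fun a => A' (a, c.2)) c.1)) := by
  have hsq : ∀ (I : V n) (v : O), sgnV B I • sgnV B I • v = v := fun I v => by
    rw [smul_smul, cubeA_sgn_sq, one_smul]
  refine ⟨fun k => le_antisymm (sup_le ?_ ?_) ?_, fun k => le_antisymm ?_ (le_inf ?_ ?_)⟩
  · rintro _ ⟨x, hx, rfl⟩
    have hx' := (mem_PC (C.cone y) n).1 hx
    rw [mem_PC]
    rintro ⟨a | a, I⟩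
    · rw [cubeA_shift_inl]
      have ht := cubeA_tdeg_inr n C y a I
      refine ⟨fun hc => Submodule.smul_mem _ _ ((hx' (Sum.inr a, I)).1 (by omega)), fun hc => ?_⟩
      rw [(hx' (Sum.inr a, I)).2 (by omega), smul_zero]
    · rw [cubeA_shift_inr]
      exact ⟨fun _ => zero_mem _, fun _ => rfl⟩
  · refine PC_mono (C.cone y) n ?_ (k + -1)
    rintro ⟨a | a, I⟩
    · exact hle (a, I)
    · exact le_rfl
  · intro x hx
    have hx' := (mem_PC (C.cone y) n).1 hx
    refine Submodule.mem_sup.2 ⟨_, ⟨fun c => Sum.elim (fun _ => (0 : O))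
      (fun a => sgnV B c.2 • x (Sum.inl a, c.2)) c.1, ?_, rfl⟩,
      fun c => Sum.elim (fun _ => (0 : O)) (fun a => x (Sum.inr a, c.2)) c.1, ?_, ?_⟩
    · refine (mem_PC (C.cone y) n).2 ?_
      rintro ⟨a | a, I⟩
      · exact ⟨fun _ => zero_mem _, fun _ => rfl⟩
      · have ht := cubeA_tdeg_inr n C y a I
        refine ⟨fun hc => Submodule.smul_mem _ _ ((hx' (Sum.inl a, I)).1 (by omega)), fun hc => ?_⟩
        change sgnV B I • x (Sum.inl a, I) = 0
        rw [(hx' (Sum.inl a, I)).2 (by omega), smul_zero]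
    · refine (mem_PC (C.cone y) n).2 ?_
      rintro ⟨a | a, I⟩
      · exact ⟨fun _ => zero_mem _, fun _ => rfl⟩
      · exact hx' (Sum.inr a, I)
    · funext ⟨a, I⟩
      rcases a with a | a
      · rw [Pi.add_apply, cubeA_shift_inl]
        change sgnV B I • sgnV B I • x (Sum.inl a, I) + 0 = _
        rw [hsq, add_zero]
      · rw [Pi.add_apply, cubeA_shift_inr]
        exact zero_add _
  · intro x hx
    obtain ⟨h1, h2⟩ := Submodule.mem_inf.1 hx
    have h1' := (mem_PC (C.cone y) n).1 h1
    have h2' := (mem_PC (C.cone y) n).1 (Submodule.mem_comap.1 h2)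
    refine (mem_PC (C.cone y) n).2 ?_
    rintro ⟨a | a, I⟩
    · exact h1' (Sum.inl a, I)
    · have ht := cubeA_tdeg_inr n C y a I
      refine ⟨fun hc => ?_, (h1' (Sum.inr a, I)).2⟩
      have h3 : sgnV B I • x (Sum.inr a, I) ∈ A' (a, I) := (h2' (Sum.inl a, I)).1 (by omega)
      have h4 := Submodule.smul_mem _ (sgnV B I) h3
      rwa [hsq] at h4
  · refine PC_mono (C.cone y) n ?_ k
    rintro ⟨a | a, I⟩
    · exact le_rfl
    · exact hle (a, I)
  · intro x hx
    have hx' := (mem_PC (C.cone y) n).1 hx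
    refine Submodule.mem_comap.2 ((mem_PC (C.cone y) n).2 ?_)
    rintro ⟨a | a, I⟩
    · rw [cubeA_shift_inl]
      have ht := cubeA_tdeg_inr n C y a I
      refine ⟨fun hc => Submodule.smul_mem _ _ ((hx' (Sum.inr a, I)).1 (by omega)), fun hc => ?_⟩
      rw [(hx' (Sum.inr a, I)).2 (by omega), smul_zero]
    · rw [cubeA_shift_inr]
      exact ⟨fun _ => zero_mem _, fun _ => rfl⟩

/-- excision for families -/
theorem PC_iso_id {A A' E E' : P.ι × V n → Submodule B O} (h1 : A ⊔ E' = E) (h2 : A ⊓ E' = A') :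
    Iso LinearMap.id 0 (PC P n A) (PC P n A') (PC P n E) (PC P n E') := by
  refine ⟨fun k => ?_, fun k => ?_⟩
  · rw [Submodule.map_id, add_zero, ← h1, PC_sup]
    rfl
  · rw [Submodule.comap_id, add_zero, ← h2, PC_inf]
    rfl

end

end Crest.Agent.R183
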