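import Crest.Agent.R183.Omega

/-! # R183 / Cut : Čech complexes of line bundles on `(P¹)ⁿ` tensored with `P`, cut in `π`-degree. -/

set_option autoImplicit false

namespace Crest.Agent.R183

section
variable {n : ℕ}

def topR (I : V n) : Set (Mon n) := {μ | ∀ k, I k = false → 0 ≤ μ.2 k}

def bq (α : Fin n → ℤ) (I : V n) : Set (Mon n) := {μ | ∃ k, I k = true ∧ μ.2 k ≤ α k + μ.1}

def cutR (α : Fin n → ℤ) (t : ℤ) (I : V n) : Set (Mon n) := topR I ∩ (ge t ∪ bq α I)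

theorem stab_topR (I : V n) : Stab (topR I) := by
  intro μ hμ S k hk
  have := hμ k hk
  show 0 ≤ μ.2 k + (if k ∈ S then 1 else 0)
  split_ifs <;> omega

theorem stab_bq (α : Fin n → ℤ) (I : V n) : Stab (bq α I) := by
  rintro μ ⟨k, hk, h⟩ S
  refine ⟨k, hk, ?_⟩
  show μ.2 k + (if k ∈ S then 1 else 0) ≤ α k + (μ.1 + 1)
  split_ifs <;> omega

theorem stab_cutR (α : Fin n → ℤ) (t : ℤ) (I : V n) : Stab (cutR α t I) :=
  (stab_topR I).inter ((stab_ge t).union (stab_bq α I))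

theorem topR_update (I : V n) (k : Fin n) : topR (Function.update I k false) ⊆ topR I := by
  intro μ hμ j hj
  refine hμ j ?_
  rcases eq_or_ne j k with rfl | h
  · exact Function.update_self ..
  · rw [Function.update_of_ne h, hj]

theorem bq_update (α : Fin n → ℤ) (I : V n) (k : Fin n) :
    bq α (Function.update I k false) ⊆ bq α I := by
  rintro μ ⟨j, hj, h⟩
  refine ⟨j, ?_, h⟩
  rcases eq_or_ne j k with rfl | hjk
  · rw [Function.update_self] at hj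
    exact absurd hj Bool.false_ne_true
  · rwa [Function.update_of_ne hjk] at hj

theorem bq_mono {α α' : Fin n → ℤ} (h : α ≤ α') (I : V n) : bq α I ⊆ bq α' I := by
  rintro μ ⟨j, hj, h'⟩
  exact ⟨j, hj, h'.trans (add_le_add_left (h j) _)⟩

theorem chart_topR {I : V n} {M : ℕ} {ν μ : Mon n} (hν : ν ∈ chartR I M) (hμ : μ ∈ topR I) :
    ν + μ ∈ topR I := by
  intro k hk
  exact add_nonneg ((hν.2 k).1 hk) (hμ k hk)

theorem chart_bq {α : Fin n → ℤ} {I : V n} {M : ℕ} {ν μ : Mon n} (hν : ν ∈ chartR I M)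
    (hμ : μ ∈ bq α I) : ν + μ ∈ bq α I := by
  obtain ⟨k, hk, h⟩ := hμ
  refine ⟨k, hk, ?_⟩
  have h1 := (hν.2 k).2 hk
  have h2 := hν.1
  show ν.2 k + μ.2 k ≤ α k + (ν.1 + μ.1)
  omega

variable {W : Type} [CommRing W] {B : Type} [CommRing B] [Algebra (Pz W n) B]

variable (W) in
/-- chain of a family of regions -/
noncomputable def RC (ξ : B) (P : FC B) (R : P.ι × V n → Set (Mon n)) :
    Ch B (P.ι × V n → OO W n ξ) := PC P n (fun c => Om W ξ (R c))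

noncomputable abbrev DD (W : Type) [CommRing W] (n : ℕ) {B : Type} [CommRing B]
    [Algebra (Pz W n) B] (ξ : B) (P : FC B) := Dc P n (OO W n ξ)

variable {ξ : B} {P : FC B} {pp : W} {ρ : ℕ}

theorem RC_mono {R R' : P.ι × V n → Set (Mon n)} (h : ∀ c, R c ⊆ R' c) :
    RC W ξ P R ≤ RC W ξ P R' := PC_mono P n fun c => Om_mono (h c)

theorem RC_union (R R' : P.ι × V n → Set (Mon n)) :
    RC W ξ P (fun c => R c ∪ R' c) = RC W ξ P R ⊔ RC W ξ P R' := by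
  unfold RC
  rw [← PC_sup]
  congr 1
  funext c
  exact Om_union _ _

theorem RC_inter (H : Hx n pp ξ ρ) {R R' : P.ι × V n → Set (Mon n)} (hR : ∀ c, Stab (R c))
    (hR' : ∀ c, Stab (R' c)) :
    RC W ξ P (fun c => R c ∩ R' c) = RC W ξ P R ⊓ RC W ξ P R' := by
  unfold RC
  rw [← PC_inf]
  congr 1
  funext c
  exact Om_inter H (hR c) (hR' c)

/-- `PC_st2` + `smul_mem_Om'` (`𝔫^q' ≤ kk q'`). -/
theorem RC_st2 {q' : ℕ} (hE : P.Ent (nn W n B ^ q')) {R R' : P.ι × V n → Set (Mon n)}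
    (hR : ∀ c, Stab (R c)) (t : P.ι → ℤ)
    (h1 : ∀ a b I, P.d a b ≠ 0 → ∀ μ ∈ R (b, I), (μ.1 < t b ∨ t b + q' ≤ μ.1) → μ ∈ R' (a, I))
    (h2 : ∀ a I k, I k = true → R (a, Function.update I k false) ⊆ R' (a, I)) :
    ∀ k, ∀ x ∈ RC W ξ P R k, DD W n ξ P x ∈ RC W ξ P R' (k - 1) := by
  refine PC_st2 P n (fun a b I hd x hx => ?_) (fun a I k hk => Om_mono (h2 a I k hk))
  exact smul_mem_Om' (hR (b, I)) (t b) (h1 a b I hd) (Submodule.mem_sup_right (hE a b)) hx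

theorem RC_st {q' : ℕ} (hE : P.Ent (nn W n B ^ q')) {R : P.ι × V n → Set (Mon n)}
    (hR : ∀ c, Stab (R c)) (t : P.ι → ℤ)
    (h1 : ∀ a b I, P.d a b ≠ 0 → ∀ μ ∈ R (b, I), (μ.1 < t b ∨ t b + q' ≤ μ.1) → μ ∈ R (a, I))
    (h2 : ∀ a I k, I k = true → R (a, Function.update I k false) ⊆ R (a, I)) :
    St (DD W n ξ P) (RC W ξ P R) := RC_st2 hE hR t h1 h2

/-- `PC_dd` + `smul_mem_Om'`; `(d*d) a b ≠ 0` gives `m` with `d a m ≠ 0`, `d m b ≠ 0`. -/
theorem RC_dd {K : ℕ} (hsq : P.Sq (kk W n ξ K)) {R R' : P.ι × V n → Set (Mon n)}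
    (hR : ∀ c, Stab (R c)) (t : P.ι → ℤ)
    (h : ∀ a m b I, P.d a m ≠ 0 → P.d m b ≠ 0 → ∀ μ ∈ R (b, I),
      (μ.1 < t b ∨ t b + K ≤ μ.1) → μ ∈ R' (a, I)) :
    ∀ k, ∀ x ∈ RC W ξ P R k, DD W n ξ P (DD W n ξ P x) ∈ RC W ξ P R' (k - 2) := by
  refine PC_dd P n fun a b I hd x hx => ?_
  have hd' := hd
  rw [Matrix.mul_apply] at hd'
  obtain ⟨m, -, hm⟩ := Finset.exists_ne_zero_of_sum_ne_zero hd'
  exact smul_mem_Om' (hR (b, I)) (t b) (h a m b I (left_ne_zero_of_mul hm) (right_ne_zero_of_mul hm)) (hsq a b) hx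

/-- `van_dir` for regions -/
theorem RC_van_dir (H : Hx n pp ξ ρ) {R R' : P.ι × V n → Set (Mon n)} (hR : ∀ c, Stab (R c))
    (hR' : ∀ c, Stab (R' c)) (hp : Pair (DD W n ξ P) (RC W ξ P R) (RC W ξ P R')) (k₀ : Fin n)
    (h1 : ∀ a J, J k₀ = false →
      R (a, Function.update J k₀ true) ⊆ R (a, J) ∪ R' (a, Function.update J k₀ true))
    (h2 : ∀ a J, J k₀ = false → R (a, J) ∩ R' (a, Function.update J k₀ true) ⊆ R' (a, J))
    (k : ℤ) : Van (DD W n ξ P) (RC W ξ P R) (RC W ξ P R') k := by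
  exact van_dir P n hp k₀ (fun a J hJ => (Om_mono (h1 a J hJ)).trans (Om_union _ _).le)
    (fun a J hJ => (Om_inter H (hR _) (hR' _)).ge.trans (Om_mono (h2 a J hJ))) k

/-- TAIL NULLITY for region families `R t = topR ∩ (E ∪ (E' ∩ ge (t₀ + t M)))`-like families, stated
abstractly.  `Htp`: `s i` is a homotopy for `θ z_i^M - e i`, where the "error scalars" `e i` map
`Vf t` into `Wf t`.  Use `cube_tn` with `c i I = mulL (c_I i)` from `chart_partition I M`: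
`(d s + s d) a b = (θ z^M - e) δ_ab + κ`, `κ ∈ kk K` and `κ ≠ 0 → deg a = deg b`;
`sum_partition` kills the main term; `κ • c x` is handled by `hK` (`smul_mem_Om'` with `t := tb`). -/
theorem RC_tn {K M : ℕ} (θ : B) (e : Fin (n + 1) → B) (s : Fin (n + 1) → Matrix P.ι P.ι B)
    (hs : ∀ i, P.Htp (kk W n ξ K) (θ * zB W n B i ^ M - e i) (s i))
    (Vf Wf : ℕ → P.ι × V n → Set (Mon n)) (sV : ∀ t c, Stab (Vf t c))
    (hV : ∀ t, t ≤ n → ∀ c, Vf (t + 1) c ⊆ Vf t c) (hW : ∀ t, t ≤ n → ∀ c, Wf (t + 1) c ⊆ Wf t c)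
    (cV : ∀ t, t ≤ n → ∀ c, ∀ ν ∈ chartR c.2 M, ∀ μ ∈ Vf (t + 1) c, ν + μ ∈ Vf t c)
    (cW : ∀ t, t ≤ n → ∀ c, ∀ ν ∈ chartR c.2 M, ∀ μ ∈ Wf (t + 1) c, ν + μ ∈ Wf t c)
    (sVf : ∀ t i a b I, s i a b ≠ 0 → Vf t (b, I) ⊆ Vf t (a, I))
    (sWf : ∀ t i a b I, s i a b ≠ 0 → Wf t (b, I) ⊆ Wf t (a, I))
    (h3 : ∀ t a I k, I k = true → Vf t (a, Function.update I k false) ⊆ Vf t (a, I))
    (he : ∀ t, t ≤ n → ∀ i c, ∀ x ∈ Om W ξ (Vf t c), e i • x ∈ Om W ξ (Wf t c))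
    (tb : ℤ)
    (hK : ∀ t, t ≤ n → ∀ i a b I, (a = b ∨ (P.d * s i + s i * P.d) a b ≠ 0) →
      ∀ μ ∈ Vf t (b, I), (μ.1 < tb ∨ tb + K ≤ μ.1) → μ ∈ Wf t (a, I))
    (h5 : ∀ t, t ≤ n → St (DD W n ξ P) (RC W ξ P (Wf t)))
    (h6 : ∀ t, t ≤ n → ∀ k, ∀ x ∈ RC W ξ P (Vf t) k,
      DD W n ξ P (DD W n ξ P x) ∈ RC W ξ P (Wf t) (k - 2)) (k : ℤ) :
    ∀ x ∈ Zc (DD W n ξ P) (RC W ξ P (Vf (n + 1))) (RC W ξ P (Wf (n + 1))) k,
      θ ^ (n + 1) • x ∈ Bd (DD W n ξ P) (RC W ξ P (Vf 0)) (RC W ξ P (Wf 0)) k := by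
  choose c hc1 hc2 using fun I : V n => chart_partition (W := W) I M
  refine cube_tn P n θ s (fun i I => mulL ξ (c I i)) (fun t x => Om W ξ (Vf t x)) (fun t x => Om W ξ (Wf t x))
    (fun t ht x => Om_mono (hV t ht x)) (fun t ht x => Om_mono (hW t ht x)) (fun i => (hs i).hdeg)
    (fun t ht i a b I h x hx => mulL_mem_Om (hc2 I i)
      (fun ν hν μ hμ => sVf t i a b I h (cV t ht (b, I) ν hν μ hμ)) hx)
    (fun t ht i a b I h x hx => mulL_mem_Om (hc2 I i)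
      (fun ν hν μ hμ => sWf t i a b I h (cW t ht (b, I) ν hν μ hμ)) hx)
    (fun t a I k hk => Om_mono (h3 t a I k hk)) (fun t ht I x hx a => ?_) h5 h6 k
  have hy : ∀ i b, mulL ξ (c I i) (x b) ∈ Om W ξ (Vf t (b, I)) := fun i b =>
    mulL_mem_Om (hc2 I i) (fun ν hν μ hμ => cV t ht (b, I) ν hν μ hμ) (hx b)
  have hi : ∀ i, ∑ b, (P.d * s i + s i * P.d) a b • mulL ξ (c I i) (x b) =
      (∑ b, (P.d * s i + s i * P.d - (θ * zB W n B i ^ M - e i) • (1 : Matrix P.ι P.ι B)) a b •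
        mulL ξ (c I i) (x b)) + (θ • zB W n B i ^ M • mulL ξ (c I i) (x a) - e i • mulL ξ (c I i) (x a)) := by
    intro i
    have h1 : ∑ b, ((θ * zB W n B i ^ M - e i) • (1 : Matrix P.ι P.ι B)) a b • mulL ξ (c I i) (x b) =
        θ • zB W n B i ^ M • mulL ξ (c I i) (x a) - e i • mulL ξ (c I i) (x a) := by
      rw [Finset.sum_eq_single a (fun b _ hb => by simp [Matrix.one_apply_ne hb.symm]) (by simp)]
      rw [Matrix.smul_apply, Matrix.one_apply_eq, smul_eq_mul, mul_one, sub_smul, mul_smul]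
    rw [← h1, ← Finset.sum_add_distrib]
    refine Finset.sum_congr rfl fun b _ => ?_
    rw [← add_smul, Matrix.sub_apply, sub_add_cancel]
  have h0 : ∑ i, θ • zB W n B i ^ M • mulL ξ (c I i) (x a) = θ • x a := by
    rw [← Finset.smul_sum, sum_partition (hc1 I)]
  simp only [hi, Finset.sum_add_distrib, Finset.sum_sub_distrib, h0]
  rw [add_comm, ← sub_sub, sub_sub_cancel]
  refine Submodule.sub_mem _ (Submodule.sum_mem _ fun i _ => he t ht i (a, I) _ (hy i a))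
    (Submodule.sum_mem _ fun i _ => Submodule.sum_mem _ fun b _ => ?_)
  by_cases hab : a = b ∨ (P.d * s i + s i * P.d) a b ≠ 0
  · exact smul_mem_Om' (sV t (b, I)) tb (hK t ht i a b I hab) ((hs i).heq a b) (hy i b)
  · rw [not_or, not_not] at hab
    rw [Matrix.sub_apply, hab.2, Matrix.smul_apply, Matrix.one_apply_ne hab.1, smul_zero, sub_zero, zero_smul]
    exact Submodule.zero_mem _

variable (W) in
noncomputable def XC (ξ : B) (P : FC B) (α : P.ι → Fin n → ℤ) (c : P.ι → ℤ) :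
    Ch B (P.ι × V n → OO W n ξ) := RC W ξ P (fun x => cutR (α x.1) (c x.1) x.2)

/-- admissible twist and cut -/
def Adm (P : FC B) (q' : ℕ) (α : P.ι → Fin n → ℤ) (c : P.ι → ℤ) : Prop :=
  ∀ a b, P.d a b ≠ 0 → α b ≤ α a ∧ c a ≤ c b + q'

theorem XC_anti (α : P.ι → Fin n → ℤ) {c c' : P.ι → ℤ} (h : c ≤ c') :
    XC W ξ P α c' ≤ XC W ξ P α c := by
  refine RC_mono fun x μ hμ => ⟨hμ.1, hμ.2.imp_left fun h1 => ?_⟩
  exact (h x.1).trans h1

theorem cutb_update (α : Fin n → ℤ) (t : ℤ) (I : V n) (k : Fin n) :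
    cutR α t (Function.update I k false) ⊆ cutR α t I :=
  fun _ hμ => ⟨topR_update I k hμ.1, hμ.2.imp_right fun h => bq_update α I k h⟩

theorem XC_st {q' : ℕ} (hE : P.Ent (nn W n B ^ q')) {α : P.ι → Fin n → ℤ} {c : P.ι → ℤ}
    (h : Adm P q' α c) : St (DD W n ξ P) (XC W ξ P α c) := by
  refine RC_st hE (fun x => stab_cutR _ _ _) c (fun a b I hab μ hμ h1 => ⟨hμ.1, ?_⟩)
    fun a I k _ => cutb_update _ _ I k
  obtain ⟨h2, h3⟩ := h a b hab
  rcases hμ.2 with h4 | h4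
  · have h5 : c b ≤ μ.1 := h4
    exact Or.inl (show c a ≤ μ.1 by omega)
  · exact Or.inr (bq_mono h2 I h4)

theorem XC_pair {q' K : ℕ} (hE : P.Ent (nn W n B ^ q')) (hsq : P.Sq (kk W n ξ K))
    {α : P.ι → Fin n → ℤ} {c c' : P.ι → ℤ} (h : Adm P q' α c) (h' : Adm P q' α c') (hc : c ≤ c')
    (hK : ∀ a b, c' a ≤ c b + K) : Pair (DD W n ξ P) (XC W ξ P α c) (XC W ξ P α c') := by
  refine ⟨XC_anti α hc, XC_st hE h, XC_st hE h', ?_⟩
  refine RC_dd hsq (fun x => stab_cutR _ _ _) c fun a m b I ham hmb μ hμ h1 => ⟨hμ.1, ?_⟩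
  rcases hμ.2 with h4 | h4
  · have h5 : c b ≤ μ.1 := h4
    have h6 := hK a b
    exact Or.inl (show c' a ≤ μ.1 by omega)
  · exact Or.inr (bq_mono ((h m b hmb).1.trans (h a m ham).1) I h4)

/-- upper chain of the slab lemma -/
def slabU (α : Fin n → ℤ) (t t' : ℤ) (ty : V n) (I : V n) : Set (Mon n) :=
  cutR α t' I ∪ (topR I ∩ ge t ∩ {μ | ∀ k, ty k = false → μ.2 k ≤ α k + μ.1})

/-- lower chain of the slab lemma -/
def slabL (α : Fin n → ℤ) (t t' : ℤ) (ty : V n) (I : V n) : Set (Mon n) :=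
  cutR α t' I ∪ (topR I ∩ ge t ∩ {μ | ∀ k, ty k = false → μ.2 k ≤ α k + μ.1} ∩
    {μ | ∃ k, ty k = true ∧ 0 ≤ μ.2 k})

def Pure (α : Fin n → ℤ) (t t' : ℤ) (ty : V n) : Prop :=
  ∀ v, t ≤ v → v < t' → ∀ k, (ty k = false → -1 ≤ α k + v) ∧ (ty k = true → α k + v ≤ -1)

def boxR (α : Fin n → ℤ) (t t' : ℤ) (ty : V n) : Set (Mon n) :=
  {μ | t ≤ μ.1 ∧ μ.1 < t' ∧ ∀ k, (ty k = false → 0 ≤ μ.2 k ∧ μ.2 k ≤ α k + μ.1) ∧
    (ty k = true → α k + μ.1 < μ.2 k ∧ μ.2 k < 0)}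

theorem cutb_stab_le (α : Fin n → ℤ) (p : Fin n → Prop) :
    Stab {μ : Mon n | ∀ k, p k → μ.2 k ≤ α k + μ.1} := by
  intro μ hμ S k hk
  have := hμ k hk
  simp only [stp, Prod.fst_add, Prod.snd_add, Pi.add_apply]
  split_ifs <;> omega

theorem cutb_stab_ex (p : Fin n → Prop) : Stab {μ : Mon n | ∃ k, p k ∧ 0 ≤ μ.2 k} := by
  rintro μ ⟨k, hk, h⟩ S
  refine ⟨k, hk, ?_⟩
  simp only [stp, Prod.snd_add, Pi.add_apply]
  split_ifs <;> omega

theorem stab_slabU (α : Fin n → ℤ) (t t' : ℤ) (ty I : V n) : Stab (slabU α t t' ty I) := by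
  exact (stab_cutR α t' I).union (((stab_topR I).inter (stab_ge t)).inter (cutb_stab_le α _))

theorem stab_slabL (α : Fin n → ℤ) (t t' : ℤ) (ty I : V n) : Stab (slabL α t t' ty I) := by
  exact (stab_cutR α t' I).union
    ((((stab_topR I).inter (stab_ge t)).inter (cutb_stab_le α _)).inter (cutb_stab_ex _))

theorem slab_diff (α : Fin n → ℤ) (t t' : ℤ) (ty I : V n) :
    slabU α t t' ty I \ slabL α t t' ty I = if I = ty then boxR α t t' ty else ∅ := by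
  have key : ∀ μ, μ ∈ slabU α t t' ty I \ slabL α t t' ty I ↔ I = ty ∧ μ ∈ boxR α t t' ty := by
    intro μ
    constructor
    · rintro ⟨h1, h2⟩
      have h3 : μ ∉ cutR α t' I := fun h => h2 (Or.inl h)
      obtain ⟨⟨a1, a2⟩, a3⟩ := h1.resolve_left h3
      have a4 : ∀ k, ty k = true → μ.2 k < 0 := fun k hk =>
        not_le.1 fun h => h2 (Or.inr ⟨⟨⟨a1, a2⟩, a3⟩, k, hk, h⟩)
      have a5 : μ.1 < t' := not_le.1 fun h => h3 ⟨a1, Or.inl h⟩
      have a6 : ∀ k, I k = true → α k + μ.1 < μ.2 k := fun k hk =>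
        not_le.1 fun h => h3 ⟨a1, Or.inr ⟨k, hk, h⟩⟩
      have hI : I = ty := by
        funext k
        cases h : ty k
        · by_contra h'
          exact absurd (a3 k h) (not_le.2 (a6 k (by simpa using h')))
        · by_contra h'
          exact absurd (a1 k (by simpa using h')) (not_le.2 (a4 k h))
      subst hI
      exact ⟨rfl, a2, a5, fun k => ⟨fun hk => ⟨a1 k hk, a3 k hk⟩, fun hk => ⟨a6 k hk, a4 k hk⟩⟩⟩
    · rintro ⟨rfl, a1, a2, a3⟩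
      refine ⟨Or.inr ⟨⟨fun k hk => ((a3 k).1 hk).1, a1⟩, fun k hk => ((a3 k).1 hk).2⟩, ?_⟩
      rintro (⟨-, h | ⟨k, hk, h⟩⟩ | ⟨-, k, hk, h⟩)
      · exact absurd a2 (not_lt.2 h)
      · exact absurd ((a3 k).2 hk).1 (not_lt.2 h)
      · exact absurd ((a3 k).2 hk).2 (not_lt.2 h)
  ext μ
  rw [key]
  split_ifs with h <;> simp [h]

/-- the regions between `cutR t` and `cutR t'` used in the slab lemma -/
def cutbR (α : Fin n → ℤ) (t t' : ℤ) (A : Set (Mon n)) (I : V n) : Set (Mon n) :=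
  cutR α t' I ∪ (topR I ∩ ge t ∩ A)

theorem cutbR_stab (α : Fin n → ℤ) (t t' : ℤ) {A : Set (Mon n)} (hA : Stab A) (I : V n) :
    Stab (cutbR α t t' A I) :=
  (stab_cutR α t' I).union (((stab_topR I).inter (stab_ge t)).inter hA)

theorem cutbR_top {α : Fin n → ℤ} {t t' : ℤ} {A : Set (Mon n)} {I : V n} {μ : Mon n}
    (h : μ ∈ cutbR α t t' A I) : μ ∈ topR I := h.elim (fun h => h.1) fun h => h.1.1

variable (W) in
/-- the chain of `cutbR` -/
noncomputable def cutbC (ξ : B) (P : FC B) (α : P.ι → Fin n → ℤ) (c c' : P.ι → ℤ)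
    (A : P.ι → Set (Mon n)) : Ch B (P.ι × V n → OO W n ξ) :=
  RC W ξ P fun x => cutbR (α x.1) (c x.1) (c' x.1) (A x.1) x.2

theorem cutbC_mono (α : P.ι → Fin n → ℤ) (c c' : P.ι → ℤ) {A A' : P.ι → Set (Mon n)}
    (h : ∀ a, A a ⊆ A' a) : cutbC W ξ P α c c' A ≤ cutbC W ξ P α c c' A' :=
  RC_mono fun x _ hμ => hμ.imp_right fun h1 => ⟨h1.1, h x.1 h1.2⟩

theorem le_cutbC (α : P.ι → Fin n → ℤ) (c c' : P.ι → ℤ) (A : P.ι → Set (Mon n)) :
    XC W ξ P α c' ≤ cutbC W ξ P α c c' A :=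
  RC_mono fun _ => Set.subset_union_left

theorem cutbC_le (α : P.ι → Fin n → ℤ) {c c' : P.ι → ℤ} (hc : c ≤ c') (A : P.ι → Set (Mon n)) :
    cutbC W ξ P α c c' A ≤ XC W ξ P α c :=
  RC_mono fun x _ hμ => hμ.elim (fun h => ⟨h.1, h.2.imp_left fun h1 => (hc x.1).trans h1⟩)
    fun h => ⟨h.1.1, Or.inl h.1.2⟩

theorem cutbC_st {q' : ℕ} (hE : P.Ent (nn W n B ^ q')) {α : P.ι → Fin n → ℤ} {c c' : P.ι → ℤ}
    (h : Adm P q' α c) (h' : Adm P q' α c') {A : P.ι → Set (Mon n)} (hA : ∀ a, Stab (A a))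
    (hm : ∀ a b, α b ≤ α a → A b ⊆ A a) : St (DD W n ξ P) (cutbC W ξ P α c c' A) := by
  have e : cutbC W ξ P α c c' A =
      XC W ξ P α c' ⊔ RC W ξ P fun x => topR x.2 ∩ ge (c x.1) ∩ A x.1 := RC_union _ _
  rw [e]
  refine (XC_st hE h').sup (RC_st hE (fun x => ((stab_topR _).inter (stab_ge _)).inter (hA _)) c
    (fun a b I hab μ hμ h1 => ⟨⟨hμ.1.1, ?_⟩, hm a b (h a b hab).1 hμ.2⟩)
    fun a I k _ μ hμ => ⟨⟨topR_update I k hμ.1.1, hμ.1.2⟩, hμ.2⟩)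
  have h2 := (h a b hab).2
  have h3 : c b ≤ μ.1 := hμ.1.2
  show c a ≤ μ.1
  omega

theorem cutb_top_of {J : V n} {k₀ : Fin n} {μ : Mon n} (h : μ ∈ topR (Function.update J k₀ true))
    (h0 : 0 ≤ μ.2 k₀) : μ ∈ topR J := by
  intro k hk
  by_cases e : k = k₀
  · rw [e]; exact h0
  · exact h k (by rw [Function.update_of_ne e]; exact hk)

theorem cutb_bq_of {α : Fin n → ℤ} {J : V n} {k₀ : Fin n} {μ : Mon n}
    (h : μ ∈ bq α (Function.update J k₀ true)) (h0 : μ ∉ bq α J) : μ.2 k₀ ≤ α k₀ + μ.1 := by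
  obtain ⟨k, hk, h⟩ := h
  by_cases e : k = k₀
  · rw [← e]; exact h
  · rw [Function.update_of_ne e] at hk
    exact absurd ⟨k, hk, h⟩ h0

/-- SLAB LEMMA.  Upper part: induct over finsets `J` of type-`false` directions with
`U^J = cutR c' ∪ (topR ∩ ge c ∩ {∀ k ∈ J, μ_k ≤ α_k + v})` (note `U^∅ = cutR c`), each step is
`RC_van_dir`, glue with `Van.mid`.  Lower part: `L^J = cutR c' ∪ (… ∩ {∃ k ∈ J, 0 ≤ μ_k})` over finsets
of type-`true` directions.  Stability: each chain is `XC c' ⊔ RC (second part)` (`RC_union`); use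
`XC_st` for the first and `RC_st2` with `t := c` for the second part. -/
theorem slab {q' K : ℕ} (H : Hx n pp ξ ρ) (hE : P.Ent (nn W n B ^ q')) (hsq : P.Sq (kk W n ξ K))
    {α : P.ι → Fin n → ℤ} {c c' : P.ι → ℤ} (h : Adm P q' α c) (h' : Adm P q' α c') (hc : c ≤ c')
    (hK : ∀ a b, c' a ≤ c b + K) (ty : V n) (hty : ∀ a, Pure (α a) (c a) (c' a) ty) :
    St (DD W n ξ P) (RC W ξ P fun x => slabU (α x.1) (c x.1) (c' x.1) ty x.2) ∧
    St (DD W n ξ P) (RC W ξ P fun x => slabL (α x.1) (c x.1) (c' x.1) ty x.2) ∧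
    (∀ k, Van (DD W n ξ P) (XC W ξ P α c)
      (RC W ξ P fun x => slabU (α x.1) (c x.1) (c' x.1) ty x.2) k) ∧
    (∀ k, Van (DD W n ξ P) (RC W ξ P fun x => slabL (α x.1) (c x.1) (c' x.1) ty x.2)
      (XC W ξ P α c') k) := by
  have hP := XC_pair (ξ := ξ) hE hsq h h' hc hK
  -- the two families
  set AU : Finset (Fin n) → P.ι → Set (Mon n) :=
    fun J a => {μ | ∀ k, k ∈ J → μ.2 k ≤ α a k + μ.1} with hAU
  set AL : Finset (Fin n) → P.ι → Set (Mon n) :=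
    fun J a => {μ | ∀ k, ty k = false → μ.2 k ≤ α a k + μ.1} ∩ {μ | ∃ k, k ∈ J ∧ 0 ≤ μ.2 k} with hAL
  have sU : ∀ J a, Stab (AU J a) := fun J a => cutb_stab_le _ _
  have sL : ∀ J a, Stab (AL J a) := fun J a => (cutb_stab_le _ _).inter (cutb_stab_ex _)
  have stU : ∀ J, St (DD W n ξ P) (cutbC W ξ P α c c' (AU J)) := fun J =>
    cutbC_st hE h h' (sU J) fun a b hab μ hμ k hk => (hμ k hk).trans (Int.add_le_add_right (hab k) _)
  have stL : ∀ J, St (DD W n ξ P) (cutbC W ξ P α c c' (AL J)) := fun J =>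
    cutbC_st hE h h' (sL J) fun a b hab μ hμ =>
      ⟨fun k hk => (hμ.1 k hk).trans (Int.add_le_add_right (hab k) _), hμ.2⟩
  have vU : ∀ J : Finset (Fin n), (∀ k ∈ J, ty k = false) →
      ∀ k, Van (DD W n ξ P) (XC W ξ P α c) (cutbC W ξ P α c c' (AU J)) k := by
    intro J
    induction J using Finset.induction_on with
    | empty =>
      intro _ k x hx
      refine Submodule.mem_sup_right (RC_mono (R := fun x => cutR (α x.1) (c x.1) x.2) ?_ k hx.1)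
      rintro x μ ⟨h1, h2 | h2⟩
      · exact Or.inr ⟨⟨h1, h2⟩, fun k hk => absurd hk (Finset.notMem_empty k)⟩
      · exact Or.inl ⟨h1, Or.inr h2⟩
    | insert k₀ J _ ih =>
      intro hJ k
      have hle : cutbC W ξ P α c c' (AU (insert k₀ J)) ≤ cutbC W ξ P α c c' (AU J) :=
        cutbC_mono α c c' fun a μ hμ k hk => hμ k (Finset.mem_insert_of_mem hk)
      refine Van.mid (hP.quot (le_cutbC α c c' _) (cutbC_le α hc _) (stU _)) hle (cutbC_le α hc _) (stU J)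
        ?_ (ih (fun k hk => hJ k (Finset.mem_insert_of_mem hk)) k)
      refine RC_van_dir H (fun x => cutbR_stab _ _ _ (sU J _) _) (fun x => cutbR_stab _ _ _ (sU _ _) _)
        ((hP.sub (le_cutbC α c c' _) (cutbC_le α hc _) (stU J)).quot (le_cutbC α c c' _) hle (stU _)) k₀
        (fun a I _ μ hμ => ?_) (fun a I _ μ hμ => ?_) k
      · by_cases h1 : μ ∈ cutR (α a) (c' a) (Function.update I k₀ true)
        · exact Or.inr (Or.inl h1)
        · obtain ⟨⟨a1, a2⟩, a3⟩ := hμ.resolve_left h1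
          have a4 : μ.1 < c' a := not_le.1 fun h => h1 ⟨a1, Or.inl h⟩
          have a5 : α a k₀ + μ.1 < μ.2 k₀ :=
            not_le.1 fun h => h1 ⟨a1, Or.inr ⟨k₀, Function.update_self _ _ _, h⟩⟩
          have a6 := (hty a μ.1 a2 a4 k₀).1 (hJ k₀ (Finset.mem_insert_self _ _))
          exact Or.inl (Or.inr ⟨⟨cutb_top_of a1 (by omega), a2⟩, a3⟩)
      · by_cases h1 : μ ∈ cutR (α a) (c' a) I
        · exact Or.inl h1
        · obtain ⟨⟨a1, a2⟩, a3⟩ := hμ.1.resolve_left h1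
          refine Or.inr ⟨⟨a1, a2⟩, ?_⟩
          rcases hμ.2 with ⟨-, h2 | h2⟩ | h2
          · exact absurd ⟨a1, Or.inl h2⟩ h1
          · intro j hj
            rcases Finset.mem_insert.1 hj with rfl | hj
            · exact cutb_bq_of h2 fun h => h1 ⟨a1, Or.inr h⟩
            · exact a3 j hj
          · exact h2.2
  have vL : ∀ J : Finset (Fin n), (∀ k ∈ J, ty k = true) →
      ∀ k, Van (DD W n ξ P) (cutbC W ξ P α c c' (AL J)) (XC W ξ P α c') k := by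
    intro J
    induction J using Finset.induction_on with
    | empty =>
      intro _ k x hx
      refine Submodule.mem_sup_right (RC_mono (R' := fun x => cutR (α x.1) (c' x.1) x.2) ?_ k hx.1)
      rintro x μ (h1 | ⟨-, -, j, hj, -⟩)
      · exact h1
      · exact absurd hj (Finset.notMem_empty j)
    | insert k₀ J _ ih =>
      intro hJ k
      have hle : cutbC W ξ P α c c' (AL J) ≤ cutbC W ξ P α c c' (AL (insert k₀ J)) :=
        cutbC_mono α c c' fun a μ ⟨h1, j, hj, h2⟩ => ⟨h1, j, Finset.mem_insert_of_mem hj, h2⟩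
      have hP' := hP.sub (le_cutbC α c c' _) (cutbC_le α hc _) (stL (insert k₀ J))
      refine Van.mid hP' (le_cutbC α c c' _) hle (stL J)
        (ih (fun k hk => hJ k (Finset.mem_insert_of_mem hk)) k) ?_
      refine RC_van_dir H (fun x => cutbR_stab _ _ _ (sL _ _) _) (fun x => cutbR_stab _ _ _ (sL J _) _)
        (hP'.quot (le_cutbC α c c' _) hle (stL J)) k₀ (fun a I _ μ hμ => ?_) (fun a I hI μ hμ => ?_) k
      · rcases hμ with h1 | ⟨⟨a1, a2⟩, a3, j, hj, a4⟩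
        · exact Or.inr (Or.inl h1)
        · rcases Finset.mem_insert.1 hj with rfl | hj'
          · exact Or.inl (Or.inr ⟨⟨cutb_top_of a1 a4, a2⟩, a3, j, hj, a4⟩)
          · exact Or.inr (Or.inr ⟨⟨a1, a2⟩, a3, j, hj', a4⟩)
      · by_cases h1 : μ ∈ cutR (α a) (c' a) I
        · exact Or.inl h1
        · obtain ⟨⟨a1, a2⟩, -⟩ := hμ.1.resolve_left h1
          refine Or.inr ⟨⟨a1, a2⟩, ?_⟩
          rcases hμ.2 with ⟨-, h2 | h2⟩ | h2
          · exact absurd ⟨a1, Or.inl h2⟩ h1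
          · have a3 : μ.2 k₀ ≤ α a k₀ + μ.1 := cutb_bq_of h2 fun h => h1 ⟨a1, Or.inr h⟩
            have a4 : μ.1 < c' a := not_le.1 fun h => h1 ⟨a1, Or.inl h⟩
            have a5 := (hty a μ.1 a2 a4 k₀).2 (hJ k₀ (Finset.mem_insert_self _ _))
            have a6 := a1 k₀ hI
            omega
          · exact h2.2
  have eU : (RC W ξ P fun x => slabU (α x.1) (c x.1) (c' x.1) ty x.2) =
      cutbC W ξ P α c c' (AU (Finset.univ.filter fun k => ty k = false)) := by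
    simp only [cutbC, cutbR, slabU, hAU, Finset.mem_filter, Finset.mem_univ, true_and]
  have eL : (RC W ξ P fun x => slabL (α x.1) (c x.1) (c' x.1) ty x.2) =
      cutbC W ξ P α c c' (AL (Finset.univ.filter fun k => ty k = true)) := by
    simp only [cutbC, cutbR, slabL, hAL, Finset.mem_filter, Finset.mem_univ, true_and, Set.inter_assoc]
  rw [eU, eL]
  exact ⟨stU _, stL _, vU _ fun k hk => (Finset.mem_filter.1 hk).2, vL _ fun k hk => (Finset.mem_filter.1 hk).2⟩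

end

end Crest.Agent.R183
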