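import Crest.Agent.R183.Cut

/-! # R183 / Cut2 : vanishing, smallness and Euler characteristic of cut pairs. -/

set_option autoImplicit false

namespace Crest.Agent.R183

section
variable {n : ℕ} {W : Type} [CommRing W] {B : Type} [CommRing B] [Algebra (Pz W n) B]
  {ξ : B} {P : FC B} {pp : W} {ρ : ℕ}

/-- vertex carrying the cohomology of `O(α + v)` -/
noncomputable def tyV (α : Fin n → ℤ) (v : ℤ) : V n := fun k => decide (α k + v < -1)

/-- INDUCTION STEP (use with strong induction on `#{b | c b ≠ c' b}`, first step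
`c₁ = update c b (c' b)`).  Pick `b` with `c b ≠ c' b` of maximal degree: if `d b b' ≠ 0` then
`deg b' > deg b`, so `c b' = c' b'`. -/
theorem exists_step {q' : ℕ} {α : P.ι → Fin n → ℤ} {c c' : P.ι → ℤ} (h : Adm P q' α c)
    (h' : Adm P q' α c') (hc : c ≤ c') (hne : c ≠ c') :
    ∃ b, c b < c' b ∧ ∀ v, c b ≤ v → v ≤ c' b → Adm P q' α (Function.update c b v) := by
  classical
  have hex : (Finset.univ.filter fun a => c a ≠ c' a).Nonempty := by
    obtain ⟨a, ha⟩ := Function.ne_iff.1 hne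
    exact ⟨a, Finset.mem_filter.2 ⟨Finset.mem_univ _, ha⟩⟩
  obtain ⟨b, hb, hmax⟩ := Finset.exists_max_image _ P.deg hex
  have hb' : c b ≠ c' b := (Finset.mem_filter.1 hb).2
  refine ⟨b, lt_of_le_of_ne (hc b) hb', fun v hv1 hv2 a a' hd => ⟨(h a a' hd).1, ?_⟩⟩
  have hdeg := P.hd a a' hd
  by_cases ha : a = b
  · subst ha
    have ha' : a' ≠ a := by
      rintro rfl
      omega
    have heq : c a' = c' a' := by
      by_contra hne'
      have := hmax a' (Finset.mem_filter.2 ⟨Finset.mem_univ _, hne'⟩)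
      omega
    rw [Function.update_self, Function.update_of_ne ha', heq]
    exact hv2.trans (h' a a' hd).2
  · rw [Function.update_of_ne ha]
    by_cases ha' : a' = b
    · subst ha'
      rw [Function.update_self]
      have := (h a a' hd).2
      omega
    · rw [Function.update_of_ne ha']
      exact (h a a' hd).2

theorem cut2a_cut_le_slabL (α : Fin n → ℤ) (t t' : ℤ) (ty I : V n) :
    cutR α t' I ⊆ slabL α t t' ty I := Set.subset_union_left

theorem cut2a_slabL_le (α : Fin n → ℤ) (t t' : ℤ) (ty I : V n) :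
    slabL α t t' ty I ⊆ slabU α t t' ty I :=
  Set.union_subset_union_right _ Set.inter_subset_left

theorem cut2a_slabU_le (α : Fin n → ℤ) {t t' : ℤ} (h : t ≤ t') (ty I : V n) :
    slabU α t t' ty I ⊆ cutR α t I := by
  rintro μ (⟨h1, h2 | h2⟩ | ⟨⟨h1, h2⟩, -⟩)
  · exact ⟨h1, Or.inl (h.trans h2)⟩
  · exact ⟨h1, Or.inr h2⟩
  · exact ⟨h1, Or.inl h2⟩

theorem cut2a_single {α : P.ι → Fin n → ℤ} {c : P.ι → ℤ} {b : P.ι} {v : ℤ} (ty : V n)
    (x : P.ι × V n) (hx : x ≠ (b, ty)) :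
    slabU (α x.1) (c x.1) (Function.update c b v x.1) ty x.2 ⊆
      slabL (α x.1) (c x.1) (Function.update c b v x.1) ty x.2 := by
  rw [← Set.sdiff_eq_empty, slab_diff]
  split_ifs with hI
  · have hb : x.1 ≠ b := fun hb => hx (Prod.ext hb hI)
    rw [Function.update_of_ne hb]
    ext μ
    simp only [boxR, Set.mem_ofPred_eq, Set.mem_empty_iff_false, iff_false]
    rintro ⟨h1, h2, -⟩
    omega
  · rfl

theorem cut2a_pure {α : P.ι → Fin n → ℤ} {c : P.ι → ℤ} {b : P.ι} {v : ℤ} {ty : V n}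
    (hty : Pure (α b) (c b) v ty) (a : P.ι) :
    Pure (α a) (c a) (Function.update c b v a) ty := by
  by_cases ha : a = b
  · subst ha
    rwa [Function.update_self]
  · rw [Function.update_of_ne ha]
    intro w h1 h2
    omega

theorem cut2a_le {c : P.ι → ℤ} {b : P.ι} {v : ℤ} (hv : c b ≤ v) : c ≤ Function.update c b v := by
  intro a
  by_cases ha : a = b
  · subst ha
    rwa [Function.update_self]
  · rw [Function.update_of_ne ha]

theorem cut2a_diff {α : P.ι → Fin n → ℤ} {c : P.ι → ℤ} {b : P.ι} {v : ℤ} (ty : V n) :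
    slabU (α b) (c b) (Function.update c b v b) ty ty \
      slabL (α b) (c b) (Function.update c b v b) ty ty = boxR (α b) (c b) v ty := by
  rw [slab_diff, if_pos rfl, Function.update_self]

/-- one index, pure window: `slab`, `hl_sandwich`, `single_hl`/`single_van`, `slab_diff`, `len_Om`. -/
theorem piece_hl {q' K : ℕ} (H : Hx n pp ξ ρ) (hE : P.Ent (nn W n B ^ q'))
    (hsq : P.Sq (kk W n ξ K)) {α : P.ι → Fin n → ℤ} {c : P.ι → ℤ} {b : P.ι} {v : ℤ}
    (h : Adm P q' α c) (h' : Adm P q' α (Function.update c b v)) (hv : c b ≤ v)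
    (hK : ∀ a a', Function.update c b v a ≤ c a' + K) (ty : V n) (hty : Pure (α b) (c b) v ty)
    (s : Finset (Mon n)) (hs : (↑s : Set (Mon n)) = boxR (α b) (c b) v ty) (k : ℤ) :
    hl (DD W n ξ P) (XC W ξ P α c) (XC W ξ P α (Function.update c b v)) k =
      if k = tdeg P n (b, ty) then ((s.card * ρ : ℕ) : ℕ∞) else 0 := by
  have hc := cut2a_le hv
  obtain ⟨sU, sL, vU, vL⟩ := slab H hE hsq h h' hc hK ty (cut2a_pure hty)
  have hp := XC_pair hE hsq h h' hc hK
  have h1 : XC W ξ P α (Function.update c b v) ≤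
      RC W ξ P fun x => slabL (α x.1) (c x.1) (Function.update c b v x.1) ty x.2 :=
    RC_mono fun x => cut2a_cut_le_slabL _ _ _ _ _
  have h2 : (RC W ξ P fun x => slabL (α x.1) (c x.1) (Function.update c b v x.1) ty x.2) ≤
      RC W ξ P fun x => slabU (α x.1) (c x.1) (Function.update c b v x.1) ty x.2 :=
    RC_mono fun x => cut2a_slabL_le _ _ _ _ _
  have h3 : (RC W ξ P fun x => slabU (α x.1) (c x.1) (Function.update c b v x.1) ty x.2) ≤
      XC W ξ P α c := RC_mono fun x => cut2a_slabU_le _ (hc x.1) _ _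
  have hp' := (hp.sub (h1.trans h2) h3 sU).quot h1 h2 sL
  have hle : (fun x : P.ι × V n =>
      Om W ξ (slabL (α x.1) (c x.1) (Function.update c b v x.1) ty x.2)) ≤
      fun x : P.ι × V n => Om W ξ (slabU (α x.1) (c x.1) (Function.update c b v x.1) ty x.2) :=
    fun x => Om_mono (cut2a_slabL_le _ _ _ _ _)
  have hsi : ∀ x : P.ι × V n, x ≠ (b, ty) →
      Om W ξ (slabU (α x.1) (c x.1) (Function.update c b v x.1) ty x.2) ≤
        Om W ξ (slabL (α x.1) (c x.1) (Function.update c b v x.1) ty x.2) :=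
    fun x hx => Om_mono (cut2a_single ty x hx)
  rw [hl_sandwich hp h1 h2 h3 sL sU vU vL k]
  split_ifs with hk
  · subst hk
    refine (single_hl P n hp' hle (b, ty) hsi).trans ?_
    exact len_Om H (stab_slabU _ _ _ _ _) (stab_slabL _ _ _ _ _) (cut2a_slabL_le _ _ _ _ _) s
      (hs.trans (cut2a_diff ty).symm)
  · exact van_iff_hl.1 (single_van P n hle (b, ty) hsi hk)

/-- `HSm.sandwich`, `single_hsm`, `len_Om`, `kap_Om_le` with
`Bs = Fintype.piFinset fun _ => Icc (-2A) (2A)`, `t = -A`, `r = 2A`. -/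
theorem piece_hsm {q' K : ℕ} (H : Hx n pp ξ ρ) (hE : P.Ent (nn W n B ^ q'))
    (hsq : P.Sq (kk W n ξ K)) {α : P.ι → Fin n → ℤ} {c : P.ι → ℤ} {b : P.ι} {v : ℤ}
    (h : Adm P q' α c) (h' : Adm P q' α (Function.update c b v)) (hv : c b ≤ v)
    (hK : ∀ a a', Function.update c b v a ≤ c a' + K) (ty : V n) (hty : Pure (α b) (c b) v ty)
    (A : ℕ) (hA1 : -(A : ℤ) ≤ c b) (hA2 : v ≤ A) (hA3 : ∀ k, |α b k| ≤ A) (θ : B) (kl : ℕ)
    (hkl : cl (kk W n ξ (2 * A) ⊔ zp W n B ⊔ Ideal.span {θ}) ≤ kl) (k : ℤ) :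
    HSm θ (((4 * A + 1) ^ n * kl : ℕ) : ℕ∞) (DD W n ξ P) (XC W ξ P α c)
      (XC W ξ P α (Function.update c b v)) k := by
  have hc := cut2a_le hv
  obtain ⟨sU, sL, vU, vL⟩ := slab H hE hsq h h' hc hK ty (cut2a_pure hty)
  have hp := XC_pair hE hsq h h' hc hK
  have h1 : XC W ξ P α (Function.update c b v) ≤
      RC W ξ P fun x => slabL (α x.1) (c x.1) (Function.update c b v x.1) ty x.2 :=
    RC_mono fun x => cut2a_cut_le_slabL _ _ _ _ _
  have h2 : (RC W ξ P fun x => slabL (α x.1) (c x.1) (Function.update c b v x.1) ty x.2) ≤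
      RC W ξ P fun x => slabU (α x.1) (c x.1) (Function.update c b v x.1) ty x.2 :=
    RC_mono fun x => cut2a_slabL_le _ _ _ _ _
  have h3 : (RC W ξ P fun x => slabU (α x.1) (c x.1) (Function.update c b v x.1) ty x.2) ≤
      XC W ξ P α c := RC_mono fun x => cut2a_slabU_le _ (hc x.1) _ _
  have hp' := (hp.sub (h1.trans h2) h3 sU).quot h1 h2 sL
  have hle : (fun x : P.ι × V n =>
      Om W ξ (slabL (α x.1) (c x.1) (Function.update c b v x.1) ty x.2)) ≤
      fun x : P.ι × V n => Om W ξ (slabU (α x.1) (c x.1) (Function.update c b v x.1) ty x.2) :=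
    fun x => Om_mono (cut2a_slabL_le _ _ _ _ _)
  have hsi : ∀ x : P.ι × V n, x ≠ (b, ty) →
      Om W ξ (slabU (α x.1) (c x.1) (Function.update c b v x.1) ty x.2) ≤
        Om W ξ (slabL (α x.1) (c x.1) (Function.update c b v x.1) ty x.2) :=
    fun x hx => Om_mono (cut2a_single ty x hx)
  refine HSm.sandwich hp h1 h2 h3 sL sU vU vL (single_hsm P n hp' hle (b, ty) hsi ?_ k)
  have hbox : ∀ μ ∈ boxR (α b) (c b) v ty, -(A : ℤ) ≤ μ.1 ∧ μ.1 < -(A : ℤ) + ((2 * A : ℕ) : ℤ) ∧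
      μ.2 ∈ Fintype.piFinset fun _ : Fin n => Finset.Icc (-(2 * A : ℤ)) (2 * A) := by
    rintro μ ⟨m1, m2, m3⟩
    refine ⟨by omega, by push_cast; omega, Fintype.mem_piFinset.2 fun j => ?_⟩
    have a3 := abs_le.1 (hA3 j)
    rw [Finset.mem_Icc]
    cases hj : ty j
    · have := (m3 j).1 hj
      omega
    · have := (m3 j).2 hj
      omega
  constructor
  · have hfin : (boxR (α b) (c b) v ty).Finite := by
      refine Set.Finite.subset (Finset.finite_toSet
        ((Finset.Ico (-(A : ℤ)) (-(A : ℤ) + ((2 * A : ℕ) : ℤ))) ×ˢ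
          (Fintype.piFinset fun _ : Fin n => Finset.Icc (-(2 * A : ℤ)) (2 * A)))) fun μ hμ => ?_
      obtain ⟨b1, b2, b3⟩ := hbox μ hμ
      exact Finset.mem_coe.2 (Finset.mem_product.2 ⟨Finset.mem_Ico.2 ⟨b1, b2⟩, b3⟩)
    have := len_Om H (stab_slabU (α b) (c b) (Function.update c b v b) ty ty)
      (stab_slabL (α b) (c b) (Function.update c b v b) ty ty) (cut2a_slabL_le _ _ _ _ _)
      hfin.toFinset (hfin.coe_toFinset.trans (cut2a_diff ty).symm)
    rw [this]
    exact ENat.natCast_ne_top _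
  · refine (kap_Om_le θ (stab_slabU (α b) (c b) (Function.update c b v b) ty ty)
      (stab_slabL (α b) (c b) (Function.update c b v b) ty ty) (cut2a_slabL_le _ _ _ _ _)
      (-(A : ℤ)) (2 * A) (Fintype.piFinset fun _ : Fin n => Finset.Icc (-(2 * A : ℤ)) (2 * A))
      fun μ m1 m2 => hbox μ ?_).trans ?_
    · rw [← cut2a_diff ty]
      exact ⟨m1, m2⟩
    · have hcard : (Fintype.piFinset fun _ : Fin n => Finset.Icc (-(2 * A : ℤ)) (2 * A)).card =
          (4 * A + 1) ^ n := by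
        rw [Fintype.card_piFinset, Finset.prod_const, Finset.card_univ, Fintype.card_fin,
          Int.card_Icc]
        congr 1
        omega
      rw [hcard, Nat.cast_mul]
      exact mul_le_mul_right hkl _

/-- the box of a single slice; `Pure α v (v+1) (tyV α v)` always holds. -/
theorem exists_box_slice (α : Fin n → ℤ) (v : ℤ) : ∃ s : Finset (Mon n),
    (↑s : Set (Mon n)) = boxR α v (v + 1) (tyV α v) ∧
    ((-1 : ℝ) ^ (Finset.univ.filter fun k => tyV α v k = true).card * (s.card : ℝ) =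
      ∏ k, ((α k + v + 1 : ℤ) : ℝ)) ∧ ((∃ k, α k + v = -1) → s.card = 0) := by
  classical
  let J : Fin n → Finset ℤ := fun k =>
    if α k + v < -1 then Finset.Ioo (α k + v) 0 else Finset.Icc 0 (α k + v)
  have hinj : Function.Injective fun b : Fin n → ℤ => ((v, b) : Mon n) :=
    fun b b' hb => (Prod.ext_iff.1 hb).2
  have hcard : ((Fintype.piFinset J).image fun b : Fin n → ℤ => ((v, b) : Mon n)).card =
      ∏ k, (J k).card := by
    rw [Finset.card_image_of_injective _ hinj, Fintype.card_piFinset]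
  refine ⟨(Fintype.piFinset J).image fun b : Fin n → ℤ => ((v, b) : Mon n), ?_, ?_, ?_⟩
  · ext μ
    simp only [Finset.coe_image, Set.mem_image, Finset.mem_coe, Fintype.mem_piFinset, boxR,
      Set.mem_ofPred_eq, tyV, decide_eq_false_iff_not, decide_eq_true_eq]
    constructor
    · rintro ⟨b, hb, rfl⟩
      refine ⟨le_rfl, by simp, fun k => ⟨fun hk => ?_, fun hk => ?_⟩⟩
      · have := hb k
        simp only [J, if_neg hk, Finset.mem_Icc] at this
        exact this
      · have := hb k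
        simp only [J, if_pos hk, Finset.mem_Ioo] at this
        exact this
    · rintro ⟨m1, m2, m3⟩
      have hv : μ.1 = v := by omega
      refine ⟨μ.2, fun k => ?_, Prod.ext hv.symm rfl⟩
      by_cases hk : α k + v < -1
      · have := (m3 k).2 hk
        simp only [J, if_pos hk, Finset.mem_Ioo]
        rwa [hv] at this
      · have := (m3 k).1 hk
        simp only [J, if_neg hk, Finset.mem_Icc]
        rwa [hv] at this
  · rw [hcard, ← Finset.prod_const, Finset.prod_filter, Nat.cast_prod, ← Finset.prod_mul_distrib]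
    refine Finset.prod_congr rfl fun k _ => ?_
    simp only [tyV, decide_eq_true_eq, J]
    split_ifs with hk
    · rw [Int.card_Ioo]
      have e : (((0 - (α k + v) - 1).toNat : ℕ) : ℤ) = -(α k + v + 1) := by omega
      have e' : (((0 - (α k + v) - 1).toNat : ℕ) : ℝ) = ((-(α k + v + 1) : ℤ) : ℝ) := by
        exact_mod_cast e
      rw [e']
      push_cast
      ring
    · rw [Int.card_Icc]
      have e : (((α k + v + 1 - 0).toNat : ℕ) : ℤ) = α k + v + 1 := by omega
      have e' : (((α k + v + 1 - 0).toNat : ℕ) : ℝ) = ((α k + v + 1 : ℤ) : ℝ) := by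
        exact_mod_cast e
      rw [e', one_mul]
  · rintro ⟨k, hk⟩
    rw [hcard]
    refine Finset.prod_eq_zero (Finset.mem_univ k) ?_
    simp only [J, hk, lt_irrefl, if_false]
    rfl

theorem cut2b_update_le {ι : Type} [DecidableEq ι] {c c' : ι → ℤ} (hc : c ≤ c') {b : ι} {v : ℤ}
    (h1 : c b ≤ v) (h2 : v ≤ c' b) : c ≤ Function.update c b v ∧ Function.update c b v ≤ c' :=
  ⟨le_update_iff.2 ⟨h1, fun _ _ => le_rfl⟩, update_le_iff.2 ⟨h2, fun a _ => hc a⟩⟩

theorem cut2b_hK {ι : Type} {K : ℕ} {c c' d d' : ι → ℤ} (hK : ∀ a b, c' a ≤ c b + K) (h1 : c ≤ d)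
    (h2 : d' ≤ c') (a b : ι) : d' a ≤ d b + K := by
  have e1 := hK a b
  have e2 : c b ≤ d b := h1 b
  have e3 : d' a ≤ c' a := h2 a
  omega

theorem cut2b_van_self {X : Type} [AddCommGroup X] [Module B X] (D : X →ₗ[B] X) (U : Ch B X) (k : ℤ) :
    Van D U U k := fun _ hx => le_Bd D U U k hx.1

theorem cut2b_pure (α : Fin n → ℤ) (v : ℤ) : Pure α v (v + 1) (tyV α v) := by
  intro w h1 h2 k
  simp only [tyV, decide_eq_false_iff_not, decide_eq_true_eq]
  omega

/-- induction by single slices -/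
theorem cut2b_ind {q' : ℕ} {α : P.ι → Fin n → ℤ} {c' : P.ι → ℤ} (h' : Adm P q' α c')
    (Q : (P.ι → ℤ) → Prop) (base : Q c')
    (step : ∀ c b, Adm P q' α c → c ≤ c' → c b < c' b → Adm P q' α (Function.update c b (c b + 1)) →
      Q (Function.update c b (c b + 1)) → Q c) (c : P.ι → ℤ) (h : Adm P q' α c) (hc : c ≤ c') : Q c := by
  induction hm : ∑ a, (c' a - c a).toNat using Nat.strong_induction_on generalizing c with
  | _ m ih =>
    by_cases hne : c = c'
    · rwa [hne]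
    · obtain ⟨b, h1, h2⟩ := exists_step h h' hc hne
      have h3 := h2 (c b + 1) (by omega) h1
      have h4 := cut2b_update_le hc (b := b) (v := c b + 1) (by omega) h1
      refine step c b h hc h1 h3 (ih _ ?_ _ h3 h4.2 rfl)
      rw [← hm]
      refine Finset.sum_lt_sum (fun a _ => ?_) ⟨b, Finset.mem_univ b, ?_⟩
      · have : c a ≤ Function.update c b (c b + 1) a := h4.1 a
        omega
      · rw [Function.update_self]
        omega

/-- (V): induction with `exists_step`; inside a piece induct on `v` by single slices (`piece_hl`,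
`exists_box_slice`); glue with `Van.mid`, `XC_pair`, `XC_st`. -/
theorem cut_van {q' K : ℕ} (H : Hx n pp ξ ρ) (hE : P.Ent (nn W n B ^ q'))
    (hsq : P.Sq (kk W n ξ K)) {α : P.ι → Fin n → ℤ} {c c' : P.ι → ℤ} (h : Adm P q' α c)
    (h' : Adm P q' α c') (hc : c ≤ c') (hK : ∀ a b, c' a ≤ c b + K) (k₀ : ℤ)
    (hk : ∀ b v, c b ≤ v → v < c' b → (∀ k, α b k + v ≠ -1) → tdeg P n (b, tyV (α b) v) ≠ k₀) :
    Van (DD W n ξ P) (XC W ξ P α c) (XC W ξ P α c') k₀ := by
  revert hK hk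
  refine cut2b_ind h' (fun c => (∀ a b, c' a ≤ c b + K) →
    (∀ b v, c b ≤ v → v < c' b → (∀ k, α b k + v ≠ -1) → tdeg P n (b, tyV (α b) v) ≠ k₀) →
    Van (DD W n ξ P) (XC W ξ P α c) (XC W ξ P α c') k₀) (fun _ _ => cut2b_van_self _ _ _) ?_ c h hc
  intro c b h hc h1 h2 ih hK hk
  have h3 := cut2b_update_le hc (b := b) (v := c b + 1) (by omega) h1
  refine Van.mid (XC_pair hE hsq h h' hc hK) (XC_anti α h3.2) (XC_anti α h3.1) (XC_st hE h2)
    (ih (cut2b_hK hK h3.1 le_rfl) fun a v h4 => hk a v ((h3.1 a).trans h4)) ?_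
  obtain ⟨s, hs, -, hs0⟩ := exists_box_slice (α b) (c b)
  rw [van_iff_hl, piece_hl H hE hsq h h2 (by omega) (cut2b_hK hK le_rfl h3.2) _ (cut2b_pure _ _) s hs]
  split_ifs with h4
  · rw [hs0, zero_mul, Nat.cast_zero]
    by_contra h5
    exact hk b (c b) le_rfl h1 (fun k h6 => h5 ⟨k, h6⟩) h4.symm
  · rfl

/-- a single-index window -/
theorem cut2b_win {q' K : ℕ} (H : Hx n pp ξ ρ) (hE : P.Ent (nn W n B ^ q'))
    (hsq : P.Sq (kk W n ξ K)) {α : P.ι → Fin n → ℤ} {c c' : P.ι → ℤ} (hc : c ≤ c')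
    (hK : ∀ a b, c' a ≤ c b + K) {b : P.ι}
    (hb : ∀ v, c b ≤ v → v ≤ c' b → Adm P q' α (Function.update c b v))
    (A : ℕ) (hA1 : -(A : ℤ) ≤ c b) (hA2 : c' b ≤ A) (hA3 : ∀ k, |α b k| ≤ A) (θ : B)
    (kl : ℕ) (hkl : cl (kk W n ξ (2 * A) ⊔ zp W n B ⊔ Ideal.span {θ}) ≤ kl) (k : ℤ) (m : ℕ) :
    ∀ t t' : ℤ, c b ≤ t → t ≤ t' → t' ≤ c' b →
      (Finset.univ.filter fun j => α b j + t < -1 ∧ -1 < α b j + (t' - 1)).card ≤ m →
      HSm θ ((2 ^ m * ((4 * A + 1) ^ n * kl) : ℕ) : ℕ∞) (DD W n ξ P)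
        (XC W ξ P α (Function.update c b t)) (XC W ξ P α (Function.update c b t')) k := by
  have hle : ∀ {t t' : ℤ}, t ≤ t' → Function.update c b t ≤ Function.update c b t' := fun h =>
    update_le_update_iff.2 ⟨h, fun _ _ => le_rfl⟩
  have pure : ∀ t t' : ℤ, c b ≤ t → t ≤ t' → t' ≤ c' b →
      (∀ j, ¬ (α b j + t < -1 ∧ -1 < α b j + (t' - 1))) →
      HSm θ (((4 * A + 1) ^ n * kl : ℕ) : ℕ∞) (DD W n ξ P)
        (XC W ξ P α (Function.update c b t)) (XC W ξ P α (Function.update c b t')) k := by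
    intro t t' h1 h2 h3 h4
    have h5 := piece_hsm H hE hsq (c := Function.update c b t) (b := b) (v := t') (hb t h1 (h2.trans h3))
      (by rw [Function.update_idem]; exact hb t' (h1.trans h2) h3) (by rwa [Function.update_self])
      (by
        rw [Function.update_idem]
        exact cut2b_hK hK (cut2b_update_le hc h1 (h2.trans h3)).1 (cut2b_update_le hc (h1.trans h2) h3).2)
      (tyV (α b) t) (by
        rw [Function.update_self]
        intro w h5 h6 j
        have := h4 j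
        simp only [tyV, decide_eq_false_iff_not, decide_eq_true_eq]
        omega) A (by rw [Function.update_self]; exact hA1.trans h1) (h3.trans hA2) hA3 θ kl hkl k
    rwa [Function.update_idem] at h5
  induction m with
  | zero =>
    intro t t' h1 h2 h3 h4
    rw [pow_zero, one_mul]
    exact pure t t' h1 h2 h3 fun j hj => absurd (Finset.card_pos.2
      ⟨j, Finset.mem_filter.2 ⟨Finset.mem_univ j, hj⟩⟩) (not_lt.2 h4)
  | succ m ih =>
    intro t t' h1 h2 h3 h4
    by_cases h5 : ∃ j, α b j + t < -1 ∧ -1 < α b j + (t' - 1)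
    · obtain ⟨j, h5⟩ := h5
      have key : ∀ u u' : ℤ, t ≤ u → u' ≤ t' → ¬ (α b j + u < -1 ∧ -1 < α b j + (u' - 1)) →
          (Finset.univ.filter fun j => α b j + u < -1 ∧ -1 < α b j + (u' - 1)).card ≤ m := by
        intro u u' e1 e2 e3
        refine Nat.le_of_lt_succ ((Finset.card_lt_card ⟨fun i hi => ?_, fun hs => ?_⟩).trans_le h4)
        · have := (Finset.mem_filter.1 hi).2
          exact Finset.mem_filter.2 ⟨Finset.mem_univ i, by omega⟩
        · exact e3 (Finset.mem_filter.1 (hs (Finset.mem_filter.2 ⟨Finset.mem_univ j, h5⟩))).2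
      have a1 : t ≤ -α b j - 1 := by omega
      have a2 : -α b j - 1 ≤ t' := by omega
      have a3 := HSm.mid (XC_pair hE hsq (hb t h1 (h2.trans h3)) (hb t' (h1.trans h2) h3) (hle h2)
          (cut2b_hK hK (cut2b_update_le hc h1 (h2.trans h3)).1 (cut2b_update_le hc (h1.trans h2) h3).2))
        (XC_anti α (hle a2)) (XC_anti α (hle a1)) (XC_st hE (hb _ (h1.trans a1) (a2.trans h3)))
        (ih _ _ (h1.trans a1) a2 h3 (key _ _ a1 le_rfl (by omega)))
        (ih _ _ h1 a1 (a2.trans h3) (key _ _ le_rfl a2 (by omega)))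
      rw [← Nat.cast_add] at a3
      rwa [pow_succ, mul_right_comm, mul_two]
    · exact Sm.of_le (pure t t' h1 h2 h3 fun j hj => h5 ⟨j, hj⟩)
        (Nat.cast_le.2 (Nat.le_mul_of_pos_left _ (by positivity)))

/-- (S): prove the bound with `Fintype.card` replaced by `#{b | c b ≠ c' b}` by induction with
`exists_step` and `HSm.mid`.  A single-index window `[t,t')` is cut into at most `2^m` pure windows,
`m = #{k | α k + t < -1 ∧ -1 < α k + (t'-1)}`: induct on `m`, splitting at `v* = -α k - 1`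
(if `m = 0` the window is `Pure` with `ty k = decide (α k + t < -1)`); `piece_hsm`. -/
theorem cut_hsm {q' K : ℕ} (H : Hx n pp ξ ρ) (hE : P.Ent (nn W n B ^ q'))
    (hsq : P.Sq (kk W n ξ K)) {α : P.ι → Fin n → ℤ} {c c' : P.ι → ℤ} (h : Adm P q' α c)
    (h' : Adm P q' α c') (hc : c ≤ c') (hK : ∀ a b, c' a ≤ c b + K)
    (A : ℕ) (hA1 : ∀ b, -(A : ℤ) ≤ c b) (hA2 : ∀ b, c' b ≤ A) (hA3 : ∀ b k, |α b k| ≤ A) (θ : B)
    (kl : ℕ) (hkl : cl (kk W n ξ (2 * A) ⊔ zp W n B ⊔ Ideal.span {θ}) ≤ kl) (k : ℤ) :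
    HSm θ ((Fintype.card P.ι * 2 ^ n * (4 * A + 1) ^ n * kl : ℕ) : ℕ∞) (DD W n ξ P)
      (XC W ξ P α c) (XC W ξ P α c') k := by
  have key : ∀ m (c : P.ι → ℤ), Adm P q' α c → c ≤ c' → (∀ a b, c' a ≤ c b + K) →
      (∀ b, -(A : ℤ) ≤ c b) → (Finset.univ.filter fun b => c b ≠ c' b).card ≤ m →
      HSm θ ((m * (2 ^ n * ((4 * A + 1) ^ n * kl)) : ℕ) : ℕ∞) (DD W n ξ P)
        (XC W ξ P α c) (XC W ξ P α c') k := by
    intro m
    induction m with
    | zero =>
      intro c _ _ _ _ h0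
      have : c = c' := funext fun b => by
        by_contra hb
        exact absurd (Finset.card_pos.2 ⟨b, Finset.mem_filter.2 ⟨Finset.mem_univ b, hb⟩⟩) (not_lt.2 h0)
      rw [this]
      exact Sm.of_le ((cut2b_van_self _ _ _).hsm θ) zero_le
    | succ m ih =>
      intro c h hc hK hA1 h0
      by_cases hne : c = c'
      · rw [hne]
        exact Sm.of_le ((cut2b_van_self _ _ _).hsm θ) zero_le
      obtain ⟨b, h1, h2⟩ := exists_step h h' hc hne
      have h3 := cut2b_update_le hc h1.le le_rfl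
      have h4 := cut2b_win H hE hsq hc hK h2 A (hA1 b) (hA2 b) (hA3 b) θ kl hkl k n (c b) (c' b)
        le_rfl h1.le le_rfl ((Finset.card_le_univ _).trans (Fintype.card_fin n).le)
      rw [Function.update_eq_self] at h4
      have h5 := HSm.mid (XC_pair hE hsq h h' hc hK) (XC_anti α h3.2) (XC_anti α h3.1)
        (XC_st hE (h2 _ h1.le le_rfl)) (ih _ (h2 _ h1.le le_rfl) h3.2 (cut2b_hK hK h3.1 le_rfl)
          (fun a => (hA1 a).trans (h3.1 a)) (by
            refine Nat.le_of_lt_succ ((Finset.card_lt_card ⟨fun i hi => ?_, fun hs => ?_⟩).trans_le h0)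
            · refine Finset.mem_filter.2 ⟨Finset.mem_univ i, fun e => (Finset.mem_filter.1 hi).2 ?_⟩
              exact le_antisymm (h3.2 i) (e ▸ h3.1 i)
            · exact (Finset.mem_filter.1 (hs (Finset.mem_filter.2 ⟨Finset.mem_univ b, h1.ne⟩))).2
                (Function.update_self ..))) h4
      rw [← Nat.cast_add] at h5
      rwa [add_mul, one_mul]
  rw [mul_assoc, mul_assoc]
  exact key _ c h hc hK hA1 (Finset.card_le_univ _)

theorem cut2b_sg (b : P.ι) (ty : V n) : sg (tdeg P n (b, ty)) =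
    sg ((P.deg b : ℤ) + n) * (-1 : ℝ) ^ (Finset.univ.filter fun k => ty k = true).card := by
  have h := Finset.card_filter_add_card_filter_not (s := Finset.univ) fun k => ty k = true
  rw [Finset.card_univ, Fintype.card_fin] at h
  simp only [Bool.not_eq_true] at h
  unfold sg tdeg
  generalize (Finset.univ.filter fun k => ty k = true).card = u at h ⊢
  generalize (Finset.univ.filter fun k => ty k = false).card = w at h ⊢
  subst h
  rw [← Nat.cast_add, ← Nat.cast_add, zpow_natCast, zpow_natCast, ← pow_add,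
    show P.deg b + (u + w) + u = P.deg b + w + 2 * u by ring, pow_add _ _ (2 * u), pow_mul]
  simp

/-- (χ): induction with `exists_step`, proving finiteness of all `hl` and the formula together; `chi_add`, `PC_supp`,
single slices via `piece_hl`, `exists_box_slice`. -/
theorem cut_chi {q' K dg : ℕ} (H : Hx n pp ξ ρ) (hE : P.Ent (nn W n B ^ q'))
    (hsq : P.Sq (kk W n ξ K)) (hdg : P.DegLe dg) {α : P.ι → Fin n → ℤ} {c c' : P.ι → ℤ}
    (h : Adm P q' α c) (h' : Adm P q' α c') (hc : c ≤ c') (hK : ∀ a b, c' a ≤ c b + K) :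
    chi 0 ((dg : ℤ) + n) (DD W n ξ P) (XC W ξ P α c) (XC W ξ P α c') =
      ρ * ∑ b, sg ((P.deg b : ℤ) + n) *
        ∑ v ∈ Finset.Ico (c b) (c' b), ∏ k, ((α b k + v + 1 : ℤ) : ℝ) := by
  refine (cut2b_ind h' (fun c => (∀ a b, c' a ≤ c b + K) →
    (∀ k, hl (DD W n ξ P) (XC W ξ P α c) (XC W ξ P α c') k ≠ ⊤) ∧
    chi 0 ((dg : ℤ) + n) (DD W n ξ P) (XC W ξ P α c) (XC W ξ P α c') =
      ρ * ∑ b, sg ((P.deg b : ℤ) + n) *
        ∑ v ∈ Finset.Ico (c b) (c' b), ∏ k, ((α b k + v + 1 : ℤ) : ℝ)) (fun _ => ?_) ?_ c h hc hK).2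
  · simp [chi, van_iff_hl.1 (cut2b_van_self _ _ _)]
  intro c b h hc h1 h2 ih hK
  have h3 := cut2b_update_le hc (b := b) (v := c b + 1) (by omega) h1
  obtain ⟨f1, e1⟩ := ih (cut2b_hK hK h3.1 le_rfl)
  obtain ⟨s, hs, hs1, -⟩ := exists_box_slice (α b) (c b)
  have h4 := piece_hl H hE hsq h h2 (by omega) (cut2b_hK hK le_rfl h3.2) _ (cut2b_pure _ _) s hs
  have f2 : ∀ k, hl (DD W n ξ P) (XC W ξ P α c) (XC W ξ P α (Function.update c b (c b + 1))) k ≠ ⊤ := by
    intro k
    rw [h4]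
    split_ifs
    · exact ENat.natCast_ne_top _
    · exact ENat.zero_ne_top
  have hp := XC_pair hE hsq h h' hc hK
  refine ⟨fun k => ne_top_of_le_ne_top (WithTop.add_ne_top.2 ⟨f1 k, f2 k⟩)
    (hl_mid_le hp (XC_anti α h3.2) (XC_anti α h3.1) (XC_st hE h2) k), ?_⟩
  have e2 : chi 0 ((dg : ℤ) + n) (DD W n ξ P) (XC W ξ P α c) (XC W ξ P α (Function.update c b (c b + 1))) =
      ρ * (sg ((P.deg b : ℤ) + n) * ∏ k, ((α b k + c b + 1 : ℤ) : ℝ)) := by
    rw [chi, Finset.sum_eq_single (tdeg P n (b, tyV (α b) (c b)))]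
    · rw [h4, if_pos rfl, ENat.toNat_natCast, cut2b_sg, ← hs1]
      push_cast
      ring
    · intro k _ hk
      rw [h4, if_neg hk]
      simp
    · intro hk
      refine absurd (Finset.mem_Icc.2 ?_) hk
      have a1 := hdg b
      have a2 : (Finset.univ.filter fun k => tyV (α b) (c b) k = false).card ≤ n :=
        (Finset.card_le_univ _).trans (Fintype.card_fin n).le
      simp only [tdeg]
      omega
  rw [chi_add hp (XC_anti α h3.2) (XC_anti α h3.1) (XC_st hE h2) f1 f2 (by positivity)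
    (PC_supp P n hdg _), e1, e2, ← mul_add, ← Finset.add_sum_erase _ _ (Finset.mem_univ b),
    ← Finset.add_sum_erase _ _ (Finset.mem_univ b), Function.update_self]
  have e3 : Finset.Ico (c b) (c' b) = insert (c b) (Finset.Ico (c b + 1) (c' b)) := by
    ext v
    simp only [Finset.mem_insert, Finset.mem_Ico]
    omega
  rw [e3, Finset.sum_insert (by simp), Finset.sum_congr (s₁ := Finset.univ.erase b) rfl fun a ha => by
    rw [Function.update_of_ne (Finset.ne_of_mem_erase ha)]]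
  ring

theorem cut2a_XC_const (α : Fin n → ℤ) (t : ℤ) :
    XC W ξ P (fun _ => α) (fun _ => t) = RC W ξ P (fun x => cutR α t x.2) := rfl

theorem cut2a_anti (α : Fin n → ℤ) (M : ℕ) (u : ℤ) (t : ℕ) (I : V n) :
    cutR α (u + ((t + 1 : ℕ) : ℤ) * M) I ⊆ cutR α (u + (t : ℤ) * M) I := by
  have hM : (0 : ℤ) ≤ M := Int.natCast_nonneg M
  rintro μ ⟨m1, m2 | m2⟩
  · refine ⟨m1, Or.inl ?_⟩
    have m3 : u + ((t + 1 : ℕ) : ℤ) * M ≤ μ.1 := m2
    show u + (t : ℤ) * M ≤ μ.1
    push_cast at m3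
    linarith
  · exact ⟨m1, Or.inr m2⟩

theorem cut2a_chart (α : Fin n → ℤ) (M : ℕ) (u : ℤ) (t : ℕ) (I : V n) : ∀ ν ∈ chartR I M,
    ∀ μ ∈ cutR α (u + ((t + 1 : ℕ) : ℤ) * M) I, ν + μ ∈ cutR α (u + (t : ℤ) * M) I := by
  rintro ν hν μ ⟨m1, m2 | m2⟩
  · refine ⟨chart_topR hν m1, Or.inl ?_⟩
    have m3 : u + ((t + 1 : ℕ) : ℤ) * M ≤ μ.1 := m2
    have m4 := hν.1
    show u + (t : ℤ) * M ≤ ν.1 + μ.1
    push_cast at m3
    linarith
  · exact ⟨chart_topR hν m1, Or.inr (chart_bq hν m2)⟩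

/-- tail nullity for untwisted cuts (`RC_tn` with `e = 0`, `Vf t = cutR α (t₁ + t M)`,
`Wf t = cutR α (t₂ + t M)`, `tb = t₁`; `P.Ent (𝔫^0)` is trivial). -/
theorem cut_tn {K M : ℕ} (hsq : P.Sq (kk W n ξ K)) (θ : B)
    (hθ : ∀ i, θ * zB W n B i ^ M ∈ P.nh (kk W n ξ K)) (α : Fin n → ℤ) {t₁ t₂ : ℤ} (ht : t₁ ≤ t₂)
    (hK : t₂ + (n + 1) * M ≤ t₁ + K) (k : ℤ) :
    ∀ x ∈ Zc (DD W n ξ P) (XC W ξ P (fun _ => α) fun _ => t₁ + (n + 1) * M)
        (XC W ξ P (fun _ => α) fun _ => t₂ + (n + 1) * M) k,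
      θ ^ (n + 1) • x ∈ Bd (DD W n ξ P) (XC W ξ P (fun _ => α) fun _ => t₁)
        (XC W ξ P (fun _ => α) fun _ => t₂) k := by
  have hθ' : ∀ i, ∃ s, P.Htp (kk W n ξ K) (θ * zB W n B i ^ M - 0) s := fun i => by
    rw [sub_zero]
    exact hθ i
  choose s hs using hθ'
  have hM : (0 : ℤ) ≤ M := Int.natCast_nonneg M
  have hE : P.Ent (nn W n B ^ 0) := fun a b => by
    rw [pow_zero, Ideal.one_eq_top]
    exact Submodule.mem_top
  have hadm : ∀ t : ℤ, Adm P 0 (fun _ => α) (fun _ => t) := fun t a b _ => ⟨le_rfl, by simp⟩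
  have hnM : (0 : ℤ) ≤ (n + 1) * M := by positivity
  have h5 : ∀ t : ℤ, St (DD W n ξ P) (RC W ξ P (fun x => cutR α t x.2)) := fun t => by
    rw [← cut2a_XC_const]
    exact XC_st hE (hadm t)
  have h6 : ∀ t : ℤ, Pair (DD W n ξ P) (RC W ξ P (fun x => cutR α (t₁ + t) x.2))
      (RC W ξ P (fun x => cutR α (t₂ + t) x.2)) := fun t => by
    rw [← cut2a_XC_const, ← cut2a_XC_const]
    refine XC_pair hE hsq (hadm _) (hadm _) (fun _ => ?_) (fun _ _ => ?_)
    · show t₁ + t ≤ t₂ + t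
      linarith
    · show t₂ + t ≤ t₁ + t + K
      linarith
  have h7 : ∀ t : ℕ, t ≤ n → ∀ I : V n, ∀ μ ∈ cutR α (t₁ + (t : ℤ) * M) I,
      (μ.1 < t₁ ∨ t₁ + K ≤ μ.1) → μ ∈ cutR α (t₂ + (t : ℤ) * M) I := by
    intro t htn I μ hμ hor
    have h0 : (0 : ℤ) ≤ (t : ℤ) * M := by positivity
    have h1 : (t : ℤ) * M ≤ (n + 1) * M :=
      mul_le_mul_of_nonneg_right (by exact_mod_cast htn.trans (Nat.le_succ n)) hM
    obtain ⟨m1, m2 | m2⟩ := hμ
    · have m3 : t₁ + (t : ℤ) * M ≤ μ.1 := m2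
      refine ⟨m1, Or.inl ?_⟩
      show t₂ + (t : ℤ) * M ≤ μ.1
      rcases hor with hor | hor <;> linarith
    · exact ⟨m1, Or.inr m2⟩
  have key := RC_tn (K := K) (M := M) θ (fun _ => 0) s hs
    (fun t x => cutR α (t₁ + (t : ℤ) * M) x.2) (fun t x => cutR α (t₂ + (t : ℤ) * M) x.2)
    (fun t x => stab_cutR _ _ _) (fun t _ x => cut2a_anti α M t₁ t x.2)
    (fun t _ x => cut2a_anti α M t₂ t x.2)
    (fun t _ x => cut2a_chart α M t₁ t x.2) (fun t _ x => cut2a_chart α M t₂ t x.2)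
    (fun t i a b I _ => Set.Subset.refl _) (fun t i a b I _ => Set.Subset.refl _)
    (fun t a I j _ μ hμ => ⟨topR_update I j hμ.1, hμ.2.imp id fun m => bq_update α I j m⟩)
    (fun t _ i x y _ => by rw [zero_smul]; exact Submodule.zero_mem _) t₁
    (fun t htn i a b I _ => h7 t htn I)
    (fun t _ => h5 _) (fun t _ => (h6 _).dd) k
  have e1 : ((n + 1 : ℕ) : ℤ) = (n : ℤ) + 1 := Nat.cast_succ n
  have e2 : ∀ t : ℤ, t + ((0 : ℕ) : ℤ) * M = t := fun t => by simp
  rw [cut2a_XC_const, cut2a_XC_const, cut2a_XC_const, cut2a_XC_const, ← e1]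
  simp only [e2] at key
  exact key

end

end Crest.Agent.R183
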