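import Crest.Agent.R183.Mono

/-! # R183 / Flat : equational flatness lemmas, adic and local flatness criteria. -/

set_option autoImplicit false
open IsLocalRing

namespace Crest.Agent.R183

variable {A B : Type} [CommRing A] [CommRing B]

/-- the `B`-span of the solutions over `A` of `∑ a i z i ∈ I` -/
def solSpan (f : A →+* B) {r : ℕ} (a : Fin r → A) (I : Ideal A) : Submodule B (Fin r → B) :=
  Submodule.span B {b | ∃ z : Fin r → A, ∑ i, a i * z i ∈ I ∧ b = f ∘ z}

/-- write the element of `I.map f` as `∑ f (c j) * d j` with `c j ∈ I`, and apply the equational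
criterion `Module.Flat.isTrivialRelation_of_sum_smul_eq_zero` to the combined relation
(index type `Fin r ⊕ _`). -/
theorem flat_rel (f : A →+* B) (hf : f.Flat) (I : Ideal A) {r : ℕ} (a : Fin r → A) (b : Fin r → B)
    (h : ∑ i, f (a i) * b i ∈ I.map f) : b ∈ solSpan f a I := by
  let _ := f.toAlgebra
  have _ : Module.Flat A B := hf
  obtain ⟨n, c, g, hg⟩ := Submodule.mem_span_set'.1 h
  choose d hd hd' using fun j => (g j).2
  obtain ⟨k, M, y, h1, h2⟩ := Module.Flat.isTrivialRelation_of_sum_smul_eq_zero (R := A) (M := B)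
    (f := Sum.elim a d) (x := Sum.elim b fun j => -c j) (by
      rw [Fintype.sum_sum_type]
      simp only [Sum.elim_inl, Sum.elim_inr, Algebra.smul_def, RingHom.algebraMap_toAlgebra]
      rw [← hg, ← Finset.sum_add_distrib]
      exact Finset.sum_eq_zero fun j _ => by rw [hd', smul_eq_mul]; ring)
  have e : b = ∑ j, y j • (f ∘ fun i => M (Sum.inl i) j) := by
    funext i
    have h3 := h1 (Sum.inl i)
    simp only [Sum.elim_inl, Algebra.smul_def, RingHom.algebraMap_toAlgebra] at h3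
    simp [h3, mul_comm]
  rw [e]
  refine Submodule.sum_mem _ fun j _ => Submodule.smul_mem _ _ (Submodule.subset_span ⟨_, ?_, rfl⟩)
  have h3 := h2 j
  rw [Fintype.sum_sum_type] at h3
  simp only [Sum.elim_inl, Sum.elim_inr] at h3
  rw [eq_neg_of_add_eq_zero_left h3]
  exact I.neg_mem (I.sum_mem fun i _ => I.mul_mem_right _ (hd i))

/-- `Module.Flat.of_forall_isTrivialRelation`. -/
theorem flat_of_rel (f : A →+* B)
    (h : ∀ (r : ℕ) (a : Fin r → A) (b : Fin r → B), ∑ i, f (a i) * b i = 0 → b ∈ solSpan f a ⊥) :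
    f.Flat := by
  let _ := f.toAlgebra
  refine Module.Flat.of_forall_isTrivialRelation (R := A) (M := B) fun {l a b} hab => ?_
  obtain ⟨n, c, g, hg⟩ := Submodule.mem_span_set'.1 (h l a b hab)
  choose z hz hz' using fun j => (g j).2
  refine ⟨n, fun i j => z j i, c, fun i => ?_, fun j => hz j⟩
  rw [← hg]
  simp [hz', Algebra.smul_def, RingHom.algebraMap_toAlgebra, mul_comm]

theorem colon_map_le (f : A →+* B) (hf : f.Flat) (I : Ideal A) (a : A) :
    (I.map f).colon {f a} ≤ (I.colon {a}).map f := by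
  intro x hx
  have h1 := flat_rel f hf I (fun _ : Fin 1 => a) (fun _ => x) (by
    simpa [mul_comm] using Submodule.mem_colon_singleton.1 hx)
  have h2 : solSpan f (fun _ : Fin 1 => a) I ≤
      Submodule.comap (LinearMap.proj 0) ((I.colon {a}).map f) := by
    refine Submodule.span_le.2 ?_
    rintro _ ⟨z, hz, rfl⟩
    refine Ideal.mem_map_of_mem f (Submodule.mem_colon_singleton.2 ?_)
    simpa [mul_comm] using hz
  exact h2 h1

theorem fb_mem_smul_top_pi {R : Type} [CommRing R] (J : Ideal R) {r : ℕ} (w : Fin r → R) :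
    w ∈ J • (⊤ : Submodule R (Fin r → R)) ↔ ∀ i, w i ∈ J := by
  constructor
  · intro hw
    refine Submodule.smul_induction_on hw ?_ ?_
    · intro c hc x _ i
      exact J.mul_mem_right _ hc
    · intro x y hx hy i
      exact J.add_mem (hx i) (hy i)
  · intro hw
    have : w = ∑ i, w i • (Pi.single i 1 : Fin r → R) := by
      funext j
      simp [Finset.sum_apply, Pi.single_apply]
    rw [this]
    exact Submodule.sum_mem _ fun i _ => Submodule.smul_mem_smul (hw i) Submodule.mem_top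

theorem fb_krull {R M : Type} [CommRing R] [IsNoetherianRing R] [AddCommGroup M] [Module R M]
    [Module.Finite R M] (J : Ideal R) (hJ : J ≤ Ideal.jacobson ⊥) (S : Submodule R M) (x : M)
    (h : ∀ n : ℕ, x ∈ S ⊔ J ^ n • ⊤) : x ∈ S := by
  have h0 := Ideal.iInf_pow_smul_eq_bot_of_le_jacobson (M := M ⧸ S) J hJ
  have h1 : S.mkQ x ∈ (⨅ i : ℕ, J ^ i • ⊤ : Submodule R (M ⧸ S)) := by
    rw [Submodule.mem_iInf]
    intro n
    obtain ⟨y, hy, z, hz, rfl⟩ := Submodule.mem_sup.1 (h n)
    have hy0 : S.mkQ y = 0 := (Submodule.Quotient.mk_eq_zero S).2 hy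
    rw [map_add, hy0, zero_add]
    have := Submodule.mem_map_of_mem (f := S.mkQ) hz
    rw [Submodule.map_smul''] at this
    exact Submodule.smul_mono le_rfl le_top this
  rw [h0, Submodule.mem_bot] at h1
  exact (Submodule.Quotient.mk_eq_zero S).1 h1

/-- ADIC CRITERION.  Artin–Rees (`Ideal.exists_pow_inf_eq_pow_smul` for the ideal `span (range a)`)
gives `c` with: `∑ a z ∈ I^(n+c) → z ∈ syzygies + I^n • ⊤`; Krull intersection
(`Ideal.iInf_pow_smul_eq_bot_of_le_jacobson`) in `(Fin r → B) ⧸ solSpan f a ⊥`. -/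
theorem flat_of_adic [IsNoetherianRing A] [IsNoetherianRing B] (f : A →+* B) (I : Ideal A)
    (hI : I.map f ≤ Ideal.jacobson ⊥)
    (h : ∀ (n r : ℕ) (a : Fin r → A) (b : Fin r → B), ∑ i, f (a i) * b i ∈ (I ^ n).map f →
      b ∈ solSpan f a (I ^ n) ⊔ (I ^ n).map f • ⊤) : f.Flat := by
  refine flat_of_rel f fun r a b hb => ?_
  let φ : (Fin r → A) →ₗ[A] A :=
    { toFun := fun z => ∑ i, a i * z i
      map_add' := fun x y => by simp [mul_add, Finset.sum_add_distrib]
      map_smul' := fun c x => by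
        simp only [Pi.smul_apply, smul_eq_mul, RingHom.id_apply, Finset.mul_sum]
        exact Finset.sum_congr rfl fun i _ => by ring }
  have hφ : ∀ z, φ z = ∑ i, a i * z i := fun _ => rfl
  obtain ⟨k, hk⟩ := Ideal.exists_pow_inf_eq_pow_smul I (LinearMap.range φ)
  refine fb_krull (I.map f) hI _ b fun n => ?_
  have h1 := h (n + k) r a b (by rw [hb]; exact Submodule.zero_mem _)
  have h2 : solSpan f a (I ^ (n + k)) ≤ solSpan f a ⊥ ⊔ (I.map f) ^ n • ⊤ := by
    refine Submodule.span_le.2 ?_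
    rintro _ ⟨z, hz, rfl⟩
    have hz1 : φ z ∈ I ^ (n + k) • (⊤ : Submodule A A) ⊓ LinearMap.range φ := by
      refine ⟨?_, LinearMap.mem_range_self _ _⟩
      rw [Ideal.smul_eq_mul, Ideal.mul_top]
      exact hz
    rw [hk (n + k) (Nat.le_add_left _ _), Nat.add_sub_cancel] at hz1
    have hz2 : φ z ∈ (I ^ n • (⊤ : Submodule A (Fin r → A))).map φ := by
      rw [Submodule.map_smul'', Submodule.map_top]
      exact Submodule.smul_mono le_rfl inf_le_right hz1
    obtain ⟨w, hw, hwz⟩ := hz2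
    have e : f ∘ z = f ∘ (z - w) + f ∘ w := by
      funext i
      simp
    rw [SetLike.mem_coe, e]
    refine Submodule.add_mem_sup (Submodule.subset_span ⟨z - w, ?_, rfl⟩) ?_
    · rw [← hφ, map_sub, hwz, sub_self]
      exact Submodule.zero_mem _
    · rw [fb_mem_smul_top_pi]
      intro i
      rw [← Ideal.map_pow]
      exact Ideal.mem_map_of_mem f ((fb_mem_smul_top_pi _ _).1 hw i)
  have h3 : (I ^ (n + k)).map f • (⊤ : Submodule B (Fin r → B)) ≤
      solSpan f a ⊥ ⊔ (I.map f) ^ n • ⊤ := by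
    refine le_sup_of_le_right (Submodule.smul_mono ?_ le_rfl)
    rw [Ideal.map_pow]
    exact Ideal.pow_le_pow_right (Nat.le_add_right _ _)
  exact sup_le h2 h3 h1

/-- approximate `a`, `b` by `a₀`, `b₀` modulo `I^n`; `flat_rel` for `f₀`; `flat_of_adic`. -/
theorem flat_of_dense [IsNoetherianRing A] [IsNoetherianRing B] {A₀ B₀ : Type} [CommRing A₀]
    [CommRing B₀] (f₀ : A₀ →+* B₀) (hf₀ : f₀.Flat) (α : A₀ →+* A) (β : B₀ →+* B) (f : A →+* B)
    (hc : f.comp α = β.comp f₀) (I₀ : Ideal A₀) (hI : (I₀.map α).map f ≤ Ideal.jacobson ⊥)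
    (hA : ∀ (n : ℕ) (x : A), ∃ x₀, x - α x₀ ∈ I₀.map α ^ n)
    (hB : ∀ (n : ℕ) (y : B), ∃ y₀, y - β y₀ ∈ (I₀.map α ^ n).map f)
    (hinj : ∀ (n : ℕ) (y₀ : B₀), β y₀ ∈ (I₀.map α ^ n).map f → y₀ ∈ (I₀ ^ n).map f₀) : f.Flat := by
  have hc' : ∀ x, f (α x) = β (f₀ x) := fun x => RingHom.congr_fun hc x
  refine flat_of_adic f (I₀.map α) hI fun n r a b hab => ?_
  choose a₀ ha₀ using fun i => hA n (a i)
  choose b₀ hb₀ using fun i => hB n (b i)
  have h1 : ∑ i, f₀ (a₀ i) * b₀ i ∈ (I₀ ^ n).map f₀ := by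
    refine hinj n _ ?_
    have e : β (∑ i, f₀ (a₀ i) * b₀ i) = ∑ i, f (a i) * b i -
        ∑ i, (f (a i - α (a₀ i)) * b i + f (α (a₀ i)) * (b i - β (b₀ i))) := by
      rw [map_sum, ← Finset.sum_sub_distrib]
      refine Finset.sum_congr rfl fun i _ => ?_
      rw [map_mul, map_sub, ← hc']
      ring
    rw [e]
    refine Submodule.sub_mem _ hab (Submodule.sum_mem _ fun i _ => Submodule.add_mem _ ?_ ?_)
    · exact Ideal.mul_mem_right _ _ (Ideal.mem_map_of_mem f (ha₀ i))
    · exact Ideal.mul_mem_left _ _ (hb₀ i)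
  have h2 := flat_rel f₀ hf₀ (I₀ ^ n) a₀ b₀ h1
  have h3 : ∀ c : Fin r → B₀, c ∈ solSpan f₀ a₀ (I₀ ^ n) →
      β ∘ c ∈ solSpan f a (I₀.map α ^ n) := by
    intro c hc
    induction hc using Submodule.span_induction with
    | mem x hx =>
      obtain ⟨z, hz, rfl⟩ := hx
      refine Submodule.subset_span ⟨α ∘ z, ?_, ?_⟩
      · have e : ∑ i, a i * (α ∘ z) i =
            ∑ i, (a i - α (a₀ i)) * α (z i) + α (∑ i, a₀ i * z i) := by
          rw [map_sum, ← Finset.sum_add_distrib]
          refine Finset.sum_congr rfl fun i _ => ?_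
          rw [map_mul, Function.comp_apply]
          ring
        rw [e]
        refine Submodule.add_mem _ (Submodule.sum_mem _ fun i _ =>
          Ideal.mul_mem_right _ _ (ha₀ i)) ?_
        rw [← Ideal.map_pow]
        exact Ideal.mem_map_of_mem α hz
      · funext i
        simp [hc']
    | zero =>
      have : β ∘ (0 : Fin r → B₀) = 0 := by funext i; simp
      rw [this]; exact Submodule.zero_mem _
    | add x y _ _ hx hy =>
      have : β ∘ (x + y) = β ∘ x + β ∘ y := by funext i; simp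
      rw [this]; exact Submodule.add_mem _ hx hy
    | smul t x _ hx =>
      have : β ∘ (t • x) = β t • (β ∘ x) := by funext i; simp
      rw [this]; exact Submodule.smul_mem _ _ hx
  have e : b = β ∘ b₀ + (b - β ∘ b₀) := by abel
  rw [e]
  refine Submodule.add_mem_sup (h3 _ h2) ?_
  rw [fb_mem_smul_top_pi]
  intro i
  exact hb₀ i

/-- induction on the colength of `𝔞 ⊇ 𝔪^n` (e.g. via `lenLe_of_cl_le`, or Noetherian induction
`IsNoetherian.induction`): if `𝔞 ≠ ⊤` pick `θ ∉ 𝔞` with `𝔪 θ ≤ 𝔞`, so `(𝔞 : θ) = 𝔪`;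
`x ∈ J ∩ 𝔞B ⊆ (𝔞 + θ) J`, `x = x₁ + θ j`, `j ∈ (𝔞 B : θ) ≤ 𝔪 B` (`colon_map_le`). -/
theorem lc_primary [IsNoetherianRing A] [IsLocalRing A] (f : A →+* B) (hf : f.Flat) (J : Ideal B)
    (h : J ⊓ (maximalIdeal A).map f ≤ (maximalIdeal A).map f * J) (𝔞 : Ideal A) {n : ℕ}
    (h𝔞 : maximalIdeal A ^ n ≤ 𝔞) : J ⊓ 𝔞.map f ≤ 𝔞.map f * J := by
  induction 𝔞 using IsNoetherian.induction with
  | hgt 𝔞 ih =>
    by_cases ht : 𝔞 = ⊤
    · subst ht
      rw [Ideal.map_top, Ideal.top_mul]
      exact inf_le_left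
    classical
    have hex : ∃ k, maximalIdeal A ^ k ≤ 𝔞 := ⟨n, h𝔞⟩
    have hk := Nat.find_spec hex
    have hk0 : Nat.find hex ≠ 0 := by
      intro h0
      rw [h0, pow_zero, Ideal.one_eq_top, top_le_iff] at hk
      exact ht hk
    obtain ⟨k, hk'⟩ := Nat.exists_eq_succ_of_ne_zero hk0
    have hlt : ¬ maximalIdeal A ^ k ≤ 𝔞 := Nat.find_min hex (by omega)
    rw [hk'] at hk
    obtain ⟨θ, hθ, hθa⟩ := SetLike.not_le_iff_exists.1 hlt
    have hmθ : Ideal.span {θ} * maximalIdeal A ≤ 𝔞 := by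
      refine le_trans ?_ hk
      rw [Nat.succ_eq_add_one, pow_succ]
      exact Ideal.mul_mono_left ((Ideal.span_singleton_le_iff_mem _).2 hθ)
    have hgt : 𝔞 < 𝔞 ⊔ Ideal.span {θ} := by
      refine lt_of_le_of_ne le_sup_left fun e => hθa ?_
      rw [e]
      exact Ideal.mem_sup_right (Ideal.mem_span_singleton_self θ)
    have ih' := ih _ hgt (h𝔞.trans le_sup_left)
    intro x hx
    have hx' := ih' ⟨hx.1, Ideal.map_mono le_sup_left hx.2⟩
    rw [Ideal.map_sup, Ideal.sup_mul, Ideal.map_span, Set.image_singleton] at hx'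
    obtain ⟨x₁, hx₁, x₂, hx₂, rfl⟩ := Submodule.mem_sup.1 hx'
    obtain ⟨j, hj, rfl⟩ := Ideal.mem_span_singleton_mul.1 hx₂
    have h1 : f θ * j ∈ Ideal.map f 𝔞 := by
      have h0 : x₁ ∈ Ideal.map f 𝔞 := Ideal.mul_le_left hx₁
      have h0' : x₁ + f θ * j ∈ Ideal.map f 𝔞 := hx.2
      simpa using Ideal.sub_mem _ h0' h0
    have h2 : j ∈ (Ideal.map f 𝔞).colon {f θ} := by
      rw [Submodule.mem_colon_singleton, smul_eq_mul, mul_comm]
      exact h1
    have h3 : 𝔞.colon {θ} ≤ maximalIdeal A := by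
      refine IsLocalRing.le_maximalIdeal fun e => hθa ?_
      have : (1 : A) ∈ 𝔞.colon {θ} := by rw [e]; exact Submodule.mem_top
      rw [Submodule.mem_colon_singleton, one_smul] at this
      exact this
    have h4 : j ∈ (maximalIdeal A).map f * J :=
      h ⟨hj, Ideal.map_mono h3 (colon_map_le f hf 𝔞 θ h2)⟩
    refine Submodule.add_mem _ hx₁ ?_
    have h5 : f θ * j ∈ (Ideal.span {θ}).map f * ((maximalIdeal A).map f * J) :=
      Ideal.mul_mem_mul (Ideal.mem_map_of_mem f (Ideal.mem_span_singleton_self θ)) h4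
    rw [← mul_assoc, ← Ideal.map_mul] at h5
    exact Ideal.mul_mono_left (Ideal.map_mono hmθ) h5

/-- LOCAL CRITERION for a quotient.  `J ∩ 𝔞B ≤ ⋂ (𝔞 J + 𝔪^n J) = 𝔞 J` (Krull for `J/𝔞J`); a relation
`∑ a i b i ∈ J` gives `∑ a i (b i - j i) = 0`; `flat_rel`, `flat_of_rel`. -/
theorem flat_quot_of_inf [IsNoetherianRing A] [IsLocalRing A] [IsNoetherianRing B] (f : A →+* B)
    (hf : f.Flat) (hm : (maximalIdeal A).map f ≤ Ideal.jacobson ⊥) (J : Ideal B)
    (h : J ⊓ (maximalIdeal A).map f ≤ (maximalIdeal A).map f * J) :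
    ((Ideal.Quotient.mk J).comp f).Flat := by
  refine flat_of_rel _ fun r a b' hb => ?_
  choose b hb' using fun i => Ideal.Quotient.mk_surjective (b' i)
  have hx1 : ∑ i, f (a i) * b i ∈ J := by
    rw [← Ideal.Quotient.eq_zero_iff_mem, ← hb, map_sum]
    refine Finset.sum_congr rfl fun i _ => ?_
    rw [map_mul, hb', RingHom.comp_apply]
  have hx2 : ∑ i, f (a i) * b i ∈ (Ideal.span (Set.range a)).map f :=
    Submodule.sum_mem _ fun i _ => Ideal.mul_mem_right _ _
      (Ideal.mem_map_of_mem f (Ideal.subset_span ⟨i, rfl⟩))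
  have hx3 : ∑ i, f (a i) * b i ∈ (Ideal.span (Set.range a)).map f * J := by
    refine fb_krull (M := B) ((maximalIdeal A).map f) hm _ _ fun n => ?_
    have h1 := lc_primary f hf J h (Ideal.span (Set.range a) ⊔ maximalIdeal A ^ n) (n := n)
      le_sup_right ⟨hx1, Ideal.map_mono le_sup_left hx2⟩
    rw [Ideal.map_sup, Ideal.sup_mul, Ideal.map_pow] at h1
    have h2 : (maximalIdeal A).map f ^ n * J ≤ (maximalIdeal A).map f ^ n • (⊤ : Submodule B B) := by
      rw [Ideal.smul_eq_mul]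
      exact Ideal.mul_mono_right le_top
    exact (sup_le_sup_left h2 ((Ideal.span (Set.range a)).map f * J)) h1
  rw [mul_comm, Ideal.map_span, ← Set.range_comp, ← Ideal.smul_eq_mul] at hx3
  obtain ⟨j, hj, hje⟩ := (Submodule.mem_ideal_smul_span_iff_exists_sum J (f ∘ a) _).1 hx3
  rw [Finsupp.sum_fintype _ _ (by simp)] at hje
  have h1 : ∑ i, f (a i) * (b - ⇑j) i ∈ (⊥ : Ideal A).map f := by
    have : ∑ i, f (a i) * (b - ⇑j) i = 0 := by
      simp only [Pi.sub_apply, mul_sub, Finset.sum_sub_distrib]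
      rw [← hje, sub_eq_zero]
      refine Finset.sum_congr rfl fun i _ => ?_
      simp [mul_comm]
    rw [this]
    exact Submodule.zero_mem _
  have h2 := flat_rel f hf ⊥ a _ h1
  have h3 : ∀ c : Fin r → B, c ∈ solSpan f a ⊥ →
      Ideal.Quotient.mk J ∘ c ∈ solSpan ((Ideal.Quotient.mk J).comp f) a ⊥ := by
    intro c hc
    induction hc using Submodule.span_induction with
    | mem x hx =>
      obtain ⟨z, hz, rfl⟩ := hx
      exact Submodule.subset_span ⟨z, hz, rfl⟩
    | zero =>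
      have : Ideal.Quotient.mk J ∘ (0 : Fin r → B) = 0 := by funext i; simp
      rw [this]; exact Submodule.zero_mem _
    | add x y _ _ hx hy =>
      have : Ideal.Quotient.mk J ∘ (x + y) = Ideal.Quotient.mk J ∘ x + Ideal.Quotient.mk J ∘ y := by
        funext i; simp
      rw [this]; exact Submodule.add_mem _ hx hy
    | smul t x _ hx =>
      have : Ideal.Quotient.mk J ∘ (t • x) = Ideal.Quotient.mk J t • (Ideal.Quotient.mk J ∘ x) := by
        funext i; simp
      rw [this]; exact Submodule.smul_mem _ _ hx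
  have e : b' = Ideal.Quotient.mk J ∘ (b - ⇑j) := by
    funext i
    rw [Function.comp_apply, Pi.sub_apply, map_sub, hb',
      Ideal.Quotient.eq_zero_iff_mem.2 (hj i), sub_zero]
  rw [e]
  exact h3 _ h2

/-- base change to a quotient: `A ⧸ I → B ⧸ I B` (`flat_rel`, `flat_of_rel`). -/
theorem flat_quotientMap (f : A →+* B) (hf : f.Flat) (I : Ideal A) :
    (Ideal.quotientMap (I.map f) f Ideal.le_comap_map).Flat := by
  refine flat_of_rel _ fun r a b hab => ?_
  choose a' ha using fun i => Ideal.Quotient.mk_surjective (a i)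
  choose b' hb using fun i => Ideal.Quotient.mk_surjective (b i)
  have h1 := flat_rel f hf I a' b' (by
    rw [← Ideal.Quotient.eq_zero_iff_mem, ← hab, map_sum]
    exact Finset.sum_congr rfl fun i _ => by rw [← ha, ← hb, map_mul, Ideal.quotientMap_mk])
  rw [show b = Ideal.Quotient.mk _ ∘ b' from funext fun i => (hb i).symm]
  clear hb
  induction h1 using Submodule.span_induction with
  | mem _ h =>
    obtain ⟨z, hz, rfl⟩ := h
    refine Submodule.subset_span ⟨Ideal.Quotient.mk I ∘ z, ?_, funext fun i => ?_⟩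
    · rw [Ideal.mem_bot, ← Ideal.Quotient.eq_zero_iff_mem.2 hz, map_sum]
      exact Finset.sum_congr rfl fun i _ => by rw [← ha, map_mul, Function.comp_apply]
    · simp [Ideal.quotientMap_mk]
  | zero => exact Submodule.zero_mem _
  | add x y _ _ hx hy => exact Submodule.add_mem _ hx hy
  | smul c x _ hx => exact Submodule.smul_mem _ (Ideal.Quotient.mk _ c) hx

/-- `IsLocalRing.length_baseChange` with `Algebra.TensorProduct.quotIdealMapEquivTensorQuot`. -/
theorem cl_map_eq_of_flat [IsLocalRing A] [IsLocalRing B] (f : A →+* B) (hf : f.Flat)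
    (hm : (maximalIdeal A).map f = maximalIdeal B) (I : Ideal A) : cl (I.map f) = cl I := by
  let _ := f.toAlgebra
  have _ : Module.Flat A B := hf
  have _ : IsLocalHom (algebraMap A B) := ((local_hom_TFAE f).out 2 0).1 hm.le
  have h1 := IsLocalRing.length_baseChange A B (A ⧸ I)
  rw [← (Algebra.TensorProduct.quotIdealMapEquivTensorQuot B I).toLinearEquiv.length_eq] at h1
  have h2 : cl ((maximalIdeal A).map f) = 1 := by
    rw [hm]
    exact cl_maximal _
  exact h1.trans ((congrArg (cl I * ·) h2).trans (mul_one _))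

/-- `lenLe_of_cl_le`, `LenLe.map`, `LenLe.cl_le`; if `cl I = ⊤` and `cl (𝔪.map f) = 0` then
`I.map f = ⊤`. -/
theorem cl_map_le (f : A →+* B) {𝔪 I : Ideal A} {N : ℕ} (hN : 𝔪 ^ N ≤ I) :
    cl (I.map f) ≤ cl I * cl (𝔪.map f) := by
  rcases eq_or_ne (cl I) ⊤ with h | h
  · rcases eq_or_ne (𝔪.map f) ⊤ with h1 | h1
    · have h2 : I.map f = ⊤ := by
        rw [eq_top_iff, ← Ideal.top_pow B N, ← h1, ← Ideal.map_pow]
        exact Ideal.map_mono hN
      rw [h2, cl_top]
      exact zero_le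
    · rw [h, ENat.top_mul (Order.one_le_iff_ne_zero.1 (one_le_cl h1))]
      exact le_top
  · obtain ⟨L, hL⟩ := ENat.ne_top_iff_exists.1 h
    rw [← hL]
    exact ((lenLe_of_cl_le hN hL.ge).map f).cl_le

end Crest.Agent.R183
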