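import Crest.Agent.R183.CoreF

/-! # R183 / G : from a complex over a finite `𝒜`-algebra to the finite core data. -/

set_option autoImplicit false
open Polynomial

namespace Crest.Agent.R183

/-- `τ` is integral over the ideal `I` of the base -/
def IntOver {A T : Type} [CommRing A] [CommRing T] [Algebra A T] (I : Ideal A) (τ : T) : Prop :=
  ∃ P : A[X], P.Monic ∧ (∀ r, P.coeff r ∈ I ^ (P.natDegree - r)) ∧ aeval τ P = 0

section IntOver
variable {A T : Type} [CommRing A] [CommRing T] [Algebra A T]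

theorem IntOver.mono {I I' : Ideal A} {τ : T} (h : IntOver I τ) (hI : I ≤ I') : IntOver I' τ := by
  obtain ⟨P, h1, h2, h3⟩ := h
  exact ⟨P, h1, fun r => Ideal.pow_right_mono hI _ (h2 r), h3⟩

theorem IntOver.of_isIntegral {τ : T} (h : IsIntegral A τ) : IntOver (⊤ : Ideal A) τ := by
  obtain ⟨P, h1, h2⟩ := h
  refine ⟨P, h1, fun r => ?_, h2⟩
  rw [Ideal.top_pow]
  exact Submodule.mem_top

theorem ga_mul_X_pow {I : Ideal A} {P : A[X]} (h1 : P.Monic)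
    (h2 : ∀ r, P.coeff r ∈ I ^ (P.natDegree - r)) (m r : ℕ) :
    (P * X ^ m).coeff r ∈ I ^ ((P * X ^ m).natDegree - r) := by
  rcases subsingleton_or_nontrivial A with hA | hA
  · have e : (P * X ^ m).coeff r = (0 : A) := Subsingleton.elim _ _
    rw [e]
    exact Submodule.zero_mem _
  · rw [h1.natDegree_mul (monic_X_pow m), natDegree_X_pow, coeff_mul_X_pow']
    split_ifs with hr
    · rw [show P.natDegree + m - r = P.natDegree - (r - m) by omega]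
      exact h2 _
    · exact Submodule.zero_mem _

/-- the explicit form, for every large degree `δ` (multiply by a power of `τ`). -/
theorem IntOver.eventually {I : Ideal A} {τ : T} (h : IntOver I τ) :
    ∀ᶠ δ : ℕ in Filter.atTop, ∃ b : Fin δ → A, (∀ j : Fin δ, b j ∈ I ^ ((j : ℕ) + 1)) ∧
      τ ^ δ + ∑ j : Fin δ, algebraMap A T (b j) * τ ^ (δ - ((j : ℕ) + 1)) = 0 := by
  obtain ⟨P, h1, h2, h3⟩ := h
  rcases subsingleton_or_nontrivial A with hA | hA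
  · have : Subsingleton T := (algebraMap A T).codomain_trivial
    exact Filter.Eventually.of_forall fun δ =>
      ⟨0, fun j => Submodule.zero_mem _, Subsingleton.elim _ _⟩
  filter_upwards [Filter.eventually_ge_atTop P.natDegree] with δ hδ
  have hm : (P * X ^ (δ - P.natDegree)).Monic := h1.mul (monic_X_pow _)
  have hd : (P * X ^ (δ - P.natDegree)).natDegree = δ := by
    rw [h1.natDegree_mul (monic_X_pow _), natDegree_X_pow]
    omega
  have hc := ga_mul_X_pow h1 h2 (δ - P.natDegree)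
  have h0 : aeval τ (P * X ^ (δ - P.natDegree)) = 0 := by rw [map_mul, h3, zero_mul]
  generalize P * X ^ (δ - P.natDegree) = Q at hm hd hc h0
  subst hd
  refine ⟨fun j => Q.coeff (Q.natDegree - ((j : ℕ) + 1)), fun j => ?_, ?_⟩
  · have := hc (Q.natDegree - ((j : ℕ) + 1))
    rwa [show Q.natDegree - (Q.natDegree - ((j : ℕ) + 1)) = (j : ℕ) + 1 by omega] at this
  · rw [aeval_eq_sum_range, Finset.sum_range_succ, hm.coeff_natDegree, one_smul, add_comm,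
      ← Finset.sum_range_reflect, ← Fin.sum_univ_eq_sum_range
        (fun j => Q.coeff (Q.natDegree - 1 - j) • τ ^ (Q.natDegree - 1 - j))] at h0
    rw [← h0]
    congr 1
    refine Finset.sum_congr rfl fun j _ => ?_
    rw [Algebra.smul_def, show Q.natDegree - 1 - (j : ℕ) = Q.natDegree - ((j : ℕ) + 1) by omega]

/-- transport along a commutative square (if `A'` is trivial so is `T'`). -/
theorem IntOver.map {A' T' : Type} [CommRing A'] [CommRing T'] [Algebra A' T'] (φ : A →+* A')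
    (ψ : T →+* T') (h : ∀ x, ψ (algebraMap A T x) = algebraMap A' T' (φ x)) {I : Ideal A} {τ : T}
    (hτ : IntOver I τ) : IntOver (I.map φ) (ψ τ) := by
  obtain ⟨P, h1, h2, h3⟩ := hτ
  refine ⟨P.map φ, h1.map φ, fun r => ?_, ?_⟩
  · rcases subsingleton_or_nontrivial A' with hA | hA
    · rw [Subsingleton.elim ((P.map φ).coeff r) 0]
      exact Submodule.zero_mem _
    · rw [h1.natDegree_map, coeff_map, ← Ideal.map_pow]
      exact Ideal.mem_map_of_mem _ (h2 r)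
  · rw [← map_aeval_eq_aeval_map (RingHom.ext fun x => (h x).symm), h3, map_zero]

/-- determinant trick: `τ 𝔐^o ≤ I 𝔐^o`;
`LinearMap.exists_monic_and_coeff_mem_pow_and_aeval_eq_zero_of_range_le_smul` on the finite
`A`-module `𝔐^o` gives `P(τ) τ^o = 0`; use `P * X^o`. -/
theorem IntOver.of_reduction [IsNoetherianRing A] [Module.Finite A T] {I : Ideal A} {𝔐 : Ideal T}
    {o : ℕ} (h : 𝔐 ^ (o + 1) ≤ I.map (algebraMap A T) * 𝔐 ^ o) {τ : T} (hτ : τ ∈ 𝔐) :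
    IntOver I τ := by
  let M : Submodule A T := (𝔐 ^ o).restrictScalars A
  have hM : ∀ x ∈ M, LinearMap.mulLeft A τ x ∈ M := fun x hx => Ideal.mul_mem_left _ τ hx
  let f : Module.End A M := (LinearMap.mulLeft A τ).restrict hM
  have hf : LinearMap.range f ≤ I • ⊤ := by
    rintro _ ⟨x, rfl⟩
    rw [Submodule.mem_smul_top_iff, ← Ideal.smul_restrictScalars]
    refine h ?_
    rw [pow_succ']
    exact Ideal.mul_mem_mul hτ x.2
  obtain ⟨P, h1, -, h2, h3⟩ :=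
    LinearMap.exists_monic_and_natDegree_eq_and_coeff_mem_pow_and_aeval_eq_zero A f I hf
  have key : ∀ (Q : A[X]) (x : M), ((aeval f Q x : M) : T) = aeval τ Q * x := by
    intro Q
    induction Q using Polynomial.induction_on with
    | C a =>
      intro x
      rw [aeval_C, aeval_C, Module.algebraMap_end_apply, Submodule.coe_smul, Algebra.smul_def]
    | add p q hp hq =>
      intro x
      rw [map_add, map_add, LinearMap.add_apply, Submodule.coe_add, hp, hq, add_mul]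
    | monomial k a ih =>
      intro x
      rw [pow_succ, ← mul_assoc, map_mul, map_mul (aeval τ), aeval_X, aeval_X, Module.End.mul_apply, ih,
        mul_assoc]
      rfl
  refine ⟨P * X ^ o, h1.mul (monic_X_pow o), ga_mul_X_pow h1 h2 o, ?_⟩
  have := key P ⟨τ ^ o, Ideal.pow_mem_pow hτ o⟩
  rw [h3] at this
  rw [map_mul, map_pow, aeval_X]
  exact this.symm

end IntOver

/-- `𝒜` looks like the power series ring `W⟦Z⟧` modulo every power of `(Z)` -/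
structure PSR (W : Type) [CommRing W] {n : ℕ} {𝒜 : Type} [CommRing 𝒜] [Algebra W 𝒜]
    (Z : Fin (n + 1) → 𝒜) : Prop where
  dense : ∀ (N : ℕ) (x : 𝒜), ∃ f : Pz W n,
    x - MvPolynomial.aeval Z f ∈ Ideal.span (Set.range Z) ^ N
  inj : ∀ (N : ℕ) (f : Pz W n), MvPolynomial.aeval Z f ∈ Ideal.span (Set.range Z) ^ N →
    f ∈ XI W n ^ N

section PSR
variable {W : Type} [CommRing W] {n : ℕ} {𝒜 : Type} [CommRing 𝒜] [Algebra W 𝒜]
  {Z : Fin (n + 1) → 𝒜}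

/-- `W[Z][w] → 𝒜[w]` -/
noncomputable def PhiZ (W : Type) [CommRing W] {n : ℕ} {𝒜 : Type} [CommRing 𝒜] [Algebra W 𝒜]
    (Z : Fin (n + 1) → 𝒜) : (Pz W n)[X] →+* 𝒜[X] :=
  mapRingHom (MvPolynomial.aeval Z : Pz W n →ₐ[W] 𝒜).toRingHom

theorem Gb_map_XI (Z : Fin (n + 1) → 𝒜) :
    (XI W n).map (MvPolynomial.aeval Z : Pz W n →ₐ[W] 𝒜) = Ideal.span (Set.range Z) := by
  unfold XI
  rw [Ideal.map_span, ← Set.range_comp]
  congr 2
  funext i
  simp

theorem PSR.Gb_dense_map (H : PSR W Z) (N : ℕ) {J : Ideal (Pz W n)} {x : 𝒜}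
    (hx : x ∈ J.map (MvPolynomial.aeval Z : Pz W n →ₐ[W] 𝒜)) :
    ∃ f ∈ J, x - MvPolynomial.aeval Z f ∈ Ideal.span (Set.range Z) ^ N := by
  induction hx using Submodule.span_induction with
  | mem x hx =>
    obtain ⟨f, hf, rfl⟩ := hx
    exact ⟨f, hf, by simp⟩
  | zero => exact ⟨0, J.zero_mem, by simp⟩
  | add x y _ _ hx hy =>
    obtain ⟨f, hf, hx⟩ := hx
    obtain ⟨g, hg, hy⟩ := hy
    refine ⟨f + g, J.add_mem hf hg, ?_⟩
    rw [map_add, add_sub_add_comm]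
    exact Ideal.add_mem _ hx hy
  | smul a x _ hx =>
    obtain ⟨f, hf, hx⟩ := hx
    obtain ⟨g, hg⟩ := H.dense N a
    refine ⟨g * f, J.mul_mem_left g hf, ?_⟩
    have e : a • x - MvPolynomial.aeval Z (g * f) =
        a * (x - MvPolynomial.aeval Z f) + (a - MvPolynomial.aeval Z g) * MvPolynomial.aeval Z f := by
      rw [map_mul, smul_eq_mul]
      ring
    rw [e]
    exact Ideal.add_mem _ (Ideal.mul_mem_left _ _ hx) (Ideal.mul_mem_right _ _ hg)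

theorem Gb_PhiZ_C (f : Pz W n) : PhiZ W Z (C f) = C (MvPolynomial.aeval Z f) := by
  simp [PhiZ]

theorem Gb_PhiZ_X : PhiZ W Z X = X := by
  simp [PhiZ]

theorem Gb_PhiZ_coeff (F : (Pz W n)[X]) (r : ℕ) :
    (PhiZ W Z F).coeff r = MvPolynomial.aeval Z (F.coeff r) := by
  simp [PhiZ]

theorem PSR.dense_pow (H : PSR W Z) (N : ℕ) {s : ℕ} {x : 𝒜} (hx : x ∈ Ideal.span (Set.range Z) ^ s) :
    ∃ f ∈ XI W n ^ s, x - MvPolynomial.aeval Z f ∈ Ideal.span (Set.range Z) ^ N := by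
  refine H.Gb_dense_map N ?_
  rwa [Ideal.map_pow, Gb_map_XI]

theorem PSR.dense_poly (H : PSR W Z) (N : ℕ) (x : 𝒜[X]) :
    ∃ F, x - PhiZ W Z F ∈ (Ideal.span (Set.range Z)).map C ^ N := by
  induction x using Polynomial.induction_on' with
  | add p q hp hq =>
    obtain ⟨F, hF⟩ := hp
    obtain ⟨G, hG⟩ := hq
    refine ⟨F + G, ?_⟩
    rw [map_add, add_sub_add_comm]
    exact Ideal.add_mem _ hF hG
  | monomial m a =>
    obtain ⟨g, hg⟩ := H.dense N a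
    refine ⟨C g * X ^ m, ?_⟩
    rw [map_mul, map_pow, Gb_PhiZ_C, Gb_PhiZ_X, ← C_mul_X_pow_eq_monomial, ← sub_mul, ← C_sub,
      ← Ideal.map_pow]
    exact Ideal.mul_mem_right _ _ (Ideal.mem_map_of_mem _ hg)

theorem PSR.mem_sup (H : PSR W Z) (pp : W) {f : Pz W n}
    (hf : MvPolynomial.aeval Z f ∈ Ideal.span (Set.range Z) ⊔ Ideal.span {algebraMap W 𝒜 pp}) :
    f ∈ XI W n ⊔ Ideal.span {MvPolynomial.C pp} := by
  obtain ⟨g, hg, hfg⟩ := H.Gb_dense_map 1 (J := XI W n ⊔ Ideal.span {MvPolynomial.C pp})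
    (x := MvPolynomial.aeval Z f) (by
      rwa [Ideal.map_sup, Gb_map_XI, Ideal.map_span, Set.image_singleton, MvPolynomial.aeval_C])
  rw [← map_sub] at hfg
  have h1 := H.inj 1 _ hfg
  rw [pow_one] at h1
  have e : f = (f - g) + g := by ring
  rw [e]
  exact Ideal.add_mem _ (Ideal.mem_sup_left h1) hg

theorem PSR.exists_monic [Nontrivial W] (H : PSR W Z) (N : ℕ) {f : 𝒜[X]} (hf : f.Monic) :
    ∃ F : (Pz W n)[X], F.Monic ∧ F.natDegree = f.natDegree ∧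
      ∀ r, f.coeff r - MvPolynomial.aeval Z (F.coeff r) ∈ Ideal.span (Set.range Z) ^ N := by
  choose g hg using fun r => H.dense N (f.coeff r)
  have hd : (∑ i : Fin f.natDegree, C (g i) * X ^ (i : ℕ) : (Pz W n)[X]).degree < f.natDegree :=
    degree_sum_fin_lt _
  refine ⟨X ^ f.natDegree + ∑ i : Fin f.natDegree, C (g i) * X ^ (i : ℕ), monic_X_pow_add hd, ?_,
    fun r => ?_⟩
  · rw [natDegree_add_eq_left_of_degree_lt (by rwa [degree_X_pow]), natDegree_X_pow]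
  · rw [coeff_add, coeff_X_pow]
    rcases lt_trichotomy r f.natDegree with hr | rfl | hr
    · rw [if_neg hr.ne, zero_add, finsetSum_coeff, Finset.sum_eq_single ⟨r, hr⟩]
      · rw [coeff_C_mul_X_pow, if_pos rfl]
        exact hg r
      · intro i _ hi
        rw [coeff_C_mul_X_pow, if_neg fun e => hi (Fin.ext e.symm)]
      · simp
    · rw [if_pos rfl, coeff_eq_zero_of_degree_lt hd, add_zero, map_one, hf.coeff_natDegree, sub_self]
      exact Ideal.zero_mem _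
    · rw [if_neg hr.ne', coeff_eq_zero_of_degree_lt (hd.trans (by exact_mod_cast hr)), add_zero,
        map_zero, coeff_eq_zero_of_natDegree_lt hr, sub_self]
      exact Ideal.zero_mem _

theorem PSR.exists_g (H : PSR W Z) (N : ℕ) {g : 𝒜} {o : ℕ}
    (hg : g - Z 0 ^ o ∈ Ideal.span (Set.range fun i : Fin n => Z i.succ)) :
    ∃ g' : Pz W n, g' - MvPolynomial.X 0 ^ o ∈
        Ideal.span (Set.range fun i : Fin n => (MvPolynomial.X i.succ : Pz W n)) ∧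
      g - MvPolynomial.aeval Z g' ∈ Ideal.span (Set.range Z) ^ N := by
  obtain ⟨f, hf, h1⟩ := H.Gb_dense_map N
    (J := Ideal.span (Set.range fun i : Fin n => (MvPolynomial.X i.succ : Pz W n)))
    (x := g - Z 0 ^ o) (by
      rw [Ideal.map_span, ← Set.range_comp]
      convert hg using 3
      funext i
      simp)
  refine ⟨f + MvPolynomial.X 0 ^ o, by rwa [add_sub_cancel_right], ?_⟩
  rw [map_add, map_pow, MvPolynomial.aeval_X, ← sub_sub, sub_right_comm]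
  exact h1

/-- approximate the cofactors by `dense_poly`, then `inj` coefficientwise (`Ideal.mem_map_C_iff`,
`Ideal.map_pow`). -/
theorem PSR.mem_rr (H : PSR W Z) {N : ℕ} {h : 𝒜} {f : 𝒜[X]} {h' : Pz W n} {f' : (Pz W n)[X]}
    (hh : h - MvPolynomial.aeval Z h' ∈ Ideal.span (Set.range Z) ^ N)
    (hf : f - PhiZ W Z f' ∈ (Ideal.span (Set.range Z)).map C ^ N) {x : (Pz W n)[X]}
    (hx : PhiZ W Z x ∈ Ideal.span {C h, f} ⊔ (Ideal.span (Set.range Z)).map C ^ N) :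
    x ∈ rr h' f' N := by
  obtain ⟨y, hy, c, hc, e⟩ := Submodule.mem_sup.1 hx
  obtain ⟨a, b, rfl⟩ := Ideal.mem_span_pair.1 hy
  obtain ⟨A, hA⟩ := H.dense_poly N a
  obtain ⟨B, hB⟩ := H.dense_poly N b
  have hh' : C h - PhiZ W Z (C h') ∈ (Ideal.span (Set.range Z)).map C ^ N := by
    rw [Gb_PhiZ_C, ← C_sub, ← Ideal.map_pow]
    exact Ideal.mem_map_of_mem _ hh
  have h1 : PhiZ W Z (x - (A * C h' + B * f')) ∈ (Ideal.span (Set.range Z)).map C ^ N := by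
    have e' : PhiZ W Z (x - (A * C h' + B * f')) =
        (a - PhiZ W Z A) * C h + PhiZ W Z A * (C h - PhiZ W Z (C h')) +
          ((b - PhiZ W Z B) * f + PhiZ W Z B * (f - PhiZ W Z f')) + c := by
      rw [map_sub, map_add, map_mul, map_mul, ← e]
      ring
    rw [e']
    exact Ideal.add_mem _ (Ideal.add_mem _
      (Ideal.add_mem _ (Ideal.mul_mem_right _ _ hA) (Ideal.mul_mem_left _ _ hh'))
      (Ideal.add_mem _ (Ideal.mul_mem_right _ _ hB) (Ideal.mul_mem_left _ _ hf))) hc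
  have h2 : x - (A * C h' + B * f') ∈ (XI W n).map C ^ N := by
    rw [← Ideal.map_pow, Ideal.mem_map_C_iff] at h1 ⊢
    intro r
    have h3 := h1 r
    rw [Gb_PhiZ_coeff] at h3
    exact H.inj N _ h3
  have e2 : x = (A * C h' + B * f') + (x - (A * C h' + B * f')) := by ring
  rw [e2]
  exact Submodule.add_mem_sup (Ideal.mem_span_pair.2 ⟨A, B, rfl⟩) h2

theorem Gb_der_pow (D : Derivation W 𝒜 𝒜) (I : Ideal 𝒜) (N : ℕ) :
    ∀ x ∈ I ^ (N + 1), D x ∈ I ^ N := by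
  induction N with
  | zero => simp
  | succ N ih =>
    intro x hx
    rw [pow_succ] at hx
    refine Submodule.mul_induction_on hx (fun a ha b hb => ?_) fun a b ha hb => ?_
    · rw [D.leibniz, smul_eq_mul, smul_eq_mul]
      refine Ideal.add_mem _ (Ideal.mul_mem_right _ _ ha) ?_
      rw [pow_succ']
      exact Ideal.mul_mem_mul hb (ih a ha)
    · rw [map_add]
      exact Ideal.add_mem _ ha hb

theorem Gb_der_aeval (D : Derivation W 𝒜 𝒜) (Dr : Fin (n + 1) → W)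
    (hD : ∀ i, D (Z i) = algebraMap W 𝒜 (Dr i)) (f : Pz W n) :
    MvPolynomial.aeval Z (der Dr f) = D (MvPolynomial.aeval Z f) := by
  induction f using MvPolynomial.induction_on with
  | C a => rw [MvPolynomial.aeval_C, D.map_algebraMap, MvPolynomial.derivation_C, map_zero]
  | add p q hp hq => rw [map_add, map_add, map_add, map_add, hp, hq]
  | mul_X p i hp =>
    rw [(der Dr).leibniz, map_mul, D.leibniz, MvPolynomial.aeval_X, hD, ← hp, smul_eq_mul,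
      smul_eq_mul, smul_eq_mul, smul_eq_mul, map_add, map_mul, map_mul, MvPolynomial.aeval_X, der,
      MvPolynomial.mkDerivation_X, MvPolynomial.aeval_C]

/-- `aeval Z (der Dr f) = ∂ (aeval Z f)`, and `∂ ((Z)^(N+1)) ⊆ (Z)^N`. -/
theorem der_approx (D : Derivation W 𝒜 𝒜) (Dr : Fin (n + 1) → W)
    (hD : ∀ i, D (Z i) = algebraMap W 𝒜 (Dr i)) {N : ℕ} {h : 𝒜} {h' : Pz W n}
    (hh : h - MvPolynomial.aeval Z h' ∈ Ideal.span (Set.range Z) ^ (N + 1)) :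
    D h - MvPolynomial.aeval Z (der Dr h') ∈ Ideal.span (Set.range Z) ^ N := by
  rw [Gb_der_aeval D Dr hD, ← map_sub]
  exact Gb_der_pow D _ N _ hh

end PSR

theorem ga_sub_const {W : Type} [CommRing W] (n : ℕ) (g : Pz W n) :
    g - MvPolynomial.C (MvPolynomial.constantCoeff g) ∈ XI W n := by
  induction g using MvPolynomial.induction_on with
  | C a => simp
  | add p q hp hq =>
    rw [map_add, map_add, add_sub_add_comm]
    exact Ideal.add_mem _ hp hq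
  | mul_X p i _ =>
    rw [map_mul, MvPolynomial.constantCoeff_X, mul_zero, map_zero, sub_zero]
    exact Ideal.mul_mem_left _ _ (Ideal.subset_span ⟨i, rfl⟩)

/-- the quotient by `mm` is `W / pp`: `mm = comap (constantCoeff ∘ evalRingHom 0) (pp)`. -/
theorem mm_isMaximal {W : Type} [CommRing W] (n : ℕ) (pp : W) [(Ideal.span {pp}).IsMaximal] :
    (mm n pp).IsMaximal := by
  let ψ : (Pz W n)[X] →+* W := MvPolynomial.constantCoeff.comp (evalRingHom 0)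
  have hψ : Function.Surjective ψ := fun w => ⟨C (MvPolynomial.C w), by simp [ψ]⟩
  have e : mm n pp = (Ideal.span {pp}).comap ψ := by
    refine le_antisymm (sup_le (sup_le ?_ ?_) ?_) fun F hF => ?_
    · rw [Ideal.span_singleton_le_iff_mem, Ideal.mem_comap]
      simp [ψ]
    · rw [Ideal.map_le_iff_le_comap, XI, Ideal.span_le]
      rintro _ ⟨i, rfl⟩
      simp [ψ]
    · rw [Ideal.span_singleton_le_iff_mem, Ideal.mem_comap]
      simp [ψ]
    · obtain ⟨c, hc⟩ := Ideal.mem_span_singleton'.1 (Ideal.mem_comap.1 hF)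
      have hc' : MvPolynomial.constantCoeff (F.coeff 0) = c * pp := by
        rw [hc, coeff_zero_eq_eval_zero]
        rfl
      have e1 : F = C (MvPolynomial.C c) * C (MvPolynomial.C pp) +
          C (F.coeff 0 - MvPolynomial.C (MvPolynomial.constantCoeff (F.coeff 0))) + divX F * X := by
        rw [hc', ← map_mul, ← map_mul, ← map_add, add_sub_cancel, add_comm (C _), divX_mul_X_add]
      rw [e1]
      refine Submodule.add_mem_sup (Submodule.add_mem_sup ?_ ?_) ?_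
      · exact Ideal.mul_mem_left _ _ (Ideal.mem_span_singleton_self _)
      · exact Ideal.mem_map_of_mem _ (ga_sub_const n _)
      · exact Ideal.mul_mem_left _ _ (Ideal.mem_span_singleton_self _)
  rw [e]
  exact Ideal.comap_isMaximal_of_surjective ψ hψ

/-- view `T` as a `P`-module; `cl (comap E + Δ) = kap Δ ⊤ (comap E)`, `kap_map`/`kap_mono` into
`kap Δ ⊤ (E.restrictScalars P)`, `length_restrict_le` twice (finiteness and the bound). -/
theorem cl_comap_sup_le {P T : Type} [CommRing P] [CommRing T] (ev : P →+* T) {𝔪 : Ideal P}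
    [𝔪.IsMaximal] {𝔐 E : Ideal T} (h𝔪 : 𝔪.map ev ≤ 𝔐) (hres : ∀ t : T, ∃ c : P, t - ev c ∈ 𝔐)
    {N : ℕ} (hN : 𝔐 ^ N ≤ E) (hE : cl E ≠ ⊤) (Δ : P) :
    cl (E.comap ev ⊔ Ideal.span {Δ}) ≤ cl (E ⊔ Ideal.span {ev Δ}) := by
  let _ : Algebra P T := ev.toAlgebra
  have hl : ∀ {J : Ideal T}, 𝔐 ^ N ≤ J → len (⊤ : Submodule P T) (J.restrictScalars P) ≤ cl J := by
    intro J hJ
    rw [len_top, (Submodule.Quotient.restrictScalarsEquiv P J).length_eq]
    exact length_restrict_le (𝔪 := 𝔪) h𝔪 hres hJ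
  have e1 : cl (E.comap ev ⊔ Ideal.span {Δ}) =
      kap Δ ((⊤ : Submodule P P).map (Algebra.linearMap P T)) (E.restrictScalars P) := by
    rw [kap_map, cl_eq_len, ← kap_top_ideal]
    rfl
  rw [e1]
  refine (kap_mono Δ (A := ⊤) le_rfl (le_top.trans le_sup_left)
    (ne_top_of_le_ne_top hE (hl hN))).trans ?_
  refine le_trans (len_mono le_rfl ?_) (hl (hN.trans le_sup_left))
  intro x hx
  obtain ⟨y, hy, z, hz, rfl⟩ := Submodule.mem_sup.1 (show x ∈ E ⊔ Ideal.span {ev Δ} from hx)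
  obtain ⟨t, rfl⟩ := Ideal.mem_span_singleton'.1 hz
  refine Submodule.add_mem_sup hy ?_
  rw [mul_comm]
  exact Submodule.smul_mem_pointwise_smul t Δ ⊤ Submodule.mem_top

theorem CoreAt.mono {sh : Shape} {N N' : ℕ} {W : Type} [CommRing W] {pp : W} {fld : Prop}
    (h : CoreAt sh N W pp fld) (hN : N ≤ N') : CoreAt sh N' W pp fld := by
  intro D L0 L1 L2 V hf
  have hr : rr D.h D.f N' ≤ rr D.h D.f N := sup_le_sup_left (Ideal.pow_le_pow_right hN) _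
  have hj : D.jj N' ≤ D.jj N := sup_le_sup_left hr _
  refine h D L0 L1 L2 ⟨V.hh, V.mon, V.deg, V.hfc, V.hg, fun τ => ?_, fun ε => hr (V.eq ε),
    V.jX.trans hj, V.l0.mono le_rfl hj, V.l1.mono le_rfl (sup_le_sup_right hj _),
    V.l2.mono le_rfl (sup_le_sup_right hj _)⟩ hf
  obtain ⟨b, h1, h2⟩ := V.int τ
  exact ⟨b, h1, hr h2⟩

/-- the shape attached to a complex -/
def FC.shape {T : Type} [CommRing T] (F : FC T) (d₁ c k a e o ν δ N₀ N₁ ng : ℕ) (a₀ : F.ι)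
    (hk : 1 ≤ k) (ha : 1 ≤ a) (he : 1 ≤ e) (ho : 1 ≤ o) (hν : 1 ≤ ν) (hδ : 1 ≤ δ)
    (h0 : F.deg a₀ = 0) (hu : ∀ b, F.deg b = 0 → b = a₀) (hc : F.DegLe c) : Shape where
  d₁ := d₁
  c := c
  k := k
  a := a
  e := e
  o := o
  ν := ν
  δ := δ
  N₀ := N₀
  N₁ := N₁
  ng := ng
  ι := F.ι
  deg := F.deg
  a₀ := a₀
  hk := hk
  ha := ha
  he := he
  ho := ho
  hν := hν
  hδ := hδ
  h0 := h0
  hu := hu
  hc := hc

/-- `(I + (y))^M ≤ I + (y^k)` for `M` large (`pow_le_frob`, `Ideal.sup_pow_add_le_pow_sup_pow`), the same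
for `(x 0)`; unpack `FC.nh`, `FC.mem_J_iff`, `span_pow_eq_words`.  With `τ (.dd a b) = F.d a b` one has
`Dm τ = F.d` by `F.hd`, and `S1 τ i` is the chosen homotopy by `Htp.hdeg`. -/
theorem exists_tau {T : Type} [CommRing T] (F : FC T) {d₁ c k a e o ν ng : ℕ} (a₀ : F.ι)
    (hk : 1 ≤ k) (ha : 1 ≤ a) (he : 1 ≤ e) (ho : 1 ≤ o) (hν : 1 ≤ ν)
    (h0 : F.deg a₀ = 0) (hu : ∀ b, F.deg b = 0 → b = a₀) (hc : F.DegLe c) (hsq : F.Sq ⊥)
    (y : Fin (d₁ + 1) → T) (x : Fin (d₁ + c + 1) → T)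
    (hn1 : ∀ i, ∃ N, x i ^ N ∈ F.nh ⊥ ⊔ Ideal.span (Set.range y))
    (hn2 : ∀ i, ∃ N, x i ^ N ∈
      F.nh ⊥ ⊔ Ideal.span {x 0} ⊔ Ideal.span (Set.range fun l : Fin d₁ => y l.succ))
    (jg : Fin ng → T) (hj : ∀ r, jg r ∈ F.J ⊔ Ideal.span (Set.range y) ^ k) :
    ∃ (N₀ : ℕ) (τ : Tau F.ι d₁ c k ng → T), (∀ a b, τ (.dd a b) = F.d a b) ∧
      (∀ l, τ (.yy l) = y l) ∧ ∀ (δ N₁ : ℕ) (hδ : 1 ≤ δ) (ε : Eqn F.ι (d₁ + c) ng),
        (F.shape d₁ c k a e o ν δ N₀ N₁ ng a₀ hk ha he ho hν hδ h0 hu hc).eqs 1 τ x jg ε = 0 := by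
  have a1 : ∀ i, ∃ N, x i ^ N ∈ F.nh ⊥ ⊔ Ideal.span (Set.range fun l => y l ^ k) := fun i =>
    Ideal.radical_le_radical_iff.2 (sup_le (le_sup_left.trans Ideal.le_radical)
      (Ideal.span_le.2 (by
        rintro _ ⟨l, rfl⟩
        exact ⟨k, Ideal.mem_sup_right (Ideal.subset_span ⟨l, rfl⟩)⟩))) (hn1 i)
  have a2 : ∀ i, ∃ N, x i ^ N ∈ F.nh ⊥ ⊔ Ideal.span {x 0 ^ ((d₁ + c + 1) * ν)} ⊔
      Ideal.span (Set.range fun l : Fin d₁ => y l.succ) := fun i =>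
    Ideal.radical_le_radical_iff.2 (sup_le (sup_le
      ((le_sup_left.trans le_sup_left).trans Ideal.le_radical)
      ((Ideal.span_singleton_le_iff_mem _).2 (Ideal.mem_radical_iff.2 ⟨_, Ideal.mem_sup_left
        (Ideal.mem_sup_right (Ideal.mem_span_singleton_self _))⟩)))
      (le_sup_right.trans Ideal.le_radical)) (hn2 i)
  choose N1 a1 using a1
  choose N2 a2 using a2
  obtain ⟨M1, hM1⟩ := Finite.exists_le N1
  obtain ⟨M2, hM2⟩ := Finite.exists_le N2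
  have b1 : ∀ i, ∃ (s : Matrix F.ι F.ι T) (t : Fin (d₁ + 1) → T),
      F.Htp ⊥ (x i ^ (M1 + M2) - ∑ l, y l ^ k * t l) s := fun i => by
    obtain ⟨u, ⟨s, hs⟩, v, hv, huv⟩ := Submodule.mem_sup.1
      (Ideal.pow_mem_of_pow_mem _ (a1 i) ((hM1 i).trans (Nat.le_add_right M1 M2)))
    obtain ⟨t, rfl⟩ := Ideal.mem_span_range_iff_exists_fun.1 hv
    refine ⟨s, t, ?_⟩
    simpa only [← huv, mul_comm, add_sub_cancel_right] using hs
  have b2 : ∀ i, ∃ (s : Matrix F.ι F.ι T) (t₀ : T) (t : Fin d₁ → T), F.Htp ⊥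
      (x i ^ (M1 + M2) - x 0 ^ ((d₁ + c + 1) * ν) * t₀ - ∑ l, y l.succ * t l) s := fun i => by
    obtain ⟨u, hu, v, hv, huv⟩ := Submodule.mem_sup.1
      (Ideal.pow_mem_of_pow_mem _ (a2 i) ((hM2 i).trans (Nat.le_add_left M2 M1)))
    obtain ⟨u, ⟨s, hs⟩, v', hv', rfl⟩ := Submodule.mem_sup.1 hu
    obtain ⟨t, rfl⟩ := Ideal.mem_span_range_iff_exists_fun.1 hv
    obtain ⟨t₀, rfl⟩ := Ideal.mem_span_singleton'.1 hv'
    refine ⟨s, t₀, t, ?_⟩
    convert hs using 1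
    simp only [← huv, mul_comm]
    ring
  have b3 : ∀ r, ∃ (t : F.ι → T) (t' : (Fin k → Fin (d₁ + 1)) → T),
      jg r - ∑ b, F.d a₀ b * t b - ∑ f, (∏ j, y (f j)) * t' f = 0 := fun r => by
    obtain ⟨u, hu', v, hv, huv⟩ := Submodule.mem_sup.1 (hj r)
    obtain ⟨t, -, rfl⟩ := (FC.mem_J_iff h0 hu u).1 hu'
    rw [span_pow_eq_words] at hv
    obtain ⟨t', rfl⟩ := Ideal.mem_span_range_iff_exists_fun.1 hv
    refine ⟨t, t', ?_⟩
    simp only [← huv, mul_comm]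
    ring
  choose s1 t1 b1 using b1
  choose s2 t0 t2 b2 using b2
  choose tj tw b3 using b3
  let τ : Tau F.ι d₁ c k ng → T := fun t => match t with
    | .dd a b => F.d a b
    | .yy l => y l
    | .s1 i a b => s1 i a b
    | .s2 i a b => s2 i a b
    | .t1 i l => t1 i l
    | .t2 i l => t2 i l
    | .t0 i => t0 i
    | .tj r b => tj r b
    | .tw r f => tw r f
  refine ⟨M1 + M2, τ, fun _ _ => rfl, fun _ => rfl, fun δ N₁ hδ ε => ?_⟩
  have e0 : (F.shape d₁ c k a e o ν δ (M1 + M2) N₁ ng a₀ hk ha he ho hν hδ h0 hu hc).Dm τ = F.d := by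
    ext a b
    exact ite_eq_left_iff.2 fun h => (of_not_not fun h' => h (F.hd a b h')).symm
  have e1 : ∀ i, (F.shape d₁ c k a e o ν δ (M1 + M2) N₁ ng a₀ hk ha he ho hν hδ h0 hu hc).S1 τ i =
      s1 i := fun i => by
    ext a b
    exact ite_eq_left_iff.2 fun h => (of_not_not fun h' => h ((b1 i).hdeg a b h')).symm
  have e2 : ∀ i, (F.shape d₁ c k a e o ν δ (M1 + M2) N₁ ng a₀ hk ha he ho hν hδ h0 hu hc).S2 τ i =
      s2 i := fun i => by
    ext a b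
    exact ite_eq_left_iff.2 fun h => (of_not_not fun h' => h ((b2 i).hdeg a b h')).symm
  cases ε with
  | sq a b =>
    simp only [Shape.eqs, e0]
    exact hsq a b
  | h1 i a b =>
    have := (b1 i).heq a b
    simp only [Matrix.sub_apply, Matrix.smul_apply, Matrix.one_apply, smul_eq_mul, mul_ite, mul_one,
      mul_zero, Ideal.mem_bot] at this
    rw [← e1 i] at this
    simp only [Shape.eqs, e0, one_pow, one_mul]
    exact this
  | h2 i a b =>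
    have := (b2 i).heq a b
    simp only [Matrix.sub_apply, Matrix.smul_apply, Matrix.one_apply, smul_eq_mul, mul_ite, mul_one,
      mul_zero, Ideal.mem_bot] at this
    rw [← e2 i] at this
    simp only [Shape.eqs, e0, one_pow, one_mul]
    exact this
  | jj r =>
    simp only [Shape.eqs, e0, one_pow, one_mul]
    exact b3 r

/-- hypotheses on `T = 𝒜[w]/(h,f)` up to the conductor `g` -/
structure Prim (W : Type) [CommRing W] {n : ℕ} {𝒜 : Type} [CommRing 𝒜] [Algebra W 𝒜]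
    (Z : Fin (n + 1) → 𝒜) {T : Type} [CommRing T] [Algebra 𝒜 T] (pp : W) (a e o : ℕ) (h g : 𝒜)
    (f : 𝒜[X]) (w : T) : Prop where
  ha : 1 ≤ a
  he : 1 ≤ e
  ho : 1 ≤ o
  hh : h - algebraMap W 𝒜 (pp ^ a) ∈ Ideal.span (Set.range Z)
  mon : f.Monic
  deg : f.natDegree = e
  hfc : ∀ r, r < e → f.coeff r ∈ Ideal.span (Set.range Z) ⊔ Ideal.span {algebraMap W 𝒜 pp}
  hg : g - Z 0 ^ o ∈ Ideal.span (Set.range fun i : Fin n => Z i.succ)
  ker : RingHom.ker (aeval w : 𝒜[X] →ₐ[𝒜] T) = Ideal.span {C h, f}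
  cond : ∀ τ : T, ∃ F : 𝒜[X], aeval w F = algebraMap 𝒜 T g * τ

/-- the data: `num∞ τ ∈ 𝒜[X]` from `cond`; truncate `h, g, f, num∞` modulo `(Z)^(N+1)` (take `h' = 0`
if `h = 0`).  An identity in `T` that is homogeneous in `(1, τ)` gives, by `Shape.eqs_smul`,
`Shape.eqs_map` for `aeval w`, an element of `ker = (C h, f)`; compare in the quotient of `𝒜[X]` by
`(C h, f) + (Z)^N` and use `PSR.mem_rr`.  `D.jj N = comap ev E` since `rr ≤ comap ev E`. -/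
theorem exists_data {W : Type} [CommRing W] [Nontrivial W] {sh : Shape} {𝒜 : Type} [CommRing 𝒜]
    [Algebra W 𝒜] {Z : Fin (sh.n + 1) → 𝒜} (H : PSR W Z) {T : Type} [CommRing T] [Algebra 𝒜 T]
    {pp : W} {h g : 𝒜} {f : 𝒜[X]} {w : T} (Pr : Prim W Z pp sh.a sh.e sh.o h g f w)
    (τ : sh.𝒯 → T) (jg : Fin sh.ng → (Pz W sh.n)[X])
    (heq : ∀ ε, sh.eqs 1 τ (fun i => algebraMap 𝒜 T (Z i))
      (fun r => aeval w (PhiZ W Z (jg r))) ε = 0)
    (hint : ∀ t, ∃ b : Fin sh.δ → 𝒜,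
      (∀ j : Fin sh.δ, b j ∈ (Ideal.span (Set.range Z) ^ sh.wt t) ^ ((j : ℕ) + 1)) ∧
      τ t ^ sh.δ + ∑ j : Fin sh.δ, algebraMap 𝒜 T (b j) * τ t ^ (sh.δ - ((j : ℕ) + 1)) = 0)
    (Dr : Fin (sh.n + 1) → W) (N : ℕ) :
    ∃ D : Data W sh, D.jg = jg ∧ D.Dr = Dr ∧ (h = 0 → D.h = 0) ∧
      h - MvPolynomial.aeval Z D.h ∈ Ideal.span (Set.range Z) ^ (N + 1) ∧
      f - PhiZ W Z D.f ∈ (Ideal.span (Set.range Z)).map C ^ N ∧
      ∀ L0 L1 L2, (XI W sh.n).map C ^ sh.N₁ ≤ D.jj N → LenLe (mm sh.n pp) (D.jj N) L0 →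
        LenLe (mm sh.n pp) (D.jj N ⊔ Ideal.span {C (der D.Dr D.h)}) L1 →
        LenLe (mm sh.n pp) (D.jj N ⊔ Ideal.span {derivative D.f}) L2 → D.Valid pp N L0 L1 L2 := by
  obtain ⟨h', hh', hh0⟩ : ∃ h' : Pz W sh.n,
      h - MvPolynomial.aeval Z h' ∈ Ideal.span (Set.range Z) ^ (N + 1) ∧ (h = 0 → h' = 0) := by
    by_cases h0 : h = 0
    · exact ⟨0, by simp [h0], fun _ => rfl⟩
    · obtain ⟨h', hh'⟩ := H.dense (N + 1) h
      exact ⟨h', hh', fun e => absurd e h0⟩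
  obtain ⟨g', hg1, hg2⟩ := H.exists_g N Pr.hg
  obtain ⟨f', hf1, hf2, hf3⟩ := H.exists_monic (N + 1) Pr.mon
  choose nu hnu using fun t => Pr.cond (τ t)
  choose nu' hnu' using fun t => H.dense_poly N (nu t)
  have hle : Ideal.span (Set.range Z) ^ (N + 1) ≤ Ideal.span (Set.range Z) ^ N :=
    Ideal.pow_le_pow_right (Nat.le_succ N)
  have hle1 : Ideal.span (Set.range Z) ^ (N + 1) ≤ Ideal.span (Set.range Z) :=
    Ideal.pow_le_self (Nat.succ_ne_zero N)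
  have hPC : ∀ x : Pz W sh.n, PhiZ W Z (C x) = C (MvPolynomial.aeval Z x) := fun x => by
    simp [PhiZ]
  have hf4 : f - PhiZ W Z f' ∈ (Ideal.span (Set.range Z)).map C ^ N := by
    rw [← Ideal.map_pow, Ideal.mem_map_C_iff]
    intro r
    have e : (f - PhiZ W Z f').coeff r = f.coeff r - MvPolynomial.aeval Z (f'.coeff r) := by
      simp [PhiZ]
    rw [e]
    exact hle (hf3 r)
  obtain ⟨𝔎, h𝔎⟩ : ∃ 𝔎 : Ideal 𝒜[X],
      𝔎 = Ideal.span {C h, f} ⊔ (Ideal.span (Set.range Z)).map C ^ N := ⟨_, rfl⟩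
  have q1 : ∀ x y : 𝒜[X], x - y ∈ (Ideal.span (Set.range Z)).map C ^ N →
      Ideal.Quotient.mk 𝔎 y = Ideal.Quotient.mk 𝔎 x := fun x y hxy =>
    (Ideal.Quotient.eq.2 (h𝔎 ▸ Submodule.mem_sup_right hxy)).symm
  have q2 : ∀ (x : 𝒜) (y : Pz W sh.n), x - MvPolynomial.aeval Z y ∈ Ideal.span (Set.range Z) ^ N →
      Ideal.Quotient.mk 𝔎 (PhiZ W Z (C y)) = Ideal.Quotient.mk 𝔎 (C x) := fun x y hxy => by
    refine q1 _ _ ?_
    rw [hPC, ← map_sub, ← Ideal.map_pow]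
    exact Ideal.mem_map_of_mem _ hxy
  have q3 : ∀ (x : 𝒜[X]) (y : (Pz W sh.n)[X]), aeval w x = 0 →
      Ideal.Quotient.mk 𝔎 (PhiZ W Z y) = Ideal.Quotient.mk 𝔎 x → y ∈ rr h' f' N := by
    intro x y hx hxy
    refine H.mem_rr (hle hh') hf4 ?_
    rw [← h𝔎, ← Ideal.Quotient.eq_zero_iff_mem, hxy, Ideal.Quotient.eq_zero_iff_mem, h𝔎, ← Pr.ker]
    exact Submodule.mem_sup_left hx
  refine ⟨⟨h', g', f', nu', jg, Dr⟩, rfl, rfl, hh0, hh', hf4, fun L0 L1 L2 jX l0 l1 l2 =>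
    ⟨?_, hf1, hf2.trans Pr.deg, fun r hr => ?_, hg1, fun t => ?_, fun ε => ?_, jX, l0, l1, l2⟩⟩
  · have h1 := H.inj 1 (h' - MvPolynomial.C (pp ^ sh.a)) (by
      have e : MvPolynomial.aeval Z (h' - MvPolynomial.C (pp ^ sh.a)) =
          (h - algebraMap W 𝒜 (pp ^ sh.a)) - (h - MvPolynomial.aeval Z h') := by
        rw [map_sub, MvPolynomial.aeval_C]
        ring
      rw [e, pow_one]
      exact Ideal.sub_mem _ Pr.hh (hle1 hh'))
    rwa [pow_one] at h1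
  · refine H.mem_sup pp ?_
    have e : MvPolynomial.aeval Z (f'.coeff r) =
        f.coeff r - (f.coeff r - MvPolynomial.aeval Z (f'.coeff r)) := by ring
    show MvPolynomial.aeval Z (f'.coeff r) ∈ _
    rw [e]
    exact Ideal.sub_mem _ (Pr.hfc r hr) (Submodule.mem_sup_left (hle1 (hf3 r)))
  · obtain ⟨b, hb1, hb2⟩ := hint t
    simp only [← pow_mul] at hb1
    choose b' hb' hb'' using fun j => H.dense_pow N (hb1 j)
    refine ⟨fun j => C (b' j), fun j => ?_, ?_⟩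
    · rw [← Ideal.map_pow, mul_comm]
      exact Ideal.mem_map_of_mem _ (hb' j)
    · refine q3 (nu t ^ sh.δ + ∑ j : Fin sh.δ, C g ^ ((j : ℕ) + 1) * C (b j) *
        nu t ^ (sh.δ - ((j : ℕ) + 1))) _ ?_ ?_
      · have e : aeval w (nu t ^ sh.δ + ∑ j : Fin sh.δ, C g ^ ((j : ℕ) + 1) * C (b j) *
            nu t ^ (sh.δ - ((j : ℕ) + 1))) = algebraMap 𝒜 T g ^ sh.δ * (τ t ^ sh.δ +
            ∑ j : Fin sh.δ, algebraMap 𝒜 T (b j) * τ t ^ (sh.δ - ((j : ℕ) + 1))) := by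
          simp only [map_add, map_pow, map_sum, map_mul, hnu, aeval_C, mul_add, Finset.mul_sum,
            mul_pow]
          congr 1
          refine Finset.sum_congr rfl fun j _ => ?_
          have e1 : algebraMap 𝒜 T g ^ sh.δ =
              algebraMap 𝒜 T g ^ ((j : ℕ) + 1) * algebraMap 𝒜 T g ^ (sh.δ - ((j : ℕ) + 1)) := by
            rw [← pow_add, Nat.add_sub_cancel' j.2]
          rw [e1]
          ring
        rw [e, hb2, mul_zero]
      · simp only [map_add, map_pow, map_sum, map_mul, q2 _ _ hg2, q2 _ _ (hb'' _),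
          q1 _ _ (hnu' t)]
  · refine q3 (sh.eqs (C g) nu (fun i => C (Z i)) (fun r => PhiZ W Z (jg r)) ε) _ ?_ ?_
    · have e := sh.eqs_map (aeval w : 𝒜[X] →ₐ[𝒜] T).toRingHom (C g) nu (fun i => C (Z i))
        (fun r => PhiZ W Z (jg r)) ε
      have e1 : (aeval w : 𝒜[X] →ₐ[𝒜] T).toRingHom (C g) = algebraMap 𝒜 T g * 1 := by simp
      have e2 : (aeval w : 𝒜[X] →ₐ[𝒜] T).toRingHom ∘ nu = fun t => algebraMap 𝒜 T g * τ t :=
        funext hnu
      have e3 : ((aeval w : 𝒜[X] →ₐ[𝒜] T).toRingHom ∘ fun i => C (Z i)) =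
          fun i => algebraMap 𝒜 T (Z i) := funext fun i => by simp
      rw [e1, e2, e3, Shape.eqs_smul] at e
      exact e.trans (mul_eq_zero_of_right _ (heq ε))
    · have e1 : Ideal.Quotient.mk 𝔎 ∘ PhiZ W Z ∘ nu' = Ideal.Quotient.mk 𝔎 ∘ nu :=
        funext fun t => q1 _ _ (hnu' t)
      have e2 : (PhiZ W Z ∘ fun i => C (MvPolynomial.X i)) = fun i => C (Z i) :=
        funext fun i => by simp [hPC]
      show Ideal.Quotient.mk 𝔎 (PhiZ W Z (sh.eqs (C g') nu' _ jg ε)) = _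
      rw [Shape.eqs_map, Shape.eqs_map, Shape.eqs_map, q2 _ _ hg2, e1, e2]
      rfl

/-- evaluation `W[Z][w] → T` -/
noncomputable def geEv (W : Type) [CommRing W] {n : ℕ} {𝒜 : Type} [CommRing 𝒜] [Algebra W 𝒜]
    (Z : Fin (n + 1) → 𝒜) {T : Type} [CommRing T] [Algebra 𝒜 T] (w : T) : (Pz W n)[X] →+* T :=
  (aeval w : 𝒜[X] →ₐ[𝒜] T).toRingHom.comp (PhiZ W Z)

/-- the weights, independently of the shape -/
def geWt {ι : Type} {d₁ c k ng : ℕ} (ν : ℕ) : Tau ι d₁ c k ng → ℕ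
  | .dd _ _ => ν
  | .yy _ => ν
  | _ => 0

theorem ge_len {W : Type} [CommRing W] {pp : W} [(Ideal.span {pp}).IsMaximal] {n : ℕ} {𝒜 : Type}
    [CommRing 𝒜] [Algebra W 𝒜] {Z : Fin (n + 1) → 𝒜} {T : Type} [CommRing T] [Algebra 𝒜 T]
    {h : 𝒜} {f : 𝒜[X]} {w : T} (D : Derivation W 𝒜 𝒜) (Dr : Fin (n + 1) → W)
    (hD : ∀ i, D (Z i) = algebraMap W 𝒜 (Dr i)) {𝔐 E : Ideal T}
    (hp𝔐 : algebraMap 𝒜 T (algebraMap W 𝒜 pp) ∈ 𝔐) (hZ𝔐 : ∀ i, algebraMap 𝒜 T (Z i) ∈ 𝔐)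
    (hw𝔐 : w ∈ 𝔐) (hres : ∀ t : T, ∃ x : W, t - algebraMap 𝒜 T (algebraMap W 𝒜 x) ∈ 𝔐)
    {N₁ N : ℕ} (hE : 𝔐 ^ N₁ ≤ E) (hN : N₁ ≤ N) {h' : Pz W n} {f' : (Pz W n)[X]}
    (hh : h - MvPolynomial.aeval Z h' ∈ Ideal.span (Set.range Z) ^ (N + 1))
    (hf : f - PhiZ W Z f' ∈ (Ideal.span (Set.range Z)).map C ^ N) {L0 L1 L2 : ℕ} (h0 : cl E ≤ L0)
    (h1 : cl (E ⊔ Ideal.span {algebraMap 𝒜 T (D h)}) ≤ L1)
    (h2 : cl (E ⊔ Ideal.span {aeval w (derivative f)}) ≤ L2) :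
    (XI W n).map C ^ N₁ ≤ E.comap (geEv W Z w) ∧ LenLe (mm n pp) (E.comap (geEv W Z w)) L0 ∧
      LenLe (mm n pp) (E.comap (geEv W Z w) ⊔ Ideal.span {C (der Dr h')}) L1 ∧
      LenLe (mm n pp) (E.comap (geEv W Z w) ⊔ Ideal.span {derivative f'}) L2 := by
  have := mm_isMaximal n pp
  have eC : ∀ x, geEv W Z w (C x) = algebraMap 𝒜 T (MvPolynomial.aeval Z x) := fun x => by
    rw [geEv, RingHom.comp_apply, PhiZ, coe_mapRingHom, map_C]
    exact aeval_C _ _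
  have hm : (mm n pp).map (geEv W Z w) ≤ 𝔐 := by
    rw [mm, XI, Ideal.map_sup, Ideal.map_sup, Ideal.map_map, Ideal.map_span, Ideal.map_span,
      Ideal.map_span]
    refine sup_le (sup_le ?_ ?_) ?_ <;> rw [Ideal.span_le]
    · rintro _ ⟨_, rfl, rfl⟩
      rw [eC, MvPolynomial.aeval_C]
      exact hp𝔐
    · rintro _ ⟨_, ⟨i, rfl⟩, rfl⟩
      rw [RingHom.comp_apply, eC, MvPolynomial.aeval_X]
      exact hZ𝔐 i
    · rintro _ ⟨_, rfl, rfl⟩
      simpa [geEv, PhiZ] using hw𝔐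
  have hmE : mm n pp ^ N₁ ≤ E.comap (geEv W Z w) := by
    rw [← Ideal.map_le_iff_le_comap, Ideal.map_pow]
    exact (Ideal.pow_right_mono hm _).trans hE
  have hfin : cl E ≠ ⊤ := ne_top_of_le_ne_top (ENat.natCast_ne_top _) h0
  have hZ : ∀ x ∈ Ideal.span (Set.range Z) ^ N, algebraMap 𝒜 T x ∈ E := fun x hx => by
    have h3 : (Ideal.span (Set.range Z)).map (algebraMap 𝒜 T) ≤ 𝔐 := by
      rw [Ideal.map_span, Ideal.span_le]
      rintro _ ⟨_, ⟨i, rfl⟩, rfl⟩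
      exact hZ𝔐 i
    have h4 := Ideal.mem_map_of_mem (algebraMap 𝒜 T) hx
    rw [Ideal.map_pow] at h4
    exact hE (Ideal.pow_le_pow_right hN (Ideal.pow_right_mono h3 _ h4))
  have key : ∀ (Δ : (Pz W n)[X]) (t : T) (L : ℕ), t - geEv W Z w Δ ∈ E →
      cl (E ⊔ Ideal.span {t}) ≤ L →
      LenLe (mm n pp) (E.comap (geEv W Z w) ⊔ Ideal.span {Δ}) L := fun Δ t L ht hL => by
    refine lenLe_of_cl_le (hmE.trans le_sup_left) ((cl_comap_sup_le _ hm (fun t => ?_) hE hfin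
      Δ).trans ((cl_anti (sup_le le_sup_left ?_)).trans hL))
    · obtain ⟨x, hx⟩ := hres t
      exact ⟨C (MvPolynomial.C x), by rwa [eC, MvPolynomial.aeval_C]⟩
    · rw [Ideal.span_singleton_le_iff_mem, ← sub_add_cancel t (geEv W Z w Δ)]
      exact Submodule.add_mem_sup ht (Ideal.mem_span_singleton_self _)
  refine ⟨(Ideal.pow_right_mono (le_sup_of_le_left le_sup_right) _).trans hmE, ?_, ?_, ?_⟩
  · have h3 := key 0 0 L0 (by simp) (by rwa [Ideal.span_singleton_zero, sup_bot_eq])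
    rwa [Ideal.span_singleton_zero, sup_bot_eq] at h3
  · refine key _ _ _ ?_ h1
    rw [eC, ← map_sub]
    exact hZ _ (der_approx D Dr hD hh)
  · refine key _ _ _ ?_ h2
    have h3 : geEv W Z w (derivative f') = aeval w (derivative (PhiZ W Z f')) := by
      simp [geEv, PhiZ]
    rw [← Ideal.map_pow, Ideal.mem_map_C_iff] at hf
    rw [h3, ← map_sub, ← map_sub, aeval_eq_sum_range]
    refine Ideal.sum_mem _ fun r _ => ?_
    rw [Algebra.smul_def, coeff_derivative]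
    exact Ideal.mul_mem_right _ _ (hZ _ (Ideal.mul_mem_right _ _ (hf _)))

theorem ge_core {W : Type} [CommRing W] [Nontrivial W] {pp : W} [(Ideal.span {pp}).IsMaximal]
    {sh : Shape} {𝒜 : Type} [CommRing 𝒜] [Algebra W 𝒜] {Z : Fin (sh.n + 1) → 𝒜} (H : PSR W Z)
    {T : Type} [CommRing T] [Algebra 𝒜 T] {h g : 𝒜} {f : 𝒜[X]} {w : T}
    (Pr : Prim W Z pp sh.a sh.e sh.o h g f w) {fld : Prop} (hfld : fld → h = 0) {N : ℕ}
    (hN : CoreAt sh N W pp fld) (D : Derivation W 𝒜 𝒜) (Dr : Fin (sh.n + 1) → W)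
    (hD : ∀ i, D (Z i) = algebraMap W 𝒜 (Dr i)) {𝔐 E : Ideal T}
    (hp𝔐 : algebraMap 𝒜 T (algebraMap W 𝒜 pp) ∈ 𝔐) (hZ𝔐 : ∀ i, algebraMap 𝒜 T (Z i) ∈ 𝔐)
    (hw𝔐 : w ∈ 𝔐) (hres : ∀ t : T, ∃ x : W, t - algebraMap 𝒜 T (algebraMap W 𝒜 x) ∈ 𝔐)
    (hE : 𝔐 ^ sh.N₁ ≤ E) (τ : sh.𝒯 → T) (jg : Fin sh.ng → (Pz W sh.n)[X])
    (hjg : Submodule.span (Pz W sh.n)[X] (Set.range jg) = E.comap (geEv W Z w))
    (heq : ∀ ε, sh.eqs 1 τ (fun i => algebraMap 𝒜 T (Z i))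
      (fun r => aeval w (PhiZ W Z (jg r))) ε = 0)
    (hint : ∀ t, ∃ b : Fin sh.δ → 𝒜,
      (∀ j : Fin sh.δ, b j ∈ (Ideal.span (Set.range Z) ^ geWt sh.ν t) ^ ((j : ℕ) + 1)) ∧
      τ t ^ sh.δ + ∑ j : Fin sh.δ, algebraMap 𝒜 T (b j) * τ t ^ (sh.δ - ((j : ℕ) + 1)) = 0)
    {L0 L1 L2 : ℕ} (h0 : cl E ≤ L0) (h1 : cl (E ⊔ Ideal.span {algebraMap 𝒜 T (D h)}) ≤ L1)
    (h2 : cl (E ⊔ Ideal.span {aeval w (derivative f)}) ≤ L2) :
    sh.a * sh.e * sh.ν ^ (sh.n + 1) * sh.Cb ≤ L0 + (sh.a - 1) * L1 + sh.a * sh.e * L2 := by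
  have hwt : ∀ t, geWt sh.ν t = sh.wt t := fun t => by cases t <;> rfl
  simp only [hwt] at hint
  obtain ⟨D', e1, e2, e3, e4, e5, e6⟩ := exists_data H Pr τ jg heq hint Dr (N + sh.N₁)
  obtain ⟨m0, m1, m2, m3⟩ := ge_len (pp := pp) D Dr hD hp𝔐 hZ𝔐 hw𝔐 hres hE (Nat.le_add_left _ N)
    e4 e5 h0 h1 h2
  have hj : E.comap (geEv W Z w) ≤ D'.jj (N + sh.N₁) := by
    rw [← hjg, Data.jj, e1]
    exact le_sup_left
  refine hN.mono (Nat.le_add_right N sh.N₁) D' L0 L1 L2 (e6 L0 L1 L2 (m0.trans hj)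
    (m1.mono le_rfl hj) ?_ (m3.mono le_rfl (sup_le_sup_right hj _))) fun hf => e3 (hfld hf)
  rw [e2]
  exact m2.mono le_rfl (sup_le_sup_right hj _)

/-- THEOREM G.  If `cl E = ⊤` trivial.  `ev = aeval w ∘ PhiZ`, `jg` generators of `comap ev E`,
`N₁` with `𝔐^N₁ ≤ E`; `exists_tau`, `IntOver.eventually` (uniform `δ ≥ 1`), `hcore`, `CoreAt.mono` to
`N ≥ N₁`, `exists_data`; `jj N = comap ev E`; lengths by `cl_comap_sup_le`, `lenLe_of_cl_le`
(`mm^N₁ ≤ comap ev E`), `der_approx`. -/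
theorem thmG {W : Type} [CommRing W] [IsNoetherianRing W] {pp : W} [(Ideal.span {pp}).IsMaximal]
    {d₁ c : ℕ} {𝒜 : Type} [CommRing 𝒜] [Algebra W 𝒜] {Z : Fin (d₁ + c + 1) → 𝒜} (H : PSR W Z)
    {T : Type} [CommRing T] [Algebra 𝒜 T] [Algebra.IsIntegral 𝒜 T] {a e o ν : ℕ} {h g : 𝒜}
    {f : 𝒜[X]} {w : T} (Pr : Prim W Z pp a e o h g f w) (hν : 1 ≤ ν) (fld : Prop)
    (hfld : fld → h = 0) (hcore : ∀ sh : Shape, sh.a = a → ∃ N, CoreAt sh N W pp fld)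
    (D : Derivation W 𝒜 𝒜) (Dr : Fin (d₁ + c + 1) → W) (hD : ∀ i, D (Z i) = algebraMap W 𝒜 (Dr i))
    (F : FC T) (hsq : F.Sq ⊥) (h1 : F.One) (hc : F.DegLe c) (y : Fin (d₁ + 1) → T)
    (hiF : ∀ a b, IntOver (Ideal.span (Set.range Z) ^ ν) (F.d a b))
    (hiy : ∀ l, IntOver (Ideal.span (Set.range Z) ^ ν) (y l))
    (hn1 : ∀ i, ∃ N, algebraMap 𝒜 T (Z i) ^ N ∈ F.nh ⊥ ⊔ Ideal.span (Set.range y))
    (hn2 : ∀ i, ∃ N, algebraMap 𝒜 T (Z i) ^ N ∈ F.nh ⊥ ⊔ Ideal.span {algebraMap 𝒜 T (Z 0)} ⊔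
      Ideal.span (Set.range fun l : Fin d₁ => y l.succ))
    (𝔐 : Ideal T) (hp𝔐 : algebraMap 𝒜 T (algebraMap W 𝒜 pp) ∈ 𝔐)
    (hZ𝔐 : ∀ i, algebraMap 𝒜 T (Z i) ∈ 𝔐) (hw𝔐 : w ∈ 𝔐)
    (hres : ∀ t : T, ∃ x : W, t - algebraMap 𝒜 T (algebraMap W 𝒜 x) ∈ 𝔐)
    (h𝔐 : ∃ M, 𝔐 ^ M ≤ F.J ⊔ Ideal.span (Set.range y)) {k : ℕ} (hk : 1 ≤ k) :
    ((a * e * ν ^ (d₁ + c + 1) * (k + d₁).choose (d₁ + 1) : ℕ) : ℕ∞) ≤
      cl (F.J ⊔ Ideal.span (Set.range y) ^ k) +
      (a - 1 : ℕ) * cl (F.J ⊔ Ideal.span (Set.range y) ^ k ⊔ Ideal.span {algebraMap 𝒜 T (D h)}) +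
      (a * e : ℕ) * cl (F.J ⊔ Ideal.span (Set.range y) ^ k ⊔
        Ideal.span {aeval w (derivative f)}) := by
  obtain ⟨E, hE⟩ : ∃ E, E = F.J ⊔ Ideal.span (Set.range y) ^ k := ⟨_, rfl⟩
  rw [← hE]
  by_cases hfin : cl E = ⊤
  · rw [hfin, top_add, top_add]
    exact le_top
  have : Nontrivial W := by
    by_contra hW
    rw [not_nontrivial_iff_subsingleton] at hW
    exact (inferInstance : (Ideal.span {pp}).IsMaximal).ne_top (Subsingleton.elim _ _)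
  obtain ⟨L0, hL0⟩ := ENat.ne_top_iff_exists.1 hfin
  obtain ⟨L1, hL1⟩ := ENat.ne_top_iff_exists.1 (ne_top_of_le_ne_top hfin
    (cl_anti (le_sup_left : E ≤ E ⊔ Ideal.span {algebraMap 𝒜 T (D h)})))
  obtain ⟨L2, hL2⟩ := ENat.ne_top_iff_exists.1 (ne_top_of_le_ne_top hfin
    (cl_anti (le_sup_left : E ≤ E ⊔ Ideal.span {aeval w (derivative f)})))
  obtain ⟨M, hM⟩ := h𝔐
  have hN₁ : 𝔐 ^ (M * (1 + k)) ≤ E := by
    rw [pow_mul, hE]
    refine (Ideal.pow_right_mono hM _).trans (Ideal.sup_pow_add_le_pow_sup_pow.trans ?_)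
    rw [pow_one]
  generalize M * (1 + k) = N₁ at hN₁
  obtain ⟨ng, jg, hjg⟩ := Submodule.fg_iff_exists_fin_generating_family.1
    (IsNoetherian.noetherian (E.comap (geEv W Z w)))
  obtain ⟨a₀, h0, hu⟩ := h1
  obtain ⟨N₀, τ, hτ1, hτ2, hτ3⟩ := exists_tau F (o := o) (ν := ν) a₀ hk Pr.ha Pr.he Pr.ho hν h0 hu hc
    hsq y (fun i => algebraMap 𝒜 T (Z i)) hn1 hn2 (fun r => aeval w (PhiZ W Z (jg r))) fun r => by
      have h2 : jg r ∈ E.comap (geEv W Z w) := by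
        rw [← hjg]
        exact Submodule.subset_span (Set.mem_range_self r)
      rw [← hE]
      exact h2
  have hi : ∀ t : Tau F.ι d₁ c k ng, IntOver (Ideal.span (Set.range Z) ^ geWt ν t) (τ t) := by
    intro t
    have h2 : IntOver (Ideal.span (Set.range Z) ^ 0) (τ t) := by
      rw [pow_zero, Ideal.one_eq_top]
      exact IntOver.of_isIntegral (Algebra.IsIntegral.isIntegral _)
    cases t with
    | dd a' b' =>
      rw [hτ1]
      exact hiF a' b'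
    | yy l =>
      rw [hτ2]
      exact hiy l
    | _ => exact h2
  obtain ⟨δ, hδ, hint⟩ := ((Filter.eventually_ge_atTop 1).and
    (Filter.eventually_all.2 fun t => (hi t).eventually)).exists
  obtain ⟨N, hN⟩ := hcore (F.shape d₁ c k a e o ν δ N₀ N₁ ng a₀ hk Pr.ha Pr.he Pr.ho hν hδ h0 hu hc) rfl
  have key := ge_core (sh := F.shape d₁ c k a e o ν δ N₀ N₁ ng a₀ hk Pr.ha Pr.he Pr.ho hν hδ h0 hu hc)
    H Pr hfld hN D Dr hD hp𝔐 hZ𝔐 hw𝔐 hres hN₁ τ jg hjg (hτ3 δ N₁ hδ)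
    hint hL0.ge hL1.ge hL2.ge
  change a * e * ν ^ (d₁ + c + 1) * (k + d₁).choose (d₁ + 1) ≤ L0 + (a - 1) * L1 + a * e * L2 at key
  rw [← hL0, ← hL1, ← hL2]
  exact_mod_cast key

end Crest.Agent.R183
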