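import Crest.Agent.R183.Tens

/-! # R183 / G2 : the complex over `T = W⟦u⟧⟦X⟧ ⊗_{C⟦X⟧} R` and the multiplicity bound. -/

set_option autoImplicit false
open IsLocalRing TensorProduct MvPowerSeries
open scoped ENNReal

namespace Crest.Agent.R183

abbrev AA (d₁ : ℕ) (C₀ : Type) : Type := PS (d₁ + 1) C₀
abbrev BB (d₁ c : ℕ) (W : Type) : Type := PS (d₁ + 1) (PS c W)

/-- `W`, `C₀` coefficient rings, `C₀ → W⟦u⟧` unramified -/
structure Base (W C₀ : Type) [CommRing W] [CommRing C₀] [Coef W] [Coef C₀] (c : ℕ)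
    [Algebra C₀ (PS c W)] (pp : W) (π : C₀) : Prop where
  hW : maximalIdeal W = Ideal.span {pp}
  hC : maximalIdeal C₀ = Ideal.span {π}
  hσ : algebraMap C₀ (PS c W) π = C pp
  inj : Function.Injective (algebraMap C₀ (PS c W))
  inf : Infinite (ResidueField C₀)

noncomputable def redL (W : Type) [CommRing W] [IsLocalRing W] (d₁ c : ℕ) :
    BB d₁ c W →+* PS c (ResidueField W) :=
  (MvPowerSeries.map (residue W)).comp constantCoeff

variable {W C₀ : Type} [CommRing W] [CommRing C₀] [Coef W] [Coef C₀] {d₁ c : ℕ}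
  [Algebra C₀ (PS c W)] {pp : W} {π : C₀}

section Base

theorem g2a_comap {n : ℕ} {V : Type} [CommRing V] (I : Ideal V) :
    I.comap (constantCoeff : PS n V →+* V) = I.map (C : V →+* PS n V) ⊔ XP n V := by
  refine le_antisymm (fun f hf => ?_) (sup_le (Ideal.map_le_iff_le_comap.2 fun x hx => ?_)
    fun f hf => ?_)
  · rw [← add_sub_cancel (C (constantCoeff f)) f]
    exact add_mem (Ideal.mem_sup_left (Ideal.mem_map_of_mem _ hf))
      (Ideal.mem_sup_right (mem_XP_iff.2 (by simp)))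
  · simpa using hx
  · rw [Ideal.mem_comap, mem_XP_iff.1 hf]
    exact zero_mem _

/-- torsion-free over a PID (`Module.Flat.flat_iff_torsion_eq_bot_of_isBezout`), `PS.flat_map`,
`MvPowerSeries.algebraMap_apply''`. -/
theorem Base.flat (B : Base W C₀ c pp π) (d₁ : ℕ) : Module.Flat (AA d₁ C₀) (BB d₁ c W) := by
  have h : Module.Flat C₀ (PS c W) := by
    rw [Module.Flat.flat_iff_torsion_eq_bot_of_isBezout, eq_bot_iff]
    rintro x ⟨a, ha⟩
    rw [Submonoid.smul_def, Algebra.smul_def, mul_eq_zero] at ha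
    exact ha.resolve_left fun h => nonZeroDivisors.ne_zero a.2 (B.inj (h.trans (map_zero _).symm))
  exact RingHom.flat_algebraMap_iff.1
    (PS.flat_map (algebraMap C₀ (PS c W)) (RingHom.flat_algebraMap_iff.2 h))

theorem XP_map_AA : (XP (d₁ + 1) C₀).map (algebraMap (AA d₁ C₀) (BB d₁ c W)) =
    XP (d₁ + 1) (PS c W) := by
  exact psc_map_XP _

theorem Base.max_AA (B : Base W C₀ c pp π) (d₁ : ℕ) :
    maximalIdeal (AA d₁ C₀) = Ideal.span {C π} ⊔ XP (d₁ + 1) C₀ := by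
  rw [PS.max_eq, B.hC, Ideal.map_span, Set.image_singleton]

theorem Base.max_BB (B : Base W C₀ c pp π) (d₁ : ℕ) :
    maximalIdeal (BB d₁ c W) = Ideal.span {C (C pp)} ⊔ ZI W d₁ c := by
  rw [PS.max_eq, PS.max_eq, B.hW, Ideal.map_sup, Ideal.map_span, Set.image_singleton,
    Ideal.map_span, Set.image_singleton, ZI, sup_assoc]

theorem redL_surj : Function.Surjective (redL W d₁ c) := by
  exact (map_surjective _ residue_surjective).comp fun x => ⟨C x, constantCoeff_C x⟩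

/-- `ker_map_eq`, `mem_XP_iff`. -/
theorem Base.redL_ker (B : Base W C₀ c pp π) (d₁ : ℕ) : RingHom.ker (redL W d₁ c) =
    (maximalIdeal (AA d₁ C₀)).map (algebraMap (AA d₁ C₀) (BB d₁ c W)) := by
  rw [redL, ← RingHom.comap_ker, ker_map_eq _ (IsNoetherian.noetherian _), ker_residue, g2a_comap,
    B.max_AA, Ideal.map_sup, XP_map_AA, B.hW, Ideal.map_span, Set.image_singleton, Ideal.map_span,
    Set.image_singleton, Ideal.map_span, Set.image_singleton, algebraMap_apply'', map_C, B.hσ]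

theorem Base.inf_AA (B : Base W C₀ c pp π) (d₁ : ℕ) : Infinite (ResidueField (AA d₁ C₀)) := by
  have := B.inf
  have : IsLocalHom (C : C₀ →+* AA d₁ C₀) :=
    ⟨fun a ha => by simpa using isUnit_iff_constantCoeff.1 ha⟩
  exact Infinite.of_injective _ (ResidueField.map (C : C₀ →+* AA d₁ C₀)).injective

/-- `span {h} ⊔ XP = comap constantCoeff (span {π^a})`; `cl_comap_surj`, `cl_sup_pow_le`,
`cl_maximal`. -/
theorem cl_h_XP_le (hC : maximalIdeal C₀ = Ideal.span {π}) {n : ℕ} {h : PS n C₀} {a : ℕ}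
    (hh : h - C (π ^ a) ∈ XP n C₀) : cl (Ideal.span {h} ⊔ XP n C₀) ≤ a := by
  have h1 : (Ideal.span {π ^ a}).comap (constantCoeff : PS n C₀ →+* C₀) ≤
      Ideal.span {h} ⊔ XP n C₀ := by
    rw [g2a_comap, Ideal.map_span, Set.image_singleton]
    refine sup_le ((Ideal.span_singleton_le_iff_mem _).2 ?_) le_sup_right
    rw [← sub_sub_cancel h (C (π ^ a))]
    exact sub_mem (Ideal.mem_sup_left (Ideal.mem_span_singleton_self h)) (Ideal.mem_sup_right hh)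
  refine (cl_anti h1).trans ?_
  rw [cl_comap_surj _ fun x => ⟨C x, constantCoeff_C x⟩]
  have h2 := cl_sup_pow_le ⊥ π a
  rwa [bot_sup_eq, bot_sup_eq, ← hC, cl_maximal (maximalIdeal C₀), mul_one] at h2

/-- if `X 0 = h β` then `π^a β₀ = 0`, so `β ∈ XP`, `X 0 ∈ 𝔪²`; `mem_sup_XP_pow_iff`. -/
theorem X0_not_mem (hC : maximalIdeal C₀ = Ideal.span {π}) (hπ : π ≠ 0) {h : AA d₁ C₀} {a : ℕ}
    (ha : 1 ≤ a) (hh : h - C (π ^ a) ∈ XP (d₁ + 1) C₀) : (X 0 : AA d₁ C₀) ∉ Ideal.span {h} := by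
  intro h0
  obtain ⟨β, hβ⟩ := Ideal.mem_span_singleton'.1 h0
  have h1 : constantCoeff h = π ^ a := by simpa [sub_eq_zero] using mem_XP_iff.1 hh
  have h2 : constantCoeff β = 0 := by
    have := congrArg constantCoeff hβ
    rw [map_mul, h1, constantCoeff_X] at this
    exact (mul_eq_zero.1 this).resolve_right (pow_ne_zero _ hπ)
  have h3 : (X 0 : AA d₁ C₀) ∈
      ((maximalIdeal C₀).map (C : C₀ →+* AA d₁ C₀) ⊔ XP (d₁ + 1) C₀) ^ 2 := by
    rw [← hβ, sq, ← g2a_comap]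
    refine Ideal.mul_mem_mul ?_ ?_
    · rw [Ideal.mem_comap, h2]
      exact zero_mem _
    · rw [Ideal.mem_comap, h1, hC]
      exact Ideal.pow_mem_of_mem _ (Ideal.mem_span_singleton_self π) _ ha
  have h4 := (mem_sup_XP_pow_iff _).1 h3 (Finsupp.single 0 1)
  rw [coeff_index_single_self_X, Finsupp.degree_single, pow_one] at h4
  exact (maximalIdeal.isMaximal C₀).ne_top ((Ideal.eq_top_iff_one _).2 h4)

theorem g2a_split {A : Type} [CommRing A] {h g x : A} {J : Ideal A}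
    (H : x ∈ Ideal.span {h} ⊔ Ideal.span {g} ⊔ J) : ∃ α β, α * h + β * g - x ∈ J := by
  obtain ⟨u, hu, z, hz, rfl⟩ := Submodule.mem_sup.1 H
  obtain ⟨u₁, h₁, u₂, h₂, rfl⟩ := Submodule.mem_sup.1 hu
  obtain ⟨α, rfl⟩ := Ideal.mem_span_singleton'.1 h₁
  obtain ⟨β, rfl⟩ := Ideal.mem_span_singleton'.1 h₂
  refine ⟨α, β, ?_⟩
  rw [sub_add_cancel_left]
  exact neg_mem hz

/-- `gr_le` (`I = (h)`, `θ = g`, `x = X`), `up_eq_zero_of_le`, `step'` with `ρ = C`. -/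
theorem Base.exists_g (B : Base W C₀ c pp π) {h g : AA d₁ C₀} {a : ℕ}
    (hh : h - C (π ^ a) ∈ XP (d₁ + 1) C₀) (hg : (Ideal.span {h}).colon {g} ≤ Ideal.span {h}) :
    ∃ (t : Fin d₁ → C₀) (o : ℕ) (α β : AA d₁ C₀), α * h + β * g - X 0 ^ (o + 1) ∈
      Ideal.span (Set.range fun i : Fin d₁ => (X i.succ - C (t i) * X 0 : AA d₁ C₀)) := by
  have := B.inf_AA d₁
  have hfin : cl (Ideal.span {h} ⊔ Ideal.span (Set.range (X : Fin (d₁ + 1) → AA d₁ C₀))) ≠ ⊤ :=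
    ne_top_of_le_ne_top (ENat.natCast_ne_top a) (cl_h_XP_le B.hC hh)
  obtain ⟨K, hK⟩ := gr_le (Ideal.span {h}) (X : Fin (d₁ + 1) → AA d₁ C₀) hg hfin
  have hXP : XP (d₁ + 1) C₀ ≤ maximalIdeal (AA d₁ C₀) := by
    rw [B.max_AA d₁]
    exact le_sup_right
  have hup := up_eq_zero_of_le (d := d₁) (H := fun N => cl (Ideal.span {h} ⊔ Ideal.span {g} ⊔
    Ideal.span (Set.range (X : Fin (d₁ + 1) → AA d₁ C₀)) ^ N)) K (Filter.Eventually.of_forall hK)
  obtain ⟨t, o, ho⟩ := step' (C : C₀ →+* AA d₁ C₀)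
    (fun f => ⟨constantCoeff f, hXP (mem_XP_iff.2 (by simp))⟩)
    (Ideal.span {h} ⊔ Ideal.span {g}) (X : Fin (d₁ + 1) → AA d₁ C₀)
    (fun i => hXP (Ideal.subset_span ⟨i, rfl⟩)) hup
  obtain ⟨α, β, H⟩ := g2a_split (ho.trans (sup_le_sup_left Ideal.mul_le_left _)
    (Ideal.pow_mem_pow (Ideal.subset_span (Set.mem_range_self 0)) (o + 1)))
  exact ⟨t, o, α, β, H⟩

end Base

abbrev TT (W C₀ : Type) [CommRing W] [CommRing C₀] (d₁ c : ℕ) [Algebra C₀ (PS c W)] (R : Type)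
    [CommRing R] [Algebra (AA d₁ C₀) R] : Type := BB d₁ c W ⊗[AA d₁ C₀] R

variable {R : Type} [CommRing R] [IsLocalRing R] [Algebra (AA d₁ C₀) R]
  [Module.Finite (AA d₁ C₀) R]

variable (C₀ d₁ R) in
/-- `C₀` maps onto the residue field of `R` -/
def ResS : Prop := ∀ r : R, ∃ x : C₀, r - algebraMap (AA d₁ C₀) R (C x) ∈ maximalIdeal R

omit [Coef C₀] [Module.Finite (AA d₁ C₀) R] in
theorem g2b_res (hres : ResS C₀ d₁ R) (r : R) :
    ∃ a : AA d₁ C₀, r - algebraMap (AA d₁ C₀) R a ∈ maximalIdeal R := by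
  obtain ⟨x, hx⟩ := hres r
  exact ⟨C x, hx⟩



/-- `tens_local`; `C (C pp)` is the image of `C π ∈ 𝔪_R`. -/
theorem Base.local_TT (B : Base W C₀ c pp π) (hres : ResS C₀ d₁ R) :
    ∃ _ : IsLocalRing (TT W C₀ d₁ c R), maximalIdeal (TT W C₀ d₁ c R) =
      (ZI W d₁ c).map (algebraMap (BB d₁ c W) _) ⊔
        (maximalIdeal R).map (iR (AA d₁ C₀) (BB d₁ c W) R) := by
  have e1 : algebraMap (AA d₁ C₀) (BB d₁ c W) (C π) = C (C pp) := by
    rw [MvPowerSeries.algebraMap_apply'', MvPowerSeries.map_C, B.hσ]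
  have hloc : (maximalIdeal (AA d₁ C₀)).map (algebraMap (AA d₁ C₀) (BB d₁ c W)) ≤
      maximalIdeal (BB d₁ c W) := by
    rw [B.max_AA d₁, B.max_BB d₁, Ideal.map_sup, XP_map_AA, Ideal.map_span, Set.image_singleton, e1]
    exact sup_le_sup_left le_sup_right _
  obtain ⟨inst, hmax⟩ := tens_local (A := AA d₁ C₀) (𝒜 := BB d₁ c W) (R := R) hloc (g2b_res hres)
  refine ⟨inst, ?_⟩
  rw [hmax, B.max_BB d₁, Ideal.map_sup]
  refine le_antisymm (sup_le (sup_le ?_ le_sup_left) le_sup_right)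
    (sup_le_sup_right le_sup_right _)
  rw [Ideal.map_span, Set.image_singleton, Ideal.span_singleton_le_iff_mem, ← e1, ← iR_alg]
  refine Ideal.mem_sup_right (Ideal.mem_map_of_mem _ ?_)
  refine (max_pow_le_of_finite (A := AA d₁ C₀) (R := R)).1 (Ideal.mem_map_of_mem _ ?_)
  rw [B.max_AA d₁]
  exact Ideal.mem_sup_left (Ideal.mem_span_singleton_self _)

theorem Base.exists_kappa (B : Base W C₀ c pp π) (hres : ResS C₀ d₁ R) :
    ∃ κ : TT W C₀ d₁ c R →+* PS c (ResidueField W),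
      (∀ x, κ (algebraMap (BB d₁ c W) _ x) = redL W d₁ c x) ∧ Function.Surjective κ ∧
      RingHom.ker κ = (maximalIdeal R).map (iR (AA d₁ C₀) (BB d₁ c W) R) := by
  exact _root_.Crest.Agent.R183.exists_kappa (max_pow_le_of_finite (A := AA d₁ C₀) (R := R)).1
    (g2b_res hres) (redL W d₁ c) redL_surj (B.redL_ker d₁)

/-- the hypotheses on the complex `F` and the elements `y` -/
structure Cplx (ν : ℕ) (F : FC (TT W C₀ d₁ c R)) (y : Fin (d₁ + 1) → TT W C₀ d₁ c R) : Prop where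
  one : F.One
  deg : F.DegLe c
  sq : F.Sq ⊥
  iF : ∀ a b, IntOver (ZI W d₁ c ^ ν) (F.d a b)
  iy : ∀ l, IntOver (ZI W d₁ c ^ ν) (y l)
  n1 : ∃ N, (ZI W d₁ c).map (algebraMap (BB d₁ c W) _) ^ N ≤ F.nh ⊥ ⊔ Ideal.span (Set.range y)
  n2 : ∃ N, (ZI W d₁ c).map (algebraMap (BB d₁ c W) _) ^ N ≤
    F.nh ⊥ ⊔ Ideal.span {algebraMap (BB d₁ c W) _ (X 0)} ⊔
      Ideal.span (Set.range fun l : Fin d₁ => y l.succ)
  ex1 : ∀ κ : TT W C₀ d₁ c R →+* PS c (ResidueField W),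
    (∀ x, κ (algebraMap (BB d₁ c W) _ x) = redL W d₁ c x) →
    (∀ m ∈ maximalIdeal R, κ (iR (AA d₁ C₀) (BB d₁ c W) R m) = 0) → (F.map κ).ExactAt 1

variable {ν : ℕ} {F : FC (TT W C₀ d₁ c R)} {y : Fin (d₁ + 1) → TT W C₀ d₁ c R}

/-- `flat_quot_of_inf`, `FC.inf_le_of_exactAt_one_map`, `Base.exists_kappa`, `Base.local_TT`,
`iR_flat`; `R` and `T` are Noetherian (finite over Noetherian rings). -/
theorem Cplx.flat (hC : Cplx ν F y) (B : Base W C₀ c pp π) (hres : ResS C₀ d₁ R) :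
    ((Ideal.Quotient.mk F.J).comp (iR (AA d₁ C₀) (BB d₁ c W) R)).Flat := by
  have hfl := B.flat d₁
  have hR : IsNoetherianRing R := IsNoetherianRing.of_finite (AA d₁ C₀) R
  have hT : IsNoetherianRing (TT W C₀ d₁ c R) :=
    IsNoetherianRing.of_finite (BB d₁ c W) (TT W C₀ d₁ c R)
  obtain ⟨inst, hmax⟩ := B.local_TT hres
  obtain ⟨κ, h1, h2, h3⟩ := B.exists_kappa hres
  refine flat_quot_of_inf _ (iR_flat (BB d₁ c W)) ?_ _ ?_
  · rw [IsLocalRing.jacobson_eq_maximalIdeal ⊥ bot_ne_top, hmax]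
    exact le_sup_right
  · rw [← h3]
    refine FC.inf_le_of_exactAt_one_map hC.one hC.sq κ h2 (hC.ex1 κ h1 fun m hm => ?_)
    rw [← RingHom.mem_ker, h3]
    exact Ideal.mem_map_of_mem _ hm

/-- `colon_map_le` for `⊥`. -/
theorem Cplx.colon_le [IsDomain R] (hC : Cplx ν F y) (B : Base W C₀ c pp π) (hres : ResS C₀ d₁ R)
    {θ : R} (hθ : θ ≠ 0) : F.J.colon {iR (AA d₁ C₀) (BB d₁ c W) R θ} ≤ F.J := by
  intro x hx
  have hx' : x * iR (AA d₁ C₀) (BB d₁ c W) R θ ∈ F.J := by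
    simpa using Submodule.mem_colon_singleton.1 hx
  have h1 := colon_map_le _ (hC.flat B hres) ⊥ θ
  have h2 : (⊥ : Ideal R).colon {θ} = ⊥ := by
    refine le_bot_iff.1 fun r hr => ?_
    have h3 : r * θ = 0 := by simpa using Submodule.mem_colon_singleton.1 hr
    exact (mul_eq_zero.1 h3).resolve_right hθ
  rw [h2, Ideal.map_bot] at h1
  have h4 : Ideal.Quotient.mk F.J x ∈ (⊥ : Ideal (TT W C₀ d₁ c R ⧸ F.J)).colon
      {((Ideal.Quotient.mk F.J).comp (iR (AA d₁ C₀) (BB d₁ c W) R)) θ} := by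
    refine Submodule.mem_colon_singleton.2 ?_
    rw [smul_eq_mul, RingHom.comp_apply, ← map_mul, Ideal.mem_bot, Ideal.Quotient.eq_zero_iff_mem]
    exact hx'
  exact Ideal.Quotient.eq_zero_iff_mem.1 (Ideal.mem_bot.1 (h1 h4))

/-- `𝔪_R^N ≤ 𝔪_A R` (`max_pow_le_of_finite`), `𝔪_A^a ≤ (h) + XP`, `FC.nh_le_J`. -/
theorem Cplx.pow_le (hC : Cplx ν F y) (B : Base W C₀ c pp π) {h : AA d₁ C₀} {a : ℕ}
    (h0 : algebraMap (AA d₁ C₀) R h = 0) (hh : h - C (π ^ a) ∈ XP (d₁ + 1) C₀) :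
    ∃ M, ((ZI W d₁ c).map (algebraMap (BB d₁ c W) _) ⊔
      (maximalIdeal R).map (iR (AA d₁ C₀) (BB d₁ c W) R)) ^ M ≤ F.J ⊔ Ideal.span (Set.range y) := by
  obtain ⟨N₁, hN₁⟩ := hC.n1
  obtain ⟨N, hN⟩ := (max_pow_le_of_finite (A := AA d₁ C₀) (R := R)).2
  have e : (iR (AA d₁ C₀) (BB d₁ c W) R).comp (algebraMap (AA d₁ C₀) R) =
      (algebraMap (BB d₁ c W) (TT W C₀ d₁ c R)).comp (algebraMap (AA d₁ C₀) (BB d₁ c W)) :=
    RingHom.ext fun x => iR_alg (BB d₁ c W) x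
  have hA : maximalIdeal (AA d₁ C₀) ^ (a + 1) ≤ Ideal.span {h} ⊔ XP (d₁ + 1) C₀ := by
    rw [B.max_AA d₁]
    refine Ideal.sup_pow_add_le_pow_sup_pow.trans (sup_le ?_ ?_)
    · rw [Ideal.span_singleton_pow, Ideal.span_singleton_le_iff_mem, ← map_pow]
      have e2 : (C (π ^ a) : AA d₁ C₀) = h - (h - C (π ^ a)) := by ring
      rw [e2]
      exact Ideal.sub_mem _ (Ideal.mem_sup_left (Ideal.mem_span_singleton_self _))
        (Ideal.mem_sup_right hh)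
    · rw [pow_one]
      exact le_sup_right
  have hM : (maximalIdeal R).map (iR (AA d₁ C₀) (BB d₁ c W) R) ^ (N * (a + 1)) ≤
      (ZI W d₁ c).map (algebraMap (BB d₁ c W) (TT W C₀ d₁ c R)) := by
    have h1 : maximalIdeal R ^ (N * (a + 1)) ≤
        (XP (d₁ + 1) C₀).map (algebraMap (AA d₁ C₀) R) := by
      rw [pow_mul]
      refine (Ideal.pow_right_mono hN _).trans ?_
      rw [← Ideal.map_pow]
      refine (Ideal.map_mono hA).trans ?_
      rw [Ideal.map_sup, Ideal.map_span, Set.image_singleton, h0, Ideal.span_singleton_zero,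
        bot_sup_eq]
    rw [← Ideal.map_pow]
    refine (Ideal.map_mono h1).trans ?_
    rw [Ideal.map_map, e, ← Ideal.map_map, XP_map_AA]
    exact Ideal.map_mono le_sup_right
  refine ⟨(1 + N * (a + 1)) * N₁, ?_⟩
  rw [pow_mul]
  have h2 : ((ZI W d₁ c).map (algebraMap (BB d₁ c W) (TT W C₀ d₁ c R)) ⊔
      (maximalIdeal R).map (iR (AA d₁ C₀) (BB d₁ c W) R)) ^ (1 + N * (a + 1)) ≤
      (ZI W d₁ c).map (algebraMap (BB d₁ c W) (TT W C₀ d₁ c R)) := by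
    refine Ideal.sup_pow_add_le_pow_sup_pow.trans (sup_le ?_ hM)
    rw [pow_one]
  refine (Ideal.pow_right_mono h2 _).trans (hN₁.trans (sup_le_sup_right ?_ _))
  simpa using FC.nh_le_J hC.one ⊥

theorem g2b_pow {T T' : Type} [CommRing T] [CommRing T'] (Ψ : T →+* T') {Z K : Ideal T}
    {Z' : Ideal T'} {N₁ N₂ : ℕ} (h1 : Z' ^ N₂ ≤ Z.map Ψ) (hK : Z ^ N₁ ≤ K) :
    Z' ^ (N₂ * N₁) ≤ K.map Ψ := by
  rw [pow_mul]
  refine (Ideal.pow_right_mono h1 _).trans ?_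
  rw [← Ideal.map_pow]
  exact Ideal.map_mono hK

/-- for `κ'` on `T'`, `κ' ∘ Ψ = FL ∘ κ` (`Base.exists_kappa`, `tens_res`); `FC.map_map`,
`FC.ExactAt.map_flat`, `FC.map_nh`, `IntOver.map`, `IntOver.mono`. -/
theorem Cplx.map (hC : Cplx ν F y) (B : Base W C₀ c pp π) (hres : ResS C₀ d₁ R) {R' : Type}
    [CommRing R'] [IsLocalRing R'] [Algebra (AA d₁ C₀) R'] (Fr : BB d₁ c W →+* BB d₁ c W)
    (FL : PS c (ResidueField W) →+* PS c (ResidueField W)) (hFL : FL.Flat)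
    (hred : ∀ x, redL W d₁ c (Fr x) = FL (redL W d₁ c x)) (Ψ : TT W C₀ d₁ c R →+* TT W C₀ d₁ c R')
    (hΨ1 : ∀ x, Ψ (algebraMap (BB d₁ c W) _ x) = algebraMap (BB d₁ c W) _ (Fr x))
    (hΨ2 : ∀ m ∈ maximalIdeal R, Ψ (iR (AA d₁ C₀) (BB d₁ c W) R m) ∈
      (maximalIdeal R').map (iR (AA d₁ C₀) (BB d₁ c W) R')) {ν' : ℕ}
    (hZ1 : (ZI W d₁ c).map Fr ≤ ZI W d₁ c ^ ν') (hZ2 : ∃ N, ZI W d₁ c ^ N ≤ (ZI W d₁ c).map Fr)
    (hX : Fr (X 0) ∈ Ideal.span {(X 0 : BB d₁ c W)}) : Cplx (ν' * ν) (F.map Ψ) (Ψ ∘ y) := by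
  obtain ⟨N₂, hN₂⟩ := hZ2
  have e : Ψ.comp (algebraMap (BB d₁ c W) (TT W C₀ d₁ c R)) =
      (algebraMap (BB d₁ c W) (TT W C₀ d₁ c R')).comp Fr := RingHom.ext hΨ1
  have hI : (ZI W d₁ c ^ ν).map Fr ≤ ZI W d₁ c ^ (ν' * ν) := by
    rw [Ideal.map_pow, pow_mul]
    exact Ideal.pow_right_mono hZ1 _
  have hZ : ∀ (N₁ : ℕ) (K : Ideal (TT W C₀ d₁ c R)),
      (ZI W d₁ c).map (algebraMap (BB d₁ c W) (TT W C₀ d₁ c R)) ^ N₁ ≤ K →
      (ZI W d₁ c).map (algebraMap (BB d₁ c W) (TT W C₀ d₁ c R')) ^ (N₂ * N₁) ≤ K.map Ψ := by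
    intro N₁ K hK
    have h1 : (ZI W d₁ c).map (algebraMap (BB d₁ c W) (TT W C₀ d₁ c R')) ^ N₂ ≤
        ((ZI W d₁ c).map (algebraMap (BB d₁ c W) (TT W C₀ d₁ c R))).map Ψ := by
      rw [← Ideal.map_pow, Ideal.map_map, e, ← Ideal.map_map]
      exact Ideal.map_mono hN₂
    exact g2b_pow Ψ h1 hK
  refine ⟨hC.one, hC.deg, FC.map_sq Ψ hC.sq, fun a b => ((hC.iF a b).map Fr Ψ hΨ1).mono hI,
    fun l => ((hC.iy l).map Fr Ψ hΨ1).mono hI, ?_, ?_, ?_⟩
  · obtain ⟨N₁, hN₁⟩ := hC.n1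
    refine ⟨N₂ * N₁, (hZ N₁ _ hN₁).trans ?_⟩
    rw [Ideal.map_sup, Ideal.map_span, ← Set.range_comp]
    exact sup_le_sup_right (F.map_nh Ψ) _
  · obtain ⟨N₁, hN₁⟩ := hC.n2
    refine ⟨N₂ * N₁, (hZ N₁ _ hN₁).trans ?_⟩
    rw [Ideal.map_sup, Ideal.map_sup, Ideal.map_span, Ideal.map_span, ← Set.range_comp,
      Set.image_singleton, hΨ1]
    refine sup_le_sup (sup_le_sup (F.map_nh Ψ) ?_) le_rfl
    rw [Ideal.span_singleton_le_iff_mem]
    obtain ⟨z, hz⟩ := Ideal.mem_span_singleton'.1 hX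
    rw [← hz, map_mul]
    exact Ideal.mul_mem_left _ _ (Ideal.mem_span_singleton_self _)
  · intro κ' k1 k2
    obtain ⟨κ, h1, -, h3⟩ := B.exists_kappa hres
    have hk : (maximalIdeal R').map (iR (AA d₁ C₀) (BB d₁ c W) R') ≤ RingHom.ker κ' :=
      Ideal.map_le_iff_le_comap.2 fun m hm => k2 m hm
    have hk2 : (maximalIdeal R).map (iR (AA d₁ C₀) (BB d₁ c W) R) ≤ RingHom.ker (κ'.comp Ψ) :=
      Ideal.map_le_iff_le_comap.2 fun m hm => hk (hΨ2 m hm)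
    have e2 : κ'.comp Ψ = FL.comp κ := by
      refine RingHom.ext fun t => ?_
      obtain ⟨x, hx⟩ := tens_res (𝒜 := BB d₁ c W) (g2b_res hres) t
      have a1 := hk2 hx
      have a2 := h3.ge hx
      rw [RingHom.mem_ker, map_sub, sub_eq_zero] at a1 a2
      rw [a1, RingHom.comp_apply, RingHom.comp_apply, a2, hΨ1, k1, h1, hred]
    rw [FC.map_map, e2, ← FC.map_map]
    refine FC.ExactAt.map_flat (hC.ex1 κ h1 fun m hm => ?_) FL hFL
    rw [← RingHom.mem_ker, h3]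
    exact Ideal.mem_map_of_mem _ hm

/-- `tens_ker`, `tens_cond`, `span_Zp`, `XP_map_AA`. -/
theorem Base.prim (B : Base W C₀ c pp π) {h g : AA d₁ C₀} {a e o : ℕ} (ha : 1 ≤ a)
    (hker : RingHom.ker (algebraMap (AA d₁ C₀) R) = Ideal.span {h})
    (hh : h - C (π ^ a) ∈ XP (d₁ + 1) C₀) {w : R} {f : Polynomial (AA d₁ C₀)}
    (Pr : PrimData (AA d₁ C₀) (X 0) e w f g) {t : Fin d₁ → C₀} {α β : AA d₁ C₀}
    (hg : α * h + β * g - X 0 ^ (o + 1) ∈
      Ideal.span (Set.range fun i : Fin d₁ => (X i.succ - C (t i) * X 0 : AA d₁ C₀))) :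
    Prim W (Zp d₁ (algebraMap C₀ (PS c W) ∘ t)) pp a e (o + 1)
      (algebraMap (AA d₁ C₀) (BB d₁ c W) h) (algebraMap (AA d₁ C₀) (BB d₁ c W) (α * h + β * g))
      (f.map (algebraMap (AA d₁ C₀) (BB d₁ c W))) (iR (AA d₁ C₀) (BB d₁ c W) R w) := by
  have hfl := B.flat d₁
  have eC : ∀ x : C₀, algebraMap (AA d₁ C₀) (BB d₁ c W) (C x) = C (algebraMap C₀ (PS c W) x) :=
    fun x => by rw [MvPowerSeries.algebraMap_apply'', MvPowerSeries.map_C]
  have eX : ∀ i, algebraMap (AA d₁ C₀) (BB d₁ c W) (X i) = X i :=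
    fun i => by rw [MvPowerSeries.algebraMap_apply'', MvPowerSeries.map_X]
  have eW : ∀ x : W, algebraMap W (BB d₁ c W) x = C (C x) := fun x => by
    rw [MvPowerSeries.algebraMap_apply, MvPowerSeries.algebraMap_apply]
    rfl
  have h0 : algebraMap (AA d₁ C₀) R h = 0 := by
    rw [← RingHom.mem_ker, hker]
    exact Ideal.mem_span_singleton_self h
  refine ⟨ha, Pr.he, Nat.le_add_left 1 o, ?_, Pr.mon.map _, ?_, fun r hr => ?_, ?_, ?_, ?_⟩
  · have h1 := Ideal.mem_map_of_mem (algebraMap (AA d₁ C₀) (BB d₁ c W)) hh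
    rw [XP_map_AA, map_sub, eC, map_pow, B.hσ] at h1
    rw [span_Zp, eW, map_pow]
    exact Submodule.mem_sup_right h1
  · rw [Pr.mon.natDegree_map, Pr.deg]
  · obtain ⟨z, hz⟩ := Ideal.mem_span_singleton'.1 (Pr.coeff r hr)
    rw [Polynomial.coeff_map, ← hz, map_mul, eX]
    exact Submodule.mem_sup_left (Ideal.mul_mem_left _ _ (Ideal.subset_span ⟨0, rfl⟩))
  · have h1 := Ideal.mem_map_of_mem (algebraMap (AA d₁ C₀) (BB d₁ c W)) hg
    rw [map_sub, map_pow, eX] at h1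
    refine SetLike.le_def.1 ?_ h1
    rw [Ideal.map_span, Ideal.span_le]
    rintro _ ⟨_, ⟨i, rfl⟩, rfl⟩
    refine Ideal.subset_span ⟨Fin.castAdd c i, ?_⟩
    dsimp only
    rw [Pe_Zp_left, map_sub, map_mul, eX, eX, eC]
    rfl
  · rw [tens_ker, Pr.ker, hker, Ideal.map_sup, Ideal.map_span, Ideal.map_span, Ideal.map_span,
      Ideal.span_insert]
    simp only [Set.image_singleton, Polynomial.coe_mapRingHom, Polynomial.map_C]
  · refine tens_cond w _ fun τ => ?_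
    obtain ⟨F, hF⟩ := Pr.cond τ
    refine ⟨Polynomial.C β * F, ?_⟩
    rw [map_mul, hF, Polynomial.aeval_C, map_add, map_mul, map_mul, h0, mul_zero, zero_add,
      mul_assoc]

/-- THEOREM G2.  `Base.exists_g` (`(h)` is prime, `g ∉ (h)`), `Base.prim`, `psr_Zp`, `exists_der` (if
`a = 1` take `D = 0`, `Dr = 0`), `thmG` with `𝔐 = 𝔪_T`; the error terms by `gr_le`, `Cplx.colon_le`,
`cl_ne_top_of_pow_le`, `tens_aeval`; `le_lo_of_choose` with `c = 0`. -/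
theorem thmG2 [IsDomain R] (B : Base W C₀ c pp π) (hres : ResS C₀ d₁ R) {h g : AA d₁ C₀} {a e : ℕ}
    (ha : 1 ≤ a) (hker : RingHom.ker (algebraMap (AA d₁ C₀) R) = Ideal.span {h})
    (hh : h - C (π ^ a) ∈ XP (d₁ + 1) C₀)
    (hd : a = 1 ∨ algebraMap (AA d₁ C₀) R (pderiv C₀ 0 h) ≠ 0) {w : R} {f : Polynomial (AA d₁ C₀)}
    (Pr : PrimData (AA d₁ C₀) (X 0) e w f g) (fld : Prop) (hfld : fld → h = 0)
    (hcore : ∀ sh : Shape, sh.a = a → ∃ N, CoreAt sh N W pp fld) (hν : 1 ≤ ν) (hC : Cplx ν F y) :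
    ((a * e * ν ^ (d₁ + c + 1) : ℕ) : ℝ≥0∞) ≤
      lo (d₁ + 1) (fun k => cl (F.J ⊔ Ideal.span (Set.range y) ^ k)) := by
  have h0 : algebraMap (AA d₁ C₀) R h = 0 := by
    rw [← RingHom.mem_ker, hker]
    exact Ideal.mem_span_singleton_self h
  have hgc : (Ideal.span {h}).colon {g} ≤ Ideal.span {h} := by
    intro x hx
    rw [Submodule.mem_colon_singleton, ← hker, RingHom.mem_ker, smul_eq_mul, map_mul] at hx
    rw [← hker, RingHom.mem_ker]
    exact (mul_eq_zero.1 hx).resolve_right Pr.ne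
  obtain ⟨t, o, α, β, hg⟩ := B.exists_g hh hgc
  have P := B.prim ha hker hh Pr hg
  have hmax : (Ideal.span {pp}).IsMaximal := B.hW ▸ maximalIdeal.isMaximal W
  have eC : ∀ x : C₀, algebraMap (AA d₁ C₀) (BB d₁ c W) (C x) = C (algebraMap C₀ (PS c W) x) :=
    fun x => by rw [MvPowerSeries.algebraMap_apply'', MvPowerSeries.map_C]
  have eW : ∀ x : W, algebraMap W (BB d₁ c W) x = C (C x) := fun x => by
    rw [MvPowerSeries.algebraMap_apply, MvPowerSeries.algebraMap_apply]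
    rfl
  have hloc := (max_pow_le_of_finite (A := AA d₁ C₀) (R := R)).1
  obtain ⟨hT, h𝔐⟩ := B.local_TT hres
  have hN : IsNoetherianRing (TT W C₀ d₁ c R) :=
    IsNoetherianRing.of_finite (BB d₁ c W) _
  obtain ⟨M, hM⟩ := hC.pow_le B h0 hh
  have hfin : cl (F.J ⊔ Ideal.span (Set.range y)) ≠ ⊤ :=
    cl_ne_top_of_pow_le (maximalIdeal _) (N := M) (by rw [h𝔐]; exact hM)
  have err : ∀ θ : R, θ ≠ 0 → ∃ K : ℕ, ∀ k, cl (F.J ⊔ Ideal.span (Set.range y) ^ k ⊔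
      Ideal.span {iR (AA d₁ C₀) (BB d₁ c W) R θ}) ≤ (K * (k + 1) ^ d₁ : ℕ) := fun θ hθ => by
    obtain ⟨K, hK⟩ := gr_le F.J y (hC.colon_le B hres hθ) hfin
    exact ⟨K, fun k => by rw [sup_right_comm]; exact hK k⟩
  obtain ⟨D, Dr, hD, K₁, hK₁⟩ : ∃ (D : Derivation W (BB d₁ c W) (BB d₁ c W))
      (Dr : Fin (d₁ + c + 1) → W),
      (∀ i, D (Zp d₁ (algebraMap C₀ (PS c W) ∘ t) i) = algebraMap W _ (Dr i)) ∧
      ∃ K : ℕ, ∀ k, ((a - 1 : ℕ) : ℕ∞) * cl (F.J ⊔ Ideal.span (Set.range y) ^ k ⊔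
        Ideal.span {algebraMap (BB d₁ c W) (TT W C₀ d₁ c R)
          (D (algebraMap (AA d₁ C₀) (BB d₁ c W) h))}) ≤ (K * (k + 1) ^ d₁ : ℕ) := by
    rcases hd with rfl | hd
    · exact ⟨0, 0, fun i => by simp, 0, fun k => by simp⟩
    · obtain ⟨D, Dr, h', e1, e2, e3⟩ := exists_der (W := W) d₁ (algebraMap C₀ (PS c W)) t
        (algebraMap (AA d₁ C₀) R) h hd
      obtain ⟨K, hK⟩ := err _ e3
      refine ⟨D, Dr, e1, (a - 1) * K, fun k => ?_⟩
      rw [MvPowerSeries.algebraMap_apply'', e2, ← MvPowerSeries.algebraMap_apply'', ← iR_alg,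
        mul_assoc, Nat.cast_mul]
      exact mul_le_mul' le_rfl (hK k)
  obtain ⟨K₂, hK₂⟩ := err _ Pr.sep
  have hZ : ∀ i, algebraMap (BB d₁ c W) (TT W C₀ d₁ c R) (Zp d₁ (algebraMap C₀ (PS c W) ∘ t) i) ∈
      (ZI W d₁ c).map (algebraMap (BB d₁ c W) (TT W C₀ d₁ c R)) := fun i =>
    Ideal.mem_map_of_mem _ (span_Zp d₁ (algebraMap C₀ (PS c W) ∘ t) ▸ Ideal.subset_span ⟨i, rfl⟩)
  refine le_lo_of_choose (C := K₁ + a * e * K₂) (c := 0) ?_
  filter_upwards [Filter.eventually_ge_atTop 1] with k hk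
  have key := thmG (psr_Zp d₁ (algebraMap C₀ (PS c W) ∘ t)) P hν fld
    (fun hf => by rw [hfld hf, map_zero]) hcore D Dr hD F hC.sq hC.one hC.deg y
    (fun a b => by rw [span_Zp]; exact hC.iF a b) (fun l => by rw [span_Zp]; exact hC.iy l)
    (fun i => hC.n1.imp fun N hN => hN (Ideal.pow_mem_pow (hZ i) N))
    (fun i => hC.n2.imp fun N hN => hN (Ideal.pow_mem_pow (hZ i) N))
    ((ZI W d₁ c).map (algebraMap (BB d₁ c W) _) ⊔
      (maximalIdeal R).map (iR (AA d₁ C₀) (BB d₁ c W) R)) ?_ (fun i => Submodule.mem_sup_left (hZ i))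
    ?_ ?_ ⟨M, hM⟩ hk
  · rw [mul_comm, add_zero]
    refine key.trans ?_
    rw [add_assoc, add_mul, Nat.cast_add]
    refine add_le_add le_rfl (add_le_add (hK₁ k) ?_)
    rw [Polynomial.derivative_map, tens_aeval, mul_assoc (a * e), Nat.cast_mul (a * e)]
    exact mul_le_mul' le_rfl (hK₂ k)
  · rw [eW, ← B.hσ, ← eC, ← iR_alg]
    refine Submodule.mem_sup_right (Ideal.mem_map_of_mem _ (hloc (Ideal.mem_map_of_mem _ ?_)))
    rw [B.max_AA]
    exact Submodule.mem_sup_left (Ideal.mem_span_singleton_self _)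
  · refine Submodule.mem_sup_right (Ideal.mem_map_of_mem _ ?_)
    refine (Ideal.span_singleton_le_iff_mem _).2 (hloc (Ideal.mem_map_of_mem _ ?_)) Pr.mem
    rw [B.max_AA]
    exact Submodule.mem_sup_right (Ideal.subset_span ⟨0, rfl⟩)
  · intro τ
    obtain ⟨x, hx⟩ := tens_res (A := AA d₁ C₀) (𝒜 := BB d₁ c W) (𝔞 := maximalIdeal R)
      (fun r => (hres r).elim fun z hz => ⟨C z, hz⟩) τ
    obtain ⟨x₀, hx₀⟩ : ∃ x₀ : W, x - algebraMap W (BB d₁ c W) x₀ ∈ ZI W d₁ c := by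
      refine ⟨constantCoeff (constantCoeff x), ?_⟩
      have e : x - algebraMap W (BB d₁ c W) (constantCoeff (constantCoeff x)) =
          C (constantCoeff x - C (constantCoeff (constantCoeff x))) + (x - C (constantCoeff x)) := by
        rw [eW, map_sub]
        ring
      rw [e]
      refine Submodule.add_mem_sup (Ideal.mem_map_of_mem _ ?_) ?_
      · rw [mem_XP_iff]; simp
      · rw [mem_XP_iff]; simp
    refine ⟨x₀, ?_⟩
    have e : τ - algebraMap (BB d₁ c W) _ (algebraMap W (BB d₁ c W) x₀) =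
        algebraMap (BB d₁ c W) _ (x - algebraMap W (BB d₁ c W) x₀) +
          (τ - algebraMap (BB d₁ c W) _ x) := by
      rw [map_sub]
      ring
    rw [e]
    exact Submodule.add_mem_sup (Ideal.mem_map_of_mem _ hx₀) hx

/-- `exists_reduction`, `gr_le` (`I = ⊥`), `step'` (`I = (θ)`, `ρ = id`), `span_cons_sub`,
`red_pow_le`. -/
theorem exists_ybar {S : Type} [CommRing S] [IsNoetherianRing S] [IsLocalRing S]
    [Infinite (ResidueField S)] (hS : Sop S (d₁ + 1)) {θ : S} (hθ : ∀ x, θ * x = 0 → x = 0) :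
    ∃ y : Fin (d₁ + 1) → S, (∀ l, y l ∈ maximalIdeal S) ∧
      (∃ o, ∀ k, maximalIdeal S ^ (k + o) ≤ Ideal.span (Set.range y) ^ k) ∧
      ∃ N, maximalIdeal S ^ N ≤
        Ideal.span {θ} ⊔ Ideal.span (Set.range fun l : Fin d₁ => y l.succ) := by
  obtain ⟨x, hx, o, ho⟩ := exists_reduction hS
  have h1 : ∀ k, maximalIdeal S ^ (k + o) ≤ Ideal.span (Set.range x) ^ k := fun k =>
    (red_pow_le ho k).trans Ideal.mul_le_left
  obtain ⟨K, hK⟩ := gr_le (⊥ : Ideal S) x (θ := θ)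
    (fun z hz => hθ z (by simpa [mul_comm] using Submodule.mem_colon_singleton.1 hz))
    (cl_ne_top_of_pow_le (maximalIdeal S) ((ho.trans Ideal.mul_le_left).trans le_sup_right))
  simp only [bot_sup_eq] at hK
  obtain ⟨t, o', ht⟩ := step' (RingHom.id S) (fun a => ⟨a, by simp⟩) (Ideal.span {θ}) x hx
    (up_eq_zero_of_le K (Filter.Eventually.of_forall hK))
  refine ⟨Fin.cons (x 0) fun i => x i.succ - t i * x 0, fun l => ?_, ⟨o, ?_⟩, o' + 1 + o, ?_⟩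
  · refine Fin.cases (hx 0) (fun i => ?_) l
    exact Ideal.sub_mem _ (hx _) (Ideal.mul_mem_left _ _ (hx 0))
  · rw [span_cons_sub]
    exact h1
  · exact (h1 _).trans (ht.trans (sup_le_sup_left Ideal.mul_le_left _))

/-- `exists_eval` for `BB → S`, `PS.hom_ext` for compatibility on `AA`, `tens_lift`. -/
theorem exists_theta {S : Type} [CommRing S] [CLN S] (φ : R →+* S) (ψ : PS c W →+* S)
    (hψ : Function.Surjective ψ)
    (hc : ∀ x : C₀, φ (algebraMap (AA d₁ C₀) R (C x)) = ψ (algebraMap C₀ (PS c W) x))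
    (hX : ∀ i, φ (algebraMap (AA d₁ C₀) R (X i)) ∈ maximalIdeal S) :
    ∃ Θ : TT W C₀ d₁ c R →+* S, Function.Surjective Θ ∧
      ∀ r, Θ (iR (AA d₁ C₀) (BB d₁ c W) R r) = φ r := by
  obtain ⟨ev, h1, h2⟩ := exists_eval ψ (maximalIdeal S) _ hX
  have h3 : ev.comp (algebraMap (AA d₁ C₀) (BB d₁ c W)) = φ.comp (algebraMap (AA d₁ C₀) R) := by
    have hX' : ∀ i, ev.comp (algebraMap (AA d₁ C₀) (BB d₁ c W)) (X i) =
        φ (algebraMap (AA d₁ C₀) R (X i)) := fun i => by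
      rw [RingHom.comp_apply, algebraMap_apply'', map_X, h2]
    refine PS.hom_ext (maximalIdeal S) (fun x => ?_) hX' fun i => (hX' i).symm ▸ hX i
    rw [RingHom.comp_apply, RingHom.comp_apply, algebraMap_apply'', map_C, h1, hc]
  obtain ⟨Θ, h4, h5⟩ := tens_lift ev φ (RingHom.congr_fun h3)
  refine ⟨Θ, fun s => ?_, h5⟩
  obtain ⟨z, rfl⟩ := hψ s
  exact ⟨_, (h4 (C z)).trans (h1 z)⟩

theorem g2e_pow_le {T S : Type} [CommRing T] [CommRing S] [IsLocalRing T] [IsLocalRing S]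
    (Θ : T →+* S) (hΘ : Function.Surjective Θ) {I : Ideal T} {N : ℕ}
    (h : maximalIdeal S ^ N ≤ I.map Θ) : maximalIdeal T ^ N ≤ RingHom.ker Θ ⊔ I := by
  have _ : IsLocalHom Θ := IsLocalHom.of_surjective Θ hΘ
  have h1 : (maximalIdeal T).map Θ ≤ maximalIdeal S :=
    Ideal.map_le_iff_le_comap.2 fun x hx => map_nonunit Θ x hx
  have h2 : (maximalIdeal T ^ N).map Θ ≤ I.map Θ := by
    rw [Ideal.map_pow]
    exact (Ideal.pow_right_mono h1 N).trans h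
  have h3 := Ideal.map_le_iff_le_comap.1 h2
  rwa [Ideal.comap_map_of_surjective Θ hΘ, ← RingHom.ker_eq_comap_bot, sup_comm] at h3

theorem g2e_map_range {T S : Type} [CommRing T] [CommRing S] (Θ : T →+* S) {ι : Type} (y : ι → T) :
    (Ideal.span (Set.range y)).map Θ = Ideal.span (Set.range fun l => Θ (y l)) := by
  rw [Ideal.map_span, ← Set.range_comp]
  rfl

theorem g2e_flat {R T S : Type} [CommRing R] [CommRing T] [CommRing S] [Algebra R T] (Θ : T →+* S)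
    (hΘ : Function.Surjective Θ) (φ : R →+* S) (hφ : φ.Flat) (h : ∀ r, Θ (algebraMap R T r) = φ r) :
    Module.Flat R (T ⧸ RingHom.ker Θ) := by
  have e : algebraMap R (T ⧸ RingHom.ker Θ) =
      (RingHom.quotientKerEquivOfSurjective hΘ).symm.toRingHom.comp φ := by
    ext r
    apply (RingHom.quotientKerEquivOfSurjective hΘ).injective
    simp only [RingEquiv.toRingHom_eq_coe, RingHom.coe_comp, RingHom.coe_coe,
      Function.comp_apply, RingEquiv.apply_symm_apply]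
    exact h r
  rw [← RingHom.flat_algebraMap_iff, e]
  exact hφ.comp (RingHom.Flat.of_bijective (RingEquiv.bijective _))

/-- `J = ker Θ`; `exists_resolution` (with `Algebra R T := (iR ..).toAlgebra`, `T ⧸ J ≃ S`,
`Base.exists_kappa`, `PS.regOn`, `PS.max_eq`); `exists_ybar` with `θ = φ (X 0)` (regular by flatness;
`Sop.map`), lift `y` (`comap Θ 𝔫 = 𝔪_T`); `FC.J_le_nh`; `IntOver.of_reduction` with
`𝔐^(o+1) ≤ ZI T * 𝔐^o`; any `κ` in `ex1` is the one of `exists_kappa` (`tens_res`);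
`cl_map_surj`. -/
theorem exists_cplx [IsDomain R] (B : Base W C₀ c pp π) (hres : ResS C₀ d₁ R) {o : ℕ}
    (hred : maximalIdeal R ^ (o + 1) ≤
      (XP (d₁ + 1) C₀).map (algebraMap (AA d₁ C₀) R) * maximalIdeal R ^ o)
    (hX0 : algebraMap (AA d₁ C₀) R (X 0) ≠ 0) {S : Type} [CommRing S] [CLN S] (φ : R →+* S)
    [IsLocalHom φ] (hφ : φ.Flat) (ψ : PS c W →+* S) (hψ : Function.Surjective ψ)
    (hc : ∀ x : C₀, φ (algebraMap (AA d₁ C₀) R (C x)) = ψ (algebraMap C₀ (PS c W) x))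
    (hprim : ∃ N, maximalIdeal S ^ N ≤ (maximalIdeal R).map φ) :
    ∃ (F : FC (TT W C₀ d₁ c R)) (y : Fin (d₁ + 1) → TT W C₀ d₁ c R), Cplx 1 F y ∧
      ∃ c', ∀ k, cl (F.J ⊔ Ideal.span (Set.range y) ^ k) ≤ HS S (k + c') := by
  classical
  have _ : IsNoetherianRing R := IsNoetherianRing.of_finite (AA d₁ C₀) R
  have _ : IsNoetherianRing (TT W C₀ d₁ c R) := IsNoetherianRing.of_finite (BB d₁ c W) _
  have _ : Module.Flat (AA d₁ C₀) (BB d₁ c W) := B.flat d₁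
  obtain ⟨_, hmax⟩ := B.local_TT (W := W) hres
  obtain ⟨κ, hκ1, hκ2, hκ3⟩ := B.exists_kappa (W := W) hres
  have hloc : (maximalIdeal (AA d₁ C₀)).map (algebraMap (AA d₁ C₀) R) ≤ maximalIdeal R :=
    max_pow_le_of_finite.1
  have hXR : ∀ i, algebraMap (AA d₁ C₀) R (X i) ∈ maximalIdeal R := by
    intro i
    refine hloc (Ideal.mem_map_of_mem _ ?_)
    rw [B.max_AA d₁]
    exact Ideal.mem_sup_right (Ideal.subset_span ⟨i, rfl⟩)
  obtain ⟨Θ, hΘ, hΘφ⟩ := exists_theta (W := W) (c := c) φ ψ hψ hc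
    (fun i => map_nonunit φ _ (hXR i))
  have _ : IsLocalHom Θ := IsLocalHom.of_surjective Θ hΘ
  -- the resolution
  obtain ⟨F, hF1, hF2, hF3, hF4, hF5, hF6, hF7⟩ : ∃ F : FC (TT W C₀ d₁ c R), F.One ∧ F.DegLe c ∧
      F.Sq ⊥ ∧ F.Ent (maximalIdeal _) ∧ (∀ k, 1 ≤ k → F.ExactAt k) ∧ F.J = RingHom.ker Θ ∧
      (F.map κ).ExactAt 1 := by
    let _ : Algebra R (TT W C₀ d₁ c R) := (iR (AA d₁ C₀) (BB d₁ c W) R).toAlgebra
    have _ : Module.Flat R (TT W C₀ d₁ c R) := iR_flat (BB d₁ c W)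
    have _ : Module.Flat R (TT W C₀ d₁ c R ⧸ RingHom.ker Θ) := g2e_flat Θ hΘ φ hφ hΘφ
    have hu : maximalIdeal (PS c (ResidueField W)) = Ideal.span (Set.range X) := by
      rw [PS.max_eq, IsLocalRing.maximalIdeal_eq_bot, Ideal.map_bot, bot_sup_eq]
      rfl
    exact exists_resolution (R := R) κ hκ2 hκ3 hu PS.regOn _ (RingHom.ker_ne_top Θ)
  -- the elements `y`
  have hsopR : Sop R (d₁ + 1) := by
    refine ⟨fun i => algebraMap (AA d₁ C₀) R (X i), hXR, o + 1, hred.trans ?_⟩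
    rw [← g2e_map_range]
    exact Ideal.mul_le_left
  have _ : IsLocalHom (algebraMap (AA d₁ C₀) R) :=
    ((IsLocalRing.local_hom_TFAE (algebraMap (AA d₁ C₀) R)).out 0 2).2 hloc
  have _ : Infinite (ResidueField S) := by
    have := B.inf_AA d₁
    exact Infinite.of_injective _
      (ResidueField.map (φ.comp (algebraMap (AA d₁ C₀) R))).injective
  have hθ : ∀ x, φ (algebraMap (AA d₁ C₀) R (X 0)) * x = 0 → x = 0 := by
    intro x hx
    have h1 := colon_map_le φ hφ ⊥ (algebraMap (AA d₁ C₀) R (X 0))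
      (Submodule.mem_colon_singleton.2 (by
        rw [smul_eq_mul, mul_comm, hx]; exact Submodule.zero_mem _) : x ∈ _)
    have h2 : (⊥ : Ideal R).colon {algebraMap (AA d₁ C₀) R (X 0)} = ⊥ := by
      refine le_bot_iff.1 fun z hz => ?_
      have := Submodule.mem_colon_singleton.1 hz
      rw [smul_eq_mul, Ideal.mem_bot, mul_eq_zero] at this
      exact this.resolve_right hX0
    rwa [h2, Ideal.map_bot, Ideal.mem_bot] at h1
  obtain ⟨yb, hy1, ⟨o', hy2⟩, N, hy3⟩ := exists_ybar (hsopR.map φ hprim) hθ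
  choose y hy using fun l => hΘ (yb l)
  obtain rfl : yb = fun l => Θ (y l) := funext fun l => (hy l).symm
  have hyM : ∀ l, y l ∈ maximalIdeal (TT W C₀ d₁ c R) := fun l hu => hy1 l (hu.map Θ)
  have hZ : (ZI W d₁ c).map (algebraMap (BB d₁ c W) (TT W C₀ d₁ c R)) ≤ maximalIdeal _ := by
    rw [hmax]; exact le_sup_left
  have hredT : maximalIdeal (TT W C₀ d₁ c R) ^ (o + 1) ≤
      (ZI W d₁ c ^ 1).map (algebraMap (BB d₁ c W) _) * maximalIdeal (TT W C₀ d₁ c R) ^ o := by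
    rw [pow_one]
    conv_lhs => rw [hmax]
    refine (redb_sup_pow _ _ o).trans (sup_le (by rw [← hmax]) ?_)
    rw [← Ideal.map_pow]
    refine (Ideal.map_mono hred).trans ?_
    rw [Ideal.map_mul, Ideal.map_pow]
    refine Ideal.mul_mono ?_ (Ideal.pow_right_mono (by rw [hmax]; exact le_sup_right) o)
    have e : (iR (AA d₁ C₀) (BB d₁ c W) R).comp (algebraMap (AA d₁ C₀) R) =
        (algebraMap (BB d₁ c W) (TT W C₀ d₁ c R)).comp (algebraMap (AA d₁ C₀) (BB d₁ c W)) :=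
      RingHom.ext fun a => iR_alg (BB d₁ c W) a
    rw [Ideal.map_map, e, ← Ideal.map_map, XP_map_AA]
    exact Ideal.map_mono le_sup_right
  have hJ : RingHom.ker Θ ≤ F.nh ⊥ := hF6 ▸ FC.J_le_nh hF1 hF3 hF5
  refine ⟨F, y, ⟨hF1, hF2, hF3, fun a b => IntOver.of_reduction hredT (hF4 a b),
    fun l => IntOver.of_reduction hredT (hyM l), ⟨1 + o', ?_⟩, ⟨N, ?_⟩, ?_⟩, o', fun k => ?_⟩
  · refine (Ideal.pow_right_mono hZ _).trans ((g2e_pow_le Θ hΘ ?_).trans (sup_le_sup_right hJ _))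
    rw [g2e_map_range]
    simpa using hy2 1
  · rw [sup_assoc]
    refine (Ideal.pow_right_mono hZ _).trans ((g2e_pow_le Θ hΘ ?_).trans (sup_le_sup_right hJ _))
    have e : Θ (algebraMap (BB d₁ c W) _ (X 0)) = φ (algebraMap (AA d₁ C₀) R (X 0)) := by
      rw [← hΘφ, iR_alg, MvPowerSeries.algebraMap_apply'', MvPowerSeries.map_X]
    rw [Ideal.map_sup, g2e_map_range, Ideal.map_span, Set.image_singleton, e]
    exact hy3
  · intro κ' h1 h2
    have e : κ' = κ := by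
      refine RingHom.ext fun t => ?_
      obtain ⟨x, hx⟩ := tens_res (A := AA d₁ C₀) (𝒜 := BB d₁ c W) (𝔞 := maximalIdeal R)
        (fun r => (hres r).elim fun x hx => ⟨_, hx⟩) t
      have h3 : (maximalIdeal R).map (iR (AA d₁ C₀) (BB d₁ c W) R) ≤ RingHom.ker κ' :=
        Ideal.map_le_iff_le_comap.2 fun m hm => h2 m hm
      have h4 := h3 hx
      rw [← hκ3] at hx
      rw [RingHom.mem_ker, map_sub, sub_eq_zero] at h4 hx
      rw [h4, hx, h1, hκ1]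
    rw [e]
    exact hF7
  · rw [hF6, sup_comm, ← cl_map_surj Θ hΘ, Ideal.map_pow, g2e_map_range]
    exact cl_anti (hy2 k)

end Crest.Agent.R183
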