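import Mathlib

/-! # R183 / Growth : upper and lower normalised growth rates of `H : ℕ → ℕ∞`. -/

set_option autoImplicit false
open Filter
open scoped ENNReal

namespace Crest.Agent.R183

noncomputable def gr (d : ℕ) (H : ℕ → ℕ∞) (N : ℕ) : ℝ≥0∞ :=
  (d.factorial : ℝ≥0∞) * (H N : ℝ≥0∞) / (N : ℝ≥0∞) ^ d

noncomputable def up (d : ℕ) (H : ℕ → ℕ∞) : ℝ≥0∞ := limsup (gr d H) atTop

noncomputable def lo (d : ℕ) (H : ℕ → ℕ∞) : ℝ≥0∞ := liminf (gr d H) atTop

/-- partial sums `∑_{j ≤ N} H j` -/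
noncomputable def Sg (H : ℕ → ℕ∞) (N : ℕ) : ℕ∞ := ∑ j ∈ Finset.range (N + 1), H j

variable {d : ℕ} {H H' : ℕ → ℕ∞}

theorem gra_mono (h : ∀ᶠ N in atTop, H N ≤ H' N) : gr d H ≤ᶠ[atTop] gr d H' :=
  h.mono fun _ hN => ENNReal.div_le_div_right (mul_le_mul' le_rfl (ENat.toENNReal_le.2 hN)) _

theorem gra_add : gr d (fun N => H N + H' N) = gr d H + gr d H' := by
  funext N
  simp only [gr, Pi.add_apply, ENat.toENNReal_add, mul_add, ENNReal.add_div]

theorem gra_mul (c : ℕ) : gr d (fun N => c * H N) = fun N => (c : ℝ≥0∞) * gr d H N := by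
  funext N
  simp only [gr, ENat.toENNReal_mul, ENat.toENNReal_coe, div_eq_mul_inv]
  ring

theorem gra_ratio (d c : ℕ) :
    Tendsto (fun N : ℕ => (((N + c : ℕ) : ℝ≥0∞) / N) ^ d) atTop (nhds 1) := by
  have h1 : Tendsto (fun N : ℕ => 1 + (c : ℝ≥0∞) * (N : ℝ≥0∞)⁻¹) atTop (nhds (1 + c * 0)) :=
    tendsto_const_nhds.add (ENNReal.Tendsto.const_mul ENNReal.tendsto_inv_nat_nhds_zero
      (Or.inr (ENNReal.natCast_ne_top c)))
  rw [mul_zero, add_zero] at h1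
  have h2 := ENNReal.Tendsto.pow (n := d) h1
  rw [one_pow] at h2
  refine h2.congr' ?_
  filter_upwards [eventually_gt_atTop 0] with N hN
  rw [Nat.cast_add, ENNReal.add_div, ENNReal.div_self (by simpa using hN.ne')
    (ENNReal.natCast_ne_top N), div_eq_mul_inv]

theorem gra_shift (c : ℕ) : gr d (fun N => H (N + c)) =ᶠ[atTop]
    (fun N : ℕ => (((N + c : ℕ) : ℝ≥0∞) / N) ^ d) * fun N => gr d H (N + c) := by
  filter_upwards [eventually_gt_atTop 0] with N hN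
  have h1 : ((N + c : ℕ) : ℝ≥0∞) ^ d * (((N + c : ℕ) : ℝ≥0∞) ^ d)⁻¹ = 1 :=
    ENNReal.mul_inv_cancel (pow_ne_zero _ (Nat.cast_ne_zero.2 (by omega)))
      (ENNReal.pow_ne_top (ENNReal.natCast_ne_top _))
  simp only [gr, Pi.mul_apply, div_eq_mul_inv, mul_pow, ← ENNReal.inv_pow]
  calc _ = (d.factorial : ℝ≥0∞) * (H (N + c) : ℝ≥0∞) * ((N : ℝ≥0∞) ^ d)⁻¹ *
        (((N + c : ℕ) : ℝ≥0∞) ^ d * (((N + c : ℕ) : ℝ≥0∞) ^ d)⁻¹) := by rw [h1, mul_one]
    _ = _ := by ring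

theorem up_mono (h : ∀ᶠ N in atTop, H N ≤ H' N) : up d H ≤ up d H' := by
  exact limsup_le_limsup (gra_mono h)

theorem lo_mono (h : ∀ᶠ N in atTop, H N ≤ H' N) : lo d H ≤ lo d H' := by
  exact liminf_le_liminf (gra_mono h)

theorem lo_le_up : lo d H ≤ up d H := by
  exact liminf_le_limsup

/-- `gr d (H (· + c)) N = gr d H (N + c) * ((N+c)/N)^d` and the ratio tends to `1`
(e.g. for every `t > 1` it is eventually `≤ t`; `liminf_nat_add`). -/
theorem lo_shift (c : ℕ) : lo d (fun N => H (N + c)) = lo d H := by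
  have h1 := (gra_ratio d c).liminf_eq
  have h2 := (gra_ratio d c).limsup_eq
  rw [lo, liminf_congr (gra_shift c), lo, ← liminf_nat_add (gr d H) c]
  refine le_antisymm ((ENNReal.liminf_mul_le (Or.inl (by rw [h2]; simp)) (Or.inl (by rw [h2]; simp))).trans ?_)
    (le_trans ?_ ENNReal.le_liminf_mul)
  · rw [h2, one_mul]
  · rw [h1, one_mul]

theorem up_shift (c : ℕ) : up d (fun N => H (N + c)) = up d H := by
  have h1 := (gra_ratio d c).liminf_eq
  have h2 := (gra_ratio d c).limsup_eq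
  rw [up, limsup_congr (gra_shift c), up, ← limsup_nat_add (gr d H) c]
  refine le_antisymm ((ENNReal.limsup_mul_le' (Or.inl (by rw [h2]; simp)) (Or.inl (by rw [h2]; simp))).trans ?_) ?_
  · rw [h2, one_mul]
  · rw [mul_comm]
    refine le_trans ?_ ENNReal.le_limsup_mul
    rw [h1, mul_one]

theorem lo_shift_sub (c : ℕ) : lo d (fun N => H (N - c)) = lo d H := by
  rw [← lo_shift (H := fun N => H (N - c)) c]
  simp

theorem up_add_le : up d (fun N => H N + H' N) ≤ up d H + up d H' := by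
  rw [up, gra_add, ← tsub_le_iff_left]
  refine le_of_forall_gt_imp_ge_of_dense fun b hb => ?_
  rw [tsub_le_iff_left, up, ← limsup_add_const atTop (gr d H) b (by isBoundedDefault)
    (by isBoundedDefault)]
  exact limsup_le_limsup ((eventually_lt_of_limsup_lt hb).mono fun N hN => add_le_add le_rfl hN.le)

theorem le_lo_add : lo d H + lo d H' ≤ lo d (fun N => H N + H' N) := by
  have h0 : lo d H ≤ lo d (fun N => H N + H' N) :=
    lo_mono (Eventually.of_forall fun _ => le_self_add)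
  rcases eq_or_ne (lo d H) ⊤ with ht | ht
  · rw [ht] at h0
    exact le_top.trans h0
  refine add_le_of_le_tsub_left_of_le h0 (le_of_forall_lt_imp_le_of_dense fun b hb => ?_)
  refine ENNReal.le_sub_of_add_le_left ht ?_
  rw [lo, lo, gra_add, ← liminf_add_const atTop (gr d H) b (by isBoundedDefault)
    (by isBoundedDefault)]
  exact liminf_le_liminf ((eventually_lt_of_lt_liminf hb).mono fun N hN => add_le_add le_rfl hN.le)

theorem lo_add_le : lo d (fun N => H N + H' N) ≤ lo d H + up d H' := by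
  rw [lo, gra_add, ← tsub_le_iff_left]
  refine le_of_forall_gt_imp_ge_of_dense fun b hb => ?_
  rw [tsub_le_iff_left, lo, ← liminf_add_const atTop (gr d H) b (by isBoundedDefault)
    (by isBoundedDefault)]
  exact liminf_le_liminf ((eventually_lt_of_limsup_lt hb).mono fun N hN => add_le_add le_rfl hN.le)

theorem up_const_mul_le (c : ℕ) : up d (fun N => c * H N) ≤ c * up d H := by
  rw [up, gra_mul, ENNReal.limsup_const_mul_of_ne_top (ENNReal.natCast_ne_top c), up]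

theorem lo_const_mul_le (c : ℕ) : lo d (fun N => c * H N) ≤ c * lo d H := by
  rw [lo, gra_mul, ENNReal.liminf_const_mul_of_ne_top (ENNReal.natCast_ne_top c), lo]

theorem GrowthB_gr {N m : ℕ} (hN : 1 ≤ N) (h : H N = m) :
    gr d H N = ENNReal.ofReal ((d.factorial : ℝ) * m / (N : ℝ) ^ d) := by
  rw [gr, h, ENNReal.ofReal_div_of_pos (by positivity), ENNReal.ofReal_mul (by positivity),
    ENNReal.ofReal_pow (by positivity)]
  simp

theorem GrowthB_up_le {f : ℕ → ℕ} {g : ℕ → ℝ} {e : ℝ} (hg : Tendsto g atTop (nhds e))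
    (h : ∀ N : ℕ, 1 ≤ N → (d.factorial : ℝ) * f N / (N : ℝ) ^ d ≤ g N) :
    up d (fun N => f N) ≤ ENNReal.ofReal e := by
  rw [← (ENNReal.tendsto_ofReal hg).limsup_eq]
  refine limsup_le_limsup ?_
  filter_upwards [eventually_ge_atTop 1] with N hN
  rw [GrowthB_gr (H := fun N => f N) hN rfl]
  exact ENNReal.ofReal_le_ofReal (h N hN)

theorem GrowthB_ratio (c : ℝ) (k : ℕ) :
    Tendsto (fun N : ℕ => (1 + c / (N : ℝ)) ^ k) atTop (nhds 1) := by
  simpa using ((tendsto_const_div_atTop_nhds_zero_nat c).const_add 1).pow k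

/-- `O(N^d)` has growth zero in degree `d+1`. -/
theorem up_eq_zero_of_le (C : ℕ) (h : ∀ᶠ N in atTop, H N ≤ (C * (N + 1) ^ d : ℕ)) :
    up (d + 1) H = 0 := by
  refine le_antisymm ((up_mono h).trans ((GrowthB_up_le ((GrowthB_ratio 1 d).mul
    (tendsto_const_div_atTop_nhds_zero_nat ((d + 1).factorial * C : ℝ))) fun N hN => ?_).trans
      (by simp))) bot_le
  have : (0 : ℝ) < N := by exact_mod_cast hN
  refine le_of_eq ?_
  rw [show 1 + 1 / (N : ℝ) = (N + 1) / N by field_simp, div_pow]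
  push_cast
  field_simp
  ring

/-- `(d+1)! * choose (N+d) (d+1) = N (N+1) ⋯ (N+d) ≤ (N+d)^(d+1)` (`Nat.descFactorial_le_pow`,
`Nat.descFactorial_eq_factorial_mul_choose`). -/
theorem up_choose_le (c : ℕ) : up (d + 1) (fun N => ((N + d).choose (d + 1) * c : ℕ)) ≤ c := by
  refine (GrowthB_up_le ((GrowthB_ratio d (d + 1)).mul_const (c : ℝ)) fun N hN => ?_).trans (by simp)
  have : (0 : ℝ) < N := by exact_mod_cast hN
  have h1 : ((d + 1).factorial : ℝ) * (N + d).choose (d + 1) ≤ (N + d) ^ (d + 1) := by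
    exact_mod_cast Nat.descFactorial_eq_factorial_mul_choose (N + d) (d + 1) ▸
      Nat.descFactorial_le_pow (N + d) (d + 1)
  rw [show 1 + (d : ℝ) / N = (N + d) / N by field_simp, div_pow, div_mul_eq_mul_div, Nat.cast_mul,
    ← mul_assoc]
  gcongr

/-- `N^(d+1) ≤ N (N+1) ⋯ (N+d)` (`Nat.pow_sub_le_descFactorial`). -/
theorem le_lo_choose (c : ℕ) : (c : ℝ≥0∞) ≤ lo (d + 1) (fun N => ((N + d).choose (d + 1) * c : ℕ)) := by
  refine le_liminf_of_le (h := ?_)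
  filter_upwards [eventually_ge_atTop 1] with N hN
  have : (0 : ℝ) < N := by exact_mod_cast hN
  have h0 := Nat.pow_sub_le_descFactorial (N + d) (d + 1)
  rw [Nat.descFactorial_eq_factorial_mul_choose, show N + d + 1 - (d + 1) = N by omega] at h0
  have h1 : (N : ℝ) ^ (d + 1) ≤ (d + 1).factorial * (N + d).choose (d + 1) := by exact_mod_cast h0
  rw [GrowthB_gr (H := fun N => ((N + d).choose (d + 1) * c : ℕ)) hN rfl, ← ENNReal.ofReal_natCast]
  refine ENNReal.ofReal_le_ofReal ((le_div_iff₀ (by positivity)).2 ?_)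
  rw [Nat.cast_mul, ← mul_assoc, mul_comm]
  gcongr

/-- `d = 0`: the growth rate of a monotone function is its supremum. -/
theorem up_zero_le (c : ℕ∞) (h : ∀ N, H N ≤ c) : up 0 H ≤ c := by
  refine limsup_le_of_le (h := Eventually.of_forall fun N => ?_)
  simpa [gr] using h N

theorem le_lo_zero (c : ℕ∞) (h : ∀ᶠ N in atTop, c ≤ H N) : (c : ℝ≥0∞) ≤ lo 0 H := by
  refine le_liminf_of_le (h := ?_)
  filter_upwards [h] with N hN
  simpa [gr] using hN

theorem Growthc_pow_le (N d : ℕ) : (N + 1) ^ (d + 1) ≤ N ^ (d + 1) + (d + 1) * (N + 1) ^ d := by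
  induction d with
  | zero => simp
  | succ d ih =>
    have h1 : N ^ (d + 1) ≤ (N + 1) ^ (d + 1) := Nat.pow_le_pow_left (Nat.le_succ _) _
    calc (N + 1) ^ (d + 1 + 1) = (N + 1) * (N + 1) ^ (d + 1) := pow_succ' _ _
      _ ≤ (N + 1) * (N ^ (d + 1) + (d + 1) * (N + 1) ^ d) := Nat.mul_le_mul_left _ ih
      _ = N ^ (d + 1 + 1) + (N ^ (d + 1) + (d + 1) * (N + 1) ^ (d + 1)) := by ring
      _ ≤ N ^ (d + 1 + 1) + ((N + 1) ^ (d + 1) + (d + 1) * (N + 1) ^ (d + 1)) := by gcongr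
      _ = _ := by ring

theorem Growthc_le_pow (N d : ℕ) : N ^ (d + 1) + (d + 1) * N ^ d ≤ (N + 1) ^ (d + 1) := by
  induction d with
  | zero => simp
  | succ d ih =>
    calc N ^ (d + 1 + 1) + (d + 1 + 1) * N ^ (d + 1)
        ≤ N ^ (d + 1 + 1) + (d + 1 + 1) * N ^ (d + 1) + (d + 1) * N ^ d := Nat.le_add_right _ _
      _ = (N + 1) * (N ^ (d + 1) + (d + 1) * N ^ d) := by ring
      _ ≤ (N + 1) * (N + 1) ^ (d + 1) := Nat.mul_le_mul_left _ ih
      _ = _ := (pow_succ' _ _).symm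

theorem Growthc_small {C ε : ℝ≥0∞} (hC : C ≠ ⊤) (hε : 0 < ε) (d : ℕ) :
    ∀ᶠ N : ℕ in atTop, C / (N : ℝ≥0∞) ^ (d + 1) ≤ ε := by
  have h1 : Tendsto (fun N : ℕ => C * (N : ℝ≥0∞)⁻¹ ^ (d + 1)) atTop (nhds (C * 0 ^ (d + 1))) :=
    ENNReal.Tendsto.const_mul (ENNReal.Tendsto.pow ENNReal.tendsto_inv_nat_nhds_zero) (Or.inr hC)
  rw [zero_pow (Nat.succ_ne_zero d), mul_zero] at h1
  filter_upwards [h1.eventually (eventually_le_nhds hε)] with N hN
  rwa [div_eq_mul_inv, ENNReal.inv_pow]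

theorem Growthc_succ (H : ℕ → ℕ∞) (N : ℕ) :
    ((Sg H (N + 1) : ℕ∞) : ℝ≥0∞) = Sg H N + H (N + 1) := by
  rw [← ENat.toENNReal_add]
  exact congrArg _ (Finset.sum_range_succ _ _)

theorem Growthc_ne_top (hf : ∀ N, H N ≠ ⊤) (N : ℕ) : Sg H N ≠ ⊤ :=
  WithTop.sum_ne_top.2 fun j _ => hf j

/-- if `x < lo d H` then `d! H j ≥ x j^d` for `j ≥ j₀`, and
`(d+1) ∑_{j₀ ≤ j ≤ N} j^d ≥ N^(d+1) - j₀^(d+1)` (from `(j+1)^(d+1) - j^(d+1) ≤ (d+1)(j+1)^d`). -/
theorem lo_le_lo_Sg : lo d H ≤ lo (d + 1) (Sg H) := by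
  refine le_of_forall_lt_imp_le_of_dense fun x hx => ?_
  obtain ⟨j, hj⟩ := eventually_atTop.1 (eventually_lt_of_lt_liminf hx)
  have key : ∀ N : ℕ, j ≤ N → x * (N : ℝ≥0∞) ^ (d + 1) ≤
      ((d + 1).factorial : ℝ≥0∞) * Sg H N + x * (j : ℝ≥0∞) ^ (d + 1) := by
    intro N hN
    induction N, hN using Nat.le_induction with
    | base => exact le_add_self
    | succ N hN ih =>
      have h1 : x * ((N + 1 : ℕ) : ℝ≥0∞) ^ d ≤ (d.factorial : ℝ≥0∞) * H (N + 1) :=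
        ENNReal.mul_le_of_le_div (hj (N + 1) (by omega)).le
      have h2 : ((N + 1 : ℕ) : ℝ≥0∞) ^ (d + 1) ≤
          (N : ℝ≥0∞) ^ (d + 1) + ((d + 1 : ℕ) : ℝ≥0∞) * ((N + 1 : ℕ) : ℝ≥0∞) ^ d := by
        exact_mod_cast Growthc_pow_le N d
      calc x * ((N + 1 : ℕ) : ℝ≥0∞) ^ (d + 1)
          ≤ x * ((N : ℝ≥0∞) ^ (d + 1) + ((d + 1 : ℕ) : ℝ≥0∞) * ((N + 1 : ℕ) : ℝ≥0∞) ^ d) := by gcongr
        _ = x * (N : ℝ≥0∞) ^ (d + 1) + ((d + 1 : ℕ) : ℝ≥0∞) * (x * ((N + 1 : ℕ) : ℝ≥0∞) ^ d) := by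
          ring
        _ ≤ (((d + 1).factorial : ℝ≥0∞) * Sg H N + x * (j : ℝ≥0∞) ^ (d + 1)) +
            ((d + 1 : ℕ) : ℝ≥0∞) * ((d.factorial : ℝ≥0∞) * H (N + 1)) := by gcongr
        _ = _ := by
          rw [Growthc_succ, Nat.factorial_succ, Nat.cast_mul]
          ring
  refine ENNReal.le_of_forall_pos_le_add fun ε hε _ => tsub_le_iff_right.1 ?_
  refine le_liminf_of_le (by isBoundedDefault) ?_
  filter_upwards [eventually_ge_atTop j, eventually_ge_atTop 1, Growthc_small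
    (ENNReal.mul_ne_top hx.ne_top (ENNReal.pow_ne_top (ENNReal.natCast_ne_top j)))
    (ENNReal.coe_pos.2 hε) d] with N h1 h2 h3
  refine tsub_le_iff_right.2 (le_trans ?_ (add_le_add le_rfl h3))
  rw [gr, ENNReal.div_add_div_same, ENNReal.le_div_iff_mul_le
    (Or.inl (pow_ne_zero _ (Nat.cast_ne_zero.2 (by omega))))
    (Or.inl (ENNReal.pow_ne_top (ENNReal.natCast_ne_top N)))]
  exact key N h1

/-- if `up d H < x` then `d! H j ≤ x j^d` for `j ≥ j₀`, and `(d+1) ∑_{j ≤ N} j^d ≤ (N+1)^(d+1)`. -/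
theorem up_Sg_le (hf : ∀ N, H N ≠ ⊤) : up (d + 1) (Sg H) ≤ up d H := by
  have e : up (d + 1) (Sg H) = up (d + 1) (fun N => Sg H (N - 1)) := by
    rw [← up_shift (H := fun N => Sg H (N - 1)) 1]
    simp
  rw [e]
  refine le_of_forall_gt_imp_ge_of_dense fun x hx => ?_
  obtain ⟨j, hj⟩ := eventually_atTop.1 (eventually_lt_of_limsup_lt hx)
  have key : ∀ N : ℕ, j ≤ N → ((d + 1).factorial : ℝ≥0∞) * Sg H N ≤
      x * ((N + 1 : ℕ) : ℝ≥0∞) ^ (d + 1) + ((d + 1).factorial : ℝ≥0∞) * Sg H j := by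
    intro N hN
    induction N, hN using Nat.le_induction with
    | base => exact le_add_self
    | succ N hN ih =>
      have h1 : (d.factorial : ℝ≥0∞) * H (N + 1) ≤ x * ((N + 1 : ℕ) : ℝ≥0∞) ^ d :=
        (ENNReal.div_le_iff (pow_ne_zero _ (Nat.cast_ne_zero.2 (Nat.succ_ne_zero N)))
          (ENNReal.pow_ne_top (ENNReal.natCast_ne_top _))).1 (hj (N + 1) (by omega)).le
      have h2 : ((N + 1 : ℕ) : ℝ≥0∞) ^ (d + 1) + ((d + 1 : ℕ) : ℝ≥0∞) * ((N + 1 : ℕ) : ℝ≥0∞) ^ d ≤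
          ((N + 1 + 1 : ℕ) : ℝ≥0∞) ^ (d + 1) := by
        exact_mod_cast Growthc_le_pow (N + 1) d
      calc ((d + 1).factorial : ℝ≥0∞) * Sg H (N + 1) = ((d + 1).factorial : ℝ≥0∞) * Sg H N +
            ((d + 1 : ℕ) : ℝ≥0∞) * ((d.factorial : ℝ≥0∞) * H (N + 1)) := by
            rw [Growthc_succ, Nat.factorial_succ, Nat.cast_mul]
            ring
        _ ≤ (x * ((N + 1 : ℕ) : ℝ≥0∞) ^ (d + 1) + ((d + 1).factorial : ℝ≥0∞) * Sg H j) +
            ((d + 1 : ℕ) : ℝ≥0∞) * (x * ((N + 1 : ℕ) : ℝ≥0∞) ^ d) := by gcongr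
        _ = x * (((N + 1 : ℕ) : ℝ≥0∞) ^ (d + 1) + ((d + 1 : ℕ) : ℝ≥0∞) * ((N + 1 : ℕ) : ℝ≥0∞) ^ d) +
            ((d + 1).factorial : ℝ≥0∞) * Sg H j := by ring
        _ ≤ _ := by gcongr
  refine ENNReal.le_of_forall_pos_le_add fun ε hε _ => ?_
  refine limsup_le_of_le (by isBoundedDefault) ?_
  filter_upwards [eventually_ge_atTop (j + 1), Growthc_small (C := ((d + 1).factorial : ℝ≥0∞) * Sg H j)
    (ENNReal.mul_ne_top (ENNReal.natCast_ne_top _) (by simpa using Growthc_ne_top hf j))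
    (ENNReal.coe_pos.2 hε) d] with N h1 h3
  obtain ⟨N, rfl⟩ : ∃ M, N = M + 1 := ⟨N - 1, by omega⟩
  refine le_trans ?_ (add_le_add le_rfl h3)
  have h0 : ((N + 1 : ℕ) : ℝ≥0∞) ^ (d + 1) ≠ 0 :=
    pow_ne_zero _ (Nat.cast_ne_zero.2 (Nat.succ_ne_zero N))
  have ht : ((N + 1 : ℕ) : ℝ≥0∞) ^ (d + 1) ≠ ⊤ := ENNReal.pow_ne_top (ENNReal.natCast_ne_top _)
  rw [gr, ENNReal.div_le_iff h0 ht, add_mul, ENNReal.div_mul_cancel h0 ht]
  exact key N (by omega)

theorem Sg_ne_top (hf : ∀ N, H N ≠ ⊤) (N : ℕ) : Sg H N ≠ ⊤ := by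
  exact Growthc_ne_top hf N

theorem Sg_mono (h : ∀ N, H N ≤ H' N) (N : ℕ) : Sg H N ≤ Sg H' N := by
  exact Finset.sum_le_sum fun j _ => h j

theorem Sg_iter_mono (h : ∀ N, H N ≤ H' N) (δ N : ℕ) : Sg^[δ] H N ≤ Sg^[δ] H' N := by
  induction δ generalizing N with
  | zero => exact h N
  | succ δ ih =>
    rw [Function.iterate_succ_apply', Function.iterate_succ_apply']
    exact Sg_mono ih N

theorem up_Sg_iter_le (hf : ∀ N, H N ≠ ⊤) (δ : ℕ) : up (d + δ) (Sg^[δ] H) ≤ up d H := by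
  induction δ generalizing d H with
  | zero => exact le_rfl
  | succ δ ih =>
    rw [Function.iterate_succ_apply, show d + (δ + 1) = d + 1 + δ by omega]
    exact (ih (Sg_ne_top hf)).trans (up_Sg_le hf)

/-- a real limit computes both rates (`ENNReal.tendsto_ofReal`, `Tendsto.limsup_eq`). -/
theorem up_eq_of_tendsto (hf : ∀ N, H N ≠ ⊤) {e : ℝ}
    (h : Tendsto (fun N : ℕ => (Nat.factorial d : ℝ) * ((H N).toNat : ℝ) / (N : ℝ) ^ d) atTop
      (nhds e)) : up d H = ENNReal.ofReal e ∧ 0 ≤ e := by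
  refine ⟨((ENNReal.tendsto_ofReal h).congr' ?_).limsup_eq,
    ge_of_tendsto' h fun N => by positivity⟩
  filter_upwards [eventually_ge_atTop 1] with N hN
  exact (GrowthB_gr hN (ENat.natCast_toNat (hf N)).symm).symm

/-- the final form of the core inequality: `P choose(k+d,d+1) ≤ H(k+c) + O(k^d)`. -/
theorem le_lo_of_choose {P C c : ℕ}
    (h : ∀ᶠ k in atTop, (((k + d).choose (d + 1) * P : ℕ) : ℕ∞) ≤ H (k + c) + (C * (k + 1) ^ d : ℕ)) :
    (P : ℝ≥0∞) ≤ lo (d + 1) H := by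
  calc (P : ℝ≥0∞) ≤ _ := le_lo_choose P
    _ ≤ lo (d + 1) (fun k => H (k + c) + (C * (k + 1) ^ d : ℕ)) := lo_mono h
    _ ≤ lo (d + 1) (fun k => H (k + c)) + up (d + 1) (fun k => (C * (k + 1) ^ d : ℕ)) := lo_add_le
    _ = lo (d + 1) H := by
      rw [lo_shift, up_eq_zero_of_le C (Eventually.of_forall fun _ => le_rfl), add_zero]

end Crest.Agent.R183
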