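import Crest.Agent.R183.Cube

/-! # R183 / Laur : the Laurent ring `W[π^±, s_1^±..s_n^±]`, `z_i = π e_i(s)`, monomial regions,
partitions of unity on the charts of `(P¹)ⁿ`, and the Ulrich generation lemma. -/

set_option autoImplicit false

namespace Crest.Agent.R183

abbrev Mon (n : ℕ) := ℤ × (Fin n → ℤ)

abbrev Pz (W : Type) [CommRing W] (n : ℕ) := MvPolynomial (Fin (n + 1)) W

def Lr (W : Type) [CommRing W] (n : ℕ) : Type := AddMonoidAlgebra W (Mon n)

section
variable (W : Type) [CommRing W] (n : ℕ)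

noncomputable instance : CommRing (Lr W n) := inferInstanceAs (CommRing (AddMonoidAlgebra W (Mon n)))
noncomputable instance : Algebra W (Lr W n) :=
  inferInstanceAs (Algebra W (AddMonoidAlgebra W (Mon n)))

variable {n}

noncomputable def mon (μ : Mon n) : Lr W n := AddMonoidAlgebra.single μ (1 : W)

def stp (S : Finset (Fin n)) : Mon n := (1, fun k => if k ∈ S then 1 else 0)

noncomputable def zL (i : Fin (n + 1)) : Lr W n :=
  ∑ S ∈ Finset.powersetCard i (Finset.univ : Finset (Fin n)), mon W (stp S)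

noncomputable instance : Algebra (Pz W n) (Lr W n) :=
  (MvPolynomial.aeval (zL W (n := n))).toRingHom.toAlgebra

theorem algebraMap_Lr (f : Pz W n) :
    algebraMap (Pz W n) (Lr W n) f = MvPolynomial.aeval (zL W) f := rfl

instance : IsScalarTower W (Pz W n) (Lr W n) :=
  IsScalarTower.of_algebraMap_eq fun w => by
    rw [algebraMap_Lr, MvPolynomial.algebraMap_eq, MvPolynomial.aeval_C]

variable {W}

/-- coefficient function -/
def cf (f : Lr W n) (μ : Mon n) : W := (AddMonoidAlgebra.coeff (f : AddMonoidAlgebra W (Mon n))) μ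

/-- `f` is supported in the region `R` -/
def SuppIn (f : Lr W n) (R : Set (Mon n)) : Prop := ∀ μ, cf f μ ≠ 0 → μ ∈ R

def Stab (R : Set (Mon n)) : Prop := ∀ μ ∈ R, ∀ S, μ + stp S ∈ R

def ge (t : ℤ) : Set (Mon n) := {μ | t ≤ μ.1}

theorem mon_mul (μ ν : Mon n) : mon W μ * mon W ν = mon W (μ + ν) := by
  exact (AddMonoidAlgebra.single_mul_single μ ν (1 : W) 1).trans (by rw [one_mul]; rfl)

theorem mon_zero : mon W (0 : Mon n) = 1 := rfl

theorem zL_zero : zL W (0 : Fin (n + 1)) = mon W ((1, 0) : Mon n) := by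
  have e : stp (∅ : Finset (Fin n)) = ((1, 0) : Mon n) := by
    simp [stp]
    rfl
  simp [zL, e]

theorem suppIn_iff_mem_span (f : Lr W n) (R : Set (Mon n)) :
    SuppIn f R ↔ f ∈ Submodule.span W (mon W '' R) := by
  have h := AddMonoidAlgebra.supported_eq_span_single (R := W) (s := R)
  change _ ↔ (f : AddMonoidAlgebra W (Mon n)) ∈
    Submodule.span W ((fun m => AddMonoidAlgebra.single m (1 : W)) '' R)
  rw [← h]
  exact ⟨fun h μ hμ => h μ (Finsupp.mem_support_iff.1 hμ),
    fun h μ hμ => h (Finsupp.mem_support_iff.2 hμ)⟩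

theorem SuppIn.mul {f g : Lr W n} {R R' R'' : Set (Mon n)} (hf : SuppIn f R) (hg : SuppIn g R')
    (h : ∀ μ ∈ R, ∀ ν ∈ R', μ + ν ∈ R'') : SuppIn (f * g) R'' := by
  rw [suppIn_iff_mem_span] at hf hg ⊢
  have h1 := Submodule.mul_mem_mul hf hg
  rw [Submodule.span_mul_span] at h1
  refine Submodule.span_mono ?_ h1
  rintro _ ⟨_, ⟨μ, hμ, rfl⟩, _, ⟨ν, hν, rfl⟩, rfl⟩
  exact ⟨μ + ν, h μ hμ ν hν, (mon_mul μ ν).symm⟩

theorem laur_suppIn_mon {μ : Mon n} {R : Set (Mon n)} (h : μ ∈ R) : SuppIn (mon W μ) R :=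
  (suppIn_iff_mem_span _ _).2 (Submodule.subset_span ⟨μ, h, rfl⟩)

theorem laur_suppIn_zero (R : Set (Mon n)) : SuppIn (0 : Lr W n) R :=
  (suppIn_iff_mem_span _ _).2 (Submodule.zero_mem _)

theorem SuppIn.laur_add {f g : Lr W n} {R : Set (Mon n)} (hf : SuppIn f R) (hg : SuppIn g R) :
    SuppIn (f + g) R :=
  (suppIn_iff_mem_span _ _).2 (Submodule.add_mem _ ((suppIn_iff_mem_span _ _).1 hf)
    ((suppIn_iff_mem_span _ _).1 hg))

theorem SuppIn.laur_smul {f : Lr W n} {R : Set (Mon n)} (hf : SuppIn f R) (w : W) :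
    SuppIn (w • f) R :=
  (suppIn_iff_mem_span _ _).2 (Submodule.smul_mem _ w ((suppIn_iff_mem_span _ _).1 hf))

theorem laur_suppIn_zL (i : Fin (n + 1)) : SuppIn (zL W i) (Set.range stp) :=
  (suppIn_iff_mem_span _ _).2 (Submodule.sum_mem _ fun S _ =>
    Submodule.subset_span ⟨stp S, ⟨S, rfl⟩, rfl⟩)

theorem laur_X_smul (i : Fin (n + 1)) (f : Lr W n) :
    (MvPolynomial.X i : Pz W n) • f = f * zL W i := by
  rw [Algebra.smul_def, algebraMap_Lr, MvPolynomial.aeval_X, mul_comm]

theorem laur_C_smul (w : W) (f : Lr W n) : (MvPolynomial.C w : Pz W n) • f = w • f := by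
  rw [← MvPolynomial.algebraMap_eq, algebraMap_smul]

theorem SuppIn.laur_psmul {R : Set (Mon n)} (hR : Stab R) (b : Pz W n) {f : Lr W n}
    (hf : SuppIn f R) : SuppIn (b • f) R := by
  induction b using MvPolynomial.induction_on generalizing f with
  | C w => rw [laur_C_smul]; exact hf.laur_smul w
  | add p q hp hq => rw [add_smul]; exact (hp hf).laur_add (hq hf)
  | mul_X p i hp =>
    rw [mul_smul, laur_X_smul]
    refine hp (hf.mul (laur_suppIn_zL i) ?_)
    rintro μ hμ _ ⟨S, rfl⟩
    exact hR μ hμ S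

theorem Stab.inter {R R' : Set (Mon n)} (h : Stab R) (h' : Stab R') : Stab (R ∩ R') :=
  fun μ hμ S => ⟨h μ hμ.1 S, h' μ hμ.2 S⟩

theorem Stab.union {R R' : Set (Mon n)} (h : Stab R) (h' : Stab R') : Stab (R ∪ R') :=
  fun μ hμ S => hμ.elim (fun a => Or.inl (h μ a S)) (fun a => Or.inr (h' μ a S))

theorem stab_ge (t : ℤ) : Stab (ge t : Set (Mon n)) := by
  intro μ hμ S
  have h : t ≤ μ.1 := hμ
  show t ≤ μ.1 + 1
  omega

variable (W) in
noncomputable def reg (R : Set (Mon n)) : Submodule (Pz W n) (Lr W n) :=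
  Submodule.span (Pz W n) (mon W '' R)

theorem mem_reg {R : Set (Mon n)} (hR : Stab R) (f : Lr W n) : f ∈ reg W R ↔ SuppIn f R := by
  constructor
  · intro hf
    induction hf using Submodule.span_induction with
    | mem x hx =>
      obtain ⟨μ, hμ, rfl⟩ := hx
      exact laur_suppIn_mon hμ
    | zero => exact laur_suppIn_zero R
    | add x y _ _ hx hy => exact hx.laur_add hy
    | smul b x _ hx => exact hx.laur_psmul hR b
  · intro hf
    exact Submodule.span_subset_span W (Pz W n) _ ((suppIn_iff_mem_span _ _).1 hf)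

theorem laur_smul_mem_reg_one {R : Set (Mon n)} (hR : Stab R) {t : ℤ} (ht : R ⊆ ge t) {b : Pz W n}
    (hb : b ∈ Ideal.span (Set.range (MvPolynomial.X : Fin (n + 1) → Pz W n))) {f : Lr W n}
    (hf : f ∈ reg W R) : b • f ∈ reg W (R ∩ ge (t + 1)) := by
  induction hb using Submodule.span_induction with
  | mem x hx =>
    obtain ⟨i, rfl⟩ := hx
    rw [mem_reg (hR.inter (stab_ge _)), laur_X_smul]
    refine ((mem_reg hR f).1 hf).mul (laur_suppIn_zL i) ?_
    rintro μ hμ _ ⟨S, rfl⟩
    refine ⟨hR μ hμ S, ?_⟩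
    have h : t ≤ μ.1 := ht hμ
    show t + 1 ≤ μ.1 + 1
    omega
  | zero => rw [zero_smul]; exact Submodule.zero_mem _
  | add x y _ _ hx hy => rw [add_smul]; exact Submodule.add_mem _ hx hy
  | smul c x _ hx => rw [smul_eq_mul, mul_smul]; exact Submodule.smul_mem _ c hx

/-- `(X)^r` raises the `π`-degree by `r`. -/
theorem smul_mem_reg {R : Set (Mon n)} (hR : Stab R) {t : ℤ} (ht : R ⊆ ge t) {r : ℕ} {b : Pz W n}
    (hb : b ∈ Ideal.span (Set.range (MvPolynomial.X : Fin (n + 1) → Pz W n)) ^ r) {f : Lr W n}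
    (hf : f ∈ reg W R) : b • f ∈ reg W (R ∩ ge (t + r)) := by
  induction r generalizing b with
  | zero =>
    have e : R ∩ ge (t + (0 : ℕ)) = R := by
      rw [Nat.cast_zero, add_zero]
      exact Set.inter_eq_left.2 ht
    rw [e]
    exact Submodule.smul_mem _ b hf
  | succ r ih =>
    rw [pow_succ'] at hb
    refine Submodule.mul_induction_on hb (fun p hp q hq => ?_) fun x y hx hy => ?_
    · rw [mul_smul]
      have h1 := laur_smul_mem_reg_one (hR.inter (stab_ge _)) Set.inter_subset_right hp (ih hq)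
      refine Submodule.span_mono (Set.image_mono ?_) h1
      rintro μ ⟨⟨h2, -⟩, h3⟩
      refine ⟨h2, ?_⟩
      have h4 : t + r + 1 ≤ μ.1 := h3
      show t + (r + 1 : ℕ) ≤ μ.1
      omega
    · rw [add_smul]
      exact Submodule.add_mem _ hx hy

theorem laur_sub_C_mem (b : Pz W n) : b - MvPolynomial.C (MvPolynomial.constantCoeff b) ∈
    Ideal.span (Set.range (MvPolynomial.X : Fin (n + 1) → Pz W n)) := by
  induction b using MvPolynomial.induction_on with
  | C w => simp
  | add p q hp hq =>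
    rw [map_add, map_add, add_sub_add_comm]
    exact Ideal.add_mem _ hp hq
  | mul_X p i _ =>
    rw [map_mul, MvPolynomial.constantCoeff_X, mul_zero, map_zero, sub_zero]
    exact Ideal.mul_mem_left _ _ (Ideal.subset_span ⟨i, rfl⟩)

/-- the coefficient of `μ` in `b • mon μ` is the constant coefficient of `b`. -/
theorem cf_smul_mon (b : Pz W n) (μ : Mon n) :
    cf (b • mon W μ) μ = MvPolynomial.constantCoeff b := by
  have h1 := laur_smul_mem_reg_one (stab_ge μ.1) subset_rfl (laur_sub_C_mem b)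
    (f := mon W μ) (Submodule.subset_span ⟨μ, le_refl μ.1, rfl⟩)
  rw [mem_reg ((stab_ge _).inter (stab_ge _))] at h1
  have h2 : cf ((b - MvPolynomial.C (MvPolynomial.constantCoeff b)) • mon W μ) μ = 0 := by
    by_contra h
    have h3 : μ.1 + 1 ≤ μ.1 := (h1 μ h).2
    omega
  have h3 : b • mon W μ = (b - MvPolynomial.C (MvPolynomial.constantCoeff b)) • mon W μ +
      MvPolynomial.constantCoeff b • mon W μ := by
    rw [← laur_C_smul, ← add_smul, sub_add_cancel]
  have h4 : ∀ f g : Lr W n, cf (f + g) μ = cf f μ + cf g μ := fun _ _ => rfl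
  have h5 : ∀ w : W, cf (w • mon W μ) μ = w := fun w => by
    show w • (Finsupp.single μ (1 : W)) μ = w
    rw [Finsupp.single_eq_same, smul_eq_mul, mul_one]
  rw [h3, h4, h2, h5, zero_add]

def chartR (I : V n) (M : ℕ) : Set (Mon n) :=
  {μ | μ.1 = -(M : ℤ) ∧ ∀ k, (I k = false → 0 ≤ μ.2 k) ∧ (I k = true → μ.2 k ≤ -(M : ℤ))}

theorem laur_prod_mon {ι : Type} (s : Finset ι) (f : ι → Mon n) :
    ∏ k ∈ s, mon W (f k) = mon W (∑ k ∈ s, f k) := by
  classical
  induction s using Finset.induction_on with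
  | empty => rfl
  | insert a s ha ih => rw [Finset.prod_insert ha, Finset.sum_insert ha, ih, mon_mul]

theorem laur_mon_pow (μ : Mon n) (M : ℕ) : mon W μ ^ M = mon W (M • μ) := by
  induction M with
  | zero => rw [pow_zero, zero_smul]; rfl
  | succ M ih => rw [pow_succ, ih, mon_mul, succ_nsmul]

/-- the coefficients of a product of unimodular linear polynomials are unimodular -/
theorem laur_span_top {A : Type} [CommRing A] (α β : Fin n → A) (h : ∀ k, α k = 1 ∨ β k = 1) :
    Ideal.span (Set.range fun i : Fin (n + 1) =>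
      ∑ S ∈ Finset.powersetCard i (Finset.univ : Finset (Fin n)),
        (∏ k ∈ S, α k) * ∏ k ∈ Finset.univ \ S, β k) = ⊤ := by
  by_contra hne
  obtain ⟨m, hm, hle⟩ := Ideal.exists_le_maximal _ hne
  have := hm.isPrime
  have h0 : ∀ i ∈ Finset.range (n + 1), ∑ S ∈ Finset.powersetCard i (Finset.univ : Finset (Fin n)),
      (∏ k ∈ S, Ideal.Quotient.mk m (α k)) * ∏ k ∈ Finset.univ \ S, Ideal.Quotient.mk m (β k) = 0 := by
    intro i hi
    have h1 := Ideal.Quotient.eq_zero_iff_mem.2
      (hle (Ideal.subset_span ⟨⟨i, Finset.mem_range.1 hi⟩, rfl⟩))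
    simpa only [map_sum, map_mul, map_prod] using h1
  have h1 : ∏ k, (Polynomial.C (Ideal.Quotient.mk m (α k)) * Polynomial.X +
      Polynomial.C (Ideal.Quotient.mk m (β k))) = 0 := by
    rw [Finset.prod_add, Finset.sum_powerset, Finset.card_univ, Fintype.card_fin]
    refine Finset.sum_eq_zero fun i hi => ?_
    have h2 := congrArg (fun a => Polynomial.C a * Polynomial.X ^ i) (h0 i hi)
    simp only [map_sum, map_mul, map_prod, map_zero, zero_mul, Finset.sum_mul] at h2
    rw [← h2]
    refine Finset.sum_congr rfl fun S hS => ?_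
    rw [Finset.prod_mul_distrib, Finset.prod_const, (Finset.mem_powersetCard.1 hS).2]
    ring
  obtain ⟨k, -, hk⟩ := Finset.prod_eq_zero_iff.1 h1
  rcases h k with h2 | h2
  · have h3 := congrArg (fun p => Polynomial.coeff p 1) hk
    simp [h2, Polynomial.coeff_C] at h3
  · have h3 := congrArg (fun p => Polynomial.coeff p 0) hk
    simp [h2] at h3

/-- Let `R_I` be the subring of elements supported in `chartR I 0`, `ε = mon (-1, -1_I)`.  The
elements `zL i * ε ∈ R_I` are the coefficients of `∏_{k∉I} (1 + s_k T) * ∏_{k∈I} (s_k⁻¹ + T)`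
(`Finset.prod_one_add`/`Multiset.prod_X_add_C_coeff`-type expansion of `∏ (1 + s_k T)`), they generate
the unit ideal of `R_I` (modulo a maximal ideal every factor is a nonzero polynomial over a field;
if `W` is trivial everything is trivial), so do their `M`-th powers; take `c i = c' i * ε^M`. -/
theorem chart_partition (I : V n) (M : ℕ) : ∃ c : Fin (n + 1) → Lr W n,
    ∑ i, zL W i ^ M * c i = 1 ∧ ∀ i, SuppIn (c i) (chartR I M) := by
  let a : Fin n → Mon n := fun k => (0, Pi.single k (if I k = true then -1 else 1))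
  let φ : MvPolynomial (Fin n) W →ₐ[W] Lr W n := MvPolynomial.aeval fun k => mon W (a k)
  let α : Fin n → MvPolynomial (Fin n) W := fun k => if I k = true then 1 else MvPolynomial.X k
  let β : Fin n → MvPolynomial (Fin n) W := fun k => if I k = true then MvPolynomial.X k else 1
  let ε : Mon n := (-1, fun k => if I k = true then -1 else 0)
  have hα : ∀ k, φ (α k) = mon W (0, Pi.single k (if I k = true then 0 else 1)) := by
    intro k
    by_cases h : I k = true
    · simp only [α, if_pos h, map_one, Pi.single_zero]; rfl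
    · simp only [α, φ, a, if_neg h, MvPolynomial.aeval_X]
  have hβ : ∀ k, φ (β k) = mon W (0, Pi.single k (if I k = true then -1 else 0)) := by
    intro k
    by_cases h : I k = true
    · simp only [β, φ, a, if_pos h, MvPolynomial.aeval_X]
    · simp only [β, if_neg h, map_one, Pi.single_zero]; rfl
  have hq : ∀ i : Fin (n + 1), φ (∑ S ∈ Finset.powersetCard i (Finset.univ : Finset (Fin n)),
      (∏ k ∈ S, α k) * ∏ k ∈ Finset.univ \ S, β k) = zL W i * mon W ε := by
    intro i
    rw [map_sum, zL, Finset.sum_mul]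
    refine Finset.sum_congr rfl fun S _ => ?_
    rw [map_mul, map_prod, map_prod]
    simp only [hα, hβ, laur_prod_mon, mon_mul]
    refine congrArg (mon W) (Prod.ext ?_ (funext fun j => ?_))
    · simp [Prod.fst_sum, stp, ε]
    · simp only [Prod.snd_add, Prod.snd_sum, Pi.add_apply, Finset.sum_apply, Pi.single_apply,
        Finset.sum_ite_eq, Finset.mem_sdiff, Finset.mem_univ, true_and, stp, ε]
      by_cases h1 : j ∈ S <;> by_cases h2 : I j = true <;> simp [h1, h2]
  have hφ : ∀ p, SuppIn (φ p) (chartR I 0) := by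
    intro p
    induction p using MvPolynomial.induction_on with
    | C w =>
      rw [MvPolynomial.aeval_C, Algebra.algebraMap_eq_smul_one, ← mon_zero]
      exact (laur_suppIn_mon (by simp [chartR])).laur_smul w
    | add p q hp hq => rw [map_add]; exact hp.laur_add hq
    | mul_X p k hp =>
      rw [map_mul, MvPolynomial.aeval_X]
      refine hp.mul (laur_suppIn_mon (Set.mem_singleton (a k))) ?_
      rintro μ ⟨h1, h2⟩ _ rfl
      refine ⟨by simpa [a] using h1, fun j => ?_⟩
      obtain ⟨h3, h4⟩ := h2 j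
      simp only [a, Prod.snd_add, Pi.add_apply, Pi.single_apply]
      by_cases h5 : j = k
      · subst h5
        refine ⟨fun h => ?_, fun h => ?_⟩
        · have := h3 h
          simp only [h, if_true, Bool.false_eq_true, if_false]
          omega
        · have := h4 h
          simp only [h, if_true]
          omega
      · simp only [if_neg h5, add_zero]
        exact ⟨h3, h4⟩
  have h1 := Ideal.span_pow_eq_top _ (laur_span_top α β fun k => by
    by_cases h : I k = true
    · exact Or.inl (if_pos h)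
    · exact Or.inr (if_neg h)) M
  rw [← Set.range_comp, Ideal.eq_top_iff_one, Ideal.mem_span_range_iff_exists_fun] at h1
  obtain ⟨c, hc⟩ := h1
  refine ⟨fun i => φ (c i) * mon W (M • ε), ?_, fun i => ?_⟩
  · have h2 := congrArg φ hc
    rw [map_sum, map_one] at h2
    rw [← h2]
    refine Finset.sum_congr rfl fun i _ => ?_
    rw [map_mul, Function.comp_apply, map_pow, hq, ← laur_mon_pow]
    ring
  · refine (hφ _).mul (laur_suppIn_mon (Set.mem_singleton _)) ?_
    rintro μ ⟨h1, h2⟩ _ rfl
    refine ⟨by simpa [ε] using h1, fun j => ?_⟩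
    obtain ⟨h3, h4⟩ := h2 j
    refine ⟨fun h => ?_, fun h => ?_⟩
    · simpa [ε, h] using h3 h
    · simpa [ε, h] using h4 h

end

/-! ### Ulrich generation -/

/-- `Vb s c r` = `W`-span of the monomials `∏_{k<r} s k ^ b k`, `b k ≤ c k`. -/
noncomputable def Vb (W : Type) [CommRing W] {A : Type} [CommRing A] [Algebra W A] (s : ℕ → A)
    (c : ℕ → ℕ) (r : ℕ) : Submodule W A :=
  Submodule.span W {x | ∃ b : ℕ → ℕ, (∀ k, b k ≤ c k) ∧ x = ∏ k ∈ Finset.range r, s k ^ b k}

noncomputable def es {A : Type} [CommRing A] (s : ℕ → A) (r i : ℕ) : A :=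
  ∑ S ∈ Finset.powersetCard i (Finset.range r), ∏ k ∈ S, s k

theorem es_zero_b {A : Type} [CommRing A] (s : ℕ → A) (r : ℕ) : es s r 0 = 1 := by
  simp [es]

theorem es_eq_zero_b {A : Type} [CommRing A] (s : ℕ → A) {r i : ℕ} (h : r < i) : es s r i = 0 := by
  rw [es, Finset.powersetCard_eq_empty.2 (by simpa using h), Finset.sum_empty]

theorem es_succ_b {A : Type} [CommRing A] (s : ℕ → A) (r i : ℕ) :
    es s (r + 1) (i + 1) = es s r (i + 1) + s r * es s r i := by
  have hr : r ∉ Finset.range r := Finset.notMem_range_self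
  rw [es, Finset.range_add_one, Finset.powersetCard_succ_insert hr, Finset.sum_union, Finset.sum_image, es, es,
    Finset.mul_sum]
  · congr 1
    refine Finset.sum_congr rfl fun S hS => Finset.prod_insert fun h => hr ?_
    exact (Finset.mem_powersetCard.1 hS).1 h
  · intro S hS T hT h
    have hS' : r ∉ S := fun h => hr ((Finset.mem_powersetCard.1 (Finset.mem_coe.1 hS)).1 h)
    have hT' : r ∉ T := fun h => hr ((Finset.mem_powersetCard.1 (Finset.mem_coe.1 hT)).1 h)
    rw [← Finset.erase_insert hS', ← Finset.erase_insert hT', h]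
  · rw [Finset.disjoint_left]
    intro S hS hS'
    obtain ⟨T, -, rfl⟩ := Finset.mem_image.1 hS'
    exact hr ((Finset.mem_powersetCard.1 hS).1 (Finset.mem_insert_self _ _))

theorem pow_mul_mem_Vb_b (W : Type) [CommRing W] {A : Type} [CommRing A] [Algebra W A] (s : ℕ → A)
    (c : ℕ → ℕ) (r j : ℕ) (hj : j ≤ c r) {f : A} (hf : f ∈ Vb W s c r) :
    s r ^ j * f ∈ Vb W s c (r + 1) := by
  have : Vb W s c r ≤ (Vb W s c (r + 1)).comap (LinearMap.mulLeft W (s r ^ j)) := by
    refine Submodule.span_le.2 ?_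
    rintro x ⟨b, hb, rfl⟩
    refine Submodule.subset_span ⟨Function.update b r j, fun k => ?_, ?_⟩
    · by_cases h : k = r
      · subst h; simpa using hj
      · rw [Function.update_of_ne h]; exact hb k
    · rw [Finset.prod_range_succ, Function.update_self, LinearMap.mulLeft_apply, mul_comm]
      congr 1
      refine Finset.prod_congr rfl fun k hk => ?_
      rw [Function.update_of_ne (Finset.mem_range.1 hk).ne]
  exact this hf

/-- Induction on `r`.  `es (r+1) i = es r i + s r * es r (i-1)` (`Finset.powersetCard_succ_insert`).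
Let `Wm` be the right side for `r+1`, `u i j f = es r i * s r ^ j * f` for `f ∈ Vb c r`.  Modulo `Wm`,
for `j ≤ c r`: `u 0 j f ≡ 0`, `u (i+1) j f ≡ - u i (j+1) f`; and `u i j f = 0` for `i > r`.  So
`u i j f ∈ Wm` if `i + j ≤ c r` (decrease `i`), and if `i + j ≥ c r + 1 ≥ r + 1`, `j ≤ c r + 1`
(decrease `j` down to `0`, where `i ≥ r+1`).  Then use the induction hypothesis. -/
theorem ulrich_abs (W : Type) [CommRing W] {A : Type} [CommRing A] [Algebra W A] (s : ℕ → A)
    (c : ℕ → ℕ) (r : ℕ) (hc : ∀ k, k < r → k ≤ c k) :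
    Vb W s (fun k => c k + 1) r ≤
      ⨆ i ∈ Finset.range (r + 1), (Vb W s c r).map (LinearMap.mulLeft W (es s r i)) := by
  induction r with
  | zero =>
    refine Submodule.span_le.2 ?_
    rintro x ⟨b, -, rfl⟩
    refine Submodule.mem_iSup_of_mem 0 (Submodule.mem_iSup_of_mem (by simp) ⟨1, ?_, ?_⟩)
    · exact Submodule.subset_span ⟨fun _ => 0, fun _ => Nat.zero_le _, by simp⟩
    · simp [es_zero_b]
  | succ r ih =>
    have ih' := ih fun k hk => hc k (Nat.lt_succ_of_lt hk)
    have hcr : r ≤ c r := hc r (Nat.lt_succ_self r)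
    set Wm := ⨆ i ∈ Finset.range (r + 1 + 1),
      (Vb W s c (r + 1)).map (LinearMap.mulLeft W (es s (r + 1) i)) with hWm
    have h0 : ∀ (i : ℕ) (g : A), g ∈ Vb W s c (r + 1) → es s (r + 1) i * g ∈ Wm := by
      intro i g hg
      by_cases hi : i < r + 1 + 1
      · exact Submodule.mem_iSup_of_mem i
          (Submodule.mem_iSup_of_mem (Finset.mem_range.2 hi) ⟨g, hg, rfl⟩)
      · rw [es_eq_zero_b s (by omega), zero_mul]; exact Wm.zero_mem
    have key : ∀ f ∈ Vb W s c r, ∀ i j : ℕ, j ≤ c r + 1 → es s r i * (s r ^ j * f) ∈ Wm := by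
      intro f hf
      have h1 : ∀ j ≤ c r, es s r 0 * (s r ^ j * f) ∈ Wm := fun j hj => by
        have := h0 0 _ (pow_mul_mem_Vb_b W s c r j hj hf)
        rwa [es_zero_b, ← es_zero_b s r] at this
      have h2 : ∀ i, ∀ j ≤ c r,
          es s r (i + 1) * (s r ^ j * f) + es s r i * (s r ^ (j + 1) * f) ∈ Wm := fun i j hj => by
        have := h0 (i + 1) _ (pow_mul_mem_Vb_b W s c r j hj hf)
        rw [es_succ_b] at this
        convert this using 1
        ring
      have h3 : ∀ i j : ℕ, i + j ≤ c r → es s r i * (s r ^ j * f) ∈ Wm := by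
        intro i
        induction i with
        | zero => intro j hj; exact h1 j (by omega)
        | succ i ihi =>
          intro j hj
          exact (Wm.add_mem_iff_left (ihi (j + 1) (by omega))).1 (h2 i j (by omega))
      have h4 : ∀ j i : ℕ, j ≤ c r + 1 → c r + 1 ≤ i + j → es s r i * (s r ^ j * f) ∈ Wm := by
        intro j
        induction j with
        | zero =>
          intro i _ hi
          rw [es_eq_zero_b s (by omega), zero_mul]; exact Wm.zero_mem
        | succ j ihj =>
          intro i hj hi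
          exact (Wm.add_mem_iff_right (ihj (i + 1) (by omega) (by omega))).1 (h2 i j (by omega))
      intro i j hj
      by_cases h : i + j ≤ c r
      · exact h3 i j h
      · exact h4 j i hj (by omega)
    refine Submodule.span_le.2 ?_
    rintro x ⟨b, hb, rfl⟩
    have hx : ∏ k ∈ Finset.range r, s k ^ b k ∈ Vb W s (fun k => c k + 1) r :=
      Submodule.subset_span ⟨b, hb, rfl⟩
    have hle : (⨆ i ∈ Finset.range (r + 1), (Vb W s c r).map (LinearMap.mulLeft W (es s r i))) ≤
        Wm.comap (LinearMap.mulLeft W (s r ^ b r)) := by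
      refine iSup₂_le fun i _ => ?_
      rintro _ ⟨f, hf, rfl⟩
      have := key f hf i (b r) (hb r)
      rw [Submodule.mem_comap, LinearMap.mulLeft_apply, LinearMap.mulLeft_apply, mul_left_comm]
      exact this
    have := hle (ih' hx)
    rw [Submodule.mem_comap, LinearMap.mulLeft_apply] at this
    rw [Finset.prod_range_succ, mul_comm]
    exact this

def GG (n : ℕ) : Set (Mon n) := {μ | 0 ≤ μ.1 ∧ ∀ k : Fin n, 0 ≤ μ.2 k ∧ μ.2 k ≤ (k : ℕ) + μ.1}

noncomputable def G0 (n : ℕ) : Finset (Mon n) :=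
  (Fintype.piFinset fun k : Fin n => Finset.Icc (0 : ℤ) (k : ℕ)).image fun b => ((0 : ℤ), b)

theorem stab_GG (n : ℕ) : Stab (GG n) := by
  rintro ⟨v, b⟩ ⟨h1, h2⟩ S
  simp only at h1 h2
  refine ⟨?_, fun k => ?_⟩
  · simp only [stp, Prod.fst_add]; omega
  · have := h2 k
    simp only [stp, Prod.fst_add, Prod.snd_add, Pi.add_apply]
    split_ifs <;> omega

theorem mem_G0 {n : ℕ} {μ : Mon n} : μ ∈ G0 n ↔ μ ∈ GG n ∧ μ.1 = 0 := by
  obtain ⟨v, b⟩ := μ
  simp only [G0, GG, Finset.mem_image, Fintype.mem_piFinset, Finset.mem_Icc, Prod.mk.injEq, Set.mem_setOf_eq]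
  constructor
  · rintro ⟨b', hb', rfl, rfl⟩
    exact ⟨⟨le_rfl, fun k => by simpa using hb' k⟩, rfl⟩
  · rintro ⟨⟨-, h⟩, rfl⟩
    exact ⟨b, fun k => by simpa using h k, rfl, rfl⟩

theorem card_box_b (n v : ℕ) :
    (Fintype.piFinset fun k : Fin n => Finset.Icc (0 : ℤ) ((k : ℕ) + (v : ℤ))).card =
      n.factorial * (v + n).choose n := by
  rw [Fintype.card_piFinset, ← Nat.ascFactorial_eq_factorial_mul_choose, Nat.ascFactorial_eq_prod_range,
    Finset.prod_range]
  refine Finset.prod_congr rfl fun k _ => ?_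
  rw [Int.card_Icc]
  omega

theorem card_G0 (n : ℕ) : (G0 n).card = n.factorial := by
  rw [G0, Finset.card_image_of_injective _ (fun a b h => (Prod.mk.inj h).2)]
  simpa using card_box_b n 0

/-- `∑_{v<t} ∏_{k<n} (k+v+1) = n! * choose (t+n) (n+1)`. -/
theorem exists_finset_GG (n t : ℕ) : ∃ s : Finset (Mon n),
    (↑s : Set (Mon n)) = GG n \ (GG n ∩ ge (t : ℤ)) ∧
      s.card = n.factorial * (t + n).choose (n + 1) := by
  classical
  refine ⟨(Finset.range t).biUnion fun v =>
    (Fintype.piFinset fun k : Fin n => Finset.Icc (0 : ℤ) ((k : ℕ) + (v : ℤ))).image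
      fun b => ((v : ℤ), b), ?_, ?_⟩
  · ext ⟨v, b⟩
    simp only [Finset.coe_biUnion, Finset.coe_range, Finset.coe_image, Set.mem_iUnion, Set.mem_image,
      Finset.mem_coe, Fintype.mem_piFinset, Finset.mem_Icc, Prod.mk.injEq, Set.mem_diff, Set.mem_inter_iff,
      GG, ge, Set.mem_setOf_eq, Set.mem_Iio, exists_prop]
    constructor
    · rintro ⟨w, hw, b', hb', rfl, rfl⟩
      exact ⟨⟨by omega, hb'⟩, fun h => by omega⟩
    · rintro ⟨⟨h0, h⟩, h'⟩
      have hv : ((v.toNat : ℕ) : ℤ) = v := Int.toNat_of_nonneg h0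
      refine ⟨v.toNat, ?_, b, by rw [hv]; exact h, hv, rfl⟩
      by_contra hc
      exact h' ⟨⟨h0, h⟩, by omega⟩
  · rw [Finset.card_biUnion]
    · have : ∀ v : ℕ, ((Fintype.piFinset fun k : Fin n => Finset.Icc (0 : ℤ) ((k : ℕ) + (v : ℤ))).image
          fun b => (((v : ℤ), b) : Mon n)).card = n.factorial * (v + n).choose n := fun v => by
        rw [Finset.card_image_of_injective _ (fun a b h => (Prod.mk.inj h).2), card_box_b]
      simp only [this]
      rw [← Finset.mul_sum]
      congr 1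
      induction t with
      | zero => simp
      | succ t ih =>
        rw [Finset.sum_range_succ, ih, show t + 1 + n = (t + n) + 1 by ring, Nat.choose_succ_succ, add_comm]
    · intro v _ w _ hvw
      rw [Function.onFun, Finset.disjoint_left]
      intro μ h1 h2
      obtain ⟨_, -, rfl⟩ := Finset.mem_image.1 h1
      obtain ⟨_, -, h⟩ := Finset.mem_image.1 h2
      exact hvw (by exact_mod_cast (Prod.mk.inj h).1.symm)

theorem mon_nsmul_b (W : Type) [CommRing W] {n : ℕ} (μ : Mon n) (j : ℕ) :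
    mon W μ ^ j = mon W (j • μ) := by
  induction j with
  | zero => rw [pow_zero, zero_smul, mon_zero]
  | succ j ih => rw [pow_succ, ih, mon_mul, succ_nsmul]

theorem mon_sum_b (W : Type) [CommRing W] {n : ℕ} {ι : Type*} (S : Finset ι) (g : ι → Mon n) :
    ∏ k ∈ S, mon W (g k) = mon W (∑ k ∈ S, g k) := by
  classical
  induction S using Finset.induction_on with
  | empty => rw [Finset.prod_empty, Finset.sum_empty, mon_zero]
  | insert a S ha ih => rw [Finset.prod_insert ha, Finset.sum_insert ha, ih, mon_mul]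

/-- the variables `s_k` -/
noncomputable def svar_b (W : Type) [CommRing W] (n : ℕ) (k : ℕ) : Lr W n :=
  if h : k < n then mon W ((0 : ℤ), Pi.single (⟨k, h⟩ : Fin n) (1 : ℤ)) else 1

theorem svar_fin_b (W : Type) [CommRing W] {n : ℕ} (k : Fin n) :
    svar_b W n k = mon W ((0 : ℤ), Pi.single k (1 : ℤ)) := by
  rw [svar_b, dif_pos k.2]

theorem prod_svar_b (W : Type) [CommRing W] (n : ℕ) (b : ℕ → ℕ) :
    ∏ k ∈ Finset.range n, svar_b W n k ^ b k = mon W ((0 : ℤ), fun k : Fin n => (b k : ℤ)) := by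
  rw [Finset.prod_range]
  simp only [svar_fin_b, mon_nsmul_b, mon_sum_b]
  congr 1
  ext k
  · simp [Prod.fst_sum]
  · simp [Prod.snd_sum, Finset.sum_apply, Pi.single_apply]

theorem zL_eq_es_b (W : Type) [CommRing W] {n : ℕ} (i : Fin (n + 1)) :
    zL W i = mon W ((1, 0) : Mon n) * es (svar_b W n) n i := by
  have hr : Finset.range n = (Finset.univ : Finset (Fin n)).map Fin.valEmbedding := by
    rw [Fin.map_valEmbedding_univ, Nat.Iio_eq_range]
  rw [zL, es, hr, Finset.powersetCard_map, Finset.sum_map, Finset.mul_sum]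
  refine Finset.sum_congr rfl fun S _ => ?_
  rw [show (Finset.mapEmbedding Fin.valEmbedding).toEmbedding S = S.map Fin.valEmbedding from rfl,
    Finset.prod_map]
  simp only [Fin.valEmbedding_apply, svar_fin_b, mon_sum_b, mon_mul]
  congr 1
  ext k
  · simp [stp, Prod.fst_sum]
  · simp [stp, Prod.snd_sum, Finset.sum_apply, Pi.single_apply]

/-- induction on `μ.1` with `ulrich_abs` (`s k = mon (0, e_k)` for `k < n`, `c k = k + v`,
`zL i = π * es s n i`). -/
theorem reg_GG_le (W : Type) [CommRing W] (n : ℕ) : reg W (GG n) ≤ reg W (↑(G0 n) : Set (Mon n)) := by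
  have main : ∀ v : ℕ, Vb W (svar_b W n) (fun k => k + v) n ≤
      ((reg W (↑(G0 n) : Set (Mon n))).restrictScalars W).comap
        (LinearMap.mulLeft W (mon W (((v : ℤ), 0) : Mon n))) := by
    intro v
    induction v with
    | zero =>
      refine Submodule.span_le.2 ?_
      rintro _ ⟨b, hb, rfl⟩
      rw [SetLike.mem_coe, Submodule.mem_comap, Submodule.restrictScalars_mem, LinearMap.mulLeft_apply,
        prod_svar_b, mon_mul]
      refine Submodule.subset_span ⟨_, ?_, rfl⟩
      rw [Finset.mem_coe, mem_G0]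
      refine ⟨⟨by simp, fun k => ?_⟩, by simp⟩
      have : b k ≤ k + 0 := hb k
      simp only [Prod.mk_add_mk, Pi.add_apply, Pi.zero_apply]
      omega
    | succ v ih =>
      refine (ulrich_abs W (svar_b W n) (fun k => k + v) n fun k _ => Nat.le_add_right k v).trans
        (iSup₂_le fun i hi => ?_)
      rintro _ ⟨f, hf, rfl⟩
      have h1 := ih hf
      rw [Submodule.mem_comap, Submodule.restrictScalars_mem, LinearMap.mulLeft_apply] at h1 ⊢
      have h2 := (reg W (↑(G0 n) : Set (Mon n))).smul_mem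
        (MvPolynomial.X (⟨i, Finset.mem_range.1 hi⟩ : Fin (n + 1)) : Pz W n) h1
      rw [Algebra.smul_def, algebraMap_Lr, MvPolynomial.aeval_X, zL_eq_es_b] at h2
      convert h2 using 1
      rw [LinearMap.mulLeft_apply, show ((((v + 1 : ℕ) : ℤ), 0) : Mon n) = (1, 0) + ((v : ℤ), 0) by
        ext <;> simp [add_comm], ← mon_mul]
      ring
  refine Submodule.span_le.2 ?_
  rintro _ ⟨⟨v, b⟩, ⟨h0, h⟩, rfl⟩
  simp only at h0 h
  have hv : ((v.toNat : ℕ) : ℤ) = v := Int.toNat_of_nonneg h0
  have hx : ∏ k ∈ Finset.range n, svar_b W n k ^ (if hk : k < n then (b ⟨k, hk⟩).toNat else 0) ∈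
      Vb W (svar_b W n) (fun k => k + v.toNat) n := by
    refine Submodule.subset_span ⟨_, fun k => ?_, rfl⟩
    change _ ≤ k + v.toNat
    split_ifs with hk
    · have := h ⟨k, hk⟩
      simp only at this
      omega
    · exact Nat.zero_le _
  have h1 := main v.toNat hx
  rw [Submodule.mem_comap, Submodule.restrictScalars_mem, LinearMap.mulLeft_apply, prod_svar_b, mon_mul] at h1
  have he : ((((v.toNat : ℕ) : ℤ), 0) : Mon n) + ((0 : ℤ), fun k : Fin n =>
      (((if hk : (k : ℕ) < n then (b ⟨k, hk⟩).toNat else 0 : ℕ)) : ℤ)) = (v, b) := by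
    ext k
    · simp [h0]
    · simp [(h k).1]
  rw [he] at h1
  exact h1

end Crest.Agent.R183
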