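import Mathlib

/-! # R183 / Len : relative lengths of submodules and the error functional `kap`.
`len A A'` = length of the image of `A` in `X ⧸ A'` (= length of `A/(A ⊓ A')`; no inclusion needed).
`kap θ A A'` = length of `(A/A')/θ`.  `cl I` = colength of an ideal. -/

set_option autoImplicit false
open Pointwise

namespace Crest.Agent.R183

section
variable {B : Type*} [CommRing B] {X : Type*} [AddCommGroup X] [Module B X]
  {Y : Type*} [AddCommGroup Y] [Module B Y]

noncomputable def len (A A' : Submodule B X) : ℕ∞ := Module.length B (A.map A'.mkQ)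

noncomputable def kap (θ : B) (A A' : Submodule B X) : ℕ∞ := len A (A' ⊔ θ • A)

/-- "small": finite length and `θ`-cotorsion at most `c`. -/
def Sm (θ : B) (c : ℕ∞) (A A' : Submodule B X) : Prop := len A A' ≠ ⊤ ∧ kap θ A A' ≤ c

theorem length_map_eq (g : X →ₗ[B] Y) (A : Submodule B X) :
    Module.length B (A.map g) = Module.length B (A ⧸ (LinearMap.ker g).comap A.subtype) := by
  rw [← LinearMap.ker_comp, (LinearMap.quotKerEquivRange (g ∘ₗ A.subtype)).length_eq, LinearMap.range_comp,
    Submodule.range_subtype]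

theorem len_eq_quot (A A' : Submodule B X) : len A A' = Module.length B (A ⧸ A'.comap A.subtype) := by
  rw [len, length_map_eq, Submodule.ker_mkQ]

theorem length_quot_split {N' N'' : Submodule B X} (h : N'' ≤ N') :
    Module.length B (X ⧸ N'') = Module.length B (X ⧸ N') + len N' N'' := by
  rw [add_comm, ← (Submodule.quotientQuotientEquivQuotient N'' N' h).length_eq]
  exact Module.length_eq_add_of_exact (N'.map N''.mkQ).subtype (N'.map N''.mkQ).mkQ (Submodule.subtype_injective _)
    (Submodule.mkQ_surjective _) (LinearMap.exact_subtype_mkQ _)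

/-- `A.map f` modulo `A'` is `A` modulo `comap f A'` (both are the range of `A → Y ⧸ A'`;
use `LinearEquiv.length_eq` with `LinearMap.quotKerEquivRange`-type isos, or show both equal
`Module.length B (A ⧸ (A'.comap f).comap A.subtype)`). -/
theorem len_map (f : X →ₗ[B] Y) (A : Submodule B X) (A' : Submodule B Y) :
    len (A.map f) A' = len A (A'.comap f) := by
  rw [len, ← Submodule.map_comp, length_map_eq, len_eq_quot, LinearMap.ker_comp, Submodule.ker_mkQ]

theorem len_mono {A₁ A₂ A₁' A₂' : Submodule B X} (h : A₁ ≤ A₂) (h' : A₂' ≤ A₁') :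
    len A₁ A₁' ≤ len A₂ A₂' := by
  have h1 : len A₁ A₁' ≤ len A₂ A₁' :=
    Module.length_le_of_injective (Submodule.inclusion (Submodule.map_mono h)) (Submodule.inclusion_injective _)
  refine h1.trans ?_
  rw [len_eq_quot, len_eq_quot, length_quot_split (Submodule.comap_mono (f := A₂.subtype) h')]
  exact le_self_add

theorem len_sup_left (A A' : Submodule B X) : len (A ⊔ A') A' = len A A' := by
  rw [len, len, Submodule.map_sup, Submodule.mkQ_map_self, sup_bot_eq]

theorem len_inf_right (A A' : Submodule B X) : len A (A ⊓ A') = len A A' := by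
  rw [len_eq_quot, len_eq_quot, Submodule.comap_inf, Submodule.comap_subtype_self, top_inf_eq]

theorem len_eq_zero_iff {A A' : Submodule B X} : len A A' = 0 ↔ A ≤ A' := by
  rw [len, Module.length_eq_zero_iff, Submodule.subsingleton_iff_eq_bot, ← le_bot_iff, Submodule.map_le_iff_le_comap,
    Submodule.comap_bot, Submodule.ker_mkQ]

theorem len_top (A' : Submodule B X) : len ⊤ A' = Module.length B (X ⧸ A') := by
  rw [len, Submodule.map_top, Submodule.range_mkQ, Submodule.topEquiv.length_eq]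

theorem len_bot (A : Submodule B X) : len A ⊥ = Module.length B A := by
  rw [len_eq_quot, Submodule.comap_bot, Submodule.ker_subtype, (Submodule.quotEquivOfEqBot _ rfl).length_eq]

/-- `Module.length_eq_add_of_exact` for `(Z ⊓ A')/A'' → Z/A'' → Z/A'`. -/
theorem len_split (Z : Submodule B X) {A' A'' : Submodule B X} (h : A'' ≤ A') :
    len Z A'' = len Z A' + len (Z ⊓ A') A'' := by
  rw [← Submodule.map_comap_subtype, len_map, len_eq_quot Z A'', len_eq_quot Z A']
  exact length_quot_split (Submodule.comap_mono h)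

theorem len_add {A A' A'' : Submodule B X} (h' : A'' ≤ A') (h : A' ≤ A) :
    len A A'' = len A A' + len A' A'' := by
  rw [len_split A h', inf_eq_right.2 h]

/-- triangle inequality, no hypotheses (pass to `A ⊔ A' ⊔ A'' ≥ A' ⊔ A'' ≥ A''`). -/
theorem len_le_add (A A' A'' : Submodule B X) : len A A'' ≤ len A A' + len A' A'' := by
  calc len A A'' ≤ len (A ⊔ (A' ⊔ A'')) A'' := len_mono le_sup_left le_rfl
    _ = len (A ⊔ (A' ⊔ A'')) (A' ⊔ A'') + len (A' ⊔ A'') A'' := len_add le_sup_right le_sup_right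
    _ = len A (A' ⊔ A'') + len A' A'' := by rw [len_sup_left, len_sup_left]
    _ ≤ _ := add_le_add_left (len_mono le_rfl le_sup_left) _

theorem len_sup_le (A₁ A₂ A' : Submodule B X) : len (A₁ ⊔ A₂) A' ≤ len A₁ A' + len A₂ A' := by
  calc len (A₁ ⊔ A₂) A' ≤ len (A₁ ⊔ (A₂ ⊔ A')) (A₂ ⊔ A') + len (A₂ ⊔ A') A' :=
        (len_mono (sup_le_sup_left le_sup_left _) le_rfl).trans (len_le_add _ _ _)
    _ = len A₁ (A₂ ⊔ A') + len A₂ A' := by rw [len_sup_left, len_sup_left]
    _ ≤ _ := add_le_add_left (len_mono le_rfl le_sup_right) _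

theorem len_iSup_le {ι : Type*} (s : Finset ι) (A : ι → Submodule B X) (A' : Submodule B X) :
    len (⨆ i ∈ s, A i) A' ≤ ∑ i ∈ s, len (A i) A' := by
  classical
  induction s using Finset.induction_on with
  | empty => exact (len_eq_zero_iff.2 (by simp)).le
  | insert a s ha ih =>
    rw [Finset.iSup_insert, Finset.sum_insert ha]
    exact (len_sup_le _ _ _).trans (add_le_add_right ih _)

/-- `len_map` with `LinearMap.toSpanSingleton B X x`. -/
theorem len_span_singleton (x : X) (A' : Submodule B X) :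
    len (Submodule.span B {x}) A' =
      len (⊤ : Submodule B B) (A'.comap (LinearMap.toSpanSingleton B X x)) := by
  rw [← len_map, Submodule.map_top, LinearMap.span_singleton_eq_range]

theorem len_cyclic_le (x : X) (A' : Submodule B X) (I : Ideal B) (h : ∀ b ∈ I, b • x ∈ A') :
    len (Submodule.span B {x}) A' ≤ len (⊤ : Submodule B B) I := by
  rw [len_span_singleton]
  exact len_mono le_rfl fun b hb => h b hb

theorem lenb_smul_le (θ : B) (A : Submodule B X) : θ • A ≤ A := Submodule.smul_le_self_of_tower θ A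

theorem lenb_smul_mono (θ : B) {A A' : Submodule B X} (h : A ≤ A') : θ • A ≤ θ • A' := by
  intro x hx
  obtain ⟨y, hy, rfl⟩ := (Submodule.mem_smul_pointwise_iff_exists _ _ _).1 hx
  exact Submodule.smul_mem_pointwise_smul _ _ _ (h hy)

theorem lenb_smul_eq_map (θ : B) (A : Submodule B X) :
    θ • A = A.map (θ • (LinearMap.id : X →ₗ[B] X)) := by
  ext x
  rw [Submodule.mem_smul_pointwise_iff_exists, Submodule.mem_map]
  simp

theorem lenb_sup_of_le (A : Submodule B X) {A' W : Submodule B X} (h : A' ≤ W) :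
    len (A ⊔ A') W = len A W := by
  refine le_antisymm ?_ (len_mono le_sup_left le_rfl)
  rw [← len_sup_left A W]
  exact len_mono (sup_le_sup_left h _) le_rfl

theorem kap_one (A A' : Submodule B X) : kap (1 : B) A A' = 0 := by
  unfold kap
  rw [one_smul]
  exact len_eq_zero_iff.2 le_sup_right

theorem kap_le_len (θ : B) (A A' : Submodule B X) : kap θ A A' ≤ len A A' := by
  exact len_mono le_rfl le_sup_left

theorem kap_sup_left (θ : B) (A A' : Submodule B X) : kap θ (A ⊔ A') A' = kap θ A A' := by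
  unfold kap
  have h : A' ⊔ θ • (A ⊔ A') = A' ⊔ θ • A := by
    refine le_antisymm (sup_le le_sup_left ?_) (sup_le_sup_left (lenb_smul_mono θ le_sup_left) _)
    rw [Submodule.smul_sup']
    exact sup_le le_sup_right ((lenb_smul_le θ A').trans le_sup_left)
  rw [h, lenb_sup_of_le A le_sup_left]

/-- kernel and cokernel of `θ` on a finite length module have the same length:
`len A A' = len A (A' ⊔ θA) + len (θ A) A'` and `len (θ A) A' = len A (comap θ A')` (`len_map`),
`len A A' = len A (comap θ A') + len (A ⊓ comap θ A') A'` (`len_split`); cancel. -/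
theorem kap_eq_ker (θ : B) {A A' : Submodule B X} (h : A' ≤ A) (hf : len A A' ≠ ⊤) :
    kap θ A A' = len (A ⊓ A'.comap (θ • (LinearMap.id : X →ₗ[B] X))) A' := by
  set f : X →ₗ[B] X := θ • (LinearMap.id : X →ₗ[B] X) with hfd
  have hA' : A' ≤ A'.comap f := fun x hx => by
    simp only [hfd, Submodule.mem_comap, LinearMap.smul_apply, LinearMap.id_apply]
    exact A'.smul_mem θ hx
  have h1 := len_split A (le_sup_left : A' ≤ A' ⊔ θ • A)
  have h2 := len_split A hA'
  have h3 : A ⊓ (A' ⊔ θ • A) = θ • A ⊔ A' := by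
    rw [inf_eq_right.2 (sup_le h (lenb_smul_le θ A)), sup_comm]
  rw [h3, len_sup_left, lenb_smul_eq_map θ A, len_map, ← lenb_smul_eq_map θ A, ← hfd] at h1
  have hfin : len A (A'.comap f) ≠ ⊤ := ne_top_of_le_ne_top hf (len_mono le_rfl hA')
  rw [h1, add_comm] at h2
  exact WithTop.add_left_cancel hfin h2

/-- subquotients: `kap θ Z Z' ≤ len Z (A' ⊔ θZ) = kap θ (Z ⊔ A') A'`, then `kap_eq_ker` twice. -/
theorem kap_mono (θ : B) {A A' Z Z' : Submodule B X} (h' : A' ≤ Z') (h : Z ≤ A ⊔ A')
    (hf : len A A' ≠ ⊤) : kap θ Z Z' ≤ kap θ A A' := by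
  have h1 : kap θ Z Z' ≤ kap θ Z A' := len_mono le_rfl (sup_le_sup_right h' _)
  have hf1 : len (A ⊔ A') A' ≠ ⊤ := by rwa [len_sup_left]
  have hle : Z ⊔ A' ≤ A ⊔ A' := sup_le h le_sup_right
  have hf2 : len (Z ⊔ A') A' ≠ ⊤ := ne_top_of_le_ne_top hf1 (len_mono hle le_rfl)
  refine h1.trans ?_
  rw [← kap_sup_left θ Z A', ← kap_sup_left θ A A', kap_eq_ker θ le_sup_right hf1,
    kap_eq_ker θ le_sup_right hf2]
  exact len_mono (inf_le_inf_right _ hle) le_rfl

theorem len_le_kap (θ : B) {A A' Z Z' : Submodule B X} (h' : A' ≤ Z') (h : Z ≤ A ⊔ A')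
    (hf : len A A' ≠ ⊤) (hθ : ∀ x ∈ Z, θ • x ∈ Z') : len Z Z' ≤ kap θ A A' := by
  refine le_trans (le_of_eq ?_) (kap_mono θ h' h hf)
  unfold kap
  rw [sup_eq_left.2]
  intro x hx
  obtain ⟨y, hy, rfl⟩ := (Submodule.mem_smul_pointwise_iff_exists _ _ _).1 hx
  exact hθ y hy

theorem kap_le_add (θ : B) {A A' : Submodule B X} (A'' : Submodule B X) (h : A' ≤ A) :
    kap θ A A'' ≤ kap θ A A' + kap θ A' A'' := by
  unfold kap
  refine (len_le_add A (A' ⊔ θ • A) _).trans (add_le_add le_rfl ?_)
  rw [lenb_sup_of_le A' le_sup_right]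
  exact len_mono le_rfl (sup_le_sup_left (lenb_smul_mono θ h) _)

theorem kap_mul_le (θ θ' : B) (A A' : Submodule B X) :
    kap (θ * θ') A A' ≤ kap θ A A' + kap θ' A A' := by
  unfold kap
  refine (len_le_add A (A' ⊔ θ • A) _).trans (add_le_add le_rfl ?_)
  rw [sup_comm A' (θ • A), lenb_sup_of_le _ le_sup_left, lenb_smul_eq_map θ A, len_map]
  refine len_mono le_rfl (sup_le ?_ ?_)
  · intro x hx
    simp only [Submodule.mem_comap, LinearMap.smul_apply, LinearMap.id_apply]
    exact Submodule.mem_sup_left (A'.smul_mem θ hx)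
  · intro x hx
    obtain ⟨y, hy, rfl⟩ := (Submodule.mem_smul_pointwise_iff_exists _ _ _).1 hx
    simp only [Submodule.mem_comap, LinearMap.smul_apply, LinearMap.id_apply, smul_smul]
    exact Submodule.mem_sup_right (Submodule.smul_mem_pointwise_smul _ _ _ hy)

theorem kap_pow_le (θ : B) (r : ℕ) (A A' : Submodule B X) :
    kap (θ ^ r) A A' ≤ r * kap θ A A' := by
  induction r with
  | zero => rw [pow_zero, kap_one]; exact zero_le
  | succ r ih =>
    rw [pow_succ, Nat.cast_succ, add_mul, one_mul]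
    exact (kap_mul_le _ _ A A').trans (add_le_add ih le_rfl)

theorem kap_map (θ : B) (f : X →ₗ[B] Y) (A : Submodule B X) (A' : Submodule B Y) :
    kap θ (A.map f) A' = kap θ A (A'.comap f) := by
  unfold kap
  rw [len_map]
  congr 1
  ext x
  rw [Submodule.mem_comap, Submodule.mem_sup, Submodule.mem_sup]
  constructor
  · rintro ⟨y, hy, z, hz, h⟩
    obtain ⟨w, hw, rfl⟩ := (Submodule.mem_smul_pointwise_iff_exists _ _ _).1 hz
    obtain ⟨a, ha, rfl⟩ := Submodule.mem_map.1 hw
    refine ⟨x - θ • a, ?_, θ • a, Submodule.smul_mem_pointwise_smul _ _ _ ha, sub_add_cancel _ _⟩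
    rw [Submodule.mem_comap, map_sub, map_smul, ← h, add_sub_cancel_right]
    exact hy
  · rintro ⟨y, hy, z, hz, rfl⟩
    obtain ⟨a, ha, rfl⟩ := (Submodule.mem_smul_pointwise_iff_exists _ _ _).1 hz
    exact ⟨f y, hy, θ • f a, Submodule.smul_mem_pointwise_smul _ _ _ (Submodule.mem_map_of_mem ha),
      by rw [map_add, map_smul]⟩

theorem kap_inf_right (θ : B) (A A' : Submodule B X) : kap θ A (A ⊓ A') = kap θ A A' := by
  unfold kap
  rw [← len_inf_right A (A' ⊔ θ • A), inf_comm A (A' ⊔ θ • A), sup_comm A' (θ • A),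
    sup_inf_assoc_of_le _ (lenb_smul_le θ A), sup_comm, inf_comm A' A]

theorem kap_top_ideal (θ : B) (I : Ideal B) :
    kap θ (⊤ : Submodule B B) I = len (⊤ : Submodule B B) (I ⊔ Ideal.span {θ}) := by
  unfold kap
  congr 2
  ext x
  rw [Submodule.mem_smul_pointwise_iff_exists, Ideal.mem_span_singleton']
  constructor
  · rintro ⟨y, -, rfl⟩; exact ⟨y, by rw [smul_eq_mul, mul_comm]⟩
  · rintro ⟨y, rfl⟩; exact ⟨y, trivial, by rw [smul_eq_mul, mul_comm]⟩

theorem kap_cyclic_le (θ : B) (x : X) (A' : Submodule B X) (I : Ideal B)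
    (h : ∀ b ∈ I, b • x ∈ A') :
    kap θ (Submodule.span B {x}) A' ≤ len (⊤ : Submodule B B) (I ⊔ Ideal.span {θ}) := by
  rw [LinearMap.span_singleton_eq_range, LinearMap.range_eq_map, kap_map, kap_top_ideal]
  refine len_mono le_rfl (sup_le_sup_right ?_ _)
  intro b hb
  exact h b hb

theorem Sm.of_le {θ : B} {c c' : ℕ∞} {A A' : Submodule B X} (h : Sm θ c A A') (hc : c ≤ c') :
    Sm θ c' A A' := ⟨h.1, h.2.trans hc⟩

theorem Sm.zero (θ : B) {A A' : Submodule B X} (h : A ≤ A') : Sm θ 0 A A' := by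
  have h0 : len A A' = 0 := len_eq_zero_iff.2 h
  exact ⟨by rw [h0]; exact ENat.zero_ne_top, (kap_le_len θ A A').trans h0.le⟩

theorem Sm.mono {θ : B} {c : ℕ∞} {A A' Z Z' : Submodule B X} (hs : Sm θ c A A') (h' : A' ≤ Z')
    (h : Z ≤ A ⊔ A') : Sm θ c Z Z' := by
  refine ⟨ne_top_of_le_ne_top hs.1 ?_, (kap_mono θ h' h hs.1).trans hs.2⟩
  rw [← len_sup_left A A']
  exact len_mono h h'

theorem Sm.trans {θ : B} {c c' : ℕ∞} {A A' A'' : Submodule B X} (h₁ : Sm θ c A A')
    (h₂ : Sm θ c' A' A'') (h : A' ≤ A) : Sm θ (c + c') A A'' := by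
  refine ⟨ne_top_of_le_ne_top ?_ (len_le_add A A' A''), (kap_le_add θ A'' h).trans (add_le_add h₁.2 h₂.2)⟩
  exact WithTop.add_ne_top.2 ⟨h₁.1, h₂.1⟩

theorem Sm.map_iff {θ : B} {c : ℕ∞} (f : X →ₗ[B] Y) (A : Submodule B X) (A' : Submodule B Y) :
    Sm θ c (A.map f) A' ↔ Sm θ c A (A'.comap f) := by
  simp only [Sm, len_map, kap_map]

theorem Sm.pow {θ : B} {c : ℕ∞} {A A' : Submodule B X} (h : Sm θ c A A') (r : ℕ) :
    Sm (θ ^ r) (r * c) A A' := by
  exact ⟨h.1, (kap_pow_le θ r A A').trans (mul_le_mul_right h.2 _)⟩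

/-- products: induct on the finite index set (or `Module.length_pi_of_fintype` after identifying
the image with `∀ i, (A i).map (A' i).mkQ`). -/
theorem len_pi {ι : Type*} [Fintype ι] (A A' : ι → Submodule B X) :
    len (Submodule.pi Set.univ A) (Submodule.pi Set.univ A') = ∑ i, len (A i) (A' i) := by
  let g : (ι → X) →ₗ[B] ((i : ι) → X ⧸ A' i) := LinearMap.piMap fun i => (A' i).mkQ
  have hk : LinearMap.ker g = Submodule.pi Set.univ A' := by
    ext x
    simp [g, funext_iff, Submodule.mem_pi]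
  have hm : (Submodule.pi Set.univ A).map g = Submodule.pi Set.univ fun i => (A i).map (A' i).mkQ := by
    ext y
    simp only [Submodule.mem_map, Submodule.mem_pi, Set.mem_univ, true_imp_iff]
    constructor
    · rintro ⟨x, hx, rfl⟩ i
      exact ⟨x i, hx i, rfl⟩
    · intro h
      choose x hx hxy using h
      exact ⟨x, hx, funext hxy⟩
  rw [len_eq_quot, ← hk, ← length_map_eq, hm]
  let e : (Submodule.pi Set.univ fun i => (A i).map (A' i).mkQ) ≃ₗ[B] ((i : ι) → (A i).map (A' i).mkQ) :=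
    { toFun := fun y i => ⟨y.1 i, y.2 i trivial⟩
      invFun := fun y => ⟨fun i => y i, fun i _ => (y i).2⟩
      map_add' := fun _ _ => rfl
      map_smul' := fun _ _ => rfl
      left_inv := fun _ => rfl
      right_inv := fun _ => rfl }
  rw [e.length_eq, Module.length_pi_of_fintype]
  rfl

theorem kap_pi {ι : Type*} [Fintype ι] (θ : B) (A A' : ι → Submodule B X) :
    kap θ (Submodule.pi Set.univ A) (Submodule.pi Set.univ A') = ∑ i, kap θ (A i) (A' i) := by
  unfold kap
  rw [← len_pi]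
  congr 1
  ext x
  rw [Submodule.mem_sup, Submodule.mem_pi]
  constructor
  · rintro ⟨y, hy, z, hz, rfl⟩ i hi
    obtain ⟨a, ha, rfl⟩ := (Submodule.mem_smul_pointwise_iff_exists _ _ _).1 hz
    exact Submodule.add_mem_sup (hy i hi) (Submodule.smul_mem_pointwise_smul _ _ _ (ha i hi))
  · intro hx
    have h : ∀ i, ∃ y ∈ A' i, ∃ a ∈ A i, y + θ • a = x i := by
      intro i
      obtain ⟨y, hy, z, hz, e⟩ := Submodule.mem_sup.1 (hx i trivial)
      obtain ⟨a, ha, rfl⟩ := (Submodule.mem_smul_pointwise_iff_exists _ _ _).1 hz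
      exact ⟨y, hy, a, ha, e⟩
    choose y hy a ha e using h
    exact ⟨y, fun i _ => hy i, θ • a,
      Submodule.smul_mem_pointwise_smul _ _ _ (show a ∈ Submodule.pi Set.univ A from fun i _ => ha i),
      funext e⟩

end

/-- colength of an ideal -/
noncomputable def cl {A : Type*} [CommRing A] (I : Ideal A) : ℕ∞ := Module.length A (A ⧸ I)

theorem cl_eq_len {A : Type*} [CommRing A] (I : Ideal A) : cl I = len (⊤ : Submodule A A) I :=
  (len_top I).symm

theorem cl_anti {A : Type*} [CommRing A] {I J : Ideal A} (h : I ≤ J) : cl J ≤ cl I := by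
  rw [cl_eq_len, cl_eq_len]; exact len_mono le_rfl h

end Crest.Agent.R183
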