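import Crest.Agent.R183.G2

/-! # R183 / Main1 : Lech's inequality for complete rings with compatible coefficient rings. -/

set_option autoImplicit false
open IsLocalRing TensorProduct MvPowerSeries
open scoped ENNReal

namespace Crest.Agent.R183

/-- `a5` for `R → T ⧸ J`, `cl_comap_surj`. -/
theorem a5_quot {R T : Type} [CommRing R] [CommRing T] [IsNoetherianRing R] [IsNoetherianRing T]
    (f : R →+* T) (J : Ideal T) (hf : ((Ideal.Quotient.mk J).comp f).Flat) (𝔶 : Ideal T) (d : ℕ)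
    (μ : Ideal R → ℝ≥0∞) (htop : μ ⊤ = 0)
    (hsub : ∀ I a, μ I ≤ μ (I ⊔ Ideal.span {a}) + μ (I.colon {a}))
    (hp : ∀ 𝔭 : Ideal R, 𝔭.IsPrime → μ 𝔭 ≤ lo d (fun k => cl (J ⊔ 𝔶 ^ k ⊔ 𝔭.map f))) :
    μ ⊥ ≤ lo d (fun k => cl (J ⊔ 𝔶 ^ k)) := by
  have key : ∀ (I : Ideal R) (k : ℕ), cl (I.map ((Ideal.Quotient.mk J).comp f) ⊔
      𝔶.map (Ideal.Quotient.mk J) ^ k) = cl (J ⊔ 𝔶 ^ k ⊔ I.map f) := fun I k => by
    rw [← Ideal.map_map, ← Ideal.map_pow, ← Ideal.map_sup,
      cl_map_surj _ Ideal.Quotient.mk_surjective, Ideal.mk_ker]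
    congr 1
    ac_rfl
  have h1 := a5 _ hf (𝔶.map (Ideal.Quotient.mk J)) d μ htop hsub
    (fun 𝔭 h𝔭 => by simpa only [key] using hp 𝔭 h𝔭) ⊥
  simp only [key] at h1
  simpa only [Ideal.map_bot, sup_bot_eq] using h1

/-- `HS_le_len`, `up_module_le` with `I = ⊥`, `e = 0`, `g = θ`. -/
theorem up_eq_zero_of_ker {A R : Type} [CommRing A] [IsDomain A] [IsNoetherianRing A]
    [IsLocalRing A] [CommRing R] [IsLocalRing R] (f : A →+* R) (hf : f.Finite)
    (hinj : ¬ Function.Injective f) {s : ℕ} (x : Fin (s + 1) → A)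
    (hx : Ideal.span (Set.range x) = maximalIdeal A) : up (s + 1) (HS R) = 0 := by
  obtain ⟨θ, hθ, hθ0⟩ : ∃ θ, f θ = 0 ∧ θ ≠ 0 := by
    by_contra h
    exact hinj ((injective_iff_map_eq_zero f).2 fun a ha => by_contra fun h0 => h ⟨a, ha, h0⟩)
  let _ := f.toAlgebra
  have : Module.Finite A R := hf
  have h1 : (Ideal.span (Set.range x)).map (algebraMap A R) ≤ maximalIdeal R := by
    rw [hx, Ideal.map_le_iff_le_comap]
    exact (eq_maximalIdeal (Ideal.isMaximal_comap_of_isIntegral_of_isMaximal (R := A)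
      (maximalIdeal R))).ge
  have h2 := up_module_le (M := R) (⊥ : Ideal A) (fun a ha y => by rw [Ideal.mem_bot.1 ha, zero_smul])
    x (a := 1) (by rw [bot_sup_eq, hx, cl_maximal, Nat.cast_one]) (e := 0) Fin.elim0 (g := θ)
    (fun a ha => (mul_eq_zero.1 (Submodule.mem_colon_singleton.1 ha)).resolve_right hθ0)
    (fun z => by
      rw [Algebra.smul_def, show algebraMap A R θ = 0 from hθ, zero_mul]
      exact zero_mem _)
  rw [mul_zero, Nat.cast_zero] at h2
  exact nonpos_iff_eq_zero.1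
    ((up_mono (Filter.Eventually.of_forall fun N => HS_le_len h1 N)).trans h2)

/-- `R` is a field. -/
theorem lech_zero {R S : Type} [CommRing R] [IsDomain R] [IsLocalRing R] [CommRing S]
    [IsLocalRing S] (h : Sop R 0) : up 0 (HS R) ≤ lo 0 (HS S) := by
  obtain ⟨x, -, c, hc⟩ := h
  have h1 : maximalIdeal R ≤ ⊥ := fun a ha => by
    have h2 := hc (Ideal.pow_mem_pow ha c)
    rw [Set.range_eq_empty, Ideal.span_empty, Ideal.mem_bot] at h2
    exact pow_eq_zero_iff'.1 h2 |>.1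
  refine (up_zero_le 1 fun N => ?_).trans (le_lo_zero 1 ?_)
  · rw [← cl_maximal (maximalIdeal R)]
    exact cl_anti (h1.trans bot_le)
  · filter_upwards [Filter.eventually_ge_atTop 1] with N hN
    exact one_le_cl (ne_top_of_le_ne_top (maximalIdeal.isMaximal S).ne_top
      (Ideal.pow_le_self (by omega)))

theorem charZero_of_ne_zero {R : Type} [CommRing R] [IsDomain R] [IsLocalRing R] (p : ℕ)
    [Fact p.Prime] (hp : (p : R) ∈ maximalIdeal R) (h0 : (p : R) ≠ 0) : CharZero R := by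
  obtain ⟨q, hq⟩ := CharP.exists R
  rcases CharP.char_is_prime_or_zero R q with h | rfl
  · by_cases hpq : p = q
    · exact absurd (by rw [hpq]; exact CharP.cast_eq_zero R q) h0
    · have h1 : IsCoprime (p : R) (q : R) := ((Nat.coprime_primes Fact.out h).2 hpq).cast
      rw [CharP.cast_eq_zero R q, isCoprime_zero_right] at h1
      exact absurd h1 hp
  · exact CharP.charP_to_charZero R

section Frob
variable {l C₀ : Type} [Field l] [CommRing C₀] [Coef l] [Coef C₀] {d₁ c : ℕ} [Algebra C₀ (PS c l)]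
  {R : Type} [CommRing R] [IsLocalRing R] [Algebra (AA d₁ C₀) R] [Module.Finite (AA d₁ C₀) R]

/-- `BB → T' / 𝔐 T'` is onto (`tens_res`) and kills the `q`-th powers of the `Zp d₁ 0 i`;
`cl_comap_surj`, `cl_frob_le`, `span_Zp`, `ZI` is maximal (`Base.max_BB`), `cl_maximal`. -/
theorem cl_frob_max_le (B : Base l C₀ c 0 0) {R' : Type} [CommRing R'] [Algebra (AA d₁ C₀) R']
    (ψ : R →+* R') (hR' : ∀ r, ∃ a, r - algebraMap (AA d₁ C₀) R' a ∈ (maximalIdeal R).map ψ) {q : ℕ}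
    (Ψ : TT l C₀ d₁ c R →+* TT l C₀ d₁ c R')
    (hΨ1 : ∀ x, Ψ (algebraMap (BB d₁ c l) _ x) = algebraMap (BB d₁ c l) _ (x ^ q))
    (hΨ2 : ∀ r, Ψ (iR (AA d₁ C₀) (BB d₁ c l) R r) = iR (AA d₁ C₀) (BB d₁ c l) R' (ψ r)) :
    cl (((ZI l d₁ c).map (algebraMap (BB d₁ c l) _) ⊔
      (maximalIdeal R).map (iR (AA d₁ C₀) (BB d₁ c l) R)).map Ψ) ≤ (q ^ (d₁ + c + 1) : ℕ) := by
  set E := ((ZI l d₁ c).map (algebraMap (BB d₁ c l) (TT l C₀ d₁ c R)) ⊔
    (maximalIdeal R).map (iR (AA d₁ C₀) (BB d₁ c l) R)).map Ψ with hE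
  have h1 : ((maximalIdeal R).map ψ).map (iR (AA d₁ C₀) (BB d₁ c l) R') ≤ E := by
    rw [Ideal.map_map, Ideal.map_le_iff_le_comap]
    intro m hm
    rw [Ideal.mem_comap, RingHom.comp_apply, ← hΨ2]
    exact Ideal.mem_map_of_mem _ (Ideal.mem_sup_right (Ideal.mem_map_of_mem _ hm))
  have hs : Function.Surjective
      ((Ideal.Quotient.mk E).comp (algebraMap (BB d₁ c l) (TT l C₀ d₁ c R'))) := fun t => by
    obtain ⟨t, rfl⟩ := Ideal.Quotient.mk_surjective t
    obtain ⟨x, hx⟩ := tens_res (𝒜 := BB d₁ c l) hR' t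
    exact ⟨x, (Ideal.Quotient.eq.2 (h1 hx)).symm⟩
  have h2 : cl E = cl (A := TT l C₀ d₁ c R' ⧸ E) ⊥ := by
    rw [← cl_comap_surj _ Ideal.Quotient.mk_surjective, ← RingHom.ker_eq_comap_bot, Ideal.mk_ker]
  have h3 : ZI l d₁ c = maximalIdeal (BB d₁ c l) := by
    rw [B.max_BB, map_zero, map_zero, Ideal.span_singleton_zero, bot_sup_eq]
  have h4 := cl_frob_le (Zp d₁ (0 : Fin d₁ → PS c l)) ⊥ q
  rw [bot_sup_eq, bot_sup_eq, span_Zp, h3, cl_maximal (maximalIdeal _), mul_one] at h4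
  rw [h2, ← cl_comap_surj _ hs]
  refine (cl_anti (Ideal.span_le.2 ?_)).trans h4
  rintro _ ⟨i, rfl⟩
  refine Ideal.mem_comap.2 (Ideal.mem_bot.2 (Ideal.Quotient.eq_zero_iff_mem.2 ?_))
  rw [← hΨ1]
  refine Ideal.mem_map_of_mem _ (Ideal.mem_sup_left (Ideal.mem_map_of_mem _ ?_))
  rw [← span_Zp d₁ 0]
  exact Ideal.subset_span ⟨i, rfl⟩

/-- `R₂ = R ⧸ 𝔭`.  If `AA → R₂` is not injective the rank is `0`.  Otherwise `exists_prim` (`t = X 0`),
`Pi : T → T₂` from `tens_lift` (onto, kills `𝔭`), `Cplx.map` with `Fr = id`, `FL = id`, `ν' = 1`,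
`thmG2` (`a = 1`, `h = 0`, `coreF`), `finrank_le_of_smul_mem`, `PrimData.smul_mem`, `cl_map_surj`. -/
theorem ep_prime (B : Base l C₀ c 0 0) (hres : ResS C₀ d₁ R) {ν : ℕ} (hν : 1 ≤ ν)
    {F : FC (TT l C₀ d₁ c R)} {y : Fin (d₁ + 1) → TT l C₀ d₁ c R} (hC : Cplx ν F y) (𝔭 : Ideal R)
    [𝔭.IsPrime] (hsep : Function.Injective (algebraMap (AA d₁ C₀) (R ⧸ 𝔭)) →
      SepGen (AA d₁ C₀) (R ⧸ 𝔭)) :
    ((ν ^ (d₁ + c + 1) * Module.finrank (AA d₁ C₀) (R ⧸ 𝔭) : ℕ) : ℝ≥0∞) ≤
      lo (d₁ + 1) (fun k => cl (F.J ⊔ Ideal.span (Set.range y) ^ k ⊔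
        𝔭.map (iR (AA d₁ C₀) (BB d₁ c l) R))) := by
  by_cases hinj : Function.Injective (algebraMap (AA d₁ C₀) (R ⧸ 𝔭))
  swap
  · rw [injective_iff_map_eq_zero] at hinj
    push Not at hinj
    obtain ⟨g, hg, hg0⟩ := hinj
    have := finrank_le_of_smul_mem (M := R ⧸ 𝔭) (e := 0) Fin.elim0 hg0 fun z => by
      rw [Algebra.smul_def, hg, zero_mul]
      exact Submodule.zero_mem _
    rw [Nat.le_zero.1 this, mul_zero, Nat.cast_zero]
    exact zero_le
  have : IsLocalRing (R ⧸ 𝔭) := .of_surjective' _ (Ideal.Quotient.mk_surjective (I := 𝔭))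
  have : IsLocalHom (Ideal.Quotient.mk 𝔭) := Ideal.Quotient.mk_surjective.isLocalHom
  have hX : algebraMap (AA d₁ C₀) (R ⧸ 𝔭) (X 0) ≠ 0 := fun h =>
    one_ne_zero (PS.X_mul_eq_zero ((mul_one _).trans (hinj (h.trans (map_zero _).symm))))
  obtain ⟨e, w, f, g, Pr⟩ := exists_prim (hsep hinj) (X 0) hX
  obtain ⟨Ψ, h1, h2⟩ := tens_lift (A := AA d₁ C₀) (algebraMap (BB d₁ c l) (TT l C₀ d₁ c (R ⧸ 𝔭)))
    ((iR (AA d₁ C₀) (BB d₁ c l) (R ⧸ 𝔭)).comp (Ideal.Quotient.mk 𝔭))
    fun a => (iR_alg _ a).symm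
  have hs : Function.Surjective Ψ := fun t => by
    induction t using TensorProduct.induction_on with
    | zero => exact ⟨0, map_zero _⟩
    | tmul x r =>
      obtain ⟨r, rfl⟩ := Ideal.Quotient.mk_surjective r
      refine ⟨algebraMap (BB d₁ c l) _ x * iR (AA d₁ C₀) (BB d₁ c l) R r, ?_⟩
      rw [map_mul, h1, h2, RingHom.comp_apply, iR_apply, Algebra.TensorProduct.algebraMap_apply,
        Algebra.TensorProduct.tmul_mul_tmul, mul_one, one_mul]
      rfl
    | add x y hx hy =>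
      obtain ⟨x, rfl⟩ := hx
      obtain ⟨y, rfl⟩ := hy
      exact ⟨x + y, map_add _ _ _⟩
  have hC₂ := hC.map B hres (RingHom.id _) (RingHom.id _) (RingHom.Flat.id _) (fun _ => rfl) Ψ h1
    (fun m hm => by
      rw [h2]
      exact Ideal.mem_map_of_mem _ (map_nonunit (Ideal.Quotient.mk 𝔭) m hm)) (ν' := 1)
    (by rw [Ideal.map_id, pow_one]) ⟨1, by rw [Ideal.map_id, pow_one]⟩
    (Ideal.mem_span_singleton_self _)
  rw [one_mul] at hC₂
  have hres₂ : ResS C₀ d₁ (R ⧸ 𝔭) := fun r => by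
    obtain ⟨r, rfl⟩ := Ideal.Quotient.mk_surjective r
    obtain ⟨x, hx⟩ := hres r
    exact ⟨x, map_nonunit (Ideal.Quotient.mk 𝔭) _ hx⟩
  have h3 := thmG2 B hres₂ (h := 0) (a := 1) le_rfl
    (by rw [Ideal.span_singleton_zero, ← RingHom.injective_iff_ker_eq_bot]; exact hinj)
    (by simp) (Or.inl rfl) Pr True (fun _ => rfl)
    (fun sh ha => (coreF sh ha).imp fun N hN => hN l) hν hC₂
  have h4 := finrank_le_of_smul_mem (fun i : Fin e => w ^ (i : ℕ))
    (fun h0 : g = 0 => Pr.ne (by rw [h0, map_zero])) Pr.smul_mem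
  refine le_trans (Nat.cast_le.2 ?_) (h3.trans (lo_mono (.of_forall fun k => ?_)))
  · rw [one_mul, mul_comm]
    exact Nat.mul_le_mul_right _ h4
  · rw [FC.map_J, Set.range_comp, ← Ideal.map_span, ← Ideal.map_pow, ← Ideal.map_sup,
      cl_map_surj Ψ hs]
    refine cl_anti (sup_le_sup_left (Ideal.map_le_iff_le_comap.2 fun m hm => ?_) _)
    rw [Ideal.mem_comap, RingHom.mem_ker, h2, RingHom.comp_apply,
      Ideal.Quotient.eq_zero_iff_mem.2 hm, map_zero]

/-- `Fr = iterateFrobenius` on `AA`, `BB`, `PS c (ResidueField l)` (all of char `p`; the residue field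
of `l` is perfect since `residue l` is bijective); `tens_lift`; `Cplx.map`, `PS.flat_frob`,
`pow_le_frob`, `span_Zp`. -/
theorem cplx_frob (p : ℕ) [Fact p.Prime] [CharP l p] [PerfectRing l p] (B : Base l C₀ c 0 0)
    (hres : ResS C₀ d₁ R) {F : FC (TT l C₀ d₁ c R)} {y : Fin (d₁ + 1) → TT l C₀ d₁ c R}
    (hC : Cplx 1 F y) (s : ℕ) {R' : Type} [CommRing R'] [IsLocalRing R'] [Algebra (AA d₁ C₀) R']
    (ψ : R →+* R')
    (hψ : ∀ a, ψ (algebraMap (AA d₁ C₀) R a) = algebraMap (AA d₁ C₀) R' (a ^ p ^ s))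
    (hloc : (maximalIdeal R).map ψ ≤ maximalIdeal R') :
    ∃ Ψ : TT l C₀ d₁ c R →+* TT l C₀ d₁ c R',
      (∀ x, Ψ (algebraMap (BB d₁ c l) _ x) = algebraMap (BB d₁ c l) _ (x ^ p ^ s)) ∧
      (∀ r, Ψ (iR (AA d₁ C₀) (BB d₁ c l) R r) = iR (AA d₁ C₀) (BB d₁ c l) R' (ψ r)) ∧
      Cplx (p ^ s) (F.map Ψ) (Ψ ∘ y) := by
  have : CharP (PS c l) p := charP_of_injective_ringHom MvPowerSeries.C_injective p
  have : CharP (BB d₁ c l) p := charP_of_injective_ringHom MvPowerSeries.C_injective p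
  have : CharP (ResidueField l) p := charP_of_injective_ringHom (residue l).injective p
  have : CharP (PS c (ResidueField l)) p := charP_of_injective_ringHom MvPowerSeries.C_injective p
  have : PerfectRing (ResidueField l) p := PerfectRing.ofSurjective _ p fun z => by
    obtain ⟨z, rfl⟩ := residue_surjective z
    obtain ⟨z, rfl⟩ := surjective_frobenius l p z
    exact ⟨residue l z, (map_pow _ _ _).symm⟩
  obtain ⟨Ψ, h1, h2⟩ := tens_lift (A := AA d₁ C₀)
    ((algebraMap (BB d₁ c l) (TT l C₀ d₁ c R')).comp (iterateFrobenius (BB d₁ c l) p s))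
    ((iR (AA d₁ C₀) (BB d₁ c l) R').comp ψ) fun a => by
      rw [RingHom.comp_apply, RingHom.comp_apply, hψ, iR_alg, iterateFrobenius_def, ← map_pow]
  refine ⟨Ψ, h1, h2, ?_⟩
  have hC₂ := hC.map B hres (iterateFrobenius (BB d₁ c l) p s)
    (iterateFrobenius (PS c (ResidueField l)) p s) (PS.flat_frob p s _ fun _ => rfl)
    (fun x => map_pow _ _ _) Ψ h1
    (fun m hm => by
      rw [h2]
      exact Ideal.mem_map_of_mem _ (hloc (Ideal.mem_map_of_mem _ hm))) (ν' := p ^ s)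
    (Ideal.map_le_iff_le_comap.2 fun x hx => Ideal.pow_mem_pow hx _)
    ⟨(d₁ + c + 1) * p ^ s, by
      have h3 := pow_le_frob (Zp d₁ (0 : Fin d₁ → PS c l)) (p ^ s)
      rw [span_Zp] at h3
      refine h3.trans (Ideal.span_le.2 ?_)
      rintro _ ⟨i, rfl⟩
      refine Ideal.mem_map_of_mem (iterateFrobenius (BB d₁ c l) p s) ?_
      rw [← span_Zp d₁ 0]
      exact Ideal.subset_span ⟨i, rfl⟩⟩
    (Ideal.pow_mem_of_mem _ (Ideal.mem_span_singleton_self _) _
      (pow_pos (Fact.out : p.Prime).pos s))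
  rwa [mul_one] at hC₂

theorem thmEp_sup_pow {A : Type} [CommRing A] (J Y : Ideal A) (k : ℕ) :
    (J ⊔ Y) ^ k ≤ J ⊔ Y ^ k := by
  induction k with
  | zero => simp
  | succ k ih =>
    rw [pow_succ, pow_succ]
    refine (Ideal.mul_mono_left ih).trans ?_
    rw [Ideal.sup_mul, Ideal.mul_sup, Ideal.mul_sup]
    refine sup_le (sup_le ?_ ?_) (sup_le ?_ le_sup_right)
    · exact le_sup_of_le_left Ideal.mul_le_left
    · exact le_sup_of_le_left Ideal.mul_le_left
    · exact le_sup_of_le_left Ideal.mul_le_right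

/-- FROBENIUS BASE CHANGE.  `s` from `exists_frob_sep`, `q = p^s`, `exists_twist_ring`
(`F = iterateFrobenius`; if the rank is `0` trivial, else `R'` is nontrivial), `twist_local`,
`cplx_frob`; `a5_quot` (`Cplx.flat`) with `μ I = q^(n+1) finrank (R' ⧸ I)` (`finrank_quot_le`,
`ep_prime`); `cl_map_le` (`Cplx.pow_le` with `h = 0`, `a = 1`), `cl_frob_max_le`, `lo_const_mul_le`;
cancel `q^(n+1)`. -/
theorem thmEp (p : ℕ) [Fact p.Prime] [CharP l p] [PerfectRing l p] [IsDomain R]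
    (B : Base l C₀ c 0 0) (hres : ResS C₀ d₁ R)
    (hinj : Function.Injective (algebraMap (AA d₁ C₀) R)) {F : FC (TT l C₀ d₁ c R)}
    {y : Fin (d₁ + 1) → TT l C₀ d₁ c R} (hC : Cplx 1 F y) :
    (Module.finrank (AA d₁ C₀) R : ℝ≥0∞) ≤
      lo (d₁ + 1) (fun k => cl (F.J ⊔ Ideal.span (Set.range y) ^ k)) := by
  have hp : 0 < p := (Fact.out : p.Prime).pos
  have : CharP (PS c l) p := charP_of_injective_ringHom (C_injective (σ := Fin c) (R := l)) p
  have : CharP C₀ p := RingHom.charP _ B.inj p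
  have : CharP (AA d₁ C₀) p :=
    charP_of_injective_ringHom (C_injective (σ := Fin (d₁ + 1)) (R := C₀)) p
  have : ExpChar (AA d₁ C₀) p := ExpChar.prime Fact.out
  obtain ⟨s, hs⟩ := exists_frob_sep p hinj
  obtain ⟨R', _, _, ψ, hψ, hfin, hgen, hrk⟩ := exists_twist_ring (R := R)
    (iterateFrobenius (AA d₁ C₀) p s) (iterateFrobenius_inj _ p s)
  have hψ' : ∀ a, ψ (algebraMap (AA d₁ C₀) R a) = algebraMap (AA d₁ C₀) R' (a ^ p ^ s) := hψ
  rcases Nat.eq_zero_or_pos (Module.finrank (AA d₁ C₀) R) with h0 | h0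
  · rw [h0, Nat.cast_zero]
    exact zero_le
  have : Nontrivial R' := Module.nontrivial_of_finrank_pos (h0.trans_le hrk)
  have hq : 0 < p ^ s := pow_pos hp s
  obtain ⟨hR', _, hloc⟩ := twist_local (A := AA d₁ C₀) (fun r => (hres r).elim fun x hx => ⟨_, hx⟩)
    (iterateFrobenius (AA d₁ C₀) p s) (fun a ha => Ideal.pow_mem_of_mem _ ha _ hq) ψ hψ hgen
  have hres' : ResS C₀ d₁ R' := by
    intro r
    obtain ⟨a, ha⟩ := hR' r
    refine ⟨constantCoeff a, ?_⟩
    have h1 : a - C (constantCoeff a) ∈ maximalIdeal (AA d₁ C₀) := by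
      rw [PS.max_eq]
      exact Ideal.mem_sup_right (mem_XP_iff.2 (by simp))
    have h2 := (max_pow_le_of_finite (A := AA d₁ C₀) (R := R')).1 (Ideal.mem_map_of_mem _ h1)
    have h3 := Ideal.add_mem _ (hloc ha) h2
    rwa [map_sub, sub_add_sub_cancel] at h3
  obtain ⟨Ψ, hΨ1, hΨ2, hC'⟩ := cplx_frob p B hres hC s ψ hψ' hloc
  have : IsNoetherianRing R' := IsNoetherianRing.of_finite (AA d₁ C₀) R'
  have : IsNoetherianRing (TT l C₀ d₁ c R') := IsNoetherianRing.of_finite (BB d₁ c l) _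
  have h1 := a5_quot (iR (AA d₁ C₀) (BB d₁ c l) R') (F.map Ψ).J (hC'.flat B hres')
    (Ideal.span (Set.range (Ψ ∘ y))) (d₁ + 1)
    (fun I => (((p ^ s) ^ (d₁ + c + 1) * Module.finrank (AA d₁ C₀) (R' ⧸ I) : ℕ) : ℝ≥0∞))
    (by
      have : Subsingleton (R' ⧸ (⊤ : Ideal R')) := Ideal.Quotient.subsingleton_iff.2 rfl
      rw [Module.finrank_zero_of_subsingleton, mul_zero, Nat.cast_zero])
    (fun I a => by
      rw [← Nat.cast_add, ← mul_add]
      exact Nat.cast_le.2 (Nat.mul_le_mul_left _ (finrank_quot_le I a)))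
    (fun 𝔭 _ => ep_prime B hres' hq hC' 𝔭 fun hi => by
      refine hs (R' ⧸ 𝔭) hi ((Ideal.Quotient.mk 𝔭).comp ψ) (fun a => ?_) ?_
      · rw [RingHom.comp_apply, hψ']
        rfl
      · have h2 := congrArg (Submodule.map (Ideal.Quotient.mkₐ (AA d₁ C₀) 𝔭).toLinearMap) hgen
        rw [Submodule.map_span, ← Set.range_comp, Submodule.map_top] at h2
        exact h2.trans (LinearMap.range_eq_top.2 (Ideal.Quotient.mkₐ_surjective (AA d₁ C₀) 𝔭)))
  obtain ⟨M, hM⟩ := hC.pow_le B (h := 0) (a := 1) (map_zero _) (by simp)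
  have h2 := cl_frob_max_le B ψ hR' Ψ hΨ1 hΨ2
  have h3 : ∀ k, cl ((F.map Ψ).J ⊔ Ideal.span (Set.range (Ψ ∘ y)) ^ k) ≤
      (((p ^ s) ^ (d₁ + c + 1) : ℕ) : ℕ∞) * cl (F.J ⊔ Ideal.span (Set.range y) ^ k) := by
    intro k
    have h4 : (F.map Ψ).J ⊔ Ideal.span (Set.range (Ψ ∘ y)) ^ k =
        (F.J ⊔ Ideal.span (Set.range y) ^ k).map Ψ := by
      rw [Ideal.map_sup, Ideal.map_pow, Ideal.map_span, FC.map_J, Set.range_comp]
    rw [h4, mul_comm]
    refine (cl_map_le Ψ (N := M * k) ?_).trans (mul_le_mul_right h2 _)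
    rw [pow_mul]
    exact (Ideal.pow_right_mono hM k).trans (thmEp_sup_pow _ _ k)
  have h5 := (h1.trans (lo_mono (Filter.Eventually.of_forall h3))).trans (lo_const_mul_le _)
  have h6 : Module.finrank (AA d₁ C₀) (R' ⧸ (⊥ : Ideal R')) = Module.finrank (AA d₁ C₀) R' :=
    ((Submodule.quotEquivOfEqBot (⊥ : Ideal R') rfl).restrictScalars (AA d₁ C₀)).finrank_eq
  rw [h6, Nat.cast_mul, ENNReal.mul_le_mul_iff_right (by exact_mod_cast (pow_pos hq _).ne')
    (ENNReal.natCast_ne_top _)] at h5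
  exact (Nat.cast_le.2 hrk).trans h5

end Frob

/-- a flat local map of complete local rings with compatible coefficient rings and Artinian fibre -/
structure Setup {W C₀ : Type} [CommRing W] [CommRing C₀] [Coef W] [Coef C₀] {c : ℕ}
    [Algebra C₀ (PS c W)] (pp : W) (π : C₀) {R S : Type} [CommRing R] [CommRing S] [CLN R] [CLN S]
    (φ : R →+* S) (ρ : C₀ →+* R) (ψ : PS c W →+* S) : Prop where
  base : Base W C₀ c pp π
  loc : IsLocalHom φ
  flat : φ.Flat
  res : ∀ r, ∃ x, r - ρ x ∈ maximalIdeal R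
  surj : Function.Surjective ψ
  comm : ∀ x, φ (ρ x) = ψ (algebraMap C₀ (PS c W) x)
  prim : ∃ N, maximalIdeal S ^ N ≤ (maximalIdeal R).map φ

section Setup
variable {W C₀ : Type} [CommRing W] [CommRing C₀] [Coef W] [Coef C₀] {c : ℕ}
  [Algebra C₀ (PS c W)] {pp : W} {π : C₀} {R S : Type} [CommRing R] [CommRing S] [CLN R] [CLN S]
  {φ : R →+* S} {ρ : C₀ →+* R} {ψ : PS c W →+* S}

/-- `φ (ρ π) = ψ (C pp)` is a nonunit. -/
theorem Setup.rho_mem (H : Setup pp π φ ρ ψ) : ρ π ∈ maximalIdeal R := by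
  have := IsLocalHom.of_surjective ψ H.surj
  have h1 : (C pp : PS c W) ∈ maximalIdeal (PS c W) := by
    rw [PS.max_eq, H.base.hW]
    exact Ideal.mem_sup_left (Ideal.mem_map_of_mem _ (Ideal.mem_span_singleton_self pp))
  have h2 := map_nonunit ψ _ h1
  rw [← H.base.hσ, ← H.comm] at h2
  exact fun h => h2 (h.map φ)

theorem Setup.inf (H : Setup pp π φ ρ ψ) : Infinite (ResidueField R) := by
  have h1 : (maximalIdeal C₀).map ρ ≤ maximalIdeal R := by
    rw [H.base.hC, Ideal.map_span, Set.image_singleton, Ideal.span_singleton_le_iff_mem]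
    exact H.rho_mem
  have : IsLocalHom ρ := ((local_hom_TFAE ρ).out 0 2).2 h1
  have := H.base.inf
  exact Infinite.of_injective (ResidueField.map ρ) (RingHom.injective _)

/-- `flat_quotientMap`; `𝔭 S ≤ 𝔫`. -/
theorem Setup.quot (H : Setup pp π φ ρ ψ) (𝔭 : Ideal R) [CLN (R ⧸ 𝔭)] [CLN (S ⧸ 𝔭.map φ)] :
    Setup pp π (Ideal.quotientMap (𝔭.map φ) φ Ideal.le_comap_map) ((Ideal.Quotient.mk 𝔭).comp ρ)
      ((Ideal.Quotient.mk (𝔭.map φ)).comp ψ) := by
  have h1 := IsLocalHom.of_surjective (Ideal.Quotient.mk 𝔭) Ideal.Quotient.mk_surjective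
  have h2 := IsLocalHom.of_surjective (Ideal.Quotient.mk (𝔭.map φ)) Ideal.Quotient.mk_surjective
  have h3 := H.loc
  refine ⟨H.base, ⟨fun x hx => ?_⟩, flat_quotientMap φ H.flat 𝔭, fun r => ?_,
    Ideal.Quotient.mk_surjective.comp H.surj, fun x => ?_, ?_⟩
  · obtain ⟨r, rfl⟩ := Ideal.Quotient.mk_surjective x
    rw [Ideal.quotientMap_mk] at hx
    exact (IsUnit.of_map φ _ (IsUnit.of_map (Ideal.Quotient.mk (𝔭.map φ)) _ hx)).map _
  · obtain ⟨r, rfl⟩ := Ideal.Quotient.mk_surjective r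
    obtain ⟨x, hx⟩ := H.res r
    exact ⟨x, by simpa using map_nonunit (Ideal.Quotient.mk 𝔭) _ hx⟩
  · rw [RingHom.comp_apply, RingHom.comp_apply, Ideal.quotientMap_mk, H.comm]
  · obtain ⟨N, hN⟩ := H.prim
    refine ⟨N, ?_⟩
    rw [← map_maximalIdeal_of_surjective (Ideal.Quotient.mk 𝔭) Ideal.Quotient.mk_surjective,
      ← map_maximalIdeal_of_surjective (Ideal.Quotient.mk (𝔭.map φ)) Ideal.Quotient.mk_surjective,
      ← Ideal.map_pow, Ideal.map_map, Ideal.quotientMap_comp_mk, ← Ideal.map_map]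
    exact Ideal.map_mono hN

/-- `C' = ResidueField C₀`; `σ' = ResidueField.lift`/`Ideal.Quotient.lift` of `map πW ∘ σ`;
`ψ'` by `RingHom.liftOfSurjective` along `MvPowerSeries.map πW` (`map_surjective`, `ker_map_eq`). -/
theorem Setup.modp (H : Setup pp π φ ρ ψ) (h0 : ρ π = 0) {l : Type} [Field l] [Coef l]
    (πW : W →+* l) (hs : Function.Surjective πW) :
    ∃ (C' : Type) (_ : CommRing C') (_ : Coef C') (_ : Algebra C' (PS c l)) (ρ' : C' →+* R)
      (ψ' : PS c l →+* S), Setup (0 : l) (0 : C') φ ρ' ψ' := by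
  have hk : RingHom.ker πW = Ideal.span {pp} := (ker_eq_maximalIdeal πW hs).trans H.base.hW
  have hp : πW pp = 0 := by
    rw [← RingHom.mem_ker, hk]
    exact Ideal.mem_span_singleton_self pp
  have h1 : maximalIdeal C₀ ≤
      RingHom.ker ((MvPowerSeries.map (σ := Fin c) πW).comp (algebraMap C₀ (PS c W))) := by
    rw [H.base.hC, Ideal.span_singleton_le_iff_mem, RingHom.mem_ker, RingHom.comp_apply,
      H.base.hσ, MvPowerSeries.map_C, hp, map_zero]
  have h2 : maximalIdeal C₀ ≤ RingHom.ker ρ := by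
    rwa [H.base.hC, Ideal.span_singleton_le_iff_mem]
  have h3 : RingHom.ker (MvPowerSeries.map (σ := Fin c) πW) ≤ RingHom.ker ψ := by
    rw [ker_map_eq πW (IsNoetherian.noetherian _), hk, Ideal.map_span, Set.image_singleton,
      Ideal.span_singleton_le_iff_mem, RingHom.mem_ker, ← H.base.hσ, ← H.comm, h0, map_zero]
  have h4 := RingHom.liftOfSurjective_comp_apply _ (map_surjective (n := c) πW hs) ⟨ψ, h3⟩
  have := H.base.inf
  let σ' : ResidueField C₀ →+* PS c l := Ideal.Quotient.lift _ _ h1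
  refine ⟨ResidueField C₀, inferInstance, Coef.of_field _, σ'.toAlgebra,
    Ideal.Quotient.lift _ _ h2, RingHom.liftOfSurjective _ (map_surjective πW hs) ⟨ψ, h3⟩, ?_⟩
  let := Coef.of_field (ResidueField C₀)
  let := σ'.toAlgebra
  refine ⟨⟨by rw [Ideal.span_singleton_zero, maximalIdeal_eq_bot],
    by rw [Ideal.span_singleton_zero, maximalIdeal_eq_bot], by rw [map_zero, map_zero],
    RingHom.injective _, Infinite.of_injective (residue _) (RingHom.injective _)⟩,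
    H.loc, H.flat, fun r => ?_, fun s => ?_, fun x => ?_, H.prim⟩
  · obtain ⟨x, hx⟩ := H.res r
    exact ⟨residue C₀ x, hx⟩
  · obtain ⟨f, rfl⟩ := H.surj s
    exact ⟨_, h4 f⟩
  · obtain ⟨x, rfl⟩ := residue_surjective x
    exact (H.comm x).trans (h4 _).symm

/-- `exists_eval` and `finite_of_primary`. -/
theorem Setup.exists_ev (H : Setup pp π φ ρ ψ) {n : ℕ} (x : Fin n → R)
    (hx : ∀ i, x i ∈ maximalIdeal R) :
    ∃ ev : PS n C₀ →+* R, (∀ a, ev (C a) = ρ a) ∧ (∀ i, ev (X i) = x i) ∧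
      ((∃ N, maximalIdeal R ^ N ≤ Ideal.span {ρ π} ⊔ Ideal.span (Set.range x)) → ev.Finite) := by
  obtain ⟨ev, h1, h2⟩ := exists_eval ρ (maximalIdeal R) x hx
  have h3 : (maximalIdeal (PS n C₀)).map ev =
      Ideal.span {ρ π} ⊔ Ideal.span (Set.range x) := by
    rw [PS.max_eq, H.base.hC, XP, Ideal.map_sup, Ideal.map_span, Set.image_singleton,
      Ideal.map_span, Set.image_singleton, h1, Ideal.map_span, ← Set.range_comp,
      show ev ∘ X = x from funext h2]
  refine ⟨ev, h1, h2, fun ⟨N, hN⟩ => finite_of_primary ev ?_ (fun r => ?_) (hN.trans h3.ge)⟩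
  · rw [h3]
    exact sup_le ((Ideal.span_singleton_le_iff_mem _).2 H.rho_mem) (redc_span_le hx)
  · obtain ⟨a, ha⟩ := H.res r
    exact ⟨C a, by rwa [h1]⟩

/-- MIXED CASE, parameters: `exists_reduction`, `gr_le` (`I = ⊥`, `θ = ρ π`), `step'`,
`span_cons_sub`. -/
theorem Setup.exists_params [IsDomain R] (H : Setup pp π φ ρ ψ) (h0 : ρ π ≠ 0) {d₁ : ℕ}
    (hS : Sop R (d₁ + 1)) : ∃ x : Fin (d₁ + 1) → R, (∀ i, x i ∈ maximalIdeal R) ∧
      (∃ o, maximalIdeal R ^ (o + 1) ≤ Ideal.span (Set.range x) * maximalIdeal R ^ o) ∧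
      ∃ N, maximalIdeal R ^ N ≤
        Ideal.span {ρ π} ⊔ Ideal.span (Set.range fun i : Fin d₁ => x i.succ) := by
  have := H.inf
  obtain ⟨x, hx, o, ho⟩ := exists_reduction hS
  obtain ⟨K, hK⟩ := gr_le ⊥ x (θ := ρ π)
    (fun z hz => by simpa [h0] using Submodule.mem_colon_singleton.1 hz)
    (cl_ne_top_of_pow_le (maximalIdeal R) ((ho.trans Ideal.mul_le_left).trans le_sup_right))
  simp only [bot_sup_eq] at hK
  obtain ⟨t, o', ht⟩ := step' (RingHom.id R) (fun a => ⟨a, by simp⟩) (Ideal.span {ρ π}) x hx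
    (up_eq_zero_of_le K (Filter.Eventually.of_forall hK))
  refine ⟨Fin.cons (x 0) fun i => x i.succ - t i * x 0, fun l => ?_, ⟨o, ?_⟩, o' + 1 + o, ?_⟩
  · refine Fin.cases (hx 0) (fun i => ?_) l
    exact Ideal.sub_mem _ (hx _) (Ideal.mul_mem_left _ _ (hx 0))
  · rw [span_cons_sub]
    exact ho
  · exact ((red_pow_le ho _).trans Ideal.mul_le_left).trans
      (ht.trans (sup_le_sup_left Ideal.mul_le_left _))

end Setup

/-- Lech's inequality for all setups over `W` with `R` a domain -/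
def LechDom (W : Type) [CommRing W] [Coef W] (pp : W) : Prop :=
  ∀ (C₀ : Type) [CommRing C₀] [Coef C₀] (c : ℕ) [Algebra C₀ (PS c W)] (π : C₀) (R S : Type)
    [CommRing R] [CommRing S] [CLN R] [CLN S] (φ : R →+* S) (ρ : C₀ →+* R) (ψ : PS c W →+* S)
    [IsDomain R] (d : ℕ), Setup pp π φ ρ ψ → Sop R d → up d (HS R) ≤ lo d (HS S)

/-- EQUAL CHARACTERISTIC.  `π = 0` (injectivity).  `d = 0`: `lech_zero`.  `d = d₁+1`: `exists_reduction`,
`Setup.exists_ev`, `letI := ev.toAlgebra`; not injective: `up_eq_zero_of_ker`; else `exists_cplx`,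
`lo_shift`.  Upper bound `HS_le_len`, `up_module_le` (`I = ⊥`, `a = 1`).  Char `0`: `sepGen_of_charZero`,
`exists_prim`, `thmG2`, `coreF`.  Char `p`: `exists_smul_mem_span`, `thmEp`
(`CharP.exists`, `CharP.char_is_prime_or_zero`, `PerfectField.toPerfectRing`). -/
theorem lechDom_field (l : Type) [Field l] [PerfectField l] [Coef l] : LechDom l 0 := by
  intro C₀ _ _ c _ π R S _ _ _ _ φ ρ ψ _ d H hS
  have hπ : π = 0 := H.base.inj (by rw [H.base.hσ, map_zero, map_zero])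
  subst hπ
  cases d with
  | zero => exact lech_zero hS
  | succ d₁ =>
    have := H.inf
    have := H.loc
    obtain ⟨x, hx, o, ho⟩ := exists_reduction hS
    obtain ⟨ev, hC, hX, hfin⟩ := H.exists_ev x hx
    have hf : ev.Finite := hfin ⟨o + 1, (ho.trans Ideal.mul_le_left).trans le_sup_right⟩
    have hmax : Ideal.span (Set.range (X : Fin (d₁ + 1) → AA d₁ C₀)) =
        maximalIdeal (AA d₁ C₀) := by
      rw [H.base.max_AA d₁, map_zero, Ideal.span_singleton_eq_bot.2 rfl, bot_sup_eq]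
      rfl
    by_cases hinj : Function.Injective ev
    swap
    · rw [up_eq_zero_of_ker ev hf hinj X hmax]
      exact bot_le
    let _ : Algebra (AA d₁ C₀) R := ev.toAlgebra
    have _ : Module.Finite (AA d₁ C₀) R := hf
    have hres : ResS C₀ d₁ R := fun r => (H.res r).imp fun a ha => by
      rwa [RingHom.algebraMap_toAlgebra, hC]
    have hXP : (XP (d₁ + 1) C₀).map (algebraMap (AA d₁ C₀) R) = Ideal.span (Set.range x) := by
      rw [XP, Ideal.map_span, ← Set.range_comp]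
      congr 2
      exact funext hX
    have hX0 : (X 0 : AA d₁ C₀) ≠ 0 := fun h => one_ne_zero
      (PS.X_mul_eq_zero (n := d₁ + 1) (W := C₀) (i := 0) (f := 1) (by rw [h, zero_mul]))
    have hX0' : algebraMap (AA d₁ C₀) R (X 0) ≠ 0 := fun h => hX0 (hinj (h.trans (map_zero _).symm))
    obtain ⟨F, y, hcx, c', hc'⟩ := exists_cplx H.base hres (o := o) (by rw [hXP]; exact ho) hX0' φ
      H.flat ψ H.surj (fun a => by rw [RingHom.algebraMap_toAlgebra, hC, H.comm]) H.prim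
    have hlo : lo (d₁ + 1) (fun k => cl (F.J ⊔ Ideal.span (Set.range y) ^ k)) ≤
        lo (d₁ + 1) (HS S) := by
      rw [← lo_shift (H := HS S) c']
      exact lo_mono (Filter.Eventually.of_forall hc')
    refine le_trans ?_ hlo
    have hup : ∀ (e : ℕ) (m : Fin e → R) (g : AA d₁ C₀), g ≠ 0 →
        (∀ z : R, g • z ∈ Submodule.span (AA d₁ C₀) (Set.range m)) →
        up (d₁ + 1) (HS R) ≤ (e : ℝ≥0∞) := by
      intro e m g hg hm
      have h1 := up_module_le (⊥ : Ideal (AA d₁ C₀)) (M := R)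
        (fun a ha z => by rw [Ideal.mem_bot.1 ha, zero_smul]) X (a := 1)
        (by rw [bot_sup_eq, hmax, cl_maximal, Nat.cast_one]) m (g := g)
        (fun z hz => (mul_eq_zero.1 (Submodule.mem_colon_singleton.1 hz)).resolve_right hg) hm
      rw [one_mul] at h1
      refine (up_mono (Filter.Eventually.of_forall fun N => HS_le_len ?_ N)).trans h1
      exact hXP.le.trans (redc_span_le hx)
    obtain ⟨p, hp⟩ := CharP.exists l
    rcases CharP.char_is_prime_or_zero l p with hp' | rfl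
    · have := Fact.mk hp'
      have : PerfectRing l p := PerfectField.toPerfectRing p
      obtain ⟨m, g, hg, -, hm⟩ := exists_smul_mem_span (A := AA d₁ C₀) R
      exact (hup _ m g hg hm).trans (thmEp p H.base hres hinj hcx)
    · have : CharZero l := CharP.charP_to_charZero l
      have : CharZero S := (RingHom.charZero_iff (ψ.comp C).injective).1 ‹_›
      have : CharZero R := φ.charZero
      obtain ⟨e, w, f, g, Pr⟩ := exists_prim (A := AA d₁ C₀) (R := R) sepGen_of_charZero (X 0) hX0'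
      have h1 := thmG2 H.base hres (h := 0) (a := 1) le_rfl
        (by rw [Ideal.span_singleton_eq_bot.2 rfl]; exact (RingHom.injective_iff_ker_eq_bot _).1 hinj)
        (by simp) (Or.inl rfl) Pr True (fun _ => rfl)
        (fun sh ha => (coreF sh ha).imp fun N h => h l) le_rfl hcx
      rw [one_pow, one_mul, mul_one] at h1
      exact (hup e _ g (fun h => Pr.ne (by rw [h, map_zero])) Pr.smul_mem).trans h1

/-- MIXED CASE.  `π = p · unit`: indeed `σ π = C p = σ p`, so `π = p`.  `Setup.exists_params`,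
`Setup.exists_ev` for `x`; `ev.comp (incl ..)` is finite (`finite_of_primary`, `incl_X`, `incl_C`);
not injective: `up_eq_zero_of_ker` with `Fin.cons (C π) X`; else `exists_h`, `X0_not_mem`,
`sepGen_of_charZero`, `exists_prim`, `exists_cplx`, `thmG2` with `coreW`; upper bound `up_module_le`
with `I = (h)`, `cl_h_XP_le`, `PrimData.smul_mem`. -/
theorem lech_mixed (p : ℕ) [Fact p.Prime] (l : Type) [Field l] [CharP l p] [PerfectRing l p]
    [Coef (WittVector p l)] {C₀ : Type} [CommRing C₀] [Coef C₀] {c : ℕ}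
    [Algebra C₀ (PS c (WittVector p l))] {π : C₀} {R S : Type} [CommRing R] [CommRing S] [CLN R]
    [CLN S] {φ : R →+* S} {ρ : C₀ →+* R} {ψ : PS c (WittVector p l) →+* S} [IsDomain R] {d₁ : ℕ}
    (H : Setup (p : WittVector p l) π φ ρ ψ) (h0 : ρ π ≠ 0) (hS : Sop R (d₁ + 1)) :
    up (d₁ + 1) (HS R) ≤ lo (d₁ + 1) (HS S) := by
  have B := H.base
  have hπp : π = p := B.inj (by rw [B.hσ, map_natCast, map_natCast])
  have hπ0 : π ≠ 0 := fun h => h0 (by rw [h, map_zero])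
  have hρ := H.rho_mem
  have : CharZero R := charZero_of_ne_zero p (by rwa [hπp, map_natCast] at hρ)
    (by rwa [hπp, map_natCast] at h0)
  have := H.loc
  obtain ⟨x, hx, ⟨o, ho⟩, N, hN⟩ := H.exists_params h0 hS
  obtain ⟨ev, hC, hX, -⟩ := H.exists_ev x hx
  have hXP : (XP (d₁ + 1) C₀).map ev = Ideal.span (Set.range x) := by
    rw [XP, Ideal.map_span, ← Set.range_comp, show ev ∘ X = x from funext hX]
  have hxm : Ideal.span (Set.range x) ≤ maximalIdeal R := Ideal.span_le.2 (Set.range_subset_iff.2 hx)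
  have hmap : (maximalIdeal (PS d₁ C₀)).map (ev.comp (incl d₁ C₀)) =
      Ideal.span {ρ π} ⊔ Ideal.span (Set.range fun i : Fin d₁ => x i.succ) := by
    rw [PS.max_eq, B.hC, Ideal.map_sup, Ideal.map_map, Ideal.map_span, XP, Ideal.map_span,
      Set.image_singleton, ← Set.range_comp]
    simp only [RingHom.coe_comp, Function.comp_def, incl_C, incl_X, hC, hX]
  have hfin : (ev.comp (incl d₁ C₀)).Finite := by
    refine finite_of_primary _ (hmap.trans_le (sup_le ((Ideal.span_singleton_le_iff_mem _).2 hρ)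
      (Ideal.span_le.2 (Set.range_subset_iff.2 fun i => hx _)))) (fun r => ?_) (hN.trans hmap.ge)
    obtain ⟨z, hz⟩ := H.res r
    exact ⟨C z, by rwa [RingHom.comp_apply, incl_C, hC]⟩
  by_cases hinj : Function.Injective (ev.comp (incl d₁ C₀))
  swap
  · rw [up_eq_zero_of_ker _ hfin hinj (Fin.cons (C π) X) (by
      rw [PS.max_eq, B.hC, Ideal.map_span, Set.image_singleton, Fin.range_cons, Ideal.span_insert,
        XP])]
    exact zero_le
  obtain ⟨h, a, ha, hker, hh, hd⟩ := exists_h B.hC hπ0 ev hfin hinj (by rw [hX]; exact hx 0)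
    ⟨o + 1, by rw [hXP, hC]; exact Ideal.mul_le_left (ho (Ideal.pow_mem_pow hρ _))⟩
  let _ := ev.toAlgebra
  have : Module.Finite (AA d₁ C₀) R := RingHom.Finite.of_comp_finite hfin
  have hX0 : ev (X 0) ≠ 0 := fun h1 => X0_not_mem B.hC hπ0 ha hh (hker ▸ h1)
  obtain ⟨e, w, f, g, Pr⟩ := exists_prim (A := AA d₁ C₀) (R := R) sepGen_of_charZero (X 0) hX0
  have hres : ResS C₀ d₁ R := fun r => (H.res r).imp fun z hz => by rwa [← hC] at hz
  obtain ⟨F, y, hF, c', hc'⟩ := exists_cplx B hres (o := o) (ho.trans_eq (by rw [← hXP]; rfl)) hX0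
    φ H.flat ψ H.surj (fun z => (congrArg φ (hC z)).trans (H.comm z)) H.prim
  have h1 := thmG2 B hres ha hker hh (Or.inr hd) Pr False False.elim
    (fun sh _ => (coreW sh).imp fun N hN => hN p l) le_rfl hF
  have h2 := up_module_le (A := AA d₁ C₀) (M := R) (Ideal.span {h})
    (fun z hz r => by rw [Algebra.smul_def, show algebraMap _ R z = 0 from hker.ge hz, zero_mul])
    X (cl_h_XP_le B.hC hh) (fun i : Fin e => w ^ (i : ℕ)) (g := g) (fun z hz => hker.le <|
      (mul_eq_zero.1 ((map_mul ev z g).symm.trans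
        (hker.ge (Submodule.mem_colon_singleton.1 hz)))).resolve_right Pr.ne) Pr.smul_mem
  rw [one_pow, mul_one] at h1
  exact ((up_mono (Filter.Eventually.of_forall (HS_le_len (A := AA d₁ C₀) (hXP.trans_le hxm)))).trans
    h2).trans (h1.trans ((lo_mono (Filter.Eventually.of_forall hc')).trans_eq (lo_shift c')))

theorem lechDom_witt (p : ℕ) [Fact p.Prime] (l : Type) [Field l] [CharP l p] [PerfectRing l p]
    [Coef (WittVector p l)] : LechDom (WittVector p l) p := by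
  intro C₀ _ _ c _ π R S _ _ _ _ φ ρ ψ _ d H hS
  cases d with
  | zero => exact lech_zero hS
  | succ d₁ =>
    by_cases h0 : ρ π = 0
    · have := Coef.of_field l
      have : PerfectField l := PerfectRing.toPerfectField l p
      obtain ⟨C', _, _, _, ρ', ψ', H'⟩ := H.modp h0 (WittVector.constantCoeff : WittVector p l →+* l)
        (fun x => ⟨WittVector.teichmuller p x, by simp⟩)
      exact lechDom_field l C' c 0 R S φ ρ' ψ' _ H' hS
    · exact lech_mixed p l H h0 hS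

theorem m1a_HS_quot {R : Type} [CommRing R] [IsLocalRing R] (I : Ideal R) [IsLocalRing (R ⧸ I)] :
    HS (R ⧸ I) = fun N => cl (I ⊔ maximalIdeal R ^ N) := by
  funext N
  rw [HS, ← map_maximalIdeal_of_surjective _ (Ideal.Quotient.mk_surjective (I := I)),
    ← Ideal.map_pow, cl_map_surj _ Ideal.Quotient.mk_surjective, Ideal.mk_ker, sup_comm]

/-- `a5` with `μ I = up d (cl (I ⊔ 𝔪^N))`, `𝔶 = 𝔫` (`up_cl_sub`); for a prime `𝔭` use `Setup.quot`
(`cln_of_surj`), `Sop.map`, `HS (R ⧸ 𝔭) N = cl (𝔭 ⊔ 𝔪^N)` (`cl_map_surj`). -/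
theorem lech_setup {W C₀ : Type} [CommRing W] [CommRing C₀] [Coef W] [Coef C₀] {c : ℕ}
    [Algebra C₀ (PS c W)] {pp : W} {π : C₀} {R S : Type} [CommRing R] [CommRing S] [CLN R] [CLN S]
    {φ : R →+* S} {ρ : C₀ →+* R} {ψ : PS c W →+* S} (hL : LechDom W pp) (H : Setup pp π φ ρ ψ)
    {d : ℕ} (hS : Sop R d) : up d (HS R) ≤ lo d (HS S) := by
  have := H.loc
  have h1 := a5 φ H.flat (maximalIdeal S) d (fun I => up d fun N => cl (I ⊔ maximalIdeal R ^ N))
    (by
      have h0 := up_const_mul_le (d := d) (H := fun _ => 0) 0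
      simpa only [top_sup_eq, cl_top, mul_zero, Nat.cast_zero, zero_mul, nonpos_iff_eq_zero]
        using h0)
    (fun I a => up_cl_sub _ I a d) (fun 𝔭 h𝔭 => ?_) ⊥
  · simp only [Ideal.map_bot, bot_sup_eq] at h1
    exact h1
  have hle : 𝔭.map φ ≤ maximalIdeal S :=
    (Ideal.map_mono (le_maximalIdeal h𝔭.ne_top)).trans (map_maximalIdeal_le φ)
  have : Nontrivial (S ⧸ 𝔭.map φ) := Ideal.Quotient.nontrivial_iff.2
    (ne_top_of_le_ne_top (maximalIdeal.isMaximal S).ne_top hle)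
  have : CLN (R ⧸ 𝔭) := cln_of_surj _ Ideal.Quotient.mk_surjective
  have : CLN (S ⧸ 𝔭.map φ) := cln_of_surj _ Ideal.Quotient.mk_surjective
  have : IsLocalHom (Ideal.Quotient.mk 𝔭) :=
    IsLocalHom.of_surjective _ Ideal.Quotient.mk_surjective
  have h2 := hL C₀ c π _ _ _ _ _ d (H.quot 𝔭) (hS.map (Ideal.Quotient.mk 𝔭) ⟨1, by
    rw [pow_one, map_maximalIdeal_of_surjective _ Ideal.Quotient.mk_surjective]⟩)
  rw [m1a_HS_quot, m1a_HS_quot] at h2
  exact h2

end Crest.Agent.R183
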