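import Crest.Agent.R183.Len

/-! # R183 / Mono : ring-level length lemmas (monomial filtrations, length certificates,
factorisation lemma, change of rings). -/

set_option autoImplicit false

namespace Crest.Agent.R183

section
variable {A : Type*} [CommRing A] {A' : Type*} [CommRing A']

/-- `Module.length_eq_of_surjective` / order iso of submodule lattices. -/
theorem cl_comap_surj (φ : A →+* A') (hφ : Function.Surjective φ) (I : Ideal A') :
    cl (I.comap φ) = cl I := by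
  let _ := φ.toAlgebra
  let f : A →ₗ[A] A' ⧸ I := (Ideal.Quotient.mkₐ A I).toLinearMap ∘ₗ Algebra.linearMap A A'
  have hf : Function.Surjective f := Ideal.Quotient.mk_surjective.comp hφ
  have hk : I.comap φ = LinearMap.ker f := by
    ext x
    exact (Ideal.Quotient.eq_zero_iff_mem (I := I) (a := φ x)).symm
  unfold cl
  rw [← Module.length_eq_of_surjective (S := A) (R := A') (M := A' ⧸ I) hφ]
  exact ((Submodule.quotEquivOfEq _ _ hk).trans (f.quotKerEquivOfSurjective hf)).length_eq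

theorem cl_map_surj (φ : A →+* A') (hφ : Function.Surjective φ) (I : Ideal A) :
    cl (I.map φ) = cl (I ⊔ RingHom.ker φ) := by
  rw [← cl_comap_surj φ hφ, Ideal.comap_map_of_surjective φ hφ, RingHom.ker_eq_comap_bot]

theorem cl_top : cl (⊤ : Ideal A) = 0 := by
  rw [cl_eq_len, len_eq_zero_iff]

theorem cl_maximal (𝔪 : Ideal A) [𝔪.IsMaximal] : cl 𝔪 = 1 := by
  unfold cl
  rw [Module.length_eq_one_iff, isSimpleModule_iff_isCoatom]
  exact Ideal.isMaximal_def.1 ‹_›

theorem one_le_cl {I : Ideal A} (h : I ≠ ⊤) : 1 ≤ cl I := by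
  rw [Order.one_le_iff_ne_zero, cl_eq_len, Ne, len_eq_zero_iff, top_le_iff]
  exact h

/-- `cl I = cl (I + θ) + cl (I : θ)` (`len_add`, `len_span_singleton`). -/
theorem cl_eq_add_colon (I : Ideal A) (θ : A) :
    cl I = cl (I ⊔ Ideal.span {θ}) + cl (I.colon {θ}) := by
  have h1 : I.colon {θ} = Submodule.comap (LinearMap.toSpanSingleton A A θ) I := by
    ext x
    simp [Submodule.mem_colon]
  rw [cl_eq_len, cl_eq_len, cl_eq_len, len_add (A' := I ⊔ Ideal.span {θ}) le_sup_left le_top, h1,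
    ← len_span_singleton, sup_comm, len_sup_left]

/-- the ideal spanned by the monomials `∏ y i ^ μ i`, `μ ∈ U` -/
def monI {r : ℕ} (y : Fin r → A) (U : Set (Fin r → ℕ)) : Ideal A :=
  Ideal.span ((fun μ => ∏ i, y i ^ μ i) '' U)

theorem monoA_mem {r : ℕ} (y : Fin r → A) {U : Set (Fin r → ℕ)} {μ : Fin r → ℕ} (h : μ ∈ U) :
    ∏ i, y i ^ μ i ∈ monI y U :=
  Ideal.subset_span ⟨μ, h, rfl⟩

theorem monoA_le {r : ℕ} (y : Fin r → A) {U : Set (Fin r → ℕ)} {J : Ideal A}
    (h : ∀ μ ∈ U, ∏ i, y i ^ μ i ∈ J) : monI y U ≤ J := by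
  refine Ideal.span_le.2 ?_
  rintro _ ⟨μ, hμ, rfl⟩
  exact h μ hμ

theorem monoA_single {r : ℕ} (y : Fin r → A) (j : Fin r) (q : ℕ) :
    ∏ i, y i ^ (Pi.single j q : Fin r → ℕ) i = y j ^ q := by
  rw [Finset.prod_eq_single j (fun i _ hi => by simp [Pi.single_eq_of_ne hi]) (by simp)]
  simp

theorem monoA_add_single {r : ℕ} (y : Fin r → A) (μ : Fin r → ℕ) (j : Fin r) :
    ∏ i, y i ^ (μ + Pi.single j 1 : Fin r → ℕ) i = (∏ i, y i ^ μ i) * y j := by
  simp only [Pi.add_apply, pow_add, Finset.prod_mul_distrib, monoA_single, pow_one]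

theorem monI_univ {r : ℕ} (y : Fin r → A) : monI y Set.univ = ⊤ := by
  rw [Ideal.eq_top_iff_one]
  simpa using monoA_mem y (Set.mem_univ 0)

theorem monI_deg {r : ℕ} (y : Fin r → A) (t : ℕ) :
    monI y {μ | t ≤ ∑ i, μ i} = Ideal.span (Set.range y) ^ t := by
  refine le_antisymm (monoA_le y fun μ hμ => ?_) ?_
  · refine Ideal.pow_le_pow_right hμ ?_
    rw [← Finset.prod_pow_eq_pow_sum]
    exact Ideal.prod_mem_prod fun i _ =>
      Ideal.pow_mem_pow (Ideal.subset_span (Set.mem_range_self i)) _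
  · induction t with
    | zero => simp [monI_univ]
    | succ t ih =>
      rw [pow_succ]
      refine (Ideal.mul_mono_left ih).trans ?_
      rw [monI, Ideal.span_mul_span', Ideal.span_le]
      rintro _ ⟨_, ⟨μ, hμ, rfl⟩, _, ⟨j, rfl⟩, rfl⟩
      have h := monoA_mem y (U := {μ | t + 1 ≤ ∑ i, μ i}) (μ := μ + Pi.single j 1) (by
        simpa [Finset.sum_add_distrib] using hμ)
      rwa [monoA_add_single] at h

theorem monI_frob {r : ℕ} (y : Fin r → A) (q : ℕ) :
    monI y {μ | ∃ i, q ≤ μ i} = Ideal.span (Set.range fun i => y i ^ q) := by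
  refine le_antisymm (monoA_le y ?_) (Ideal.span_le.2 ?_)
  · rintro μ ⟨j, hj⟩
    refine Ideal.mem_of_dvd _ ((pow_dvd_pow _ hj).trans
      (Finset.dvd_prod_of_mem (fun i => y i ^ μ i) (Finset.mem_univ j))) ?_
    exact Ideal.subset_span ⟨j, rfl⟩
  · rintro _ ⟨j, rfl⟩
    have h := monoA_mem y (U := {μ | ∃ i, q ≤ μ i}) (μ := Pi.single j q) ⟨j, by simp⟩
    rwa [monoA_single] at h

/-- MONOMIAL FILTRATION.  Induct on `s`, removing an element `μ` of maximal `∑ i, μ i` (then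
`U' ∪ {μ}` is again an upper set and `y i * y^μ ∈ monI y U'`; `len_cyclic_le`, `len_le_add`). -/
theorem len_monI_le {r : ℕ} (y : Fin r → A) (I : Ideal A) {U U' : Set (Fin r → ℕ)}
    (hU : IsUpperSet U) (hU' : IsUpperSet U') (s : Finset (Fin r → ℕ)) (hs : U \ U' ⊆ ↑s) :
    len (I ⊔ monI y U) (I ⊔ monI y U') ≤ s.card * cl (I ⊔ Ideal.span (Set.range y)) := by
  classical
  induction s using Finset.induction_on_max_value (fun μ : Fin r → ℕ => ∑ i, μ i)
    generalizing U' with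
  | empty =>
    have h : U ⊆ U' := fun μ hμ => by_contra fun hn => by simpa using hs ⟨hμ, hn⟩
    rw [len_eq_zero_iff.2 (sup_le_sup_left (monoA_le y fun μ hμ => monoA_mem y (h hμ)) I)]
    exact zero_le
  | insert a s has hmax ih =>
    rw [Finset.card_insert_of_notMem has, Nat.cast_succ, add_mul, one_mul]
    by_cases ha : a ∈ U \ U'
    swap
    · refine (ih hU' fun μ hμ => ?_).trans le_self_add
      rcases Finset.mem_insert.1 (Finset.mem_coe.1 (hs hμ)) with rfl | h
      · exact absurd hμ ha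
      · exact h
    have hgt : ∀ b, a < b → b ∈ U' := fun b hb => by
      by_contra hn
      have hlt : ∑ i, a i < ∑ i, b i := by
        obtain ⟨h1, j, hj⟩ := Pi.lt_def.1 hb
        exact Finset.sum_lt_sum (fun i _ => h1 i) ⟨j, Finset.mem_univ j, hj⟩
      rcases Finset.mem_insert.1 (Finset.mem_coe.1 (hs ⟨hU hb.le ha.1, hn⟩)) with rfl | h
      · exact lt_irrefl _ hlt
      · exact absurd (hmax b h) (not_le.2 hlt)
    have hup : IsUpperSet (insert a U') := by
      rintro b c hbc (rfl | hb)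
      · rcases hbc.eq_or_lt with rfl | h
        · exact Or.inl rfl
        · exact Or.inr (hgt c h)
      · exact Or.inr (hU' hbc hb)
    refine (len_le_add _ (I ⊔ monI y (insert a U')) _).trans (add_le_add (ih hup ?_) ?_)
    · intro μ hμ
      rcases Finset.mem_insert.1 (Finset.mem_coe.1
        (hs ⟨hμ.1, fun h => hμ.2 (Or.inr h)⟩)) with rfl | h
      · exact absurd (Or.inl rfl) hμ.2
      · exact h
    · have e : I ⊔ monI y (insert a U') =
          Submodule.span A {∏ i, y i ^ a i} ⊔ (I ⊔ monI y U') := by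
        rw [monI, Set.image_insert_eq, Ideal.span_insert, sup_left_comm]
        rfl
      rw [e, len_sup_left, cl_eq_len]
      refine len_cyclic_le _ _ _ ?_
      have hle : I ⊔ Ideal.span (Set.range y) ≤ Submodule.comap
          (LinearMap.toSpanSingleton A A (∏ i, y i ^ a i)) (I ⊔ monI y U') := by
        refine sup_le (fun b hb => Ideal.mem_sup_left (I.mul_mem_right _ hb)) (Ideal.span_le.2 ?_)
        rintro _ ⟨j, rfl⟩
        have h := monoA_mem y (hgt (a + Pi.single j 1)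
          (lt_add_of_pos_right _ (Pi.lt_def.2 ⟨zero_le, j, by simp⟩)))
        rw [monoA_add_single, mul_comm] at h
        exact Ideal.mem_sup_right h
      exact fun b hb => hle hb

theorem monob_exists_deg_eq (d t : ℕ) : ∃ s : Finset (Fin (d + 1) → ℕ),
    (∀ μ, μ ∈ s ↔ ∑ i, μ i = t) ∧ s.card = (t + d).choose d := by
  classical
  refine ⟨((Finset.univ : Finset (Fin (d + 1))).finsuppAntidiag t).map
    (Finsupp.equivFunOnFinite (α := Fin (d + 1)) (M := ℕ)).toEmbedding, fun μ => ?_, ?_⟩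
  · rw [Finset.mem_map_equiv, Finset.mem_finsuppAntidiag]
    simp
  · rw [Finset.card_map, Finset.card_finsuppAntidiag_nat_eq_choose, Finset.card_univ, Fintype.card_fin,
      show d + 1 + t - 1 = t + d by omega]
    exact Nat.choose_symm_add

theorem monob_isUpperSet_deg {r : ℕ} (t : ℕ) : IsUpperSet {μ : Fin r → ℕ | t ≤ ∑ i, μ i} := by
  intro μ ν h hμ
  exact le_trans hμ (Finset.sum_le_sum fun i _ => h i)

theorem monob_isUpperSet_frob {r : ℕ} (q : ℕ) : IsUpperSet {μ : Fin r → ℕ | ∃ i, q ≤ μ i} := by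
  rintro μ ν h ⟨i, hi⟩
  exact ⟨i, hi.trans (h i)⟩

theorem monob_cl_monI_le {r : ℕ} (y : Fin r → A) (I : Ideal A) {U : Set (Fin r → ℕ)}
    (hU : IsUpperSet U) (s : Finset (Fin r → ℕ)) (hs : ∀ μ, μ ∉ U → μ ∈ s) :
    cl (I ⊔ monI y U) ≤ s.card * cl (I ⊔ Ideal.span (Set.range y)) := by
  have h := len_monI_le y I isUpperSet_univ hU s (fun μ hμ => hs μ hμ.2)
  rwa [monI_univ, sup_top_eq, ← cl_eq_len] at h

theorem monob_mem_box {r : ℕ} {t : ℕ} {μ : Fin r → ℕ} (h : ∑ i, μ i < t) :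
    μ ∈ Fintype.piFinset fun _ : Fin r => Finset.range t := by
  rw [Fintype.mem_piFinset]
  intro i
  exact Finset.mem_range.2 (lt_of_le_of_lt
    (Finset.single_le_sum (f := μ) (fun _ _ => Nat.zero_le _) (Finset.mem_univ i)) h)

theorem monob_card_box (r t : ℕ) :
    (Fintype.piFinset fun _ : Fin r => Finset.range t).card = t ^ r := by
  rw [Fintype.card_piFinset]
  simp

/-- number of `μ : Fin (d+1) → ℕ` with `∑ μ < t` is `choose (t+d) (d+1)`; also `≤ t^r`. -/
theorem exists_finset_deg_lt (d t : ℕ) : ∃ s : Finset (Fin (d + 1) → ℕ),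
    (∀ μ, μ ∈ s ↔ ∑ i, μ i < t) ∧ s.card = (t + d).choose (d + 1) := by
  classical
  induction t with
  | zero => exact ⟨∅, by simp, by simp⟩
  | succ t ih =>
    obtain ⟨s, hs, hc⟩ := ih
    obtain ⟨s', hs', hc'⟩ := monob_exists_deg_eq d t
    have hd : Disjoint s s' := Finset.disjoint_left.2 fun μ h h' => by
      have h1 := (hs μ).1 h
      have h2 := (hs' μ).1 h'
      omega
    refine ⟨s ∪ s', fun μ => ?_, ?_⟩
    · rw [Finset.mem_union, hs, hs']
      omega
    · rw [Finset.card_union_of_disjoint hd, hc, hc', show t + 1 + d = (t + d) + 1 by omega,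
        Nat.choose_succ_succ', add_comm]

theorem exists_finset_deg_eq (d t : ℕ) : ∃ s : Finset (Fin (d + 1) → ℕ),
    (∀ μ, μ ∈ s ↔ ∑ i, μ i = t) ∧ s.card = (t + d).choose d :=
  monob_exists_deg_eq d t

theorem cl_pow_le {d : ℕ} (y : Fin (d + 1) → A) (I : Ideal A) (t : ℕ) :
    cl (I ⊔ Ideal.span (Set.range y) ^ t) ≤
      ((t + d).choose (d + 1) : ℕ) * cl (I ⊔ Ideal.span (Set.range y)) := by
  obtain ⟨s, hs, hc⟩ := exists_finset_deg_lt d t
  rw [← monI_deg, ← hc]
  exact monob_cl_monI_le y I (monob_isUpperSet_deg t) s fun μ hμ => (hs μ).2 (not_le.1 hμ)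

theorem cl_pow_le' {r : ℕ} (y : Fin r → A) (I : Ideal A) (t : ℕ) :
    cl (I ⊔ Ideal.span (Set.range y) ^ t) ≤
      (t ^ r : ℕ) * cl (I ⊔ Ideal.span (Set.range y)) := by
  rw [← monI_deg, ← monob_card_box]
  exact monob_cl_monI_le y I (monob_isUpperSet_deg t) _ fun μ hμ => monob_mem_box (not_le.1 hμ)

theorem cl_frob_le {r : ℕ} (y : Fin r → A) (I : Ideal A) (q : ℕ) :
    cl (I ⊔ Ideal.span (Set.range fun i => y i ^ q)) ≤
      (q ^ r : ℕ) * cl (I ⊔ Ideal.span (Set.range y)) := by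
  rw [← monI_frob, ← monob_card_box]
  refine monob_cl_monI_le y I (monob_isUpperSet_frob q) _ fun μ hμ => ?_
  rw [Fintype.mem_piFinset]
  intro i
  exact Finset.mem_range.2 (not_le.1 fun h => hμ ⟨i, h⟩)

/-- `#([0,k)^(d+1)) - #{|μ| < k}` steps between `(y)^k` and `(y_i^k)`. -/
theorem cl_frob_le_pow {d : ℕ} (y : Fin (d + 1) → A) (I : Ideal A) (k : ℕ) :
    cl (I ⊔ Ideal.span (Set.range fun i => y i ^ k)) ≤ cl (I ⊔ Ideal.span (Set.range y) ^ k) +
      (k ^ (d + 1) - (k + d).choose (d + 1) : ℕ) * cl (I ⊔ Ideal.span (Set.range y)) := by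
  classical
  obtain ⟨s, hs, hc⟩ := exists_finset_deg_lt d k
  have hsub : s ⊆ Fintype.piFinset fun _ : Fin (d + 1) => Finset.range k :=
    fun μ hμ => monob_mem_box ((hs μ).1 hμ)
  have h := len_monI_le y I (monob_isUpperSet_deg k) (monob_isUpperSet_frob k)
    ((Fintype.piFinset fun _ : Fin (d + 1) => Finset.range k) \ s) (fun μ hμ => by
      rw [Finset.mem_coe, Finset.mem_sdiff, Fintype.mem_piFinset, hs]
      exact ⟨fun i => Finset.mem_range.2 (not_le.1 fun h => hμ.2 ⟨i, h⟩), not_lt.2 hμ.1⟩)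
  rw [Finset.card_sdiff_of_subset hsub, monob_card_box, hc, monI_deg, monI_frob] at h
  rw [cl_eq_len, cl_eq_len (I ⊔ Ideal.span (Set.range y) ^ k)]
  exact (len_le_add _ _ _).trans (add_le_add_right h _)

theorem choose_le_pow_succ (d k : ℕ) : (k + d).choose (d + 1) ≤ k ^ (d + 1) := by
  obtain ⟨s, hs, hc⟩ := exists_finset_deg_lt d k
  rw [← hc, ← monob_card_box]
  exact Finset.card_le_card fun μ hμ => monob_mem_box ((hs μ).1 hμ)

/-- pigeonhole via `monI_deg`: if `∑ μ i ≥ (t+r) q` then `∑ (μ i / q) ≥ t`. -/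
theorem pow_le_frob_pow {r : ℕ} (y : Fin r → A) {q : ℕ} (hq : 1 ≤ q) (t : ℕ) :
    Ideal.span (Set.range y) ^ ((t + r) * q) ≤ Ideal.span (Set.range fun i => y i ^ q) ^ t := by
  rw [← monI_deg, ← monI_deg]
  refine monoA_le y fun μ hμ => ?_
  have h1 : ∑ i, μ i ≤ (∑ i, μ i / q + r) * q := by
    calc ∑ i, μ i ≤ ∑ i : Fin r, (μ i / q + 1) * q :=
          Finset.sum_le_sum fun i _ => by
            have := Nat.div_add_mod (μ i) q
            have := Nat.mod_lt (μ i) hq
            nlinarith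
      _ = _ := by rw [← Finset.sum_mul, Finset.sum_add_distrib]; simp
  have h2 : t ≤ ∑ i, μ i / q := by
    have := Nat.le_of_mul_le_mul_right (le_trans hμ h1) hq
    omega
  refine Ideal.mem_of_dvd _ ?_
    (monoA_mem (fun i => y i ^ q) (U := {μ | t ≤ ∑ i, μ i}) (μ := fun i => μ i / q) h2)
  exact Finset.prod_dvd_prod_of_dvd _ _ fun i _ => by
    rw [← pow_mul]
    exact pow_dvd_pow _ (Nat.mul_div_le _ _)

theorem pow_le_frob {r : ℕ} (y : Fin (r + 1) → A) (q : ℕ) :
    Ideal.span (Set.range y) ^ ((r + 1) * q) ≤ Ideal.span (Set.range fun i => y i ^ q) := by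
  rw [← monI_deg, ← monI_frob]
  refine monoA_le y fun μ hμ => monoA_mem y ?_
  by_contra hn
  have h1 : ∑ i, μ i < ∑ _i : Fin (r + 1), q :=
    Finset.sum_lt_sum_of_nonempty Finset.univ_nonempty fun i _ =>
      not_le.1 fun h => hn ⟨i, h⟩
  simp only [Finset.sum_const, Finset.card_univ, Fintype.card_fin, smul_eq_mul] at h1
  exact absurd hμ (not_le.2 h1)

theorem span_pow_eq_words {r : ℕ} (y : Fin r → A) (k : ℕ) :
    Ideal.span (Set.range y) ^ k = Ideal.span (Set.range fun f : Fin k → Fin r => ∏ j, y (f j)) := by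
  rw [Ideal.span, Submodule.span_pow]
  congr 1
  ext a
  rw [Set.mem_pow]
  constructor
  · rintro ⟨g, rfl⟩
    choose f hf using fun j => (g j).2
    exact ⟨f, by simp [List.prod_ofFn, hf]⟩
  · rintro ⟨f, rfl⟩
    exact ⟨fun j => ⟨y (f j), f j, rfl⟩, by simp [List.prod_ofFn]⟩

/-- length certificate: a chain from `I` to `⊤` with `L` cyclic steps killed by `𝔪`. -/
def LenLe (𝔪 I : Ideal A) (L : ℕ) : Prop :=
  ∃ θ : Fin L → A, (∀ r, ∀ x ∈ 𝔪, x * θ r ∈ I ⊔ Ideal.span (θ '' {s | s < r})) ∧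
    I ⊔ Ideal.span (Set.range θ) = ⊤

theorem LenLe.map {𝔪 I : Ideal A} {L : ℕ} (h : LenLe 𝔪 I L) (φ : A →+* A') :
    LenLe (𝔪.map φ) (I.map φ) L := by
  obtain ⟨θ, h1, h2⟩ := h
  refine ⟨φ ∘ θ, fun r x hx => ?_, ?_⟩
  · have h3 : 𝔪.map φ ≤ (I.map φ ⊔ Ideal.span ((φ ∘ θ) '' {s | s < r})).colon {φ (θ r)} := by
      refine Ideal.map_le_iff_le_comap.2 fun y hy => ?_
      have h4 := Ideal.mem_map_of_mem φ (h1 r y hy)
      rw [Ideal.map_sup, Ideal.map_span, map_mul, ← Set.image_comp] at h4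
      exact Submodule.mem_colon_singleton.2 h4
    exact Submodule.mem_colon_singleton.1 (h3 hx)
  · rw [Set.range_comp, ← Ideal.map_span, ← Ideal.map_sup, h2, Ideal.map_top]

theorem LenLe.mono {𝔪 𝔪' I I' : Ideal A} {L : ℕ} (h : LenLe 𝔪 I L) (h𝔪 : 𝔪' ≤ 𝔪) (hI : I ≤ I') :
    LenLe 𝔪' I' L := by
  obtain ⟨θ, h1, h2⟩ := h
  refine ⟨θ, fun r x hx => sup_le_sup_right hI _ (h1 r x (h𝔪 hx)), ?_⟩
  rw [eq_top_iff, ← h2]
  exact sup_le_sup_right hI _

theorem LenLe.comap_surj {𝔪 I : Ideal A'} {L : ℕ} (h : LenLe 𝔪 I L) (φ : A →+* A')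
    (hφ : Function.Surjective φ) : LenLe (𝔪.comap φ) (I.comap φ) L := by
  obtain ⟨θ, h1, h2⟩ := h
  choose θ' hθ using fun r => hφ (θ r)
  have key : ∀ S : Set (Fin L), (I ⊔ Ideal.span (θ '' S)).comap φ = I.comap φ ⊔ Ideal.span (θ' '' S) := by
    intro S
    have h3 : (I.comap φ ⊔ Ideal.span (θ' '' S)).map φ = I ⊔ Ideal.span (θ '' S) := by
      rw [Ideal.map_sup, Ideal.map_comap_of_surjective φ hφ, Ideal.map_span, ← Set.image_comp]
      congr 3
      exact funext hθ
    rw [← h3, Ideal.comap_map_of_surjective φ hφ, sup_eq_left]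
    exact le_sup_of_le_left (Ideal.comap_mono bot_le)
  refine ⟨θ', fun r x hx => ?_, ?_⟩
  · rw [← key, Ideal.mem_comap, map_mul, hθ]
    exact h1 r _ hx
  · rw [← Set.image_univ, ← key, Set.image_univ, h2, Ideal.comap_top]

theorem len_chain_le {B : Type*} [CommRing B] {X : Type*} [AddCommGroup X] [Module B X] (J : ℕ → Submodule B X)
    (L : ℕ) (c : ℕ∞) (h : ∀ k < L, len (J (k + 1)) (J k) ≤ c) : len (J L) (J 0) ≤ L * c := by
  induction L with
  | zero => exact (len_eq_zero_iff.2 le_rfl).le.trans zero_le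
  | succ L ih =>
    refine (len_le_add _ (J L) _).trans ?_
    push_cast
    rw [add_mul, one_mul, add_comm]
    exact add_le_add (ih fun k hk => h k (by omega)) (h L (by omega))

theorem span_image_succ {L : ℕ} (θ : Fin L → A) {k : ℕ} (hk : k < L) :
    Ideal.span (θ '' {s | s.val < k + 1}) = Ideal.span (θ '' {s | s.val < k}) ⊔ Ideal.span {θ ⟨k, hk⟩} := by
  rw [← Ideal.span_union, ← Set.image_singleton, ← Set.image_union]
  congr 2
  ext s
  simp only [Set.mem_ofPred_eq, Set.mem_union, Set.mem_singleton_iff, Fin.ext_iff]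
  omega

theorem span_image_top {L : ℕ} (θ : Fin L → A) :
    Ideal.span (θ '' {s | s.val < L}) = Ideal.span (Set.range θ) := by
  rw [← Set.image_univ]
  congr 2
  ext s
  simp

theorem LenLe.cl_le {𝔪 I : Ideal A} {L : ℕ} (h : LenLe 𝔪 I L) : cl I ≤ L * cl 𝔪 := by
  obtain ⟨θ, h1, h2⟩ := h
  have h3 := len_chain_le (fun k => (I ⊔ Ideal.span (θ '' {s | s.val < k}) : Ideal A)) L (cl 𝔪) fun k hk => by
    rw [span_image_succ θ hk, ← sup_assoc, sup_comm, len_sup_left, cl_eq_len]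
    exact len_cyclic_le _ _ _ fun b hb => h1 ⟨k, hk⟩ b hb
  rw [span_image_top, h2] at h3
  simpa [cl_eq_len] using h3

/-- Induct on `L` (generalising `I`): if `I ≠ ⊤` pick `θ ∉ I` with `𝔪 θ ≤ I` (last nonzero
`𝔪^j (A/I)`); `cl (I + θ) + 1 ≤ cl I`; use `Fin.cons`.  If `I = ⊤` take `θ = 0`. -/
theorem lenLe_of_cl_le {𝔪 I : Ideal A} {N : ℕ} (hN : 𝔪 ^ N ≤ I) {L : ℕ} (h : cl I ≤ L) :
    LenLe 𝔪 I L := by
  induction L generalizing I with
  | zero =>
    have hI : I = ⊤ := by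
      by_contra hI
      exact absurd ((one_le_cl hI).trans h) (by simp)
    exact ⟨0, fun r => r.elim0, by simp [hI]⟩
  | succ L ih =>
    by_cases hI : I = ⊤
    · exact ⟨0, fun r x _ => by simp [hI], by simp [hI]⟩
    classical
    have hex : ∃ j, 𝔪 ^ j ≤ I := ⟨N, hN⟩
    have h0 : Nat.find hex ≠ 0 := by
      intro h0
      have h1 := Nat.find_spec hex
      rw [h0, pow_zero, Ideal.one_eq_top, top_le_iff] at h1
      exact hI h1
    obtain ⟨j, hj⟩ := Nat.exists_eq_succ_of_ne_zero h0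
    have h1 : 𝔪 ^ (j + 1) ≤ I := by
      have := Nat.find_spec hex
      rwa [hj] at this
    obtain ⟨θ₀, h2, h3⟩ := SetLike.not_le_iff_exists.1 (Nat.find_min hex (show j < Nat.find hex by omega))
    have h4 : I.colon {θ₀} ≠ ⊤ := by
      intro h4
      have : (1 : A) ∈ I.colon {θ₀} := h4 ▸ Submodule.mem_top
      rw [Submodule.mem_colon_singleton, one_smul] at this
      exact h3 this
    have h5 : cl (I ⊔ Ideal.span {θ₀}) ≤ L := by
      have h6 : cl (I ⊔ Ideal.span {θ₀}) + 1 ≤ (L : ℕ∞) + 1 := by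
        refine (add_le_add_right (one_le_cl h4) _).trans ?_
        rw [← cl_eq_add_colon]
        exact_mod_cast h
      exact (ENat.add_le_add_iff_right (by simp)).1 h6
    obtain ⟨θ, h6, h7⟩ := ih (hN.trans le_sup_left) h5
    have key : ∀ (S : Set (Fin L)) (T : Set (Fin (L + 1))), 0 ∈ T → (∀ s ∈ S, s.succ ∈ T) →
        I ⊔ Ideal.span {θ₀} ⊔ Ideal.span (θ '' S) ≤
          I ⊔ Ideal.span ((Fin.cons θ₀ θ : Fin (L + 1) → A) '' T) := by
      intro S T hT hS
      rw [sup_assoc, ← Ideal.span_union]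
      refine sup_le_sup_left (Ideal.span_mono ?_) _
      rintro x (rfl | ⟨s, hs, rfl⟩)
      · exact ⟨0, hT, rfl⟩
      · exact ⟨s.succ, hS s hs, rfl⟩
    refine ⟨Fin.cons θ₀ θ, fun r x hx => ?_, ?_⟩
    · induction r using Fin.cases with
      | zero =>
        refine Ideal.mem_sup_left (h1 ?_)
        rw [pow_succ']
        exact Ideal.mul_mem_mul hx h2
      | succ r =>
        exact key _ _ (Fin.succ_pos r) (fun s hs => Fin.succ_lt_succ_iff.2 hs) (h6 r x hx)
    · rw [eq_top_iff, ← h7, ← Set.image_univ, ← Set.image_univ]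
      exact key _ _ trivial fun _ _ => trivial

/-- restriction of scalars does not increase length when residue fields agree. -/
theorem length_restrict_le [Algebra A A'] {𝔪 : Ideal A} [𝔪.IsMaximal] {𝔪' I : Ideal A'}
    (h𝔪 : 𝔪.map (algebraMap A A') ≤ 𝔪') (hres : ∀ t : A', ∃ c : A, t - algebraMap A A' c ∈ 𝔪')
    {N : ℕ} (hN : 𝔪' ^ N ≤ I) : Module.length A (A' ⧸ I) ≤ cl I := by
  by_cases hI : cl I = ⊤
  · rw [hI]
    exact le_top
  obtain ⟨L, hL⟩ := ENat.ne_top_iff_exists.1 hI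
  obtain ⟨θ, h1, h2⟩ := lenLe_of_cl_le hN hL.ge
  have h3 := len_chain_le
    (fun k => (I ⊔ Ideal.span (θ '' {s | s.val < k}) : Ideal A').restrictScalars A) L 1 fun k hk => by
    rw [span_image_succ θ hk, ← sup_assoc]
    have h4 : ∀ x ∈ 𝔪', x * θ ⟨k, hk⟩ ∈ I ⊔ Ideal.span (θ '' {s | s.val < k}) := h1 ⟨k, hk⟩
    generalize I ⊔ Ideal.span (θ '' {s | s.val < k}) = J at h4 ⊢
    have h5 : (J ⊔ Ideal.span {θ ⟨k, hk⟩}).restrictScalars A ≤
        Submodule.span A {θ ⟨k, hk⟩} ⊔ J.restrictScalars A := by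
      intro x hx
      obtain ⟨y, hy, z, hz, rfl⟩ := Submodule.mem_sup.1 (show x ∈ J ⊔ Ideal.span {θ ⟨k, hk⟩} from hx)
      obtain ⟨t, rfl⟩ := Ideal.mem_span_singleton'.1 hz
      obtain ⟨c, hc⟩ := hres t
      refine Submodule.mem_sup.2 ⟨c • θ ⟨k, hk⟩, Submodule.smul_mem _ _ (Submodule.mem_span_singleton_self _),
        y + (t - algebraMap A A' c) * θ ⟨k, hk⟩, J.add_mem hy (h4 _ hc), ?_⟩
      rw [Algebra.smul_def]
      ring
    refine (len_mono h5 le_rfl).trans ?_
    rw [len_sup_left, ← cl_maximal 𝔪, cl_eq_len]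
    refine len_cyclic_le _ _ _ fun b hb => ?_
    rw [Algebra.smul_def]
    exact h4 _ (h𝔪 (Ideal.mem_map_of_mem _ hb))
  rw [span_image_top, h2] at h3
  simp only [Nat.not_lt_zero, Set.ofPred_false, Set.image_empty, Ideal.span_empty, sup_bot_eq,
    Submodule.restrictScalars_top, mul_one] at h3
  rw [len_top, (Submodule.Quotient.restrictScalarsEquiv A I).length_eq] at h3
  exact h3.trans hL.le

/-- FACTORISATION LEMMA.  `π j = ∏_{i<j} φ i`; `cl I ≥ ∑ len (I + π j) (I + π (j+1))`, and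
`len (I + π j) (I + π j φ j) = cl ((I : π j) + φ j)`, `len ((I:π j) + φ j) (I + φ j) ≤ kap (Δ j) ⊤ I`
by `len_le_kap`. -/
theorem fact_lemma {r : ℕ} (I : Ideal A) (hI : cl I ≠ ⊤) (φ Δ : Fin r → A)
    (h : ∀ j x, (∏ i ∈ Finset.univ.filter (· < j), φ i) * x ∈ I →
      Δ j * x ∈ I ⊔ Ideal.span {φ j}) :
    ∑ j, cl (I ⊔ Ideal.span {φ j}) ≤ cl I + ∑ j, cl (I ⊔ Ideal.span {Δ j}) := by
  let π : ℕ → A := fun k => ∏ i ∈ Finset.univ.filter (fun i : Fin r => i.val < k), φ i
  have hπ : ∀ j : Fin r, π (j + 1) = π j * φ j := by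
    intro j
    have : Finset.univ.filter (fun i : Fin r => i.val < j + 1) =
        insert j (Finset.univ.filter (fun i : Fin r => i.val < j)) := by
      ext i
      simp only [Finset.mem_filter, Finset.mem_univ, true_and, Finset.mem_insert, Fin.ext_iff]
      omega
    simp only [π]
    rw [this, Finset.prod_insert (by simp), mul_comm]
  let J : ℕ → Ideal A := fun k => I ⊔ Ideal.span {π k}
  have h1 : ∀ k ≤ r, ∑ j ∈ Finset.range k, len (J j) (J (j + 1)) = len ⊤ (J k) := by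
    intro k hk
    induction k with
    | zero =>
      rw [Finset.sum_range_zero, eq_comm, len_eq_zero_iff]
      simp [J, π]
    | succ k ih =>
      rw [Finset.sum_range_succ, ih (by omega), ← len_add ?_ le_top]
      refine sup_le_sup_left ?_ _
      rw [Ideal.span_singleton_le_span_singleton]
      exact ⟨_, hπ ⟨k, hk⟩⟩
  have h2 : ∀ j : Fin r, cl (I ⊔ Ideal.span {φ j}) ≤ len (J j) (J (j + 1)) + cl (I ⊔ Ideal.span {Δ j}) := by
    intro j
    rw [cl_eq_len, cl_eq_len]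
    refine (len_le_add _ (I.colon {π j} ⊔ Ideal.span {φ j} : Ideal A) _).trans (add_le_add ?_ ?_)
    · refine le_trans ?_ (len_mono (A₁ := Submodule.span A {π j}) le_sup_right le_rfl)
      rw [len_span_singleton]
      refine len_mono le_rfl fun b hb => ?_
      obtain ⟨a, ha, z, hz, h3⟩ := Submodule.mem_sup.1 (show b * π j ∈ I ⊔ Ideal.span {π (j + 1)} from hb)
      obtain ⟨c, rfl⟩ := Ideal.mem_span_singleton'.1 hz
      refine Submodule.mem_sup.2 ⟨b - c * φ j, ?_, c * φ j, Ideal.mem_span_singleton'.2 ⟨c, rfl⟩, by ring⟩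
      rw [Submodule.mem_colon_singleton, smul_eq_mul, sub_mul, ← h3, hπ]
      convert ha using 1
      ring
    · rw [← kap_top_ideal]
      refine len_le_kap _ le_sup_left (le_top.trans le_sup_left) (by rwa [← cl_eq_len]) fun x hx => ?_
      obtain ⟨a, ha, z, hz, rfl⟩ := Submodule.mem_sup.1 hx
      rw [Submodule.mem_colon_singleton, smul_eq_mul, mul_comm] at ha
      rw [smul_eq_mul, mul_add]
      exact Ideal.add_mem _ (h j a ha) (Ideal.mul_mem_left _ _ (Ideal.mem_sup_right hz))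
  refine (Finset.sum_le_sum fun j _ => h2 j).trans ?_
  rw [Finset.sum_add_distrib, Fin.sum_univ_eq_sum_range (fun j => len (J j) (J (j + 1))) r, h1 r le_rfl,
    ← cl_eq_len]
  exact add_le_add_left (cl_anti le_sup_left) _

end

end Crest.Agent.R183
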