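import Crest.Agent.R183.Mono
import Crest.Agent.R183.Growth

/-! # R183 / Nag : Lech–Nagata inequality `Σ² H_{S_P} ≤ Σ H_S` for `dim S/P = 1`. -/

set_option autoImplicit false
open Polynomial IsLocalRing Pointwise

namespace Crest.Agent.R183

/-- `H R N = length (R / 𝔪^N)` -/
noncomputable def HS (R : Type) [CommRing R] [IsLocalRing R] (N : ℕ) : ℕ∞ := cl (maximalIdeal R ^ N)

section KA
variable {D : Type} [CommRing D] [IsDomain D] [IsNoetherianRing D] [Ring.KrullDimLE 1 D]

/-- `D / I` is Noetherian of dimension `0`, hence Artinian (`isArtinianRing_iff_isNoetherianRing_krullDimLE_zero`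
or similar), `Module.length_ne_top`. -/
theorem cl_ne_top_of_ne_bot {I : Ideal D} (hI : I ≠ ⊥) : cl I ≠ ⊤ := by
  have h0 : Ring.KrullDimLE 0 (D ⧸ I) :=
    Ideal.krullDimLE_zero_quotient_iff_forall_minimalPrimes_isMaximal.2 fun J hJ =>
      hJ.1.1.isMaximal_of_ne_bot fun h => hI (le_bot_iff.1 (h ▸ hJ.1.2))
  have h1 : IsArtinianRing (D ⧸ I) := IsNoetherianRing.isArtinianRing_of_krullDimLE_zero
  have h2 : IsArtinian D (D ⧸ I) := isArtinian_of_surjective_algebraMap (R := D ⧸ I) Ideal.Quotient.mk_surjective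
  exact Module.length_ne_top

omit [IsDomain D] [IsNoetherianRing D] [Ring.KrullDimLE 1 D] in
theorem naga_len_map_inj {X Y : Type*} [AddCommGroup X] [Module D X] [AddCommGroup Y] [Module D Y] (f : X →ₗ[D] Y)
    (hf : Function.Injective f) (A A' : Submodule D X) : len (A.map f) (A'.map f) = len A A' := by
  rw [len_map, Submodule.comap_map_eq_of_injective hf]

/-- `cl (aI) = cl I + len I (aI) = cl (a) + len (aD) (aI) = cl (a) + cl I` (`len_add`, `len_map`). -/
theorem ka_ideal (I : Ideal D) {a : D} (ha : a ≠ 0) :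
    len (I : Submodule D D) (a • I) ≤ cl (Ideal.span {a}) := by
  rcases eq_or_ne I ⊥ with rfl | hI
  · exact (len_eq_zero_iff.2 bot_le).trans_le zero_le
  have hinj : Function.Injective (LinearMap.lsmul D D a) := fun x y h => mul_left_cancel₀ ha h
  have e1 : a • I = Submodule.map (LinearMap.lsmul D D a) I := rfl
  have e2 : Ideal.span {a} = Submodule.map (LinearMap.lsmul D D a) ⊤ := by
    ext x
    simp [Ideal.mem_span_singleton, dvd_def, eq_comm]
  have h1 := len_add (A := ⊤) (Submodule.smul_le_self_of_tower a I) le_top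
  have h2 := len_add (A := ⊤) (A' := Ideal.span {a}) (A'' := a • I) (by rw [e1, e2]; exact Submodule.map_mono le_top)
    le_top
  have h3 : len (Ideal.span {a}) (a • I) = len ⊤ I := by rw [e1, e2, naga_len_map_inj _ hinj]
  rw [h1, h3, ← cl_eq_len, ← cl_eq_len, add_comm] at h2
  exact (WithTop.add_right_cancel (cl_ne_top_of_ne_bot hI) h2).le

/-- if every finitely generated `N ≤ M` has `len N M' ≤ L` then `len M M' ≤ L`: a chain of length
`L+1` in `M.map M'.mkQ` is witnessed by finitely many elements (`Module.length_eq_height`/`LTSeries`,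
or induct on `L` using `len_span_singleton`-type lemmas). -/
theorem len_le_of_fg {B : Type*} [CommRing B] {X : Type*} [AddCommGroup X] [Module B X]
    (M M' : Submodule B X) (L : ℕ) (h : ∀ N ≤ M, N.FG → len N M' ≤ L) : len M M' ≤ L := by
  have key : ∀ L : ℕ, (∀ N ≤ M, N.FG → len N M' ≤ L) → ∀ N₀ ≤ M, N₀.FG → L ≤ len N₀ M' → len M M' ≤ L := by
    intro L h N₀ h0 hf hL
    have h1 : M ≤ N₀ ⊔ M' := fun x hx => by
      have h2 := h (N₀ ⊔ Submodule.span B {x}) (sup_le h0 ((Submodule.span_singleton_le_iff_mem _ _).2 hx))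
        (hf.sup (Submodule.fg_span_singleton x))
      rw [← len_sup_left, len_add (A' := N₀ ⊔ M') le_sup_right (sup_le_sup_right le_sup_left _), len_sup_left] at h2
      have h3 := (add_le_add_right hL _).trans (h2.trans_eq (zero_add _).symm)
      exact len_eq_zero_iff.1 (le_zero_iff.1 ((WithTop.add_le_add_iff_right (ENat.natCast_ne_top L)).1 h3))
        (Submodule.mem_sup_left (Submodule.mem_sup_right (Submodule.mem_span_singleton_self x)))
    exact (len_mono h1 le_rfl).trans ((len_sup_left _ _).trans_le (h N₀ h0 hf))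
  induction L with
  | zero => exact key 0 h ⊥ bot_le Submodule.fg_bot zero_le
  | succ L ih =>
    by_cases h' : ∀ N ≤ M, N.FG → len N M' ≤ L
    · exact (ih h').trans (by exact_mod_cast L.le_succ)
    · simp only [not_forall, not_le] at h'
      obtain ⟨N₀, h0, hf, hL⟩ := h'
      exact key _ h N₀ h0 hf (Order.add_one_le_of_lt hL)

/-- KRULL–AKIZUKI lemma.  A f.g. `N ≤ K` is isomorphic to an ideal (clear denominators:
`IsLocalization.exist_integer_multiples_of_finset`, or `FractionalIdeal`). -/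
theorem ka_len {K : Type} [Field K] [Algebra D K] [IsFractionRing D K] (M : Submodule D K) {a : D}
    (ha : a ≠ 0) : len M (a • M) ≤ cl (Ideal.span {a}) := by
  obtain ⟨L, hL⟩ := ENat.ne_top_iff_exists.1 (cl_ne_top_of_ne_bot (Ideal.span_singleton_eq_bot.not.2 ha))
  rw [← hL]
  refine len_le_of_fg _ _ L fun N hN hf => ?_
  obtain ⟨d, hd, h⟩ := FractionalIdeal.isFractional_of_fg (S := nonZeroDivisors D) hf
  have hd' : algebraMap D K d ≠ 0 := IsFractionRing.to_map_ne_zero_of_mem_nonZeroDivisors hd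
  obtain ⟨f, hf⟩ : ∃ f : D →ₗ[D] K, ∀ x, f x = algebraMap D K x * (algebraMap D K d)⁻¹ :=
    ⟨LinearMap.toSpanSingleton D K (algebraMap D K d)⁻¹, fun x => Algebra.smul_def _ _⟩
  have hinj : Function.Injective f := fun x y e => by
    rw [hf, hf] at e
    exact IsFractionRing.injective D K (mul_right_cancel₀ (inv_ne_zero hd') e)
  have e : (N.comap f).map f = N := Submodule.map_comap_eq_self fun b hb => by
    obtain ⟨c, hc⟩ := h b hb
    exact ⟨c, by rw [hf, hc, Algebra.smul_def, mul_comm _ b, mul_inv_cancel_right₀ hd']⟩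
  have hm : a • N ≤ a • M := Submodule.map_mono hN
  refine (len_mono le_rfl hm).trans ?_
  rw [← e, ← Submodule.map_pointwise_smul, naga_len_map_inj f hinj, hL]
  exact ka_ideal _ ha

end KA

theorem naga_precomplete_pi {R : Type*} [CommRing R] (I : Ideal R) [h : IsPrecomplete I R] (r : ℕ) :
    IsPrecomplete I (Fin r → R) := by
  refine ⟨fun f hf => ?_⟩
  choose L hL using fun i : Fin r => h.prec (f := fun n => f n i) fun {m n} hmn =>
    SModEq.sub_mem.2 (Submodule.smul_top_le_comap_smul_top (I ^ m) (LinearMap.proj (R := R) (φ := fun _ => R) i)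
      (SModEq.sub_mem.1 (hf hmn)))
  refine ⟨L, fun n => SModEq.sub_mem.2 ?_⟩
  rw [← Finset.univ_sum_single (f n - L)]
  exact Submodule.sum_mem _ fun i _ => Submodule.smul_top_le_comap_smul_top (I ^ n)
    (LinearMap.single R (fun _ => R) i) (SModEq.sub_mem.1 (hL i n))

/-- complete Nakayama (`surjective_of_mkQ_comp_surjective` with `M = Fin r → R`). -/
theorem finite_of_precomplete {R : Type*} [CommRing R] (I : Ideal R) [IsPrecomplete I R]
    (M : Type*) [AddCommGroup M] [Module R M] [IsHausdorff I M]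
    [Module.Finite R (M ⧸ (I • ⊤ : Submodule R M))] : Module.Finite R M := by
  obtain ⟨n, f, hf⟩ := Module.Finite.exists_fin' R (M ⧸ (I • ⊤ : Submodule R M))
  obtain ⟨g, hg⟩ := Module.projective_lifting_property (I • ⊤ : Submodule R M).mkQ f (Submodule.mkQ_surjective _)
  have := naga_precomplete_pi I n
  exact Module.Finite.of_surjective g (surjective_of_mkQ_comp_surjective (I := I) (hg ▸ hf))

/-- the elements whose valuation satisfies a downward closed condition -/
def nagbSub {D K : Type} [CommRing D] [Field K] [Algebra D K] (V : ValuationSubring K)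
    (h : ∀ x : D, algebraMap D K x ∈ V) (P : V.ValueGroup → Prop) (h0 : P 0)
    (hP : ∀ a b, a ≤ b → P b → P a) : Submodule D K where
  carrier := {x | P (V.valuation x)}
  add_mem' := fun {x y} hx hy => by
    rcases le_total (V.valuation x) (V.valuation y) with h1 | h1
    · exact hP _ _ ((V.valuation.map_add x y).trans (max_le h1 le_rfl)) hy
    · exact hP _ _ ((V.valuation.map_add x y).trans (max_le le_rfl h1)) hx
  zero_mem' := by simpa using h0
  smul_mem' := fun d x hx => by
    refine hP _ _ ?_ hx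
    rw [Algebra.smul_def, map_mul]
    exact mul_le_of_le_one_left' ((V.valuation_le_one_iff _).2 (h d))

theorem nagb_mem {D K : Type} [CommRing D] [Field K] [Algebra D K] (V : ValuationSubring K)
    (h : ∀ x : D, algebraMap D K x ∈ V) (P : V.ValueGroup → Prop) (h0 : P 0)
    (hP : ∀ a b, a ≤ b → P b → P a) (x : K) : x ∈ nagbSub V h P h0 hP ↔ P (V.valuation x) := Iff.rfl

/-- `V` as a `D`-submodule of `K` -/
def nagbV {D K : Type} [CommRing D] [Field K] [Algebra D K] (V : ValuationSubring K)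
    (h : ∀ x : D, algebraMap D K x ∈ V) : Submodule D K :=
  nagbSub V h (· ≤ 1) zero_le_one fun _ _ h1 h2 => h1.trans h2

theorem nagb_memV {D K : Type} [CommRing D] [Field K] [Algebra D K] (V : ValuationSubring K)
    (h : ∀ x : D, algebraMap D K x ∈ V) (x : K) : x ∈ nagbV V h ↔ x ∈ V :=
  V.valuation_le_one_iff x

theorem nagb_span {D K : Type} [CommRing D] [Field K] [Algebra D K] (V : ValuationSubring K)
    (h : ∀ x : D, algebraMap D K x ∈ V) : Submodule.span D (V : Set K) = nagbV V h := by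
  rw [← Submodule.span_eq (nagbV V h)]
  congr 1
  ext x
  exact (nagb_memV V h x).symm

/-- a finitely generated submodule has an element of maximal valuation -/
theorem nagb_max {D K : Type} [CommRing D] [Field K] [Algebra D K] (V : ValuationSubring K)
    (h : ∀ x : D, algebraMap D K x ∈ V) {N : Submodule D K} (hN : N.FG) :
    ∃ t ∈ N, ∀ x ∈ N, V.valuation x ≤ V.valuation t := by
  classical
  obtain ⟨s, rfl⟩ := hN
  obtain ⟨t, ht, hmax⟩ := (insert 0 s).exists_max_image V.valuation ⟨0, Finset.mem_insert_self _ _⟩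
  refine ⟨t, ?_, fun x hx => ?_⟩
  · rcases Finset.mem_insert.1 ht with rfl | ht
    · exact Submodule.zero_mem _
    · exact Submodule.subset_span ht
  · have : Submodule.span D (s : Set K) ≤
        nagbSub V h (· ≤ V.valuation t) zero_le fun _ _ h1 h2 => h1.trans h2 :=
      Submodule.span_le.2 fun y hy => hmax y (Finset.mem_insert_of_mem hy)
    exact this hx

theorem nagb_pow_le {D : Type} [CommRing D] [IsDomain D] [IsNoetherianRing D] [IsLocalRing D]
    [Ring.KrullDimLE 1 D] {b : D} (hb : b ≠ 0) : ∃ j, maximalIdeal D ^ j ≤ Ideal.span {b} := by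
  have h1 := Module.length_ne_top_iff.1 (cl_ne_top_of_ne_bot (Ideal.span_singleton_eq_bot.not.2 hb))
  have h2 : IsArtinian D (D ⧸ Ideal.span {b}) := (isFiniteLength_iff_isNoetherian_isArtinian.1 h1).2
  have h3 : IsArtinianRing (D ⧸ Ideal.span {b}) := isArtinian_of_tower D h2
  exact exists_maximalIdeal_pow_le_of_isArtinianRing_quotient _

/-- `V` a valuation subring of `K` dominating `D` (`IsLocalRing.exists_factor_valuationRing`),
`0 ≠ a ∈ 𝔪`.  `V/aV` has finite length (`ka_len`).  `⋂ a^n V = 0`: if `0 ≠ x = b/c` lies in it then so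
does `b`, and `a^j ∈ b D` (`cl_ne_top_of_ne_bot`, `exists_maximalIdeal_pow_le_of_isArtinianRing_quotient`)
makes `a` a unit of `V`.  `𝔪^j ≤ (a)`, so `V` is `𝔪`-Hausdorff, and finite by `finite_of_precomplete`. -/
theorem exists_finite_val {D : Type} [CommRing D] [IsDomain D] [IsNoetherianRing D] [IsLocalRing D]
    [Ring.KrullDimLE 1 D] [IsPrecomplete (maximalIdeal D) D] (hD : maximalIdeal D ≠ ⊥)
    (K : Type) [Field K] [Algebra D K] [IsFractionRing D K] :
    ∃ (V : ValuationSubring K) (h : ∀ x : D, algebraMap D K x ∈ V),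
      (∀ x ∈ maximalIdeal D, (⟨algebraMap D K x, h x⟩ : V) ∈ maximalIdeal V) ∧
      (Submodule.span D (V : Set K)).FG := by
  obtain ⟨V, h, hloc⟩ := IsLocalRing.exists_factor_valuationRing (algebraMap D K)
  have hm : ∀ x ∈ maximalIdeal D, (⟨algebraMap D K x, h x⟩ : V) ∈ maximalIdeal V :=
    fun x hx hu => hx (hloc.map_nonunit x hu)
  have hlt : ∀ x ∈ maximalIdeal D, V.valuation (algebraMap D K x) < 1 :=
    fun x hx => (V.valuation_lt_one_iff _).1 (hm x hx)
  refine ⟨V, h, hm, ?_⟩
  rw [nagb_span V h]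
  set M := nagbV V h with hM
  obtain ⟨a, ham, ha⟩ := Submodule.exists_mem_ne_zero_of_ne_bot hD
  have hH : IsHausdorff (maximalIdeal D) M := by
    refine ⟨fun x hx => ?_⟩
    by_contra hx0
    obtain ⟨b, c, hc, hbc⟩ := IsFractionRing.div_surjective (A := D) (x : K)
    have hc' : algebraMap D K c ≠ 0 := IsFractionRing.to_map_ne_zero_of_mem_nonZeroDivisors hc
    have hb : b ≠ 0 := by
      rintro rfl
      exact hx0 (Subtype.ext (by simpa using hbc.symm))
    have hb' : V.valuation (algebraMap D K b) ≠ 0 := by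
      simpa using hb
    obtain ⟨j, hj⟩ := nagb_pow_le hb
    have h1 := SModEq.zero.1 (hx (j + 1))
    have h2 : V.valuation (x : K) < V.valuation (algebraMap D K b) := by
      refine Submodule.smul_induction_on (p := fun y : M =>
        V.valuation (y : K) < V.valuation (algebraMap D K b)) h1 (fun r hr y _ => ?_) fun y z hy hz => ?_
      · have h3 : r ∈ Ideal.span {b} * maximalIdeal D := by
          rw [pow_succ] at hr
          exact Ideal.mul_mono_left hj hr
        obtain ⟨m, hm', rfl⟩ := Ideal.mem_span_singleton_mul.1 h3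
        rw [Submodule.coe_smul, Algebra.smul_def, map_mul, map_mul, map_mul, mul_assoc]
        have h4 : V.valuation (algebraMap D K m) * V.valuation (y : K) < 1 :=
          (mul_le_of_le_one_right' y.2).trans_lt (hlt m hm')
        exact mul_lt_of_lt_one_right (zero_lt_iff.2 hb') h4
      · exact V.valuation.map_add_lt hy hz
    have h5 : V.valuation (algebraMap D K b) ≤ V.valuation (x : K) := by
      rw [← div_mul_cancel₀ (algebraMap D K b) hc', hbc, map_mul]
      exact mul_le_of_le_one_right' ((V.valuation_le_one_iff _).2 (h c))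
    exact absurd h2 (not_lt.2 h5)
  have hlen : len M (a • M) ≠ ⊤ :=
    ne_top_of_le_ne_top (cl_ne_top_of_ne_bot (Ideal.span_singleton_eq_bot.not.2 ha)) (ka_len M ha)
  rw [len_eq_quot] at hlen
  have hN := (isFiniteLength_iff_isNoetherian_isArtinian.1 (Module.length_ne_top_iff.1 hlen)).1
  have hle : (a • M).comap M.subtype ≤ (maximalIdeal D • ⊤ : Submodule D M) := by
    intro y hy
    obtain ⟨z, hz, hzy⟩ := (Submodule.mem_smul_pointwise_iff_exists _ _ _).1 hy
    have : y = a • (⟨z, hz⟩ : M) := Subtype.ext hzy.symm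
    rw [this]
    exact Submodule.smul_mem_smul ham Submodule.mem_top
  have hF : Module.Finite D (M ⧸ (maximalIdeal D • ⊤ : Submodule D M)) :=
    Module.Finite.of_surjective (Submodule.factor hle) (Submodule.factor_surjective hle)
  exact Module.Finite.iff_fg.1 (finite_of_precomplete (maximalIdeal D) M)

/-- `V` from `exists_finite_val` is Noetherian and Bezout, so `𝔪_V = (t)`, `t ≠ 0`; the residue field
of `V` is integral over the algebraically closed residue field of `D`, so `V = D + tV`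
(`IsAlgClosed.algebraMap_bijective_of_isIntegral`); `V = D[t] + t^N V ⊆ D[t] + 𝔪_D V`, and Nakayama
(`Submodule.le_of_le_smul_of_le_jacobson_bot`) gives `V = D[t]`. -/
theorem exists_unif {D : Type} [CommRing D] [IsDomain D] [IsNoetherianRing D] [IsLocalRing D]
    [Ring.KrullDimLE 1 D] [IsPrecomplete (maximalIdeal D) D] (hD : maximalIdeal D ≠ ⊥)
    [IsAlgClosed (ResidueField D)] (K : Type) [Field K] [Algebra D K] [IsFractionRing D K] :
    ∃ t : K, t ≠ 0 ∧ (∀ x ∈ maximalIdeal D, ∃ f : D[X], algebraMap D K x = t * aeval t f) ∧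
      ∀ f : D[X], t * aeval t f ≠ 1 := by
  obtain ⟨V, h, hm, hfg⟩ := exists_finite_val hD K
  rw [nagb_span V h] at hfg
  have hlt : ∀ x ∈ maximalIdeal D, V.valuation (algebraMap D K x) < 1 :=
    fun x hx => (V.valuation_lt_one_iff _).1 (hm x hx)
  have hsub : ∀ N ≤ nagbV V h, N.FG := fun N hN => Submodule.FG.of_le hfg hN
  obtain ⟨a, ham, ha⟩ := Submodule.exists_mem_ne_zero_of_ne_bot hD
  have ha' : algebraMap D K a ≠ 0 := by simpa using ha
  have hva : 0 < V.valuation (algebraMap D K a) := zero_lt_iff.2 (by simpa using ha)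
  -- the uniformiser
  obtain ⟨t, ht1, htmax⟩ := nagb_max V h (hsub (nagbSub V h (· < 1) zero_lt_one
    fun _ _ h1 h2 => h1.trans_lt h2) fun x (hx : V.valuation x < 1) => (hx.le : V.valuation x ≤ 1))
  have ht1' : V.valuation t < 1 := ht1
  have hvt : 0 < V.valuation t := hva.trans_le (htmax _ (hlt a ham))
  have ht0 : t ≠ 0 := by
    rintro rfl
    simp at hvt
  have htV : t ∈ V := (V.valuation_le_one_iff _).1 ht1'.le
  have hdiv : ∀ x : K, V.valuation x < 1 → x / t ∈ V := fun x hx => by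
    rw [← V.valuation_le_one_iff, map_div₀, div_le_one₀ hvt]
    exact htmax x hx
  -- residue fields
  have hres : ∀ y ∈ V, ∃ d : D, V.valuation (y - algebraMap D K d) < 1 := by
    intro y hy
    letI : Algebra D V := ((algebraMap D K).codRestrict V.toSubring h).toAlgebra
    have hloc : IsLocalHom (algebraMap D V) := ⟨fun x hx => by
      by_contra hx'
      exact hm x hx' hx⟩
    have hfin : Module.Finite D V := by
      have := Module.Finite.iff_fg.2 hfg
      let g : nagbV V h →ₗ[D] V :=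
        { toFun := fun x => ⟨x.1, (nagb_memV V h _).1 x.2⟩
          map_add' := fun _ _ => rfl
          map_smul' := fun d x => Subtype.ext (Algebra.smul_def d x.1) }
      exact Module.Finite.of_surjective g fun x => ⟨⟨x.1, (nagb_memV V h _).2 x.2⟩, rfl⟩
    obtain ⟨r, hr⟩ := (IsAlgClosed.algebraMap_bijective_of_isIntegral (k := ResidueField D)
      (K := ResidueField V)).2 (residue V ⟨y, hy⟩)
    obtain ⟨d, rfl⟩ := residue_surjective r
    rw [ResidueField.algebraMap_residue, eq_comm, ← sub_eq_zero, ← map_sub, residue_eq_zero_iff,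
      V.valuation_lt_one_iff] at hr
    exact ⟨d, hr⟩
  have hind : ∀ (N : ℕ), ∀ y ∈ V, ∃ (f : D[X]), ∃ w ∈ V, y = aeval t f + t ^ N * w := by
    intro N
    induction N with
    | zero => exact fun y hy => ⟨0, y, hy, by simp⟩
    | succ N ih =>
      intro y hy
      obtain ⟨f, w, hw, rfl⟩ := ih y hy
      obtain ⟨d, hd⟩ := hres w hw
      refine ⟨f + X ^ N * C d, _, hdiv _ hd, ?_⟩
      simp only [map_add, map_mul, map_pow, aeval_X, aeval_C]
      field_simp
      ring
  -- archimedean property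
  have harch : ∃ N : ℕ, V.valuation t ^ N ≤ V.valuation (algebraMap D K a) := by
    by_contra hcon
    simp only [not_exists, not_le] at hcon
    obtain ⟨u, ⟨N, hu⟩, humax⟩ := nagb_max V h (hsub (nagbSub V h
      (fun γ => ∃ N : ℕ, γ * V.valuation t ^ N ≤ V.valuation (algebraMap D K a)) ⟨0, by simp⟩
      fun _ _ h1 ⟨N, h2⟩ => ⟨N, (mul_le_mul_left h1 _).trans h2⟩) fun x ⟨N, hx⟩ => by
        change V.valuation x ≤ 1
        by_contra h3
        exact absurd ((le_mul_of_one_le_left' (not_le.1 h3).le).trans hx) (not_le.2 (hcon N)))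
    have h1 : 0 < V.valuation u := hva.trans_le (humax _ ⟨0, by simp⟩)
    have h2 : V.valuation (u / t) ≤ V.valuation u := humax _ ⟨N + 1, by
      rw [map_div₀, pow_succ', ← mul_assoc, div_mul_cancel₀ _ hvt.ne']
      exact hu⟩
    rw [map_div₀, div_le_iff₀ hvt] at h2
    exact absurd h2 (not_le.2 (mul_lt_of_lt_one_right h1 ht1'))
  obtain ⟨N, hN⟩ := harch
  have hle : nagbV V h ≤ LinearMap.range (aeval t : D[X] →ₐ[D] K).toLinearMap := by
    refine Submodule.le_of_le_smul_of_le_jacobson_bot hfg (maximalIdeal_le_jacobson ⊥) fun y hy => ?_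
    obtain ⟨f, w, hw, rfl⟩ := hind N y ((nagb_memV V h y).1 hy)
    refine Submodule.add_mem_sup ⟨f, rfl⟩ ?_
    have e : t ^ N * w = a • (t ^ N * w / algebraMap D K a) := by
      rw [Algebra.smul_def, mul_div_cancel₀ _ ha']
    rw [e]
    refine Submodule.smul_mem_smul ham ?_
    change V.valuation _ ≤ 1
    rw [map_div₀, div_le_one₀ hva, map_mul, map_pow]
    exact (mul_le_of_le_one_right' ((V.valuation_le_one_iff _).2 hw)).trans hN
  refine ⟨t, ht0, fun x hx => ?_, fun f hf => ?_⟩
  · obtain ⟨f, hf⟩ := hle ((nagb_memV V h _).2 (hdiv _ (hlt x hx)))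
    refine ⟨f, ?_⟩
    rw [show aeval t f = algebraMap D K x / t from hf, mul_div_cancel₀ _ ht0]
  · have h1 : aeval t f ∈ V := by
      rw [aeval_eq_sum_range]
      refine sum_mem fun i _ => ?_
      rw [Algebra.smul_def]
      exact mul_mem (h _) (pow_mem htV _)
    have h2 : V.valuation (t * aeval t f) < 1 := by
      rw [map_mul]
      exact (mul_le_of_le_one_right' ((V.valuation_le_one_iff _).2 h1)).trans_lt ht1'
    rw [hf, map_one] at h2
    exact lt_irrefl _ h2

theorem nagc_sup_pow_succ {R : Type*} [CommRing R] (I J : Ideal R) (N : ℕ) :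
    (I ⊔ J) ^ (N + 1) = I ^ (N + 1) ⊔ J * (I ⊔ J) ^ N := by
  induction N with
  | zero => simp
  | succ N ih =>
    refine le_antisymm ?_ (sup_le (Ideal.pow_right_mono le_sup_left _) ?_)
    · calc (I ⊔ J) ^ (N + 1 + 1) = (I ⊔ J) ^ (N + 1) * I ⊔ (I ⊔ J) ^ (N + 1) * J := by
            rw [pow_succ _ (N + 1), Ideal.mul_sup]
        _ ≤ _ := by
            refine sup_le ?_ (le_sup_of_le_right (le_of_eq (mul_comm _ _)))
            conv_lhs => rw [ih, Ideal.sup_mul]
            refine sup_le_sup (le_of_eq (pow_succ _ _).symm) ?_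
            rw [mul_assoc, pow_succ]
            exact Ideal.mul_mono_right (Ideal.mul_mono_right le_sup_left)
    · rw [pow_succ' _ (N + 1)]
      exact Ideal.mul_mono_left le_sup_right

theorem nagc_map_C_sup {R : Type*} [CommRing R] (I : Ideal R) (c : R) :
    I.map C ⊔ Ideal.span {X - C c} = I.comap (evalRingHom c) := by
  refine le_antisymm (sup_le ?_ ?_) fun f hf => ?_
  · rw [Ideal.map_le_iff_le_comap]
    intro x hx
    simpa using hx
  · rw [Ideal.span_singleton_le_iff_mem]
    simp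
  · have h1 : f = C (f.eval c) + (f - C (f.eval c)) := by ring
    rw [h1]
    exact Submodule.add_mem_sup (Ideal.mem_map_of_mem _ hf)
      (Ideal.mem_span_singleton.2 (X_sub_C_dvd_sub_C_eval))

theorem nagc_regular {R : Type*} [CommRing R] (I : Ideal R) (c : R) {f : R[X]}
    (h : (X - C c) * f ∈ I.map C) : f ∈ I.map C := by
  have hk : I.map C = RingHom.ker (mapRingHom (Ideal.Quotient.mk I)) := by
    rw [Polynomial.ker_mapRingHom, Ideal.mk_ker]
  rw [hk, RingHom.mem_ker] at h ⊢
  rw [map_mul] at h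
  have hm : (mapRingHom (Ideal.Quotient.mk I) (X - C c)).Monic := (monic_X_sub_C c).map _
  exact hm.mul_right_eq_zero_iff.1 h

theorem nagc_Sg_succ (H : ℕ → ℕ∞) (N : ℕ) : Sg H (N + 1) = H (N + 1) + Sg H N := by
  unfold Sg
  rw [Finset.sum_range_succ, add_comm]

theorem nagc_Sg_zero (H : ℕ → ℕ∞) : Sg H 0 = H 0 := by
  simp [Sg]

/-- `𝔔^(N+1) = 𝔪^(N+1)[X] + (X - c) 𝔔^N`, so `𝔔^(N+1) + (X - c) = comap (evalRingHom c) 𝔪^(N+1)` and
`(𝔔^(N+1) : X - c) = 𝔔^N` (`X - C c` is regular modulo `I.map C`, e.g. via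
`Ideal.mem_map_C_iff`/`Polynomial.map` to the quotient and `Monic.mul_right_eq_zero_iff`);
`cl_eq_add_colon`, `cl_comap_surj`. -/
theorem cl_poly {R : Type} [CommRing R] (𝔪 : Ideal R) (c : R) (N : ℕ) :
    cl ((𝔪.map C ⊔ Ideal.span {X - C c}) ^ N) = Sg (fun j => cl (𝔪 ^ j)) N := by
  induction N with
  | zero => simp only [nagc_Sg_zero, pow_zero, Ideal.one_eq_top, cl_top]
  | succ N ih =>
    have h1 := nagc_sup_pow_succ (𝔪.map C) (Ideal.span {X - C c}) N
    rw [← Ideal.map_pow] at h1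
    have h2 : (𝔪.map C ⊔ Ideal.span {X - C c}) ^ (N + 1) ⊔ Ideal.span {X - C c} =
        (𝔪 ^ (N + 1)).comap (evalRingHom c) := by
      rw [h1, sup_assoc, sup_eq_right (b := Ideal.span {X - C c}).2 Ideal.mul_le_left,
        nagc_map_C_sup]
    have h3 : ((𝔪.map C ⊔ Ideal.span {X - C c}) ^ (N + 1)).colon {X - C c} =
        (𝔪.map C ⊔ Ideal.span {X - C c}) ^ N := by
      ext f
      rw [Submodule.mem_colon_singleton, smul_eq_mul]
      constructor
      · intro hf
        rw [h1] at hf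
        obtain ⟨g, hg, u, hu, e⟩ := Submodule.mem_sup.1 hf
        obtain ⟨w, hw, rfl⟩ := Ideal.mem_span_singleton_mul.1 hu
        have h4 : f - w ∈ (𝔪 ^ (N + 1)).map C := by
          refine nagc_regular _ c ?_
          have : (X - C c) * (f - w) = g := by linear_combination -e
          rwa [this]
        have h5 : (𝔪 ^ (N + 1)).map (C : R →+* R[X]) ≤ (𝔪.map C ⊔ Ideal.span {X - C c}) ^ N := by
          rw [Ideal.map_pow]
          exact (Ideal.pow_le_pow_right (Nat.le_succ N)).trans (Ideal.pow_right_mono le_sup_left _)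
        have := Ideal.add_mem _ (h5 h4) hw
        rwa [sub_add_cancel] at this
      · intro hf
        rw [pow_succ]
        exact Ideal.mul_mem_mul hf (Ideal.mem_sup_right (Ideal.mem_span_singleton_self _))
    rw [cl_eq_add_colon _ (X - C c), h2, h3, ih, nagc_Sg_succ,
      cl_comap_surj _ fun x => ⟨C x, by simp⟩]

theorem nagc_unit {A₁ : Type*} [CommRing A₁] (𝔔 : Ideal A₁) [𝔔.IsMaximal] {N : ℕ} {I : Ideal A₁}
    (h0 : 𝔔 ^ N ≤ I) {x y : A₁} (hx : x ∉ 𝔔) (h : x * y ∈ I) : y ∈ I := by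
  obtain ⟨b, q, hq, e⟩ := Ideal.IsMaximal.exists_inv_pow 𝔔 hx N
  have : y = b * (x * y) + q * y := by linear_combination -y * e
  rw [this]
  exact I.add_mem (I.mul_mem_left _ h) (I.mul_mem_right _ (h0 hq))

section N1
variable {A A₁ : Type} [CommRing A] [IsNoetherianRing A] [CommRing A₁] (ψ : A →+* A₁)
  (hψ : ∀ y : A₁, ∃ a s : A, IsUnit (ψ s) ∧ y * ψ s = ψ a) (𝔔 : Ideal A₁) [𝔔.IsMaximal] {t : A}
  (ht : ψ t ∉ 𝔔) (hP : 𝔔.comap ψ ⊔ Ideal.span {t} ≠ ⊤)
include hψ ht hP

/-- an element outside `𝔔` is a unit modulo `𝔔^N`.  If `I₀ < I₁` contain `𝔔^N` then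
`comap I₁ ≰ comap I₀ + (t)`: otherwise `comap I₁ ≤ comap I₀ + t comap I₁`, and Nakayama
(`Submodule.exists_sub_one_mem_and_smul_eq_zero_of_fg_of_le_smul` in `A / comap I₀`) gives
`s ∈ 1 + (t)` with `s comap I₁ ≤ comap I₀`; `ψ s ∉ 𝔔`; `(comap I).map ψ = I`. -/
theorem n1_strict {N : ℕ} {I₀ I₁ : Ideal A₁} (h0 : 𝔔 ^ N ≤ I₀) (h : I₀ < I₁) :
    I₀.comap ψ ⊔ Ideal.span {t} < I₁.comap ψ ⊔ Ideal.span {t} := by
  refine lt_of_le_not_ge (sup_le_sup_right (Ideal.comap_mono h.le) _) fun hle => h.not_ge ?_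
  have h1 : I₁.comap ψ ≤ I₀.comap ψ ⊔ Ideal.span {t} • I₁.comap ψ := fun x hx => by
    obtain ⟨y, hy, u, hu, rfl⟩ := Submodule.mem_sup.1 (hle (Ideal.mem_sup_left hx))
    obtain ⟨a, rfl⟩ := Ideal.mem_span_singleton'.1 hu
    have h2 : a * t ∈ I₁.comap ψ := by
      have := Ideal.sub_mem _ hx (Ideal.comap_mono h.le hy)
      rwa [add_sub_cancel_left] at this
    have h3 : a ∈ I₁.comap ψ := by
      rw [Ideal.mem_comap, map_mul, mul_comm] at h2
      exact nagc_unit 𝔔 (h0.trans h.le) ht h2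
    refine Submodule.add_mem_sup hy ?_
    rw [mul_comm]
    exact Submodule.smul_mem_smul (Ideal.mem_span_singleton_self t) h3
  obtain ⟨s, hs1, hs2⟩ := Submodule.exists_sub_one_mem_and_smul_le_of_fg_of_le_sup
    (IsNoetherian.noetherian (I₁.comap ψ)) le_rfl h1
  have hs : ψ s ∉ 𝔔 := fun hs => hP <| by
    rw [Ideal.eq_top_iff_one]
    have : (1 : A) = s - (s - 1) := by ring
    rw [this]
    exact Ideal.sub_mem _ (Ideal.mem_sup_left hs) (Ideal.mem_sup_right hs1)
  intro y hy
  obtain ⟨a, u, hu, e⟩ := hψ y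
  have h4 : a ∈ I₁.comap ψ := by
    rw [Ideal.mem_comap, ← e]
    exact I₁.mul_mem_right _ hy
  have h5 : s * a ∈ I₀.comap ψ := hs2 (Submodule.smul_mem_pointwise_smul a s _ h4)
  rw [Ideal.mem_comap, map_mul] at h5
  have h6 := nagc_unit 𝔔 h0 hs h5
  rw [← e] at h6
  exact (Ideal.mul_unit_mem_iff_mem I₀ hu).1 h6

/-- a strictly monotone map from the ideals above `I` to the ideals above `comap I + (t)`
(`Module.length` as `Order.krullDim`/`coheight`). -/
theorem n1_cl {N : ℕ} {I : Ideal A₁} (h0 : 𝔔 ^ N ≤ I) : cl I ≤ cl (I.comap ψ ⊔ Ideal.span {t}) := by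
  unfold cl
  rw [Module.length_quotient, Module.length_quotient, ← WithBot.coe_le_coe,
    Order.coheight_eq_krullDim_Ici, Order.coheight_eq_krullDim_Ici]
  exact Order.krullDim_le_of_strictMono
    (fun J : Set.Ici I => (⟨Ideal.comap ψ J.1 ⊔ Ideal.span {t},
      Set.mem_Ici.2 (sup_le_sup_right (Ideal.comap_mono J.2) _)⟩ : Set.Ici (I.comap ψ ⊔ Ideal.span {t})))
    fun J J' hJ => n1_strict ψ hψ 𝔔 ht hP (h0.trans J.2) hJ

/-- `𝔍 0 = ⊤`, `𝔍 (N+1) = comap (𝔔^(N+1)) ⊔ (t) * 𝔍 N`; `(P + t)^N ≤ 𝔍 N`,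
`(𝔍 (N+1) : t) ≤ 𝔍 N`, `𝔍 (N+1) + (t) = comap (𝔔^(N+1)) + (t)`; `cl_eq_add_colon`, `n1_cl`. -/
theorem n1 (N : ℕ) : Sg (fun j => cl (𝔔 ^ j)) N ≤ cl ((𝔔.comap ψ ⊔ Ideal.span {t}) ^ N) := by
  have key : ∃ 𝔍 : Ideal A, (𝔔.comap ψ ⊔ Ideal.span {t}) ^ N ≤ 𝔍 ∧ (𝔔 ^ N).comap ψ ≤ 𝔍 ∧
      Sg (fun j => cl (𝔔 ^ j)) N ≤ cl 𝔍 := by
    induction N with
    | zero =>
      refine ⟨⊤, le_top, le_top, ?_⟩
      simp only [nagc_Sg_zero, pow_zero, Ideal.one_eq_top, cl_top, le_refl]
    | succ N ih =>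
      obtain ⟨𝔍, h1, h2, h3⟩ := ih
      refine ⟨(𝔔 ^ (N + 1)).comap ψ ⊔ Ideal.span {t} * 𝔍, ?_, le_sup_left, ?_⟩
      · rw [nagc_sup_pow_succ]
        exact sup_le_sup (Ideal.le_comap_pow ψ _) (Ideal.mul_mono_right h1)
      · rw [cl_eq_add_colon _ t, nagc_Sg_succ]
        refine add_le_add ((n1_cl ψ hψ 𝔔 ht hP le_rfl).trans (cl_anti ?_)) (h3.trans (cl_anti ?_))
        · exact sup_le (sup_le le_sup_left (le_sup_of_le_right Ideal.mul_le_left)) le_sup_right
        · intro f hf
          rw [Submodule.mem_colon_singleton, smul_eq_mul] at hf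
          obtain ⟨g, hg, u, hu, e⟩ := Submodule.mem_sup.1 hf
          obtain ⟨w, hw, rfl⟩ := Ideal.mem_span_singleton_mul.1 hu
          have h4 : f - w ∈ (𝔔 ^ (N + 1)).comap ψ := by
            have e' : t * (f - w) = g := by linear_combination -e
            rw [← e', Ideal.mem_comap, map_mul] at hg
            exact nagc_unit 𝔔 le_rfl ht hg
          have h5 := h2 (Ideal.comap_mono (Ideal.pow_le_pow_right (Nat.le_succ N)) h4)
          have := Ideal.add_mem _ h5 hw
          rwa [sub_add_cancel] at this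
  obtain ⟨𝔍, h1, -, h3⟩ := key
  exact h3.trans (cl_anti h1)

end N1

theorem isPrecomplete_map_of_surj {R S : Type*} [CommRing R] [CommRing S] (f : R →+* S)
    (hf : Function.Surjective f) (I : Ideal R) [IsPrecomplete I R] : IsPrecomplete (I.map f) S := by
  let _ := f.toAlgebra
  refine IsPrecomplete.map_algebraMap_iff.2 (AdicCompletion.of_surjective_iff.1 fun y => ?_)
  obtain ⟨x', hx'⟩ := AdicCompletion.map_surjective I (f := Algebra.linearMap R S) hf y
  obtain ⟨x, rfl⟩ := AdicCompletion.of_surjective I R x'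
  exact ⟨_, (AdicCompletion.map_of I _ x).symm.trans hx'⟩

theorem nagd_eq_comap {R : Type} [CommRing R] (𝔪 : Ideal R) (c : R) :
    𝔪.map C ⊔ Ideal.span {X - C c} = 𝔪.comap (evalRingHom c) := by
  apply le_antisymm
  · refine sup_le (Ideal.map_le_iff_le_comap.2 fun x hx => ?_) ?_
    · simpa [Ideal.mem_comap] using hx
    · rw [Ideal.span_singleton_le_iff_mem]
      simp [Ideal.mem_comap]
  · intro f hf
    obtain ⟨g, hg⟩ := X_sub_C_dvd_sub_C_eval (p := f) (a := c)
    have e : f = C (f.eval c) + (X - C c) * g := by rw [← hg]; ring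
    rw [e]
    exact Submodule.add_mem_sup (Ideal.mem_map_of_mem _ hf)
      (Ideal.mul_mem_right _ _ (Ideal.mem_span_singleton_self _))

theorem nagd_algClosed {S D : Type} [CommRing S] [IsLocalRing S] [CommRing D] [IsLocalRing D]
    [IsAlgClosed (ResidueField S)] (f : S →+* D) (hf : Function.Surjective f) :
    IsAlgClosed (ResidueField D) := by
  have := IsLocalHom.of_surjective f hf
  refine IsAlgClosed.of_ringEquiv (k := ResidueField S) _
    (RingEquiv.ofBijective (ResidueField.map f) ⟨RingHom.injective _, fun y => ?_⟩)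
  obtain ⟨y, rfl⟩ := residue_surjective y
  obtain ⟨x, rfl⟩ := hf y
  exact ⟨residue S x, ResidueField.map_residue f x⟩

/-- NAGATA STEP.  `D = S ⧸ P`, `K = P.ResidueField`, `t` from `exists_unif`, `c ∈ S_P` a lift of `t`,
`𝔔 = ker (S_P[X] → K, X ↦ t) = 𝔪_{S_P}[X] + (X - c)`, `ψ = mapRingHom (algebraMap S S_P)`
(`Polynomial.isLocalization` / `IsLocalization.integerNormalization`), `t := X`.
`𝔫[X] + (X) ≤ comap ψ 𝔔 + (X) ≠ ⊤`; `cl_poly` twice (`c` and `0`), `n1`, `cl_anti`. -/
theorem nagata {S : Type} [CommRing S] [IsNoetherianRing S] [IsLocalRing S]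
    [IsPrecomplete (maximalIdeal S) S] [IsAlgClosed (ResidueField S)] (P : Ideal S) [P.IsPrime]
    (hP : P ≠ maximalIdeal S) (hP1 : ∀ Q : Ideal S, Q.IsPrime → P < Q → Q = maximalIdeal S) (N : ℕ) :
    Sg (Sg (HS (Localization.AtPrime P))) N ≤ Sg (HS S) N := by
  have hmk := Ideal.Quotient.mk_surjective (I := P)
  have : IsLocalRing (S ⧸ P) := IsLocalRing.of_surjective' _ hmk
  have hmax : (maximalIdeal S).map (Ideal.Quotient.mk P) = maximalIdeal (S ⧸ P) :=
    map_maximalIdeal_of_surjective _ hmk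
  have : Ring.KrullDimLE 1 (S ⧸ P) := by
    refine Ring.krullDimLE_one_iff_of_noZeroDivisors.2 fun I hI hIp => ?_
    have h1 : P < I.comap (Ideal.Quotient.mk P) := by
      refine lt_of_le_of_ne (fun x hx => ?_) fun h => hI ?_
      · rw [Ideal.mem_comap, Ideal.Quotient.eq_zero_iff_mem.2 hx]
        exact I.zero_mem
      · rw [← Ideal.map_comap_of_surjective _ hmk I, ← h, Ideal.map_quotient_self]
    have h2 := hP1 _ (Ideal.comap_isPrime _ I) h1
    rw [← Ideal.map_comap_of_surjective _ hmk I, h2, hmax]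
    infer_instance
  have : IsPrecomplete (maximalIdeal (S ⧸ P)) (S ⧸ P) := by
    rw [← hmax]
    exact isPrecomplete_map_of_surj _ hmk _
  have : IsAlgClosed (ResidueField (S ⧸ P)) := nagd_algClosed _ hmk
  have hD : maximalIdeal (S ⧸ P) ≠ ⊥ := by
    rw [← hmax, Ne, Ideal.map_eq_bot_iff_le_ker, Ideal.mk_ker]
    exact fun h => hP (le_antisymm (le_maximalIdeal Ideal.IsPrime.ne_top') h)
  obtain ⟨t, ht0, ht1, ht2⟩ := exists_unif hD P.ResidueField
  let L := Localization.AtPrime P
  obtain ⟨c, hc⟩ := residue_surjective (R := L) t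
  set ψ : S[X] →+* L[X] := mapRingHom (algebraMap S L) with hψd
  set 𝔔 : Ideal L[X] := (maximalIdeal L).map C ⊔ Ideal.span {X - C c} with h𝔔
  have e𝔔 : 𝔔 = (maximalIdeal L).comap (evalRingHom c) := nagd_eq_comap _ _
  have : 𝔔.IsMaximal := by
    rw [e𝔔]
    exact Ideal.comap_isMaximal_of_surjective _ fun x => ⟨C x, by simp⟩
  have hψ : ∀ y : L[X], ∃ a s : S[X], IsUnit (ψ s) ∧ y * ψ s = ψ a := by
    intro y
    obtain ⟨b, hb, h⟩ := IsLocalization.integerNormalization_spec P.primeCompl y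
    refine ⟨_, C b, ?_, Eq.trans ?_ h.symm⟩
    · rw [hψd, coe_mapRingHom, map_C]
      exact (IsLocalization.map_units L ⟨b, hb⟩).map C
    · rw [hψd, coe_mapRingHom, map_C, mul_comm, ← smul_eq_C_mul, algebraMap_smul]
  have hev : ∀ g : S[X], residue L ((ψ g).eval c) = aeval t (g.map (Ideal.Quotient.mk P)) := by
    intro g
    induction g using Polynomial.induction_on' with
    | add p q hp hq => simp only [map_add, eval_add, Polynomial.map_add, hp, hq]
    | monomial n a =>
      simp only [hψd, coe_mapRingHom, map_monomial, eval_monomial, aeval_monomial, map_mul, map_pow, hc]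
      rfl
  have hmem : ∀ g : S[X], g ∈ 𝔔.comap ψ ↔ aeval t (g.map (Ideal.Quotient.mk P)) = 0 := by
    intro g
    rw [← hev, residue_eq_zero_iff, e𝔔]
    rfl
  have ht : ψ X ∉ 𝔔 := fun h => ht0 (by simpa using (hmem X).1 h)
  have hne : 𝔔.comap ψ ⊔ Ideal.span {X} ≠ ⊤ := by
    intro h
    obtain ⟨a, ha, b, hb, hab⟩ := Submodule.mem_sup.1 ((Ideal.eq_top_iff_one _).1 h)
    obtain ⟨g, rfl⟩ := Ideal.mem_span_singleton.1 hb
    have h1 := congrArg (fun f : S[X] => aeval t (f.map (Ideal.Quotient.mk P))) hab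
    simp only [Polynomial.map_add, Polynomial.map_mul, map_X, map_add, map_mul, aeval_X,
      (hmem a).1 ha, zero_add, Polynomial.map_one, map_one] at h1
    exact ht2 _ h1
  have hle : (maximalIdeal S).map C ⊔ Ideal.span {X - C 0} ≤ 𝔔.comap ψ ⊔ Ideal.span {X} := by
    rw [C_0, sub_zero]
    refine sup_le (Ideal.map_le_iff_le_comap.2 fun x hx => ?_) le_sup_right
    obtain ⟨f, hf⟩ := ht1 _ (hmax ▸ Ideal.mem_map_of_mem _ hx)
    obtain ⟨g, rfl⟩ := map_surjective _ hmk f
    have h1 : C x - X * g ∈ 𝔔.comap ψ := by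
      rw [hmem]
      simp only [Polynomial.map_sub, Polynomial.map_mul, map_X, map_C, map_sub, map_mul, aeval_X,
        aeval_C, hf, sub_self]
    rw [Ideal.mem_comap, ← sub_add_cancel (C x) (X * g)]
    exact Submodule.add_mem_sup h1 (Ideal.mul_mem_right _ _ (Ideal.mem_span_singleton_self _))
  calc Sg (Sg (HS L)) N = Sg (fun j => cl (𝔔 ^ j)) N := by
        congr 1
        funext j
        exact (cl_poly _ c j).symm
    _ ≤ _ := n1 ψ hψ 𝔔 ht hne N
    _ ≤ _ := cl_anti (Ideal.pow_right_mono hle N)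
    _ = Sg (HS S) N := cl_poly _ 0 N

end Crest.Agent.R183
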