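import Crest.Agent.R183.Laur
import Crest.Agent.R183.Mono

/-! # R183 / Omega : `O = (B ⊗_{W[z]} Lr) / ξ` and its region submodules `Om R`. -/

set_option autoImplicit false
open TensorProduct

namespace Crest.Agent.R183

section
variable {W : Type} [CommRing W] {n : ℕ} (B : Type) [CommRing B] [Algebra (Pz W n) B]

variable (W n) in
noncomputable def zB (i : Fin (n + 1)) : B := algebraMap (Pz W n) B (MvPolynomial.X i)

variable (W n) in
/-- `𝔫 = (z_0..z_n)` -/
noncomputable def nn : Ideal B := Ideal.span (Set.range (zB W n B))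

variable (W n) in
/-- `(z_1..z_n)` -/
noncomputable def zp : Ideal B := Ideal.span (Set.range fun i : Fin n => zB W n B i.succ)

variable {B}

variable (n) in
/-- standing hypotheses: `pp` regular in `W`, `ξ ≡ pp mod 𝔫`, `B` free over `W[z]`,
`ρ = cl (ξ, 𝔫)` finite. -/
structure Hx (pp : W) (ξ : B) (ρ : ℕ) : Prop where
  reg : ∀ w : W, pp * w = 0 → w = 0
  free : Module.Free (Pz W n) B
  xi : algebraMap (Pz W n) B (MvPolynomial.C pp) - ξ ∈ nn W n B
  rho : cl (Ideal.span {ξ} ⊔ nn W n B) = ρ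

variable (W n) in
/-- `𝔨 t = (ξ) + 𝔫^t` -/
noncomputable def kk (ξ : B) (t : ℕ) : Ideal B := Ideal.span {ξ} ⊔ nn W n B ^ t

theorem kk_anti (ξ : B) {s t : ℕ} (h : s ≤ t) : kk W n ξ t ≤ kk W n ξ s :=
  sup_le_sup_left (Ideal.pow_le_pow_right h) _

theorem nn_eq_map : nn W n B =
    (Ideal.span (Set.range (MvPolynomial.X : Fin (n + 1) → Pz W n))).map
      (algebraMap (Pz W n) B) := by
  rw [Ideal.map_span, ← Set.range_comp]
  rfl

/-- `cl_pow_le`. -/
theorem cl_kk_le {pp : W} {ξ : B} {ρ : ℕ} (H : Hx n pp ξ ρ) (t : ℕ) :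
    cl (kk W n ξ t) ≤ ((t + n).choose (n + 1) * ρ : ℕ) := by
  have h := cl_pow_le (zB W n B) (Ideal.span {ξ}) t
  have h2 := H.rho
  unfold nn at h2
  rw [h2] at h
  rw [Nat.cast_mul]
  exact h

/-- coordinates: for a basis `e` of `B` over `P`, every `y : B ⊗ L` is uniquely `∑ e j ⊗ f j`
(`TensorProduct.equivFinsuppOfBasisLeft`), and `y ∈ M.baseChange B ↔ ∀ j, f j ∈ M`. -/
theorem mem_baseChange_iff {P : Type} [CommRing P] {B : Type} [CommRing B] [Algebra P B]
    {L : Type} [AddCommGroup L] [Module P L] {κ : Type} [DecidableEq κ] (e : Module.Basis κ P B)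
    (M : Submodule P L) (y : B ⊗[P] L) :
    y ∈ M.baseChange B ↔ ∀ j, TensorProduct.equivFinsuppOfBasisLeft e y j ∈ M := by
  constructor
  · rintro ⟨x, rfl⟩ j
    induction x with
    | zero => simp
    | tmul a m =>
      rw [LinearMap.baseChange_tmul, TensorProduct.equivFinsuppOfBasisLeft_apply_tmul_apply]
      exact M.smul_mem _ m.2
    | add x x' hx hx' =>
      rw [map_add, map_add, Finsupp.add_apply]
      exact M.add_mem hx hx'
  · intro h
    rw [← (TensorProduct.equivFinsuppOfBasisLeft e).symm_apply_apply y,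
      TensorProduct.equivFinsuppOfBasisLeft_symm_apply]
    exact Submodule.sum_mem _ fun j _ => Submodule.tmul_mem_baseChange_of_mem _ (h j)

theorem omA_bc_eq (R : Set (Mon n)) : (reg W R).baseChange B =
    Submodule.span B ((fun μ => (1 : B) ⊗ₜ[Pz W n] mon W μ) '' R) := by
  rw [reg, Submodule.baseChange_span, Set.image_image]
  rfl

theorem omA_reg_mono {R R' : Set (Mon n)} (h : R ⊆ R') : reg W R ≤ reg W R' :=
  Submodule.span_mono (Set.image_mono h)

theorem omA_bc_mono {R R' : Set (Mon n)} (h : R ⊆ R') :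
    (reg W R).baseChange B ≤ (reg W R').baseChange B :=
  Submodule.baseChange_mono B (omA_reg_mono h)

theorem omA_bc_union (R R' : Set (Mon n)) :
    (reg W (R ∪ R')).baseChange B = (reg W R).baseChange B ⊔ (reg W R').baseChange B := by
  rw [omA_bc_eq, omA_bc_eq, omA_bc_eq, Set.image_union, Submodule.span_union]

theorem omA_bc_inter (hfree : Module.Free (Pz W n) B) {R R' : Set (Mon n)} (hR : Stab R)
    (hR' : Stab R') {y : B ⊗[Pz W n] Lr W n} (hy : y ∈ (reg W R).baseChange B)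
    (hy' : y ∈ (reg W R').baseChange B) : y ∈ (reg W (R ∩ R')).baseChange B := by
  classical
  let e := Module.Free.chooseBasis (Pz W n) B
  rw [mem_baseChange_iff e] at hy hy' ⊢
  intro j
  rw [mem_reg (hR.inter hR')]
  intro μ hμ
  exact ⟨(mem_reg hR _).1 (hy j) μ hμ, (mem_reg hR' _).1 (hy' j) μ hμ⟩

theorem omA_cf_C_smul (w : W) (f : Lr W n) (μ : Mon n) :
    cf ((MvPolynomial.C w : Pz W n) • f) μ = w * cf f μ := by
  rw [← MvPolynomial.algebraMap_eq, algebraMap_smul]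
  rfl

/-- `𝔫^r` raises the `π`-degree by `r` (`smul_mem_reg`, `nn_eq_map`). -/
theorem smul_mem_baseChange {R : Set (Mon n)} (hR : Stab R) {t : ℤ} (ht : R ⊆ ge t) {r : ℕ}
    {b : B} (hb : b ∈ nn W n B ^ r) {y : B ⊗[Pz W n] Lr W n}
    (hy : y ∈ (reg W R).baseChange B) : b • y ∈ (reg W (R ∩ ge (t + r))).baseChange B := by
  rw [nn_eq_map, ← Ideal.map_pow] at hb
  induction hb using Submodule.span_induction with
  | mem b hb =>
    obtain ⟨c, hc, rfl⟩ := hb
    rw [algebraMap_smul]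
    obtain ⟨x, rfl⟩ := hy
    induction x with
    | zero => simp
    | tmul a m =>
      rw [LinearMap.baseChange_tmul, TensorProduct.smul_tmul', TensorProduct.smul_tmul]
      exact Submodule.tmul_mem_baseChange_of_mem _ (smul_mem_reg hR ht hc m.2)
    | add x x' hx hx' =>
      rw [map_add, smul_add]
      exact Submodule.add_mem _ hx hx'
  | zero => simp
  | add b b' _ _ h h' =>
    rw [add_smul]
    exact Submodule.add_mem _ h h'
  | smul a b _ h =>
    rw [smul_eq_mul, mul_smul]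
    exact Submodule.smul_mem _ _ h

/-- `ξ` is regular modulo `B·reg R` for EVERY stable region.  The coordinates `f j` of `y` are
supported in `t₀ ≤ μ.1 < t₁`.  `ν = pp - ξ ∈ 𝔫`, `pp^r y ≡ ν^r y` mod `B·reg R` and
`ν^r y ∈ B·reg (ge (t₀ + r))`; for `t₀ + r ≥ t₁` the coordinates `pp^r f j` are supported in
`R ∪ ge t₁`, so (`pp` regular) `f j` is supported in `R`. -/
theorem xi_reg {pp : W} {ξ : B} {ρ : ℕ} (H : Hx n pp ξ ρ) {R : Set (Mon n)} (hR : Stab R)
    (y : B ⊗[Pz W n] Lr W n) (hy : ξ • y ∈ (reg W R).baseChange B) :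
    y ∈ (reg W R).baseChange B := by
  classical
  have := H.free
  let e := Module.Free.chooseBasis (Pz W n) B
  set F := TensorProduct.equivFinsuppOfBasisLeft e y with hF
  let T : Finset ℤ := F.support.biUnion fun j =>
    ((AddMonoidAlgebra.coeff (F j : AddMonoidAlgebra W (Mon n))).support).image Prod.fst
  have hT : ∀ j μ, cf (F j) μ ≠ 0 → μ.1 ∈ T := by
    intro j μ h
    refine Finset.mem_biUnion.2 ⟨j, Finsupp.mem_support_iff.2 fun h0 => h ?_,
      Finset.mem_image.2 ⟨μ, Finsupp.mem_support_iff.2 h, rfl⟩⟩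
    rw [h0]
    rfl
  obtain ⟨t₀, ht₀⟩ := T.bddBelow
  obtain ⟨t₁, ht₁⟩ := T.bddAbove
  obtain ⟨r, hr⟩ : ∃ r : ℕ, t₁ < t₀ + r := ⟨(t₁ - t₀ + 1).toNat, by omega⟩
  have hy0 : y ∈ (reg W (ge t₀)).baseChange B := by
    rw [mem_baseChange_iff e]
    intro j
    rw [mem_reg (stab_ge t₀)]
    exact fun μ hμ => ht₀ (hT j μ hμ)
  set p : B := algebraMap (Pz W n) B (MvPolynomial.C pp) with hp
  obtain ⟨c, hc⟩ := sub_dvd_pow_sub_pow p (p - ξ) r
  have hS : Stab (R ∪ ge (t₀ + r)) := hR.union (stab_ge _)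
  have h1 : (p - ξ) ^ r • y ∈ (reg W (R ∪ ge (t₀ + r))).baseChange B :=
    omA_bc_mono (fun μ hμ => Or.inr hμ.2)
      (smul_mem_baseChange (stab_ge t₀) subset_rfl (Ideal.pow_mem_pow H.xi r) hy0)
  have h2 : c • ξ • y ∈ (reg W (R ∪ ge (t₀ + r))).baseChange B :=
    Submodule.smul_mem _ _ (omA_bc_mono Set.subset_union_left hy)
  have h3 : p ^ r • y = (p - ξ) ^ r • y + c • ξ • y := by
    rw [← mul_smul, ← add_smul]
    congr 1
    linear_combination hc
  have h4 : (MvPolynomial.C (pp ^ r) : Pz W n) • y ∈ (reg W (R ∪ ge (t₀ + r))).baseChange B := by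
    rw [← algebraMap_smul B, map_pow, map_pow, ← hp, h3]
    exact Submodule.add_mem _ h1 h2
  rw [mem_baseChange_iff e] at h4 ⊢
  intro j
  rw [mem_reg hR]
  intro μ hμ
  have h5 := (mem_reg hS _).1 (h4 j) μ
  rw [map_smul, Finsupp.smul_apply, omA_cf_C_smul] at h5
  have hreg : ∀ (k : ℕ) (w : W), pp ^ k * w = 0 → w = 0 := by
    intro k
    induction k with
    | zero => intro w hw; simpa using hw
    | succ k ih =>
      intro w hw
      rw [pow_succ', mul_assoc] at hw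
      exact ih w (H.reg _ hw)
  rcases h5 (fun h0 => hμ (hreg r _ h0)) with h | h
  · exact h
  · have h6 := ht₁ (hT j μ hμ)
    have h7 : t₀ + r ≤ μ.1 := h
    omega

variable (W n) in
def OO (ξ : B) : Type :=
  (B ⊗[Pz W n] Lr W n) ⧸ Ideal.span {(ξ ⊗ₜ[Pz W n] (1 : Lr W n) : B ⊗[Pz W n] Lr W n)}

noncomputable instance (ξ : B) : CommRing (OO W n ξ) :=
  inferInstanceAs (CommRing ((B ⊗[Pz W n] Lr W n) ⧸
    Ideal.span {(ξ ⊗ₜ[Pz W n] (1 : Lr W n) : B ⊗[Pz W n] Lr W n)}))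
noncomputable instance (ξ : B) : Algebra B (OO W n ξ) :=
  inferInstanceAs (Algebra B ((B ⊗[Pz W n] Lr W n) ⧸
    Ideal.span {(ξ ⊗ₜ[Pz W n] (1 : Lr W n) : B ⊗[Pz W n] Lr W n)}))

/-- the quotient map as a `B`-algebra hom -/
noncomputable def mkO (ξ : B) : B ⊗[Pz W n] Lr W n →ₐ[B] OO W n ξ := Ideal.Quotient.mkₐ B _

/-- the ring hom `Lr → O` -/
noncomputable def toO (ξ : B) : Lr W n →+* OO W n ξ :=
  (mkO ξ).toRingHom.comp (Algebra.TensorProduct.includeRight (R := Pz W n) (A := B)).toRingHom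

theorem toO_apply (ξ : B) (f : Lr W n) : toO ξ f = mkO ξ ((1 : B) ⊗ₜ[Pz W n] f) := rfl

noncomputable def mulL (ξ : B) (c : Lr W n) : OO W n ξ →ₗ[B] OO W n ξ :=
  LinearMap.mulLeft B (toO ξ c)

variable (W) in
noncomputable def Om (ξ : B) (R : Set (Mon n)) : Submodule B (OO W n ξ) :=
  Submodule.span B ((fun μ => toO ξ (mon W μ)) '' R)

variable {ξ : B}

theorem omA_mkO_xi : mkO (W := W) (n := n) ξ (ξ ⊗ₜ[Pz W n] (1 : Lr W n)) = 0 :=
  Ideal.Quotient.eq_zero_iff_mem.2 (Ideal.subset_span rfl)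

theorem omA_mkO_eq_zero {y : B ⊗[Pz W n] Lr W n} (h : mkO ξ y = 0) : ∃ z, y = ξ • z := by
  obtain ⟨z, hz⟩ := Ideal.mem_span_singleton'.1 (Ideal.Quotient.eq_zero_iff_mem.1 h)
  refine ⟨z, ?_⟩
  rw [← hz, mul_comm, Algebra.smul_def]
  rfl

theorem xi_smul (x : OO W n ξ) : ξ • x = 0 := by
  have h : algebraMap B (OO W n ξ) ξ = 0 := by
    rw [← (mkO (W := W) (n := n) ξ).commutes]
    exact omA_mkO_xi
  rw [Algebra.smul_def, h, zero_mul]

theorem algebraMap_smul_O (f : Pz W n) (x : OO W n ξ) :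
    algebraMap (Pz W n) B f • x = toO ξ (algebraMap (Pz W n) (Lr W n) f) * x := by
  rw [Algebra.smul_def, toO_apply, ← (mkO (W := W) (n := n) ξ).commutes]
  congr 2
  rw [Algebra.algebraMap_eq_smul_one f, Algebra.algebraMap_eq_smul_one f,
    ← TensorProduct.smul_tmul]
  rfl

theorem Om_eq_map (R : Set (Mon n)) :
    Om W ξ R = ((reg W R).baseChange B).map (mkO ξ).toLinearMap := by
  rw [omA_bc_eq, Submodule.map_span, Set.image_image]
  rfl

theorem Om_mono {R R' : Set (Mon n)} (h : R ⊆ R') : Om W ξ R ≤ Om W ξ R' :=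
  Submodule.span_mono (Set.image_mono h)

theorem Om_union (R R' : Set (Mon n)) : Om W ξ (R ∪ R') = Om W ξ R ⊔ Om W ξ R' := by
  rw [Om, Set.image_union, Submodule.span_union]; rfl

theorem Om_empty : Om W ξ (∅ : Set (Mon n)) = ⊥ := by simp [Om]

/-- `x - x' = ξ y` with `x ∈ B·reg R`, `x' ∈ B·reg R'`; `xi_reg` for `R ∪ R'` gives `y = y₁ + y₂`,
`x - ξ y₁ = x' + ξ y₂ ∈ B·reg R ⊓ B·reg R' = B·reg (R ∩ R')` (coordinates, `mem_reg`). -/
theorem Om_inter {pp : W} {ρ : ℕ} (H : Hx n pp ξ ρ) {R R' : Set (Mon n)} (hR : Stab R)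
    (hR' : Stab R') : Om W ξ (R ∩ R') = Om W ξ R ⊓ Om W ξ R' := by
  refine le_antisymm (le_inf (Om_mono Set.inter_subset_left) (Om_mono Set.inter_subset_right)) ?_
  intro x hx
  rw [Om_eq_map, Om_eq_map] at hx
  obtain ⟨⟨u, hu, rfl⟩, ⟨u', hu', huu⟩⟩ := hx
  have h0 : mkO ξ (u - u') = 0 := by
    rw [map_sub]
    exact sub_eq_zero.2 huu.symm
  obtain ⟨y, hy⟩ := omA_mkO_eq_zero h0
  have h1 : ξ • y ∈ (reg W (R ∪ R')).baseChange B := by
    rw [← hy]
    exact Submodule.sub_mem _ (omA_bc_mono Set.subset_union_left hu)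
      (omA_bc_mono Set.subset_union_right hu')
  have h2 := xi_reg H (hR.union hR') y h1
  rw [omA_bc_union] at h2
  obtain ⟨y₁, hy₁, y₂, hy₂, rfl⟩ := Submodule.mem_sup.1 h2
  have h3 : u - ξ • y₁ = u' + ξ • y₂ := by
    rw [smul_add] at hy
    linear_combination hy
  rw [Om_eq_map]
  refine ⟨u - ξ • y₁, omA_bc_inter H.free hR hR'
    (Submodule.sub_mem _ hu (Submodule.smul_mem _ _ hy₁)) ?_, ?_⟩
  · rw [h3]
    exact Submodule.add_mem _ hu' (Submodule.smul_mem _ _ hy₂)
  · rw [map_sub, map_smul, xi_smul, sub_zero]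

theorem smul_mem_Om {R : Set (Mon n)} (hR : Stab R) {t : ℤ} (ht : R ⊆ ge t) {r : ℕ}
    {b : B} (hb : b ∈ kk W n ξ r) {x : OO W n ξ} (hx : x ∈ Om W ξ R) :
    b • x ∈ Om W ξ (R ∩ ge (t + r)) := by
  obtain ⟨a, ha, ν, hν, rfl⟩ := Submodule.mem_sup.1 hb
  obtain ⟨c, rfl⟩ := Ideal.mem_span_singleton'.1 ha
  rw [add_smul, mul_smul, xi_smul, smul_zero, zero_add]
  rw [Om_eq_map] at hx ⊢
  obtain ⟨u, hu, rfl⟩ := hx
  exact ⟨ν • u, smul_mem_baseChange hR ht hν hu, map_smul _ _ _⟩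

/-- convenient form: split `R = (R ∩ ge t) ∪ (R \ ge t)`. -/
theorem smul_mem_Om' {R R' : Set (Mon n)} (hR : Stab R) (t : ℤ) {r : ℕ}
    (h : ∀ μ ∈ R, (μ.1 < t ∨ t + r ≤ μ.1) → μ ∈ R') {b : B} (hb : b ∈ kk W n ξ r)
    {x : OO W n ξ} (hx : x ∈ Om W ξ R) : b • x ∈ Om W ξ R' := by
  have e : R = (R ∩ ge t) ∪ (R \ ge t) := (Set.inter_union_sdiff R (ge t)).symm
  rw [e, Om_union] at hx
  obtain ⟨x₁, h₁, x₂, h₂, rfl⟩ := Submodule.mem_sup.1 hx
  rw [smul_add]
  refine Submodule.add_mem _ ?_ (Submodule.smul_mem _ _ ?_)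
  · refine Om_mono ?_ (smul_mem_Om (hR.inter (stab_ge t)) Set.inter_subset_right hb h₁)
    exact fun μ hμ => h μ hμ.1.1 (Or.inr hμ.2)
  · refine Om_mono ?_ h₂
    exact fun μ hμ => h μ hμ.1 (Or.inl (not_le.1 hμ.2))

theorem omA_toO_mem {f : Lr W n} {R : Set (Mon n)} (hf : SuppIn f R) : toO ξ f ∈ Om W ξ R := by
  have h1 : f ∈ reg W R :=
    Submodule.span_le_restrictScalars W (Pz W n) _ ((suppIn_iff_mem_span f R).1 hf)
  rw [Om_eq_map]
  exact ⟨_, Submodule.tmul_mem_baseChange_of_mem 1 h1, rfl⟩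

theorem mulL_mem_Om {c : Lr W n} {Cc R R' : Set (Mon n)} (hc : SuppIn c Cc)
    (h : ∀ ν ∈ Cc, ∀ μ ∈ R, ν + μ ∈ R') {x : OO W n ξ} (hx : x ∈ Om W ξ R) :
    mulL ξ c x ∈ Om W ξ R' := by
  have : Om W ξ R ≤ (Om W ξ R').comap (mulL ξ c) := by
    refine Submodule.span_le.2 ?_
    rintro _ ⟨μ, hμ, rfl⟩
    change toO ξ c * toO ξ (mon W μ) ∈ Om W ξ R'
    rw [← map_mul]
    refine omA_toO_mem (hc.mul (R' := {μ}) ?_ ?_)
    · exact (suppIn_iff_mem_span _ _).2 (Submodule.subset_span ⟨μ, rfl, rfl⟩)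
    · rintro ν hν _ rfl
      exact h ν hν _ hμ
  exact this hx

theorem omA_zB_pow_smul (i : Fin (n + 1)) (r : ℕ) (x : OO W n ξ) :
    zB W n B i ^ r • x = toO ξ (zL W i ^ r) * x := by
  rw [zB, ← map_pow, algebraMap_smul_O, map_pow, algebraMap_Lr, MvPolynomial.aeval_X]

theorem z0_pow_smul_mem_Om {R R' : Set (Mon n)} (r : ℕ)
    (h : ∀ μ ∈ R, μ + ((r : ℤ), 0) ∈ R') {x : OO W n ξ} (hx : x ∈ Om W ξ R) :
    zB W n B 0 ^ r • x ∈ Om W ξ R' := by
  have e : ∀ k : ℕ, zL W (0 : Fin (n + 1)) ^ k = mon W (((k : ℤ), 0) : Mon n) := by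
    intro k
    induction k with
    | zero => rw [pow_zero]; rfl
    | succ k ih =>
      rw [pow_succ, ih, zL_zero, mon_mul]
      simp
  rw [omA_zB_pow_smul, e]
  refine mulL_mem_Om (c := mon W (((r : ℤ), 0) : Mon n)) (Cc := {((r : ℤ), 0)}) ?_ ?_ hx
  · exact (suppIn_iff_mem_span _ _).2 (Submodule.subset_span ⟨_, rfl, rfl⟩)
  · rintro _ rfl μ hμ
    rw [add_comm]
    exact h μ hμ

theorem sum_partition {M : ℕ} {c : Fin (n + 1) → Lr W n} (h : ∑ i, zL W i ^ M * c i = 1)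
    (x : OO W n ξ) : ∑ i, zB W n B i ^ M • mulL ξ (c i) x = x := by
  have : ∀ i, zB W n B i ^ M • mulL ξ (c i) x = toO ξ (zL W i ^ M * c i) * x := by
    intro i
    rw [omA_zB_pow_smul, map_mul, mul_assoc]
    rfl
  simp only [this]
  rw [← Finset.sum_mul, ← map_sum, h, map_one, one_mul]

/-- one monomial: `b • μ ∈ Om R' ↔ b ∈ (ξ, 𝔫)`.  `→`: `b ⊗ μ = ξ y + r'`; `xi_reg` for `insert μ R'`
gives `y = b' ⊗ μ + r''`; so `(b - ξ b') ⊗ μ ∈ B·reg R'`; its coordinates `f j • mon μ` are supported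
in `R'`, so `constantCoeff (f j) = 0` (`cf_smul_mon`). -/
theorem smul_mon_mem_iff {pp : W} {ρ : ℕ} (H : Hx n pp ξ ρ) {R' : Set (Mon n)} (hR' : Stab R')
    {μ : Mon n} (hμ : μ ∉ R') (hμ' : ∀ S, μ + stp S ∈ R') (b : B) :
    b • toO ξ (mon W μ) ∈ Om W ξ R' ↔ b ∈ Ideal.span {ξ} ⊔ nn W n B := by
  classical
  have hR : Stab (insert μ R') := fun ν hν S =>
    Or.inr (hν.elim (fun e => e ▸ hμ' S) fun h => hR' ν h S)
  constructor
  · intro hb
    rw [Om_eq_map] at hb
    obtain ⟨x, hx, hxb⟩ := hb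
    have h1 : mkO ξ (b ⊗ₜ[Pz W n] mon W μ) = mkO ξ x := by
      rw [show mkO ξ x = _ from hxb, toO_apply, ← map_smul, TensorProduct.smul_tmul', smul_eq_mul,
        mul_one]
    obtain ⟨y, hy⟩ := Ideal.mem_span_singleton'.1 (Ideal.Quotient.eq.1 h1)
    have hy' : ξ • y = b ⊗ₜ[Pz W n] mon W μ - x := by
      rw [← hy, mul_comm, Algebra.smul_def]
      rfl
    have hle : (reg W R').baseChange B ≤ (reg W (insert μ R')).baseChange B :=
      Submodule.baseChange_mono B (Submodule.span_mono (Set.image_mono (Set.subset_insert _ _)))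
    have h2 := xi_reg H hR y (hy' ▸ sub_mem (Submodule.tmul_mem_baseChange_of_mem b
      (Submodule.subset_span ⟨μ, Set.mem_insert _ _, rfl⟩)) (hle hx))
    rw [reg, Submodule.baseChange_span, Set.image_insert_eq, Set.image_insert_eq,
      Submodule.mem_span_insert, ← Submodule.baseChange_span] at h2
    obtain ⟨b', r, hr, rfl⟩ := h2
    have h3 : (b - ξ * b') ⊗ₜ[Pz W n] mon W μ ∈ (reg W R').baseChange B := by
      have : (b - ξ * b') ⊗ₜ[Pz W n] mon W μ = x + ξ • r := by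
        rw [smul_add, smul_smul, TensorProduct.mk_apply, TensorProduct.smul_tmul', smul_eq_mul,
          mul_one] at hy'
        rw [TensorProduct.sub_tmul, sub_eq_iff_eq_add, sub_eq_iff_eq_add'.1 hy'.symm]
        abel
      rw [this]
      exact add_mem hx (Submodule.smul_mem _ _ hr)
    have := H.free
    let e := Module.Free.chooseBasis (Pz W n) B
    have h4 : b - ξ * b' ∈ nn W n B := by
      rw [nn_eq_map, ← e.linearCombination_repr (b - ξ * b'), Finsupp.linearCombination_apply]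
      refine Submodule.sum_mem _ fun j _ => ?_
      beta_reduce
      rw [Algebra.smul_def]
      refine Ideal.mul_mem_right _ _ (Ideal.mem_map_of_mem _ ?_)
      have h5 := (mem_baseChange_iff e _ _).1 h3 j
      rw [TensorProduct.equivFinsuppOfBasisLeft_apply_tmul_apply, mem_reg hR'] at h5
      have h6 : MvPolynomial.constantCoeff (e.repr (b - ξ * b') j) = 0 := by
        rw [← cf_smul_mon _ μ]
        by_contra h
        exact hμ (h5 μ h)
      rw [← pow_one (Ideal.span _)]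
      refine (MvPolynomial.mem_pow_idealOfVars_iff' 1 _).2 fun x hx => ?_
      rw [Nat.lt_one_iff, Finsupp.degree_eq_zero_iff] at hx
      rw [hx]
      exact h6
    have : b = ξ * b' + (b - ξ * b') := by ring
    rw [this]
    exact Submodule.add_mem_sup (Ideal.mul_mem_right _ _ (Ideal.mem_span_singleton_self ξ)) h4
  · intro hb
    refine smul_mem_Om' hR μ.1 (r := 1) (fun ν hν h => ?_) (by simpa [kk] using hb)
      (Submodule.subset_span ⟨μ, Set.mem_insert _ _, rfl⟩)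
    rcases hν with rfl | hν
    · omega
    · exact hν

/-- induction on `s`, moving an element of maximal `μ.1` from `R \ R'` to `R'`. -/
theorem len_Om {pp : W} {ρ : ℕ} (H : Hx n pp ξ ρ) {R R' : Set (Mon n)} (hR : Stab R)
    (hR' : Stab R') (h : R' ⊆ R) (s : Finset (Mon n)) (hs : (↑s : Set (Mon n)) = R \ R') :
    len (Om W ξ R) (Om W ξ R') = (s.card * ρ : ℕ) := by
  classical
  induction s using Finset.induction_on_max_value (f := fun μ : Mon n => μ.1) generalizing R' with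
  | empty =>
    rw [Finset.card_empty, zero_mul, Nat.cast_zero, len_eq_zero_iff]
    exact Om_mono (Set.sdiff_eq_empty.1 (by rw [← hs, Finset.coe_empty]))
  | insert μ s hμs hmax ih =>
    have hμ : μ ∈ R \ R' := by rw [← hs]; simp
    have hst : ∀ S, μ + stp S ∈ R' := fun S => by
      by_contra hn
      have h1 : μ + stp S ∈ (↑(insert μ s) : Set (Mon n)) := by rw [hs]; exact ⟨hR μ hμ.1 S, hn⟩
      have h2 : (μ + stp S).1 = μ.1 + 1 := rfl
      rcases Finset.mem_insert.1 (Finset.mem_coe.1 h1) with h3 | h3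
      · rw [h3] at h2; omega
      · have := hmax _ h3; omega
    have hR'' : Stab (insert μ R') := fun ν hν S =>
      Or.inr (hν.elim (fun e => e ▸ hst S) fun h => hR' ν h S)
    have hsub : insert μ R' ⊆ R := Set.insert_subset hμ.1 h
    have hs' : (↑s : Set (Mon n)) = R \ insert μ R' := by
      rw [Set.insert_eq, Set.union_comm, ← Set.sdiff_sdiff, ← hs, Finset.coe_insert,
        Set.insert_sdiff_self_of_notMem (by simpa using hμs)]
    have h1 : len (Om W ξ (insert μ R')) (Om W ξ R') = ρ := by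
      rw [Set.insert_eq, Om_union, len_sup_left, Om, Set.image_singleton, len_span_singleton, ← H.rho,
        cl_eq_len]
      congr 1
      ext b
      exact smul_mon_mem_iff H hR' hμ.2 hst b
    rw [len_add (Om_mono (Set.subset_insert μ R')) (Om_mono hsub), ih hR'' hsub hs', h1,
      Finset.card_insert_of_notMem hμs]
    push_cast
    ring

theorem zB_smul_mon (i : Fin (n + 1)) (μ : Mon n) : zB W n B i • toO ξ (mon W μ) =
    ∑ S ∈ Finset.powersetCard i (Finset.univ : Finset (Fin n)), toO ξ (mon W (μ + stp S)) := by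
  rw [zB, algebraMap_smul_O, algebraMap_Lr, MvPolynomial.aeval_X, ← map_mul, zL, Finset.sum_mul,
    map_sum]
  exact Finset.sum_congr rfl fun S _ => by rw [mon_mul, add_comm]

theorem z0_pow_smul_mon (r : ℕ) (μ : Mon n) :
    zB W n B 0 ^ r • toO ξ (mon W μ) = toO ξ (mon W (μ + ((r : ℤ), 0))) := by
  induction r with
  | zero => rw [pow_zero, one_smul, Nat.cast_zero, Prod.mk_zero_zero, add_zero]
  | succ r ih =>
    rw [pow_succ', mul_smul, ih, zB, algebraMap_smul_O, algebraMap_Lr, MvPolynomial.aeval_X,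
      ← map_mul, zL_zero, mon_mul]
    congr 2
    ext <;> simp
    ring

/-- induction on `Bs`, removing `b` with maximal `∑ k, b k`: `R'' = R' ∪ {μ ∈ R | μ.2 = b}` is stable;
if `{μ ∈ R \ R' | μ.2 = b}` is nonempty with least first coordinate `v₀`, then
`Om R'' = Om R' ⊔ span {mon (v₀,b)}` (powers of `z 0`), and `ξ`, `z (succ i)`, `𝔫^r` map
`mon (v₀,b)` into `Om R'`; `kap_cyclic_le`, `kap_le_add`, `kap_sup_left`. -/
theorem kap_Om_le (θ : B) {R R' : Set (Mon n)} (hR : Stab R) (hR' : Stab R') (h : R' ⊆ R)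
    (t : ℤ) (r : ℕ) (Bs : Finset (Fin n → ℤ))
    (hs : ∀ μ ∈ R, μ ∉ R' → t ≤ μ.1 ∧ μ.1 < t + r ∧ μ.2 ∈ Bs) :
    kap θ (Om W ξ R) (Om W ξ R') ≤
      Bs.card * cl (kk W n ξ r ⊔ zp W n B ⊔ Ideal.span {θ}) := by
  classical
  induction Bs using Finset.induction_on_max_value (f := fun b : Fin n → ℤ => ∑ k, b k)
    generalizing R' with
  | empty =>
    refine (kap_le_len _ _ _).trans ((len_eq_zero_iff.2 (Om_mono fun μ hμ => ?_)).trans_le zero_le)
    by_contra hn
    simpa using (hs μ hμ hn).2.2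
  | insert b Bs hb hmax ih =>
    have hst : ∀ μ ∈ R, μ.2 = b → ∀ S : Finset (Fin n), S.Nonempty → μ + stp S ∈ R' :=
      fun μ hμ hμb S hS => by
      by_contra hn
      have h1 := (hs _ (hR μ hμ S) hn).2.2
      have h2 : ∑ k, (μ + stp S).2 k = ∑ k, b k + S.card := by
        simp [stp, hμb, Finset.sum_add_distrib]
      have h3 := hS.card_pos
      rcases Finset.mem_insert.1 h1 with h4 | h4
      · rw [h4] at h2; omega
      · have := hmax _ h4; omega
    have hR'' : Stab (R' ∪ {μ ∈ R | μ.2 = b}) := fun μ hμ S => by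
      rcases hμ with hμ | hμ
      · exact Or.inl (hR' μ hμ S)
      rcases S.eq_empty_or_nonempty with rfl | hS
      · exact Or.inr ⟨hR μ hμ.1 _, by rw [← hμ.2]; ext k; simp [stp]⟩
      · exact Or.inl (hst μ hμ.1 hμ.2 S hS)
    have hsub : R' ∪ {μ ∈ R | μ.2 = b} ⊆ R := Set.union_subset h fun μ hμ => hμ.1
    have h1 := ih hR'' hsub fun μ hμ hn => by
      have h2 := hs μ hμ fun h => hn (Or.inl h)
      exact ⟨h2.1, h2.2.1, (Finset.mem_insert.1 h2.2.2).resolve_left fun h => hn (Or.inr ⟨hμ, h⟩)⟩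
    have h2 : kap θ (Om W ξ (R' ∪ {μ ∈ R | μ.2 = b})) (Om W ξ R') ≤
        cl (kk W n ξ r ⊔ zp W n B ⊔ Ideal.span {θ}) := by
      by_cases hne : ∃ v : ℤ, (v, b) ∈ R ∧ (v, b) ∉ R'
      · obtain ⟨v, ⟨hv, hv'⟩, hmin⟩ := Int.exists_least_of_bdd ⟨t, fun v hv => (hs _ hv.1 hv.2).1⟩ hne
        have e : Om W ξ (R' ∪ {μ ∈ R | μ.2 = b}) =
            Submodule.span B {toO ξ (mon W ((v, b) : Mon n))} ⊔ Om W ξ R' := by
          refine le_antisymm (Submodule.span_le.2 ?_) (sup_le (Submodule.span_le.2 ?_)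
            (Om_mono Set.subset_union_left))
          · rintro _ ⟨⟨w, b'⟩, hμ, rfl⟩
            by_cases hn : (w, b') ∈ R'
            · exact Submodule.mem_sup_right (Submodule.subset_span ⟨_, hn, rfl⟩)
            obtain ⟨hw, rfl⟩ := hμ.resolve_left hn
            obtain ⟨m, rfl⟩ := Int.le.dest (hmin w ⟨hw, hn⟩)
            refine Submodule.mem_sup_left (Submodule.mem_span_singleton.2 ⟨zB W n B 0 ^ m, ?_⟩)
            rw [z0_pow_smul_mon]
            simp
          · rintro _ rfl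
            exact Submodule.subset_span ⟨_, Or.inr ⟨hv, rfl⟩, rfl⟩
        rw [e, kap_sup_left, cl_eq_len]
        refine kap_cyclic_le θ _ _ _ fun c hc => ?_
        have hI : kk W n ξ r ⊔ zp W n B ≤
            (Om W ξ R').comap (LinearMap.toSpanSingleton B _ (toO ξ (mon W ((v, b) : Mon n)))) := by
          refine sup_le (fun c hc => ?_) (Ideal.span_le.2 ?_)
          · refine smul_mem_Om' hR t (fun μ hμ h => ?_) hc (Submodule.subset_span ⟨_, hv, rfl⟩)
            by_contra hn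
            have := hs μ hμ hn
            omega
          · rintro _ ⟨i, rfl⟩
            change zB W n B i.succ • toO ξ (mon W ((v, b) : Mon n)) ∈ Om W ξ R'
            rw [zB_smul_mon]
            refine Submodule.sum_mem _ fun S hS => Submodule.subset_span ⟨_, hst _ hv rfl S ?_, rfl⟩
            rw [← Finset.card_pos, (Finset.mem_powersetCard.1 hS).2]
            simp
        exact hI hc
      · refine (kap_le_len _ _ _).trans ((len_eq_zero_iff.2 (Om_mono fun μ hμ => ?_)).trans_le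
          zero_le)
        by_contra hn
        obtain ⟨hw, rfl⟩ := hμ.resolve_left hn
        exact hne ⟨μ.1, hw, hn⟩
    refine (kap_le_add θ _ (Om_mono hsub)).trans ((add_le_add h1 h2).trans_eq ?_)
    rw [Finset.card_insert_of_notMem hb]
    push_cast
    ring

theorem Om_GG : Om W ξ (GG n) = Om W ξ (↑(G0 n) : Set (Mon n)) := by
  have h : reg W (GG n) = reg W (↑(G0 n) : Set (Mon n)) :=
    le_antisymm (reg_GG_le W n)
      (Submodule.span_mono (Set.image_mono fun μ hμ => (mem_G0.1 (Finset.mem_coe.1 hμ)).1))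
  rw [Om_eq_map, Om_eq_map, h]

/-- freeness of the Ulrich module, by counting: the map `(G0 → B/kk t) → O / Om (GG ∩ ge t)` has image
`Om GG / ..` of length `n! * choose (t+n) (n+1) * ρ` (`len_Om`, `exists_finset_GG`), and the source
has length at most that (`cl_kk_le`, `card_G0`).  In `len` terms with `f : (G0 → B) →ₗ O`,
`K = pi (kk t) ≤ comap f (Om ..)`, `len ⊤ K = len ⊤ (comap ..) + len (comap ..) K`. -/
theorem GG_free {pp : W} {ρ : ℕ} (H : Hx n pp ξ ρ) (t : ℕ) (b : Mon n → B)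
    (hb : ∑ μ ∈ G0 n, b μ • toO ξ (mon W μ) ∈ Om W ξ (GG n ∩ ge (t : ℤ))) :
    ∀ μ ∈ G0 n, b μ ∈ kk W n ξ t := by
  classical
  let f : (G0 n → B) →ₗ[B] OO W n ξ :=
    Fintype.linearCombination B fun μ : G0 n => toO ξ (mon W (μ : Mon n))
  let K : Submodule B (G0 n → B) := Submodule.pi Set.univ fun _ => kk W n ξ t
  have hf : (⊤ : Submodule B (G0 n → B)).map f = Om W ξ (GG n) := by
    rw [Submodule.map_top, Fintype.range_linearCombination, Om_GG, Om, Set.image_eq_range]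
    rfl
  have hK : K ≤ (Om W ξ (GG n ∩ ge (t : ℤ))).comap f := fun c hc => by
    rw [Submodule.mem_comap, Fintype.linearCombination_apply]
    refine Submodule.sum_mem _ fun μ _ => ?_
    have := smul_mem_Om (stab_GG n) (t := 0) (fun ν hν => hν.1) (hc μ trivial)
      (x := toO ξ (mon W (μ : Mon n))) (Submodule.subset_span ⟨_, (mem_G0.1 μ.2).1, rfl⟩)
    rwa [zero_add] at this
  obtain ⟨s, hs, hcard⟩ := exists_finset_GG n t
  have h1 : len ⊤ ((Om W ξ (GG n ∩ ge (t : ℤ))).comap f) =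
      (n.factorial * ((t + n).choose (n + 1) * ρ) : ℕ) := by
    rw [← len_map, hf, len_Om H (stab_GG n) ((stab_GG n).inter (stab_ge t)) Set.inter_subset_left s hs,
      hcard, mul_assoc]
  have h2 : len ⊤ K ≤ (n.factorial * ((t + n).choose (n + 1) * ρ) : ℕ) := by
    rw [← Submodule.pi_top (s := Set.univ), len_pi, Finset.sum_const, Finset.card_univ,
      Fintype.card_coe, card_G0, ← cl_eq_len, nsmul_eq_mul, Nat.cast_mul]
    exact mul_le_mul_right (cl_kk_le H t) _
  rw [len_add hK le_top, h1] at h2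
  have h3 : len ((Om W ξ (GG n ∩ ge (t : ℤ))).comap f) K = 0 :=
    nonpos_iff_eq_zero.1 ((ENat.add_le_add_iff_left (ENat.natCast_ne_top _)).1 (h2.trans_eq (add_zero _).symm))
  intro μ hμ
  refine len_eq_zero_iff.1 h3 (x := fun ν => b ν) ?_ ⟨μ, hμ⟩ trivial
  rw [Submodule.mem_comap, Fintype.linearCombination_apply]
  rwa [← Finset.sum_coe_sort] at hb

end

end Crest.Agent.R183
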