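import Crest.Agent.R183.Flat
import Crest.Agent.R183.Nag

/-! # R183 / Red : Artin–Rees, Noetherian induction, growth bounds, reductions of ideals. -/

set_option autoImplicit false
open IsLocalRing
open scoped ENNReal

namespace Crest.Agent.R183

variable {A : Type} [CommRing A]

/-- Artin–Rees in `A ⧸ I` for the submodule generated by `θ`. -/
theorem artin_rees_colon [IsNoetherianRing A] (I 𝔶 : Ideal A) (θ : A) :
    ∃ c, ∀ k, (I ⊔ 𝔶 ^ (k + c)).colon {θ} ≤ I.colon {θ} ⊔ 𝔶 ^ k := by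
  obtain ⟨c, hc⟩ := Ideal.exists_pow_inf_eq_pow_smul 𝔶 (I ⊔ Ideal.span {θ} : Submodule A A)
  refine ⟨c, fun k x hx => ?_⟩
  rw [Submodule.mem_colon_singleton, smul_eq_mul] at hx
  obtain ⟨i, hi, y, hy, hxy⟩ := Submodule.mem_sup.1 hx
  have h1 : y ∈ (𝔶 ^ (k + c) • ⊤ ⊓ (I ⊔ Ideal.span {θ}) : Submodule A A) := by
    refine ⟨by simpa using hy, ?_⟩
    rw [show y = x * θ - i by rw [← hxy]; ring]
    exact Submodule.sub_mem _ (Submodule.mem_sup_right (Ideal.mem_span_singleton'.2 ⟨x, rfl⟩))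
      (Submodule.mem_sup_left hi)
  rw [hc (k + c) (Nat.le_add_left _ _), Nat.add_sub_cancel] at h1
  have h2 : y ∈ I ⊔ 𝔶 ^ k * Ideal.span {θ} := by
    have h3 := Submodule.smul_mono (le_refl (𝔶 ^ k)) (inf_le_right (a := (𝔶 ^ c • ⊤ : Submodule A A))
      (b := I ⊔ Ideal.span {θ})) h1
    rw [Submodule.smul_sup] at h3
    exact (sup_le_sup_right (Submodule.smul_le_right (I := 𝔶 ^ k) (N := I)) _ :
      _ ≤ I ⊔ 𝔶 ^ k • Ideal.span {θ}) h3
  obtain ⟨i', hi', w, hw, hyw⟩ := Submodule.mem_sup.1 h2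
  obtain ⟨z, hz, rfl⟩ := Ideal.mem_mul_span_singleton.1 hw
  refine Submodule.mem_sup.2 ⟨x - z, ?_, z, hz, by ring⟩
  rw [Submodule.mem_colon_singleton, smul_eq_mul, show (x - z) * θ = i + i' by
    rw [sub_mul, ← hxy, ← hyw]; ring]
  exact I.add_mem hi hi'

/-- Noetherian induction on `I`: `⊤`, prime, or `a b ∈ I` with `a, b ∉ I`, so that `I < I + (a)` and
`I < (I : a)`.  `cl_eq_add_colon`, `artin_rees_colon`, `colon_map_le`, `le_lo_add`, `lo_shift`. -/
theorem a5 {R S : Type} [CommRing R] [CommRing S] [IsNoetherianRing R] [IsNoetherianRing S]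
    (f : R →+* S) (hf : f.Flat) (𝔶 : Ideal S) (d : ℕ) (μ : Ideal R → ℝ≥0∞) (htop : μ ⊤ = 0)
    (hsub : ∀ I a, μ I ≤ μ (I ⊔ Ideal.span {a}) + μ (I.colon {a}))
    (hp : ∀ 𝔭 : Ideal R, 𝔭.IsPrime → μ 𝔭 ≤ lo d (fun k => cl (𝔭.map f ⊔ 𝔶 ^ k))) (I : Ideal R) :
    μ I ≤ lo d (fun k => cl (I.map f ⊔ 𝔶 ^ k)) := by
  induction I using IsNoetherian.induction with
  | hgt I ih =>
  by_cases hI : Ideal.IsPrime I
  · exact hp I hI
  rcases Ideal.not_isPrime_iff.1 hI with rfl | ⟨a, ha, b, hb, hab⟩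
  · rw [htop]
    exact zero_le
  have h1 : I < I ⊔ Ideal.span {a} := lt_of_le_of_ne le_sup_left fun h =>
    ha (h ▸ Submodule.mem_sup_right (Ideal.mem_span_singleton_self a))
  have h2 : I < I.colon {a} := by
    refine lt_of_le_of_ne (fun x hx => ?_) fun h => hb ?_
    · rw [Submodule.mem_colon_singleton, smul_eq_mul]
      exact Ideal.mul_mem_right a I hx
    · rw [h, Submodule.mem_colon_singleton, smul_eq_mul, mul_comm]
      exact hab
  obtain ⟨c, hc⟩ := artin_rees_colon (Ideal.map f I) 𝔶 (f a)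
  refine (hsub I a).trans ((add_le_add (ih _ h1) (ih _ h2)).trans (le_lo_add.trans ?_))
  rw [← lo_shift (H := fun k => cl (Ideal.map f I ⊔ 𝔶 ^ k)) c]
  refine lo_mono (Filter.Eventually.of_forall fun k => ?_)
  rw [cl_eq_add_colon (Ideal.map f I ⊔ 𝔶 ^ (k + c)) (f a)]
  refine add_le_add (cl_anti ?_) (cl_anti ((hc k).trans (sup_le_sup_right (colon_map_le f hf I a) _)))
  rw [Ideal.map_sup, Ideal.map_span, Set.image_singleton, sup_right_comm]
  exact sup_le_sup_left (Ideal.pow_le_pow_right (Nat.le_add_right _ _)) _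

theorem up_cl_sub (𝔮 I : Ideal A) (a : A) (d : ℕ) : up d (fun N => cl (I ⊔ 𝔮 ^ N)) ≤
    up d (fun N => cl (I ⊔ Ideal.span {a} ⊔ 𝔮 ^ N)) + up d (fun N => cl (I.colon {a} ⊔ 𝔮 ^ N)) := by
  refine le_trans (up_mono (Filter.Eventually.of_forall fun N => ?_)) up_add_le
  rw [cl_eq_add_colon (I ⊔ 𝔮 ^ N) a, sup_right_comm]
  refine add_le_add le_rfl (cl_anti (sup_le (fun x hx => ?_) fun x hx => ?_))
  · rw [Submodule.mem_colon_singleton] at hx ⊢
    exact Submodule.mem_sup_left hx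
  · rw [Submodule.mem_colon_singleton, smul_eq_mul]
    exact Submodule.mem_sup_right (Ideal.mul_mem_right a _ hx)

/-- a Noetherian ring modulo an ideal containing a power of a maximal ideal has finite length. -/
theorem cl_ne_top_of_pow_le [IsNoetherianRing A] (𝔪 : Ideal A) [𝔪.IsMaximal] {I : Ideal A} {N : ℕ}
    (h : 𝔪 ^ N ≤ I) : cl I ≠ ⊤ := by
  have h0 : Ring.KrullDimLE 0 (A ⧸ I) :=
    Ideal.krullDimLE_zero_quotient_iff_forall_minimalPrimes_isMaximal.2 fun J hJ => by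
      have hJp : J.IsPrime := hJ.1.1
      have h1 : 𝔪 ≤ J := hJp.le_of_pow_le (h.trans hJ.1.2)
      rwa [← Ideal.IsMaximal.eq_of_le ‹𝔪.IsMaximal› hJp.ne_top h1]
  have h1 : IsArtinianRing (A ⧸ I) := IsNoetherianRing.isArtinianRing_of_krullDimLE_zero
  have h2 : IsArtinian A (A ⧸ I) :=
    isArtinian_of_surjective_algebraMap (R := A ⧸ I) Ideal.Quotient.mk_surjective
  exact Module.length_ne_top

theorem reda_choose_le (t s : ℕ) : (t + s).choose s ≤ (t + 1) ^ s := by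
  cases s with
  | zero => simp
  | succ s =>
    have h := choose_le_pow_succ s (t + 1)
    rwa [show t + 1 + s = t + (s + 1) by omega] at h

theorem reda_len_succ (I : Ideal A) {s : ℕ} (x : Fin (s + 1) → A) (t : ℕ) :
    len (I ⊔ Ideal.span (Set.range x) ^ t) (I ⊔ Ideal.span (Set.range x) ^ (t + 1)) ≤
      ((t + 1) ^ s : ℕ) * cl (I ⊔ Ideal.span (Set.range x)) := by
  obtain ⟨S, hS, hc⟩ := exists_finset_deg_eq s t
  have h := len_monI_le x I (monob_isUpperSet_deg t) (monob_isUpperSet_deg (t + 1)) S fun μ hμ =>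
    (hS μ).2 (le_antisymm (Nat.lt_succ_iff.1 (not_le.1 hμ.2)) hμ.1)
  rw [monI_deg, monI_deg, hc] at h
  exact h.trans (mul_le_mul' (Nat.cast_le.2 (reda_choose_le t s)) le_rfl)

theorem reda_len_add (I : Ideal A) {s : ℕ} (x : Fin (s + 1) → A) (k c : ℕ) :
    len (I ⊔ Ideal.span (Set.range x) ^ k) (I ⊔ Ideal.span (Set.range x) ^ (k + c)) ≤
      (c * (k + c) ^ s : ℕ) * cl (I ⊔ Ideal.span (Set.range x)) := by
  induction c with
  | zero => exact (len_eq_zero_iff.2 le_rfl).le.trans zero_le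
  | succ c ih =>
    refine (len_le_add _ (I ⊔ Ideal.span (Set.range x) ^ (k + c)) _).trans
      ((add_le_add ih (reda_len_succ I x (k + c))).trans ?_)
    rw [← add_mul, ← Nat.cast_add]
    refine mul_le_mul' (Nat.cast_le.2 ?_) le_rfl
    rw [Nat.succ_mul]
    exact Nat.add_le_add_right (Nat.mul_le_mul_left _ (Nat.pow_le_pow_left (Nat.le_succ _) _)) _

/-- GROWTH BOUND.  `cl (I + 𝔮^(k+c)) = cl (I + θ + 𝔮^(k+c)) + cl (colon) `, colon `≤ I + 𝔮^k`, and
`len (I + 𝔮^k) (I + 𝔮^(k+c)) ≤ c * choose(k+c+s, s) * cl (I + 𝔮)` (`len_monI_le`, `monI_deg`,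
`exists_finset_deg_eq`); `choose (N+s) s ≤ (N+1)^s`. -/
theorem gr_le [IsNoetherianRing A] (I : Ideal A) {s : ℕ} (x : Fin (s + 1) → A) {θ : A}
    (hθ : I.colon {θ} ≤ I) (hfin : cl (I ⊔ Ideal.span (Set.range x)) ≠ ⊤) :
    ∃ C : ℕ, ∀ N, cl (I ⊔ Ideal.span {θ} ⊔ Ideal.span (Set.range x) ^ N) ≤ (C * (N + 1) ^ s : ℕ) := by
  obtain ⟨c, hc⟩ := artin_rees_colon I (Ideal.span (Set.range x)) θ
  obtain ⟨L, hL⟩ := ENat.ne_top_iff_exists.1 hfin
  refine ⟨c * (c + 1) ^ s * L, fun N => ?_⟩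
  have hN : cl (I ⊔ Ideal.span (Set.range x) ^ N) ≠ ⊤ := by
    refine ne_top_of_le_ne_top ?_ (cl_pow_le' x I N)
    rw [← hL, ← Nat.cast_mul]
    exact ENat.natCast_ne_top _
  have h1 : cl (I ⊔ Ideal.span {θ} ⊔ Ideal.span (Set.range x) ^ N) +
      cl (I ⊔ Ideal.span (Set.range x) ^ N) ≤ cl (I ⊔ Ideal.span (Set.range x) ^ (N + c)) := by
    rw [cl_eq_add_colon (I ⊔ Ideal.span (Set.range x) ^ (N + c)) θ]
    refine add_le_add (cl_anti ?_) (cl_anti ((hc N).trans (sup_le_sup_right hθ _)))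
    rw [sup_right_comm]
    exact sup_le_sup_left (Ideal.pow_le_pow_right (Nat.le_add_right _ _)) _
  have h2 : cl (I ⊔ Ideal.span (Set.range x) ^ (N + c)) ≤
      (c * (N + c) ^ s : ℕ) * L + cl (I ⊔ Ideal.span (Set.range x) ^ N) := by
    rw [hL, add_comm ((c * (N + c) ^ s : ℕ) * _ : ℕ∞), cl_eq_len, cl_eq_len]
    exact (len_le_add _ _ _).trans (add_le_add le_rfl (reda_len_add I x N c))
  refine ((WithTop.add_le_add_iff_right hN).1 (h1.trans h2)).trans ?_
  rw [← Nat.cast_mul]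
  refine Nat.cast_le.2 ?_
  have h3 : (N + c) ^ s ≤ (c + 1) ^ s * (N + 1) ^ s := by
    rw [← mul_pow]
    exact Nat.pow_le_pow_left (by nlinarith) _
  calc c * (N + c) ^ s * L ≤ c * ((c + 1) ^ s * (N + 1) ^ s) * L := by gcongr
    _ = _ := by ring

/-- the chain `L + span (v 0, …, v (j-1))` is strictly increasing. -/
theorem card_le_len [IsLocalRing A] {X : Type} [AddCommGroup X] [Module A X] {ι : Type} [Fintype ι]
    (v : ι → X) (L : Submodule A X)
    (h : ∀ a : ι → A, ∑ i, a i • v i ∈ L → ∀ i, a i ∈ maximalIdeal A) :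
    (Fintype.card ι : ℕ∞) ≤ len (Submodule.span A (Set.range v)) L := by
  have h1 : L.comap (Fintype.linearCombination A v) ≤
      Submodule.pi Set.univ fun _ : ι => (maximalIdeal A : Submodule A A) := fun a ha i _ =>
    h a (by simpa [Fintype.linearCombination_apply] using ha) i
  rw [← Fintype.range_linearCombination, LinearMap.range_eq_map, len_map]
  refine le_trans (le_of_eq ?_) (len_mono le_rfl h1)
  rw [← Submodule.pi_top Set.univ, len_pi]
  simp only [← cl_eq_len, cl_maximal]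
  simp

/-- dehomogenise: `μ ↦ Fin.tail μ` is injective on degree `o`; `MvPolynomial.funext`. -/
theorem exists_nonroot {k : Type} [Field k] [Infinite k] {s o : ℕ} (S : Finset (Fin (s + 1) → ℕ))
    (hS : ∀ μ ∈ S, ∑ i, μ i = o) (a : (Fin (s + 1) → ℕ) → k) (ha : ∃ μ ∈ S, a μ ≠ 0) :
    ∃ c : Fin s → k, ∑ μ ∈ S, a μ * ∏ i : Fin s, c i ^ μ i.succ ≠ 0 := by
  classical
  by_contra hcon
  obtain ⟨μ₀, h0, ha0⟩ := ha
  have h1 : (∑ μ ∈ S, MvPolynomial.monomial (Finsupp.equivFunOnFinite.symm (Fin.tail μ)) (a μ) :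
      MvPolynomial (Fin s) k) = 0 := by
    refine MvPolynomial.funext fun c => ?_
    rw [map_zero, map_sum]
    refine Eq.trans (Finset.sum_congr rfl fun μ _ => ?_) (not_not.1 fun h => hcon ⟨c, h⟩)
    rw [MvPolynomial.eval_monomial, Finsupp.prod_fintype _ _ fun i => pow_zero _]
    rfl
  have h2 := congrArg (MvPolynomial.coeff (Finsupp.equivFunOnFinite.symm (Fin.tail μ₀))) h1
  rw [MvPolynomial.coeff_sum, Finset.sum_eq_single_of_mem μ₀ h0, MvPolynomial.coeff_monomial, if_pos rfl,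
    MvPolynomial.coeff_zero] at h2
  · exact ha0 h2
  · intro μ hμ hne
    rw [MvPolynomial.coeff_monomial, if_neg]
    intro h3
    have h4 := Finsupp.equivFunOnFinite.symm.injective h3
    have h5 := hS μ hμ
    have h6 := hS μ₀ h0
    rw [Fin.sum_univ_succ] at h5 h6
    have h7 : ∑ i : Fin s, μ i.succ = ∑ i : Fin s, μ₀ i.succ :=
      Finset.sum_congr rfl fun i _ => congrFun h4 i
    refine hne (funext fun i => ?_)
    refine Fin.cases ?_ (fun i => congrFun h4 i) i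
    omega

/-- otherwise `card_le_len` gives `len (I + 𝔮^o) (I + 𝔮^(o+1)) ≥ choose (o+s) s` for all `o`, so
`cl (I + 𝔮^N) ≥ choose (N+s) (s+1)`, contradicting `le_lo_choose 1`, `lo_le_up`. -/
theorem exists_form [IsLocalRing A] (I : Ideal A) {s : ℕ} (y : Fin (s + 1) → A)
    (hy : ∀ i, y i ∈ maximalIdeal A)
    (hg : up (s + 1) (fun N => cl (I ⊔ Ideal.span (Set.range y) ^ N)) = 0) :
    ∃ (o : ℕ) (S : Finset (Fin (s + 1) → ℕ)) (a : (Fin (s + 1) → ℕ) → A), (∀ μ ∈ S, ∑ i, μ i = o) ∧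
      (∃ μ ∈ S, a μ ∉ maximalIdeal A) ∧
      ∑ μ ∈ S, a μ * ∏ i, y i ^ μ i ∈ I ⊔ maximalIdeal A * Ideal.span (Set.range y) ^ o := by
  classical
  by_contra hcon
  set 𝔮 := Ideal.span (Set.range y) with h𝔮
  have h𝔪 : 𝔮 ≤ maximalIdeal A := Ideal.span_le.2 (Set.range_subset_iff.2 hy)
  have h1 : ∀ o, (((o + s).choose s : ℕ) : ℕ∞) ≤ len (I ⊔ 𝔮 ^ o) (I ⊔ 𝔮 ^ (o + 1)) := by
    intro o
    obtain ⟨S, hS, hc⟩ := exists_finset_deg_eq s o
    have h2 := card_le_len (fun μ : S => ∏ i, y i ^ μ.1 i) (I ⊔ 𝔮 ^ (o + 1)) fun a ha μ => by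
      by_contra h3
      refine hcon ⟨o, S, fun μ => if h : μ ∈ S then a ⟨μ, h⟩ else 0, fun μ hμ => (hS μ).1 hμ,
        ⟨μ.1, μ.2, by simpa only [dif_pos μ.2] using h3⟩, ?_⟩
      rw [← Finset.sum_coe_sort]
      simp only [dif_pos (Subtype.prop _)]
      refine (sup_le_sup_left ?_ I) ha
      rw [pow_succ']
      exact Ideal.mul_mono_left h𝔪
    rw [Fintype.card_coe, hc] at h2
    refine h2.trans (len_mono (Submodule.span_le.2 (Set.range_subset_iff.2 fun μ => ?_)) le_rfl)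
    refine Submodule.mem_sup_right ?_
    rw [h𝔮, ← monI_deg]
    exact monoA_mem y ((hS μ).1 μ.2).ge
  have h2 : ∀ N, (((N + s).choose (s + 1) * 1 : ℕ) : ℕ∞) ≤ cl (I ⊔ 𝔮 ^ N) := by
    intro N
    rw [mul_one]
    induction N with
    | zero => simp
    | succ N ih =>
      rw [cl_eq_len, len_add (sup_le_sup_left (Ideal.pow_le_pow_right (Nat.le_succ N)) I) le_top,
        ← cl_eq_len, add_right_comm, Nat.choose_succ_succ', Nat.cast_add, add_comm]
      exact add_le_add ih (h1 N)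
  have h3 := (le_lo_choose (d := s) 1).trans
    ((lo_mono (Filter.Eventually.of_forall h2)).trans lo_le_up)
  rw [hg] at h3
  simp at h3

/-- congruence of elements of `𝔮 ^ n` modulo `J 𝔮 ^ (n - 1)` -/
def redb_R (𝔮 J : Ideal A) (n : ℕ) (p q : A) : Prop :=
  p ∈ 𝔮 ^ n ∧ q ∈ 𝔮 ^ n ∧ ∀ z ∈ 𝔮, z * (p - q) ∈ J * 𝔮 ^ n

theorem redb_one (𝔮 J : Ideal A) : redb_R 𝔮 J 0 1 1 := by
  simp [redb_R]

theorem redb_mul {𝔮 J : Ideal A} {n m : ℕ} {p q p' q' : A} (h : redb_R 𝔮 J n p q)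
    (h' : redb_R 𝔮 J m p' q') : redb_R 𝔮 J (n + m) (p * p') (q * q') := by
  refine ⟨pow_add 𝔮 n m ▸ Ideal.mul_mem_mul h.1 h'.1, pow_add 𝔮 n m ▸ Ideal.mul_mem_mul h.2.1 h'.2.1,
    fun z hz => ?_⟩
  rw [show z * (p * p' - q * q') = z * (p - q) * p' + z * (p' - q') * q by ring]
  refine Ideal.add_mem _ ?_ ?_
  · rw [pow_add, ← mul_assoc]
    exact Ideal.mul_mem_mul (h.2.2 z hz) h'.1
  · rw [add_comm, pow_add, ← mul_assoc]
    exact Ideal.mul_mem_mul (h'.2.2 z hz) h.2.1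

theorem redb_pow {𝔮 J : Ideal A} {p q : A} (hp : p ∈ 𝔮) (hq : q ∈ 𝔮) (h : p - q ∈ J) (n : ℕ) :
    redb_R 𝔮 J n (p ^ n) (q ^ n) := by
  induction n with
  | zero => simpa using redb_one 𝔮 J
  | succ n ih =>
    rw [pow_succ, pow_succ]
    refine redb_mul ih ⟨by rwa [pow_one], by rwa [pow_one], fun z hz => ?_⟩
    rw [pow_one, mul_comm z]
    exact Ideal.mul_mem_mul h hz

theorem redb_prod {𝔮 J : Ideal A} {ι : Type} (s : Finset ι) {n : ι → ℕ} {p q : ι → A}
    (h : ∀ i, redb_R 𝔮 J (n i) (p i) (q i)) :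
    redb_R 𝔮 J (∑ i ∈ s, n i) (∏ i ∈ s, p i) (∏ i ∈ s, q i) := by
  classical
  induction s using Finset.induction_on with
  | empty => simpa using redb_one 𝔮 J
  | insert a s ha ih =>
    rw [Finset.sum_insert ha, Finset.prod_insert ha, Finset.prod_insert ha]
    exact redb_mul (h a) ih

theorem redb_sup_pow (J K : Ideal A) (o : ℕ) : (J ⊔ K) ^ (o + 1) ≤ J * (J ⊔ K) ^ o ⊔ K ^ (o + 1) := by
  induction o with
  | zero => simp
  | succ o ih =>
    rw [pow_succ' _ (o + 1), Ideal.sup_mul]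
    refine sup_le le_sup_left ((Ideal.mul_mono_right ih).trans ?_)
    rw [Ideal.mul_sup, ← pow_succ']
    refine sup_le_sup_right ?_ _
    rw [mul_left_comm, pow_succ']
    exact Ideal.mul_mono_right (Ideal.mul_mono_left le_sup_right)

theorem redb_span {s : ℕ} (y : Fin (s + 1) → A) (t : Fin s → A) :
    Ideal.span (Set.range fun i => y i.succ - t i * y 0) ⊔ Ideal.span {y 0} =
      Ideal.span (Set.range y) := by
  have h0 : ∀ i, y i ∈ Ideal.span (Set.range y) := fun i => Ideal.subset_span ⟨i, rfl⟩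
  refine le_antisymm (sup_le (Ideal.span_le.2 (Set.range_subset_iff.2 fun i => ?_))
    ((Ideal.span_singleton_le_iff_mem _).2 (h0 0))) (Ideal.span_le.2 (Set.range_subset_iff.2 fun i => ?_))
  · exact Ideal.sub_mem _ (h0 _) (Ideal.mul_mem_left _ _ (h0 0))
  · refine Fin.cases ?_ (fun i => ?_) i
    · exact Submodule.mem_sup_right (Ideal.mem_span_singleton_self _)
    · rw [← sub_add_cancel (y i.succ) (t i * y 0)]
      exact Submodule.add_mem_sup (Ideal.subset_span ⟨i, rfl⟩)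
        (Ideal.mul_mem_left _ _ (Ideal.mem_span_singleton_self _))

/-- STEP.  `exists_form`, `exists_nonroot`; degree `0` forces `I = ⊤`.  With `𝔮 = (y)`,
`𝔮' = (y i.succ - ρ (c i) y 0)`: each monomial `y^μ ≡ ρ(c)^μ y₀^(o+1)` modulo `𝔮' 𝔮^o`, so
`y₀^(o+1) ∈ I + 𝔮' 𝔮^o + 𝔪 𝔮^(o+1)`; `𝔮^(o+1) ≤ 𝔮' 𝔮^o + (y₀^(o+1))`; Nakayama
(`Submodule.le_of_le_smul_of_le_jacobson_bot`). -/
theorem step' [IsNoetherianRing A] [IsLocalRing A] [Infinite (ResidueField A)] {C : Type}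
    [CommRing C] (ρ : C →+* A) (hρ : ∀ a, ∃ c, a - ρ c ∈ maximalIdeal A) (I : Ideal A) {s : ℕ}
    (y : Fin (s + 1) → A) (hy : ∀ i, y i ∈ maximalIdeal A)
    (hg : up (s + 1) (fun N => cl (I ⊔ Ideal.span (Set.range y) ^ N)) = 0) :
    ∃ (c : Fin s → C) (o : ℕ), Ideal.span (Set.range y) ^ (o + 1) ≤
      I ⊔ Ideal.span (Set.range fun i => y i.succ - ρ (c i) * y 0) * Ideal.span (Set.range y) ^ o := by
  obtain ⟨o, S, a, hS, ⟨μ₀, h0, ha0⟩, hmem⟩ := exists_form I y hy hg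
  obtain ⟨c', hc'⟩ := exists_nonroot S hS (fun μ => residue A (a μ))
    ⟨μ₀, h0, fun h => ha0 ((residue_eq_zero_iff _).1 h)⟩
  have h1 : ∀ i, ∃ c : C, residue A (ρ c) = c' i := fun i => by
    obtain ⟨x, hx⟩ := residue_surjective (c' i)
    obtain ⟨c, hc⟩ := hρ x
    rw [← residue_eq_zero_iff, map_sub, sub_eq_zero] at hc
    exact ⟨c, hc ▸ hx⟩
  choose c hc using h1
  refine ⟨c, o, ?_⟩
  set 𝔮 := Ideal.span (Set.range y) with h𝔮
  set J := Ideal.span (Set.range fun i => y i.succ - ρ (c i) * y 0) with hJ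
  have hq : ∀ i, y i ∈ 𝔮 := fun i => Ideal.subset_span ⟨i, rfl⟩
  have hu : IsUnit (∑ μ ∈ S, a μ * ∏ i : Fin s, ρ (c i) ^ μ i.succ) := by
    rw [← residue_ne_zero_iff_isUnit]
    simpa only [map_sum, map_mul, map_prod, map_pow, hc] using hc'
  have h2 : ∀ μ ∈ S, y 0 * (∏ i, y i ^ μ i - (∏ i : Fin s, ρ (c i) ^ μ i.succ) * y 0 ^ o) ∈ J * 𝔮 ^ o := by
    intro μ hμ
    have h3 := redb_mul (redb_pow (J := J) (hq 0) (hq 0) (by simp) (μ 0))
      (redb_prod Finset.univ fun i : Fin s => redb_pow (J := J) (hq i.succ)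
        (Ideal.mul_mem_left _ (ρ (c i)) (hq 0)) (Ideal.subset_span ⟨i, rfl⟩) (μ i.succ))
    have h4 := h3.2.2 _ (hq 0)
    rw [← Fin.sum_univ_succ, hS μ hμ, ← Fin.prod_univ_succ fun i => y i ^ μ i] at h4
    simp only [mul_pow, Finset.prod_mul_distrib, Finset.prod_pow_eq_pow_sum] at h4
    rwa [mul_left_comm (y 0 ^ μ 0), ← pow_add, ← Fin.sum_univ_succ, hS μ hμ] at h4
  have h3 : y 0 ^ (o + 1) ∈ I ⊔ J * 𝔮 ^ o ⊔ maximalIdeal A • 𝔮 ^ (o + 1) := by
    rw [← Ideal.unit_mul_mem_iff_mem _ hu]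
    have e : (∑ μ ∈ S, a μ * ∏ i : Fin s, ρ (c i) ^ μ i.succ) * y 0 ^ (o + 1) =
        y 0 * (∑ μ ∈ S, a μ * ∏ i, y i ^ μ i) - ∑ μ ∈ S, a μ *
          (y 0 * (∏ i, y i ^ μ i - (∏ i : Fin s, ρ (c i) ^ μ i.succ) * y 0 ^ o)) := by
      rw [Finset.sum_mul, Finset.mul_sum, ← Finset.sum_sub_distrib]
      exact Finset.sum_congr rfl fun μ _ => by ring
    rw [e]
    refine Ideal.sub_mem _ ?_ (Submodule.mem_sup_left (Submodule.mem_sup_right
      (Ideal.sum_mem _ fun μ hμ => Ideal.mul_mem_left _ _ (h2 μ hμ))))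
    obtain ⟨u, hu, v, hv, huv⟩ := Submodule.mem_sup.1 hmem
    rw [← huv, mul_add]
    refine Submodule.add_mem_sup (Submodule.mem_sup_left (Ideal.mul_mem_left _ _ hu)) ?_
    rw [smul_eq_mul, pow_succ, ← mul_assoc, mul_comm (y 0)]
    exact Ideal.mul_mem_mul hv (hq 0)
  refine Submodule.le_of_le_smul_of_le_jacobson_bot (IsNoetherian.noetherian _)
    (maximalIdeal_le_jacobson _) ?_
  have h4 := redb_sup_pow J (Ideal.span {y 0}) o
  rw [hJ, redb_span, ← hJ, ← h𝔮, Ideal.span_singleton_pow] at h4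
  exact h4.trans (sup_le (le_sup_right.trans le_sup_left) ((Ideal.span_singleton_le_iff_mem _).2 h3))

/-- changing `y i.succ` to `y i.succ - t i * y 0` keeps the ideal. -/
theorem span_cons_sub {s : ℕ} (y : Fin (s + 1) → A) (t : Fin s → A) :
    Ideal.span (Set.range (Fin.cons (y 0) fun i => y i.succ - t i * y 0 : Fin (s + 1) → A)) =
      Ideal.span (Set.range y) := by
  rw [Fin.range_cons, Ideal.span_insert, sup_comm, redb_span]

/-- `d` elements of `𝔪` generate an `𝔪`-primary ideal -/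
def Sop (A : Type) [CommRing A] [IsLocalRing A] (d : ℕ) : Prop :=
  ∃ x : Fin d → A, (∀ i, x i ∈ maximalIdeal A) ∧ ∃ c, maximalIdeal A ^ c ≤ Ideal.span (Set.range x)

/-- `Ideal.exists_finset_card_eq_height_of_isNoetherianRing`, `maximalIdeal_height_eq_ringKrullDim`;
the radical of the span is `𝔪`; `Ideal.exists_pow_le_of_le_radical_of_fg`. -/
theorem sop_of_dim [IsNoetherianRing A] [IsLocalRing A] {d : ℕ} (hd : ringKrullDim A = d) :
    Sop A d := by
  obtain ⟨s, hs, hc⟩ := (maximalIdeal A).exists_finset_card_eq_height_of_isNoetherianRing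
  have hcard : s.card = d := by
    have h1 := IsLocalRing.maximalIdeal_height_eq_ringKrullDim (R := A)
    rw [hd, ← hc] at h1
    exact_mod_cast h1
  have hr : Set.range (fun i : Fin d => (((s.equivFinOfCardEq hcard).symm i : s) : A)) = s := by
    ext a
    constructor
    · rintro ⟨i, rfl⟩
      exact ((s.equivFinOfCardEq hcard).symm i).2
    · intro ha
      exact ⟨s.equivFinOfCardEq hcard ⟨a, ha⟩, by simp⟩
  refine ⟨fun i => (((s.equivFinOfCardEq hcard).symm i : s) : A),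
    fun i => hs.1.2 (Ideal.subset_span ((s.equivFinOfCardEq hcard).symm i).2), ?_⟩
  rw [hr]
  refine Ideal.exists_pow_le_of_le_radical_of_fg ?_ (IsNoetherian.noetherian _)
  rw [Ideal.radical_eq_sInf]
  refine le_sInf fun J hJ => hs.2 ⟨hJ.2, hJ.1⟩ (le_maximalIdeal hJ.2.ne_top)

theorem Sop.map {B : Type} [CommRing B] [IsLocalRing A] [IsLocalRing B] (f : A →+* B)
    [IsLocalHom f] (h : ∃ N, maximalIdeal B ^ N ≤ (maximalIdeal A).map f) {d : ℕ} (hA : Sop A d) :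
    Sop B d := by
  obtain ⟨N, hN⟩ := h
  obtain ⟨x, hx, c, hc⟩ := hA
  refine ⟨fun i => f (x i), fun i => map_nonunit f _ (hx i), N * c, ?_⟩
  calc maximalIdeal B ^ (N * c) = (maximalIdeal B ^ N) ^ c := pow_mul _ _ _
    _ ≤ ((maximalIdeal A).map f) ^ c := Ideal.pow_right_mono hN c
    _ = (maximalIdeal A ^ c).map f := (Ideal.map_pow f _ c).symm
    _ ≤ (Ideal.span (Set.range x)).map f := Ideal.map_mono hc
    _ = _ := by rw [Ideal.map_span, ← Set.range_comp]; rfl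

/-- `𝔪^(o+k) ≤ 𝔮^k`. -/
theorem red_pow_le {𝔪 𝔮 : Ideal A} {o : ℕ} (h : 𝔪 ^ (o + 1) ≤ 𝔮 * 𝔪 ^ o) (k : ℕ) :
    𝔪 ^ (k + o) ≤ 𝔮 ^ k * 𝔪 ^ o := by
  induction k with
  | zero => simp
  | succ k ih =>
    calc 𝔪 ^ (k + 1 + o) = 𝔪 ^ (k + o) * 𝔪 := by ring
      _ ≤ 𝔮 ^ k * 𝔪 ^ o * 𝔪 := Ideal.mul_mono_left ih
      _ = 𝔮 ^ k * 𝔪 ^ (o + 1) := by ring
      _ ≤ 𝔮 ^ k * (𝔮 * 𝔪 ^ o) := Ideal.mul_mono_right h
      _ = 𝔮 ^ (k + 1) * 𝔪 ^ o := by ring

theorem redc_span_le [IsLocalRing A] {r : ℕ} {y : Fin r → A} (hy : ∀ i, y i ∈ maximalIdeal A) :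
    Ideal.span (Set.range y) ≤ maximalIdeal A :=
  Ideal.span_le.2 (Set.range_subset_iff.2 hy)

theorem redc_step [IsNoetherianRing A] [IsLocalRing A] [Infinite (ResidueField A)] {d s : ℕ}
    (h : Sop A d) (hds : d ≤ s) (y : Fin (s + 1) → A) (hy : ∀ i, y i ∈ maximalIdeal A) {o : ℕ}
    (ho : maximalIdeal A ^ (o + 1) ≤ Ideal.span (Set.range y) * maximalIdeal A ^ o) :
    ∃ x : Fin s → A, (∀ i, x i ∈ maximalIdeal A) ∧
      ∃ o, maximalIdeal A ^ (o + 1) ≤ Ideal.span (Set.range x) * maximalIdeal A ^ o := by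
  obtain ⟨x, hx, c, hc⟩ := h
  obtain ⟨a, ha⟩ := ENat.ne_top_iff_exists.1 (cl_ne_top_of_pow_le (maximalIdeal A) hc)
  have hg : up (s + 1) (fun N => cl (⊥ ⊔ Ideal.span (Set.range y) ^ N)) = 0 := by
    refine up_eq_zero_of_le ((o + 1) ^ d * a) (Filter.Eventually.of_forall fun N => ?_)
    have h1 : ⊥ ⊔ Ideal.span (Set.range x) ^ (N + o) ≤ ⊥ ⊔ Ideal.span (Set.range y) ^ N :=
      sup_le_sup_left ((Ideal.pow_right_mono (redc_span_le hx) _).trans
        ((red_pow_le ho N).trans Ideal.mul_le_left)) _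
    refine (cl_anti h1).trans ((cl_pow_le' x ⊥ (N + o)).trans ?_)
    rw [bot_sup_eq, ← ha, ← Nat.cast_mul, Nat.cast_le]
    have h2 : (N + o) ^ d ≤ (o + 1) ^ d * (N + 1) ^ s :=
      calc (N + o) ^ d ≤ ((o + 1) * (N + 1)) ^ d := Nat.pow_le_pow_left (by nlinarith) d
        _ = (o + 1) ^ d * (N + 1) ^ d := mul_pow _ _ _
        _ ≤ _ := Nat.mul_le_mul_left _ (Nat.pow_le_pow_right (Nat.succ_pos N) hds)
    calc (N + o) ^ d * a ≤ (o + 1) ^ d * (N + 1) ^ s * a := Nat.mul_le_mul_right _ h2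
      _ = _ := by ring
  obtain ⟨t, o', h'⟩ := step' (RingHom.id A) (fun a => ⟨a, by simp⟩) ⊥ y hy hg
  rw [bot_sup_eq] at h'
  refine ⟨fun i => y i.succ - RingHom.id A (t i) * y 0,
    fun i => sub_mem (hy _) (Ideal.mul_mem_left _ _ (hy 0)), o' + o, ?_⟩
  calc maximalIdeal A ^ (o' + o + 1) = maximalIdeal A ^ (o' + 1 + o) := by ring
    _ ≤ Ideal.span (Set.range y) ^ (o' + 1) * maximalIdeal A ^ o := red_pow_le ho _
    _ ≤ Ideal.span (Set.range fun i => y i.succ - RingHom.id A (t i) * y 0) *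
        maximalIdeal A ^ o' * maximalIdeal A ^ o :=
        Ideal.mul_mono_left (h'.trans (Ideal.mul_mono_right
          (Ideal.pow_right_mono (redc_span_le hy) _)))
    _ = _ := by rw [mul_assoc, ← pow_add]

/-- downward induction on the number `r ≥ d` of generators of a reduction, starting from generators of
`𝔪` (padded with zeros); growth `cl ((y)^N) ≤ cl (𝔪^(N+o)) ≤ cl ((x)^(N+o)) ≤ (N+o)^d cl (x)`
(`cl_pow_le'`), `step'` with `I = ⊥`, `ρ = id`. -/
theorem exists_reduction [IsNoetherianRing A] [IsLocalRing A] [Infinite (ResidueField A)] {d : ℕ}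
    (h : Sop A d) : ∃ x : Fin d → A, (∀ i, x i ∈ maximalIdeal A) ∧
      ∃ o, maximalIdeal A ^ (o + 1) ≤ Ideal.span (Set.range x) * maximalIdeal A ^ o := by
  have key : ∀ n : ℕ, (∃ x : Fin (d + n) → A, (∀ i, x i ∈ maximalIdeal A) ∧
      ∃ o, maximalIdeal A ^ (o + 1) ≤ Ideal.span (Set.range x) * maximalIdeal A ^ o) →
      ∃ x : Fin d → A, (∀ i, x i ∈ maximalIdeal A) ∧
      ∃ o, maximalIdeal A ^ (o + 1) ≤ Ideal.span (Set.range x) * maximalIdeal A ^ o := by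
    intro n
    induction n with
    | zero => exact id
    | succ n ih =>
      rintro ⟨y, hy, o, ho⟩
      exact ih (redc_step h (Nat.le_add_right d n) y hy ho)
  obtain ⟨n, g, hg⟩ := Submodule.fg_iff_exists_fin_generating_family.1
    (IsNoetherian.noetherian (maximalIdeal A))
  refine key n ⟨Fin.append (fun _ => 0) g, fun i => ?_, 0, ?_⟩
  · refine Fin.addCases (fun i => ?_) (fun i => ?_) i
    · rw [Fin.append_left]; exact zero_mem _
    · rw [Fin.append_right, ← hg]; exact Submodule.subset_span ⟨i, rfl⟩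
  · rw [zero_add, pow_one, pow_zero, mul_one]
    refine hg.symm.le.trans (Submodule.span_mono ?_)
    rintro _ ⟨i, rfl⟩
    exact ⟨Fin.natAdd d i, Fin.append_right _ _ i⟩

theorem redc_len_range {M : Type} [AddCommGroup M] [Module A M] {n : ℕ} (v : Fin n → M)
    (L : Submodule A M) (J : Ideal A) (h : ∀ b ∈ J, ∀ i, b • v i ∈ L) :
    len (Submodule.span A (Set.range v)) L ≤ n * cl J := by
  have h1 := len_iSup_le Finset.univ (fun i => Submodule.span A {v i}) L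
  simp only [Finset.mem_univ, iSup_pos] at h1
  rw [Submodule.span_range_eq_iSup]
  refine h1.trans ((Finset.sum_le_card_nsmul _ _ (cl J) fun i _ => ?_).trans (le_of_eq ?_))
  · rw [cl_eq_len]
    exact len_cyclic_le _ _ J fun b hb => h b hb i
  · simp

/-- UPPER BOUND.  `M ⊇ M' = span (range m)`, `g M ≤ M'`, `I M = 0`.
`length (M / 𝔮^N M) ≤ e cl (I + 𝔮^N) + r cl (I + g + 𝔮^N)` (`r` generators of `M`; `len_le_add`,
`len_iSup_le`, `len_cyclic_le`); `cl_pow_le`, `gr_le`, `up_add_le`, `up_choose_le`,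
`up_eq_zero_of_le`. -/
theorem up_module_le [IsNoetherianRing A] {M : Type} [AddCommGroup M] [Module A M]
    [Module.Finite A M] (I : Ideal A) (hI : ∀ a ∈ I, ∀ x : M, a • x = 0) {s : ℕ}
    (x : Fin (s + 1) → A) {a : ℕ} (ha : cl (I ⊔ Ideal.span (Set.range x)) ≤ a) {e : ℕ}
    (m : Fin e → M) {g : A} (hg : I.colon {g} ≤ I)
    (hgM : ∀ z : M, g • z ∈ Submodule.span A (Set.range m)) :
    up (s + 1) (fun N => len (⊤ : Submodule A M) (Ideal.span (Set.range x) ^ N • ⊤)) ≤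
      (a * e : ℕ) := by
  obtain ⟨r, z, hz⟩ := Submodule.fg_iff_exists_fin_generating_family.1
    (Module.Finite.fg_top (R := A) (M := M))
  obtain ⟨C, hC⟩ := gr_le I x hg (ne_top_of_le_ne_top (ENat.natCast_ne_top a) ha)
  have key : ∀ N, len (⊤ : Submodule A M) (Ideal.span (Set.range x) ^ N • ⊤) ≤
      ((N + s).choose (s + 1) * (a * e) : ℕ) + ((r * C) * (N + 1) ^ s : ℕ) := by
    intro N
    obtain ⟨L, hL⟩ : ∃ L : Submodule A M, L = Ideal.span (Set.range x) ^ N • ⊤ := ⟨_, rfl⟩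
    have hq : ∀ b ∈ I ⊔ Ideal.span (Set.range x) ^ N, ∀ w : M, b • w ∈ L := by
      intro b hb w
      obtain ⟨b₁, h₁, b₂, h₂, rfl⟩ := Submodule.mem_sup.1 hb
      rw [add_smul, hI b₁ h₁, zero_add, hL]
      exact Submodule.smul_mem_smul h₂ Submodule.mem_top
    have h1 : len (Submodule.span A (Set.range m)) L ≤
        e * cl (I ⊔ Ideal.span (Set.range x) ^ N) := redc_len_range m L _ fun b hb i => hq b hb _
    have h2 : len (⊤ : Submodule A M) (Submodule.span A (Set.range m) ⊔ L) ≤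
        r * cl (I ⊔ Ideal.span {g} ⊔ Ideal.span (Set.range x) ^ N) := by
      rw [← hz]
      refine redc_len_range z _ _ fun b hb i => ?_
      rw [sup_right_comm] at hb
      obtain ⟨b₁, h₁, b₂, h₂, rfl⟩ := Submodule.mem_sup.1 hb
      obtain ⟨u, rfl⟩ := Ideal.mem_span_singleton'.1 h₂
      rw [add_smul, mul_smul]
      exact add_mem (Submodule.mem_sup_right (hq b₁ h₁ _))
        (Submodule.mem_sup_left (Submodule.smul_mem _ _ (hgM _)))
    have h3 := len_le_add (⊤ : Submodule A M) (Submodule.span A (Set.range m) ⊔ L) L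
    rw [len_sup_left, add_comm] at h3
    rw [← hL]
    refine h3.trans (add_le_add (h1.trans ?_) (h2.trans ?_))
    · calc (e : ℕ∞) * cl (I ⊔ Ideal.span (Set.range x) ^ N) ≤
            e * (((N + s).choose (s + 1) : ℕ) * a) :=
            mul_le_mul_right ((cl_pow_le x I N).trans (mul_le_mul_right ha _)) _
        _ = _ := by push_cast; ring
    · calc (r : ℕ∞) * cl (I ⊔ Ideal.span {g} ⊔ Ideal.span (Set.range x) ^ N) ≤
            r * (C * (N + 1) ^ s : ℕ) := mul_le_mul_right (hC N) _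
        _ = _ := by push_cast; ring
  refine (up_mono (Filter.Eventually.of_forall key)).trans (up_add_le.trans ?_)
  rw [up_eq_zero_of_le (r * C) (Filter.Eventually.of_forall fun N => le_rfl), add_zero]
  exact up_choose_le (a * e)

/-- `HS R N ≤ cl (𝔮^N R) ≤ length_A (R / 𝔮^N R)`: restricting scalars does not decrease length
(`Submodule.length_le_length_restrictScalars`-type lemma, or a strictly monotone map). -/
theorem HS_le_len {R : Type} [CommRing R] [IsLocalRing R] [Algebra A R] {𝔮 : Ideal A}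
    (h : 𝔮.map (algebraMap A R) ≤ maximalIdeal R) (N : ℕ) :
    HS R N ≤ len (⊤ : Submodule A R) (𝔮 ^ N • ⊤) := by
  have h1 : 𝔮 ^ N • (⊤ : Submodule A R) ≤ (maximalIdeal R ^ N).restrictScalars A := by
    rw [Ideal.smul_top_eq_map, Ideal.map_pow]
    exact fun b hb => Ideal.pow_right_mono h N hb
  refine le_trans ?_ (len_mono le_rfl h1)
  rw [len_top, (Submodule.Quotient.restrictScalarsEquiv A (maximalIdeal R ^ N)).length_eq, HS, cl,
    ← Module.length_top, ← Module.length_top (R := A)]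
  exact Submodule.length_le_length_restrictScalars A ⊤

end Crest.Agent.R183
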