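import Crest.Agent.R183.Cohen
import Crest.Agent.R183.Red
import Crest.Agent.R183.G

/-! # R183 / PSAuxd : auxiliary lemmas on complete local rings for `PS` -/

set_option autoImplicit false
open IsLocalRing

namespace Crest.Agent.R183

theorem psd_prec_surj {A M N : Type} [CommRing A] [AddCommGroup M] [Module A M] [AddCommGroup N]
    [Module A N] (I : Ideal A) [IsPrecomplete I M] (f : M →ₗ[A] N) (hf : Function.Surjective f) :
    IsPrecomplete I N := by
  refine AdicCompletion.of_surjective_iff.1 fun y => ?_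
  obtain ⟨x, rfl⟩ := AdicCompletion.map_surjective I hf y
  obtain ⟨m, rfl⟩ := AdicCompletion.of_surjective I M x
  exact ⟨f m, (AdicCompletion.map_of I f m).symm⟩

theorem psd_prec_of_pow_le {R : Type} [CommRing R] {J 𝔪 : Ideal R} (h1 : J ≤ 𝔪) {N : ℕ}
    (h2 : 𝔪 ^ N ≤ J) [h : IsPrecomplete J R] : IsPrecomplete 𝔪 R := by
  refine ⟨fun f hf => ?_⟩
  simp only [SModEq.sub_mem, smul_eq_mul, Ideal.mul_top] at hf ⊢
  obtain ⟨L, hL⟩ := h.prec (f := fun k => f ((N + 1) * k)) fun {m n} hmn => by
    simp only [SModEq.sub_mem, smul_eq_mul, Ideal.mul_top]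
    have h3 := hf (Nat.mul_le_mul_left (N + 1) hmn)
    rw [pow_mul] at h3
    exact Ideal.pow_right_mono ((Ideal.pow_le_pow_right N.le_succ).trans h2) m h3
  simp only [SModEq.sub_mem, smul_eq_mul, Ideal.mul_top] at hL
  refine ⟨L, fun n => ?_⟩
  rw [← sub_add_sub_cancel _ (f ((N + 1) * n))]
  exact add_mem (hf (Nat.le_mul_of_pos_left n N.succ_pos)) (Ideal.pow_right_mono h1 n (hL n))

theorem psd_max_pow_le {A R : Type} [CommRing A] [CommRing R] [IsLocalRing A] [IsLocalRing R]
    [Algebra A R] [Module.Finite A R] :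
    (maximalIdeal A).map (algebraMap A R) ≤ maximalIdeal R ∧
      ∃ N, maximalIdeal R ^ N ≤ (maximalIdeal A).map (algebraMap A R) := by
  refine ⟨Ideal.map_le_iff_le_comap.2 (eq_maximalIdeal
    (Ideal.isMaximal_comap_of_isIntegral_of_isMaximal (R := A) (maximalIdeal R))).ge, ?_⟩
  let := Ideal.Quotient.field (maximalIdeal A)
  have h1 : Module.Finite (A ⧸ maximalIdeal A) (R ⧸ (maximalIdeal A).map (algebraMap A R)) :=
    Module.Finite.of_restrictScalars_finite A _ _
  have h2 : IsArtinianRing (R ⧸ (maximalIdeal A).map (algebraMap A R)) :=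
    IsArtinianRing.of_finite (A ⧸ maximalIdeal A) _
  exact exists_maximalIdeal_pow_le_of_isArtinianRing_quotient _

theorem psd_cln_of_finite {A R : Type} [CommRing A] [CommRing R] [CLN A] [IsLocalRing R]
    [Algebra A R] [Module.Finite A R] : CLN R := by
  have h0 : IsNoetherianRing R := IsNoetherianRing.of_finite A R
  obtain ⟨h1, N, h2⟩ := psd_max_pow_le (A := A) (R := R)
  obtain ⟨r, f, hf⟩ := Module.Finite.exists_fin' A R
  have h3 := naga_precomplete_pi (maximalIdeal A) r
  have h4 : IsPrecomplete ((maximalIdeal A).map (algebraMap A R)) R :=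
    IsPrecomplete.map_algebraMap_iff.2 (psd_prec_surj _ f hf)
  have h5 := psd_prec_of_pow_le h1 h2
  exact { noeth := h0, compl := {} }

section PSR
variable {W : Type} [CommRing W] {n : ℕ} {𝒜 : Type} [CommRing 𝒜] [Algebra W 𝒜]
  {Z Z' : Fin (n + 1) → 𝒜}

theorem psd_aeval_mem (Z : Fin (n + 1) → 𝒜) {j : ℕ} {f : Pz W n} (hf : f ∈ XI W n ^ j) :
    MvPolynomial.aeval Z f ∈ Ideal.span (Set.range Z) ^ j := by
  rw [← Gb_map_XI (W := W), ← Ideal.map_pow]
  exact Ideal.mem_map_of_mem _ hf

theorem psd_sub_two (h : ∀ i, Z' i - Z i ∈ Ideal.span (Set.range Z) ^ 2) (f : Pz W n) :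
    MvPolynomial.aeval Z' f - MvPolynomial.aeval Z f ∈ Ideal.span (Set.range Z) ^ 2 := by
  induction f using MvPolynomial.induction_on with
  | C a => simp
  | add p q hp hq =>
    rw [map_add, map_add, add_sub_add_comm]
    exact add_mem hp hq
  | mul_X p i hp =>
    rw [map_mul, map_mul, MvPolynomial.aeval_X, MvPolynomial.aeval_X,
      show ∀ a b c d : 𝒜, a * b - c * d = (a - c) * b + c * (b - d) from fun _ _ _ _ => by ring]
    exact add_mem (Ideal.mul_mem_right _ _ hp) (Ideal.mul_mem_left _ _ (h i))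

theorem psd_sub_mem (h : ∀ i, Z' i - Z i ∈ Ideal.span (Set.range Z) ^ 2)
    (hs : Ideal.span (Set.range Z') = Ideal.span (Set.range Z)) (j : ℕ) {f : Pz W n}
    (hf : f ∈ XI W n ^ j) :
    MvPolynomial.aeval Z' f - MvPolynomial.aeval Z f ∈ Ideal.span (Set.range Z) ^ (j + 1) := by
  induction j generalizing f with
  | zero => exact Ideal.pow_le_pow_right (by omega) (psd_sub_two h f)
  | succ j ih =>
    rw [pow_succ] at hf
    refine Submodule.mul_induction_on hf (fun p hp q hq => ?_) fun p q hp hq => ?_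
    · rw [map_mul, map_mul,
        show ∀ a b c d : 𝒜, a * b - c * d = (a - c) * b + c * (b - d) from fun _ _ _ _ => by ring]
      refine add_mem ?_ ?_
      · have h1 := psd_aeval_mem Z' (j := 1) (f := q) (by rwa [pow_one])
        rw [hs] at h1
        rw [pow_add]
        exact Ideal.mul_mem_mul (ih hp) h1
      · rw [add_assoc, pow_add]
        exact Ideal.mul_mem_mul (psd_aeval_mem Z hp) (psd_sub_two h q)
    · rw [map_add, map_add, add_sub_add_comm]
      exact add_mem hp hq

end PSR

end Crest.Agent.R183
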