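import Crest.Agent.R183.FC

/-! # R183 / Res : a minimal free resolution of length `≤ c` of `T / J`, flat over `R`, when
`T / 𝔪 T` is regular of dimension `c`. -/

set_option autoImplicit false
open IsLocalRing

namespace Crest.Agent.R183

section Reg
variable {L : Type} [CommRing L] {c : ℕ} (u : Fin c → L) {V V' : Type} [AddCommGroup V]
  [Module L V] [AddCommGroup V'] [Module L V']

/-- the ideal of the first `i` elements -/
def uI (i : ℕ) : Ideal L := Ideal.span (u '' {i' | (i' : ℕ) < i})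

/-- the first `j` elements of `u` form a weakly regular sequence on `V / N` -/
def RegOn (N : Submodule L V) (j : ℕ) : Prop :=
  ∀ i : Fin c, (i : ℕ) < j → ∀ x : V, u i • x ∈ N ⊔ uI u i • ⊤ → x ∈ N ⊔ uI u i • ⊤

variable {u}

theorem RegOn.mono {N : Submodule L V} {j j' : ℕ} (h : RegOn u N j) (hj : j' ≤ j) : RegOn u N j' :=
  fun i hi => h i (hi.trans_le hj)

theorem resA_uI_mono (u : Fin c → L) {i j : ℕ} (h : i ≤ j) : uI u i ≤ uI u j :=
  Ideal.span_mono (Set.image_mono fun _ h' => lt_of_lt_of_le h' h)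

theorem resA_uI_succ (u : Fin c → L) (i : Fin c) :
    uI u (i + 1) = uI u i ⊔ Ideal.span {u i} := by
  rw [uI, uI, ← Ideal.span_union, ← Set.image_singleton, ← Set.image_union]
  congr 2
  ext k
  simp only [Set.mem_ofPred_eq, Set.mem_union, Set.mem_singleton_iff, Fin.ext_iff]
  omega

theorem resA_uI_succ' (u : Fin c → L) {i : ℕ} (h : c ≤ i) : uI u (i + 1) = uI u i := by
  rw [uI, uI]
  congr 2
  ext k
  have := k.2
  simp only [Set.mem_ofPred_eq]
  omega

theorem resA_mem_pi {ι : Type} [Fintype ι] (I : Ideal L) (x : ι → L) :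
    x ∈ I • (⊤ : Submodule L (ι → L)) ↔ ∀ a, x a ∈ I := by
  classical
  constructor
  · intro h
    refine Submodule.smul_induction_on h (fun r hr n _ a => I.mul_mem_right _ hr)
      fun y z hy hz a => I.add_mem (hy a) (hz a)
  · intro h
    rw [pi_eq_sum_univ' x]
    exact Submodule.sum_mem _ fun a _ => Submodule.smul_mem_smul (h a) Submodule.mem_top

/-- induction on `i`: `x = y + u i z`, so `z = n + y'` and `x - u i n ∈ N ⊓ uI i • ⊤`. -/
theorem RegOn.inf_le {N : Submodule L V} {j : ℕ} (h : RegOn u N j) {i : ℕ} (hi : i ≤ j) :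
    N ⊓ uI u i • ⊤ ≤ uI u i • N := by
  induction i with
  | zero => simp [uI]
  | succ i ih =>
    replace ih := ih (by omega)
    by_cases hc : i < c
    · rintro x ⟨hxN, hx⟩
      have e := resA_uI_succ u ⟨i, hc⟩
      simp only at e
      rw [e, Submodule.sup_smul] at hx ⊢
      obtain ⟨y, hy, w, hw, rfl⟩ := Submodule.mem_sup.1 hx
      rw [Submodule.ideal_span_singleton_smul] at hw
      obtain ⟨z, -, rfl⟩ := (Submodule.mem_smul_pointwise_iff_exists _ _ _).1 hw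
      have hz : z ∈ N ⊔ uI u i • ⊤ := by
        refine h ⟨i, hc⟩ (by simpa using hi) z ?_
        have := Submodule.sub_mem _ (Submodule.mem_sup_left (T := uI u i • ⊤) hxN)
          (Submodule.mem_sup_right hy)
        rwa [add_sub_cancel_left] at this
      obtain ⟨n, hn, y', hy', rfl⟩ := Submodule.mem_sup.1 hz
      have e2 : y + u ⟨i, hc⟩ • (n + y') = (y + u ⟨i, hc⟩ • y') + u ⟨i, hc⟩ • n := by
        rw [smul_add]; abel
      rw [e2] at hxN ⊢
      refine Submodule.add_mem_sup (ih ⟨?_, Submodule.add_mem _ hy (Submodule.smul_mem _ _ hy')⟩)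
        (Submodule.smul_mem_smul (Ideal.mem_span_singleton_self _) hn)
      exact (Submodule.add_mem_iff_left _ (Submodule.smul_mem _ _ hn)).1 hxN
    · rw [resA_uI_succ' u (not_lt.1 hc)]
      exact ih

theorem RegOn.ker {N : Submodule L V} {j : ℕ} (h : RegOn u N j)
    (h0 : RegOn u (⊥ : Submodule L V) (j + 1)) (f : V' →ₗ[L] V) (hf : LinearMap.range f = N) :
    RegOn u (LinearMap.ker f) (j + 1) := by
  intro i hi x hx
  rw [sup_comm, ← Submodule.comap_map_eq, Submodule.mem_comap, Submodule.map_smul'',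
    Submodule.map_top, hf] at hx ⊢
  refine h.inf_le (Nat.lt_succ_iff.1 hi) ⟨hf ▸ LinearMap.mem_range_self f x, ?_⟩
  have := h0 i hi (f x) (by
    rw [bot_sup_eq, ← map_smul]
    exact Submodule.smul_mono le_rfl le_top hx)
  rwa [bot_sup_eq] at this

theorem RegOn.pi {j : ℕ} (h : RegOn u (⊥ : Submodule L L) j) (ι : Type) [Fintype ι] :
    RegOn u (⊥ : Submodule L (ι → L)) j := by
  intro i hi x hx
  rw [bot_sup_eq, resA_mem_pi] at hx ⊢
  intro a
  have := h i hi (x a) (by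
    rw [bot_sup_eq, smul_eq_mul, smul_eq_mul, Ideal.mul_top]
    exact hx a)
  rwa [bot_sup_eq, smul_eq_mul, Ideal.mul_top] at this

end Reg

/-- take `r` minimal; a relation with a unit coefficient would let us drop a generator. -/
theorem exists_min_gens {T : Type} [CommRing T] [IsLocalRing T] {V : Type} [AddCommGroup V]
    [Module T V] (N : Submodule T V) (hN : N.FG) : ∃ (r : ℕ) (v : Fin r → V),
      Submodule.span T (Set.range v) = N ∧
      ∀ a : Fin r → T, ∑ i, a i • v i = 0 → ∀ i, a i ∈ maximalIdeal T := by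
  classical
  have ex : ∃ r : ℕ, ∃ v : Fin r → V, Submodule.span T (Set.range v) = N :=
    Submodule.fg_iff_exists_fin_generating_family.1 hN
  obtain ⟨v, hv⟩ := Nat.find_spec ex
  have hmin : ∀ r < Nat.find ex, ¬ ∃ v : Fin r → V, Submodule.span T (Set.range v) = N :=
    fun r hr => Nat.find_min ex hr
  refine ⟨Nat.find ex, v, hv, fun a ha i => ?_⟩
  generalize Nat.find ex = r at v hv hmin a ha i
  by_contra hi
  obtain ⟨b, hb⟩ := isUnit_iff_exists_inv'.1 (notMem_maximalIdeal.1 hi)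
  cases r with
  | zero => exact i.elim0
  | succ r =>
    refine hmin r (Nat.lt_succ_self r) ⟨fun k => v (i.succAbove k), le_antisymm ?_ ?_⟩
    · rw [← hv]
      exact Submodule.span_mono (Set.range_subset_iff.2 fun k => ⟨_, rfl⟩)
    · rw [← hv, Submodule.span_le, Set.range_subset_iff]
      intro k
      refine Fin.succAboveCases i ?_ (fun k => Submodule.subset_span ⟨k, rfl⟩) k
      rw [Fin.sum_univ_succAbove _ i, add_eq_zero_iff_eq_neg] at ha
      have e : v i = b • a i • v i := by rw [smul_smul, hb, one_smul]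
      rw [SetLike.mem_coe, e, ha]
      exact Submodule.smul_mem _ _ (Submodule.neg_mem _ (Submodule.sum_mem _ fun k _ =>
        Submodule.smul_mem _ _ (Submodule.subset_span ⟨k, rfl⟩)))

section Flat
variable {R : Type} [CommRing R] {M N P : Type} [AddCommGroup M] [Module R M] [AddCommGroup N]
  [Module R N] [AddCommGroup P] [Module R P]

/-- `LinearMap.lTensor_injective_of_exact_of_flat`, `Module.Flat.iff_rTensor_injective'`. -/
theorem flat_of_exact [Module.Flat R P] [Module.Flat R N] (g : M →ₗ[R] N) (f : N →ₗ[R] P)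
    (hg : Function.Injective g) (hf : Function.Surjective f) (H : Function.Exact g f) :
    Module.Flat R M := by
  rw [Module.Flat.iff_rTensor_injective']
  intro I
  have h1 := LinearMap.lTensor_injective_of_exact_of_flat f hf g hg H I
  have h2 := Module.Flat.iff_rTensor_injective'.1 ‹Module.Flat R N› I
  have h3 := h2.comp h1
  rw [← LinearMap.coe_comp, LinearMap.rTensor_comp_lTensor, ← LinearMap.lTensor_comp_rTensor,
    LinearMap.coe_comp] at h3
  exact h3.of_comp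

/-- `LinearMap.lTensor_injective_of_exact_of_flat` with `A = R ⧸ I`
(`TensorProduct.quotTensorEquivQuotSMul`), or the equational criterion. -/
theorem inf_smul_le_of_flat (Q : Submodule R N) [Module.Flat R (N ⧸ Q)] (I : Ideal R) :
    Q ⊓ I • ⊤ ≤ I • Q := by
  rintro x ⟨hxQ, hx⟩
  have h1 := LinearMap.lTensor_injective_of_exact_of_flat Q.mkQ Q.mkQ_surjective Q.subtype
    Q.subtype_injective (LinearMap.exact_subtype_mkQ Q) (R ⧸ I)
  have h2 : (1 : R ⧸ I) ⊗ₜ[R] (⟨x, hxQ⟩ : Q) = 0 := by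
    apply h1
    rw [map_zero, LinearMap.lTensor_tmul, Submodule.subtype_apply,
      ← TensorProduct.quotTensorEquivQuotSMul_symm_mk, (Submodule.Quotient.mk_eq_zero _).2 hx,
      map_zero]
  rw [← TensorProduct.quotTensorEquivQuotSMul_symm_mk, LinearEquiv.map_eq_zero_iff,
    Submodule.Quotient.mk_eq_zero, Submodule.mem_smul_top_iff] at h2
  exact h2

end Flat

namespace FC
variable {T L : Type} [CommRing T] [CommRing L]

/-- put `ι₁` in degree `0` below `F`, attached by `ε` -/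
def glue (F : FC T) (ι₁ : Type) [Fintype ι₁] [DecidableEq ι₁] (ε : Matrix ι₁ F.ι T)
    (hε : ∀ i a, ε i a ≠ 0 → F.deg a = 0) : FC T where
  ι := ι₁ ⊕ F.ι
  deg := Sum.elim (fun _ => 0) (fun a => F.deg a + 1)
  d := Matrix.fromBlocks 0 ε 0 F.d
  hd := by
    rintro (i | a) (j | b) h
    · simp at h
    · simpa using hε i b h
    · simp at h
    · simpa using F.hd a b h

/-- `(F, ε)` is a minimal resolution of `N` -/
structure Res (F : FC T) {ι₀ : Type} (ε : Matrix ι₀ F.ι T) (N : Submodule T (ι₀ → T))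
    (𝔐 : Ideal T) : Prop where
  supp : ∀ i a, ε i a ≠ 0 → F.deg a = 0
  sq : F.Sq ⊥
  εd : ε * F.d = 0
  range : ∀ x, x ∈ N ↔ ∃ v, ε.mulVec v = x
  ex0 : ∀ v : F.ι → T, (∀ a, F.deg a ≠ 0 → v a = 0) → ε.mulVec v = 0 →
    ∃ v' : F.ι → T, (∀ a, F.deg a ≠ 1 → v' a = 0) ∧ F.d.mulVec v' = v
  ex : ∀ k, 1 ≤ k → F.ExactAt k
  ent : F.Ent 𝔐

theorem Rb_d_zero (F : FC T) {w : F.ι → T} {k : ℕ} (hw : ∀ a, F.deg a ≠ k → w a = 0) {a : F.ι}
    (ha : F.deg a + 1 ≠ k) : F.d.mulVec w a = 0 := by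
  refine Finset.sum_eq_zero fun b _ => ?_
  by_cases hb : F.d a b = 0
  · exact mul_eq_zero_of_left hb _
  · exact mul_eq_zero_of_right _ (hw b (by rw [F.hd a b hb]; exact ha))

theorem Rb_ε_zero {F : FC T} {ι₁ : Type} {ε : Matrix ι₁ F.ι T}
    (hε : ∀ i a, ε i a ≠ 0 → F.deg a = 0) {w : F.ι → T} (hw : ∀ a, F.deg a = 0 → w a = 0) :
    ε.mulVec w = 0 := by
  funext i
  refine Finset.sum_eq_zero fun b _ => ?_
  by_cases hb : ε i b = 0
  · exact mul_eq_zero_of_left hb _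
  · exact mul_eq_zero_of_right _ (hw b (hε i b hb))

theorem Rb_coord {ι : Type} {𝔐 : Ideal T} {x : ι → T}
    (hx : x ∈ 𝔐 • (⊤ : Submodule T (ι → T))) (i : ι) : x i ∈ 𝔐 :=
  Submodule.smul_induction_on (p := fun x : ι → T => x i ∈ 𝔐) hx
    (fun _ hr _ _ => 𝔐.mul_mem_right _ hr) fun _ _ ha hb => 𝔐.add_mem ha hb

section glue
variable {F : FC T} {ι₁ : Type} [Fintype ι₁] [DecidableEq ι₁] {ε : Matrix ι₁ F.ι T}
  {N' : Submodule T (ι₁ → T)} {𝔐 : Ideal T}

theorem Rb_glue_mulVec (hε : ∀ i a, ε i a ≠ 0 → F.deg a = 0) (v : ι₁ ⊕ F.ι → T) :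
    (F.glue ι₁ ε hε).d.mulVec v =
      Sum.elim (ε.mulVec (v ∘ Sum.inr)) (F.d.mulVec (v ∘ Sum.inr)) := by
  change (Matrix.fromBlocks 0 ε 0 F.d).mulVec v = _
  rw [Matrix.fromBlocks_mulVec, Matrix.zero_mulVec, Matrix.zero_mulVec, zero_add, zero_add]

omit [Fintype ι₁] [DecidableEq ι₁] in
theorem Res.Rb_col (h : F.Res ε N' 𝔐) (a : F.ι) : (fun i => ε i a) ∈ N' :=
  (h.range _).2 ⟨Pi.single a 1, by
    funext i
    simp⟩

theorem Res.Rb_glue_sq (h : F.Res ε N' 𝔐) : (F.glue ι₁ ε h.supp).Sq ⊥ := by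
  have hdd : F.d * F.d = 0 := by
    ext a c
    simpa using h.sq a c
  have e : Matrix.fromBlocks (0 : Matrix ι₁ ι₁ T) ε (0 : Matrix F.ι ι₁ T) F.d *
      Matrix.fromBlocks (0 : Matrix ι₁ ι₁ T) ε (0 : Matrix F.ι ι₁ T) F.d = 0 := by
    rw [Matrix.fromBlocks_multiply, h.εd, hdd, ← Matrix.fromBlocks_zero]
    congr 1 <;> simp
  intro a c
  exact Ideal.mem_bot.2 (congrFun (congrFun e a) c)

theorem Res.Rb_glue_ent (h : F.Res ε N' 𝔐) (hN' : N' ≤ 𝔐 • ⊤) : (F.glue ι₁ ε h.supp).Ent 𝔐 := by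
  rintro (i | a) (j | b)
  · exact 𝔐.zero_mem
  · exact Rb_coord (hN' (h.Rb_col b)) i
  · exact 𝔐.zero_mem
  · exact h.ent a b

theorem Res.Rb_glue_ex (h : F.Res ε N' 𝔐) (k : ℕ) (hk : 1 ≤ k) :
    (F.glue ι₁ ε h.supp).ExactAt k := by
  obtain ⟨k, rfl⟩ := Nat.exists_eq_add_of_le' hk
  intro (v : ι₁ ⊕ F.ι → T) hv hd
  rw [Rb_glue_mulVec] at hd
  have h1 : ε.mulVec (v ∘ Sum.inr) = 0 := funext fun i => congrFun hd (Sum.inl i)
  have h2 : F.d.mulVec (v ∘ Sum.inr) = 0 := funext fun a => congrFun hd (Sum.inr a)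
  have h3 : ∀ a, F.deg a ≠ k → (v ∘ Sum.inr) a = 0 := fun a ha =>
    hv (Sum.inr a) fun e => ha (Nat.succ_injective e)
  obtain ⟨w, hw, hw'⟩ : ∃ w : F.ι → T, (∀ a, F.deg a ≠ k + 1 → w a = 0) ∧
      F.d.mulVec w = v ∘ Sum.inr := by
    rcases Nat.eq_zero_or_pos k with rfl | hk
    · exact h.ex0 _ h3 h1
    · exact h.ex k hk _ h3 h2
  refine ⟨Sum.elim 0 w, ?_, ?_⟩
  · rintro (i | a) ha
    · rfl
    · exact hw a fun e => ha (congrArg (· + 1) e)
  · rw [Rb_glue_mulVec, Sum.elim_comp_inr, hw', Rb_ε_zero h.supp fun a ha => hw a (by omega)]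
    funext x
    rcases x with i | a
    · exact (hv (Sum.inl i) (Nat.succ_ne_zero k).symm).symm
    · rfl

end glue

theorem Res.glue {F : FC T} {ι₁ : Type} [Fintype ι₁] [DecidableEq ι₁] {ε : Matrix ι₁ F.ι T}
    {N' : Submodule T (ι₁ → T)} {𝔐 : Ideal T} (h : F.Res ε N' 𝔐) (hN' : N' ≤ 𝔐 • ⊤) {ι₀ : Type}
    (δ : Matrix ι₀ ι₁ T) {N : Submodule T (ι₀ → T)} (hker : ∀ v, v ∈ N' ↔ δ.mulVec v = 0)
    (hrange : ∀ x, x ∈ N ↔ ∃ v, δ.mulVec v = x) :
    (F.glue ι₁ ε h.supp).Res (Matrix.fromCols δ 0) N 𝔐 := by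
  have hm : ∀ v : ι₁ ⊕ F.ι → T, (Matrix.fromCols δ (0 : Matrix ι₀ F.ι T)).mulVec v =
      δ.mulVec (v ∘ Sum.inl) := fun v => by
    rw [Matrix.fromCols_mulVec, Matrix.zero_mulVec, add_zero]
  refine ⟨?_, h.Rb_glue_sq, ?_, fun x => ?_, ?_, h.Rb_glue_ex, h.Rb_glue_ent hN'⟩
  · rintro i (j | a) ha
    · rfl
    · exact absurd rfl ha
  · have e : δ * ε = 0 := by
      ext i a
      exact congrFun ((hker _).1 (h.Rb_col a)) i
    change Matrix.fromCols δ (0 : Matrix ι₀ F.ι T) *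
      Matrix.fromBlocks (0 : Matrix ι₁ ι₁ T) ε (0 : Matrix F.ι ι₁ T) F.d = 0
    rw [Matrix.fromCols_mul_fromBlocks, e, ← Matrix.fromCols_zero]
    congr 1 <;> simp
  · rw [hrange]
    constructor
    · rintro ⟨v, rfl⟩
      exact ⟨Sum.elim v 0, hm _⟩
    · rintro ⟨v, rfl⟩
      exact ⟨_, (hm v).symm⟩
  · intro (v : ι₁ ⊕ F.ι → T) hv hd
    obtain ⟨w, hw⟩ := (h.range _).1 ((hker _).2 ((hm v).symm.trans hd))
    let w₀ : F.ι → T := fun a => if F.deg a = 0 then w a else 0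
    have h0 : ∀ a, F.deg a ≠ 0 → w₀ a = 0 := fun a ha => if_neg ha
    have h1 : ε.mulVec w₀ = v ∘ Sum.inl := by
      rw [← hw, ← sub_eq_zero, ← Matrix.mulVec_sub]
      exact Rb_ε_zero h.supp fun a ha => sub_eq_zero.2 (if_pos ha)
    refine ⟨Sum.elim 0 w₀, ?_, ?_⟩
    · rintro (i | a) ha
      · rfl
      · exact h0 a fun e => ha (congrArg (· + 1) e)
    · rw [Rb_glue_mulVec, Sum.elim_comp_inr, h1]
      funext x
      rcases x with i | a
      · rfl
      · exact (F.Rb_d_zero h0 (Nat.succ_ne_zero _)).trans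
          (hv (Sum.inr a) (Nat.succ_ne_zero _)).symm

theorem Rb_lift (F : FC T) (κ : T →+* L) (hκ : Function.Surjective κ) {k : ℕ} {v : F.ι → L}
    (hv : ∀ a, F.deg a ≠ k → v a = 0) :
    ∃ w : F.ι → T, (∀ a, F.deg a ≠ k → w a = 0) ∧ κ ∘ w = v := by
  refine ⟨fun a => if F.deg a = k then Function.surjInv hκ (v a) else 0, fun a ha => if_neg ha, ?_⟩
  funext a
  by_cases ha : F.deg a = k
  · simp only [Function.comp, if_pos ha, Function.surjInv_eq]
  · simp only [Function.comp, if_neg ha, map_zero, hv a ha]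

theorem Rb_map_mulVec (F : FC T) (κ : T →+* L) (w : F.ι → T) :
    (F.map κ).d.mulVec (κ ∘ w) = κ ∘ F.d.mulVec w :=
  funext fun a => (RingHom.map_mulVec κ F.d w a).symm

/-- lift a cycle `v̄` to `v` supported in degree `1`; `d v` lies in `J ⊓ ker κ ≤ ker κ * J`
(`mem_J_iff`), so `d v = d v₂` with `v₂ ∈ ker κ`, and `v - v₂` is a boundary. -/
theorem exactAt_one_map {F : FC T} (h1 : F.One) (hex : F.ExactAt 1) (κ : T →+* L)
    (hκ : Function.Surjective κ) (h : F.J ⊓ RingHom.ker κ ≤ RingHom.ker κ * F.J) :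
    (F.map κ).ExactAt 1 := by
  obtain ⟨a₀, h0, hu⟩ := h1
  intro (v : F.ι → L) hv hd
  obtain ⟨w, hw, rfl⟩ := F.Rb_lift κ hκ hv
  replace hd := (F.Rb_map_mulVec κ w).symm.trans hd
  have key : ∀ t ∈ RingHom.ker κ * F.J, ∃ c : F.ι → T, (∀ b, F.deg b ≠ 1 → c b = 0) ∧
      κ ∘ c = 0 ∧ F.d.mulVec c a₀ = t := fun t ht => by
    refine Submodule.mul_induction_on ht (fun r hr t ht => ?_) ?_
    · obtain ⟨c, hc, rfl⟩ := (mem_J_iff h0 hu t).1 ht
      refine ⟨r • c, fun b hb => by simp [hc b hb], ?_, by rw [Matrix.mulVec_smul]; rfl⟩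
      funext b
      simp [RingHom.mem_ker.1 hr]
    · rintro _ _ ⟨c, hc, hc', rfl⟩ ⟨e, he, he', rfl⟩
      refine ⟨c + e, fun b hb => by simp [hc b hb, he b hb], ?_, by rw [Matrix.mulVec_add]; rfl⟩
      funext b
      have h2 : κ (c b) = 0 := congrFun hc' b
      have h3 : κ (e b) = 0 := congrFun he' b
      simp [h2, h3]
  obtain ⟨c, hc, hc', hcw⟩ := key (F.d.mulVec w a₀)
    (h ⟨(mem_J_iff h0 hu _).2 ⟨w, hw, rfl⟩, congrFun hd a₀⟩)
  have hs : ∀ a, F.deg a ≠ 1 → (w - c) a = 0 := fun a ha => by simp [hw a ha, hc a ha]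
  obtain ⟨v', hv', e⟩ := hex (w - c) hs (by
    funext a
    by_cases ha : F.deg a = 0
    · rw [hu a ha, Matrix.mulVec_sub, Pi.sub_apply, hcw, sub_self, Pi.zero_apply]
    · exact F.Rb_d_zero hs (by omega))
  refine ⟨κ ∘ v', fun a ha => ?_, ?_⟩
  · exact (congrArg κ (hv' a ha)).trans (map_zero κ)
  · rw [Rb_map_mulVec, e]
    funext a
    have h2 : κ (c a) = 0 := congrFun hc' a
    simp [h2]

theorem inf_le_of_exactAt_one_map {F : FC T} (h1 : F.One) (hsq : F.Sq ⊥) (κ : T →+* L)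
    (hκ : Function.Surjective κ) (h : (F.map κ).ExactAt 1) :
    F.J ⊓ RingHom.ker κ ≤ RingHom.ker κ * F.J := by
  obtain ⟨a₀, h0, hu⟩ := h1
  rintro t ⟨ht, hk⟩
  obtain ⟨c, hc, rfl⟩ := (mem_J_iff h0 hu t).1 ht
  have hdd : F.d * F.d = 0 := by
    ext a c
    simpa using hsq a c
  obtain ⟨v, hv, e⟩ := h (κ ∘ c) (fun a ha => (congrArg κ (hc a ha)).trans (map_zero κ)) (by
    rw [Rb_map_mulVec]
    funext a
    by_cases ha : F.deg a = 0
    · rw [hu a ha]
      exact hk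
    · exact (congrArg κ (F.Rb_d_zero hc (a := a) (by omega))).trans (map_zero κ))
  obtain ⟨w, -, rfl⟩ := F.Rb_lift κ hκ hv
  replace e := (F.Rb_map_mulVec κ w).symm.trans e
  have e2 : ∑ b, F.d a₀ b * c b = ∑ b, F.d a₀ b * (c - F.d.mulVec w) b := by
    change F.d.mulVec c a₀ = F.d.mulVec (c - F.d.mulVec w) a₀
    rw [Matrix.mulVec_sub, Matrix.mulVec_mulVec, hdd, Matrix.zero_mulVec, sub_zero]
  rw [e2, mul_comm]
  refine Ideal.sum_mem _ fun b _ => Ideal.mul_mem_mul (Ideal.subset_span ⟨a₀, b, h0, rfl⟩) ?_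
  rw [RingHom.mem_ker, Pi.sub_apply, map_sub, sub_eq_zero]
  exact (congrFun e b).symm

end FC

section Res
variable {R T L : Type} [CommRing R] [CommRing T] [CommRing L] [IsLocalRing R] [IsLocalRing T]
  [IsNoetherianRing T] [Algebra R T] [Module.Flat R T] [IsLocalRing L] (κ : T →+* L)
  (hκ : Function.Surjective κ) (hker : RingHom.ker κ = (maximalIdeal R).map (algebraMap R T))
  {c : ℕ} {u : Fin c → L} (hu : maximalIdeal L = Ideal.span (Set.range u))
  (hreg : RegOn u (⊥ : Submodule L L) c)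

/-- the image of `N` modulo `ker κ` -/
def bar {ι₀ : Type} (N : Submodule T (ι₀ → T)) : Submodule L (ι₀ → L) :=
  Submodule.span L ((fun v => κ ∘ v) '' N)

omit [IsLocalRing R] [IsLocalRing T] [IsNoetherianRing T] [Module.Flat R T] in
theorem resC_flat {V W : Type} [AddCommGroup V] [AddCommGroup W] [Module T V] [Module T W]
    [Module R V] [Module R W] [IsScalarTower R T V] [IsScalarTower R T W] (φ : V →ₗ[T] W)
    {N : Submodule T W} (h : LinearMap.range φ = N) [Module.Flat R W] [Module.Flat R (W ⧸ N)] :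
    Module.Flat R (V ⧸ LinearMap.ker φ) := by
  have h1 : Function.Injective ((LinearMap.ker φ).liftQ φ le_rfl) :=
    LinearMap.ker_eq_bot.1 (Submodule.ker_liftQ_eq_bot _ _ _ le_rfl)
  have h2 : Function.Exact ((LinearMap.ker φ).liftQ φ le_rfl) N.mkQ := by
    rw [LinearMap.exact_iff, Submodule.range_liftQ, Submodule.ker_mkQ, h]
  exact flat_of_exact (((LinearMap.ker φ).liftQ φ le_rfl).restrictScalars R)
    (N.mkQ.restrictScalars R) h1 N.mkQ_surjective h2

omit [IsLocalRing T] [IsNoetherianRing T] [IsLocalRing L] in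
include hκ in
theorem resC_lift {ι₀ : Type} (x : ι₀ → L) : ∃ v : ι₀ → T, κ ∘ v = x := by
  choose v hv using fun a => hκ (x a)
  exact ⟨v, funext hv⟩

omit [IsLocalRing T] [IsNoetherianRing T] [IsLocalRing L] in
include hκ in
theorem resC_mem_bar {ι₀ : Type} (N : Submodule T (ι₀ → T)) (x : ι₀ → L) :
    x ∈ bar κ N ↔ ∃ v ∈ N, κ ∘ v = x := by
  refine ⟨fun hx => ?_, fun hx => Submodule.subset_span hx⟩
  induction hx using Submodule.span_induction with
  | mem x hx => exact hx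
  | zero => exact ⟨0, N.zero_mem, funext fun a => by simp⟩
  | add x y _ _ hx hy =>
    obtain ⟨v, hv, rfl⟩ := hx
    obtain ⟨w, hw, rfl⟩ := hy
    exact ⟨v + w, N.add_mem hv hw, funext fun a => by simp⟩
  | smul r x _ hx =>
    obtain ⟨v, hv, rfl⟩ := hx
    obtain ⟨t, rfl⟩ := hκ r
    exact ⟨t • v, N.smul_mem t hv, funext fun a => by simp⟩

omit [IsLocalRing T] [IsNoetherianRing T] [Module.Flat R T] [IsLocalRing L] in
include hker in
theorem resC_inf {ι₀ : Type} [Fintype ι₀] (N : Submodule T (ι₀ → T))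
    [Module.Flat R ((ι₀ → T) ⧸ N)] {v : ι₀ → T} (hv : v ∈ N) (h0 : κ ∘ v = 0) :
    v ∈ RingHom.ker κ • N := by
  haveI : Module.Flat R ((ι₀ → T) ⧸ N.restrictScalars R) :=
    Module.Flat.of_linearEquiv (Submodule.Quotient.restrictScalarsEquiv R N)
  have h1 : v ∈ RingHom.ker κ • (⊤ : Submodule T (ι₀ → T)) :=
    (resA_mem_pi _ _).2 fun a => congrFun h0 a
  rw [hker, ← Submodule.restrictScalars_mem R, Ideal.smul_restrictScalars] at h1 ⊢
  exact inf_smul_le_of_flat (N.restrictScalars R) _ ⟨hv, h1⟩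

omit [IsLocalRing T] [IsNoetherianRing T] [IsLocalRing L] in
theorem resC_mulVec {ι₀ ι₁ : Type} [Fintype ι₁] (δ : Matrix ι₀ ι₁ T) (a : ι₁ → T) :
    (δ.map κ).mulVec (κ ∘ a) = κ ∘ δ.mulVec a :=
  funext fun i => (RingHom.map_mulVec κ δ a i).symm

include hκ hker hu hreg

/-- `bar N = bar N ⊓ 𝔪_L • ⊤ ≤ 𝔪_L • bar N` so `bar N = ⊥` (Nakayama; `L` is Noetherian), then
`N ≤ 𝔪_R • ⊤`, `inf_smul_le_of_flat` and Nakayama over `T`. -/
theorem res_base {ι₀ : Type} [Fintype ι₀] (N : Submodule T (ι₀ → T))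
    (hN : N ≤ maximalIdeal T • ⊤) [Module.Flat R ((ι₀ → T) ⧸ N)] (h : RegOn u (bar κ N) c) :
    N = ⊥ := by
  haveI : IsNoetherianRing L := isNoetherianRing_of_surjective T L κ hκ
  haveI : IsLocalHom κ := IsLocalHom.of_surjective κ hκ
  have e : uI u c = maximalIdeal L := by
    rw [hu, uI, ← Set.image_univ]
    congr 2
    exact Set.eq_univ_of_forall fun i => i.2
  have h1 : bar κ N = ⊥ := by
    refine Submodule.eq_bot_of_le_smul_of_le_jacobson_bot (maximalIdeal L) _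
      (IsNoetherian.noetherian _) (fun x hx => ?_) (maximalIdeal_le_jacobson _)
    rw [← e]
    refine h.inf_le le_rfl ⟨hx, ?_⟩
    obtain ⟨v, hv, rfl⟩ := (resC_mem_bar κ hκ N x).1 hx
    rw [e]
    exact (resA_mem_pi _ _).2 fun a => map_nonunit κ _ ((resA_mem_pi _ _).1 (hN hv) a)
  refine Submodule.eq_bot_of_le_smul_of_le_jacobson_bot (RingHom.ker κ) _
    (IsNoetherian.noetherian _) (fun v hv => resC_inf κ hker N hv ?_)
    ((le_maximalIdeal (RingHom.ker_ne_top κ)).trans (maximalIdeal_le_jacobson _))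
  have h2 : κ ∘ v ∈ bar κ N := (resC_mem_bar κ hκ N _).2 ⟨v, hv, rfl⟩
  rwa [h1, Submodule.mem_bot] at h2

/-- induction on `j`; minimal generators give `δ`, `N' = ker δ.mulVecLin`, `T^r / N' ≃ N` is flat
(`flat_of_exact`), `bar N' = ker (δ.map κ).mulVecLin` (by `inf_smul_le_of_flat`), `RegOn.ker`. -/
theorem res_ind (j : ℕ) (hj : j ≤ c) {ι₀ : Type} [Fintype ι₀] (N : Submodule T (ι₀ → T))
    (hN : N ≤ maximalIdeal T • ⊤) [Module.Flat R ((ι₀ → T) ⧸ N)] (h : RegOn u (bar κ N) (c - j)) :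
    ∃ (F : FC T) (ε : Matrix ι₀ F.ι T), F.Res ε N (maximalIdeal T) ∧ ∀ a, F.deg a < j := by
  induction j generalizing ι₀ with
  | zero =>
    obtain rfl := res_base κ hκ hker hu hreg N hN h
    refine ⟨{ ι := Empty, deg := fun a => a.elim, d := 0, hd := fun a => a.elim }, 0,
      ⟨fun _ a => a.elim, fun a => a.elim, by simp, fun x => ?_,
        fun v _ _ => ⟨0, fun a => a.elim, funext fun a => a.elim⟩,
        fun k _ v _ _ => ⟨0, fun a => a.elim, funext fun a => a.elim⟩, fun a => a.elim⟩,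
      fun a => a.elim⟩
    simp [eq_comm]
  | succ j ih =>
    obtain ⟨r, v, hv, hmin⟩ := exists_min_gens N (IsNoetherian.noetherian N)
    obtain ⟨δ, hδ⟩ : ∃ δ : Matrix ι₀ (Fin r) T, ∀ a, δ.mulVec a = ∑ k, a k • v k :=
      ⟨Matrix.of fun i k => v k i, fun a => funext fun i => by
        simp [Matrix.mulVec, dotProduct, mul_comm]⟩
    have hr : ∀ x, x ∈ N ↔ ∃ a, δ.mulVec a = x := fun x => by
      rw [← hv, Submodule.mem_span_range_iff_exists_fun]
      simp only [hδ]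
    have hr' : LinearMap.range δ.mulVecLin = N := Submodule.ext fun x => (hr x).symm
    have hN' : LinearMap.ker δ.mulVecLin ≤ maximalIdeal T • ⊤ := fun a ha =>
      (resA_mem_pi _ _).2 (hmin a ((hδ a).symm.trans ha))
    haveI : Module.Flat R (ι₀ → T) := Module.Flat.trans R T _
    haveI : Module.Flat R ((Fin r → T) ⧸ LinearMap.ker δ.mulVecLin) := resC_flat δ.mulVecLin hr'
    have h1 : LinearMap.range (δ.map κ).mulVecLin = bar κ N := by
      ext x
      rw [resC_mem_bar κ hκ]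
      constructor
      · rintro ⟨y, rfl⟩
        obtain ⟨a, rfl⟩ := resC_lift κ hκ y
        exact ⟨_, (hr _).2 ⟨a, rfl⟩, (resC_mulVec κ δ a).symm⟩
      · rintro ⟨w, hw, rfl⟩
        obtain ⟨a, rfl⟩ := (hr w).1 hw
        exact ⟨_, resC_mulVec κ δ a⟩
    have h2 : LinearMap.ker (δ.map κ).mulVecLin = bar κ (LinearMap.ker δ.mulVecLin) := by
      ext x
      rw [resC_mem_bar κ hκ]
      constructor
      · intro hx
        obtain ⟨a, rfl⟩ := resC_lift κ hκ x
        have h3 := resC_inf κ hker N ((hr _).2 ⟨a, rfl⟩) ((resC_mulVec κ δ a).symm.trans hx)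
        rw [← hr', ← Submodule.map_top, ← Submodule.map_smul''] at h3
        obtain ⟨a', ha', e⟩ := h3
        refine ⟨a - a', ?_, funext fun k => ?_⟩
        · rw [LinearMap.mem_ker, map_sub, e]
          exact sub_self _
        · have h4 : κ (a' k) = 0 := (resA_mem_pi _ _).1 ha' k
          simp [h4]
      · rintro ⟨a, ha, rfl⟩
        have h3 : δ.mulVec a = 0 := ha
        refine (resC_mulVec κ δ a).trans ?_
        rw [h3]
        exact funext fun i => map_zero κ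
    have h3 := h.ker ((hreg.mono (by omega)).pi ι₀) _ h1
    rw [h2, show c - (j + 1) + 1 = c - j by omega] at h3
    obtain ⟨F, ε, hF, hdeg⟩ := ih (by omega) _ hN' h3
    refine ⟨_, _, hF.glue hN' δ (fun _ => Iff.rfl) hr, ?_⟩
    rintro (a | a)
    · exact Nat.succ_pos j
    · exact Nat.succ_lt_succ (hdeg a)

/-- `res_ind` with `j = c`, `ι₀ = Unit`, `N = Submodule.pi univ (fun _ => J)`, and glue once more. -/
theorem exists_resolution (J : Ideal T) (hJ : J ≠ ⊤) [Module.Flat R (T ⧸ J)] :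
    ∃ F : FC T, F.One ∧ F.DegLe c ∧ F.Sq ⊥ ∧ F.Ent (maximalIdeal T) ∧ (∀ k, 1 ≤ k → F.ExactAt k) ∧
      F.J = J ∧ (F.map κ).ExactAt 1 := by
  let N : Submodule T (Unit → T) := Submodule.pi Set.univ fun _ => J
  have hNm : ∀ x : Unit → T, x ∈ N ↔ x () ∈ J := fun x =>
    ⟨fun h => h () trivial, fun h _ _ => h⟩
  have hN : N ≤ maximalIdeal T • ⊤ := fun x hx => by
    have e : x = x () • (fun _ => 1 : Unit → T) := by
      funext i
      simp
    rw [e]
    exact Submodule.smul_mem_smul (le_maximalIdeal hJ ((hNm x).1 hx)) trivial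
  have : Module.Flat R ((Unit → T) ⧸ N) :=
    Module.Flat.of_linearEquiv ((Submodule.Quotient.equiv N J (LinearEquiv.funUnique Unit T T) (by
      ext t
      exact ⟨fun ⟨x, hx, e⟩ => e ▸ (hNm x).1 hx,
        fun ht => ⟨fun _ => t, (hNm _).2 ht, rfl⟩⟩)).restrictScalars R)
  obtain ⟨F, ε, h, hdeg⟩ := res_ind κ hκ hker hu hreg c le_rfl N hN
    fun i hi => absurd hi (by omega)
  have h1 : (F.glue Unit ε h.supp).One := by
    refine ⟨Sum.inl (), rfl, ?_⟩
    rintro (i | a) ha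
    · rfl
    · exact absurd ha (Nat.succ_ne_zero _)
  have hGJ : (F.glue Unit ε h.supp).J = J := by
    refine le_antisymm (Ideal.span_le.2 ?_) fun t ht => ?_
    · rintro _ ⟨i | a, j | b, ha, rfl⟩
      · exact J.zero_mem
      · exact (hNm _).1 (h.Rb_col b)
      · exact absurd ha (Nat.succ_ne_zero _)
      · exact absurd ha (Nat.succ_ne_zero _)
    · obtain ⟨v, hv⟩ := (h.range _).1 ((hNm fun _ => t).2 ht)
      have e : t = ∑ b, ε () b * v b := (congrFun hv ()).symm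
      rw [e]
      exact Ideal.sum_mem _ fun b _ =>
        Ideal.mul_mem_right _ _ (Ideal.subset_span ⟨Sum.inl (), Sum.inr b, rfl, rfl⟩)
  refine ⟨F.glue Unit ε h.supp, h1, ?_, h.Rb_glue_sq, h.Rb_glue_ent hN, h.Rb_glue_ex, hGJ,
    FC.exactAt_one_map h1 (h.Rb_glue_ex 1 le_rfl) κ hκ ?_⟩
  · rintro (i | a)
    · exact Nat.zero_le _
    · exact hdeg a
  · rw [hGJ, hker]
    rintro t ⟨ht, hk⟩
    have : Module.Flat R (T ⧸ J.restrictScalars R) :=
      Module.Flat.of_linearEquiv (Submodule.Quotient.restrictScalarsEquiv R J)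
    have h2 := inf_smul_le_of_flat (J.restrictScalars R) (maximalIdeal R)
      (show t ∈ _ from ⟨ht, by rw [Ideal.smul_top_eq_map]; exact hk⟩)
    refine Submodule.smul_induction_on h2 (fun r hr x hx => ?_) fun _ _ ha hb => Ideal.add_mem _ ha hb
    rw [Algebra.smul_def]
    exact Ideal.mul_mem_mul (Ideal.mem_map_of_mem _ hr) hx

end Res

end Crest.Agent.R183
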