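import Crest.Agent.R183.Cohen
import Crest.Agent.R183.Res
import Crest.Agent.R183.Red
import Crest.Agent.R183.G
import Crest.Agent.R183.PSAuxd

/-! # R183 / PS : toolbox for power series in finitely many variables and complete local rings. -/

set_option autoImplicit false
open IsLocalRing MvPowerSeries

namespace Crest.Agent.R183

abbrev PS (n : ℕ) (W : Type) : Type := MvPowerSeries (Fin n) W

/-- the ideal `(X)` -/
noncomputable def XP (n : ℕ) (W : Type) [CommRing W] : Ideal (PS n W) := Ideal.span (Set.range X)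

section Basic
variable {n : ℕ} {W : Type} [CommRing W]

theorem psa_mul {I : Ideal W} {j k : ℕ} {f g : PS n W} (hf : ∀ μ, coeff μ f ∈ I ^ (j - μ.degree))
    (hg : ∀ μ, coeff μ g ∈ I ^ (k - μ.degree)) (μ : Fin n →₀ ℕ) :
    coeff μ (f * g) ∈ I ^ (j + k - μ.degree) := by
  rw [coeff_mul]
  refine Ideal.sum_mem _ fun p hp => ?_
  have h1 := Ideal.mul_mem_mul (hf p.1) (hg p.2)
  rw [← pow_add] at h1
  refine Ideal.pow_le_pow_right ?_ h1
  rw [← Finset.HasAntidiagonal.mem_antidiagonal.1 hp, map_add]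
  omega

/-- the filtration by coefficients -/
def psa_F (n : ℕ) (I : Ideal W) (k : ℕ) : Ideal (PS n W) where
  carrier := {f | ∀ μ, coeff μ f ∈ I ^ (k - μ.degree)}
  add_mem' hf hg μ := by
    rw [map_add]
    exact add_mem (hf μ) (hg μ)
  zero_mem' μ := by
    rw [map_zero]
    exact zero_mem _
  smul_mem' g f hf μ := by
    have := psa_mul (j := 0) (f := g) (fun μ => by simp) hf μ
    rwa [zero_add] at this

theorem psa_deg_pos {μ : Fin n →₀ ℕ} (h : μ ≠ 0) : 1 ≤ μ.degree :=
  Nat.pos_of_ne_zero fun h' => h ((Finsupp.degree_eq_zero_iff μ).1 h')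

theorem psa_pow_le (I : Ideal W) (k : ℕ) :
    (I.map (C : W →+* PS n W) ⊔ XP n W) ^ k ≤ psa_F n I k := by
  have key : ∀ f : PS n W, coeff 0 f ∈ I → f ∈ psa_F n I 1 := fun f hf μ => by
    rcases eq_or_ne μ 0 with rfl | h
    · simpa using hf
    · rw [Nat.sub_eq_zero_of_le (psa_deg_pos h)]
      simp
  have h1 : I.map (C : W →+* PS n W) ⊔ XP n W ≤ psa_F n I 1 := by
    refine sup_le (Ideal.map_le_iff_le_comap.2 fun a ha => key _ (by simpa using ha))
      (Ideal.span_le.2 ?_)
    rintro _ ⟨i, rfl⟩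
    exact key _ (by simp)
  induction k with
  | zero => exact fun f _ μ => by simp
  | succ k ih =>
    rw [pow_succ]
    exact Ideal.mul_le.2 fun f hf g hg => psa_mul (ih hf) (h1 hg)

theorem psa_decomp (f : PS n W) (h0 : coeff 0 f = 0) : ∃ g : Fin n → PS n W,
    f = ∑ i, X i * g i ∧ ∀ i ν, coeff ν (g i) = 0 ∨ coeff ν (g i) = coeff (ν + .single i 1) f := by
  classical
  have hp : ∀ μ : Fin n →₀ ℕ, ∃ p : Fin n → Prop, μ ≠ 0 → ∃ i, μ i ≠ 0 ∧ ∀ j, p j ↔ j = i := by
    intro μ
    by_cases h : μ = 0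
    · exact ⟨fun _ => True, fun h' => absurd h h'⟩
    · obtain ⟨i, hi⟩ := Finsupp.ne_iff.1 h
      exact ⟨fun j => j = i, fun _ => ⟨i, hi, fun _ => Iff.rfl⟩⟩
  choose p hp using hp
  let g : Fin n → PS n W := fun i ν =>
    if p (ν + .single i 1) i then coeff (ν + .single i 1) f else 0
  have hg : ∀ i ν, coeff ν (g i) =
      if p (ν + .single i 1) i then coeff (ν + .single i 1) f else 0 := fun _ _ => rfl
  refine ⟨g, MvPowerSeries.ext fun μ => ?_, fun i ν => ?_⟩
  · have hc : ∀ i, coeff μ (X i * g i) = if μ i ≠ 0 ∧ p μ i then coeff μ f else 0 := fun i => by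
      rw [X_def, coeff_monomial_mul, one_mul, hg]
      by_cases h : Finsupp.single i 1 ≤ μ
      · have h1 : μ i ≠ 0 := Nat.one_le_iff_ne_zero.1 (Finsupp.single_le_iff.1 h)
        rw [if_pos h, tsub_add_cancel_of_le h]
        simp only [h1, ne_eq, not_false_eq_true, true_and]
      · rw [if_neg h, if_neg]
        exact fun h1 => h (Finsupp.single_le_iff.2 (Nat.one_le_iff_ne_zero.2 h1.1))
    rw [map_sum]
    simp only [hc]
    rcases eq_or_ne μ 0 with rfl | h
    · simpa using h0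
    · obtain ⟨i, h1, h2⟩ := hp μ h
      rw [Finset.sum_eq_single i, if_pos ⟨h1, (h2 i).2 rfl⟩]
      · exact fun j _ hj => if_neg fun h3 => hj ((h2 j).1 h3.2)
      · exact fun h3 => absurd (Finset.mem_univ i) h3
  · rw [hg]
    split_ifs
    · exact Or.inr rfl
    · exact Or.inl rfl

/-- `←`: induct on `N`; a series all of whose coefficients of degree `≤ N` vanish is `∑ X i * f i`
where a monomial `μ ≠ 0` is assigned to the least `i` with `μ i ≠ 0`.  `→`: `le_order_mul`. -/
theorem mem_XP_pow_iff {N : ℕ} {f : PS n W} :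
    f ∈ XP n W ^ N ↔ ∀ μ : Fin n →₀ ℕ, μ.degree < N → coeff μ f = 0 := by
  constructor
  · intro hf μ hμ
    have h1 := psa_pow_le ⊥ N (Ideal.pow_right_mono le_sup_right N hf) μ
    rwa [Ideal.bot_pow (by omega), Ideal.mem_bot] at h1
  · induction N generalizing f with
    | zero => exact fun _ => by simp
    | succ N ih =>
      intro hf
      obtain ⟨g, h1, h2⟩ := psa_decomp f (hf 0 (by simp))
      rw [h1, pow_succ']
      refine Ideal.sum_mem _ fun i _ =>
        Ideal.mul_mem_mul (Ideal.subset_span ⟨i, rfl⟩) (ih fun ν hν => ?_)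
      rcases h2 i ν with h3 | h3
      · exact h3
      · rw [h3]
        refine hf _ ?_
        rw [map_add, Finsupp.degree_single]
        omega

theorem sub_trunc_mem (N : ℕ) (f : PS n W) :
    f - (truncTotal N f : MvPolynomial (Fin n) W) ∈ XP n W ^ N :=
  mem_XP_pow_iff.2 fun μ hμ => by
    rw [map_sub, MvPolynomial.coeff_coe, coeff_truncTotal _ hμ, sub_self]

theorem mem_XP_iff {f : PS n W} : f ∈ XP n W ↔ constantCoeff f = 0 := by
  rw [← pow_one (XP n W), mem_XP_pow_iff, ← coeff_zero_eq_constantCoeff_apply]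
  refine ⟨fun h => h 0 (by simp), fun h μ hμ => ?_⟩
  rwa [(Finsupp.degree_eq_zero_iff μ).1 (by omega)]

theorem mem_map_C_iff {I : Ideal W} (hI : I.FG) {f : PS n W} :
    f ∈ I.map (C : W →+* PS n W) ↔ ∀ μ, coeff μ f ∈ I := by
  classical
  constructor
  · intro hf
    induction hf using Submodule.span_induction with
    | mem x hx =>
      obtain ⟨a, ha, rfl⟩ := hx
      intro μ
      rw [coeff_C]
      split_ifs
      · exact ha
      · exact zero_mem _
    | zero => exact fun μ => by simp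
    | add x y _ _ hx hy => exact fun μ => by rw [map_add]; exact add_mem (hx μ) (hy μ)
    | smul a x _ hx =>
      intro μ
      rw [smul_eq_mul, coeff_mul]
      exact Ideal.sum_mem _ fun p _ => Ideal.mul_mem_left _ _ (hx _)
  · intro hf
    obtain ⟨r, v, hv⟩ := Submodule.fg_iff_exists_fin_generating_family.1 hI
    have h1 : ∀ μ, ∃ c : Fin r → W, ∑ j, c j * v j = coeff μ f := fun μ =>
      Ideal.mem_span_range_iff_exists_fun.1 (by rw [← hv] at hf; exact hf μ)
    choose c hc using h1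
    let g : Fin r → PS n W := fun j μ => c μ j
    have h2 : f = ∑ j, g j * C (v j) := MvPowerSeries.ext fun μ => by
      rw [map_sum, ← hc μ]
      exact Finset.sum_congr rfl fun j _ => by rw [coeff_mul_C]; rfl
    rw [h2]
    refine Ideal.sum_mem _ fun j _ => Ideal.mul_mem_left _ _ (Ideal.mem_map_of_mem _ ?_)
    rw [← hv]
    exact Submodule.subset_span ⟨j, rfl⟩

theorem ker_map_eq {W' : Type} [CommRing W'] (π : W →+* W') (h : (RingHom.ker π).FG) :
    RingHom.ker (MvPowerSeries.map (σ := Fin n) π) = (RingHom.ker π).map (C : W →+* PS n W) := by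
  ext f
  rw [mem_map_C_iff h, RingHom.mem_ker, MvPowerSeries.ext_iff]
  simp only [coeff_map, map_zero, RingHom.mem_ker]

theorem map_surjective {W' : Type} [CommRing W'] (π : W →+* W') (h : Function.Surjective π) :
    Function.Surjective (MvPowerSeries.map (σ := Fin n) π) := fun g =>
  ⟨fun μ => Function.surjInv h (coeff μ g), MvPowerSeries.ext fun μ => by
    rw [coeff_map]
    exact Function.surjInv_eq h _⟩

/-- `→`: the right side defines a multiplicative filtration; `←`: `f = trunc + (X)^k`, and each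
monomial `C a * X^μ` lies in `(I.map C)^(k-|μ|) * XP^|μ|`. -/
theorem mem_sup_XP_pow_iff (I : Ideal W) {k : ℕ} {f : PS n W} :
    f ∈ (I.map (C : W →+* PS n W) ⊔ XP n W) ^ k ↔ ∀ μ, coeff μ f ∈ I ^ (k - μ.degree) := by
  classical
  refine ⟨fun hf => psa_pow_le I k hf, fun hf => ?_⟩
  rw [← sub_add_cancel f (truncTotal k f : MvPolynomial (Fin n) W)]
  refine add_mem (Ideal.pow_right_mono le_sup_right k (sub_trunc_mem k f)) ?_
  rw [(truncTotal k f).as_sum, ← MvPolynomial.coeToMvPowerSeries.ringHom_apply, map_sum]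
  refine Ideal.sum_mem _ fun μ _ => ?_
  have h1 : MvPolynomial.coeff μ (truncTotal k f) ∈ I ^ (k - μ.degree) := by
    rw [coeff_truncTotal_eq_ite]
    split_ifs
    · exact hf μ
    · exact zero_mem _
  have h2 := Ideal.mem_map_of_mem (C : W →+* PS n W) h1
  rw [Ideal.map_pow] at h2
  have h3 : (monomial μ 1 : PS n W) ∈ XP n W ^ μ.degree := mem_XP_pow_iff.2 fun ν hν => by
    rw [coeff_monomial, if_neg]
    rintro rfl
    exact lt_irrefl _ hν
  have h4 := Ideal.mul_mem_mul
    (Ideal.pow_right_mono (le_sup_left (b := XP n W)) _ h2)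
    (Ideal.pow_right_mono (le_sup_right (a := I.map (C : W →+* PS n W))) _ h3)
  rw [← pow_add, ← monomial_zero_eq_C_apply, monomial_mul_monomial, zero_add, mul_one] at h4
  rw [MvPolynomial.coeToMvPowerSeries.ringHom_apply, MvPolynomial.coe_monomial]
  exact Ideal.pow_le_pow_right (by omega) h4

/-- `MvPowerSeries.isUnit_iff_constantCoeff`. -/
theorem PS.max_eq [IsLocalRing W] :
    maximalIdeal (PS n W) = (maximalIdeal W).map (C : W →+* PS n W) ⊔ XP n W := by
  ext f
  rw [← pow_one (_ ⊔ XP n W), mem_sup_XP_pow_iff, mem_maximalIdeal, mem_nonunits_iff,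
    isUnit_iff_constantCoeff, ← mem_nonunits_iff, ← mem_maximalIdeal,
    ← coeff_zero_eq_constantCoeff_apply]
  refine ⟨fun h μ => ?_, fun h => by simpa using h 0⟩
  rcases eq_or_ne μ 0 with rfl | hμ
  · simpa using h
  · rw [Nat.sub_eq_zero_of_le (psa_deg_pos hμ)]
    simp

/-- coefficientwise limits, `mem_sup_XP_pow_iff`. -/
theorem PS.isAdicComplete (I : Ideal W) [IsAdicComplete I W] :
    IsAdicComplete (I.map (C : W →+* PS n W) ⊔ XP n W) (PS n W) := by
  refine { haus' := fun x hx => ?_, prec' := fun f hf => ?_ }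
  · simp only [SModEq.zero, smul_eq_mul, Ideal.mul_top, mem_sup_XP_pow_iff] at hx
    ext μ
    refine IsHausdorff.haus' (I := I) _ fun k => ?_
    simpa [SModEq.zero] using hx (k + μ.degree) μ
  · simp only [SModEq.sub_mem, smul_eq_mul, Ideal.mul_top, mem_sup_XP_pow_iff, map_sub] at hf ⊢
    have h := fun μ : Fin n →₀ ℕ => IsPrecomplete.prec' (I := I)
      (fun k => coeff μ (f (k + μ.degree))) fun {a b} hab => by
        simpa [SModEq.sub_mem] using hf (Nat.add_le_add_right hab μ.degree) μ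
    simp only [SModEq.sub_mem, smul_eq_mul, Ideal.mul_top] at h
    choose L hL using h
    refine ⟨L, fun k μ => ?_⟩
    have := add_mem (hf (show k ≤ k - μ.degree + μ.degree by omega) μ) (hL μ (k - μ.degree))
    rwa [sub_add_sub_cancel] at this

instance PS.cln [CLN W] : CLN (PS n W) where
  noeth := inferInstance
  compl := by
    rw [PS.max_eq]
    exact PS.isAdicComplete _

theorem PSb_mem_span (s : Finset (Fin n)) (f : PS n W) :
    f ∈ Ideal.span ((X : Fin n → PS n W) '' s) ↔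
      ∀ μ : Fin n →₀ ℕ, (∀ i ∈ s, μ i = 0) → coeff μ f = 0 := by
  induction s using Finset.induction_on generalizing f with
  | empty => simp [MvPowerSeries.ext_iff]
  | insert a s ha ih =>
    rw [Finset.coe_insert, Set.image_insert_eq, Ideal.mem_span_insert]
    constructor
    · rintro ⟨c, z, hz, rfl⟩ μ hμ
      rw [map_add, X_dvd_iff.1 (dvd_mul_left _ c) μ (hμ a (by simp)),
        (ih z).1 hz μ fun i hi => hμ i (by simp [hi]), add_zero]
    · intro h
      let g : PS n W := fun μ => if μ a = 0 then coeff μ f else 0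
      have hg : ∀ μ, coeff μ g = if μ a = 0 then coeff μ f else 0 := fun _ => rfl
      obtain ⟨c, hc⟩ : X a ∣ f - g := X_dvd_iff.2 fun μ hμ => by
        rw [map_sub, hg, if_pos hμ, sub_self]
      refine ⟨c, g, (ih g).2 fun μ hμ => ?_, by rw [mul_comm, ← hc, sub_add_cancel]⟩
      rw [hg]
      split_ifs with h0
      · exact h μ (Finset.forall_mem_insert _ _ _ |>.2 ⟨h0, hμ⟩)
      · rfl

theorem PSb_coeff (i : Fin n) (f : PS n W) (μ : Fin n →₀ ℕ) :
    coeff (Finsupp.single i 1 + μ) (X i * f) = coeff μ f := by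
  rw [X_def, coeff_add_monomial_mul, one_mul]

/-- membership in `uI X i`: all coefficients at `μ` with `μ i' = 0` for `i' < i` vanish. -/
theorem PS.regOn : RegOn (X : Fin n → PS n W) (⊥ : Submodule (PS n W) (PS n W)) n := by
  intro i _ x hx
  have e : uI (X : Fin n → PS n W) i =
      Ideal.span (X '' (Finset.univ.filter fun j : Fin n => (j : ℕ) < i)) := by simp [uI]
  rw [bot_sup_eq, smul_eq_mul, Ideal.mul_top, e, PSb_mem_span] at hx ⊢
  intro μ hμ
  rw [← PSb_coeff i]
  refine hx _ fun j hj => ?_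
  have : j ≠ i := by
    rintro rfl
    simp at hj
  simp [hμ j hj, this]

theorem PS.X_mul_eq_zero {i : Fin n} {f : PS n W} (h : X i * f = 0) : f = 0 := by
  ext μ
  rw [← PSb_coeff i, h, map_zero, map_zero]

/-- EVALUATION.  `IsAdicComplete.liftRingHom` with `truncTotalAlgHom` and
`Ideal.Quotient.lift`/`quotientMap` of `MvPolynomial.eval₂Hom ρ x`. -/
theorem exists_eval {R : Type} [CommRing R] (ρ : W →+* R) (I : Ideal R) [IsAdicComplete I R]
    (x : Fin n → R) (hx : ∀ i, x i ∈ I) :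
    ∃ ev : PS n W →+* R, (∀ c, ev (C c) = ρ c) ∧ ∀ i, ev (X i) = x i := by
  have h : ∀ k, MvPolynomial.idealOfVars (Fin n) W ^ k ≤
      (I ^ k).comap (MvPolynomial.eval₂Hom ρ x) := fun k => by
    rw [← Ideal.map_le_iff_le_comap, Ideal.map_pow]
    refine Ideal.pow_right_mono (Ideal.map_le_iff_le_comap.2 (Ideal.span_le.2 ?_)) k
    rintro _ ⟨i, rfl⟩
    simpa using hx i
  let ev := IsAdicComplete.liftRingHom I (fun k => (Ideal.quotientMap _ _ (h k)).comp
    (truncTotalAlgHom (Fin n) W k).toRingHom) fun {a b} hab => RingHom.ext fun p =>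
      Ideal.Quotient.eq.2 (by
        rw [← map_sub]
        exact h a (truncTotal_sub_truncTotal_mem_pow_idealOfVars hab le_rfl p))
  have key : ∀ p : MvPolynomial (Fin n) W, ev p = MvPolynomial.eval₂Hom ρ x p := fun p =>
    congrFun (IsHausdorff.funext' I (f := fun p : MvPolynomial (Fin n) W => ev p) fun k p => by
      rw [IsAdicComplete.mk_liftRingHom]
      exact congrArg (Ideal.quotientMap _ _ (h k)) ((truncTotalAlgHom (Fin n) W k).commutes p)) p
  exact ⟨ev, fun c => by simpa using key (MvPolynomial.C c),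
    fun i => by simpa using key (MvPolynomial.X i)⟩

/-- both agree on polynomials, and map `XP^N` into `I^N`; `sub_trunc_mem`. -/
theorem PS.hom_ext {R : Type} [CommRing R] (I : Ideal R) [IsHausdorff I R] {f g : PS n W →+* R}
    (hC : ∀ c, f (C c) = g (C c)) (hX : ∀ i, f (X i) = g (X i)) (hI : ∀ i, f (X i) ∈ I) : f = g := by
  have h1 : f.comp MvPolynomial.coeToMvPowerSeries.ringHom =
      g.comp MvPolynomial.coeToMvPowerSeries.ringHom :=
    MvPolynomial.ringHom_ext (fun c => by simpa using hC c) fun i => by simpa using hX i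
  have h2 : ∀ φ : PS n W →+* R, (∀ i, φ (X i) ∈ I) → ∀ k, ∀ y ∈ XP n W ^ k, φ y ∈ I ^ k := by
    intro φ hφ k y hy
    have := Ideal.mem_map_of_mem φ hy
    rw [Ideal.map_pow] at this
    refine Ideal.pow_right_mono (Ideal.map_le_iff_le_comap.2 (Ideal.span_le.2 ?_)) k this
    rintro _ ⟨i, rfl⟩
    exact hφ i
  refine DFunLike.coe_injective (IsHausdorff.funext' I fun k y => Ideal.Quotient.eq.2 ?_)
  have h3 := sub_mem (h2 f hI k _ (sub_trunc_mem k y))
    (h2 g (fun i => hX i ▸ hI i) k _ (sub_trunc_mem k y))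
  have h4 : f (truncTotal k y : MvPolynomial (Fin n) W) = g (truncTotal k y : MvPolynomial (Fin n) W) :=
    RingHom.congr_fun h1 _
  rwa [map_sub, map_sub, h4, sub_sub_sub_cancel_right] at h3

theorem psc_map_XP {W' : Type} [CommRing W'] (σ : W →+* W') :
    (XP n W).map (MvPowerSeries.map (σ := Fin n) σ) = XP n W' := by
  rw [XP, Ideal.map_span, ← Set.range_comp]
  congr 2
  funext i
  simp

theorem psc_coe_XP : (MvPolynomial.idealOfVars (Fin n) W).map
    (MvPolynomial.coeToMvPowerSeries.ringHom : MvPolynomial (Fin n) W →+* PS n W) = XP n W := by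
  rw [MvPolynomial.idealOfVars, Ideal.map_span, ← Set.range_comp]
  congr 2
  funext i
  simp

theorem psc_XP_le_jac : XP n W ≤ Ideal.jacobson ⊥ := by
  intro f hf
  rw [Ideal.mem_jacobson_bot]
  intro y
  rw [MvPowerSeries.isUnit_iff_constantCoeff]
  simp [mem_XP_iff.1 hf]

theorem psc_flat_poly {W' : Type} [CommRing W'] (σ : W →+* W') (hσ : σ.Flat) :
    (MvPolynomial.map (σ := Fin n) σ).Flat := by
  let _ := σ.toAlgebra
  let _ := MvPolynomial.algebraMvPolynomial (σ := Fin n) (R := W) (S := W')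
  exact RingHom.Flat.isStableUnderBaseChange W W' (MvPolynomial (Fin n) W)
    (MvPolynomial (Fin n) W') hσ

/-- `flat_of_dense` with `A₀ = MvPolynomial (Fin n) W`, `B₀ = MvPolynomial (Fin n) W'`,
`I₀ = idealOfVars` (flat by `Algebra.IsPushout`/`RingHom.Flat.isStableUnderBaseChange`);
`IsAdicComplete.le_jacobson_bot`. -/
theorem PS.flat_map {W' : Type} [CommRing W'] [IsNoetherianRing W] [IsNoetherianRing W']
    (σ : W →+* W') (hσ : σ.Flat) : (MvPowerSeries.map (σ := Fin n) σ).Flat := by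
  refine flat_of_dense (MvPolynomial.map (σ := Fin n) σ) (psc_flat_poly σ hσ)
    MvPolynomial.coeToMvPowerSeries.ringHom MvPolynomial.coeToMvPowerSeries.ringHom _ ?_
    (MvPolynomial.idealOfVars (Fin n) W) ?_ ?_ ?_ ?_
  · refine RingHom.ext fun x => ?_
    ext μ
    simp [MvPolynomial.coeff_map]
  · rw [psc_coe_XP, psc_map_XP]
    exact psc_XP_le_jac
  · intro N x
    rw [psc_coe_XP]
    exact ⟨_, sub_trunc_mem N x⟩
  · intro N y
    rw [psc_coe_XP, Ideal.map_pow, psc_map_XP]
    exact ⟨_, sub_trunc_mem N y⟩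
  · intro N y hy
    rw [psc_coe_XP, Ideal.map_pow, psc_map_XP, mem_XP_pow_iff] at hy
    have e : (MvPolynomial.idealOfVars (Fin n) W).map (MvPolynomial.map (σ := Fin n) σ) =
        MvPolynomial.idealOfVars (Fin n) W' := by
      rw [MvPolynomial.idealOfVars, Ideal.map_span, ← Set.range_comp]
      congr 2
      funext i
      simp
    rw [Ideal.map_pow, e, MvPolynomial.mem_pow_idealOfVars_iff']
    intro μ hμ
    simpa using hy μ hμ

theorem pderiv_map {W' : Type} [CommRing W'] (σ : W →+* W') (i : Fin n) (f : PS n W) :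
    pderiv W' i (MvPowerSeries.map σ f) = MvPowerSeries.map σ (pderiv W i f) := by
  ext μ
  simp [coeff_pderiv]

/-- the slice of `b` along the residue class `μ` modulo `q` -/
noncomputable def psc_sl (q : ℕ) (μ : Fin n →₀ ℕ) (b : PS n W) : PS n W := fun ν => coeff (μ + q • ν) b

theorem psc_coeff_sl (q : ℕ) (μ ν : Fin n →₀ ℕ) (b : PS n W) :
    coeff ν (psc_sl q μ b) = coeff (μ + q • ν) b := rfl

theorem psc_coeff_expand_mul {q : ℕ} (hq : q ≠ 0) {μ : Fin n →₀ ℕ} (hμ : ∀ i, μ i < q)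
    (ν : Fin n →₀ ℕ) (a b : PS n W) :
    coeff ν (a * psc_sl q μ b) = coeff (μ + q • ν) (expand q hq a * b) := by
  classical
  rw [coeff_mul, coeff_mul]
  refine Finset.sum_of_injOn (fun x => (q • x.1, μ + q • x.2)) ?_ ?_ ?_ ?_
  · rintro ⟨x, y⟩ - ⟨x', y'⟩ - h
    simp only [Prod.mk.injEq, add_right_inj, nsmul_right_inj hq] at h
    exact Prod.ext h.1 h.2
  · rintro ⟨x, y⟩ h
    simp only [Finset.mem_coe, Finset.HasAntidiagonal.mem_antidiagonal] at h ⊢
    rw [← h, smul_add]
    abel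
  · rintro ⟨x, y⟩ h h'
    by_cases hd : ∀ i, q ∣ x i
    · exfalso
      apply h'
      rw [Finset.HasAntidiagonal.mem_antidiagonal] at h
      obtain ⟨x', rfl⟩ : ∃ x', q • x' = x := ⟨x.mapRange (fun a => a / q) (by simp), by
        ext i
        simp [Nat.mul_div_cancel' (hd i)]⟩
      have hle : x' ≤ ν := fun i => by
        have h1 := DFunLike.congr_fun h i
        simp only [Finsupp.coe_add, Finsupp.coe_smul, Pi.add_apply, Pi.smul_apply,
          smul_eq_mul] at h1
        have h2 := hμ i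
        by_contra h3
        have h4 : q * (ν i + 1) ≤ q * x' i := Nat.mul_le_mul_left _ (not_le.1 h3)
        rw [mul_add] at h4
        omega
      obtain ⟨y', rfl⟩ := exists_add_of_le hle
      refine ⟨(x', y'), by simp, Prod.ext rfl ?_⟩
      simp only [smul_add] at h ⊢
      rw [add_left_comm] at h
      exact (add_left_cancel h).symm
    · obtain ⟨i, hi⟩ := not_forall.1 hd
      rw [coeff_expand_of_not_dvd q hq a hi, zero_mul]
  · rintro ⟨x, y⟩ -
    simp only [coeff_expand_smul, psc_coeff_sl]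

/-- a residue class as an exponent -/
noncomputable def psc_ex {q : ℕ} (m : Fin n → Fin q) : Fin n →₀ ℕ :=
  Finsupp.equivFunOnFinite.symm fun i => (m i : ℕ)

theorem psc_eq_sum {q : ℕ} (hq : q ≠ 0) (b : PS n W) :
    b = ∑ m : Fin n → Fin q, monomial (psc_ex m) 1 * expand q hq (psc_sl q (psc_ex m) b) := by
  classical
  ext d
  rw [map_sum, Finset.sum_eq_single fun i => ⟨d i % q, Nat.mod_lt _ (Nat.pos_of_ne_zero hq)⟩]
  · have e : d = psc_ex (fun i => (⟨d i % q, Nat.mod_lt _ (Nat.pos_of_ne_zero hq)⟩ : Fin q)) +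
        q • d.mapRange (fun a => a / q) (by simp) := by
      ext i
      simp [psc_ex, Nat.mod_add_div]
    conv_rhs => enter [1]; rw [e]
    rw [coeff_add_monomial_mul, one_mul, coeff_expand_smul, psc_coeff_sl, ← e]
  · intro m _ hm
    rw [coeff_monomial_mul]
    split_ifs with hle
    · obtain ⟨i, hi⟩ := Function.ne_iff.1 hm
      rw [coeff_expand_of_not_dvd q hq _ (i := i), mul_zero]
      intro hd
      apply hi
      have h1 : (m i : ℕ) ≤ d i := hle i
      have h2 : q ∣ d i - m i := hd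
      refine Fin.ext ?_
      have h3 := (Nat.modEq_iff_dvd' h1).2 h2
      rw [Nat.ModEq, Nat.mod_eq_of_lt (m i).2] at h3
      exact h3
    · rfl
  · intro h
    exact absurd (Finset.mem_univ _) h

/-- `b = ∑_{μ < q} X^μ expand (b_μ)` with `coeff ν b_μ = coeff (μ + q • ν) b`, and
`coeff (μ + q • ν) (expand a * b) = coeff ν (a * b_μ)`; `flat_of_rel`. -/
theorem PS.flat_expand (q : ℕ) (hq : q ≠ 0) :
    (MvPowerSeries.expand (σ := Fin n) (R := W) q hq).toRingHom.Flat := by
  refine flat_of_rel _ fun r a b hab => ?_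
  have e : b = ∑ m : Fin n → Fin q, (monomial (psc_ex m) 1 : PS n W) •
      ((MvPowerSeries.expand (σ := Fin n) (R := W) q hq).toRingHom ∘
        fun i => psc_sl q (psc_ex m) (b i)) := by
    funext i
    rw [Finset.sum_apply]
    exact psc_eq_sum hq (b i)
  rw [e]
  refine Submodule.sum_mem _ fun m _ => Submodule.smul_mem _ _
    (Submodule.subset_span ⟨_, ?_, rfl⟩)
  rw [Ideal.mem_bot]
  ext ν
  have h1 := congrArg (coeff (psc_ex m + q • ν)) hab
  rw [map_sum] at h1 ⊢
  rw [map_zero] at h1 ⊢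
  rw [← h1]
  exact Finset.sum_congr rfl fun i _ => psc_coeff_expand_mul hq (fun j => (m j).2) ν _ _

/-- `map_iterateFrobenius_expand`; `map` of a bijection is bijective; `RingHom.Flat.comp`,
`RingHom.Flat.of_bijective`. -/
theorem PS.flat_frob (p : ℕ) [Fact p.Prime] {l : Type} [Field l] [CharP l p] [PerfectRing l p]
    (s : ℕ) (F : PS n l →+* PS n l) (hF : ∀ x, F x = x ^ p ^ s) : F.Flat := by
  have hp : p ≠ 0 := (Fact.out : p.Prime).ne_zero
  have e : F = (MvPowerSeries.map (σ := Fin n) (iterateFrobenius l p s)).comp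
      (MvPowerSeries.expand (σ := Fin n) (R := l) (p ^ s) (pow_ne_zero s hp)).toRingHom :=
    RingHom.ext fun x => (hF x).trans (map_iterateFrobenius_expand p hp x s).symm
  have hb := bijective_iterateFrobenius l p s
  rw [e]
  refine (PS.flat_expand _ _).comp (RingHom.Flat.of_bijective ⟨fun f g h => ?_,
    map_surjective _ hb.2⟩)
  ext μ
  apply hb.1
  rw [← coeff_map, ← coeff_map, h]

end Basic

section Complete

theorem cln_of_surj {R S : Type} [CommRing R] [CommRing S] [CLN R] [Nontrivial S] (f : R →+* S)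
    (hf : Function.Surjective f) : CLN S := by
  have := IsLocalRing.of_surjective' f hf
  let := f.toAlgebra
  have : Module.Finite R S := RingHom.Finite.of_surjective f hf
  exact psd_cln_of_finite (A := R)

/-- `finite_of_precomplete` with `I = 𝔪_A`: `R / 𝔪_A R` has finite `A`-length
(`length_restrict_le`, `cl_ne_top_of_pow_le`), `R` is `𝔪_A`-Hausdorff. -/
theorem finite_of_primary {A R : Type} [CommRing A] [CommRing R] [CLN A] [IsLocalRing R]
    [IsNoetherianRing R] (f : A →+* R) (hloc : (maximalIdeal A).map f ≤ maximalIdeal R)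
    (hres : ∀ r, ∃ a, r - f a ∈ maximalIdeal R) {N : ℕ}
    (hN : maximalIdeal R ^ N ≤ (maximalIdeal A).map f) : f.Finite := by
  let := f.toAlgebra
  have h1 : IsHausdorff (maximalIdeal A) R := IsHausdorff.of_map (J := maximalIdeal R) hloc
  have h2 := ne_top_of_le_ne_top (cl_ne_top_of_pow_le (maximalIdeal R) hN)
    (length_restrict_le (𝔪 := maximalIdeal A) hloc hres hN)
  have h3 := (isFiniteLength_iff_isNoetherian_isArtinian.1 (Module.length_ne_top_iff.1 h2)).1
  have h4 : Module.Finite A (R ⧸ (maximalIdeal A • ⊤ : Submodule A R)) := by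
    rw [Ideal.smul_top_eq_map]
    exact Module.Finite.equiv
      (Submodule.Quotient.restrictScalarsEquiv A ((maximalIdeal A).map f)).symm
  exact finite_of_precomplete (maximalIdeal A) R

/-- a local ring finite over a complete local Noetherian ring is complete: `R` is `𝔪_A`-precomplete
as a quotient of `Fin r → A`, and `𝔪_R^N ≤ 𝔪_A R ≤ 𝔪_R` (`R / 𝔪_A R` is Artinian). -/
theorem cln_of_finite {A R : Type} [CommRing A] [CommRing R] [CLN A] [IsLocalRing R] [Algebra A R]
    [Module.Finite A R] : CLN R :=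
  psd_cln_of_finite (A := A)

/-- for `R` finite over a local `A`: `𝔪_A R ≤ 𝔪_R` (`Ideal.isMaximal_comap_of_isIntegral_of_isMaximal`),
and `R / 𝔪_A R` is Artinian. -/
theorem max_pow_le_of_finite {A R : Type} [CommRing A] [CommRing R] [IsLocalRing A] [IsLocalRing R]
    [Algebra A R] [Module.Finite A R] :
    (maximalIdeal A).map (algebraMap A R) ≤ maximalIdeal R ∧
      ∃ N, maximalIdeal R ^ N ≤ (maximalIdeal A).map (algebraMap A R) :=
  psd_max_pow_le

end Complete

section PSR
variable {W : Type} [CommRing W] {n : ℕ} {𝒜 : Type} [CommRing 𝒜] [Algebra W 𝒜]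

/-- a `W`-algebra automorphism `θ` of `W[X]` preserving `(X)`. -/
theorem PSR.of_equiv {Z : Fin (n + 1) → 𝒜} (H : PSR W Z) (θ : Pz W n ≃ₐ[W] Pz W n)
    (hθ : (XI W n).map θ = XI W n) : PSR W (fun i => MvPolynomial.aeval Z (θ (MvPolynomial.X i))) := by
  have e : ∀ f, MvPolynomial.aeval (fun i => MvPolynomial.aeval Z (θ (MvPolynomial.X i))) f =
      MvPolynomial.aeval Z (θ f) := fun f =>
    (DFunLike.congr_fun (MvPolynomial.aeval_unique ((MvPolynomial.aeval Z).comp θ.toAlgHom)) f).symm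
  have hp : ∀ N f, θ f ∈ XI W n ^ N ↔ f ∈ XI W n ^ N := fun N f => by
    conv_lhs => rw [← hθ, ← Ideal.map_pow]
    exact Ideal.apply_mem_of_equiv_iff (f := θ.toRingEquiv)
  have hX : ∀ i, MvPolynomial.X i ∈ XI W n ^ 1 := fun i =>
    (pow_one (XI W n)).ge (Ideal.subset_span ⟨i, rfl⟩)
  have hs : Ideal.span (Set.range fun i => MvPolynomial.aeval Z (θ (MvPolynomial.X i))) =
      Ideal.span (Set.range Z) := by
    refine le_antisymm (Ideal.span_le.2 ?_) (Ideal.span_le.2 ?_) <;> rintro _ ⟨i, rfl⟩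
    · exact (pow_one (Ideal.span (Set.range Z))).le (psd_aeval_mem Z ((hp 1 _).2 (hX i)))
    · have h1 := psd_aeval_mem (fun i => MvPolynomial.aeval Z (θ (MvPolynomial.X i)))
        ((hp 1 (θ.symm (MvPolynomial.X i))).1 (by rw [θ.apply_symm_apply]; exact hX i))
      rwa [e, θ.apply_symm_apply, MvPolynomial.aeval_X, pow_one] at h1
  refine ⟨fun N x => ?_, fun N f hf => ?_⟩
  · obtain ⟨f, hf⟩ := H.dense N x
    exact ⟨θ.symm f, by rwa [hs, e, θ.apply_symm_apply]⟩
  · rw [hs, e] at hf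
    exact (hp N f).1 (H.inj N _ hf)

/-- for `f ∈ (X)^j`, `f(Z') - f(Z) ∈ (Z)^(j+1)`; induct on the order (`PSR.dense_pow`). -/
theorem PSR.perturb {Z Z' : Fin (n + 1) → 𝒜} (H : PSR W Z)
    (h : ∀ i, Z' i - Z i ∈ Ideal.span (Set.range Z) ^ 2)
    (hs : Ideal.span (Set.range Z') = Ideal.span (Set.range Z)) : PSR W Z' := by
  refine ⟨fun N x => ?_, fun N f hf => ?_⟩
  · rw [hs]
    induction N with
    | zero => exact ⟨0, by simp⟩
    | succ N ih =>
      obtain ⟨f, hf⟩ := ih
      obtain ⟨g, hg, h1⟩ := H.dense_pow (N + 1) hf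
      refine ⟨f + g, ?_⟩
      have h2 := sub_mem h1 (psd_sub_mem h hs N hg)
      rwa [sub_sub, add_sub_cancel, sub_sub, ← map_add] at h2
  · rw [hs] at hf
    induction N with
    | zero => simp
    | succ N ih =>
      have h1 := psd_sub_mem h hs N (ih (Ideal.pow_le_pow_right N.le_succ hf))
      exact H.inj _ _ (by simpa using sub_mem hf h1)

variable (d₁ : ℕ) {c : ℕ}

/-- the parameters `X 0, X i.succ - t i X 0, u j` of `W⟦u⟧⟦X⟧` -/
noncomputable def Zp (t : Fin d₁ → PS c W) : Fin (d₁ + c + 1) → PS (d₁ + 1) (PS c W) :=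
  Fin.cons (X 0) (Fin.append (fun i => X i.succ - C (t i) * X 0) (fun j => C (X j)))

variable (c W) in
/-- the ideal `(X, u)` -/
noncomputable def ZI : Ideal (PS (d₁ + 1) (PS c W)) := (XP c W).map C ⊔ XP (d₁ + 1) (PS c W)

theorem Pe_Zp_zero (t : Fin d₁ → PS c W) : Zp d₁ t 0 = X 0 := rfl

theorem Pe_Zp_left (t : Fin d₁ → PS c W) (i : Fin d₁) :
    Zp d₁ t (Fin.castAdd c i).succ = X i.succ - C (t i) * X 0 := by
  rw [Zp, Fin.cons_succ, Fin.append_left]

theorem Pe_Zp_right (t : Fin d₁ → PS c W) (j : Fin c) :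
    Zp d₁ t (Fin.natAdd d₁ j).succ = C (X j) := by
  rw [Zp, Fin.cons_succ, Fin.append_right]

theorem Pe_cases {P : Fin (d₁ + c + 1) → Prop} (h0 : P 0) (h1 : ∀ i, P (Fin.castAdd c i).succ)
    (h2 : ∀ j, P (Fin.natAdd d₁ j).succ) (k : Fin (d₁ + c + 1)) : P k :=
  Fin.cases h0 (fun k => Fin.addCases (motive := fun k => P k.succ) h1 h2 k) k

theorem span_Zp (t : Fin d₁ → PS c W) : Ideal.span (Set.range (Zp d₁ t)) = ZI W d₁ c := by
  have hX : ∀ i, (X i : PS (d₁ + 1) (PS c W)) ∈ ZI W d₁ c := fun i =>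
    Ideal.mem_sup_right (Ideal.subset_span ⟨i, rfl⟩)
  have hZ : ∀ k, Zp d₁ t k ∈ Ideal.span (Set.range (Zp d₁ t)) := fun k =>
    Ideal.subset_span ⟨k, rfl⟩
  refine le_antisymm (Ideal.span_le.2 ?_) (sup_le ?_ (Ideal.span_le.2 ?_))
  · rintro _ ⟨k, rfl⟩
    refine Pe_cases d₁ (P := fun k => Zp d₁ t k ∈ ZI W d₁ c) (hX 0) (fun i => ?_) (fun j => ?_) k
    · rw [Pe_Zp_left]
      exact Ideal.sub_mem _ (hX _) (Ideal.mul_mem_left _ _ (hX 0))
    · rw [Pe_Zp_right]
      exact Ideal.mem_sup_left (Ideal.mem_map_of_mem _ (Ideal.subset_span ⟨j, rfl⟩))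
  · rw [Ideal.map_le_iff_le_comap]
    refine Ideal.span_le.2 ?_
    rintro _ ⟨j, rfl⟩
    have := hZ (Fin.natAdd d₁ j).succ
    rwa [Pe_Zp_right] at this
  · rintro _ ⟨i, rfl⟩
    refine Fin.cases (motive := fun i => X i ∈ Ideal.span (Set.range (Zp d₁ t))) (hZ 0)
      (fun i => ?_) i
    have := Ideal.add_mem _ (hZ (Fin.castAdd c i).succ) (Ideal.mul_mem_left _ (C (t i)) (hZ 0))
    rwa [Pe_Zp_left, Pe_Zp_zero, sub_add_cancel] at this

theorem Pe_complete (n : ℕ) (W : Type) [CommRing W] : IsAdicComplete (XP n W) (PS n W) := by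
  have := PS.isAdicComplete (n := n) (⊥ : Ideal W)
  rwa [Ideal.map_bot, bot_sup_eq] at this

/-- a subring that contains the constants, the variables and a power of `(X)` is everything -/
theorem Pe_subring {n : ℕ} {A B : Type} [CommRing A] [CommRing B] (φ : PS n A →+* B) (S : Subring B)
    (hC : ∀ a, φ (C a) ∈ S) (hX : ∀ i, φ (X i) ∈ S) {N : ℕ} (hN : ∀ x ∈ XP n A ^ N, φ x ∈ S)
    (x : PS n A) : φ x ∈ S := by
  have h1 : ∀ p : MvPolynomial (Fin n) A, φ p ∈ S := fun p => by
    induction p using MvPolynomial.induction_on with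
    | C a => rw [MvPolynomial.coe_C]; exact hC a
    | add p q hp hq => rw [MvPolynomial.coe_add, map_add]; exact S.add_mem hp hq
    | mul_X p i hp => rw [MvPolynomial.coe_mul, MvPolynomial.coe_X, map_mul]; exact S.mul_mem hp (hX i)
  have := S.add_mem (hN _ (sub_trunc_mem N x)) (h1 (truncTotal N x))
  rwa [← map_add, sub_add_cancel] at this

theorem Pe_psr (t : Fin d₁ → PS c W) : PSR W (Zp d₁ t) := by
  refine ⟨fun N x => ?_, fun N f hf => ?_⟩
  · let π := Ideal.Quotient.mk (Ideal.span (Set.range (Zp d₁ t)) ^ N)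
    let S := (π.comp (MvPolynomial.aeval (R := W) (Zp d₁ t)).toRingHom).range
    have hZ : ∀ k, π (Zp d₁ t k) ∈ S := fun k => ⟨MvPolynomial.X k, by simp⟩
    have h0 : ∀ x ∈ ZI W d₁ c ^ N, π x ∈ S := fun x hx => by
      rw [Ideal.Quotient.eq_zero_iff_mem.2 (by rwa [span_Zp])]
      exact S.zero_mem
    have hC : ∀ a, π (C a) ∈ S := fun a =>
      Pe_subring (π.comp C) S (fun w => ⟨MvPolynomial.C w, by
          simp [MvPowerSeries.algebraMap_apply]⟩)
        (fun j => by simpa only [Pe_Zp_right, RingHom.comp_apply] using hZ (Fin.natAdd d₁ j).succ) (N := N)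
        (fun y hy => h0 _ (Ideal.pow_right_mono le_sup_left N (by
          rw [← Ideal.map_pow]
          exact Ideal.mem_map_of_mem _ hy))) a
    obtain ⟨f, hf⟩ := Pe_subring π S hC (fun i => by
        refine Fin.cases (motive := fun i => π (X i) ∈ S) (hZ 0) (fun i => ?_) i
        have := S.add_mem (hZ (Fin.castAdd c i).succ) (S.mul_mem (hC (t i)) (hZ 0))
        rwa [Pe_Zp_left, Pe_Zp_zero, ← map_mul, ← map_add, sub_add_cancel] at this) (N := N)
      (fun y hy => h0 _ (Ideal.pow_right_mono le_sup_right N hy)) x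
    exact ⟨f, Ideal.Quotient.eq.1 hf.symm⟩
  · have := Pe_complete (d₁ + c + 1) W
    have hX : ∀ k, (X k : PS (d₁ + c + 1) W) ∈ XP (d₁ + c + 1) W := fun k =>
      Ideal.subset_span ⟨k, rfl⟩
    obtain ⟨ρ, hρC, hρX⟩ := exists_eval (n := c) (C : W →+* PS (d₁ + c + 1) W) (XP (d₁ + c + 1) W)
      (fun j => X (Fin.natAdd d₁ j).succ) fun j => hX _
    obtain ⟨ev, hC, hev⟩ := exists_eval (n := d₁ + 1) ρ (XP (d₁ + c + 1) W)
      (Fin.cons (X 0) fun i => X (Fin.castAdd c i).succ + ρ (t i) * X 0)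
      (Fin.cases (hX 0) fun i => Ideal.add_mem _ (hX _) (Ideal.mul_mem_left _ _ (hX 0)))
    have hZ : ∀ k, ev (Zp d₁ t k) = X k := by
      refine Pe_cases d₁ (hev 0) (fun i => ?_) fun j => ?_
      · rw [Pe_Zp_left, map_sub, map_mul, hev, hev, hC, Fin.cons_succ, Fin.cons_zero,
          add_sub_cancel_right]
      · rw [Pe_Zp_right, hC, hρX]
    have h1 : ∀ g : Pz W (d₁ + c), ev (MvPolynomial.aeval (Zp d₁ t) g) = g := fun g => by
      induction g using MvPolynomial.induction_on with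
      | C a =>
        rw [MvPolynomial.aeval_C, MvPolynomial.coe_C, MvPowerSeries.algebraMap_apply, hC,
          MvPowerSeries.algebraMap_apply, hρC]
        rfl
      | add p q hp hq => rw [map_add, map_add, hp, hq, MvPolynomial.coe_add]
      | mul_X p i hp =>
        rw [map_mul, map_mul, hp, MvPolynomial.aeval_X, hZ, MvPolynomial.coe_mul,
          MvPolynomial.coe_X]
    have h2 : (Ideal.span (Set.range (Zp d₁ t))).map ev ≤ XP (d₁ + c + 1) W := by
      rw [Ideal.map_le_iff_le_comap]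
      refine Ideal.span_le.2 ?_
      rintro _ ⟨k, rfl⟩
      change ev (Zp d₁ t k) ∈ XP (d₁ + c + 1) W
      rw [hZ]
      exact hX k
    have h3 := Ideal.mem_map_of_mem ev hf
    rw [h1, Ideal.map_pow] at h3
    exact (MvPolynomial.mem_pow_idealOfVars_iff' N f).2
      (mem_XP_pow_iff.1 (Ideal.pow_right_mono h2 N h3))

/-- `mem_sup_XP_pow_iff`, `mem_XP_pow_iff`: membership in `ZI^N` is vanishing of the double
coefficients of total degree `< N`; the double coefficient of `aeval (Zp 0) f` at `(μ, ν)` is the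
coefficient of `f` at `Fin.cons (μ 0) (Fin.append (tail μ) ν)`. -/
theorem psr_Zp_zero : PSR W (Zp d₁ (0 : Fin d₁ → PS c W)) := Pe_psr d₁ 0

/-- `PSR.of_equiv` for the shear by the constant coefficients of `t`, then `PSR.perturb`. -/
theorem psr_Zp (t : Fin d₁ → PS c W) : PSR W (Zp d₁ t) := Pe_psr d₁ t

theorem Pe_sum_apply {R A : Type} [CommRing R] [CommRing A] [Algebra R A] {ι : Type} (s : Finset ι)
    (D : ι → Derivation R A A) (x : A) : (∑ i ∈ s, D i) x = ∑ i ∈ s, D i x := by
  have := map_sum (Derivation.coeFnAddMonoidHom (R := R) (A := A) (M := A)) D s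
  exact (congrFun this x).trans (Finset.sum_apply x s _)

/-- if some `ev (∂_{i.succ} h) ≠ 0` take `D = ∂_{i.succ}`; otherwise `D = ∂₀ + ∑ C (σ (t i)) ∂_{i.succ}`
(`Derivation.restrictScalars`, `pderiv_map`). -/
theorem exists_der {C₀ R : Type} [CommRing C₀] [CommRing R] (σ : C₀ →+* PS c W) (t : Fin d₁ → C₀)
    (ev : PS (d₁ + 1) C₀ →+* R) (h : PS (d₁ + 1) C₀) (hh : ev (pderiv C₀ 0 h) ≠ 0) :
    ∃ (D : Derivation W (PS (d₁ + 1) (PS c W)) (PS (d₁ + 1) (PS c W))) (Dr : Fin (d₁ + c + 1) → W)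
      (h' : PS (d₁ + 1) C₀), (∀ i, D (Zp d₁ (σ ∘ t) i) = algebraMap W _ (Dr i)) ∧
      D (MvPowerSeries.map σ h) = MvPowerSeries.map σ h' ∧ ev h' ≠ 0 := by
  suffices H : ∃ (D : Derivation (PS c W) (PS (d₁ + 1) (PS c W)) (PS (d₁ + 1) (PS c W)))
      (h' : PS (d₁ + 1) C₀), (∀ i, D (Zp d₁ (σ ∘ t) i) = 0 ∨ D (Zp d₁ (σ ∘ t) i) = 1) ∧
      D (MvPowerSeries.map σ h) = MvPowerSeries.map σ h' ∧ ev h' ≠ 0 by
    obtain ⟨D, h', h1, h2⟩ := H
    have h3 : ∀ i, ∃ w : W, D (Zp d₁ (σ ∘ t) i) = algebraMap W _ w := fun i =>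
      (h1 i).elim (fun e => ⟨0, e.trans (map_zero _).symm⟩) fun e => ⟨1, e.trans (map_one _).symm⟩
    choose Dr hDr using h3
    exact ⟨D.restrictScalars W, Dr, h', hDr, h2⟩
  by_cases H : ∃ i : Fin d₁, ev (pderiv C₀ i.succ h) ≠ 0
  · obtain ⟨i, hi⟩ := H
    refine ⟨pderiv _ i.succ, _, Pe_cases d₁ ?_ (fun i' => ?_) fun j => ?_, pderiv_map σ _ h, hi⟩
    · exact Or.inl (pderiv_X_of_ne (Fin.succ_ne_zero i).symm)
    · rw [Pe_Zp_left, map_sub, Derivation.leibniz, pderiv_C,
        pderiv_X_of_ne (Fin.succ_ne_zero i).symm, smul_zero, smul_zero, add_zero, sub_zero]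
      by_cases e : i' = i
      · exact Or.inr (e ▸ pderiv_X_self)
      · exact Or.inl (pderiv_X_of_ne fun e' => e (Fin.succ_injective _ e'))
    · exact Or.inl (by rw [Pe_Zp_right, pderiv_C])
  · push Not at H
    obtain ⟨D, hD⟩ : ∃ D : Derivation (PS c W) (PS (d₁ + 1) (PS c W)) (PS (d₁ + 1) (PS c W)),
        ∀ x, D x = pderiv _ 0 x + ∑ i : Fin d₁, C (σ (t i)) * pderiv _ i.succ x :=
      ⟨pderiv _ 0 + ∑ i : Fin d₁, (C (σ (t i)) : PS (d₁ + 1) (PS c W)) • pderiv _ i.succ,
        fun x => by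
          rw [Derivation.add_apply, Pe_sum_apply]
          rfl⟩
    have hC : ∀ a, D (C a) = 0 := fun a => by simp [hD]
    have h0 : D (X 0) = 1 := by
      simp [hD, pderiv_X_of_ne (Fin.succ_ne_zero _).symm]
    have h1 : ∀ i : Fin d₁, D (X i.succ) = C (σ (t i)) := fun i => by
      rw [hD, pderiv_X_of_ne (Fin.succ_ne_zero i), zero_add, Finset.sum_eq_single i, pderiv_X_self,
        mul_one]
      · intro j _ hj
        rw [pderiv_X_of_ne fun e => hj (Fin.succ_injective _ e).symm, mul_zero]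
      · simp
    refine ⟨D, pderiv _ 0 h + ∑ i : Fin d₁, C (t i) * pderiv _ i.succ h,
      Pe_cases d₁ (Or.inr h0) (fun i => Or.inl ?_) fun j => Or.inl ?_, ?_, ?_⟩
    · rw [Pe_Zp_left, map_sub, Derivation.leibniz, hC, h0, h1, smul_zero, add_zero, smul_eq_mul,
        mul_one, Function.comp, sub_self]
    · rw [Pe_Zp_right, hC]
    · simp only [hD, map_add, map_sum, map_mul, pderiv_map, map_C]
    · simpa only [map_add, map_sum, map_mul, H, mul_zero, Finset.sum_const_zero, add_zero] using hh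

end PSR

end Crest.Agent.R183
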