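import Mathlib

/-! # R183 / TensAuxb : auxiliary lemmas for the primitive element (task Tens-b). -/

set_option autoImplicit false
open Polynomial nonZeroDivisors
open scoped IntermediateField

namespace Crest.Agent.R183

section
variable {A R : Type} [CommRing A] [CommRing R] [Algebra A R]

theorem tb_simple_root [IsDomain R] [CharZero R] (x : R) (n : ℕ) :
    ∀ P : A[X], (P.map (algebraMap A R)).natDegree = n → P.map (algebraMap A R) ≠ 0 →
      aeval x P = 0 → ∃ Q : A[X], aeval x Q = 0 ∧ aeval x (derivative Q) ≠ 0 := by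
  induction n using Nat.strong_induction_on with
  | _ n ih =>
    intro P hn hP hx
    by_cases hd : aeval x (derivative P) = 0
    · have hn0 : (P.map (algebraMap A R)).natDegree ≠ 0 := by
        intro h0
        apply hP
        have h1 := eq_C_of_natDegree_eq_zero h0
        have h2 : eval x (P.map (algebraMap A R)) = 0 := by
          rw [eval_map_algebraMap]; exact hx
        rw [h1, eval_C] at h2
        rw [h1, h2, C_0]
      refine ih ((derivative P).map (algebraMap A R)).natDegree ?_ (derivative P) rfl ?_ hd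
      · rw [← derivative_map, ← hn]
        exact natDegree_derivative_lt hn0
      · rw [← derivative_map]
        exact derivative_ne_zero.2 hn0
    · exact ⟨P, hx, hd⟩

theorem tb_sepGen [IsDomain R] [CharZero R] [Algebra.IsIntegral A R] (x : R) :
    ∃ Q : A[X], aeval x Q = 0 ∧ aeval x (derivative Q) ≠ 0 := by
  obtain ⟨P, hP, hx⟩ := Algebra.IsIntegral.isIntegral (R := A) x
  exact tb_simple_root x _ P rfl (hP.map _).ne_zero (by rw [aeval_def]; exact hx)

theorem tb_smul_mem {e : ℕ} (he : 1 ≤ e) {w : R} {f : A[X]} (hm : f.Monic)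
    (hd : f.natDegree = e) (hf : aeval w f = 0) (F : A[X]) :
    aeval w F ∈ Submodule.span A (Set.range fun i : Fin e => w ^ (i : ℕ)) := by
  have h1 : f ≠ 1 := by
    rintro rfl
    rw [natDegree_one] at hd
    omega
  have h2 : aeval w F = aeval w (F %ₘ f) := by
    conv_lhs => rw [← modByMonic_add_div F f]
    rw [map_add, map_mul, hf, zero_mul, add_zero]
  have h3 : (F %ₘ f).natDegree < e := hd ▸ natDegree_modByMonic_lt F hm h1
  rw [h2, aeval_eq_sum_range' h3]
  refine Submodule.sum_mem _ fun i hi => Submodule.smul_mem _ _ ?_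
  exact Submodule.subset_span ⟨⟨i, Finset.mem_range.1 hi⟩, rfl⟩

/-- common multiplier for a finite module -/
theorem tb_common [IsDomain A] [Module.Finite A R] (N : Submodule A R)
    (h : ∀ τ : R, ∃ g : A, g ≠ 0 ∧ g • τ ∈ N) : ∃ g : A, g ≠ 0 ∧ ∀ τ : R, g • τ ∈ N := by
  classical
  obtain ⟨S, hS⟩ := Module.Finite.fg_top (R := A) (M := R)
  choose g hg hgN using h
  refine ⟨∏ s ∈ S, g s, Finset.prod_ne_zero_iff.2 fun s _ => hg s, fun τ => ?_⟩
  have hτ : τ ∈ Submodule.span A (S : Set R) := hS ▸ Submodule.mem_top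
  induction hτ using Submodule.span_induction with
  | mem x hx =>
    rw [← Finset.prod_erase_mul S g hx, mul_smul]
    exact N.smul_mem _ (hgN x)
  | zero => rw [smul_zero]; exact N.zero_mem
  | add x y _ _ hx hy => rw [smul_add]; exact N.add_mem hx hy
  | smul a x _ hx => rw [smul_comm]; exact N.smul_mem _ hx

end

section Field
variable {A R K L : Type} [CommRing A] [IsDomain A] [CommRing R] [IsDomain R] [Algebra A R]
  [Field K] [Field L] [Algebra A K] [IsFractionRing A K] [Algebra R L] [IsFractionRing R L]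
  [Algebra K L] [Algebra A L] [IsScalarTower A K L] [IsScalarTower A R L]

omit [IsDomain A] [IsDomain R] [IsFractionRing A K] in
theorem tb_isSeparable_elt [Algebra.IsAlgebraic K L] (x : R) (P : A[X]) (h0 : aeval x P = 0)
    (h1 : aeval x (derivative P) ≠ 0) : IsSeparable K (algebraMap R L x) := by
  have hint : IsIntegral K (algebraMap R L x) := Algebra.IsIntegral.isIntegral _
  have hirr := minpoly.irreducible hint
  rw [IsSeparable, separable_iff_derivative_ne_zero hirr]
  intro hd
  have h2 : aeval (algebraMap R L x) (P.map (algebraMap A K)) = 0 := by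
    rw [aeval_map_algebraMap, aeval_algebraMap_apply, h0, map_zero]
  obtain ⟨q, hq⟩ := minpoly.dvd K _ h2
  have h3 : aeval (algebraMap R L x) (derivative (P.map (algebraMap A K))) = 0 := by
    rw [hq, derivative_mul, hd, zero_mul, zero_add, map_mul, minpoly.aeval, zero_mul]
  rw [derivative_map, aeval_map_algebraMap, aeval_algebraMap_apply] at h3
  exact h1 (IsFractionRing.injective R L (by rw [h3, map_zero]))

omit [IsDomain A] [IsDomain R] [IsFractionRing A K] in
theorem tb_isSeparable [Algebra.IsAlgebraic K L] (s : Set R) (hs : Algebra.adjoin A s = ⊤)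
    (h : ∀ x ∈ s, ∃ P : A[X], aeval x P = 0 ∧ aeval x (derivative P) ≠ 0) :
    Algebra.IsSeparable K L := by
  have h1 : ∀ r : R, algebraMap R L r ∈ separableClosure K L := by
    intro r
    have hr : r ∈ Algebra.adjoin A s := hs ▸ Algebra.mem_top
    induction hr using Algebra.adjoin_induction with
    | mem x hx =>
      obtain ⟨P, h0, h1⟩ := h x hx
      exact mem_separableClosure_iff.2 (tb_isSeparable_elt x P h0 h1)
    | algebraMap a =>
      rw [← IsScalarTower.algebraMap_apply, IsScalarTower.algebraMap_apply A K L]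
      exact IntermediateField.algebraMap_mem _ _
    | add x y _ _ hx hy => rw [map_add]; exact add_mem hx hy
    | mul x y _ _ hx hy => rw [map_mul]; exact mul_mem hx hy
  refine ⟨fun z => mem_separableClosure_iff.1 ?_⟩
  obtain ⟨a, b, -, rfl⟩ := IsFractionRing.div_surjective R z
  exact div_mem (h1 a) (h1 b)

omit [IsDomain A] [IsDomain R] [IsFractionRing A K] in
theorem tb_adjoin_smul {α : L} (hα : K⟮α⟯ = ⊤) {c : K} (hc : c ≠ 0) {β : L}
    (hβ : β = algebraMap K L c * α) : K⟮β⟯ = ⊤ := by
  rw [eq_top_iff, ← hα, IntermediateField.adjoin_simple_le_iff]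
  have : α = (algebraMap K L c)⁻¹ * β := by
    rw [hβ, ← mul_assoc, inv_mul_cancel₀ ((_root_.map_ne_zero _).2 hc), one_mul]
  rw [this]
  exact mul_mem (inv_mem (IntermediateField.algebraMap_mem _ _))
    (IntermediateField.mem_adjoin_simple_self K β)

theorem tb_prim_field [Module.Finite A R] [FiniteDimensional K L] [Algebra.IsSeparable K L]
    (hinj : Function.Injective (algebraMap A R)) (t : A) (ht : t ≠ 0) :
    ∃ (e : ℕ) (w : R) (f : A[X]) (g : A), 1 ≤ e ∧ f.Monic ∧ f.natDegree = e ∧
      (∀ r, r < e → f.coeff r ∈ Ideal.span {t}) ∧ w ∈ Ideal.span {algebraMap A R t} ∧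
      RingHom.ker (aeval w : A[X] →ₐ[A] R) = Ideal.span {f} ∧ g ≠ 0 ∧
      (∀ τ : R, ∃ F : A[X], aeval w F = algebraMap A R g * τ) ∧ aeval w (derivative f) ≠ 0 := by
  have hRL : Function.Injective (algebraMap R L) := IsFractionRing.injective R L
  have hAK : Function.Injective (algebraMap A K) := IsFractionRing.injective A K
  obtain ⟨α, hα⟩ := Field.exists_primitive_element K L
  -- scale `α` into `R`
  obtain ⟨c, hc⟩ : ∃ c : R, K⟮algebraMap R L c⟯ = ⊤ := by
    obtain ⟨a, b, hb, rfl⟩ := IsFractionRing.div_surjective R α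
    have hb0 : b ≠ 0 := nonZeroDivisors.ne_zero hb
    obtain ⟨c, d, hd, hcd⟩ := Algebra.IsAlgebraic.exists_smul_eq_mul A a hb0
    refine ⟨c, tb_adjoin_smul hα (c := algebraMap A K d) ((map_ne_zero_iff _ hAK).2 hd) ?_⟩
    have hbL : algebraMap R L b ≠ 0 := (map_ne_zero_iff _ hRL).2 hb0
    have h1 := congrArg (algebraMap R L) hcd
    rw [Algebra.smul_def, map_mul, map_mul, ← IsScalarTower.algebraMap_apply] at h1
    rw [← IsScalarTower.algebraMap_apply, ← mul_div_assoc, h1]
    field_simp
  set m := minpoly K (algebraMap R L c) with hm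
  have hcint : IsIntegral K (algebraMap R L c) := Algebra.IsIntegral.isIntegral _
  set n := IsLocalization.integerNormalization A⁰ m with hn
  obtain ⟨b, hb, hbn⟩ := IsLocalization.integerNormalization_spec A⁰ m
  have hb0 : b ≠ 0 := nonZeroDivisors.ne_zero hb
  have hn0 : n ≠ 0 := by
    rw [hn, Ne, IsFractionRing.integerNormalization_eq_zero_iff]
    exact minpoly.ne_zero hcint
  have hndeg : n.natDegree = m.natDegree := by
    rw [← natDegree_map_eq_of_injective hAK n, hn, hbn, ← IsScalarTower.algebraMap_smul K b m,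
      natDegree_smul _ ((map_ne_zero_iff _ hAK).2 hb0)]
  have hnc : aeval c n = 0 := by
    apply hRL
    rw [map_zero, ← aeval_algebraMap_apply]
    exact IsLocalization.integerNormalization_aeval_eq_zero A⁰ m (minpoly.aeval _ _)
  set f := (integralNormalization n).scaleRoots t with hf
  set w : R := algebraMap A R t * (algebraMap A R n.leadingCoeff * c) with hw
  have hfm : f.Monic := (monic_scaleRoots_iff t).2 (monic_integralNormalization hn0)
  have hfd : f.natDegree = m.natDegree := by
    rw [hf, natDegree_scaleRoots, natDegree_integralNormalization, hndeg]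
  have hfw : aeval w f = 0 :=
    scaleRoots_aeval_eq_zero (integralNormalization_aeval_eq_zero hnc
      fun x hx => hinj (by rw [hx, map_zero]))
  have hwtop : K⟮algebraMap R L w⟯ = ⊤ := by
    refine tb_adjoin_smul hc (c := algebraMap A K (t * n.leadingCoeff))
      ((map_ne_zero_iff _ hAK).2 (mul_ne_zero ht (leadingCoeff_ne_zero.2 hn0))) ?_
    rw [hw, ← IsScalarTower.algebraMap_apply, ← mul_assoc, ← map_mul, map_mul (algebraMap R L),
      ← IsScalarTower.algebraMap_apply]
  have hwint : IsIntegral K (algebraMap R L w) := Algebra.IsIntegral.isIntegral _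
  have hdeg : (minpoly K (algebraMap R L w)).natDegree = m.natDegree := by
    rw [← IntermediateField.adjoin.finrank hwint, hm, ← IntermediateField.adjoin.finrank hcint,
      hwtop, hc]
  have hfwL : aeval (algebraMap R L w) (f.map (algebraMap A K)) = 0 := by
    rw [aeval_map_algebraMap, aeval_algebraMap_apply, hfw, map_zero]
  have hmin : f.map (algebraMap A K) = minpoly K (algebraMap R L w) := by
    refine eq_of_monic_of_dvd_of_natDegree_le (minpoly.monic hwint) (hfm.map _)
      (minpoly.dvd K _ hfwL) ?_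
    rw [hdeg, hfm.natDegree_map, hfd]
  have he : 1 ≤ m.natDegree := minpoly.natDegree_pos hcint
  obtain ⟨g, hg0, hg⟩ := tb_common (A := A) (R := R)
    (Subalgebra.toSubmodule (aeval w : A[X] →ₐ[A] R).range) (fun τ => by
      have h1 : algebraMap R L τ ∈ (K⟮algebraMap R L w⟯).toSubalgebra := by
        rw [hwtop]; exact Algebra.mem_top
      rw [IntermediateField.adjoin_simple_toSubalgebra_of_isAlgebraic hwint.isAlgebraic,
        Algebra.adjoin_singleton_eq_range_aeval] at h1
      obtain ⟨p, hp⟩ := h1
      obtain ⟨b', hb', hbp⟩ := IsLocalization.integerNormalization_spec A⁰ p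
      refine ⟨b', nonZeroDivisors.ne_zero hb', IsLocalization.integerNormalization A⁰ p, ?_⟩
      apply hRL
      change algebraMap R L (aeval w _) = _
      have hp' : aeval (algebraMap R L w) p = algebraMap R L τ := hp
      rw [← aeval_algebraMap_apply, ← aeval_map_algebraMap K, hbp,
        ← IsScalarTower.algebraMap_smul K b' p, map_smul, hp', Algebra.smul_def, Algebra.smul_def,
        map_mul, ← IsScalarTower.algebraMap_apply, ← IsScalarTower.algebraMap_apply])
  refine ⟨m.natDegree, w, f, g, he, hfm, hfd, fun r hr => ?_, ?_, ?_, hg0, fun τ => ?_, ?_⟩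
  · rw [hf, coeff_scaleRoots, natDegree_integralNormalization, hndeg]
    refine Ideal.mul_mem_left _ _ (Ideal.pow_mem_of_mem _ (Ideal.mem_span_singleton_self t) _ ?_)
    omega
  · exact Ideal.mul_mem_right _ _ (Ideal.mem_span_singleton_self _)
  · ext G
    rw [RingHom.mem_ker, Ideal.mem_span_singleton]
    constructor
    · intro hG
      have h1 : aeval (algebraMap R L w) (G.map (algebraMap A K)) = 0 := by
        rw [aeval_map_algebraMap, aeval_algebraMap_apply]
        have hG' : (aeval w : A[X] →ₐ[A] R) G = 0 := hG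
        rw [hG', map_zero]
      have h2 := minpoly.dvd K _ h1
      rw [← hmin] at h2
      exact (map_dvd_map _ hAK hfm).1 h2
    · rintro ⟨q, rfl⟩
      change (aeval w : A[X] →ₐ[A] R) (f * q) = 0
      rw [map_mul, hfw, zero_mul]
  · obtain ⟨F, hF⟩ := hg τ
    exact ⟨F, by rw [← Algebra.smul_def]; exact hF⟩
  · have hsep : (minpoly K (algebraMap R L w)).Separable := Algebra.IsSeparable.isSeparable K _
    have h1 := hsep.aeval_derivative_ne_zero (minpoly.aeval K (algebraMap R L w))
    rw [← hmin, derivative_map, aeval_map_algebraMap, aeval_algebraMap_apply] at h1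
    intro h2
    exact h1 (by rw [h2, map_zero])

end Field

section
variable {A R : Type} [CommRing A] [CommRing R] [Algebra A R]

theorem tb_prim0 [IsDomain A] [IsDomain R] [Module.Finite A R]
    (hinj : Function.Injective (algebraMap A R)) (s : Set R) (hs : Algebra.adjoin A s = ⊤)
    (h : ∀ x ∈ s, ∃ P : A[X], aeval x P = 0 ∧ aeval x (derivative P) ≠ 0) (t : A) (ht : t ≠ 0) :
    ∃ (e : ℕ) (w : R) (f : A[X]) (g : A), 1 ≤ e ∧ f.Monic ∧ f.natDegree = e ∧
      (∀ r, r < e → f.coeff r ∈ Ideal.span {t}) ∧ w ∈ Ideal.span {algebraMap A R t} ∧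
      RingHom.ker (aeval w : A[X] →ₐ[A] R) = Ideal.span {f} ∧ g ≠ 0 ∧
      (∀ τ : R, ∃ F : A[X], aeval w F = algebraMap A R g * τ) ∧ aeval w (derivative f) ≠ 0 := by
  have : FaithfulSMul A R := (faithfulSMul_iff_algebraMap_injective A R).2 hinj
  let := FractionRing.liftAlgebra A (FractionRing R)
  have := FractionRing.isScalarTower_liftAlgebra A (FractionRing R)
  have : FiniteDimensional (FractionRing A) (FractionRing R) := .of_isLocalization A R A⁰
  have : Algebra.IsSeparable (FractionRing A) (FractionRing R) := tb_isSeparable s hs h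
  exact tb_prim_field (K := FractionRing A) (L := FractionRing R) hinj t ht

/-- lifting a monic polynomial with low coefficients divisible by `t` -/
theorem tb_lift {A' : Type} [CommRing A'] [IsDomain A'] (φ : A →+* A')
    (hφ : Function.Surjective φ) (t : A) (ht : φ t ≠ 0) {e : ℕ} (f' : A'[X]) (hm : f'.Monic)
    (hd : f'.natDegree = e) (hc : ∀ r, r < e → f'.coeff r ∈ Ideal.span {φ t}) :
    ∃ f : A[X], f.Monic ∧ f.natDegree = e ∧ (∀ r, r < e → f.coeff r ∈ Ideal.span {t}) ∧
      f.map φ = f' := by
  have : Nontrivial A := φ.domain_nontrivial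
  have hlt : (f' - X ^ e).degree < (e : WithBot ℕ) := by
    have h1 : f'.degree = (e : WithBot ℕ) := by rw [degree_eq_natDegree hm.ne_zero, hd]
    rw [← h1]
    refine degree_sub_lt_left ?_ hm.ne_zero ?_
    · rw [h1, degree_X_pow]
    · rw [hm.leadingCoeff, leadingCoeff_X_pow]
  have h1 : C (φ t) ∣ f' - X ^ e := by
    rw [C_dvd_iff_dvd_coeff]
    intro r
    by_cases hr : r < e
    · rw [coeff_sub, coeff_X_pow, if_neg hr.ne, sub_zero]
      exact Ideal.mem_span_singleton.1 (hc r hr)
    · rw [coeff_eq_zero_of_degree_lt (hlt.trans_le (by exact_mod_cast not_lt.1 hr))]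
      exact dvd_zero _
  obtain ⟨h', hh'⟩ := h1
  obtain ⟨h, hh, hdeg⟩ := exists_degree_eq_of_mem_lifts (Polynomial.map_surjective φ hφ h')
  have hlt2 : (C t * h).degree < (e : WithBot ℕ) := by
    refine (degree_mul_le _ _).trans_lt ?_
    rw [hh', degree_C_mul ht] at hlt
    calc (C t).degree + h.degree ≤ 0 + h.degree := by gcongr; exact degree_C_le
      _ = h'.degree := by rw [zero_add, hdeg]
      _ < (e : WithBot ℕ) := hlt
  refine ⟨X ^ e + C t * h, monic_X_pow_add hlt2, ?_, fun r hr => ?_, ?_⟩
  · rw [natDegree_add_eq_left_of_degree_lt (by rwa [degree_X_pow]), natDegree_X_pow]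
  · rw [coeff_add, coeff_X_pow, if_neg hr.ne, zero_add, coeff_C_mul]
    exact Ideal.mul_mem_right _ _ (Ideal.mem_span_singleton_self t)
  · rw [Polynomial.map_add, Polynomial.map_pow, map_X, Polynomial.map_mul, map_C, hh, ← hh']
    ring

theorem tb_prim [IsDomain R] [Module.Finite A R] (s : Set R) (hs : Algebra.adjoin A s = ⊤)
    (h : ∀ x ∈ s, ∃ P : A[X], aeval x P = 0 ∧ aeval x (derivative P) ≠ 0) (t : A)
    (ht : algebraMap A R t ≠ 0) :
    ∃ (e : ℕ) (w : R) (f : A[X]) (g : A), 1 ≤ e ∧ f.Monic ∧ f.natDegree = e ∧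
      (∀ r, r < e → f.coeff r ∈ Ideal.span {t}) ∧ w ∈ Ideal.span {algebraMap A R t} ∧
      RingHom.ker (aeval w : A[X] →ₐ[A] R) =
        (RingHom.ker (algebraMap A R)).map C ⊔ Ideal.span {f} ∧ algebraMap A R g ≠ 0 ∧
      (∀ τ : R, ∃ F : A[X], aeval w F = algebraMap A R g * τ) ∧ aeval w (derivative f) ≠ 0 := by
  let A' := A ⧸ RingHom.ker (algebraMap A R)
  let : Algebra A' R := (RingHom.kerLift (algebraMap A R)).toAlgebra
  have hinj : Function.Injective (algebraMap A' R) := RingHom.kerLift_injective _
  have : IsScalarTower A A' R := IsScalarTower.of_algebraMap_eq fun _ => rfl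
  have : IsDomain A' := hinj.isDomain _
  have : Module.Finite A' R := Module.Finite.of_restrictScalars_finite A A' R
  have hsurj : Function.Surjective (algebraMap A A') := Ideal.Quotient.mk_surjective
  have hs' : Algebra.adjoin A' s = ⊤ := by
    rw [eq_top_iff]
    intro r _
    have hr : r ∈ Algebra.adjoin A s := hs ▸ Algebra.mem_top
    have hle : Algebra.adjoin A s ≤ (Algebra.adjoin A' s).restrictScalars A :=
      Algebra.adjoin_le Algebra.subset_adjoin
    exact hle hr
  have ht' : algebraMap A A' t ≠ 0 := by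
    intro h0
    apply ht
    rw [IsScalarTower.algebraMap_apply A A' R, h0, map_zero]
  obtain ⟨e, w, f', g', he, hm, hd, hc, hw, hk, hg, hcond, hsep⟩ :=
    tb_prim0 (A := A') hinj s hs' (fun x hx => by
      obtain ⟨P, h0, h1⟩ := h x hx
      refine ⟨P.map (algebraMap A A'), ?_, ?_⟩
      · rw [aeval_map_algebraMap]; exact h0
      · rw [derivative_map, aeval_map_algebraMap]; exact h1) (algebraMap A A' t) ht'
  obtain ⟨f, hfm, hfd, hfc, hff⟩ := tb_lift (algebraMap A A') hsurj t ht' f' hm hd hc
  obtain ⟨g, rfl⟩ := hsurj g'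
  have hker : RingHom.ker (algebraMap A A') = RingHom.ker (algebraMap A R) := Ideal.mk_ker
  refine ⟨e, w, f, g, he, hfm, hfd, hfc, ?_, ?_, ?_, fun τ => ?_, ?_⟩
  · rw [IsScalarTower.algebraMap_apply A A' R]; exact hw
  · have h1 : RingHom.ker (aeval w : A[X] →ₐ[A] R) =
        (RingHom.ker (aeval w : A'[X] →ₐ[A'] R)).comap (mapRingHom (algebraMap A A')) := by
      ext G
      rw [Ideal.mem_comap, RingHom.mem_ker, RingHom.mem_ker, coe_mapRingHom]
      change aeval w G = 0 ↔ aeval w (G.map _) = 0
      rw [aeval_map_algebraMap]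
    have h2 : Ideal.span {f'} = (Ideal.span {f}).map (mapRingHom (algebraMap A A')) := by
      rw [Ideal.map_span, Set.image_singleton, coe_mapRingHom, hff]
    rw [h1, hk, h2, Ideal.comap_map_of_surjective _ (Polynomial.map_surjective _ hsurj),
      ← RingHom.ker_eq_comap_bot, ker_mapRingHom, hker, sup_comm]
  · rw [IsScalarTower.algebraMap_apply A A' R]
    exact (map_ne_zero_iff _ hinj).2 hg
  · obtain ⟨F', hF'⟩ := hcond τ
    obtain ⟨F, rfl⟩ := Polynomial.map_surjective _ hsurj F'
    refine ⟨F, ?_⟩
    rw [aeval_map_algebraMap] at hF'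
    rw [hF', ← IsScalarTower.algebraMap_apply]
  · rw [← hff, derivative_map, aeval_map_algebraMap] at hsep
    exact hsep

end

end Crest.Agent.R183
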