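import Mathlib

/-! # R183 / TensAuxc : auxiliary lemmas for `Tens` (generic rank, base change). -/

set_option autoImplicit false
open IsLocalRing TensorProduct

namespace Crest.Agent.R183.TensC

variable {A R : Type} [CommRing A] [CommRing R] [Algebra A R]

theorem finrank_le_of_smul_mem [IsDomain A] {M : Type} [AddCommGroup M] [Module A M] {e : ℕ}
    (m : Fin e → M) {g : A} (hg : g ≠ 0) (h : ∀ z : M, g • z ∈ Submodule.span A (Set.range m)) :
    Module.finrank A M ≤ e := by
  classical
  apply Module.finrank_le_of_rank_le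
  apply rank_le
  intro s hs
  have h1 : LinearIndependent A fun i : s => g • (i : M) := by
    rw [Fintype.linearIndependent_iff] at hs ⊢
    intro c hc i
    have := hs (fun i => c i * g) (by simpa only [mul_smul] using hc) i
    exact (mul_eq_zero.1 this).resolve_right hg
  have h2 := linearIndependent_le_span_aux' _ h1 (Set.range m) (by
    rintro _ ⟨i, rfl⟩; exact h _)
  rw [Fintype.card_coe] at h2
  refine h2.trans ?_
  simpa using Fintype.card_range_le m

theorem exists_smul_mem_span [IsDomain A] (M : Type) [AddCommGroup M] [Module A M]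
    [Module.Finite A M] : ∃ (m : Fin (Module.finrank A M) → M) (g : A), g ≠ 0 ∧
      LinearIndependent A m ∧ ∀ z : M, g • z ∈ Submodule.span A (Set.range m) := by
  classical
  obtain ⟨m, hm⟩ := exists_linearIndependent_of_le_finrank (R := A) (M := M) le_rfl
  have h1 : ∀ z : M, ∃ g : A, g ≠ 0 ∧ g • z ∈ Submodule.span A (Set.range m) := by
    intro z
    by_contra hc
    push Not at hc
    have h2 : LinearIndependent A (Fin.cons z m : Fin (Module.finrank A M + 1) → M) := by
      refine LinearIndependent.finCons' z m hm ?_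
      intro c y hy hcy
      by_contra hc0
      refine hc c hc0 ?_
      rw [eq_neg_of_add_eq_zero_left hcy]
      exact Submodule.neg_mem _ hy
    have := h2.fintype_card_le_finrank
    simp at this
  choose G hG0 hG using h1
  obtain ⟨s, hs⟩ := Module.Finite.fg_top (R := A) (M := M)
  refine ⟨m, ∏ z ∈ s, G z, Finset.prod_ne_zero_iff.2 fun z _ => hG0 z, hm, fun z => ?_⟩
  have hz : z ∈ Submodule.span A (s : Set M) := hs ▸ Submodule.mem_top
  induction hz using Submodule.span_induction with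
  | mem x hx =>
    rw [← Finset.prod_erase_mul s G hx, mul_smul]
    exact Submodule.smul_mem _ _ (hG x)
  | zero => simp
  | add x y _ _ hx hy => rw [smul_add]; exact Submodule.add_mem _ hx hy
  | smul a x _ hx => rw [smul_comm]; exact Submodule.smul_mem _ _ hx

theorem finrank_quot_le [IsDomain A] [Module.Finite A R] (I : Ideal R) (a : R) :
    Module.finrank A (R ⧸ I) ≤
      Module.finrank A (R ⧸ (I ⊔ Ideal.span {a})) + Module.finrank A (R ⧸ I.colon {a}) := by
  let φ : (R ⧸ I) →ₗ[A] (R ⧸ (I ⊔ Ideal.span {a})) :=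
    (Ideal.Quotient.factorₐ A (le_sup_left : I ≤ I ⊔ Ideal.span {a})).toLinearMap
  have hφ : Function.Surjective φ := by
    intro y
    obtain ⟨y, rfl⟩ := Ideal.Quotient.mk_surjective y
    exact ⟨Ideal.Quotient.mk I y, rfl⟩
  let μ₀ : (R ⧸ I.colon {a}) →ₗ[R] (R ⧸ I) :=
    Submodule.mapQ (I.colon {a}) I (LinearMap.toSpanSingleton R R a) (by
      intro x hx
      simpa [Submodule.mem_colon_singleton] using hx)
  let μ : (R ⧸ I.colon {a}) →ₗ[A] (R ⧸ I) := μ₀.restrictScalars A
  have hk : LinearMap.ker φ ≤ LinearMap.range μ := by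
    intro x hx
    obtain ⟨x, rfl⟩ := Ideal.Quotient.mk_surjective x
    have h1 : x ∈ I ⊔ Ideal.span {a} := Ideal.Quotient.eq_zero_iff_mem.1 hx
    obtain ⟨y, hy, z, hz, rfl⟩ := Submodule.mem_sup.1 h1
    obtain ⟨c, rfl⟩ := Ideal.mem_span_singleton'.1 hz
    refine ⟨Ideal.Quotient.mk _ c, ?_⟩
    change Ideal.Quotient.mk I (c • a) = _
    rw [map_add, Ideal.Quotient.eq_zero_iff_mem.2 hy, zero_add, smul_eq_mul]
  have h1 := (LinearMap.ker φ).finrank_quotient_add_finrank
  have h2 := (φ.quotKerEquivOfSurjective hφ).finrank_eq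
  have h3 := Submodule.finrank_mono hk
  have h4 := μ.finrank_range_le
  omega

theorem exists_twist_aux [Module.Finite A R] (B : Type) [CommRing B] [IsDomain B] [Algebra A B]
    (hF : Function.Injective (algebraMap A B)) :
    ∃ (R' : Type) (_ : CommRing R') (_ : Algebra B R') (ψ : R →+* R'),
      (∀ a, ψ (algebraMap A R a) = algebraMap B R' (algebraMap A B a)) ∧ Module.Finite B R' ∧
      Submodule.span B (Set.range ψ) = ⊤ ∧ Module.finrank A R ≤ Module.finrank B R' := by
  have : FaithfulSMul A B := (faithfulSMul_iff_algebraMap_injective A B).2 hF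
  refine ⟨B ⊗[A] R, inferInstance, inferInstance,
    (Algebra.TensorProduct.includeRight : R →ₐ[A] B ⊗[A] R).toRingHom, ?_, inferInstance, ?_, ?_⟩
  · intro a
    change (Algebra.TensorProduct.includeRight : R →ₐ[A] B ⊗[A] R) (algebraMap A R a) = _
    rw [AlgHom.commutes, ← IsScalarTower.algebraMap_apply]
  · rw [eq_top_iff]
    intro x hx
    clear hx
    induction x using TensorProduct.induction_on with
    | zero => exact Submodule.zero_mem _
    | tmul b r =>
      have e : b ⊗ₜ[A] r = b • ((1 : B) ⊗ₜ[A] r) := by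
        rw [TensorProduct.smul_tmul', smul_eq_mul, mul_one]
      rw [e]
      exact Submodule.smul_mem _ _ (Submodule.subset_span ⟨r, rfl⟩)
    | add x y hx hy => exact Submodule.add_mem _ hx hy
  · exact (TensorProduct.isBaseChange A R B).finrank_eq.ge

theorem exists_twist_ring [IsDomain A] [Module.Finite A R] (F : A →+* A)
    (hF : Function.Injective F) :
    ∃ (R' : Type) (_ : CommRing R') (_ : Algebra A R') (ψ : R →+* R'),
      (∀ a, ψ (algebraMap A R a) = algebraMap A R' (F a)) ∧ Module.Finite A R' ∧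
      Submodule.span A (Set.range ψ) = ⊤ ∧ Module.finrank A R ≤ Module.finrank A R' :=
  @exists_twist_aux A R _ _ _ _ A _ _ F.toAlgebra hF

theorem twist_local [IsLocalRing A] [IsLocalRing R] [Module.Finite A R]
    (hres : ∀ r, ∃ a, r - algebraMap A R a ∈ maximalIdeal R) {R' : Type} [CommRing R']
    [Nontrivial R'] [Algebra A R'] [Module.Finite A R'] (F : A →+* A)
    (hF : ∀ a ∈ maximalIdeal A, F a ∈ maximalIdeal A) (ψ : R →+* R')
    (hψ : ∀ a, ψ (algebraMap A R a) = algebraMap A R' (F a))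
    (hgen : Submodule.span A (Set.range ψ) = ⊤) :
    (∀ r, ∃ a, r - algebraMap A R' a ∈ (maximalIdeal R).map ψ) ∧
      ∃ _ : IsLocalRing R', (maximalIdeal R).map ψ ≤ maximalIdeal R' := by
  have h1 : ∀ r, ∃ a, r - algebraMap A R' a ∈ (maximalIdeal R).map ψ := by
    intro r
    have hr : r ∈ Submodule.span A (Set.range ψ) := hgen ▸ Submodule.mem_top
    induction hr using Submodule.span_induction with
    | mem x hx =>
      obtain ⟨x, rfl⟩ := hx
      obtain ⟨a, ha⟩ := hres x
      refine ⟨F a, ?_⟩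
      rw [← hψ, ← map_sub]
      exact Ideal.mem_map_of_mem _ ha
    | zero => exact ⟨0, by simp⟩
    | add x y _ _ hx hy =>
      obtain ⟨a, ha⟩ := hx
      obtain ⟨b, hb⟩ := hy
      refine ⟨a + b, ?_⟩
      have := Ideal.add_mem _ ha hb
      rw [map_add]
      convert this using 1
      ring
    | smul c x _ hx =>
      obtain ⟨a, ha⟩ := hx
      refine ⟨c * a, ?_⟩
      rw [map_mul, Algebra.smul_def, ← mul_sub]
      exact Ideal.mul_mem_left _ _ ha
  have h2 : ∀ 𝔫 : Ideal R', 𝔫.IsMaximal → 𝔫.comap (algebraMap A R') = maximalIdeal A := by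
    intro 𝔫 h𝔫
    exact eq_maximalIdeal (Ideal.isMaximal_comap_of_isIntegral_of_isMaximal 𝔫)
  have h3 : ∀ 𝔫 : Ideal R', 𝔫.IsMaximal → (maximalIdeal R).map ψ ≤ 𝔫 := by
    intro 𝔫 h𝔫
    have hp : (𝔫.comap ψ).IsPrime := Ideal.comap_isPrime _ _
    have hle : maximalIdeal A ≤ (𝔫.comap ψ).comap (algebraMap A R) := by
      intro a ha
      rw [Ideal.mem_comap, Ideal.mem_comap, hψ, ← Ideal.mem_comap, h2 𝔫 h𝔫]
      exact hF a ha
    have hne : (𝔫.comap ψ).comap (algebraMap A R) ≠ ⊤ := (Ideal.comap_isPrime _ _).ne_top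
    have hm : ((𝔫.comap ψ).comap (algebraMap A R)).IsMaximal := by
      rw [← (maximalIdeal.isMaximal A).eq_of_le hne hle]
      exact maximalIdeal.isMaximal A
    have := eq_maximalIdeal (Ideal.isMaximal_of_isIntegral_of_isMaximal_comap _ hm)
    rw [Ideal.map_le_iff_le_comap, this]
  have h4 : ∀ 𝔫 𝔫' : Ideal R', 𝔫.IsMaximal → 𝔫'.IsMaximal → 𝔫 = 𝔫' := by
    intro 𝔫 𝔫' h h'
    refine h.eq_of_le h'.ne_top fun r hr => ?_
    obtain ⟨a, ha⟩ := h1 r
    have e1 : algebraMap A R' a ∈ 𝔫 := by
      have := 𝔫.sub_mem hr (h3 𝔫 h ha)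
      simpa using this
    rw [← Ideal.mem_comap, h2 𝔫 h, ← h2 𝔫' h', Ideal.mem_comap] at e1
    have := 𝔫'.add_mem (h3 𝔫' h' ha) e1
    simpa using this
  obtain ⟨𝔫, h𝔫⟩ := Ideal.exists_maximal R'
  have hl : IsLocalRing R' := IsLocalRing.of_unique_max_ideal ⟨𝔫, h𝔫, fun 𝔫' h' => h4 _ _ h' h𝔫⟩
  exact ⟨h1, hl, h3 _ (maximalIdeal.isMaximal R')⟩

end Crest.Agent.R183.TensC
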