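import Mathlib

/-! # R183 / TensAuxd : separability after a Frobenius twist (helper15). -/

set_option autoImplicit false
open Polynomial

namespace Crest.Agent.R183

variable {A R : Type} [CommRing A] [CommRing R] [Algebra A R]

theorem tensd_exists_simple (p : ℕ) [Fact p.Prime] [IsDomain A] [CharP A p]
    (hinj : Function.Injective (algebraMap A R)) (r : R) (hr : IsIntegral A r) :
    ∃ (t : ℕ) (P : A[X]), aeval (r ^ p ^ t) P = 0 ∧ aeval (r ^ p ^ t) (derivative P) ≠ 0 := by
  classical
  have hex : ∃ n, ∃ (t : ℕ) (P : A[X]), P ≠ 0 ∧ P.natDegree = n ∧ aeval (r ^ p ^ t) P = 0 := by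
    obtain ⟨P, hP, h0⟩ := hr
    exact ⟨_, 0, P, hP.ne_zero, rfl, by rw [pow_zero, pow_one]; exact h0⟩
  obtain ⟨t, P, hP, hn, h0⟩ := Nat.find_spec hex
  have hmin : ∀ (t' : ℕ) (Q : A[X]), Q ≠ 0 → aeval (r ^ p ^ t') Q = 0 →
      P.natDegree ≤ Q.natDegree := fun t' Q hQ h => by
    rw [hn]; exact Nat.find_min' hex ⟨t', Q, hQ, rfl, h⟩
  have hp : p.Prime := Fact.out
  have hpos : P.natDegree ≠ 0 := by
    intro h
    rw [eq_C_of_natDegree_eq_zero h, aeval_C] at h0
    refine hP ?_
    rw [eq_C_of_natDegree_eq_zero h, hinj (h0.trans (map_zero _).symm), C_0]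
  have hder : derivative P ≠ 0 := by
    intro h
    have he : expand A p (contract p P) = P := expand_contract p h hp.ne_zero
    have hc : contract p P ≠ 0 := by
      intro h'
      rw [h', map_zero] at he
      exact hP he.symm
    have h1 : aeval (r ^ p ^ (t + 1)) (contract p P) = 0 := by
      rw [pow_succ, pow_mul, ← expand_aeval, he, h0]
    have h2 := hmin _ _ hc h1
    have h3 : P.natDegree = (contract p P).natDegree * p := by
      conv_lhs => rw [← he, natDegree_expand]
    have h4 := hp.two_le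
    have h5 : 0 < P.natDegree := Nat.pos_of_ne_zero hpos
    nlinarith
  refine ⟨t, P, h0, fun h => ?_⟩
  have := hmin _ _ hder h
  have h' := natDegree_derivative_lt hpos
  omega

theorem tensd_aeval_pow (p : ℕ) [Fact p.Prime] [CharP A p] [CharP R p] (t : ℕ) (z : R)
    (Q : A[X]) :
    aeval z Q ^ p ^ t = aeval (z ^ p ^ t) (Q.map (iterateFrobenius A p t)) := by
  have h : (iterateFrobenius R p t).comp (algebraMap A R) =
      (algebraMap A R).comp (iterateFrobenius A p t) := by
    ext a
    simp [iterateFrobenius_def]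
  rw [← iterateFrobenius_def, aeval_def, hom_eval₂, h, aeval_def, eval₂_map, iterateFrobenius_def]

theorem tensd_main (p : ℕ) [Fact p.Prime] [IsDomain A] [CharP A p] [IsDomain R]
    [Module.Finite A R] (hinj : Function.Injective (algebraMap A R)) :
    ∃ s : ℕ, ∀ (R₂ : Type) [CommRing R₂] [IsDomain R₂] [Algebra A R₂],
      Function.Injective (algebraMap A R₂) → ∀ ψ : R →+* R₂,
      (∀ a, ψ (algebraMap A R a) = algebraMap A R₂ (a ^ p ^ s)) →
      Submodule.span A (Set.range ψ) = ⊤ → ∃ s : Set R₂, Algebra.adjoin A s = ⊤ ∧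
        ∀ x ∈ s, ∃ P : A[X], aeval x P = 0 ∧ aeval x (derivative P) ≠ 0 := by
  classical
  obtain ⟨S, hS⟩ : (⊤ : Submodule A R).FG := Module.Finite.fg_top
  choose t P h0 h1 using fun r : R =>
    tensd_exists_simple p hinj r (Algebra.IsIntegral.isIntegral r)
  refine ⟨S.sup t, fun R₂ _ _ _ hinj₂ ψ hψ hspan => ?_⟩
  have hp : p.Prime := Fact.out
  haveI : CharP R₂ p := charP_of_injective_algebraMap hinj₂ p
  have hψinj : Function.Injective ψ := by
    rw [RingHom.injective_iff_ker_eq_bot]
    refine Ideal.eq_bot_of_comap_eq_bot (R := A) ?_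
    refine eq_bot_iff.2 fun a ha => ?_
    rw [Ideal.mem_comap, RingHom.mem_ker, hψ] at ha
    have := hinj₂ (ha.trans (map_zero _).symm)
    exact (Submodule.mem_bot _).2 (pow_eq_zero_iff (pow_ne_zero _ hp.ne_zero) |>.1 this)
  have hcomp : ψ.comp (algebraMap A R) =
      (algebraMap A R₂).comp (iterateFrobenius A p (S.sup t)) := by
    ext a
    simp [iterateFrobenius_def, hψ]
  have hmap : ∀ (y : R) (Q : A[X]),
      ψ (aeval y Q) = aeval (ψ y) (Q.map (iterateFrobenius A p (S.sup t))) := by
    intro y Q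
    rw [aeval_def, hom_eval₂, hcomp, aeval_def, eval₂_map]
  refine ⟨ψ '' S, ?_, ?_⟩
  · refine eq_top_iff.2 fun x _ => ?_
    have hx : x ∈ Submodule.span A (Set.range ψ) := hspan ▸ Submodule.mem_top
    have hsub : Submodule.span A (Set.range ψ) ≤
        Subalgebra.toSubmodule (Algebra.adjoin A (ψ '' S)) := by
      refine Submodule.span_le.2 ?_
      rintro _ ⟨r, rfl⟩
      have hr : r ∈ Submodule.span A (S : Set R) := hS ▸ Submodule.mem_top
      change ψ r ∈ Algebra.adjoin A (ψ '' S)
      induction hr using Submodule.span_induction with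
      | mem y hy => exact Algebra.subset_adjoin ⟨y, hy, rfl⟩
      | zero => rw [map_zero]; exact zero_mem _
      | add y z _ _ hy hz => rw [map_add]; exact add_mem hy hz
      | smul a y _ hy =>
        rw [Algebra.smul_def, map_mul, hψ]
        exact mul_mem (Subalgebra.algebraMap_mem _ _) hy
    exact hsub hx
  · rintro _ ⟨r, hr, rfl⟩
    obtain ⟨d, hd⟩ : ∃ d, S.sup t = t r + d :=
      Nat.exists_eq_add_of_le (Finset.le_sup (f := t) hr)
    have key : ∀ Q : A[X], aeval (ψ r) (Q.map (iterateFrobenius A p d)) ^ p ^ t r =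
        ψ (aeval (r ^ p ^ t r) Q) := by
      intro Q
      rw [tensd_aeval_pow, hmap, map_pow, Polynomial.map_map, hd, iterateFrobenius_add]
    refine ⟨(P r).map (iterateFrobenius A p d), ?_, ?_⟩
    · have := key (P r)
      rw [h0, map_zero] at this
      exact pow_eq_zero_iff (pow_ne_zero _ hp.ne_zero) |>.1 this
    · intro h
      have := key (derivative (P r))
      rw [← derivative_map, h, zero_pow (pow_ne_zero _ hp.ne_zero)] at this
      exact h1 r (hψinj (this.symm.trans (map_zero _).symm))

end Crest.Agent.R183
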