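import Crest.Agent.R183.PS
import Crest.Agent.R183.TensAuxb
import Crest.Agent.R183.TensAuxc
import Crest.Agent.R183.TensAuxd

/-! # R183 / Tens : the ring `𝒜 ⊗[A] R`; primitive elements; Frobenius twist. -/

set_option autoImplicit false
open IsLocalRing Polynomial TensorProduct

namespace Crest.Agent.R183

section Tens
variable {A : Type} (𝒜 : Type) {R : Type} [CommRing A] [CommRing 𝒜] [CommRing R] [Algebra A 𝒜]
  [Algebra A R]

variable (A R) in
noncomputable def iR : R →+* 𝒜 ⊗[A] R :=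
  (Algebra.TensorProduct.includeRight : R →ₐ[A] 𝒜 ⊗[A] R).toRingHom

theorem iR_apply (r : R) : iR A 𝒜 R r = 1 ⊗ₜ r := rfl

theorem iR_alg (a : A) :
    iR A 𝒜 R (algebraMap A R a) = algebraMap 𝒜 (𝒜 ⊗[A] R) (algebraMap A 𝒜 a) := by
  rw [← IsScalarTower.algebraMap_apply]
  exact (Algebra.TensorProduct.includeRight : R →ₐ[A] 𝒜 ⊗[A] R).commutes a

theorem iR_flat [Module.Flat A 𝒜] : (iR A 𝒜 R).Flat := by
  have h1 : (algebraMap R (R ⊗[A] 𝒜)).Flat := RingHom.flat_algebraMap_iff.2 inferInstance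
  have h2 : ((Algebra.TensorProduct.comm A R 𝒜).toRingEquiv.toRingHom).Flat :=
    RingHom.Flat.of_bijective (Algebra.TensorProduct.comm A R 𝒜).bijective
  have h3 := h1.comp h2
  have : iR A 𝒜 R = ((Algebra.TensorProduct.comm A R 𝒜).toRingEquiv.toRingHom).comp
      (algebraMap R (R ⊗[A] 𝒜)) := by
    ext r
    simp [iR_apply]
  rw [this]; exact h3

variable {𝒜}

theorem tensA_tmul (x : 𝒜) (r : R) :
    (x ⊗ₜ r : 𝒜 ⊗[A] R) = algebraMap 𝒜 (𝒜 ⊗[A] R) x * iR A 𝒜 R r := by
  simp [iR_apply, Algebra.TensorProduct.algebraMap_apply]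

/-- make `T'` an `A`-algebra via `f ∘ algebraMap`; `Algebra.TensorProduct.lift`/`productMap`. -/
theorem tens_lift {T' : Type} [CommRing T'] (f : 𝒜 →+* T') (g : R →+* T')
    (h : ∀ a, f (algebraMap A 𝒜 a) = g (algebraMap A R a)) : ∃ ψ : 𝒜 ⊗[A] R →+* T',
      (∀ x, ψ (algebraMap 𝒜 _ x) = f x) ∧ ∀ r, ψ (iR A 𝒜 R r) = g r := by
  let _ : Algebra A T' := (f.comp (algebraMap A 𝒜)).toAlgebra
  let f' : 𝒜 →ₐ[A] T' := { f with commutes' := fun _ => rfl }
  let g' : R →ₐ[A] T' := { g with commutes' := fun a => (h a).symm }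
  refine ⟨(Algebra.TensorProduct.productMap f' g').toRingHom, fun x => ?_, fun r => ?_⟩
  · simp [Algebra.TensorProduct.algebraMap_apply, f']
  · simp [iR_apply, g']

theorem tens_ext {T' : Type} [CommRing T'] {ψ ψ' : 𝒜 ⊗[A] R →+* T'}
    (h1 : ∀ x, ψ (algebraMap 𝒜 _ x) = ψ' (algebraMap 𝒜 _ x))
    (h2 : ∀ r, ψ (iR A 𝒜 R r) = ψ' (iR A 𝒜 R r)) : ψ = ψ' := by
  refine RingHom.ext fun t => ?_
  induction t using TensorProduct.induction_on with
  | zero => simp
  | tmul x r => rw [tensA_tmul, map_mul, map_mul, h1, h2]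
  | add s t hs ht => rw [map_add, map_add, hs, ht]

theorem tens_res {𝔞 : Ideal R} (h : ∀ r, ∃ a, r - algebraMap A R a ∈ 𝔞) (t : 𝒜 ⊗[A] R) :
    ∃ x : 𝒜, t - algebraMap 𝒜 _ x ∈ 𝔞.map (iR A 𝒜 R) := by
  induction t using TensorProduct.induction_on with
  | zero => exact ⟨0, by simp⟩
  | tmul x r =>
    obtain ⟨a, ha⟩ := h r
    refine ⟨x * algebraMap A 𝒜 a, ?_⟩
    rw [tensA_tmul, map_mul, ← iR_alg, ← mul_sub, ← map_sub]
    exact Ideal.mul_mem_left _ _ (Ideal.mem_map_of_mem _ ha)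
  | add s t hs ht =>
    obtain ⟨x, hx⟩ := hs
    obtain ⟨y, hy⟩ := ht
    refine ⟨x + y, ?_⟩
    have := Ideal.add_mem _ hx hy
    rw [map_add]
    convert this using 1
    ring

theorem tensA_res_hom [IsLocalRing A] [IsLocalRing R]
    (hres : ∀ r, ∃ a, r - algebraMap A R a ∈ maximalIdeal R) {L : Type} [CommRing L]
    (f : A →+* L) (hf : ∀ a ∈ maximalIdeal A, f a = 0) :
    ∃ g : R →+* L, (∀ a, g (algebraMap A R a) = f a) ∧ ∀ r ∈ maximalIdeal R, g r = 0 := by
  let φ : A →+* R ⧸ maximalIdeal R := (Ideal.Quotient.mk _).comp (algebraMap A R)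
  have hφ : Function.Surjective φ := by
    intro y
    obtain ⟨r, rfl⟩ := Ideal.Quotient.mk_surjective y
    obtain ⟨a, ha⟩ := hres r
    exact ⟨a, (Ideal.Quotient.eq.2 ha).symm⟩
  have hk : RingHom.ker φ ≤ RingHom.ker f := by
    intro a ha
    refine hf a ?_
    have ha' : algebraMap A R a ∈ maximalIdeal R := Ideal.Quotient.eq_zero_iff_mem.1 ha
    rw [mem_maximalIdeal, mem_nonunits_iff] at ha' ⊢
    exact fun hu => ha' (hu.map _)
  refine ⟨(φ.liftOfSurjective hφ ⟨f, hk⟩).comp (Ideal.Quotient.mk _), fun a => ?_, fun r hr => ?_⟩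
  · exact φ.liftOfSurjective_comp_apply hφ ⟨f, hk⟩ a
  · rw [RingHom.comp_apply, Ideal.Quotient.eq_zero_iff_mem.2 hr, map_zero]

/-- `A/𝔪_A → R/𝔪_R` is bijective, which gives `R → L`; `tens_lift`, `tens_res`. -/
theorem exists_kappa [IsLocalRing A] [IsLocalRing R]
    (hloc : (maximalIdeal A).map (algebraMap A R) ≤ maximalIdeal R)
    (hres : ∀ r, ∃ a, r - algebraMap A R a ∈ maximalIdeal R) {L : Type} [CommRing L]
    (red : 𝒜 →+* L) (hsurj : Function.Surjective red)
    (hker : RingHom.ker red = (maximalIdeal A).map (algebraMap A 𝒜)) :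
    ∃ κ : 𝒜 ⊗[A] R →+* L, (∀ x, κ (algebraMap 𝒜 _ x) = red x) ∧ Function.Surjective κ ∧
      RingHom.ker κ = (maximalIdeal R).map (iR A 𝒜 R) := by
  obtain ⟨g, hg1, hg2⟩ := tensA_res_hom hres (red.comp (algebraMap A 𝒜)) (fun a ha => by
    have : algebraMap A 𝒜 a ∈ RingHom.ker red := hker ▸ Ideal.mem_map_of_mem _ ha
    exact this)
  obtain ⟨κ, h1, h2⟩ := tens_lift (A := A) red g (fun a => (hg1 a).symm)
  have hle : (maximalIdeal R).map (iR A 𝒜 R) ≤ RingHom.ker κ := by
    rw [Ideal.map_le_iff_le_comap]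
    intro r hr
    change κ (iR A 𝒜 R r) = 0
    rw [h2, hg2 r hr]
  refine ⟨κ, h1, fun y => ?_, le_antisymm (fun t ht => ?_) hle⟩
  · obtain ⟨x, rfl⟩ := hsurj y
    exact ⟨_, h1 x⟩
  · obtain ⟨x, hx⟩ := tens_res hres t
    have h3 : κ (t - algebraMap 𝒜 _ x) = 0 := hle hx
    have ht' : κ t = 0 := ht
    rw [map_sub, ht', h1, zero_sub, neg_eq_zero] at h3
    have h4 : x ∈ (maximalIdeal A).map (algebraMap A 𝒜) := hker ▸ h3
    have h5 : ((maximalIdeal A).map (algebraMap A 𝒜)).map (algebraMap 𝒜 (𝒜 ⊗[A] R)) ≤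
        (maximalIdeal R).map (iR A 𝒜 R) := by
      rw [Ideal.map_le_iff_le_comap, Ideal.map_le_iff_le_comap]
      intro a ha
      change algebraMap 𝒜 (𝒜 ⊗[A] R) (algebraMap A 𝒜 a) ∈ (maximalIdeal R).map (iR A 𝒜 R)
      rw [← iR_alg]
      exact Ideal.mem_map_of_mem _ (hloc (Ideal.mem_map_of_mem _ ha))
    have := Ideal.add_mem _ hx (h5 (Ideal.mem_map_of_mem _ h4))
    rwa [sub_add_cancel] at this

/-- every maximal ideal contains `𝔪_𝒜` (finite over `𝒜`) and `𝔪_R` (`max_pow_le_of_finite`); the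
sum is maximal or `⊤` by `tens_res`; it is proper: `exists_kappa`-style map to `𝒜/𝔪_𝒜` by
`tens_lift`. -/
theorem tens_local [IsLocalRing A] [IsLocalRing R] [IsLocalRing 𝒜] [Module.Finite A R]
    (hloc : (maximalIdeal A).map (algebraMap A 𝒜) ≤ maximalIdeal 𝒜)
    (hres : ∀ r, ∃ a, r - algebraMap A R a ∈ maximalIdeal R) :
    ∃ _ : IsLocalRing (𝒜 ⊗[A] R), maximalIdeal (𝒜 ⊗[A] R) =
      (maximalIdeal 𝒜).map (algebraMap 𝒜 _) ⊔ (maximalIdeal R).map (iR A 𝒜 R) := by
  set J : Ideal (𝒜 ⊗[A] R) :=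
    (maximalIdeal 𝒜).map (algebraMap 𝒜 _) ⊔ (maximalIdeal R).map (iR A 𝒜 R) with hJ
  obtain ⟨g, hg1, hg2⟩ := tensA_res_hom hres ((residue 𝒜).comp (algebraMap A 𝒜)) (fun a ha => by
    rw [RingHom.comp_apply, residue_eq_zero_iff]
    exact hloc (Ideal.mem_map_of_mem _ ha))
  obtain ⟨κ, h1, h2⟩ := tens_lift (A := A) (residue 𝒜) g (fun a => (hg1 a).symm)
  have hsurj : Function.Surjective κ := fun y => by
    obtain ⟨x, rfl⟩ := residue_surjective y
    exact ⟨_, h1 x⟩
  have hle : J ≤ RingHom.ker κ := by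
    refine sup_le ?_ ?_
    · rw [Ideal.map_le_iff_le_comap]
      intro x hx
      change κ (algebraMap 𝒜 _ x) = 0
      rw [h1, residue_eq_zero_iff]; exact hx
    · rw [Ideal.map_le_iff_le_comap]
      intro r hr
      change κ (iR A 𝒜 R r) = 0
      rw [h2, hg2 r hr]
  have hker : RingHom.ker κ = J := by
    refine le_antisymm (fun t ht => ?_) hle
    obtain ⟨x, hx⟩ := tens_res hres t
    have hx' : t - algebraMap 𝒜 _ x ∈ J := Ideal.mem_sup_right hx
    have h3 : κ (t - algebraMap 𝒜 _ x) = 0 := hle hx'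
    have ht' : κ t = 0 := ht
    rw [map_sub, ht', h1, zero_sub, neg_eq_zero, residue_eq_zero_iff] at h3
    have := Ideal.add_mem _ hx' (Ideal.mem_sup_left (Ideal.mem_map_of_mem (algebraMap 𝒜 _) h3))
    rwa [sub_add_cancel] at this
  have hJmax : J.IsMaximal := hker ▸ RingHom.ker_isMaximal_of_surjective κ hsurj
  obtain ⟨-, N, hN⟩ := max_pow_le_of_finite (A := A) (R := R)
  have huniq : ∀ M : Ideal (𝒜 ⊗[A] R), M.IsMaximal → M = J := by
    intro M hM
    have hc : (M.comap (algebraMap 𝒜 (𝒜 ⊗[A] R))).IsMaximal :=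
      Ideal.isMaximal_comap_of_isIntegral_of_isMaximal M
    have hc' := eq_maximalIdeal hc
    have ha : (maximalIdeal 𝒜).map (algebraMap 𝒜 (𝒜 ⊗[A] R)) ≤ M := by
      rw [Ideal.map_le_iff_le_comap, hc']
    have hb : (maximalIdeal R).map (iR A 𝒜 R) ≤ M := by
      refine hM.isPrime.le_of_pow_le (n := N) ?_
      rw [← Ideal.map_pow]
      refine (Ideal.map_mono hN).trans ?_
      rw [Ideal.map_le_iff_le_comap, Ideal.map_le_iff_le_comap]
      intro a haa
      change iR A 𝒜 R (algebraMap A R a) ∈ M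
      rw [iR_alg]
      exact ha (Ideal.mem_map_of_mem _ (hloc (Ideal.mem_map_of_mem _ haa)))
    exact (hJmax.eq_of_le hM.ne_top (sup_le ha hb)).symm
  have hlocal : IsLocalRing (𝒜 ⊗[A] R) := of_unique_max_ideal ⟨J, hJmax, huniq⟩
  exact ⟨hlocal, (eq_maximalIdeal hJmax).symm⟩

theorem tens_aeval (w : R) (F : A[X]) :
    aeval (iR A 𝒜 R w) (F.map (algebraMap A 𝒜)) = iR A 𝒜 R (aeval w F) := by
  rw [aeval_map_algebraMap]
  exact aeval_algHom_apply (Algebra.TensorProduct.includeRight : R →ₐ[A] 𝒜 ⊗[A] R) w F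

/-- `Module.Flat.lTensor_exact` for `ker → (Fin (n+1) → A) → R`, `e i ↦ w^i`; or `polyEquivTensor`. -/
theorem tens_ker [Module.Flat A 𝒜] (w : R) :
    RingHom.ker (aeval (iR A 𝒜 R w) : 𝒜[X] →ₐ[𝒜] 𝒜 ⊗[A] R) =
      (RingHom.ker (aeval w : A[X] →ₐ[A] R)).map (mapRingHom (algebraMap A 𝒜)) := by
  refine le_antisymm (fun F hF => ?_) ?_
  · let g : A[X] →ₗ[A] R := (aeval w : A[X] →ₐ[A] R).toLinearMap
    have hex := Module.Flat.lTensor_exact 𝒜 (LinearMap.exact_subtype_ker_map g)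
    have key : ∀ t : 𝒜 ⊗[A] A[X],
        aeval (iR A 𝒜 R w) ((polyEquivTensor A 𝒜).symm t) = g.lTensor 𝒜 t := by
      intro t
      induction t using TensorProduct.induction_on with
      | zero => simp
      | tmul x p =>
        rw [polyEquivTensor_symm_apply_tmul_eq_smul, map_smul, tens_aeval, LinearMap.lTensor_tmul,
          tensA_tmul, Algebra.smul_def]
        rfl
      | add s t hs ht => rw [map_add, map_add, map_add, hs, ht]
    have h0 : g.lTensor 𝒜 (polyEquivTensor A 𝒜 F) = 0 := by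
      rw [← key, AlgEquiv.symm_apply_apply]; exact hF
    obtain ⟨s, hs⟩ := (hex _).1 h0
    have hF' : F = (polyEquivTensor A 𝒜).symm ((LinearMap.ker g).subtype.lTensor 𝒜 s) := by
      rw [hs, AlgEquiv.symm_apply_apply]
    rw [hF']
    clear hs hF'
    induction s using TensorProduct.induction_on with
    | zero => simp
    | tmul x p =>
      rw [LinearMap.lTensor_tmul, polyEquivTensor_symm_apply_tmul_eq_smul, Algebra.smul_def]
      exact Ideal.mul_mem_left _ _ (Ideal.mem_map_of_mem (mapRingHom (algebraMap A 𝒜)) p.2)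
    | add s t hs ht => rw [map_add, map_add]; exact Ideal.add_mem _ hs ht
  · rw [Ideal.map_le_iff_le_comap]
    intro F hF
    change aeval (iR A 𝒜 R w) (F.map (algebraMap A 𝒜)) = 0
    have hF' : aeval w F = 0 := hF
    rw [tens_aeval, hF', map_zero]

theorem tens_cond (w : R) (g : A) (h : ∀ τ : R, ∃ F : A[X], aeval w F = algebraMap A R g * τ)
    (τ : 𝒜 ⊗[A] R) : ∃ F : 𝒜[X],
      aeval (iR A 𝒜 R w) F = algebraMap 𝒜 _ (algebraMap A 𝒜 g) * τ := by
  induction τ using TensorProduct.induction_on with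
  | zero => exact ⟨0, by simp⟩
  | tmul x r =>
    obtain ⟨F, hF⟩ := h r
    refine ⟨C x * F.map (algebraMap A 𝒜), ?_⟩
    rw [map_mul, aeval_C, tens_aeval, hF, map_mul, iR_alg, tensA_tmul]
    ring
  | add s t hs ht =>
    obtain ⟨F, hF⟩ := hs
    obtain ⟨G, hG⟩ := ht
    exact ⟨F + G, by rw [map_add, hF, hG, mul_add]⟩

end Tens

section Prim
variable {A R : Type} [CommRing A] [CommRing R] [Algebra A R]

variable (A R) in
/-- `R` is generated by simple roots -/
def SepGen : Prop := ∃ s : Set R, Algebra.adjoin A s = ⊤ ∧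
  ∀ x ∈ s, ∃ P : A[X], aeval x P = 0 ∧ aeval x (derivative P) ≠ 0

/-- take `P` with `aeval x P = 0`, `P.map (algebraMap A R) ≠ 0` and `(P.map _).natDegree` minimal. -/
theorem sepGen_of_charZero [IsDomain R] [CharZero R] [Algebra.IsIntegral A R] : SepGen A R :=
  ⟨Set.univ, Algebra.adjoin_univ A R, fun x _ => tb_sepGen x⟩

variable (A) in
/-- primitive element data -/
structure PrimData (t : A) (e : ℕ) (w : R) (f : A[X]) (g : A) : Prop where
  he : 1 ≤ e
  mon : f.Monic
  deg : f.natDegree = e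
  coeff : ∀ r, r < e → f.coeff r ∈ Ideal.span {t}
  mem : w ∈ Ideal.span {algebraMap A R t}
  ker : RingHom.ker (aeval w : A[X] →ₐ[A] R) =
    (RingHom.ker (algebraMap A R)).map C ⊔ Ideal.span {f}
  ne : algebraMap A R g ≠ 0
  cond : ∀ τ : R, ∃ F : A[X], aeval w F = algebraMap A R g * τ
  sep : aeval w (derivative f) ≠ 0

/-- `K = FractionRing A`, `K₁ = FractionRing R` finite separable (generated by separable elements:
`IsSeparable` from a simple root via `minpoly.dvd`, `separableClosure`/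
`IntermediateField.isSeparable_adjoin_iff_isSeparable`); `Field.exists_primitive_element`; scale into
`R`; `w = t c r` with `c` a common denominator of `minpoly K r` (`Polynomial.scaleRoots`,
`IsLocalization.integerNormalization`); division by the monic `f` for `ker`. -/
theorem exists_prim0 [IsDomain A] [IsDomain R] [Module.Finite A R]
    (hinj : Function.Injective (algebraMap A R)) (hsep : SepGen A R) (t : A) (ht : t ≠ 0) :
    ∃ e w f g, PrimData A (R := R) t e w f g := by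
  obtain ⟨s, hs, h⟩ := hsep
  obtain ⟨e, w, f, g, h1, h2, h3, h4, h5, h6, h7, h8, h9⟩ :=
    tb_prim s hs h t ((map_ne_zero_iff _ hinj).2 ht)
  exact ⟨e, w, f, g, h1, h2, h3, h4, h5, h6, h7, h8, h9⟩

/-- apply `exists_prim0` to `A ⧸ ker` (algebra structure from `RingHom.kerLift`) and lift `f`
(`lifts_and_natDegree_eq_and_monic` after writing the low coefficients as multiples of `t`:
`f = X^e + ∑ C (t * c r) X^r`). -/
theorem exists_prim [IsDomain R] [Module.Finite A R] (hsep : SepGen A R) (t : A)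
    (ht : algebraMap A R t ≠ 0) : ∃ e w f g, PrimData A (R := R) t e w f g := by
  obtain ⟨s, hs, h⟩ := hsep
  obtain ⟨e, w, f, g, h1, h2, h3, h4, h5, h6, h7, h8, h9⟩ := tb_prim s hs h t ht
  exact ⟨e, w, f, g, h1, h2, h3, h4, h5, h6, h7, h8, h9⟩

/-- `modByMonic`. -/
theorem PrimData.smul_mem {t : A} {e : ℕ} {w : R} {f : A[X]} {g : A} (h : PrimData A t e w f g)
    (τ : R) : g • τ ∈ Submodule.span A (Set.range fun i : Fin e => w ^ (i : ℕ)) := by
  obtain ⟨F, hF⟩ := h.cond τ
  have hf : f ∈ RingHom.ker (aeval w : A[X] →ₐ[A] R) := by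
    rw [h.ker]
    exact Ideal.mem_sup_right (Ideal.mem_span_singleton_self f)
  rw [Algebra.smul_def, ← hF]
  exact tb_smul_mem h.he h.mon h.deg hf F

theorem finrank_le_of_smul_mem [IsDomain A] {M : Type} [AddCommGroup M] [Module A M] {e : ℕ}
    (m : Fin e → M) {g : A} (hg : g ≠ 0) (h : ∀ z : M, g • z ∈ Submodule.span A (Set.range m)) :
    Module.finrank A M ≤ e := by
  exact TensC.finrank_le_of_smul_mem m hg h

/-- a maximal linearly independent family (`exists_linearIndependent_of_le_finrank`-type lemma, or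
`Module.finrank` + `LinearIndependent.fintype_card_le_finrank`) and a common multiplier. -/
theorem exists_smul_mem_span [IsDomain A] (M : Type) [AddCommGroup M] [Module A M]
    [Module.Finite A M] : ∃ (m : Fin (Module.finrank A M) → M) (g : A), g ≠ 0 ∧
      LinearIndependent A m ∧ ∀ z : M, g • z ∈ Submodule.span A (Set.range m) := by
  exact TensC.exists_smul_mem_span M

/-- `0 → R/(I : a) → R/I → R/(I + a) → 0` (`Submodule.finrank_quotient_add_finrank`, or rank-nullity). -/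
theorem finrank_quot_le [IsDomain A] [Module.Finite A R] (I : Ideal R) (a : R) :
    Module.finrank A (R ⧸ I) ≤
      Module.finrank A (R ⧸ (I ⊔ Ideal.span {a})) + Module.finrank A (R ⧸ I.colon {a}) := by
  exact TensC.finrank_quot_le I a

/-- FROBENIUS TWIST `R' = A ⊗_{F, A} R` (use a type synonym of `A` with algebra structure `F`).  For
the rank: `exists_smul_mem_span` gives an `A`-linear `λ : R → (Fin e → A)` with `λ (m i) = g e_i`; its
base change has `λ' (ψ (m i)) = F g • e_i`, so the `ψ (m i)` are independent. -/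
theorem exists_twist_ring [IsDomain A] [Module.Finite A R] (F : A →+* A)
    (hF : Function.Injective F) :
    ∃ (R' : Type) (_ : CommRing R') (_ : Algebra A R') (ψ : R →+* R'),
      (∀ a, ψ (algebraMap A R a) = algebraMap A R' (F a)) ∧ Module.Finite A R' ∧
      Submodule.span A (Set.range ψ) = ⊤ ∧ Module.finrank A R ≤ Module.finrank A R' := by
  exact TensC.exists_twist_ring F hF

/-- every maximal ideal contains `𝔪_A R'` and `ψ 𝔪_R`; `R' = A + ψ(𝔪_R) R'`. -/
theorem twist_local [IsLocalRing A] [IsLocalRing R] [Module.Finite A R]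
    (hres : ∀ r, ∃ a, r - algebraMap A R a ∈ maximalIdeal R) {R' : Type} [CommRing R']
    [Nontrivial R'] [Algebra A R'] [Module.Finite A R'] (F : A →+* A)
    (hF : ∀ a ∈ maximalIdeal A, F a ∈ maximalIdeal A) (ψ : R →+* R')
    (hψ : ∀ a, ψ (algebraMap A R a) = algebraMap A R' (F a))
    (hgen : Submodule.span A (Set.range ψ) = ⊤) :
    (∀ r, ∃ a, r - algebraMap A R' a ∈ (maximalIdeal R).map ψ) ∧
      ∃ _ : IsLocalRing R', (maximalIdeal R).map ψ ≤ maximalIdeal R' := by
  exact TensC.twist_local hres F hF ψ hψ hgen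

/-- for a generator `r`, `minpoly K r = expand (p^t) P₀` with `P₀` separable
(`Irreducible.hasSeparableContraction`, `exists_separable_of_irreducible`); clear denominators:
`P (r^(p^t)) = 0`, `U P + V P' = C c`, `c ≠ 0`.  Apply `ψ`; `map_expand_pow_char`-type identity
`(P.map Fr^(s-t))^(p^t) = expand (p^t) (P.map Fr^s)`. -/
theorem exists_frob_sep (p : ℕ) [Fact p.Prime] [IsDomain A] [CharP A p] [IsDomain R]
    [Module.Finite A R] (hinj : Function.Injective (algebraMap A R)) :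
    ∃ s : ℕ, ∀ (R₂ : Type) [CommRing R₂] [IsDomain R₂] [Algebra A R₂],
      Function.Injective (algebraMap A R₂) → ∀ ψ : R →+* R₂,
      (∀ a, ψ (algebraMap A R a) = algebraMap A R₂ (a ^ p ^ s)) →
      Submodule.span A (Set.range ψ) = ⊤ → SepGen A R₂ :=
  tensd_main p hinj

end Prim

section Norm

/-- numerators of almost integral fractions with denominator `g` -/
def tense_AI {P : Type} [CommRing P] [IsDomain P] (g : P) : Ideal P where
  carrier := {r | ∃ d ≠ 0, ∀ n : ℕ, g ^ n ∣ d * r ^ n}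
  zero_mem' := ⟨1, one_ne_zero, fun n => by cases n <;> simp⟩
  add_mem' := by
    rintro r s ⟨d, hd, h⟩ ⟨e, he, h'⟩
    refine ⟨d * e, mul_ne_zero hd he, fun n => ?_⟩
    rw [add_pow, Finset.mul_sum]
    refine Finset.dvd_sum fun k hk => ?_
    have hk' : k ≤ n := Nat.lt_succ_iff.1 (Finset.mem_range.1 hk)
    have := (mul_dvd_mul (h k) (h' (n - k))).mul_right (n.choose k : P)
    rw [← pow_add, Nat.add_sub_cancel' hk'] at this
    convert this using 1
    ring
  smul_mem' := by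
    rintro s r ⟨d, hd, h⟩
    refine ⟨d, hd, fun n => ?_⟩
    have := (h n).mul_right (s ^ n)
    convert this using 1
    rw [smul_eq_mul]
    ring

theorem tense_mem_AI {P : Type} [CommRing P] [IsDomain P] {g r : P} :
    r ∈ tense_AI g ↔ ∃ d ≠ 0, ∀ n : ℕ, g ^ n ∣ d * r ^ n := Iff.rfl

theorem tense_dvd_of_AI {B : Type} [CommRing B] [IsDomain B] [IsNoetherianRing B]
    [IsIntegrallyClosed B] {g r : B} (hg : g ≠ 0) (h : r ∈ tense_AI g) : g ∣ r := by
  obtain ⟨d, hd, h⟩ := h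
  have hinj := IsFractionRing.injective B (FractionRing B)
  have hg' : algebraMap B (FractionRing B) g ≠ 0 := (map_ne_zero_iff _ hinj).2 hg
  have h1 : IsAlmostIntegral B (algebraMap B (FractionRing B) r / algebraMap B _ g) := by
    refine ⟨d, mem_nonZeroDivisors_of_ne_zero hd, fun n => ?_⟩
    obtain ⟨e, he⟩ := h n
    refine ⟨e, ?_⟩
    rw [Algebra.smul_def, div_pow, ← mul_div_assoc, eq_div_iff (pow_ne_zero n hg'), ← map_pow,
      ← map_pow, ← map_mul, ← map_mul, he, mul_comm]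
  obtain ⟨c, hc⟩ := IsIntegrallyClosed.isIntegral_iff.1 h1.isIntegral
  refine ⟨c, hinj ?_⟩
  rw [map_mul, hc, mul_div_cancel₀ _ hg']

theorem tense_of_AI {P : Type} [CommRing P] [IsDomain P]
    (h : ∀ g r : P, g ≠ 0 → r ∈ tense_AI g → g ∣ r) : IsIntegrallyClosed P := by
  have hinj := IsFractionRing.injective P (FractionRing P)
  refine (isIntegrallyClosed_iff (FractionRing P)).2 fun {x} hx => ?_
  obtain ⟨r, g, hg, rfl⟩ := IsFractionRing.div_surjective (A := P) x
  have hg0 : g ≠ 0 := nonZeroDivisors.ne_zero hg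
  have hg' : algebraMap P (FractionRing P) g ≠ 0 := (map_ne_zero_iff _ hinj).2 hg0
  obtain ⟨d, hd, h1⟩ := hx.isAlmostIntegral
  obtain ⟨c, rfl⟩ := h g r hg0 ⟨d, nonZeroDivisors.ne_zero hd, fun n => by
    obtain ⟨e, he⟩ := h1 n
    refine ⟨e, hinj ?_⟩
    rw [Algebra.smul_def, div_pow, ← mul_div_assoc, eq_div_iff (pow_ne_zero n hg')] at he
    rw [map_mul, map_mul, map_pow, map_pow, ← he, mul_comm]⟩
  exact ⟨c, by rw [map_mul, mul_div_cancel_left₀ _ hg']⟩

theorem tense_cancel {P : Type} [CommRing P] [IsDomain P] {x g y : P} (hx : Prime x) (hg : ¬x ∣ g)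
    {n k : ℕ} (h : g ^ n ∣ x ^ k * y) : g ^ n ∣ y := by
  obtain ⟨e, he⟩ := h
  obtain ⟨e', rfl⟩ := hx.pow_dvd_of_dvd_mul_left k (fun h' => hg (hx.dvd_of_dvd_pow h'))
    ⟨y, he.symm⟩
  refine ⟨e', mul_left_cancel₀ (pow_ne_zero k hx.ne_zero) ?_⟩
  rw [he]
  ring

theorem tense_dvd_of_const {B : Type} [CommRing B] [IsDomain B] [IsNoetherianRing B]
    [IsIntegrallyClosed B] {g : PowerSeries B} (hg : PowerSeries.constantCoeff g ≠ 0) :
    tense_AI g ≤ Ideal.span {g} := by
  have hX : Prime (PowerSeries.X : PowerSeries B) := PowerSeries.X_prime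
  have hg' : ¬PowerSeries.X ∣ g := fun h => hg (PowerSeries.X_dvd_iff.1 h)
  refine Submodule.le_of_le_smul_of_le_jacobson_bot (I := Ideal.span {PowerSeries.X})
    (IsNoetherian.noetherian _) ?_ fun r hr => ?_
  · rw [Ideal.span_singleton_le_iff_mem, Ideal.mem_jacobson_bot]
    intro y
    rw [PowerSeries.isUnit_iff_constantCoeff]
    simp
  · obtain ⟨c, hc⟩ : PowerSeries.constantCoeff g ∣ PowerSeries.constantCoeff r := by
      obtain ⟨d, hd, h⟩ := hr
      refine tense_dvd_of_AI hg ⟨PowerSeries.constantCoeff d.divXPowOrder,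
        fun h0 => hd (PowerSeries.constantCoeff_divXPowOrder_eq_zero_iff.1 h0), fun n => ?_⟩
      have h1 := h n
      rw [← PowerSeries.X_pow_order_mul_divXPowOrder (f := d), mul_assoc] at h1
      have h2 := map_dvd PowerSeries.constantCoeff (tense_cancel hX hg' h1)
      rwa [map_mul, map_pow, map_pow] at h2
    obtain ⟨r', hr'⟩ : PowerSeries.X ∣ r - g * PowerSeries.C c := by
      rw [PowerSeries.X_dvd_iff]
      simp [hc]
    have h1 : PowerSeries.X * r' ∈ tense_AI g := by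
      rw [← hr']
      exact Ideal.sub_mem _ hr (Ideal.mul_mem_right _ _ ⟨1, one_ne_zero, fun n => by simp⟩)
    have h2 : r' ∈ tense_AI g := by
      obtain ⟨d, hd, h⟩ := h1
      refine ⟨d, hd, fun n => tense_cancel hX hg' (k := n) ?_⟩
      convert h n using 1
      ring
    rw [eq_add_of_sub_eq' hr']
    exact Submodule.add_mem_sup (Ideal.mul_mem_right _ _ (Ideal.mem_span_singleton_self g))
      (Submodule.smul_mem_smul (Ideal.mem_span_singleton_self _) h2)

theorem tense_dvd_X_pow {B : Type} [CommRing B] [IsDomain B] [IsNoetherianRing B]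
    [IsIntegrallyClosed B] {g : PowerSeries B} (hg : PowerSeries.constantCoeff g ≠ 0) (b : ℕ) :
    ∀ r ∈ tense_AI (PowerSeries.X ^ b * g), PowerSeries.X ^ b * g ∣ r := by
  have hX : Prime (PowerSeries.X : PowerSeries B) := PowerSeries.X_prime
  induction b with
  | zero =>
    intro r hr
    rw [pow_zero, one_mul] at hr ⊢
    exact Ideal.mem_span_singleton.1 (tense_dvd_of_const hg hr)
  | succ b ih =>
    rintro r ⟨d, hd, h⟩
    rw [pow_succ', mul_assoc] at h ⊢
    obtain ⟨r', rfl⟩ : PowerSeries.X ∣ r := by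
      by_contra hr
      apply hd
      ext n
      have h1 : PowerSeries.X ^ (n + 1) ∣ d * r ^ (n + 1) :=
        (pow_dvd_pow_of_dvd (dvd_mul_right _ _) _).trans (h (n + 1))
      have h2 := hX.pow_dvd_of_dvd_mul_right (n + 1) (fun h' => hr (hX.dvd_of_dvd_pow h')) h1
      rw [PowerSeries.X_pow_dvd_iff.1 h2 n (Nat.lt_succ_self n), map_zero]
    refine mul_dvd_mul_left _ (ih r' ⟨d, hd, fun n => ?_⟩)
    have h1 := h n
    rw [mul_pow, mul_pow PowerSeries.X r', mul_left_comm] at h1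
    exact (mul_dvd_mul_iff_left (pow_ne_zero n hX.ne_zero)).1 h1

/-- let `x = f/g` be integral, so `d x^n ∈ B⟦X⟧` for all `n` with `d ≠ 0` fixed, also for all
`x - s`, `s ∈ B⟦X⟧` (`d · B⟦X⟧[x] ⊆ B⟦X⟧`).  If `f = g s + r`, `r ≠ 0` of order `m`: `d r^n = g^n e_n`;
orders give `m ≥ order g`, lowest coefficients show `r_m / g_{m'}` is almost integral
(`IsAlmostIntegral.isIntegral`), hence in `B`; so the order of `r` can be raised.  Krull intersection
(`Ideal.iInf_pow_smul_eq_bot_of_le_jacobson` in the quotient, or sum the series) gives `g ∣ f`. -/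
theorem powerSeries_isIntegrallyClosed (B : Type) [CommRing B] [IsDomain B] [IsNoetherianRing B]
    [IsIntegrallyClosed B] : IsIntegrallyClosed (PowerSeries B) := by
  refine tense_of_AI fun g r hg hr => ?_
  rw [← PowerSeries.X_pow_order_mul_divXPowOrder (f := g)] at hr ⊢
  exact tense_dvd_X_pow
    (fun h0 => hg (PowerSeries.constantCoeff_divXPowOrder_eq_zero_iff.1 h0)) _ r hr

instance PS.isDomain (n : ℕ) (B : Type) [CommRing B] [IsDomain B] : IsDomain (PS n B) :=
  NoZeroDivisors.to_isDomain _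

/-- induction via `MvPowerSeries.finSuccEquiv`, `isEmptyEquiv`, `IsIntegrallyClosed.of_equiv`. -/
theorem PS.isIntegrallyClosed (n : ℕ) (B : Type) [CommRing B] [IsDomain B] [IsNoetherianRing B]
    [IsIntegrallyClosed B] : IsIntegrallyClosed (PS n B) := by
  induction n with
  | zero => exact IsIntegrallyClosed.of_equiv (MvPowerSeries.isEmptyEquiv (Fin 0) B).symm.toRingEquiv
  | succ n ih =>
    have := powerSeries_isIntegrallyClosed (PS n B)
    exact IsIntegrallyClosed.of_equiv (MvPowerSeries.finSuccEquiv B n).symm.toRingEquiv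

/-- `C⟦X₁..X_d⟧ → C⟦X₀..X_d⟧` -/
noncomputable def incl (d : ℕ) (C₀ : Type) [CommRing C₀] : PS d C₀ →+* PS (d + 1) C₀ :=
  (MvPowerSeries.finSuccEquiv C₀ d).symm.toRingEquiv.toRingHom.comp PowerSeries.C

theorem incl_X {d : ℕ} {C₀ : Type} [CommRing C₀] (i : Fin d) :
    incl d C₀ (MvPowerSeries.X i) = MvPowerSeries.X i.succ := by
  change (MvPowerSeries.finSuccEquiv C₀ d).symm (PowerSeries.C (MvPowerSeries.X i)) = _
  rw [AlgEquiv.symm_apply_eq, MvPowerSeries.finSuccEquiv_X_succ]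

theorem incl_C {d : ℕ} {C₀ : Type} [CommRing C₀] (x : C₀) :
    incl d C₀ (MvPowerSeries.C x) = MvPowerSeries.C x := by
  change (MvPowerSeries.finSuccEquiv C₀ d).symm (PowerSeries.C (MvPowerSeries.C x)) = _
  rw [AlgEquiv.symm_apply_eq, MvPowerSeries.finSuccEquiv_C]

theorem tensf_ker {A R : Type} [CommRing A] [IsDomain A] [IsIntegrallyClosed A] [IsLocalRing A]
    [IsAdicComplete (maximalIdeal A) A] [CommRing R] [IsDomain R] [CharZero R]
    (Φ : PowerSeries A →+* R) (hfin : (Φ.comp PowerSeries.C).Finite)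
    (hinj : Function.Injective (Φ.comp PowerSeries.C)) :
    ∃ m : PowerSeries A, RingHom.ker Φ = Ideal.span {m} ∧ Φ (PowerSeries.derivative A m) ≠ 0 := by
  let _ := (Φ.comp PowerSeries.C).toAlgebra
  have : Module.Finite A R := hfin
  have : Module.IsTorsionFree A R := Module.isTorsionFree_iff_algebraMap_injective.2 hinj
  have : CharZero A := (Φ.comp PowerSeries.C).charZero
  have hp : ∀ p : A[X], Φ p = aeval (Φ PowerSeries.X) p := fun p =>
    RingHom.congr_fun (Polynomial.ringHom_ext (f := Φ.comp coeToPowerSeries.ringHom)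
      (g := (aeval (Φ PowerSeries.X) : A[X] →ₐ[A] R).toRingHom) (fun a => by simp; rfl) (by simp)) p
  have hx : IsIntegral A (Φ PowerSeries.X) := Algebra.IsIntegral.isIntegral _
  have hm := minpoly.monic hx
  refine ⟨minpoly A (Φ PowerSeries.X), le_antisymm (fun f hf => ?_) ?_, fun h => ?_⟩
  · obtain ⟨q, r, -, H⟩ := PowerSeries.exists_isWeierstrassDivision f
      (g := minpoly A (Φ PowerSeries.X)) (by
        rw [← Polynomial.polynomial_map_coe, Ne, Polynomial.coe_eq_zero_iff]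
        exact (hm.map _).ne_zero)
    have h1 : aeval (Φ PowerSeries.X) r = 0 := by
      have := congrArg Φ H
      rwa [hf, map_add, map_mul, hp, hp, minpoly.aeval, zero_mul, zero_add, eq_comm] at this
    obtain ⟨r', rfl⟩ := minpoly.isIntegrallyClosed_dvd hx h1
    rw [H, Polynomial.coe_mul, ← mul_add]
    exact Ideal.mul_mem_right _ _ (Ideal.mem_span_singleton_self _)
  · rw [Ideal.span_singleton_le_iff_mem, RingHom.mem_ker, hp, minpoly.aeval]
  · rw [PowerSeries.derivative_coe, hp] at h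
    have h1 := eq_zero_of_dvd_of_degree_lt (minpoly.isIntegrallyClosed_dvd hx h)
      (degree_derivative_lt hm.ne_zero)
    exact (minpoly.natDegree_pos hx).ne' (derivative_eq_zero.1 h1)

theorem tensf_pderiv {C₀ : Type} [CommRing C₀] {d : ℕ} (h : PS (d + 1) C₀) :
    MvPowerSeries.finSuccEquiv C₀ d (MvPowerSeries.pderiv C₀ 0 h) =
      PowerSeries.derivative _ (MvPowerSeries.finSuccEquiv C₀ d h) := by
  ext k x
  have e : x.cons k + Finsupp.single 0 1 = x.cons (k + 1) := by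
    ext i
    refine Fin.cases ?_ (fun i => ?_) i <;> simp
  have e' : ((k : PS d C₀) + 1) = MvPowerSeries.C ((k : C₀) + 1) := by simp
  rw [PowerSeries.coeff_derivative, e', MvPowerSeries.coeff_mul_C,
    MvPowerSeries.coeff_coeff_finSuccEquiv, MvPowerSeries.coeff_coeff_finSuccEquiv,
    MvPowerSeries.coeff_pderiv, e, Finsupp.cons_zero]

/-- `m = minpoly A₀ x₀` (`A₀ = PS d C₀` normal, `minpoly.isIntegrallyClosed_dvd`) is distinguished at
`𝔪_{A₀}`: `x₀^N ∈ 𝔪_{A₀} R` (`max_pow_le_of_finite`), `IntOver.of_reduction` with `o = 0` gives a monic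
`P ≡ X^M`, `m ∣ P.comp (X^N)`.  Weierstrass division (`IsDistinguishedAt.isWeierstrassDivisorAt'`,
`isWeierstrassDivisionAt_div_mod`) gives `ker = (m)`.  The constant term `c₀ ∈ 𝔪_C` is nonzero
(else `ker ≤ XP`, and `IntOver.of_reduction` for `π^N` forces `π` nilpotent); `Coef.exists_eq`;
normalise by the unit.  `∂₀ m = derivative m`, of smaller degree and nonzero in char `0`. -/
theorem exists_h {C₀ R : Type} [CommRing C₀] [Coef C₀] {π : C₀}
    (hπ : maximalIdeal C₀ = Ideal.span {π}) (hπ0 : π ≠ 0) {d : ℕ} [CommRing R] [IsDomain R]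
    [IsLocalRing R] [CharZero R] (ev : PS (d + 1) C₀ →+* R) (hfin : (ev.comp (incl d C₀)).Finite)
    (hinj : Function.Injective (ev.comp (incl d C₀)))
    (hx : ev (MvPowerSeries.X 0) ∈ maximalIdeal R)
    (hN : ∃ N, ev (MvPowerSeries.C π) ^ N ∈ (XP (d + 1) C₀).map ev) :
    ∃ (h : PS (d + 1) C₀) (a : ℕ), 1 ≤ a ∧ RingHom.ker ev = Ideal.span {h} ∧
      h - MvPowerSeries.C (π ^ a) ∈ XP (d + 1) C₀ ∧ ev (MvPowerSeries.pderiv C₀ 0 h) ≠ 0 := by
  have : IsIntegrallyClosed (PS d C₀) := PS.isIntegrallyClosed d C₀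
  let e := (MvPowerSeries.finSuccEquiv C₀ d).toRingEquiv
  obtain ⟨m, hm, hm'⟩ := tensf_ker (ev.comp e.symm.toRingHom) hfin hinj
  have hk : RingHom.ker ev = Ideal.span {e.symm m} := by
    ext f
    rw [Ideal.mem_span_singleton, ← map_dvd_iff e, e.apply_symm_apply, ← Ideal.mem_span_singleton,
      ← hm]
    simp [RingHom.mem_ker]
  have hd : ev (MvPowerSeries.pderiv C₀ 0 (e.symm m)) ≠ 0 := by
    rw [← e.symm_apply_apply (MvPowerSeries.pderiv C₀ 0 _)]
    refine fun h => hm' ?_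
    rw [← e.apply_symm_apply m]
    exact (congrArg (fun z => ev (e.symm z)) (tensf_pderiv _)).symm.trans h
  generalize e.symm m = h₀ at hk hd
  have h0 : ev h₀ = 0 := by
    rw [← RingHom.mem_ker, hk]
    exact Ideal.mem_span_singleton_self _
  have hc : MvPowerSeries.constantCoeff h₀ ≠ 0 := fun hc => by
    let _ := ev.toAlgebra
    have : Module.Finite (PS (d + 1) C₀) R := hfin.of_comp_finite
    have hXP : XP (d + 1) C₀ = RingHom.ker MvPowerSeries.constantCoeff := by
      ext f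
      exact mem_XP_iff
    have : (XP (d + 1) C₀).IsPrime := hXP ▸ RingHom.ker_isPrime _
    obtain ⟨Q, -, hQ, hQ'⟩ := Ideal.exists_ideal_over_prime_of_isIntegral (S := R) (XP (d + 1) C₀) ⊥
      (hk.le.trans ((Ideal.span_singleton_le_iff_mem _).2 (mem_XP_iff.2 hc)))
    obtain ⟨N, hN⟩ := hN
    have h1 : MvPowerSeries.C π ∈ Q.comap (algebraMap (PS (d + 1) C₀) R) :=
      hQ.mem_of_pow_mem N (Ideal.map_le_iff_le_comap.2 hQ'.ge hN)
    rw [hQ', mem_XP_iff] at h1
    exact hπ0 (by simpa using h1)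
  obtain ⟨j, u, hu⟩ := Coef.exists_eq hπ hc
  refine ⟨MvPowerSeries.C (↑u⁻¹ : C₀) * h₀, j, Nat.one_le_iff_ne_zero.2 ?_, ?_, ?_, ?_⟩
  · rintro rfl
    have h1 : IsUnit h₀ := MvPowerSeries.isUnit_iff_constantCoeff.2 (by simp [hu])
    exact (h1.map ev).ne_zero h0
  · rw [Ideal.span_singleton_mul_left_unit ((u⁻¹).isUnit.map _), hk]
  · rw [mem_XP_iff]
    simp [hu]
  · rw [Derivation.leibniz, MvPowerSeries.pderiv_C, smul_zero, add_zero, smul_eq_mul, map_mul]
    exact mul_ne_zero (((u⁻¹).isUnit.map _).map ev).ne_zero hd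

end Norm

end Crest.Agent.R183
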