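import Crest.Agent.R183.Tow

/-! # R183 / Theta : transfer from `𝕎 (B/p)` to `B` by the ghost map; the Roots theorem. -/

set_option autoImplicit false
open WittVector Polynomial Filter

namespace Crest.Agent.R183

/-- `c ↦ σ c`, `X i ↦ X i ^ q` -/
noncomputable def phiq {W : Type} [CommRing W] (n : ℕ) (σ : W →+* W) (q : ℕ) :
    Pz W n →+* Pz W n :=
  MvPolynomial.eval₂Hom (MvPolynomial.C.comp σ) (fun i => MvPolynomial.X i ^ q)

/-- the ideal `(X_0..X_n)` -/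
noncomputable def XI (W : Type) [CommRing W] (n : ℕ) : Ideal (Pz W n) :=
  Ideal.span (Set.range MvPolynomial.X)

/-- `𝔯 N = (h, f) + (X)^N` in `W[X][w]` -/
noncomputable def rr {W : Type} [CommRing W] {n : ℕ} (h : Pz W n) (f : (Pz W n)[X]) (N : ℕ) :
    Ideal (Pz W n)[X] := Ideal.span {C h, f} ⊔ (XI W n).map C ^ N

/-- `num / g` is integral over `(X)^ν`, modulo `𝔯 N` -/
def Intg {W : Type} [CommRing W] {n : ℕ} (h g : Pz W n) (f : (Pz W n)[X]) (N δ ν : ℕ)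
    (num : (Pz W n)[X]) : Prop :=
  ∃ b : Fin δ → (Pz W n)[X], (∀ j : Fin δ, b j ∈ (XI W n).map C ^ (((j : ℕ) + 1) * ν)) ∧
    num ^ δ + ∑ j : Fin δ, C g ^ ((j : ℕ) + 1) * b j * num ^ (δ - ((j : ℕ) + 1)) ∈ rr h f N

namespace Tow
variable {p : ℕ} [Fact p.Prime] {l : Type} [Field l] [CharP l p] {n : ℕ}

noncomputable def Th (T : Tow p l n) (s j : ℕ) :
    WittVector p T.U →+* T.B ⧸ Ideal.span {(p : T.B)} ^ (s + 1) :=
  (WittVector.ghostComponentModPPow s).comp (Fr p T.U j)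

/-- `ghostComponentModPPow_map_mk`, `map_teichmuller`, `ghostComponent_teichmuller`. -/
theorem Th_TT (T : Tow p l n) (s j m : ℕ) (b : T.B) :
    T.Th s j (T.TT m b) = Ideal.Quotient.mk _ (b ^ p ^ (m + j + s)) := by
  have e : Fr p T.U j (T.TT m b) = WittVector.map T.mkU (teichmuller p (b ^ p ^ (m + j))) := by
    rw [TT, Fr_teich, map_teichmuller, map_pow T.mkU, ← pow_mul, ← pow_add]
  rw [Th, RingHom.comp_apply, e, ghostComponentModPPow_map_mk, ghostComponent_teichmuller,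
    ← pow_mul, ← pow_add]

/-- On constants: for `c : 𝕎 l` lift `map lU c` to the Witt vector over `T.B` with coefficients the
images of `[c_i]`; its ghost component is `∑_{i≤s} p^i [c_i]^(p^(s-i))`, which is `Fr s c` modulo
`p^(s+1)` (`dvd_sub_sum_teichmuller_iterateFrobeniusEquiv_coeff` applied to `Fr s c`). -/
theorem Th_iota [PerfectRing l p] (T : Tow p l n) (s j m : ℕ) (c : Pz (WittVector p l) n) :
    T.Th s j (T.iota m c) = Ideal.Quotient.mk _ (algebraMap (Pz (WittVector p l) n) T.B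
      (phiq n (Fr p l (m + j + s)) (p ^ (m + j + s)) c)) := by
  have key : (T.Th s j).comp (T.iota m) = (Ideal.Quotient.mk _).comp
      ((algebraMap (Pz (WittVector p l) n) T.B).comp
        (phiq n (Fr p l (m + j + s)) (p ^ (m + j + s)))) := by
    refine MvPolynomial.ringHom_ext' ?_ fun i => ?_
    · refine eq_of_apply_teichmuller_eq _ _ ⟨s + 1, ?_⟩ fun x => ?_
      · rw [← map_natCast (Ideal.Quotient.mk (Ideal.span {(p : T.B)} ^ (s + 1))), ← map_pow,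
          Ideal.Quotient.eq_zero_iff_mem]
        exact Ideal.pow_mem_pow (Ideal.mem_span_singleton_self _) _
      · have e : T.iota m (MvPolynomial.C (teichmuller p x)) = T.TT m
            (algebraMap (Pz (WittVector p l) n) T.B (MvPolynomial.C (teichmuller p x))) := by
          rw [iota, MvPolynomial.eval₂Hom_C, RingHom.comp_apply, map_teichmuller, Fr_teich, TT,
            ← lU_coeff, teichmuller_coeff_zero]
        simp only [RingHom.comp_apply]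
        rw [e, Th_TT, phiq, MvPolynomial.eval₂Hom_C, RingHom.comp_apply, Fr_teich, map_pow, map_pow,
          map_pow, map_pow, map_pow]
    · simp only [RingHom.comp_apply]
      rw [iota, MvPolynomial.eval₂Hom_X', Th_TT, phiq, MvPolynomial.eval₂Hom_X', map_pow, map_pow,
        map_pow]
      rfl
  exact RingHom.congr_fun key c

/-- for `i ≤ s`, `σ_i^(p^j) ∈ 𝔟^(N p^(m+i+j) - c) ≤ nU^(K₀ p^(m+i+j))` for `j` large; lift to `𝔫^..`
(other coefficients lifted arbitrarily) and use `ghostComponent_apply`/`wittPolynomial_eq_sum_C_mul_X_pow`. -/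
theorem Th_small (T : Tow p l n) (s m : ℕ) {𝔟 : Ideal T.U} {a N K₀ : ℕ}
    (h𝔟 : ∃ c, ∀ t, 𝔟 ^ (a * t + c) ≤ T.nU ^ t) (hN : a * K₀ < N) {σ : WittVector p T.U}
    (hσ : σ ∈ T.SS m 𝔟 N) : ∀ᶠ j in atTop, ∃ b ∈ nn (WittVector p l) n T.B ^ (K₀ * p ^ (m + j + s)),
      T.Th s j σ = Ideal.Quotient.mk _ b := by
  obtain ⟨c, hc⟩ := h𝔟
  choose d hd using fun i => mem_rcl.1 (mem_WF.1 hσ i)
  have hp : 1 < p := (Fact.out : p.Prime).one_lt
  refine eventually_atTop.2 ⟨c + ∑ i ∈ Finset.range (s + 1), d i, fun j hj => ?_⟩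
  have hb : ∀ i, ∃ b : T.B, T.mkU b = σ.coeff i ^ p ^ j ∧
      (i ≤ s → b ∈ nn (WittVector p l) n T.B ^ (K₀ * p ^ (m + i + j))) := by
    intro i
    by_cases hi : i ≤ s
    · have h1 : d i ≤ ∑ i ∈ Finset.range (s + 1), d i :=
        Finset.single_le_sum (fun _ _ => Nat.zero_le _) (Finset.mem_range.2 (Nat.lt_succ_of_le hi))
      have h2 : j < p ^ (m + i + j) :=
        lt_of_lt_of_le (Nat.lt_pow_self hp) (Nat.pow_le_pow_right hp.le (by omega))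
      have h3 : a * (K₀ * p ^ (m + i + j)) + c ≤ N * p ^ m * p ^ i * p ^ j - d i := by
        have h4 : (a * K₀ + 1) * p ^ (m + i + j) ≤ N * p ^ (m + i + j) := Nat.mul_le_mul_right _ hN
        have h5 : N * p ^ m * p ^ i * p ^ j = N * p ^ (m + i + j) := by ring
        rw [h5, ← mul_assoc]
        rw [add_mul, one_mul] at h4
        omega
      have h6 := hc _ (Ideal.pow_le_pow_right h3 (hd i j))
      rw [← Ideal.map_pow, Ideal.mem_map_iff_of_surjective _ Ideal.Quotient.mk_surjective] at h6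
      obtain ⟨b, hb, e⟩ := h6
      exact ⟨b, e, fun _ => hb⟩
    · obtain ⟨b, e⟩ := Ideal.Quotient.mk_surjective (σ.coeff i ^ p ^ j)
      exact ⟨b, e, fun h => absurd h hi⟩
  choose b hb1 hb2 using hb
  have e : Fr p T.U j σ = WittVector.map T.mkU (WittVector.mk p b) := by
    ext i
    rw [Fr_coeff, map_coeff, coeff_mk, hb1]
  refine ⟨ghostComponent s (WittVector.mk p b), ?_, ?_⟩
  · rw [ghostComponent_apply, aeval_wittPolynomial]
    refine Ideal.sum_mem _ fun i hi => Ideal.mul_mem_left _ _ ?_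
    have hi' : i ≤ s := Nat.lt_succ_iff.1 (Finset.mem_range.1 hi)
    have h1 := Ideal.pow_mem_pow (hb2 i hi') (p ^ (s - i))
    rw [← pow_mul, mul_assoc, ← pow_add, show m + i + j + (s - i) = m + j + s by omega] at h1
    exact h1
  · rw [Th, RingHom.comp_apply, e, ghostComponentModPPow_map_mk]

theorem ThetaB_ev (m Q : ℕ) : ∀ᶠ j in atTop, Q ≤ p ^ (m + j) := by
  filter_upwards [eventually_ge_atTop Q] with j hj
  have := Nat.lt_pow_self (n := m + j) (Fact.out : p.Prime).one_lt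
  omega

omit [CharP l p] in
theorem ThetaB_lift (T : Tow p l n) {I : Ideal T.B} {x : T.B} (h : T.mkU x ∈ I.map T.mkU) (s : ℕ) :
    ∃ y ∈ I ^ p ^ s, (p : T.B) ^ (s + 1) ∣ x ^ p ^ s - y := by
  obtain ⟨y, hy, he⟩ := (Ideal.mem_map_iff_of_surjective _ Ideal.Quotient.mk_surjective).1 h
  exact ⟨_, Ideal.pow_mem_pow hy _, dvd_sub_pow_of_dvd_sub
    (Ideal.mem_span_singleton.1 (Ideal.Quotient.eq.1 he.symm)) s⟩

theorem ThetaB_pow {B : Type} [CommRing B] {ξ x : B} {I : Ideal B} (h : x ∈ Ideal.span {ξ} ⊔ I)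
    (k : ℕ) : x ^ k ∈ Ideal.span {ξ} ⊔ I ^ k := by
  obtain ⟨u, y, hy, rfl⟩ := Ideal.mem_span_singleton_sup.1 h
  rw [← sub_add_cancel ((u * ξ + y) ^ k) (y ^ k)]
  refine Submodule.add_mem_sup (Ideal.mem_span_singleton.2 ?_) (Ideal.pow_mem_pow hy k)
  refine dvd_trans ?_ (sub_dvd_pow_sub_pow _ _ k)
  simp

/-- `q₁ = p^(m+j)`, `t₁ = q₁/a - c`, `β^q₁ ∈ 𝔫^t₁ + (p)`, so `β^q ∈ 𝔫^(t₁ p^s) + (p^(s+1))`
(`dvd_sub_pow_of_dvd_sub`).  In `kk ξ (t₁ p^s)`: `p ≡ p^(s+1) c`, iterate to `p ≡ p^r c'`, and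
`p^r ≡ β^(q r) ∈ 𝔫^(anything)` for `r` large (`T.nil`).  So `p ∈ (ξ) + 𝔫^(t₁ p^s)` and
`(s+1) t₁ ≥ K₀ q₁` for `j` large. -/
theorem p_small (T : Tow p l n) (s m : ℕ) {a K₀ : ℕ} (ha : 1 ≤ a) (hs : 2 * a * K₀ + 1 ≤ s)
    {β : T.B} (hβ : T.aug β = 0) (h : ∃ c, ∀ t, (T.mkU β ^ a) ^ (t + c) ∈ T.nU ^ t) :
    ∀ᶠ j in atTop, (p : T.B) ^ (s + 1) ∈
      kk (WittVector p l) n ((p : T.B) - β ^ p ^ (m + j + s)) (K₀ * p ^ (m + j + s)) := by
  obtain ⟨c, hc⟩ := h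
  obtain ⟨M, hM⟩ := T.nil
  have hβM : β ^ M ∈ nn (WittVector p l) n T.B := hM (Ideal.pow_mem_pow hβ M)
  filter_upwards [ThetaB_ev (p := p) m (2 * (a * (c + 1)))] with j hj
  obtain ⟨t, ht⟩ : ∃ t, p ^ (m + j) / a = t + c :=
    ⟨_, (Nat.sub_add_cancel ((Nat.le_div_iff_mul_le ha).2 (by nlinarith))).symm⟩
  have h1 : a * (t + c) ≤ p ^ (m + j) := ht ▸ Nat.mul_div_le _ _
  have h2 : p ^ (m + j) < a * (t + c + 1) := ht ▸ Nat.lt_mul_div_succ _ ha
  have h3 : T.mkU (β ^ p ^ (m + j)) ∈ (nn (WittVector p l) n T.B ^ t).map T.mkU := by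
    rw [Ideal.map_pow, map_pow, ← Nat.sub_add_cancel h1, pow_add, pow_mul]
    exact Ideal.mul_mem_left _ _ (hc t)
  obtain ⟨y, hy, z, hz⟩ := T.ThetaB_lift h3 s
  rw [← pow_mul, ← pow_add] at hz
  rw [← pow_mul] at hy
  have hq : 1 ≤ p ^ (m + j + s) := Nat.one_le_pow _ _ (Fact.out : p.Prime).pos
  generalize hξ : (p : T.B) - β ^ p ^ (m + j + s) = ξ
  have hK : (p : T.B) ∈ kk (WittVector p l) n ξ (t * p ^ s) := by
    have h4 : (p : T.B) ∈ (kk (WittVector p l) n ξ (t * p ^ s)).radical := by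
      rw [← sub_add_cancel (p : T.B) (β ^ p ^ (m + j + s)), hξ]
      refine add_mem (Ideal.le_radical (Ideal.mem_sup_left (Ideal.mem_span_singleton_self _)))
        (Ideal.pow_mem_of_mem _ (Ideal.mem_radical_iff.2 ⟨M * (t * p ^ s), ?_⟩) _ hq)
      rw [pow_mul]
      exact Ideal.mem_sup_right (Ideal.pow_mem_pow hβM _)
    have h5 : (1 - (p : T.B) ^ s * z) * p ∈ kk (WittVector p l) n ξ (t * p ^ s) := by
      rw [show (1 - (p : T.B) ^ s * z) * p = ξ + y by rw [← hξ]; linear_combination hz]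
      exact Submodule.add_mem_sup (Ideal.mem_span_singleton_self _) hy
    obtain ⟨r, hr⟩ : (p : T.B) ^ s * z ∈ (kk (WittVector p l) n ξ (t * p ^ s)).radical :=
      Ideal.mul_mem_right _ _ (Ideal.pow_mem_of_mem _ h4 _ (by omega))
    rw [show (p : T.B) = (∑ i ∈ Finset.range r, ((p : T.B) ^ s * z) ^ i) *
        ((1 - (p : T.B) ^ s * z) * p) + p * ((p : T.B) ^ s * z) ^ r by
      rw [← mul_assoc, geom_sum_mul_neg]; ring]
    exact add_mem (Ideal.mul_mem_left _ _ h5) (Ideal.mul_mem_left _ _ hr)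
  have h6 := ThetaB_pow hK (s + 1)
  rw [← pow_mul] at h6
  refine kk_anti ξ ?_ h6
  have h7 : p ^ (m + j) ≤ 2 * (a * t) := by nlinarith
  have h8 : K₀ * p ^ (m + j) ≤ t * (s + 1) := by nlinarith [Nat.mul_le_mul_left K₀ h7]
  calc _ = K₀ * p ^ (m + j) * p ^ s := by rw [pow_add _ (m + j), mul_assoc]
    _ ≤ t * (s + 1) * p ^ s := Nat.mul_le_mul_right _ h8
    _ = _ := by ring

/-- `Ĩ = (γ) 𝔫^ν + 𝔫^L`; `α^q₁ ∈ Ĩ^(q₁-c) + (p)`, `α^q ∈ Ĩ^(q - c p^s) + (p^(s+1))`,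
`Ideal.sup_pow_add_le_pow_sup_pow` with exponents `q - m'` and `m' - c p^s ≥ q/(2E)`, `m' = q/E+1`. -/
theorem root_split (T : Tow p l n) (s m : ℕ) {ν E K₀ : ℕ} (hE : 2 ≤ E) {α γ : T.B}
    (h : ∃ c, ∀ t, T.mkU α ^ (t + c) ∈
      (Ideal.span {T.mkU γ} * T.nU ^ ν ⊔ T.nU ^ (2 * E * K₀ + 1)) ^ t) :
    ∀ᶠ j in atTop, ∃ u ∈ nn (WittVector p l) n T.B ^
        (ν * (p ^ (m + j + s) - (p ^ (m + j + s) / E + 1))),
      α ^ p ^ (m + j + s) - γ ^ (p ^ (m + j + s) - (p ^ (m + j + s) / E + 1)) * u ∈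
        nn (WittVector p l) n T.B ^ (K₀ * p ^ (m + j + s)) ⊔ Ideal.span {(p : T.B)} ^ (s + 1) := by
  obtain ⟨c, hc⟩ := h
  filter_upwards [ThetaB_ev (p := p) m (2 * E * c + 2)] with j hj
  have hc1 : c ≤ p ^ (m + j) := by nlinarith
  have h3 : T.mkU (α ^ p ^ (m + j)) ∈ ((Ideal.span {γ} * nn (WittVector p l) n T.B ^ ν ⊔
      nn (WittVector p l) n T.B ^ (2 * E * K₀ + 1)) ^ (p ^ (m + j) - c)).map T.mkU := by
    have h1 := hc (p ^ (m + j) - c)
    rw [Nat.sub_add_cancel hc1] at h1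
    simpa only [Ideal.map_pow, Ideal.map_sup, Ideal.map_mul, Ideal.map_span, Set.image_singleton,
      map_pow] using h1
  obtain ⟨y, hy, hz⟩ := T.ThetaB_lift h3 s
  rw [← pow_mul, ← pow_add] at hz
  rw [← pow_mul, Nat.sub_mul, ← pow_add] at hy
  have hs : 1 ≤ p ^ s := Nat.one_le_pow _ _ (Fact.out : p.Prime).pos
  have h4 : 2 * (E * (c * p ^ s)) + 2 ≤ p ^ (m + j + s) := by
    rw [pow_add _ (m + j)]
    nlinarith [Nat.mul_le_mul_right (p ^ s) hj]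
  generalize p ^ (m + j + s) = q at *
  generalize c * p ^ s = d at *
  have h5 : q < E * (q / E + 1) := Nat.lt_mul_div_succ _ (by omega)
  have h6 : q / E ≤ q / 2 := Nat.div_le_div_left hE (by omega)
  have h7 : d ≤ q / E := (Nat.le_div_iff_mul_le (by omega)).2 (by nlinarith)
  obtain ⟨r, hr⟩ : ∃ r, q / E + 1 = d + r := ⟨_, (Nat.add_sub_cancel' (by omega)).symm⟩
  rw [show q - d = q - (q / E + 1) + r by omega] at hy
  obtain ⟨y₁, hy₁, y₂, hy₂, rfl⟩ := Submodule.mem_sup.1 (Ideal.sup_pow_add_le_pow_sup_pow hy)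
  rw [mul_pow, Ideal.span_singleton_pow, ← pow_mul] at hy₁
  obtain ⟨u, hu, rfl⟩ := Ideal.mem_span_singleton_mul.1 hy₁
  refine ⟨u, hu, ?_⟩
  rw [← pow_mul] at hy₂
  rw [show α ^ q - γ ^ (q - (q / E + 1)) * u =
    y₂ + (α ^ q - (γ ^ (q - (q / E + 1)) * u + y₂)) by ring, Ideal.span_singleton_pow]
  refine Submodule.add_mem_sup (Ideal.pow_le_pow_right ?_ hy₂) (Ideal.mem_span_singleton.2 hz)
  rw [hr, mul_add] at h5
  have h8 : q ≤ 2 * (E * r) := by omega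
  nlinarith [Nat.mul_le_mul_left K₀ h8]

/-- `B/(p,𝔫)` is a nonzero finite `l`-vector space: finite over `W[z]` and killed by the maximal ideal
`(p, z)`; bound the `B`-length by the `W[z]`-length. -/
theorem exists_rho [PerfectRing l p] (T : Tow p l n) : ∃ ρ : ℕ, 1 ≤ ρ ∧
    cl (Ideal.span {(p : T.B)} ⊔ nn (WittVector p l) n T.B) = ρ := by
  set I : Ideal T.B := Ideal.span {(p : T.B)} ⊔ nn (WittVector p l) n T.B with hI
  have hz : ∀ i, zB (WittVector p l) n T.B i ∈ I := fun i =>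
    Ideal.mem_sup_right (Ideal.subset_span ⟨i, rfl⟩)
  have hne : I ≠ ⊤ := by
    have h1 : I ≤ RingHom.ker (T.augU.comp T.mkU) := by
      refine sup_le ?_ ?_
      · rw [Ideal.span_le]
        rintro _ rfl
        simp
      · intro b hb
        exact T.nU_le_ker (Ideal.mem_map_of_mem _ hb)
    exact ne_top_of_le_ne_top (RingHom.ker_ne_top _) h1
  have hnt : Nontrivial (T.B ⧸ I) := Ideal.Quotient.nontrivial_iff.2 hne
  let ψ : l →+* T.B ⧸ I := (Ideal.Quotient.factor (le_sup_left : _ ≤ I)).comp T.lU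
  have hcomp : ψ.comp ((WittVector.constantCoeff).comp MvPolynomial.constantCoeff) =
      (Ideal.Quotient.mk I).comp (algebraMap (Pz (WittVector p l) n) T.B) := by
    refine MvPolynomial.ringHom_ext (fun w => ?_) fun i => ?_
    · simp only [ψ, RingHom.comp_apply, MvPolynomial.constantCoeff_C,
        WittVector.constantCoeff_apply, lU_coeff, Ideal.Quotient.factor_mk]
      rfl
    · simp only [RingHom.comp_apply, MvPolynomial.constantCoeff_X, map_zero]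
      exact (Ideal.Quotient.eq_zero_iff_mem.2 (hz i)).symm
  have hfin : ψ.Finite := by
    have h1 := (RingHom.Finite.of_surjective (Ideal.Quotient.mk I)
      Ideal.Quotient.mk_surjective).comp (RingHom.finite_algebraMap.2 T.fin)
    rw [← hcomp] at h1
    exact RingHom.Finite.of_comp_finite h1
  let _ := ψ.toAlgebra
  have : Module.Finite l (T.B ⧸ I) := hfin
  have : IsArtinianRing (T.B ⧸ I) := IsArtinianRing.of_finite l _
  have h1 : cl I = Module.length (T.B ⧸ I) (T.B ⧸ I) :=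
    Module.length_eq_of_surjective Ideal.Quotient.mk_surjective
  have h2 : cl I ≠ ⊤ := by rw [h1]; exact Module.length_ne_top
  have h3 : 0 < cl I := Module.length_pos
  obtain ⟨ρ, hρ⟩ := ENat.ne_top_iff_exists.1 h2
  refine ⟨ρ, ?_, hρ.symm⟩
  rw [← hρ] at h3
  exact_mod_cast h3

end Tow

/-- output of the Roots theorem at one value of `q` (`m = q/E+1`) -/
structure RootsAt {W : Type} [CommRing W] {n : ℕ} {B : Type} [CommRing B] [Algebra (Pz W n) B]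
    (pp : W) (ρ K₀ q m : ℕ) (φ : Pz W n →+* B) (h g : Pz W n) (f : (Pz W n)[X]) {𝒯 : Type}
    (num : 𝒯 → (Pz W n)[X]) (wt : 𝒯 → ℕ) {a e : ℕ} (ξ : Fin a → B) (υ : B) (γ : Fin a → B)
    (w : Fin a → Fin e → B) (u : Fin a → Fin e → 𝒯 → B) : Prop where
  hm : m ≤ q
  hx : ∀ i, Hx n pp (ξ i) ρ
  r1a : φ h - υ * ∏ i, ξ i ∈
    nn W n B ^ (K₀ * q) ⊔ Ideal.span {algebraMap (Pz W n) B (MvPolynomial.C pp) ^ K₀}
  r1b : ∀ i, φ h ∈ kk W n (ξ i) (K₀ * q)
  r2 : ∀ i r, (f.map φ - ∏ j, (X - C (w i j))).coeff r ∈ kk W n (ξ i) (K₀ * q)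
  r3 : ∀ i, γ i ^ q - φ g ∈ kk W n (ξ i) (K₀ * q)
  r4a : ∀ i j τ, u i j τ ∈ nn W n B ^ (wt τ * (q - m))
  r4b : ∀ i j τ, φ g * u i j τ - γ i ^ m * (num τ).eval₂ φ (w i j) ∈ kk W n (ξ i) (K₀ * q)

section rc
set_option linter.unusedSectionVars false
variable {p : ℕ} [Fact p.Prime] {l : Type} [Field l] [CharP l p] {n : ℕ}

/-- the ideal `(ξ β) ⊔ SS` -/
noncomputable abbrev rcJ (T : Tow p l n) (m : ℕ) (β : T.B) (𝔟 : Ideal T.U) (N : ℕ) :
    Ideal (WittVector p T.U) := Ideal.span {T.xiW m β} ⊔ T.SS m 𝔟 N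

theorem rc_tw {T T' : Tow p l n} {m m' : ℕ} (e : Tow.Ext T m T' m') {β : T.B} {𝔟 : Ideal T.U}
    {𝔟' : Ideal T'.U} (h : 𝔟.map e.toHom.U ≤ 𝔟') {N : ℕ} {y : WittVector p T.U}
    (hy : y ∈ rcJ T m β 𝔟 N) : e.tw y ∈ rcJ T' m' (e.φ β) 𝔟' N := by
  obtain ⟨u, hu, v, hv, rfl⟩ := Submodule.mem_sup.1 hy
  obtain ⟨c, rfl⟩ := Ideal.mem_span_singleton'.1 hu
  rw [map_add, map_mul, e.tw_xiW]
  exact Submodule.add_mem_sup (Ideal.mul_mem_left _ _ (Ideal.mem_span_singleton_self _))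
    (e.tw_SS h hv)

theorem rc_nU_le_bI [PerfectRing l p] (T : Tow p l n) {a : ℕ} (β : Fin a → T.B) :
    T.nU ≤ T.bI β := le_sup_left

theorem rc_mem_bI [PerfectRing l p] (T : Tow p l n) {a : ℕ} (β : Fin a → T.B) (i : Fin a) :
    T.mkU (β i) ∈ T.bI β := Ideal.mem_sup_right (Ideal.subset_span ⟨i, rfl⟩)

theorem rc_map_bI [PerfectRing l p] {T T' : Tow p l n} (f : Tow.Hom T T') {a : ℕ}
    (β : Fin a → T.B) : (T.bI β).map f.U ≤ T'.bI (fun i => f.φ (β i)) := by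
  unfold Tow.bI
  rw [Ideal.map_sup, f.map_nU, Ideal.map_span]
  refine sup_le_sup_left (Ideal.span_mono ?_) _
  rintro _ ⟨_, ⟨i, rfl⟩, rfl⟩
  exact ⟨i, rfl⟩

theorem rc_eh_eq (T : Tow p l n) (y : WittVector p T.U) :
    T.eh y = (WittVector.map T.augU y).coeff 0 := by
  simp [Tow.eh, WittVector.map_coeff]

theorem rc_eh_TT (T : Tow p l n) (m : ℕ) {b : T.B} (hb : T.aug b = 0) : T.eh (T.TT m b) = 0 := by
  rw [rc_eh_eq, T.map_augU_TT m hb, WittVector.zero_coeff]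

theorem rc_eh_p (T : Tow p l n) : T.eh (p : WittVector p T.U) = 0 := by
  rw [map_natCast, CharP.cast_eq_zero]

theorem rc_iota_X [PerfectRing l p] (T : Tow p l n) (m : ℕ) (i : Fin (n + 1)) :
    T.iota m (MvPolynomial.X i) = T.TT m (zB (WittVector p l) n T.B i) := by
  simp [Tow.iota]

theorem rc_iota_p [PerfectRing l p] (T : Tow p l n) (m : ℕ) :
    T.iota m (MvPolynomial.C (p : WittVector p l)) = p := by
  rw [map_natCast (MvPolynomial.C : WittVector p l →+* Pz (WittVector p l) n), map_natCast]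

theorem rc_aug_z (T : Tow p l n) (i : Fin (n + 1)) : T.aug (zB (WittVector p l) n T.B i) = 0 := by
  rw [zB, T.aug_alg]
  simp

theorem rc_eh_iota [PerfectRing l p] (T : Tow p l n) (m : ℕ) {c : Pz (WittVector p l) n}
    (hc : c ∈ XI _ n ⊔ Ideal.span {MvPolynomial.C (p : WittVector p l)}) :
    T.eh (T.iota m c) = 0 := by
  have : XI _ n ⊔ Ideal.span {MvPolynomial.C (p : WittVector p l)} ≤
      RingHom.ker (T.eh.comp (T.iota m)) := by
    refine sup_le (Ideal.span_le.2 ?_) (Ideal.span_le.2 ?_)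
    · rintro _ ⟨i, rfl⟩
      rw [SetLike.mem_coe, RingHom.mem_ker, RingHom.comp_apply, rc_iota_X]
      exact rc_eh_TT T m (rc_aug_z T i)
    · rintro _ rfl
      rw [SetLike.mem_coe, RingHom.mem_ker, RingHom.comp_apply, rc_iota_p]
      exact rc_eh_p T
  exact this hc

theorem rc_h_mem {a : ℕ} (ha : 1 ≤ a) {h : Pz (WittVector p l) n}
    (hh : h - MvPolynomial.C ((p : WittVector p l) ^ a) ∈ XI _ n) :
    h ∈ XI _ n ⊔ Ideal.span {MvPolynomial.C (p : WittVector p l)} := by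
  have : h = (h - MvPolynomial.C ((p : WittVector p l) ^ a)) +
      MvPolynomial.C (p : WittVector p l) ^ a := by
    rw [← map_pow, sub_add_cancel]
  rw [this]
  exact Submodule.add_mem_sup hh
    (Ideal.pow_mem_of_mem _ (Ideal.mem_span_singleton_self _) _ ha)

/-- `phaseMulti` for linear polynomials -/
theorem rc_lin [PerfectRing l p] {N : ℕ} (hN : 1 ≤ N) {ι : Type} [Fintype ι] (T : Tow p l n)
    (m : ℕ) (β : ι → T.B) (hβ : ∀ x, T.aug (β x) = 0) (y : ι → WittVector p T.U)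
    (hy : ∀ x, T.eh (y x) = 0) :
    ∃ (T' : Tow p l n) (m' : ℕ) (e : Tow.Ext T m T' m') (w : ι → T'.B),
      (∀ x, T'.aug (w x) = 0) ∧ ∀ x, ∀ 𝔟' : Ideal T'.U, T'.nU ≤ 𝔟' →
        T'.mkU (e.φ (β x)) ∈ 𝔟' → T'.TT m' (w x) - e.tw (y x) ∈ rcJ T' m' (e.φ (β x)) 𝔟' N := by
  have : Nontrivial (WittVector p T.U) := T.eh.domain_nontrivial
  obtain ⟨T', m', e, w, hw0, hw⟩ := Tow.phaseMulti hN (fun _ : ι => 1) T m β hβ
    (fun x => X - C (y x)) (fun x => monic_X_sub_C _) (fun x => natDegree_X_sub_C _)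
    (fun x => by simp [hy x])
  refine ⟨T', m', e, fun x => w x 0, fun x => hw0 x 0, fun x 𝔟' h1 h2 => ?_⟩
  have := hw x 𝔟' h1 h2 0
  simpa using this

/-- `phaseMulti` for `f.map iota` -/
theorem rc_f [PerfectRing l p] {N a e : ℕ} (hN : 1 ≤ N) (T : Tow p l n)
    (m : ℕ) (β : Fin a → T.B) (hβ : ∀ x, T.aug (β x) = 0) (f : (Pz (WittVector p l) n)[X])
    (hf : f.Monic) (hfd : f.natDegree = e)
    (hfc : ∀ r, r < e → f.coeff r ∈ XI _ n ⊔ Ideal.span {MvPolynomial.C (p : WittVector p l)}) :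
    ∃ (T' : Tow p l n) (m' : ℕ) (E : Tow.Ext T m T' m') (w : Fin a → Fin e → T'.B),
      (∀ i j, T'.aug (w i j) = 0) ∧ ∀ i r,
        (f.map (T'.iota m') - ∏ j, (X - C (T'.TT m' (w i j)))).coeff r ∈
          rcJ T' m' (E.φ (β i)) (T'.bI fun i => E.φ (β i)) N := by
  have : Nontrivial (WittVector p T.U) := T.eh.domain_nontrivial
  obtain ⟨T', m', E, w, hw0, hw⟩ := Tow.phaseMulti hN (fun _ : Fin a => e) T m β hβ
    (fun _ => f.map (T.iota m)) (fun _ => hf.map _) (fun _ => by rw [hf.natDegree_map, hfd])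
    (fun _ => by
      ext r
      rw [coeff_map, coeff_map, coeff_X_pow]
      rcases lt_trichotomy r e with hr | rfl | hr
      · rw [if_neg hr.ne, rc_eh_iota T m (hfc r hr)]
      · rw [if_pos rfl, ← hfd, hf.coeff_natDegree, map_one, map_one]
      · rw [if_neg hr.ne', coeff_eq_zero_of_natDegree_lt (hfd ▸ hr), map_zero, map_zero])
  refine ⟨T', m', E, w, hw0, fun i r => ?_⟩
  have h1 := hw i (T'.bI fun i => E.φ (β i)) (rc_nU_le_bI _ _)
    (rc_mem_bI T' (fun i => E.φ (β i)) i) r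
  have h2 : (f.map (T.iota m)).map E.tw = f.map (T'.iota m') := by
    rw [Polynomial.map_map]
    congr 1
    exact RingHom.ext fun c => E.tw_iota c
  rwa [h2] at h1

theorem rc_tw_f [PerfectRing l p] {T T' : Tow p l n} {m m' : ℕ} (E : Tow.Ext T m T' m') {e : ℕ}
    (f : (Pz (WittVector p l) n)[X]) (w : Fin e → T.B) (r : ℕ) :
    E.tw ((f.map (T.iota m) - ∏ j, (X - C (T.TT m (w j)))).coeff r) =
      (f.map (T'.iota m') - ∏ j, (X - C (T'.TT m' (E.φ (w j))))).coeff r := by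
  have h2 : (f.map (T.iota m)).map E.tw = f.map (T'.iota m') := by
    rw [Polynomial.map_map]
    congr 1
    exact RingHom.ext fun c => E.tw_iota c
  rw [← coeff_map, Polynomial.map_sub, h2, Polynomial.map_prod]
  simp [E.tw_TT]

theorem rc_tw_h [PerfectRing l p] {T T' : Tow p l n} {m m' : ℕ} (E : Tow.Ext T m T' m') {a N : ℕ}
    (h : Pz (WittVector p l) n) (β : Fin a → T.B) (υ : WittVector p T.U)
    (hh : T.iota m h - υ * ∏ i, T.xiW m (β i) ∈ T.SS m (T.bI β) N) :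
    T'.iota m' h - E.tw υ * ∏ i, T'.xiW m' (E.φ (β i)) ∈
      T'.SS m' (T'.bI fun i => E.φ (β i)) N := by
  have := E.tw_SS (rc_map_bI E.toHom β) hh
  simpa only [map_sub, map_mul, map_prod, E.tw_iota, E.tw_xiW] using this

theorem rc_tw_eval [PerfectRing l p] {T T' : Tow p l n} {m m' : ℕ} (E : Tow.Ext T m T' m')
    (g : (Pz (WittVector p l) n)[X]) (w : T.B) :
    E.tw (g.eval₂ (T.iota m) (T.TT m w)) = g.eval₂ (T'.iota m') (T'.TT m' (E.φ w)) := by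
  rw [Polynomial.hom_eval₂, E.tw_TT]
  congr 1
  exact RingHom.ext fun c => E.tw_iota c

/-- the numerators vanish at the augmentation -/
theorem rc_eh_num [PerfectRing l p] (T : Tow p l n) (m : ℕ) {N δ ν : ℕ} (hN : 1 ≤ N)
    {h g : Pz (WittVector p l) n} {f num : (Pz (WittVector p l) n)[X]}
    (hh : h ∈ XI _ n ⊔ Ideal.span {MvPolynomial.C (p : WittVector p l)})
    (hf : f.coeff 0 ∈ XI _ n ⊔ Ideal.span {MvPolynomial.C (p : WittVector p l)})
    (hg : g ∈ XI _ n) (hint : Intg h g f N δ ν num) {w : T.B} (hw : T.aug w = 0) :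
    T.eh (num.eval₂ (T.iota m) (T.TT m w)) = 0 := by
  let κ : (Pz (WittVector p l) n)[X] →+* l :=
    T.eh.comp (eval₂RingHom (T.iota m) (T.TT m w))
  have hκC : ∀ c ∈ XI _ n ⊔ Ideal.span {MvPolynomial.C (p : WittVector p l)}, κ (C c) = 0 := by
    intro c hc
    simp only [κ, RingHom.comp_apply, coe_eval₂RingHom, eval₂_C]
    exact rc_eh_iota T m hc
  have hκX : κ X = 0 := by
    simp only [κ, RingHom.comp_apply, coe_eval₂RingHom, eval₂_X]
    exact rc_eh_TT T m hw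
  have hκf : κ f = 0 := by
    rw [← f.divX_mul_X_add, map_add, map_mul, hκX, mul_zero, zero_add, hκC _ hf]
  have hr : rr h f N ≤ RingHom.ker κ := by
    refine sup_le (Ideal.span_le.2 ?_) ((Ideal.pow_le_self (by omega)).trans ?_)
    · rintro _ (rfl | rfl)
      · exact hκC _ hh
      · exact hκf
    · rw [Ideal.map_le_iff_le_comap]
      intro c hc
      exact hκC c (Ideal.mem_sup_left hc)
  obtain ⟨b, -, hb⟩ := hint
  have h1 := hr hb
  rw [RingHom.mem_ker, map_add, map_sum, Finset.sum_eq_zero, add_zero, map_pow] at h1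
  · exact eq_zero_of_pow_eq_zero h1
  · intro j _
    rw [map_mul, map_mul, map_pow, hκC _ (Ideal.mem_sup_left hg), zero_pow (by omega), zero_mul,
      zero_mul]

theorem rc_h_J [PerfectRing l p] (T : Tow p l n) (m : ℕ) {a N : ℕ} {y υ : WittVector p T.U}
    {β : Fin a → T.B} {𝔟 : Ideal T.U} (hh : y - υ * ∏ i, T.xiW m (β i) ∈ T.SS m 𝔟 N) (i : Fin a) :
    y ∈ rcJ T m (β i) 𝔟 N := by
  rw [← sub_add_cancel y (υ * ∏ i, T.xiW m (β i)), add_comm]
  exact Submodule.add_mem_sup (Ideal.mul_mem_left _ _ (Ideal.mem_span_singleton.2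
    (Finset.dvd_prod_of_mem (fun i => T.xiW m (β i)) (Finset.mem_univ i)))) hh

theorem rc_vp1 [PerfectRing l p] (T : Tow p l n) (m : ℕ) {a N : ℕ} (ha : 1 ≤ a) (hN : a < N)
    {h : Pz (WittVector p l) n} (hh : h - MvPolynomial.C ((p : WittVector p l) ^ a) ∈ XI _ n)
    {β : Fin a → T.B} (hβ : ∀ i, T.aug (β i) = 0)
    (hJ : ∀ i, T.iota m h ∈ rcJ T m (β i) (T.bI β) N) (i : Fin a) :
    ∃ c, ∀ t, (T.mkU (β i) ^ a) ^ (t + c) ∈ T.nU ^ t := by
  rw [T.nU_eq]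
  obtain ⟨c, hc⟩ := Ideal.mem_span_range_iff_exists_fun.1 hh
  refine vp1 (p := p) (m := m) _ ha hN (fun i => T.mkU (β i))
    (fun i => T.nU_eq ▸ T.mkU_mem_radical (hβ i)) (fun i => ⟨fun s => T.iota m (c s), ?_⟩) i
  have h1 : T.iota m h = (p : WittVector p T.U) ^ a +
      ∑ s, T.TT m (zB (WittVector p l) n T.B s) * T.iota m (c s) := by
    rw [eq_sub_iff_add_eq] at hc
    rw [← hc, map_add, map_pow, map_pow, rc_iota_p, add_comm, map_sum]
    simp only [map_mul, rc_iota_X, mul_comm]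
  have h2 := hJ i
  rw [h1] at h2
  rw [← T.nU_eq]
  exact h2

theorem rc_map_XI [PerfectRing l p] (T : Tow p l n) (m : ℕ) (x : WittVector p T.U) :
    ((XI (WittVector p l) n).map C).map (eval₂RingHom (T.iota m) x) ≤
      Ideal.span (Set.range fun s => T.TT m (zB (WittVector p l) n T.B s)) := by
  rw [Ideal.map_map, XI, Ideal.map_span]
  refine Ideal.span_mono ?_
  rintro _ ⟨_, ⟨i, rfl⟩, rfl⟩
  exact ⟨i, by simp [rc_iota_X]⟩

theorem rc_TTz_le [PerfectRing l p] (T : Tow p l n) (m N : ℕ) {𝔟 : Ideal T.U} (h𝔟 : T.nU ≤ 𝔟) :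
    Ideal.span (Set.range fun s => T.TT m (zB (WittVector p l) n T.B s)) ^ N ≤ T.SS m 𝔟 N := by
  refine (Ideal.pow_right_mono (J := WF p 𝔟 (p ^ m)) (Ideal.span_le.2 ?_) N).trans
    (WF_pow_le 𝔟 (p ^ m) N)
  rintro _ ⟨s, rfl⟩
  refine teich_mem_WF (pow_le_rcl 𝔟 _ (Ideal.pow_mem_pow (h𝔟 ?_) _))
  rw [T.nU_eq]
  exact Ideal.subset_span ⟨s, rfl⟩

theorem rc_vp2 [PerfectRing l p] (T : Tow p l n) (m : ℕ) {a e N δ ν L : ℕ} (hδ : 1 ≤ δ)
    (hL : 1 ≤ L) (hN : a * L * δ < N) {𝔟 : Ideal T.U} (hn : T.nU ≤ 𝔟)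
    (h𝔟 : ∃ c, ∀ t, 𝔟 ^ (a * t + c) ≤ T.nU ^ t) {β γ α : T.B} (hβ : T.mkU β ∈ 𝔟)
    (hα : T.aug α = 0) {h g : Pz (WittVector p l) n} {f num : (Pz (WittVector p l) n)[X]}
    (hint : Intg h g f N δ ν num) {w : Fin e → T.B} (j : Fin e)
    (hh : T.iota m h ∈ rcJ T m β 𝔟 N)
    (hf : ∀ r, (f.map (T.iota m) - ∏ j, (X - C (T.TT m (w j)))).coeff r ∈ rcJ T m β 𝔟 N)
    (hg : T.TT m γ - T.iota m g ∈ rcJ T m β 𝔟 N)
    (hnum : T.TT m α - num.eval₂ (T.iota m) (T.TT m (w j)) ∈ rcJ T m β 𝔟 N) :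
    ∃ c, ∀ t, T.mkU α ^ (t + c) ∈ (Ideal.span {T.mkU γ} * T.nU ^ ν ⊔ T.nU ^ L) ^ t := by
  let ψ : (Pz (WittVector p l) n)[X] →+* WittVector p T.U :=
    eval₂RingHom (T.iota m) (T.TT m (w j))
  have hψC : ∀ c, ψ (C c) = T.iota m c := fun c => by simp [ψ]
  have hψf : ψ f ∈ rcJ T m β 𝔟 N := by
    have h1 : ψ f = (f.map (T.iota m) - ∏ j, (X - C (T.TT m (w j)))).eval (T.TT m (w j)) := by
      rw [eval_sub, eval_prod, Finset.prod_eq_zero (Finset.mem_univ j) (by simp), sub_zero,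
        eval_map]
      rfl
    rw [h1, eval_eq_sum_range]
    exact Ideal.sum_mem _ fun r _ => Ideal.mul_mem_right _ _ (hf r)
  have hpow : ∀ k, ∀ b ∈ (XI (WittVector p l) n).map C ^ k,
      ψ b ∈ Ideal.span (Set.range fun s => T.TT m (zB (WittVector p l) n T.B s)) ^ k := by
    intro k b hb
    have := Ideal.mem_map_of_mem ψ hb
    rw [Ideal.map_pow] at this
    exact Ideal.pow_right_mono (rc_map_XI T m _) k this
  have hr : ∀ y ∈ rr h f N, ψ y ∈ rcJ T m β 𝔟 N := by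
    intro y hy
    have : rr h f N ≤ (rcJ T m β 𝔟 N).comap ψ := by
      refine sup_le (Ideal.span_le.2 ?_) fun b hb => ?_
      · rintro _ (rfl | rfl)
        · rw [SetLike.mem_coe, Ideal.mem_comap, hψC]
          exact hh
        · exact hψf
      · exact Ideal.mem_sup_right (rc_TTz_le T m N hn (hpow N b hb))
    exact this hy
  obtain ⟨b, hb, hrel⟩ := hint
  have h1 := hr _ hrel
  have e1 : Ideal.Quotient.mk (rcJ T m β 𝔟 N) (T.TT m γ) = Ideal.Quotient.mk _ (ψ (C g)) := by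
    rw [hψC]
    exact Ideal.Quotient.eq.2 hg
  have e2 : Ideal.Quotient.mk (rcJ T m β 𝔟 N) (T.TT m α) = Ideal.Quotient.mk _ (ψ num) :=
    Ideal.Quotient.eq.2 hnum
  have h2 : T.TT m α ^ δ + ∑ j : Fin δ, T.TT m γ ^ ((j : ℕ) + 1) * ψ (b j) *
      T.TT m α ^ (δ - ((j : ℕ) + 1)) ∈ rcJ T m β 𝔟 N := by
    rw [← Ideal.Quotient.eq_zero_iff_mem] at h1 ⊢
    simp only [map_add, map_sum, map_mul, map_pow] at h1 ⊢
    rw [e1, e2]
    exact h1
  rw [T.nU_eq] at h𝔟 ⊢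
  exact vp2 (p := p) (m := m) _ hδ hL hN 𝔟 h𝔟 hβ (T.nU_eq ▸ T.mkU_mem_radical hα)
    (fun j => ψ (b j)) (fun j => hpow _ _ (hb j)) h2

end rc

/-- The char-`p` part.  `phaseP` for `iota 0 h` on `Tow.base`; `phaseMulti` over `Fin a ⊕ Fin a` for
`f.map iota` and `X - C (iota g)`; `phaseMulti` over `Fin a × Fin e × 𝒯` for
`X - C ((num τ).eval₂ iota (TT w))` (its `eh` vanishes: by `Intg`, `num^δ ∈ (p, X, w)`);
transport everything to the last state with `tw_*`; `vp1` (write `h = p^a + ∑ X_r c_r`),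
`sup_span_pow_le`, `vp2` (`iota ((X)^N) ⊆ SS` by `WF_pow_le`, `teich_mem_WF`). -/
theorem roots_charp {p : ℕ} [Fact p.Prime] {l : Type} [Field l] [CharP l p] [PerfectRing l p]
    {n a e δ L N : ℕ} (ha : 1 ≤ a) (he : 1 ≤ e) (hδ : 1 ≤ δ) (hL : 1 ≤ L) (hN : a * L * δ < N)
    (h g : Pz (WittVector p l) n) (f : (Pz (WittVector p l) n)[X]) {𝒯 : Type} [Fintype 𝒯]
    (num : 𝒯 → (Pz (WittVector p l) n)[X]) (wt : 𝒯 → ℕ)
    (hh : h - MvPolynomial.C ((p : WittVector p l) ^ a) ∈ XI _ n) (hf : f.Monic)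
    (hfd : f.natDegree = e)
    (hfc : ∀ r, r < e → f.coeff r ∈ XI _ n ⊔ Ideal.span {MvPolynomial.C (p : WittVector p l)})
    (hg : g ∈ XI _ n) (hint : ∀ τ, Intg h g f N δ (wt τ) (num τ)) :
    ∃ (T : Tow p l n) (m : ℕ) (β γ : Fin a → T.B) (υ : WittVector p T.U) (w : Fin a → Fin e → T.B)
      (α : Fin a → Fin e → 𝒯 → T.B),
      (∀ i, T.aug (β i) = 0) ∧ (∀ i, ∃ c, ∀ t, (T.mkU (β i) ^ a) ^ (t + c) ∈ T.nU ^ t) ∧
      (∃ c, ∀ t, T.bI β ^ (a * t + c) ≤ T.nU ^ t) ∧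
      T.iota m h - υ * ∏ i, T.xiW m (β i) ∈ T.SS m (T.bI β) N ∧
      (∀ i r, (f.map (T.iota m) - ∏ j, (X - C (T.TT m (w i j)))).coeff r ∈
        Ideal.span {T.xiW m (β i)} ⊔ T.SS m (T.bI β) N) ∧
      (∀ i, T.TT m (γ i) - T.iota m g ∈ Ideal.span {T.xiW m (β i)} ⊔ T.SS m (T.bI β) N) ∧
      (∀ i j τ, T.TT m (α i j τ) - (num τ).eval₂ (T.iota m) (T.TT m (w i j)) ∈
        Ideal.span {T.xiW m (β i)} ⊔ T.SS m (T.bI β) N) ∧
      (∀ i j τ, ∃ c, ∀ t, T.mkU (α i j τ) ^ (t + c) ∈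
        (Ideal.span {T.mkU (γ i)} * T.nU ^ wt τ ⊔ T.nU ^ L) ^ t) := by
  have hN1 : 1 ≤ N := by omega
  have haN : a < N := lt_of_le_of_lt
    ((Nat.le_mul_of_pos_right a hL).trans (Nat.le_mul_of_pos_right _ hδ)) hN
  have hhm := rc_h_mem ha hh
  -- phase P
  have hy : WittVector.map (Tow.base p l n).augU ((Tow.base p l n).iota 0 h) =
      (p : WittVector p l) ^ a := by
    rw [Tow.map_augU_iota, Fr_zero]
    have : XI (WittVector p l) n ≤ RingHom.ker MvPolynomial.constantCoeff := by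
      refine Ideal.span_le.2 ?_
      rintro _ ⟨i, rfl⟩
      simp
    have h1 := this hh
    rw [RingHom.mem_ker, map_sub, MvPolynomial.constantCoeff_C, sub_eq_zero] at h1
    exact h1
  obtain ⟨T₁, m₁, E₁, β₁, υ₁, hβ₁, hh₁⟩ := Tow.phaseP hN1 a (Tow.base p l n) 0 _ hy
  rw [E₁.tw_iota] at hh₁
  -- roots of `f`
  obtain ⟨T₂, m₂, E₂, w₂, hw₂, hf₂⟩ := rc_f hN1 T₁ m₁ β₁ hβ₁ f hf hfd hfc
  have hh₂ := rc_tw_h E₂ h β₁ υ₁ hh₁
  have hβ₂ : ∀ i, T₂.aug (E₂.φ (β₁ i)) = 0 := fun i => (E₂.aug _).trans (hβ₁ i)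
  generalize E₂.tw υ₁ = υ₂ at hh₂
  obtain ⟨β₂, hβe⟩ : ∃ β₂ : Fin a → T₂.B, ∀ i, E₂.φ (β₁ i) = β₂ i := ⟨_, fun _ => rfl⟩
  simp only [hβe] at hf₂ hh₂ hβ₂
  clear hβe hh₁ hβ₁ hy E₁ E₂
  -- `γ`
  obtain ⟨T₃, m₃, E₃, γ₃, -, hg₃⟩ := rc_lin hN1 T₂ m₂ β₂ hβ₂ (fun _ => T₂.iota m₂ g)
    (fun _ => rc_eh_iota T₂ m₂ (Ideal.mem_sup_left hg))
  replace hg₃ := fun i => hg₃ i (T₃.bI fun i => E₃.φ (β₂ i)) (rc_nU_le_bI _ _)
    (rc_mem_bI T₃ (fun i => E₃.φ (β₂ i)) i)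
  simp only [E₃.tw_iota] at hg₃
  have hh₃ := rc_tw_h E₃ h β₂ υ₂ hh₂
  have hβ₃ : ∀ i, T₃.aug (E₃.φ (β₂ i)) = 0 := fun i => (E₃.aug _).trans (hβ₂ i)
  have hw₃ : ∀ i j, T₃.aug (E₃.φ (w₂ i j)) = 0 := fun i j => (E₃.aug _).trans (hw₂ i j)
  have hf₃ := fun i r => rc_tw E₃ (rc_map_bI E₃.toHom β₂) (hf₂ i r)
  simp only [rc_tw_f] at hf₃
  generalize E₃.tw υ₂ = υ₃ at hh₃
  obtain ⟨β₃, hβe⟩ : ∃ β₃ : Fin a → T₃.B, ∀ i, E₃.φ (β₂ i) = β₃ i := ⟨_, fun _ => rfl⟩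
  obtain ⟨w₃, hwe⟩ : ∃ w₃ : Fin a → Fin e → T₃.B, ∀ i j, E₃.φ (w₂ i j) = w₃ i j :=
    ⟨_, fun _ _ => rfl⟩
  simp only [hβe, hwe] at hf₃ hh₃ hβ₃ hg₃ hw₃
  clear hβe hwe hh₂ hβ₂ hf₂ hw₂ E₃
  -- `α`
  obtain ⟨T, m, E, α, hα, hn⟩ := rc_lin hN1 (ι := Fin a × Fin e × 𝒯) T₃ m₃ (fun x => β₃ x.1)
    (fun x => hβ₃ x.1) (fun x => (num x.2.2).eval₂ (T₃.iota m₃) (T₃.TT m₃ (w₃ x.1 x.2.1)))
    (fun x => rc_eh_num T₃ m₃ hN1 hhm (hfc 0 he) hg (hint x.2.2) (hw₃ _ _))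
  replace hn := fun i j τ => hn (i, j, τ) (T.bI fun i => E.φ (β₃ i)) (rc_nU_le_bI _ _)
    (rc_mem_bI T (fun i => E.φ (β₃ i)) i)
  simp only [rc_tw_eval] at hn
  have hh₄ := rc_tw_h E h β₃ υ₃ hh₃
  have hβ₄ : ∀ i, T.aug (E.φ (β₃ i)) = 0 := fun i => (E.aug _).trans (hβ₃ i)
  have hf₄ := fun i r => rc_tw E (rc_map_bI E.toHom β₃) (hf₃ i r)
  simp only [rc_tw_f] at hf₄
  have hg₄ := fun i => rc_tw E (rc_map_bI E.toHom β₃) (hg₃ i)
  simp only [map_sub, E.tw_TT, E.tw_iota] at hg₄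
  have hJ := rc_h_J T m hh₄
  have hv1 := rc_vp1 T m ha haN hh hβ₄ hJ
  have hv : ∃ c, ∀ t, T.bI (fun i => E.φ (β₃ i)) ^ (a * t + c) ≤ T.nU ^ t :=
    sup_span_pow_le T.nU ha (fun i => T.mkU (E.φ (β₃ i))) hv1
  exact ⟨T, m, fun i => E.φ (β₃ i), fun i => E.φ (γ₃ i), E.tw υ₃, fun i j => E.φ (w₃ i j),
    fun i j τ => α (i, j, τ), hβ₄, hv1, hv, hh₄, hf₄, hg₄, hn, fun i j τ =>
      rc_vp2 T m hδ hL hN (rc_nU_le_bI _ _) hv (rc_mem_bI T (fun i => E.φ (β₃ i)) i) (hα _)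
        (hint τ) (w := fun j => E.φ (w₃ i j)) j (hJ i) (hf₄ i) (hg₄ i) (hn i j τ)⟩

theorem Tow.ThetaB_xi {p : ℕ} [Fact p.Prime] {l : Type} [Field l] [CharP l p] {n : ℕ}
    (T : Tow p l n) (s j m : ℕ) (β : T.B) :
    T.Th s j (T.xiW m β) = Ideal.Quotient.mk _ ((p : T.B) - β ^ p ^ (m + j + s)) := by
  rw [Tow.xiW, map_sub, map_natCast, T.Th_TT, map_sub, map_natCast]

/-- transfer of a relation modulo `(ξ) ⊔ SS` -/
theorem Tow.ThetaB_trans {p : ℕ} [Fact p.Prime] {l : Type} [Field l] [CharP l p] {n : ℕ}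
    (T : Tow p l n) (s m : ℕ) {𝔟 : Ideal T.U} {a N K₀ : ℕ}
    (h𝔟 : ∃ c, ∀ t, 𝔟 ^ (a * t + c) ≤ T.nU ^ t) (hN : a * K₀ < N) {β : T.B}
    (hβ : ∀ᶠ j in atTop, (p : T.B) ^ (s + 1) ∈
      kk (WittVector p l) n ((p : T.B) - β ^ p ^ (m + j + s)) (K₀ * p ^ (m + j + s)))
    {y : WittVector p T.U} (hy : y ∈ Ideal.span {T.xiW m β} ⊔ T.SS m 𝔟 N) :
    ∀ᶠ j in atTop, ∀ b, T.Th s j y = Ideal.Quotient.mk _ b →
      b ∈ kk (WittVector p l) n ((p : T.B) - β ^ p ^ (m + j + s)) (K₀ * p ^ (m + j + s)) := by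
  obtain ⟨u, σ, hσ, rfl⟩ := Ideal.mem_span_singleton_sup.1 hy
  filter_upwards [hβ, T.Th_small s m h𝔟 hN hσ] with j h1 ⟨b', hb', h2⟩ b hb
  obtain ⟨u', hu'⟩ := Ideal.Quotient.mk_surjective (T.Th s j u)
  rw [map_add, map_mul, h2, ← hu', T.ThetaB_xi, ← map_mul, ← map_add, eq_comm, Ideal.Quotient.eq,
    Ideal.span_singleton_pow, Ideal.mem_span_singleton'] at hb
  obtain ⟨z, hz⟩ := hb
  rw [← sub_add_cancel b (u' * ((p : T.B) - β ^ p ^ (m + j + s)) + b'), ← hz]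
  exact add_mem (Ideal.mul_mem_left _ _ h1) (Submodule.add_mem_sup
    (Ideal.mul_mem_left _ _ (Ideal.mem_span_singleton_self _)) hb')

/-- ROOTS THEOREM.  `L = 2 E K₀ + 1`, `N = a L δ + a K₀ + K₀ + 1`, `s = 2 a K₀ + 1 + K₀`,
`q = p^(m+j+s)` with `j` large (finitely many `∀ᶠ` conditions; coefficients `r > e` vanish),
`ξ i = p - β i ^ q`, `w := w ^ q`, `σ = Fr (m+j+s)`.  A relation `y ∈ (xiW) ⊔ SS` with `Th y = mk b`
gives `b ∈ kk ξ (K₀ q)` by `Th_TT`, `Th_small`, `p_small`. `β^q ∈ 𝔫` for `q` large (`T.nil`). -/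
theorem roots (n a e δ K₀ E : ℕ) (ha : 1 ≤ a) (he : 1 ≤ e) (hδ : 1 ≤ δ) (hE : 2 ≤ E) :
    ∃ N, K₀ ≤ N ∧ ∀ (p : ℕ) [Fact p.Prime] (l : Type) [Field l] [CharP l p] [PerfectRing l p]
      (h g : Pz (WittVector p l) n) (f : (Pz (WittVector p l) n)[X]) (𝒯 : Type) [Fintype 𝒯]
      (num : 𝒯 → (Pz (WittVector p l) n)[X]) (wt : 𝒯 → ℕ),
      h - MvPolynomial.C ((p : WittVector p l) ^ a) ∈ XI _ n → f.Monic → f.natDegree = e →
      (∀ r, r < e → f.coeff r ∈ XI _ n ⊔ Ideal.span {MvPolynomial.C (p : WittVector p l)}) →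
      g ∈ XI _ n → (∀ τ, Intg h g f N δ (wt τ) (num τ)) →
      ∃ (B : Type) (_ : CommRing B) (_ : Algebra (Pz (WittVector p l) n) B) (ρ : ℕ), 1 ≤ ρ ∧
        cl (Ideal.span {(p : B)} ⊔ nn (WittVector p l) n B) = ρ ∧
        ∀ Q : ℕ, ∃ q, Q ≤ q ∧ ∃ (σ : WittVector p l →+* WittVector p l) (ξ : Fin a → B) (υ : B)
          (γ : Fin a → B) (w : Fin a → Fin e → B) (u : Fin a → Fin e → 𝒯 → B),
          RootsAt (p : WittVector p l) ρ K₀ q (q / E + 1)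
            ((algebraMap (Pz (WittVector p l) n) B).comp (phiq n σ q)) h g f num wt ξ υ γ w u := by
  refine ⟨a * (2 * E * K₀ + 1) * δ + a * K₀ + K₀ + 1, by omega, ?_⟩
  intro p _ l _ _ _ h g f 𝒯 _ num wt hh hf hfd hfc hg hint
  obtain ⟨T, m, β, γ, υ, w, α, h1, h2, h3, h4, h5, h6, h7, h8⟩ :=
    roots_charp (L := 2 * E * K₀ + 1) ha he hδ (by omega) (by omega) h g f num wt hh hf hfd hfc hg hint
  obtain ⟨ρ, hρ1, hρ⟩ := T.exists_rho
  refine ⟨T.B, inferInstance, inferInstance, ρ, hρ1, hρ, fun Q => ?_⟩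
  obtain ⟨M, hM⟩ := T.nil
  obtain ⟨s, hs⟩ : ∃ s, s = 2 * a * K₀ + 1 + K₀ := ⟨_, rfl⟩
  have hN : a * K₀ < a * (2 * E * K₀ + 1) * δ + a * K₀ + K₀ + 1 := by omega
  have hp := fun i => T.p_small s m (K₀ := K₀) ha (by omega) (h1 i) (h2 i)
  have h4' : ∀ i, T.iota m h ∈ Ideal.span {T.xiW m (β i)} ⊔ T.SS m (T.bI β) _ := fun i => by
    rw [← add_sub_cancel (υ * ∏ i, T.xiW m (β i)) (T.iota m h)]
    exact Submodule.add_mem_sup (Ideal.mul_mem_left _ _ (Ideal.mem_span_singleton.2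
      (Finset.dvd_prod_of_mem _ (Finset.mem_univ i)))) h4
  obtain ⟨j, e0, e1, e2, e3, e4, e5, e6, e7⟩ := ((Tow.ThetaB_ev (p := p) m (Q + M + 2)).and <|
    (eventually_all.2 hp).and <| (T.Th_small s m h3 hN h4).and <|
    (eventually_all.2 fun i => T.ThetaB_trans s m h3 hN (hp i) (h4' i)).and <|
    (eventually_all.2 fun i => eventually_all.2 fun r : Fin (e + 1) =>
      T.ThetaB_trans s m h3 hN (hp i) (h5 i r)).and <|
    (eventually_all.2 fun i => T.ThetaB_trans s m h3 hN (hp i) (h6 i)).and <|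
    (eventually_all.2 fun i => eventually_all.2 fun j => eventually_all.2 fun τ =>
      T.ThetaB_trans s m h3 hN (hp i) (h7 i j τ)).and <|
    (eventually_all.2 fun i => eventually_all.2 fun j => eventually_all.2 fun τ =>
      T.root_split s m hE (h8 i j τ))).exists
  have hq : Q + M + 2 ≤ p ^ (m + j + s) :=
    e0.trans (Nat.pow_le_pow_right (Fact.out : p.Prime).pos (by omega))
  have hι : (T.Th s j).comp (T.iota m) = (Ideal.Quotient.mk _).comp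
      ((algebraMap (Pz (WittVector p l) n) T.B).comp
        (phiq n (Fr p l (m + j + s)) (p ^ (m + j + s)))) := RingHom.ext fun c => T.Th_iota s j m c
  have hι' := fun c => RingHom.congr_fun hι c
  simp only [RingHom.comp_apply (T.Th s j), RingHom.comp_apply (Ideal.Quotient.mk _)] at hι'
  have hT := T.Th_TT s j m
  have hξ := T.ThetaB_xi s j m
  choose u hu hu' using e7
  obtain ⟨υ', hυ⟩ := Ideal.Quotient.mk_surjective (T.Th s j υ)
  refine ⟨p ^ (m + j + s), by omega, Fr p l (m + j + s), fun i => p - β i ^ p ^ (m + j + s), υ', γ,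
    fun i j' => w i j' ^ p ^ (m + j + s), u, ?_⟩
  generalize (algebraMap (Pz (WittVector p l) n) T.B).comp
    (phiq n (Fr p l (m + j + s)) (p ^ (m + j + s))) = φ at *
  generalize p ^ (m + j + s) = q at *
  have hm : q / E + 1 ≤ q := by
    have : q / E ≤ q / 2 := Nat.div_le_div_left hE (by omega)
    omega
  have hβ : ∀ i, β i ^ q ∈ nn (WittVector p l) n T.B := fun i =>
    Ideal.pow_mem_of_pow_mem _ (hM (Ideal.pow_mem_pow (h1 i) M)) (by omega)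
  have r3 : ∀ i, γ i ^ q - φ g ∈ kk (WittVector p l) n (p - β i ^ q) (K₀ * q) := fun i =>
    e5 i _ (by rw [map_sub, map_sub, hT, hι'])
  refine ⟨hm, fun i => ⟨fun v hv => ?_, T.free, by simpa using hβ i, ?_⟩, ?_,
    fun i => e3 i _ (hι' h), fun i r => ?_, r3, hu, fun i j' τ => ?_⟩
  · exact (mul_eq_zero.1 hv).resolve_left (WittVector.p_nonzero p l)
  · rw [← hρ]
    congr 1
    refine le_antisymm (sup_le ?_ le_sup_right) (sup_le ?_ le_sup_right) <;>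
      rw [Ideal.span_singleton_le_iff_mem]
    · exact sub_mem (Ideal.mem_sup_left (Ideal.mem_span_singleton_self _))
        (Ideal.mem_sup_right (hβ i))
    · rw [← sub_add_cancel (p : T.B) (β i ^ q), add_sub_cancel_right]
      exact Submodule.add_mem_sup (Ideal.mem_span_singleton_self _) (hβ i)
  · obtain ⟨b, hb, hb'⟩ := e2
    rw [map_sub, map_mul, map_prod, hι', ← hυ] at hb'
    simp only [hξ] at hb'
    rw [← map_prod, ← map_mul, ← map_sub, Ideal.Quotient.eq, Ideal.span_singleton_pow] at hb'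
    rw [← add_sub_cancel b (φ h - υ' * ∏ i, ((p : T.B) - β i ^ q)), map_natCast, map_natCast]
    exact Submodule.add_mem_sup hb
      (Ideal.span_singleton_le_span_singleton.2 (pow_dvd_pow _ (by omega)) hb')
  · by_cases hr : r < e + 1
    · refine e4 i ⟨r, hr⟩ _ ?_
      rw [← coeff_map, ← coeff_map, Polynomial.map_sub, Polynomial.map_sub, Polynomial.map_map,
        Polynomial.map_map, hι, Polynomial.map_prod, Polynomial.map_prod]
      simp only [Polynomial.map_sub, map_X, map_C, hT]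
    · rw [coeff_eq_zero_of_natDegree_lt]
      · exact zero_mem _
      refine ((natDegree_sub_le _ _).trans (max_le (natDegree_map_le.trans hfd.le) ?_)).trans_lt
        (show e < r by omega)
      refine (natDegree_prod_le _ _).trans ((Finset.sum_le_card_nsmul _ _ 1 fun x _ =>
        natDegree_X_sub_C_le _).trans ?_)
      simp
  · have a1 : α i j' τ ^ q - (num τ).eval₂ φ (w i j' ^ q) ∈
        kk (WittVector p l) n (p - β i ^ q) (K₀ * q) :=
      e6 i j' τ _ (by rw [map_sub, map_sub, hT, hom_eval₂, hom_eval₂, hι, hT])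
    have a2 : α i j' τ ^ q - γ i ^ (q - (q / E + 1)) * u i j' τ ∈
        kk (WittVector p l) n (p - β i ^ q) (K₀ * q) := by
      refine (sup_le le_sup_right ?_ : _ ≤ kk _ _ _ _) (hu' i j' τ)
      rw [Ideal.span_singleton_pow, Ideal.span_singleton_le_iff_mem]
      exact e1 i
    have a3 : γ i ^ q = γ i ^ (q / E + 1) * γ i ^ (q - (q / E + 1)) := by
      rw [← pow_add, Nat.add_sub_cancel' hm]
    convert sub_mem (Ideal.mul_mem_left _ (γ i ^ (q / E + 1)) (sub_mem a1 a2))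
      (Ideal.mul_mem_right (u i j' τ) _ (r3 i)) using 1
    rw [a3]
    ring

end Crest.Agent.R183
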