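import Crest.Agent.R183.Main1

/-! # R183 / Top : reductions to the complete setup; Lech's inequality. -/

set_option autoImplicit false
open IsLocalRing MvPowerSeries
open scoped ENNReal

namespace Crest.Agent.R183

/-- `cl_map_eq_of_flat`, `Ideal.map_pow`. -/
theorem HS_eq_of_flat {A B : Type} [CommRing A] [CommRing B] [IsLocalRing A] [IsLocalRing B]
    (f : A →+* B) (hf : f.Flat) (hm : (maximalIdeal A).map f = maximalIdeal B) : HS B = HS A := by
  funext N
  rw [HS, HS, ← hm, ← Ideal.map_pow, cl_map_eq_of_flat f hf hm]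

theorem HS_ne_top (A : Type) [CommRing A] [IsLocalRing A] [IsNoetherianRing A] (N : ℕ) :
    HS A N ≠ ⊤ := by
  exact cl_ne_top_of_pow_le (maximalIdeal A) le_rfl

/-- `exists_eval` at generators of `𝔪_P`; `surjective_of_mk_map_comp_surjective` with `I = 𝔪_{PS}`
(`PS.max_eq`). -/
theorem exists_ps_surj {C₀ P : Type} [CommRing C₀] [CLN C₀] [CommRing P] [IsLocalRing P]
    [IsAdicComplete (maximalIdeal P) P] (hfg : (maximalIdeal P).FG) (ρ : C₀ →+* P)
    (hloc : (maximalIdeal C₀).map ρ ≤ maximalIdeal P) (hres : ∀ r, ∃ x, r - ρ x ∈ maximalIdeal P) :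
    ∃ (r : ℕ) (ev : PS r C₀ →+* P), Function.Surjective ev ∧
      (maximalIdeal (PS r C₀)).map ev = maximalIdeal P := by
  obtain ⟨r, x, hx⟩ := Submodule.fg_iff_exists_fin_generating_family.1 hfg
  obtain ⟨ev, h1, h2⟩ := exists_eval ρ (maximalIdeal P) x fun i =>
    hx ▸ Submodule.subset_span ⟨i, rfl⟩
  have h3 : (maximalIdeal (PS r C₀)).map ev = maximalIdeal P := by
    have e1 : ev.comp C = ρ := RingHom.ext h1
    have e2 : (XP r C₀).map ev = maximalIdeal P := by
      rw [XP, Ideal.map_span, ← Set.range_comp, show ev ∘ X = x from funext h2]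
      exact hx
    rw [PS.max_eq, Ideal.map_sup, Ideal.map_map, e1, e2, sup_eq_right.2 hloc]
  refine ⟨r, ev, ?_, h3⟩
  have : IsHausdorff ((maximalIdeal (PS r C₀)).map ev) P := by
    rw [h3]
    infer_instance
  refine surjective_of_mk_map_comp_surjective (I := maximalIdeal (PS r C₀)) ev fun y => ?_
  obtain ⟨y, rfl⟩ := Ideal.Quotient.mk_surjective y
  obtain ⟨c, hc⟩ := hres y
  refine ⟨C c, ?_⟩
  rw [RingHom.comp_apply, h1, eq_comm, Ideal.Quotient.eq, h3]
  exact hc

/-- `p^n ∈ 𝔪^(n+1)` would give, by `mem_sup_XP_pow_iff` at `μ = 0`, `p^n ∈ (p^(n+1))` in `W`. -/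
theorem pow_not_mem_PS {W : Type} [CommRing W] [Coef W] {p : ℕ}
    (hW : maximalIdeal W = Ideal.span {(p : W)}) (h0 : (p : W) ≠ 0) (c n : ℕ) :
    (p : PS c W) ^ n ∉ maximalIdeal (PS c W) ^ (n + 1) := by
  intro h
  rw [PS.max_eq, mem_sup_XP_pow_iff] at h
  have h1 := h 0
  rw [map_zero, Nat.sub_zero, coeff_zero_eq_constantCoeff_apply, map_pow, map_natCast, hW,
    Ideal.span_singleton_pow, Ideal.mem_span_singleton] at h1
  obtain ⟨a, ha⟩ := h1
  rw [pow_succ, mul_assoc, left_eq_mul₀ (pow_ne_zero n h0)] at ha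
  have h2 : (p : W) ∈ maximalIdeal W := hW ▸ Ideal.mem_span_singleton_self _
  exact h2 (IsUnit.of_mul_eq_one a ha)

theorem topb_core {P : Type} [CommRing P] [IsLocalRing P] [IsAdicComplete (maximalIdeal P) P]
    (hfg : (maximalIdeal P).FG) {l : Type} [Field l] (φ : P →+* l) [IsLocalHom φ] (W : Type)
    [CommRing W] [Coef W] (πW : W →+* l) (hs : Function.Surjective πW) (p : ℕ) [CharP l p]
    (hW : maximalIdeal W = Ideal.span {(p : W)}) (hp : p ≠ 0 → (p : W) ≠ 0) :
    ∃ (c : ℕ) (S'' : Type) (_ : CommRing S'') (_ : CLN S'') (g : P →+* S'') (ψ : PS c W →+* S''),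
      g.Flat ∧ (maximalIdeal P).map g = maximalIdeal S'' ∧ Function.Surjective ψ := by
  have : CharP (ResidueField l) p := (RingHom.charP_iff_charP (residue l) p).1 ‹_›
  obtain ⟨C₀, _, _, ρ, σ, -, hres, hC, hσ⟩ := exists_coef_pair φ πW hs p fun h0 n hn => by
    rw [hW, Ideal.span_singleton_pow, Ideal.mem_span_singleton,
      pow_dvd_pow_iff (hp h0) ((mem_maximalIdeal _).1 (hW.ge (Ideal.mem_span_singleton_self _)))] at hn
    omega
  obtain ⟨r, ev, hev, hm⟩ := exists_ps_surj hfg ρ (by
    rw [hC, Ideal.map_span, Set.image_singleton, map_natCast, Ideal.span_singleton_le_iff_mem]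
    exact fun hu => (hu.map φ).ne_zero (by rw [map_natCast, CharP.cast_eq_zero])) hres
  have hfl : σ.Flat := by
    let := σ.toAlgebra
    have : FaithfulSMul C₀ W := (faithfulSMul_iff_algebraMap_injective C₀ W).2 hσ
    exact RingHom.flat_algebraMap_iff.2 inferInstance
  have hmax : (maximalIdeal (PS r C₀)).map (MvPowerSeries.map σ) = maximalIdeal (PS r W) := by
    have e : (MvPowerSeries.map (σ := Fin r) σ).comp C = C.comp σ :=
      RingHom.ext fun a => MvPowerSeries.map_C σ a
    rw [PS.max_eq, PS.max_eq, Ideal.map_sup, Ideal.map_map, e, ← Ideal.map_map, hC, hW,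
      Ideal.map_span σ, Set.image_singleton, map_natCast, XP, XP,
      Ideal.map_span (MvPowerSeries.map σ), ← Set.range_comp]
    simp only [Function.comp_def, MvPowerSeries.map_X]
  have hnt : Nontrivial (PS r W ⧸ (RingHom.ker ev).map (MvPowerSeries.map σ)) :=
    Ideal.Quotient.nontrivial_iff.2 (ne_top_of_le_ne_top (maximalIdeal.isMaximal _).ne_top
      ((Ideal.map_mono (le_maximalIdeal (RingHom.ker_ne_top ev))).trans hmax.le))
  have hcln := cln_of_surj (Ideal.Quotient.mk ((RingHom.ker ev).map (MvPowerSeries.map σ)))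
    Ideal.Quotient.mk_surjective
  refine ⟨r, _, _, hcln, (Ideal.quotientMap _ (MvPowerSeries.map σ) Ideal.le_comap_map).comp
    (RingHom.quotientKerEquivOfSurjective hev).symm.toRingHom, Ideal.Quotient.mk _,
    (RingHom.Flat.of_bijective (RingEquiv.bijective _)).comp
      (flat_quotientMap _ (PS.flat_map σ hfl) _), ?_, Ideal.Quotient.mk_surjective⟩
  rw [← hm, Ideal.map_map, ← map_maximalIdeal_of_surjective (Ideal.Quotient.mk _)
    Ideal.Quotient.mk_surjective, ← hmax, Ideal.map_map]
  congr 1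
  refine RingHom.ext fun a => ?_
  have e : (RingHom.quotientKerEquivOfSurjective hev).symm (ev a) = Ideal.Quotient.mk _ a :=
    (RingEquiv.symm_apply_eq _).2 rfl
  exact (congrArg (Ideal.quotientMap _ (MvPowerSeries.map σ) Ideal.le_comap_map) e).trans
    Ideal.quotientMap_mk

/-- GONFLEMENT.  `Ŝ = AdicCompletion 𝔫 S`; `exists_coef_pair` for `Ŝ → l ← W` (the map `Ŝ → l` through
`AdicCompletion.residueField_map_bijective`), `exists_ps_surj`,
`S'' = PS c W ⧸ (ker ev).map (MvPowerSeries.map σ)`; flat by `AdicCompletion.flat_of_isNoetherian`,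
`flat_quotientMap`, `PS.flat_map` (`σ` is flat: torsion-free over a PID),
`RingHom.quotientKerEquivOfSurjective`; `𝔪_{PS c C₀}` generates `𝔪_{PS c W}` (`PS.max_eq`). -/
theorem exists_gonf (S : Type) [CommRing S] [IsNoetherianRing S] [IsLocalRing S] {l : Type} [Field l]
    (ι : ResidueField S →+* l) (W : Type) [CommRing W] [Coef W] (πW : W →+* l)
    (hs : Function.Surjective πW) (p : ℕ) [CharP l p] (hW : maximalIdeal W = Ideal.span {(p : W)})
    (hp : p ≠ 0 → (p : W) ≠ 0) :
    ∃ (c : ℕ) (S'' : Type) (_ : CommRing S'') (_ : CLN S'') (g : S →+* S'') (ψ : PS c W →+* S''),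
      g.Flat ∧ (maximalIdeal S).map g = maximalIdeal S'' ∧ Function.Surjective ψ := by
  obtain ⟨c, S'', _, _, g, ψ, h1, h2, h3⟩ := topb_core (P := AdicCompletion (maximalIdeal S) S)
    (by rw [AdicCompletion.maximalIdeal_eq_map]; exact (maximalIdeal S).fg_of_isNoetherianRing.map _)
    ((ι.comp (RingEquiv.ofBijective _
      (AdicCompletion.residueField_map_bijective S)).symm.toRingHom).comp (residue _))
    W πW hs p hW hp
  refine ⟨c, S'', _, ‹_›, g.comp (algebraMap S _), ψ,
    (RingHom.flat_algebraMap_iff.2 inferInstance).comp h1, ?_, h3⟩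
  rw [← Ideal.map_map, ← AdicCompletion.maximalIdeal_eq_map, h2]

/-- the residue field of a quotient of `PS c W` is that of `W`. -/
theorem residue_equiv_of_surj {W S l : Type} [CommRing W] [IsLocalRing W] [CommRing S]
    [IsLocalRing S] [Field l] (πW : W →+* l) (hs : Function.Surjective πW) {c : ℕ}
    (ψ : PS c W →+* S) (hψ : Function.Surjective ψ) : Nonempty (ResidueField S ≃+* l) := by
  have h1 : Function.Surjective ((residue S).comp ψ) := residue_surjective.comp hψ
  have h2 : Function.Surjective (πW.comp (constantCoeff : PS c W →+* W)) :=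
    hs.comp fun a => ⟨C a, constantCoeff_C a⟩
  have e := (eq_maximalIdeal (RingHom.ker_isMaximal_of_surjective _ h1)).trans
    (eq_maximalIdeal (RingHom.ker_isMaximal_of_surjective _ h2)).symm
  exact ⟨(RingHom.quotientKerEquivOfSurjective h1).symm.trans
    ((Ideal.quotEquivOfEq e).trans (RingHom.quotientKerEquivOfSurjective h2))⟩

/-- `l = AlgebraicClosure (ResidueField S)`, `p = ringChar l`; `W = l` if `p = 0`, else `W = 𝕎 l`
(`Coef.of_witt`, `WittVector.constantCoeff`); `lechDom_field`, `lechDom_witt`,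
`IsAlgClosed.of_ringEquiv`. -/
theorem exists_gonf' (S : Type) [CommRing S] [IsNoetherianRing S] [IsLocalRing S] :
    ∃ (W : Type) (_ : CommRing W) (_ : Coef W) (p c : ℕ) (S'' : Type) (_ : CommRing S'')
      (_ : CLN S'') (g : S →+* S'') (ψ : PS c W →+* S''), g.Flat ∧
      (maximalIdeal S).map g = maximalIdeal S'' ∧ Function.Surjective ψ ∧
      IsAlgClosed (ResidueField S'') ∧ CharP (ResidueField S'') p ∧
      maximalIdeal W = Ideal.span {(p : W)} ∧ (p ≠ 0 → (p : W) ≠ 0) ∧ LechDom W (p : W) := by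
  let l := AlgebraicClosure (ResidueField S)
  obtain ⟨p, hp⟩ := CharP.exists l
  have key : ∀ (W : Type) [CommRing W] [Coef W] (πW : W →+* l), Function.Surjective πW →
      maximalIdeal W = Ideal.span {(p : W)} → (p ≠ 0 → (p : W) ≠ 0) → LechDom W (p : W) →
      ∃ (W : Type) (_ : CommRing W) (_ : Coef W) (p c : ℕ) (S'' : Type) (_ : CommRing S'')
        (_ : CLN S'') (g : S →+* S'') (ψ : PS c W →+* S''), g.Flat ∧
        (maximalIdeal S).map g = maximalIdeal S'' ∧ Function.Surjective ψ ∧
        IsAlgClosed (ResidueField S'') ∧ CharP (ResidueField S'') p ∧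
        maximalIdeal W = Ideal.span {(p : W)} ∧ (p ≠ 0 → (p : W) ≠ 0) ∧ LechDom W (p : W) := by
    intro W _ _ πW hs hW h0 hL
    obtain ⟨c, S'', _, _, g, ψ, h1, h2, h3⟩ :=
      exists_gonf S (algebraMap (ResidueField S) l) W πW hs p hW h0
    obtain ⟨e⟩ := residue_equiv_of_surj πW hs ψ h3
    exact ⟨W, _, ‹_›, p, c, S'', _, ‹_›, g, ψ, h1, h2, h3, IsAlgClosed.of_ringEquiv l _ e.symm,
      charP_of_injective_ringHom (f := e.symm.toRingHom) e.symm.injective p, hW, h0, hL⟩
  rcases CharP.char_is_prime_or_zero l p with h | rfl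
  · have : Fact p.Prime := ⟨h⟩
    obtain ⟨_, h1, h2⟩ := Coef.of_witt p l
    exact key (WittVector p l) WittVector.constantCoeff
      (fun x => ⟨WittVector.teichmuller p x, by simp⟩) h1 (fun _ => h2) (lechDom_witt p l)
  · have := Coef.of_field l
    refine key l (RingHom.id l) Function.surjective_id ?_ (fun h => absurd rfl h) ?_
    · rw [maximalIdeal_eq_bot, Nat.cast_zero, Ideal.span_singleton_zero]
    · rw [Nat.cast_zero]
      exact lechDom_field l

/-- `IsAdicComplete.liftRingHom` with `AdicCompletion.evalₐ` and `Ideal.quotientMap`. -/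
theorem exists_compl_lift {R S : Type} [CommRing R] [IsNoetherianRing R] [IsLocalRing R]
    [CommRing S] [CLN S] (f : R →+* S) [IsLocalHom f] :
    ∃ φ : AdicCompletion (maximalIdeal R) R →+* S,
      φ.comp (algebraMap R (AdicCompletion (maximalIdeal R) R)) = f ∧ IsLocalHom φ := by
  have hle : ∀ n, maximalIdeal R ^ n ≤ (maximalIdeal S ^ n).comap f := fun n x hx => Cd_map_pow f hx
  let F : (n : ℕ) → AdicCompletion (maximalIdeal R) R →+* S ⧸ maximalIdeal S ^ n := fun n =>
    (Ideal.quotientMap _ f (hle n)).comp (AdicCompletion.evalₐ (maximalIdeal R) n : _ →+* _)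
  have hF : ∀ {m n : ℕ} (h : m ≤ n),
      (Ideal.Quotient.factorPow (maximalIdeal S) h).comp (F n) = F m := by
    intro m n h
    refine RingHom.ext fun x => ?_
    obtain ⟨a, rfl⟩ := AdicCompletion.mk_surjective (maximalIdeal R) R x
    have h1 : a.val n - a.val m ∈ maximalIdeal R ^ m := by
      have h2 := (a.2 h).symm
      rw [SModEq.sub_mem] at h2
      simpa using h2
    simp only [F, RingHom.comp_apply, RingHom.coe_coe, AdicCompletion.evalₐ_mk,
      Ideal.quotientMap_mk]
    change Ideal.Quotient.mk _ (f (a.val n)) = _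
    rw [Ideal.Quotient.eq, ← map_sub]
    exact hle m h1
  have hc : (IsAdicComplete.liftRingHom (maximalIdeal S) F hF).comp
      (algebraMap R (AdicCompletion (maximalIdeal R) R)) = f := by
    apply DFunLike.coe_injective
    apply IsHausdorff.funext' (maximalIdeal S)
    intro n x
    rw [RingHom.comp_apply, IsAdicComplete.mk_liftRingHom]
    simp only [F, RingHom.comp_apply, RingHom.coe_coe, AlgHom.commutes,
      Ideal.Quotient.algebraMap_eq, Ideal.quotientMap_mk]
  refine ⟨_, hc, ((local_hom_TFAE _).out 2 0).1 ?_⟩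
  rw [AdicCompletion.maximalIdeal_eq_map, Ideal.map_map, hc]
  exact map_maximalIdeal_le f

theorem topc_dense {R : Type} [CommRing R] (I : Ideal R) (hI : I.FG) (n : ℕ)
    (x : AdicCompletion I R) :
    ∃ x₀, x - algebraMap R _ x₀ ∈ I.map (algebraMap R (AdicCompletion I R)) ^ n := by
  obtain ⟨x₀, hx⟩ := Submodule.Quotient.mk_surjective _ (AdicCompletion.eval I R n x)
  refine ⟨x₀, ?_⟩
  have h1 : x - AdicCompletion.of I R x₀ ∈ (AdicCompletion.eval I R n).ker := by
    rw [LinearMap.mem_ker, map_sub, AdicCompletion.eval_of, ← hx, Submodule.mkQ_apply, sub_self]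
  rw [← AdicCompletion.pow_smul_top_eq_ker_eval hI, Ideal.smul_top_eq_map,
    Submodule.restrictScalars_mem, Ideal.map_pow] at h1
  exact h1

/-- `R̂ = AdicCompletion 𝔪 R`, `exists_compl_lift`, `exists_coef_pair` (`pow_not_mem_PS`),
`exists_ps_surj` (so `R̂` is Noetherian), `flat_of_dense` (`A₀ = R`, `B₀ = B = S`, density from
`AdicCompletion.pow_smul_top_eq_ker_eval`), `letI := σ.toAlgebra`. -/
theorem exists_setup {R S : Type} [CommRing R] [IsNoetherianRing R] [IsLocalRing R]
    [Infinite (ResidueField R)] [CommRing S] [CLN S] (f : R →+* S) [IsLocalHom f] (hf : f.Flat)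
    (hprim : ∃ N, maximalIdeal S ^ N ≤ (maximalIdeal R).map f) {W : Type} [CommRing W] [Coef W]
    {p c : ℕ} (ψ : PS c W →+* S) (hψ : Function.Surjective ψ) [CharP (ResidueField S) p]
    (hW : maximalIdeal W = Ideal.span {(p : W)}) (hp : p ≠ 0 → (p : W) ≠ 0) :
    ∃ (R' : Type) (_ : CommRing R') (_ : CLN R') (α : R →+* R') (C₀ : Type) (_ : CommRing C₀)
      (_ : Coef C₀) (_ : Algebra C₀ (PS c W)) (φ : R' →+* S) (ρ : C₀ →+* R'), α.Flat ∧
      (maximalIdeal R).map α = maximalIdeal R' ∧ Setup (p : W) (p : C₀) φ ρ ψ := by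
  obtain ⟨φ, hc, hφ⟩ := exists_compl_lift f
  have hm := (AdicCompletion.maximalIdeal_eq_map (R := R)).symm
  obtain ⟨C₀, _, _, ρ, σ, hsq, hres, hC, hσ⟩ :=
    exists_coef_pair φ ψ hψ p fun h0 => pow_not_mem_PS hW (hp h0) c
  have hloc : (maximalIdeal C₀).map ρ ≤ maximalIdeal (AdicCompletion (maximalIdeal R) R) := by
    rw [hC, Ideal.map_span, Set.image_singleton, map_natCast, Ideal.span_singleton_le_iff_mem]
    exact fun hu => (hu.map ((residue S).comp φ)).ne_zero (by rw [map_natCast, CharP.cast_eq_zero])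
  obtain ⟨r, ev, hev, -⟩ := exists_ps_surj
    (by rw [← hm]; exact (maximalIdeal R).fg_of_isNoetherianRing.map _) ρ hloc hres
  have hN : IsNoetherianRing (AdicCompletion (maximalIdeal R) R) :=
    isNoetherianRing_of_surjective _ _ ev hev
  have hcln : CLN (AdicCompletion (maximalIdeal R) R) := { noeth := hN, compl := inferInstance }
  have hmap : ∀ J : Ideal R, (J.map (algebraMap R (AdicCompletion (maximalIdeal R) R))).map φ =
      J.map f := fun J => by rw [Ideal.map_map, hc]
  have hfl : φ.Flat := by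
    refine flat_of_dense f hf (algebraMap R _) (RingHom.id S) φ (by rw [hc, RingHom.id_comp])
      (maximalIdeal R) ?_ (topc_dense _ (maximalIdeal R).fg_of_isNoetherianRing)
      (fun n y => ⟨y, by rw [RingHom.id_apply, sub_self]; exact Submodule.zero_mem _⟩) ?_
    · rw [hmap, jacobson_eq_maximalIdeal ⊥ bot_ne_top]
      exact map_maximalIdeal_le f
    · intro n y hy
      rwa [← Ideal.map_pow, hmap] at hy
  have hρ : IsLocalHom ρ := ((local_hom_TFAE ρ).out 2 0).1 hloc
  have hinf : Infinite (ResidueField C₀) := by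
    have h1 : Infinite (ResidueField (AdicCompletion (maximalIdeal R) R)) :=
      Infinite.of_injective _ (AdicCompletion.residueField_map_bijective R).1
    refine Infinite.of_surjective (ResidueField.map ρ) fun y => ?_
    obtain ⟨y, rfl⟩ := residue_surjective y
    obtain ⟨x, hx⟩ := hres y
    refine ⟨residue _ x, ?_⟩
    rw [ResidueField.map_residue, eq_comm]
    exact Ideal.Quotient.eq.2 hx
  refine ⟨AdicCompletion (maximalIdeal R) R, _, hcln, algebraMap R _, C₀, _, ‹_›, σ.toAlgebra, φ, ρ,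
    RingHom.flat_algebraMap_iff.2 inferInstance, hm, ?_⟩
  let := σ.toAlgebra
  refine ⟨⟨hW, hC, by rw [map_natCast, map_natCast], hσ, hinf⟩, hφ, hfl, hres, hψ,
    fun x => RingHom.congr_fun hsq x, ?_⟩
  obtain ⟨N, hN⟩ := hprim
  exact ⟨N, by rwa [← hm, hmap]⟩

theorem topd_flat_map {R S : Type} [CommRing R] [CommRing S] (f : R →+* S) (hf : f.Flat) :
    (Polynomial.mapRingHom f).Flat := by
  let := f.toAlgebra
  let : Algebra (Polynomial R) (Polynomial S) := Polynomial.algebra R S
  exact RingHom.Flat.isStableUnderBaseChange R S (Polynomial R) (Polynomial S) hf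

theorem topd_flat_loc (R : Type) [CommRing R] (P : Ideal (Polynomial R)) [P.IsPrime] :
    ((algebraMap (Polynomial R) (Localization.AtPrime P)).comp Polynomial.C).Flat :=
  RingHom.Flat.comp (f := algebraMap R (Polynomial R))
    (RingHom.flat_algebraMap_iff.2 inferInstance) (RingHom.flat_algebraMap_iff.2 inferInstance)

theorem topd_inf (R : Type) [CommRing R] [IsLocalRing R] :
    Infinite (ResidueField (Localization.AtPrime ((maximalIdeal R).map Polynomial.C))) := by
  refine Infinite.of_injective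
    (fun n : ℕ => residue _ (algebraMap (Polynomial R) _ (Polynomial.X ^ n))) fun n m h => ?_
  by_contra hnm
  have h1 := Ideal.Quotient.eq.1 h
  rw [← map_sub, IsLocalization.AtPrime.to_map_mem_maximal_iff _
    ((maximalIdeal R).map Polynomial.C), Ideal.mem_map_C_iff] at h1
  have h2 := h1 n
  rw [Polynomial.coeff_sub, Polynomial.coeff_X_pow_self, Polynomial.coeff_X_pow, if_neg hnm,
    sub_zero] at h2
  exact (maximalIdeal.isMaximal R).ne_top ((Ideal.eq_top_iff_one _).2 h2)

/-- `A(Y) = A[Y]` localised at `𝔪 A[Y]` (`Ideal.isPrime_map_C_of_isPrime`) -/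
theorem exists_RY {R S : Type} [CommRing R] [IsNoetherianRing R] [IsLocalRing R] [CommRing S]
    [IsNoetherianRing S] [IsLocalRing S] (f : R →+* S) [IsLocalHom f] (hf : f.Flat) :
    ∃ (R' S' : Type) (_ : CommRing R') (_ : IsNoetherianRing R') (_ : IsLocalRing R')
      (_ : CommRing S') (_ : IsNoetherianRing S') (_ : IsLocalRing S') (α : R →+* R') (β : S →+* S')
      (f' : R' →+* S'), α.Flat ∧ β.Flat ∧ f'.Flat ∧ IsLocalHom f' ∧ f'.comp α = β.comp f ∧
      (maximalIdeal R).map α = maximalIdeal R' ∧ (maximalIdeal S).map β = maximalIdeal S' ∧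
      Infinite (ResidueField R') := by
  have hc : (maximalIdeal R).map Polynomial.C =
      ((maximalIdeal S).map Polynomial.C).comap (Polynomial.mapRingHom f) := by
    ext q
    simp only [Ideal.mem_comap, Ideal.mem_map_C_iff, Polynomial.coe_mapRingHom,
      Polynomial.coeff_map, mem_maximalIdeal, mem_nonunits_iff, isUnit_map_iff]
  refine ⟨Localization.AtPrime ((maximalIdeal R).map Polynomial.C),
    Localization.AtPrime ((maximalIdeal S).map Polynomial.C), inferInstance, inferInstance,
    inferInstance, inferInstance, inferInstance, inferInstance,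
    (algebraMap (Polynomial R) _).comp Polynomial.C, (algebraMap (Polynomial S) _).comp Polynomial.C,
    Localization.localRingHom _ _ _ hc, topd_flat_loc R _, topd_flat_loc S _,
    (topd_flat_map f hf).localRingHom _ _ hc, Localization.isLocalHom_localRingHom _ _ _ hc, ?_, ?_,
    ?_, topd_inf R⟩
  · ext r
    simp only [RingHom.comp_apply, Localization.localRingHom_to_map, Polynomial.coe_mapRingHom,
      Polynomial.map_C]
  · rw [← Ideal.map_map, Localization.AtPrime.map_eq_maximalIdeal]
  · rw [← Ideal.map_map, Localization.AtPrime.map_eq_maximalIdeal]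

theorem topd_local {A B : Type} [CommRing A] [CommRing B] [IsLocalRing A] [IsLocalRing B]
    (f : A →+* B) (hm : (maximalIdeal A).map f = maximalIdeal B) : IsLocalHom f :=
  ((local_hom_TFAE f).out 2 0).1 hm.le

/-- ARTINIAN FIBRE.  `exists_RY`, `exists_gonf'`, `exists_setup`, `lech_setup`, `HS_eq_of_flat`,
`Sop.map` (a map with `𝔪.map = 𝔪'` is local: `IsLocalRing.local_hom_TFAE`). -/
theorem main0 {R S : Type} [CommRing R] [IsNoetherianRing R] [IsLocalRing R] [CommRing S]
    [IsNoetherianRing S] [IsLocalRing S] (f : R →+* S) [IsLocalHom f] (hf : f.Flat)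
    (hprim : ∃ N, maximalIdeal S ^ N ≤ (maximalIdeal R).map f) {d : ℕ} (hS : Sop R d) :
    up d (HS R) ≤ lo d (HS S) := by
  obtain ⟨R', S', _, _, _, _, _, _, α, β, f', hα, hβ, hf', _, hc, mα, mβ, _⟩ := exists_RY f hf
  obtain ⟨W, _, _, p, c, S'', _, _, g, ψ, hg, mg, hψ, -, _, hW, hp, hL⟩ := exists_gonf' S'
  have := topd_local g mg
  have := topd_local α mα
  have hprim' : ∃ N, maximalIdeal S'' ^ N ≤ (maximalIdeal R').map (g.comp f') := by
    obtain ⟨N, hN⟩ := hprim
    refine ⟨N, ?_⟩
    rw [← mg, ← mβ, ← mα, ← Ideal.map_pow, ← Ideal.map_pow, ← Ideal.map_map, Ideal.map_map α, hc,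
      ← Ideal.map_map]
    exact Ideal.map_mono (Ideal.map_mono hN)
  obtain ⟨R'', _, _, α', C₀, _, _, _, φ, ρ, hα', mα', H⟩ :=
    exists_setup (g.comp f') (hf'.comp hg) hprim' ψ hψ hW hp
  have := topd_local α' mα'
  have h := lech_setup hL H ((hS.map α ⟨1, by rw [pow_one, mα]⟩).map α' ⟨1, by rw [pow_one, mα']⟩)
  rwa [HS_eq_of_flat α' hα' mα', HS_eq_of_flat α hα mα, HS_eq_of_flat g hg mg,
    HS_eq_of_flat β hβ mβ] at h

theorem tope_height {R S : Type} [CommRing R] [IsNoetherianRing R] [IsLocalRing R] [CommRing S]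
    [IsNoetherianRing S] (f : R →+* S) (hf : f.Flat) (P : Ideal S) [hP : P.IsPrime]
    (h : (maximalIdeal R).map f ≤ P) : P.height = (maximalIdeal R).height +
      (P.map (Ideal.Quotient.mk ((maximalIdeal R).map f))).height := by
  let := f.toAlgebra
  have : Module.Flat R S := hf
  have : P.LiesOver (maximalIdeal R) := ⟨(maximalIdeal.isMaximal R).eq_of_le
    (Ideal.comap_ne_top f hP.ne_top) (Ideal.map_le_iff_le_comap.1 h)⟩
  exact Ideal.height_eq_height_add_of_liesOver_of_hasGoingDown _ P

theorem tope_map_le {R S : Type} [CommRing R] [IsLocalRing R] [CommRing S] [IsLocalRing S]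
    (f : R →+* S) : IsLocalHom f ↔ (maximalIdeal R).map f ≤ maximalIdeal S :=
  (local_hom_TFAE f).out 0 2

theorem tope_ht {R : Type} [CommRing R] [IsLocalRing R] {d : ℕ} (hd : ringKrullDim R = d) :
    (maximalIdeal R).height = d := by
  rw [← IsLocalRing.maximalIdeal_height_eq_ringKrullDim] at hd
  exact_mod_cast hd

/-- `Ideal.height_eq_height_add_of_liesOver_of_hasGoingDown`,
`IsLocalRing.maximalIdeal_height_eq_ringKrullDim`. -/
theorem dim_flat {R S : Type} [CommRing R] [IsNoetherianRing R] [IsLocalRing R] [CommRing S]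
    [IsNoetherianRing S] [IsLocalRing S] (f : R →+* S) [IsLocalHom f] (hf : f.Flat) :
    (maximalIdeal S).height = (maximalIdeal R).height +
      ((maximalIdeal S).map (Ideal.Quotient.mk ((maximalIdeal R).map f))).height := by
  exact tope_height f hf _ ((tope_map_le f).1 ‹_›)

theorem dim_eq_of_flat {R S : Type} [CommRing R] [IsNoetherianRing R] [IsLocalRing R] [CommRing S]
    [IsNoetherianRing S] [IsLocalRing S] (f : R →+* S) (hf : f.Flat)
    (hm : (maximalIdeal R).map f = maximalIdeal S) : ringKrullDim S = ringKrullDim R := by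
  have h := tope_height f hf _ hm.le
  rw [hm, Ideal.map_quotient_self, Ideal.height_bot, add_zero] at h
  rw [← IsLocalRing.maximalIdeal_height_eq_ringKrullDim, ← IsLocalRing.maximalIdeal_height_eq_ringKrullDim, h]

theorem dim_le_of_flat {R S : Type} [CommRing R] [IsNoetherianRing R] [IsLocalRing R] [CommRing S]
    [IsNoetherianRing S] [IsLocalRing S] (f : R →+* S) [IsLocalHom f] (hf : f.Flat) :
    ringKrullDim R ≤ ringKrullDim S := by
  rw [← IsLocalRing.maximalIdeal_height_eq_ringKrullDim, ← IsLocalRing.maximalIdeal_height_eq_ringKrullDim,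
    dim_flat f hf]
  exact WithBot.coe_le_coe.2 le_self_add

/-- height `0` in the fibre: `𝔫` is minimal over `𝔪 S`, so it is the radical. -/
theorem prim_of_dim_eq {R S : Type} [CommRing R] [IsNoetherianRing R] [IsLocalRing R] [CommRing S]
    [IsNoetherianRing S] [IsLocalRing S] (f : R →+* S) [IsLocalHom f] (hf : f.Flat) {d : ℕ}
    (hd : ringKrullDim R = d) (hd' : ringKrullDim S = d) :
    ∃ N, maximalIdeal S ^ N ≤ (maximalIdeal R).map f := by
  refine Ideal.exists_pow_le_of_le_radical_of_fg ?_ (IsNoetherian.noetherian _)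
  rw [Ideal.radical_eq_sInf]
  refine le_sInf fun Q hQ => ?_
  have := hQ.2
  refine (Ideal.eq_of_le_of_height_le Q (le_maximalIdeal this.ne_top) ?_).ge
  rw [tope_height f hf Q hQ.1, tope_ht hd, tope_ht hd']
  exact le_self_add

/-- in the fibre `S ⧸ 𝔪 S` the maximal ideal has height `δ + 1`; take a prime `P̄` below it of height `δ`
(`Ideal.exists_ltSeries_length_eq_height`, `Order.height` API); `P = comap`; a prime strictly between
would give height `≥ δ + 2`; `height P = d + δ` by the going-down formula;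
`IsLocalization.AtPrime.ringKrullDim_eq_height`. -/
theorem exists_prime_step {R S : Type} [CommRing R] [IsNoetherianRing R] [IsLocalRing R]
    [CommRing S] [IsNoetherianRing S] [IsLocalRing S] (f : R →+* S) [IsLocalHom f] (hf : f.Flat)
    {d δ : ℕ} (hd : ringKrullDim R = d) (hd' : ringKrullDim S = (d + δ + 1 : ℕ)) :
    ∃ (P : Ideal S) (_ : P.IsPrime), (maximalIdeal R).map f ≤ P ∧ P ≠ maximalIdeal S ∧
      (∀ Q : Ideal S, Q.IsPrime → P < Q → Q = maximalIdeal S) ∧
      ringKrullDim (Localization.AtPrime P) = (d + δ : ℕ) := by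
  have hs := Ideal.Quotient.mk_surjective (I := (maximalIdeal R).map f)
  have h1 := dim_flat f hf
  rw [tope_ht hd, tope_ht hd', add_assoc, Nat.cast_add] at h1
  replace h1 := WithTop.add_left_cancel (ENat.natCast_ne_top d) h1
  have : ((maximalIdeal S).map (Ideal.Quotient.mk ((maximalIdeal R).map f))).IsPrime :=
    Ideal.map_isPrime_of_surjective hs (by rw [Ideal.mk_ker]; exact (tope_map_le f).1 ‹_›)
  have h2 : ¬ ((maximalIdeal S).map (Ideal.Quotient.mk ((maximalIdeal R).map f))).height ≤ δ := by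
    rw [← h1]
    exact_mod_cast Nat.not_succ_le_self δ
  rw [Ideal.height_le_iff] at h2
  push Not at h2
  obtain ⟨q, hq, hlt, hδ⟩ := h2
  have h3 := Ideal.height_add_one_le_of_lt_of_isPrime hlt
  rw [← h1, Nat.cast_add, Nat.cast_one, ENat.add_le_add_iff_right ENat.one_ne_top] at h3
  have h4 : (maximalIdeal R).map f ≤ q.comap (Ideal.Quotient.mk ((maximalIdeal R).map f)) :=
    Ideal.mk_ker.ge.trans (Ideal.ker_le_comap _)
  have h5 := tope_height f hf _ h4
  rw [Ideal.map_comap_of_surjective _ hs, tope_ht hd, le_antisymm h3 hδ, ← Nat.cast_add] at h5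
  refine ⟨_, inferInstance, h4, fun h => ?_, fun Q hQ h => ?_, ?_⟩
  · rw [h, tope_ht hd'] at h5
    exact absurd (Nat.cast_injective h5) (Nat.succ_ne_self _)
  · refine Ideal.eq_of_le_of_height_le Q (le_maximalIdeal hQ.ne_top) ?_
    rw [tope_ht hd', Nat.cast_add, ← h5]
    exact Ideal.height_add_one_le_of_lt_of_isPrime h
  · rw [IsLocalization.AtPrime.ringKrullDim_eq_height
      (q.comap (Ideal.Quotient.mk ((maximalIdeal R).map f))), h5]
    rfl

/-- induction on `δ` (generalising `S`, `f`): `exists_gonf'`, `exists_prime_step`, the induction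
hypothesis for `R → S''_P`, `lo_le_lo_Sg` twice, `nagata`, `Sg_iter_mono`
(`Function.iterate_succ_apply`, `iterate_succ_apply'`), `HS_eq_of_flat`, `dim_eq_of_flat`. -/
theorem mainδ {R : Type} [CommRing R] [IsNoetherianRing R] [IsLocalRing R] {d : ℕ}
    (hd : ringKrullDim R = d) (δ : ℕ) {S : Type} [CommRing S] [IsNoetherianRing S] [IsLocalRing S]
    (f : R →+* S) [IsLocalHom f] (hf : f.Flat) (hd' : ringKrullDim S = (d + δ : ℕ)) :
    up d (HS R) ≤ lo (d + 2 * δ) (Sg^[δ] (HS S)) := by
  induction δ generalizing S with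
  | zero => exact main0 f hf (prim_of_dim_eq f hf hd hd') (sop_of_dim hd)
  | succ δ ih =>
    obtain ⟨W, _, _, p, c, S'', _, _, g, ψ, hg, hm, -, _, -⟩ := exists_gonf' S
    have : IsLocalHom g := (tope_map_le g).2 hm.le
    have hf' : (g.comp f).Flat := hf.comp hg
    obtain ⟨P, _, h1, h2, h3, h4⟩ := exists_prime_step (g.comp f) hf' (δ := δ) hd
      ((dim_eq_of_flat g hg hm).trans hd')
    have : IsLocalHom ((algebraMap S'' (Localization.AtPrime P)).comp (g.comp f)) := by
      rw [tope_map_le, ← Ideal.map_map, ← Localization.AtPrime.map_eq_maximalIdeal]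
      exact Ideal.map_mono h1
    refine (ih ((algebraMap S'' (Localization.AtPrime P)).comp (g.comp f))
      (hf'.comp (RingHom.flat_algebraMap_iff.2 (IsLocalization.flat _ P.primeCompl))) h4).trans
      (lo_le_lo_Sg.trans (lo_le_lo_Sg.trans (lo_mono (.of_forall fun N => ?_))))
    rw [← Function.iterate_succ_apply' Sg, ← Function.iterate_succ_apply' Sg,
      Function.iterate_succ_apply, Function.iterate_succ_apply, Function.iterate_succ_apply,
      ← HS_eq_of_flat g hg hm]
    exact Sg_iter_mono (nagata P h2 h3) δ N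

theorem lech {R S : Type} [CommRing R] [IsNoetherianRing R] [IsLocalRing R] [CommRing S]
    [IsNoetherianRing S] [IsLocalRing S] (f : R →+* S) [IsLocalHom f] (hf : f.Flat) {d d' : ℕ}
    (hd : ringKrullDim R = d) (hd' : ringKrullDim S = d') : up d (HS R) ≤ up d' (HS S) := by
  have h := dim_le_of_flat f hf
  rw [hd, hd'] at h
  obtain ⟨δ, rfl⟩ := Nat.exists_eq_add_of_le (show d ≤ d' by exact_mod_cast h)
  refine (mainδ hd δ f hf hd').trans (lo_le_up.trans ?_)
  rw [show d + 2 * δ = d + δ + δ by ring]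
  exact up_Sg_iter_le (HS_ne_top S) δ

end Crest.Agent.R183
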