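import Crest.Agent.R183.Val
import Crest.Agent.R183.Omega

/-! # R183 / Tow : augmented finite free `W(l)[z]`-algebras, adjoining approximate roots. -/

set_option autoImplicit false
open WittVector Polynomial

namespace Crest.Agent.R183

/-- TRUNCATED WEIERSTRASS.  Induct on `L` with the invariant: `Q` monic of degree `r`, `Q ≡ X^r`,
`E ≡ 1` mod `𝔦`, `G - Q E ∈ 𝔦^(L+1)[X]`.  Step: `s = G - Q E = Q s₁ + s₂` (`modByMonic`, `divByMonic`;
both have coefficients in `𝔦^(L+1)`: map to the quotient), `G = (Q+s₂)(E+s₁) + s₂ (1 - E - s₁)`. -/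
theorem trunc_weierstrass {U : Type} [CommRing U] (𝔦 : Ideal U) (h𝔦 : 𝔦 ≠ ⊤) {r : ℕ} (G : U[X])
    (hG : G - X ^ r ∈ 𝔦.map (C : U →+* U[X])) (L : ℕ) :
    ∃ Q E : U[X], Q.Monic ∧ Q.natDegree = r ∧ Q - X ^ r ∈ 𝔦.map (C : U →+* U[X]) ∧
      G - Q * E ∈ (𝔦 ^ L).map (C : U →+* U[X]) := by
  haveI : Nontrivial U := by
    by_contra h
    rw [not_nontrivial_iff_subsingleton] at h
    exact h𝔦 (Subsingleton.elim _ _)
  suffices h : ∃ Q E : U[X], Q.Monic ∧ Q.natDegree = r ∧ Q - X ^ r ∈ 𝔦.map (C : U →+* U[X]) ∧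
      E - 1 ∈ 𝔦.map (C : U →+* U[X]) ∧ G - Q * E ∈ (𝔦 ^ (L + 1)).map (C : U →+* U[X]) by
    obtain ⟨Q, E, h1, h2, h3, -, h5⟩ := h
    exact ⟨Q, E, h1, h2, h3, Ideal.map_mono (Ideal.pow_le_pow_right L.le_succ) h5⟩
  induction L with
  | zero => exact ⟨X ^ r, 1, monic_X_pow r, natDegree_X_pow r, by simp, by simp, by simpa using hG⟩
  | succ L ih =>
    obtain ⟨Q, E, h1, h2, h3, h4, h5⟩ := ih
    have hJ : ∀ f : U[X], f ∈ (𝔦 ^ (L + 1)).map (C : U →+* U[X]) ↔
        f.map (Ideal.Quotient.mk (𝔦 ^ (L + 1))) = 0 := fun f => by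
      simp only [Ideal.mem_map_C_iff, Polynomial.ext_iff, coeff_map, coeff_zero,
        Ideal.Quotient.eq_zero_iff_mem]
    have hle : (𝔦 ^ (L + 1)).map (C : U →+* U[X]) ≤ 𝔦.map C :=
      Ideal.map_mono (Ideal.pow_le_self L.succ_ne_zero)
    have k1 : (G - Q * E) /ₘ Q ∈ (𝔦 ^ (L + 1)).map (C : U →+* U[X]) := by
      rw [hJ, map_divByMonic _ h1, (hJ _).1 h5, zero_divByMonic]
    have k2 : (G - Q * E) %ₘ Q ∈ (𝔦 ^ (L + 1)).map (C : U →+* U[X]) := by
      rw [hJ, map_modByMonic _ h1, (hJ _).1 h5, zero_modByMonic]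
    have k3 := degree_modByMonic_lt (G - Q * E) h1
    have k4 := modByMonic_add_div (G - Q * E) Q
    refine ⟨Q + (G - Q * E) %ₘ Q, E + (G - Q * E) /ₘ Q, h1.add_of_left k3,
      (natDegree_add_eq_left_of_degree_lt k3).trans h2, ?_, ?_, ?_⟩
    · rw [add_sub_right_comm]
      exact add_mem h3 (hle k2)
    · rw [add_sub_right_comm]
      exact add_mem h4 (hle k1)
    · have e : G - (Q + (G - Q * E) %ₘ Q) * (E + (G - Q * E) /ₘ Q) =
          (G - Q * E) %ₘ Q * -(E - 1 + (G - Q * E) /ₘ Q) := by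
        linear_combination -k4
      rw [e, pow_succ 𝔦 (L + 1), Ideal.map_mul]
      exact Ideal.mul_mem_mul k2 (neg_mem (add_mem h4 (hle k1)))

structure Tow (p : ℕ) [Fact p.Prime] (l : Type) [Field l] (n : ℕ) where
  B : Type
  [cr : CommRing B]
  [alg : Algebra (Pz (WittVector p l) n) B]
  free : Module.Free (Pz (WittVector p l) n) B
  fin : Module.Finite (Pz (WittVector p l) n) B
  aug : B →+* WittVector p l
  aug_alg : ∀ f, aug (algebraMap (Pz (WittVector p l) n) B f) = MvPolynomial.constantCoeff f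
  nil : ∃ M, RingHom.ker aug ^ M ≤ nn (WittVector p l) n B

attribute [instance] Tow.cr Tow.alg

namespace Tow
variable {p : ℕ} [Fact p.Prime] {l : Type} [Field l] {n : ℕ}

/-- the base of the tower -/
noncomputable def base (p : ℕ) [Fact p.Prime] (l : Type) [Field l] (n : ℕ) : Tow p l n where
  B := Pz (WittVector p l) n
  free := inferInstance
  fin := inferInstance
  aug := MvPolynomial.constantCoeff
  aug_alg := fun _ => rfl
  nil := by
    refine ⟨1, fun f hf => ?_⟩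
    rw [pow_one, RingHom.mem_ker] at hf
    have h := (MvPolynomial.mem_pow_idealOfVars_iff' 1 f).2 fun x hx => by
      rw [(Finsupp.degree_eq_zero_iff x).1 (by omega)]
      exact hf
    rw [pow_one] at h
    exact h

abbrev U (T : Tow p l n) : Type := T.B ⧸ Ideal.span {(p : T.B)}

noncomputable abbrev mkU (T : Tow p l n) : T.B →+* T.U := Ideal.Quotient.mk _

noncomputable abbrev nU (T : Tow p l n) : Ideal T.U := (nn (WittVector p l) n T.B).map T.mkU

theorem nU_eq (T : Tow p l n) :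
    T.nU = Ideal.span (Set.range fun i => T.mkU (zB (WittVector p l) n T.B i)) := by
  rw [nU, nn, Ideal.map_span, ← Set.range_comp]
  rfl

variable [CharP l p]

noncomputable def augU (T : Tow p l n) : T.U →+* l :=
  Ideal.Quotient.lift _ (WittVector.constantCoeff.comp T.aug) (by
    intro a ha
    obtain ⟨b, rfl⟩ := Ideal.mem_span_singleton'.1 ha
    simp [WittVector.mul_charP_coeff_zero])

theorem augU_mk (T : Tow p l n) (b : T.B) : T.augU (T.mkU b) = (T.aug b).coeff 0 := rfl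

instance charP_U (T : Tow p l n) : CharP T.U p := by
  have : Nontrivial T.U := T.augU.domain_nontrivial
  rw [CharP.charP_iff_prime_eq_zero (Fact.out : p.Prime)]
  rw [← map_natCast T.mkU, Ideal.Quotient.eq_zero_iff_mem]
  exact Ideal.mem_span_singleton_self _

structure Hom (T T' : Tow p l n) where
  φ : T.B →ₐ[Pz (WittVector p l) n] T'.B
  aug : ∀ b, T'.aug (φ b) = T.aug b

noncomputable def Hom.U {T T' : Tow p l n} (f : Hom T T') : T.U →+* T'.U :=
  Ideal.quotientMap _ (f.φ : T.B →+* T'.B) (by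
    rw [Ideal.span_le]
    rintro _ rfl
    simp)

omit [CharP l p] in
theorem Hom.U_mk {T T' : Tow p l n} (f : Hom T T') (b : T.B) :
    f.U (T.mkU b) = T'.mkU (f.φ b) := rfl

theorem Hom.augU_U {T T' : Tow p l n} (f : Hom T T') (x : T.U) : T'.augU (f.U x) = T.augU x := by
  obtain ⟨b, rfl⟩ := Ideal.Quotient.mk_surjective x
  rw [f.U_mk, augU_mk, augU_mk, f.aug]

omit [CharP l p] in
theorem Hom.towb_φ_zB {T T' : Tow p l n} (f : Hom T T') (i : Fin (n + 1)) :
    f.φ (zB (WittVector p l) n T.B i) = zB (WittVector p l) n T'.B i := f.φ.commutes _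

omit [CharP l p] in
theorem Hom.map_nU {T T' : Tow p l n} (f : Hom T T') : T.nU.map f.U = T'.nU := by
  rw [nU_eq, nU_eq, Ideal.map_span, ← Set.range_comp]
  congr 2
  funext i
  show f.U (T.mkU _) = _
  rw [f.U_mk, f.towb_φ_zB]

/-- extension of states `(T, m) → (T', m')` -/
structure Ext (T : Tow p l n) (m : ℕ) (T' : Tow p l n) (m' : ℕ) extends Hom T T' where
  le : m ≤ m'

noncomputable def Ext.refl (T : Tow p l n) (m : ℕ) : Ext T m T m := ⟨⟨AlgHom.id _ _, fun _ => rfl⟩, le_rfl⟩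

noncomputable def Ext.trans {T T' T'' : Tow p l n} {m m' m'' : ℕ} (e : Ext T m T' m') (e' : Ext T' m' T'' m'') :
    Ext T m T'' m'' :=
  ⟨⟨e'.φ.comp e.φ, fun b => by simp [e'.aug, e.aug]⟩, e.le.trans e'.le⟩

noncomputable def Ext.tw {T T' : Tow p l n} {m m' : ℕ} (e : Ext T m T' m') :
    WittVector p T.U →+* WittVector p T'.U :=
  (Fr p T'.U (m' - m)).comp (WittVector.map e.toHom.U)

theorem Ext.towb_tw_coeff {T T' : Tow p l n} {m m' : ℕ} (e : Ext T m T' m') (y : WittVector p T.U)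
    (i : ℕ) : (e.tw y).coeff i = e.toHom.U (y.coeff i) ^ p ^ (m' - m) := by
  show (Fr p T'.U (m' - m) (WittVector.map e.toHom.U y)).coeff i = _
  rw [Fr_coeff, WittVector.map_coeff]

theorem Ext.tw_refl (T : Tow p l n) (m : ℕ) (y : WittVector p T.U) : (Ext.refl T m).tw y = y := by
  ext i
  rw [Ext.towb_tw_coeff, Nat.sub_self, pow_zero, pow_one]
  obtain ⟨b, hb⟩ := Ideal.Quotient.mk_surjective (y.coeff i)
  rw [← hb]
  rfl

theorem Ext.tw_trans {T T' T'' : Tow p l n} {m m' m'' : ℕ} (e : Ext T m T' m')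
    (e' : Ext T' m' T'' m'') (y : WittVector p T.U) : (e.trans e').tw y = e'.tw (e.tw y) := by
  ext i
  rw [Ext.towb_tw_coeff, Ext.towb_tw_coeff, Ext.towb_tw_coeff, map_pow, ← pow_mul, ← pow_add,
    show m' - m + (m'' - m') = m'' - m by have := e.le; have := e'.le; omega]
  obtain ⟨b, hb⟩ := Ideal.Quotient.mk_surjective (y.coeff i)
  rw [← hb]
  rfl

noncomputable def TT (T : Tow p l n) (m : ℕ) (b : T.B) : WittVector p T.U :=
  teichmuller p (T.mkU b ^ p ^ m)

noncomputable def xiW (T : Tow p l n) (m : ℕ) (β : T.B) : WittVector p T.U := p - T.TT m β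

noncomputable def SS (T : Tow p l n) (m : ℕ) (𝔟 : Ideal T.U) (N : ℕ) : Ideal (WittVector p T.U) :=
  WF p 𝔟 (N * p ^ m)

noncomputable def eh (T : Tow p l n) : WittVector p T.U →+* l :=
  T.augU.comp WittVector.constantCoeff

theorem Ext.tw_TT {T T' : Tow p l n} {m m' : ℕ} (e : Ext T m T' m') (b : T.B) :
    e.tw (T.TT m b) = T'.TT m' (e.φ b) := by
  show Fr p T'.U (m' - m) (WittVector.map e.toHom.U (teichmuller p (T.mkU b ^ p ^ m))) =
    teichmuller p (T'.mkU (e.φ b) ^ p ^ m')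
  rw [WittVector.map_teichmuller, Fr_teich, map_pow e.toHom.U, Hom.U_mk, ← pow_mul, ← pow_add,
    Nat.add_sub_cancel' e.le]

theorem Ext.tw_xiW {T T' : Tow p l n} {m m' : ℕ} (e : Ext T m T' m') (b : T.B) :
    e.tw (T.xiW m b) = T'.xiW m' (e.φ b) := by
  simp [xiW, e.tw_TT]

theorem Ext.tw_SS {T T' : Tow p l n} {m m' : ℕ} (e : Ext T m T' m') {𝔟 : Ideal T.U}
    {𝔟' : Ideal T'.U} (h : 𝔟.map e.toHom.U ≤ 𝔟') {N : ℕ} {y : WittVector p T.U}
    (hy : y ∈ T.SS m 𝔟 N) : e.tw y ∈ T'.SS m' 𝔟' N := by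
  have h1 := WF_Fr (WF_map e.toHom.U h hy) (m' - m)
  rw [mul_assoc, ← pow_add, Nat.add_sub_cancel' e.le] at h1
  exact h1

theorem Ext.eh_tw {T T' : Tow p l n} {m m' : ℕ} (e : Ext T m T' m') (y : WittVector p T.U) :
    T'.eh (e.tw y) = T.eh y ^ p ^ (m' - m) := by
  show T'.augU ((e.tw y).coeff 0) = T.augU (y.coeff 0) ^ p ^ (m' - m)
  rw [Ext.towb_tw_coeff, map_pow, Hom.augU_U]

theorem Ext.map_augU_tw {T T' : Tow p l n} {m m' : ℕ} (e : Ext T m T' m') (y : WittVector p T.U) :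
    WittVector.map T'.augU (e.tw y) = Fr p l (m' - m) (WittVector.map T.augU y) := by
  ext i
  rw [WittVector.map_coeff, Ext.towb_tw_coeff, Fr_coeff, WittVector.map_coeff, map_pow, Hom.augU_U]

theorem map_augU_TT (T : Tow p l n) (m : ℕ) {b : T.B} (hb : T.aug b = 0) :
    WittVector.map T.augU (T.TT m b) = 0 := by
  rw [TT, WittVector.map_teichmuller, map_pow, augU_mk, hb, WittVector.zero_coeff,
    zero_pow (pow_ne_zero _ (Fact.out : p.Prime).ne_zero), WittVector.teichmuller_zero]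

/-- `rcl_le_radical`, the kernel of `augU` is prime. -/
theorem map_augU_SS (T : Tow p l n) (m : ℕ) {𝔟 : Ideal T.U} (h𝔟 : 𝔟 ≤ RingHom.ker T.augU) {N : ℕ}
    (hN : 1 ≤ N) {y : WittVector p T.U} (hy : y ∈ T.SS m 𝔟 N) : WittVector.map T.augU y = 0 := by
  ext i
  rw [WittVector.map_coeff, WittVector.zero_coeff]
  have hp : 0 < p := (Fact.out : p.Prime).pos
  have h1 := rcl_le_radical 𝔟 (Nat.mul_pos (Nat.mul_pos hN (pow_pos hp m)) (pow_pos hp i))
    (mem_WF.1 hy i)
  obtain ⟨k, hk⟩ := h1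
  have h2 : T.augU (y.coeff i ^ k) = 0 := h𝔟 hk
  rw [map_pow] at h2
  exact eq_zero_of_pow_eq_zero h2

omit [CharP l p] in
theorem towb_aug_zB (T : Tow p l n) (i : Fin (n + 1)) :
    T.aug (zB (WittVector p l) n T.B i) = 0 := by
  rw [zB, T.aug_alg, MvPolynomial.constantCoeff_X]

theorem nU_le_ker (T : Tow p l n) : T.nU ≤ RingHom.ker T.augU := by
  rw [nU_eq, Ideal.span_le]
  rintro _ ⟨i, rfl⟩
  show T.augU (T.mkU _) = 0
  rw [augU_mk, towb_aug_zB, WittVector.zero_coeff]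

omit [CharP l p] in
theorem mkU_mem_radical (T : Tow p l n) {b : T.B} (hb : T.aug b = 0) :
    T.mkU b ∈ T.nU.radical := by
  obtain ⟨M, hM⟩ := T.nil
  refine ⟨M, ?_⟩
  rw [← map_pow]
  exact Ideal.mem_map_of_mem _ (hM (Ideal.pow_mem_pow hb M))

variable [PerfectRing l p]

/-- `aug` is surjective (`aug_alg` on constants) and `ker constantCoeff = (p)` in `𝕎 l`. -/
theorem ker_augU (T : Tow p l n) : RingHom.ker T.augU = (RingHom.ker T.aug).map T.mkU := by
  refine le_antisymm (fun x hx => ?_) (Ideal.map_le_iff_le_comap.2 fun b hb => ?_)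
  · obtain ⟨b, rfl⟩ := Ideal.Quotient.mk_surjective x
    obtain ⟨w, hw⟩ := Ideal.mem_span_singleton'.1
      ((WittVector.mem_span_p_iff_coeff_zero_eq_zero (T.aug b)).2 hx)
    have h1 : b - algebraMap (Pz (WittVector p l) n) T.B (MvPolynomial.C w) * p ∈ RingHom.ker T.aug := by
      rw [RingHom.mem_ker, map_sub, map_mul, T.aug_alg, MvPolynomial.constantCoeff_C, map_natCast, hw,
        sub_self]
    convert Ideal.mem_map_of_mem T.mkU h1 using 1
    exact Ideal.Quotient.eq.2 (by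
      rw [sub_sub_cancel]
      exact Ideal.mul_mem_left _ _ (Ideal.subset_span rfl))
  · rw [Ideal.mem_comap, RingHom.mem_ker, augU_mk, (RingHom.mem_ker).1 hb,
      WittVector.zero_coeff]

/-- `trunc_weierstrass` for `𝔦 = ker augU` and exponent `L * M`; lift `Q` to a monic `Q̃` over `T.B` with
lower coefficients in `ker aug` (`ker_augU`); `T'.B = AdjoinRoot Q̃` (free and finite by
`AdjoinRoot.powerBasis'`, `Module.Free.trans`, `Module.Finite.trans`), `aug' = AdjoinRoot.lift aug 0`.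
`ker aug' = (ker aug, root)` and `root^r ∈ (ker aug)`, hence nilpotent modulo `𝔫`. -/
theorem step (T : Tow p l n) (G : T.U[X]) {r : ℕ} (hr : 1 ≤ r) (hG : G.map T.augU = X ^ r) (L : ℕ) :
    ∃ (T' : Tow p l n) (f : Hom T T') (Y : T'.B), T'.aug Y = 0 ∧
      G.eval₂ f.U (T'.mkU Y) ∈ T'.nU ^ L := by
  obtain ⟨M, hM⟩ := T.nil
  obtain ⟨Q, E, h1, h2, h3, h4⟩ := trunc_weierstrass (RingHom.ker T.augU) (RingHom.ker_ne_top _) G
    (r := r) (Ideal.mem_map_C_iff.2 fun i => by
      rw [RingHom.mem_ker, ← coeff_map, Polynomial.map_sub, hG]; simp) (M * L)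
  have h5 : ∀ i, ∃ b, b ∈ RingHom.ker T.aug ∧ T.mkU b = (Q - X ^ r).coeff i := fun i =>
    (Ideal.mem_map_iff_of_surjective _ Ideal.Quotient.mk_surjective).1
      (T.ker_augU ▸ Ideal.mem_map_C_iff.1 h3 i)
  choose b hb hbQ using h5
  set Qt : T.B[X] := X ^ r + ∑ i ∈ Finset.range r, C (b i) * X ^ i with hQt
  have hmon : Qt.Monic := monic_X_pow_add (by
    rw [← Fin.sum_univ_eq_sum_range (fun i => C (b i) * X ^ i)]
    exact degree_sum_fin_lt _)
  have hmap : Qt.map T.mkU = Q := by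
    rw [h1.as_sum, h2, hQt, Polynomial.map_add, Polynomial.map_pow, map_X, Polynomial.map_sum]
    congr 1
    refine Finset.sum_congr rfl fun i hi => ?_
    rw [Polynomial.map_mul, map_C, Polynomial.map_pow, map_X, hbQ, coeff_sub, coeff_X_pow,
      if_neg (Finset.mem_range.1 hi).ne, sub_zero]
  have hev : Qt.eval₂ T.aug 0 = 0 := by
    rw [hQt, eval₂_add, eval₂_X_pow, zero_pow (by omega), zero_add, eval₂_finsetSum]
    exact Finset.sum_eq_zero fun i _ => by
      rw [eval₂_mul, eval₂_C, (RingHom.mem_ker).1 (hb i), zero_mul]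
  have hnn : (nn (WittVector p l) n T.B).map (AdjoinRoot.of Qt) = nn (WittVector p l) n (AdjoinRoot Qt) := by
    rw [nn, Ideal.map_span, ← Set.range_comp]
    rfl
  have hroot : Ideal.span {AdjoinRoot.root Qt} ^ r ≤ (RingHom.ker T.aug).map (AdjoinRoot.of Qt) := by
    rw [Ideal.span_singleton_pow, Ideal.span_singleton_le_iff_mem]
    have h := AdjoinRoot.eval₂_root Qt
    rw [show eval₂ (AdjoinRoot.of Qt) (AdjoinRoot.root Qt) Qt = eval₂ (AdjoinRoot.of Qt)
      (AdjoinRoot.root Qt) (X ^ r + ∑ i ∈ Finset.range r, C (b i) * X ^ i) from rfl, eval₂_add,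
      eval₂_X_pow, eval₂_finsetSum] at h
    rw [eq_neg_of_add_eq_zero_left h]
    refine neg_mem (Ideal.sum_mem _ fun i _ => ?_)
    rw [eval₂_mul, eval₂_C]
    exact Ideal.mul_mem_right _ _ (Ideal.mem_map_of_mem _ (hb i))
  have hker : RingHom.ker (AdjoinRoot.lift T.aug 0 hev) ≤
      (RingHom.ker T.aug).map (AdjoinRoot.of Qt) ⊔ Ideal.span {AdjoinRoot.root Qt} := by
    intro x hx
    obtain ⟨q, rfl⟩ := AdjoinRoot.mk_surjective x
    rw [RingHom.mem_ker, AdjoinRoot.lift_mk, eval₂_at_zero] at hx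
    rw [← divX_mul_X_add q, map_add, map_mul, AdjoinRoot.mk_X, AdjoinRoot.mk_C]
    exact add_mem (Ideal.mem_sup_right (Ideal.mul_mem_left _ _ (Ideal.subset_span rfl)))
      (Ideal.mem_sup_left (Ideal.mem_map_of_mem _ hx))
  have hA : (RingHom.ker T.aug).map (AdjoinRoot.of Qt) ^ M ≤ nn (WittVector p l) n (AdjoinRoot Qt) := by
    rw [← Ideal.map_pow, ← hnn]
    exact Ideal.map_mono hM
  haveI := T.free
  haveI := T.fin
  haveI := hmon.free_adjoinRoot
  haveI := hmon.finite_adjoinRoot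
  let T' : Tow p l n :=
    { B := AdjoinRoot Qt
      free := Module.Free.trans (S := T.B)
      fin := Module.Finite.trans T.B _
      aug := AdjoinRoot.lift T.aug 0 hev
      aug_alg := fun f => (AdjoinRoot.lift_of hev).trans (T.aug_alg f)
      nil := ⟨M + r * M, (Ideal.pow_right_mono hker _).trans (Ideal.sup_pow_add_le_pow_sup_pow.trans
        (sup_le hA (by rw [pow_mul]; exact (Ideal.pow_right_mono hroot _).trans hA)))⟩ }
  let f : Hom T T' := ⟨IsScalarTower.toAlgHom _ T.B (AdjoinRoot Qt), fun b => AdjoinRoot.lift_of hev⟩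
  refine ⟨T', f, AdjoinRoot.root Qt, AdjoinRoot.lift_root hev, ?_⟩
  have k1 : Q.eval₂ f.U (T'.mkU (AdjoinRoot.root Qt)) = 0 := by
    rw [← hmap, eval₂_map, show f.U.comp T.mkU = T'.mkU.comp (AdjoinRoot.of Qt) from rfl, ← hom_eval₂]
    exact (congrArg T'.mkU (AdjoinRoot.eval₂_root Qt)).trans (map_zero _)
  have k2 := Ideal.mem_map_of_mem (eval₂RingHom f.U (T'.mkU (AdjoinRoot.root Qt))) h4
  rw [Ideal.map_map, show (eval₂RingHom f.U (T'.mkU (AdjoinRoot.root Qt))).comp C = f.U from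
    RingHom.ext fun _ => eval₂_C _ _, map_sub, map_mul, coe_eval₂RingHom, k1, zero_mul, sub_zero,
    pow_mul, Ideal.map_pow] at k2
  refine Ideal.pow_right_mono ?_ L k2
  rw [← f.map_nU, T.ker_augU, ← Ideal.map_pow]
  exact Ideal.map_mono (Ideal.map_mono hM)

/-- `G = (wrec ϖ y N).coeff 0`; `wrec_map`, `wrec_teich` give `G.map augU = X^(r p^N)`; `step` with
`L = N p^(m+N)`; `wrec_small` with `ω = p^m`, `wrec_sub_mem`. -/
theorem root_step (T : Tow p l n) (m N : ℕ) (y : WittVector p T.U[X]) (ϖ : T.U[X]) {r : ℕ}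
    (hr : 1 ≤ r) (hy : WittVector.map (mapRingHom T.augU) y = teichmuller p (X ^ r)) :
    ∃ (T' : Tow p l n) (f : Hom T T') (Y : T'.B), T'.aug Y = 0 ∧
      ∀ 𝔟' : Ideal T'.U, T'.nU ≤ 𝔟' → ϖ.eval₂ f.U (T'.mkU Y) ∈ 𝔟' ^ p ^ m →
        Fr p T'.U N (WittVector.map (eval₂RingHom f.U (T'.mkU Y)) y) ∈
          Ideal.span {(p : WittVector p T'.U) -
            teichmuller p (ϖ.eval₂ f.U (T'.mkU Y) ^ p ^ N)} ⊔ T'.SS (m + N) 𝔟' N := by
  obtain ⟨T', f, Y, hY, hG⟩ := T.step ((wrec p ϖ y N).coeff 0) (r := r * p ^ N)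
    (Nat.mul_pos hr (pow_pos (Fact.out : p.Prime).pos N)) (by
      rw [← coe_mapRingHom, ← WittVector.map_coeff, wrec_map, hy, wrec_teich, teichmuller_coeff_zero,
        pow_mul]) (N * p ^ m * p ^ N)
  refine ⟨T', f, Y, hY, fun 𝔟' h1 h2 => ?_⟩
  have h3 := wrec_small (N := N) (pow_le_rcl 𝔟' _ h2)
    (y := WittVector.map (eval₂RingHom f.U (T'.mkU Y)) y) (by
      rw [← coe_eval₂RingHom, ← wrec_map, WittVector.map_coeff]
      exact pow_le_rcl 𝔟' _ (Ideal.pow_right_mono h1 _ hG))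
  rw [mul_assoc, ← pow_add] at h3
  have h4 := wrec_sub_mem (ϖ.eval₂ f.U (T'.mkU Y)) (WittVector.map (eval₂RingHom f.U (T'.mkU Y)) y) N
  have h5 := sub_mem (Ideal.mem_sup_right h3) (Ideal.mem_sup_left h4)
  rwa [sub_sub_cancel] at h5

/-- `l → B/p` -/
noncomputable def lU (T : Tow p l n) : l →+* T.U :=
  (Ideal.quotientMap (Ideal.span {(p : T.B)})
    ((algebraMap (Pz (WittVector p l) n) T.B).comp MvPolynomial.C) (by
      rw [Ideal.span_le]
      rintro _ rfl
      simp)).comp (WittVector.quotientPEquiv (p := p) (k := l)).symm.toRingHom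

theorem lU_coeff (T : Tow p l n) (w : WittVector p l) :
    T.lU (w.coeff 0) = T.mkU (algebraMap (Pz (WittVector p l) n) T.B (MvPolynomial.C w)) := by
  have h : (WittVector.quotientPEquiv (p := p) (k := l)).symm (w.coeff 0) =
      Ideal.Quotient.mk _ w := by
    rw [RingEquiv.symm_apply_eq]
    rfl
  unfold lU
  rw [RingHom.comp_apply, RingEquiv.toRingHom_eq_coe, RingHom.coe_coe, h]
  rfl

theorem augU_lU (T : Tow p l n) (x : l) : T.augU (T.lU x) = x := by
  have h := T.lU_coeff (teichmuller p x)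
  rw [WittVector.teichmuller_coeff_zero] at h
  rw [h, augU_mk, T.aug_alg, MvPolynomial.constantCoeff_C, WittVector.teichmuller_coeff_zero]

theorem Hom.U_lU {T T' : Tow p l n} (f : Hom T T') (x : l) : f.U (T.lU x) = T'.lU x := by
  have h := T.lU_coeff (teichmuller p x)
  have h' := T'.lU_coeff (teichmuller p x)
  rw [WittVector.teichmuller_coeff_zero] at h h'
  rw [h, h', f.U_mk, f.φ.commutes]

noncomputable def iota (T : Tow p l n) (m : ℕ) : Pz (WittVector p l) n →+* WittVector p T.U :=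
  MvPolynomial.eval₂Hom ((Fr p T.U m).comp (WittVector.map T.lU))
    (fun i => T.TT m (zB (WittVector p l) n T.B i))

theorem Ext.tw_iota {T T' : Tow p l n} {m m' : ℕ} (e : Ext T m T' m')
    (c : Pz (WittVector p l) n) : e.tw (T.iota m c) = T'.iota m' c := by
  have key : e.tw.comp (T.iota m) = T'.iota m' := by
    refine MvPolynomial.ringHom_ext (fun w => ?_) fun i => ?_
    · simp only [iota, RingHom.comp_apply, MvPolynomial.eval₂Hom_C]
      ext j
      rw [Ext.towb_tw_coeff, Fr_coeff, Fr_coeff, WittVector.map_coeff, WittVector.map_coeff, map_pow,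
        Hom.U_lU, ← pow_mul, ← pow_add, Nat.add_sub_cancel' e.le]
    · simp only [iota, RingHom.comp_apply, MvPolynomial.eval₂Hom_X']
      rw [e.tw_TT, e.toHom.towb_φ_zB]
  exact RingHom.congr_fun key c

theorem map_augU_iota (T : Tow p l n) (m : ℕ) (c : Pz (WittVector p l) n) :
    WittVector.map T.augU (T.iota m c) = Fr p l m (MvPolynomial.constantCoeff c) := by
  have key : (WittVector.map T.augU).comp (T.iota m) = (Fr p l m).comp MvPolynomial.constantCoeff := by
    refine MvPolynomial.ringHom_ext (fun w => ?_) fun i => ?_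
    · simp only [iota, RingHom.comp_apply, MvPolynomial.eval₂Hom_C, MvPolynomial.constantCoeff_C]
      ext j
      rw [WittVector.map_coeff, Fr_coeff, Fr_coeff, WittVector.map_coeff, map_pow, augU_lU]
    · simp only [iota, RingHom.comp_apply, MvPolynomial.eval₂Hom_X', MvPolynomial.constantCoeff_X,
        map_zero]
      exact T.map_augU_TT m (T.towb_aug_zB i)
  exact RingHom.congr_fun key c

noncomputable def bI (T : Tow p l n) {a : ℕ} (β : Fin a → T.B) : Ideal T.U :=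
  T.nU ⊔ Ideal.span (Set.range fun i => T.mkU (β i))

section towc
set_option linter.unusedSectionVars false

omit [CharP l p] [PerfectRing l p] in
theorem towc_map_map {R S S' : Type} [CommRing R] [CommRing S] [CommRing S'] (f : R →+* S)
    (g : S →+* S') (y : WittVector p R) :
    WittVector.map g (WittVector.map f y) = WittVector.map (g.comp f) y := by
  ext i
  rfl

omit [PerfectRing l p] in
theorem towc_SS_mono (T : Tow p l n) (m N : ℕ) {𝔟 𝔟' : Ideal T.U} (h : 𝔟 ≤ 𝔟') :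
    T.SS m 𝔟 N ≤ T.SS m 𝔟' N := by
  intro y hy i
  obtain ⟨c, hc⟩ := mem_rcl.1 (hy i)
  exact mem_rcl.2 ⟨c, fun j => Ideal.pow_right_mono h _ (hc j)⟩

omit [PerfectRing l p] in
theorem towc_augU_mk (T : Tow p l n) {b : T.B} (hb : T.aug b = 0) : T.augU (T.mkU b) = 0 := by
  rw [augU_mk, hb, WittVector.zero_coeff]

omit [PerfectRing l p] in
theorem towc_tw_trans {T T' T'' : Tow p l n} {m m' m'' : ℕ} (e : Ext T m T' m')
    (e' : Ext T' m' T'' m'') : (e.trans e').tw = e'.tw.comp e.tw :=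
  RingHom.ext fun y => e.tw_trans e' y

omit [PerfectRing l p] in
theorem towc_persist {T T' : Tow p l n} {m m' N : ℕ} (e : Ext T m T' m') (β : T.B)
    {c : WittVector p T.U} (h : ∀ 𝔟 : Ideal T.U, T.nU ≤ 𝔟 → T.mkU β ∈ 𝔟 →
      c ∈ Ideal.span {T.xiW m β} ⊔ T.SS m 𝔟 N)
    (𝔟' : Ideal T'.U) (h1 : T'.nU ≤ 𝔟') (h2 : T'.mkU (e.φ β) ∈ 𝔟') :
    e.tw c ∈ Ideal.span {T'.xiW m' (e.φ β)} ⊔ T'.SS m' 𝔟' N := by
  have h3 := h (𝔟'.comap e.toHom.U)
    (Ideal.map_le_iff_le_comap.1 (by rw [Hom.map_nU]; exact h1)) h2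
  obtain ⟨a, ha, σ, hσ, rfl⟩ := Submodule.mem_sup.1 h3
  obtain ⟨b, rfl⟩ := Ideal.mem_span_singleton'.1 ha
  rw [map_add, map_mul, e.tw_xiW]
  exact Submodule.add_mem_sup (Ideal.mul_mem_left _ _ (Ideal.mem_span_singleton_self _))
    (e.tw_SS Ideal.map_comap_le hσ)

omit [PerfectRing l p] in
theorem towc_map_eh {T T' : Tow p l n} {m m' d : ℕ} (e : Ext T m T' m')
    {f : (WittVector p T.U)[X]} (hf0 : f.map T.eh = X ^ d) : (f.map e.tw).map T'.eh = X ^ d := by
  have h : T'.eh.comp e.tw = (iterateFrobenius l p (m' - m)).comp T.eh :=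
    RingHom.ext fun y => by
      rw [RingHom.comp_apply, e.eh_tw, RingHom.comp_apply, iterateFrobenius_def]
  rw [Polynomial.map_map, h, ← Polynomial.map_map, hf0, Polynomial.map_pow, Polynomial.map_X]

omit [PerfectRing l p] in
theorem towc_natDegree_map {T T' : Tow p l n} {m m' : ℕ} (e : Ext T m T' m')
    {f : (WittVector p T.U)[X]} (hf : f.Monic) : (f.map e.tw).natDegree = f.natDegree := by
  have : Nontrivial (WittVector p T'.U) := T'.eh.domain_nontrivial
  exact hf.natDegree_map _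

omit [PerfectRing l p] in
/-- evaluation of the generic element at the new root -/
theorem towc_eval_C {T T' : Tow p l n} (f : Hom T T') (m N : ℕ) (Y : T'.B) (y : WittVector p T.U) :
    Fr p T'.U N (WittVector.map (eval₂RingHom f.U (T'.mkU Y)) (WittVector.map C y)) =
      (⟨f, Nat.le_add_right m N⟩ : Ext T m T' (m + N)).tw y := by
  rw [towc_map_map, Ext.tw, Nat.add_sub_cancel_left, RingHom.comp_apply]
  congr 2
  ext1 x
  simp

omit [PerfectRing l p] in
theorem towc_eval_X {T T' : Tow p l n} (f : Hom T T') (m N : ℕ) (Y : T'.B) :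
    Fr p T'.U N (WittVector.map (eval₂RingHom f.U (T'.mkU Y))
      (teichmuller p ((X : T.U[X]) ^ p ^ m))) = T'.TT (m + N) Y := by
  rw [WittVector.map_teichmuller, Fr_teich, TT, coe_eval₂RingHom, eval₂_X_pow, ← pow_mul, ← pow_add]

omit [PerfectRing l p] in
theorem towc_aug_C (T : Tow p l n) (y : WittVector p T.U) :
    WittVector.map (mapRingHom T.augU) (WittVector.map C y) =
      WittVector.map C (WittVector.map T.augU y) := by
  ext1 i
  simp [WittVector.map_coeff]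

omit [PerfectRing l p] in
theorem towc_aug_X (T : Tow p l n) (m a : ℕ) :
    WittVector.map (mapRingHom T.augU) (teichmuller p ((X : T.U[X]) ^ p ^ m)) ^ a =
      teichmuller p (X ^ (p ^ m * a)) := by
  rw [WittVector.map_teichmuller, ← map_pow, coe_mapRingHom, Polynomial.map_pow, Polynomial.map_X,
    ← pow_mul]

end towc

/-- Induct on `a` (`a = 0`: `Ext.refl`, `υ = y`).  Step: `root_step` with
`y* = map C y - p^(a+1) + [X^(p^m)]^(a+1)`, `ϖ = X^(p^m)`, `r = (a+1) p^m`, so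
`tw y = ξ(β₀) y₁ + σ`; applying `map augU` (`map_augU_SS`, `𝕎 l` a domain, `p ≠ 0`) gives
`map augU y₁ = p^a`; use the induction hypothesis and `Fin.cons`, `Fin.prod_univ_succ`, `tw_SS`. -/
theorem phaseP {N : ℕ} (hN : 1 ≤ N) (a : ℕ) (T : Tow p l n) (m : ℕ) (y : WittVector p T.U)
    (hy : WittVector.map T.augU y = (p : WittVector p l) ^ a) :
    ∃ (T' : Tow p l n) (m' : ℕ) (e : Ext T m T' m') (β : Fin a → T'.B) (υ : WittVector p T'.U),
      (∀ i, T'.aug (β i) = 0) ∧ e.tw y - υ * ∏ i, T'.xiW m' (β i) ∈ T'.SS m' (T'.bI β) N := by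
  induction a generalizing T m with
  | zero => exact ⟨T, m, Ext.refl T m, Fin.elim0, y, fun i => i.elim0, by simp [Ext.tw_refl]⟩
  | succ a ih =>
    have hp : 0 < p := (Fact.out : p.Prime).pos
    obtain ⟨T₁, f, Y, hY, hroot⟩ := T.root_step m N
      (WittVector.map C y - (p : WittVector p T.U[X]) ^ (a + 1) + teichmuller p (X ^ p ^ m) ^ (a + 1)) (X ^ p ^ m)
      (r := p ^ m * (a + 1)) (Nat.mul_pos (pow_pos hp m) (Nat.succ_pos a)) (by
        rw [map_add, map_sub, map_pow, map_pow, map_natCast, towc_aug_C, hy, map_pow, map_natCast,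
          sub_self, zero_add, towc_aug_X])
    let e₁ : Ext T m T₁ (m + N) := ⟨f, Nat.le_add_right m N⟩
    have h𝔟 : T₁.mkU Y ∈ T₁.nU ⊔ Ideal.span {T₁.mkU Y} :=
      Submodule.mem_sup_right (Ideal.mem_span_singleton_self _)
    have h1 := hroot (T₁.nU ⊔ Ideal.span {T₁.mkU Y}) le_sup_left
      (by rw [eval₂_X_pow]; exact Ideal.pow_mem_pow h𝔟 _)
    simp only [map_add, map_sub, map_pow (Fr p T₁.U N), map_pow (WittVector.map _), map_natCast] at h1
    rw [towc_eval_C f m N, towc_eval_X, eval₂_X_pow, ← pow_mul, ← pow_add] at h1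
    obtain ⟨c, hc, σ, hσ, hsum⟩ := Submodule.mem_sup.1 h1
    obtain ⟨b, rfl⟩ := Ideal.mem_span_singleton'.1 hc
    obtain ⟨G, hG⟩ := sub_dvd_pow_sub_pow (p : WittVector p T₁.U) (T₁.TT (m + N) Y) (a + 1)
    have h2 : e₁.tw y = T₁.xiW (m + N) Y * (b + G) + σ := by
      change b * (p - T₁.TT (m + N) Y) + σ = e₁.tw y - p ^ (a + 1) + T₁.TT (m + N) Y ^ (a + 1) at hsum
      unfold xiW
      linear_combination hG - hsum
    have h3 : WittVector.map T₁.augU (b + G) = (p : WittVector p l) ^ a := by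
      have h4 := congrArg (WittVector.map T₁.augU) h2
      rw [e₁.map_augU_tw, hy, map_pow, map_natCast, map_add, map_mul, xiW, map_sub, map_natCast,
        T₁.map_augU_TT _ hY, sub_zero, T₁.map_augU_SS _ (sup_le T₁.nU_le_ker (by
          rw [Ideal.span_singleton_le_iff_mem]; exact T₁.towc_augU_mk hY)) hN hσ, add_zero,
        pow_succ'] at h4
      exact (mul_left_cancel₀ (WittVector.p_nonzero p l) h4).symm
    obtain ⟨T', m', e', β', υ, hβ', h5⟩ := ih T₁ (m + N) (b + G) h3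
    refine ⟨T', m', e₁.trans e', Fin.cons (e'.φ Y) β', υ, fun i => ?_, ?_⟩
    · refine Fin.cases ?_ (fun i => ?_) i
      · rw [Fin.cons_zero, e'.aug, hY]
      · rw [Fin.cons_succ, hβ']
    · have e : (e₁.trans e').tw y - υ * ∏ i, T'.xiW m' ((Fin.cons (e'.φ Y) β' : Fin (a + 1) → T'.B) i) =
          T'.xiW m' (e'.φ Y) * (e'.tw (b + G) - υ * ∏ i, T'.xiW m' (β' i)) + e'.tw σ := by
        rw [Ext.tw_trans, h2, map_add, map_mul, e'.tw_xiW, Fin.prod_univ_succ]
        simp only [Fin.cons_zero, Fin.cons_succ]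
        ring
      rw [e]
      refine add_mem (Ideal.mul_mem_left _ _ (T'.towc_SS_mono m' N ?_ h5)) (e'.tw_SS ?_ hσ)
      · refine sup_le_sup_left (Ideal.span_mono ?_) _
        rintro _ ⟨i, rfl⟩
        exact ⟨i.succ, by simp⟩
      · rw [Ideal.map_sup, Hom.map_nU, Ideal.map_span, Set.image_singleton]
        refine sup_le_sup_left (Ideal.span_mono ?_) _
        rintro _ rfl
        exact ⟨0, by simp [Hom.U_mk]⟩

/-- Induct on `d`.  Step: each lower coefficient `f_r` has `map augU f_r = p c_r`; replace it by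
`f_r - ξ * map lU c_r` (killed by `map augU`), giving `f*`; `y* = f*([X^(p^m)])`, `ϖ = C (β^(p^m))`,
`r = (d+1) p^m`.  So `c = (f.map tw).eval (TT w₀) ∈ (ξ) ⊔ SS` for all admissible `𝔟'`; divide
`f.map tw = (X - C (TT w₀)) f₁ + C c` and use the induction hypothesis for `f₁`; for the final `𝔟'`
use its `comap` at the intermediate stage. -/
theorem phaseW {N : ℕ} (hN : 1 ≤ N) (d : ℕ) (T : Tow p l n) (m : ℕ) (β : T.B) (hβ : T.aug β = 0)
    (f : (WittVector p T.U)[X]) (hf : f.Monic) (hd : f.natDegree = d)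
    (hf0 : f.map T.eh = X ^ d) :
    ∃ (T' : Tow p l n) (m' : ℕ) (e : Ext T m T' m') (w : Fin d → T'.B),
      (∀ j, T'.aug (w j) = 0) ∧ ∀ 𝔟' : Ideal T'.U, T'.nU ≤ 𝔟' → T'.mkU (e.φ β) ∈ 𝔟' → ∀ r,
        (f.map e.tw - ∏ j, (X - C (T'.TT m' (w j)))).coeff r ∈
          Ideal.span {T'.xiW m' (e.φ β)} ⊔ T'.SS m' 𝔟' N := by
  induction d generalizing T m with
  | zero =>
    refine ⟨T, m, Ext.refl T m, Fin.elim0, fun i => i.elim0, fun 𝔟' _ _ r => ?_⟩
    rw [hf.natDegree_eq_zero.1 hd]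
    simp
  | succ d ih =>
    have hp : 0 < p := (Fact.out : p.Prime).pos
    have hc : ∀ r, r < d + 1 → ∃ c : WittVector p l,
        c * p = WittVector.map T.augU (f.coeff r) := fun r hr => by
      refine Ideal.mem_span_singleton'.1 ((WittVector.mem_span_p_iff_coeff_zero_eq_zero _).2 ?_)
      have h := congrArg (fun g => Polynomial.coeff g r) hf0
      simp only [Polynomial.coeff_map, coeff_X_pow, if_neg hr.ne] at h
      exact h
    choose! c hc using hc
    obtain ⟨T₁, φ, Y, hY, hroot⟩ := T.root_step m N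
      (teichmuller p (X ^ p ^ m) ^ (d + 1) + ∑ r ∈ Finset.range (d + 1),
        WittVector.map C (f.coeff r - T.xiW m β * WittVector.map T.lU (c r)) *
          teichmuller p (X ^ p ^ m) ^ r) (C (T.mkU β ^ p ^ m))
      (r := p ^ m * (d + 1)) (Nat.mul_pos (pow_pos hp m) (Nat.succ_pos d)) (by
        rw [map_add, map_pow, towc_aug_X, map_sum, Finset.sum_eq_zero, add_zero]
        intro r hr
        have h1 : WittVector.map T.augU (WittVector.map T.lU (c r)) = c r := by
          ext i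
          simp [WittVector.map_coeff, augU_lU]
        have h2 : WittVector.map T.augU (f.coeff r - T.xiW m β * WittVector.map T.lU (c r)) = 0 := by
          rw [map_sub, map_mul, h1, xiW, map_sub, map_natCast, T.map_augU_TT _ hβ, sub_zero,
            ← hc r (Finset.mem_range.1 hr), mul_comm (c r), sub_self]
        rw [map_mul, towc_aug_C, h2, map_zero, zero_mul])
    let e₁ : Ext T m T₁ (m + N) := ⟨φ, Nat.le_add_right m N⟩
    obtain ⟨t, ht⟩ : ∃ t, t = T₁.TT (m + N) Y := ⟨_, rfl⟩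
    obtain ⟨g, hg⟩ : ∃ g, g = f.map e₁.tw := ⟨_, rfl⟩
    have hgm : g.Monic := hg ▸ hf.map _
    have hgd : g.natDegree = d + 1 := by rw [hg, towc_natDegree_map e₁ hf, hd]
    have hg0 : g.map T₁.eh = X ^ (d + 1) := hg ▸ towc_map_eh e₁ hf0
    have h1 : ∀ 𝔟 : Ideal T₁.U, T₁.nU ≤ 𝔟 → T₁.mkU (e₁.φ β) ∈ 𝔟 →
        g.eval t ∈ Ideal.span {T₁.xiW (m + N) (e₁.φ β)} ⊔ T₁.SS (m + N) 𝔟 N := by
      intro 𝔟 h𝔟 hβ𝔟
      have h2 := hroot 𝔟 h𝔟 (by
        rw [eval₂_C, map_pow, Hom.U_mk]; exact Ideal.pow_mem_pow hβ𝔟 _)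
      simp only [map_add, map_sum, map_mul, map_pow (Fr p T₁.U N), map_pow (WittVector.map _),
        towc_eval_C φ m N, towc_eval_X] at h2
      rw [eval₂_C, map_pow φ.U, Hom.U_mk, ← pow_mul, ← pow_add, ← ht] at h2
      have h3 : g.eval t = (t ^ (d + 1) + ∑ r ∈ Finset.range (d + 1),
          e₁.tw (f.coeff r - T.xiW m β * WittVector.map T.lU (c r)) * t ^ r) +
          (∑ r ∈ Finset.range (d + 1), e₁.tw (WittVector.map T.lU (c r)) * t ^ r) *
            T₁.xiW (m + N) (e₁.φ β) := by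
        conv_lhs => rw [hgm.as_sum, hgd]
        rw [eval_add, eval_pow, eval_X, eval_finsetSum, add_assoc, Finset.sum_mul,
          ← Finset.sum_add_distrib]
        congr 1
        refine Finset.sum_congr rfl fun r _ => ?_
        rw [eval_mul, eval_C, eval_pow, eval_X, hg, Polynomial.coeff_map, map_sub, map_mul, e₁.tw_xiW]
        ring
      rw [h3]
      exact add_mem h2 (Submodule.mem_sup_left
        (Ideal.mul_mem_left _ _ (Ideal.mem_span_singleton_self _)))
    obtain ⟨g₁, hg₁⟩ : ∃ g₁, g₁ = g /ₘ (X - C t) := ⟨_, rfl⟩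
    have hdiv : g = C (g.eval t) + (X - C t) * g₁ := by
      rw [hg₁, ← modByMonic_X_sub_C_eq_C_eval, modByMonic_add_div]
    have : Nontrivial (WittVector p T₁.U) := T₁.eh.domain_nontrivial
    have hd₁ : g₁.natDegree = d := by
      rw [hg₁, natDegree_divByMonic g (monic_X_sub_C t), hgd, natDegree_X_sub_C, Nat.add_sub_cancel]
    have hm₁ : g₁.Monic := by
      have h2 := congrArg (fun q => Polynomial.coeff q (d + 1)) hdiv
      have h3 : g.coeff (d + 1) = 1 := hgd ▸ hgm.coeff_natDegree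
      have h4 : g₁.coeff (d + 1) = 0 := coeff_eq_zero_of_natDegree_lt (by omega)
      simp only [coeff_add, coeff_C_succ, coeff_X_sub_C_mul, h3, h4, mul_zero, sub_zero,
        zero_add] at h2
      rw [Monic, leadingCoeff, hd₁, ← h2]
    have ht0 : T₁.eh t = 0 := by
      rw [ht, eh, RingHom.comp_apply, TT, WittVector.constantCoeff_apply,
        WittVector.teichmuller_coeff_zero, map_pow, T₁.towc_augU_mk hY, zero_pow (pow_pos hp _).ne']
    have h0₁ : g₁.map T₁.eh = X ^ d := by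
      have h2 : T₁.eh (g.eval t) = 0 := by
        rw [← eval₂_at_apply, ← eval_map, hg0, ht0, eval_pow, eval_X, zero_pow (Nat.succ_ne_zero d)]
      have h3 := congrArg (Polynomial.map T₁.eh) hdiv
      rw [hg0, Polynomial.map_add, Polynomial.map_mul, Polynomial.map_sub, map_C, map_C, map_X, h2,
        ht0, C_0, zero_add, sub_zero, pow_succ'] at h3
      exact (mul_left_cancel₀ X_ne_zero h3).symm
    obtain ⟨T', m', e', w', hw', h5⟩ := ih T₁ (m + N) (e₁.φ β) (by rw [e₁.aug, hβ]) g₁ hm₁ hd₁ h0₁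
    refine ⟨T', m', e₁.trans e', Fin.cons (e'.φ Y) w', fun i => ?_, fun 𝔟' h𝔟' hβ' => ?_⟩
    · refine Fin.cases ?_ (fun i => ?_) i
      · rw [Fin.cons_zero, e'.aug, hY]
      · rw [Fin.cons_succ, hw']
    · have e : f.map (e₁.trans e').tw -
          ∏ j, (X - C (T'.TT m' ((Fin.cons (e'.φ Y) w' : Fin (d + 1) → T'.B) j))) =
          C (e'.tw (g.eval t)) + (X - C (T'.TT m' (e'.φ Y))) *
            (g₁.map e'.tw - ∏ j, (X - C (T'.TT m' (w' j)))) := by
        rw [towc_tw_trans, ← Polynomial.map_map, ← hg, Fin.prod_univ_succ]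
        conv_lhs => rw [hdiv]
        rw [Polynomial.map_add, Polynomial.map_mul, Polynomial.map_sub, map_C, map_C, map_X, ht,
          e'.tw_TT]
        simp only [Fin.cons_zero, Fin.cons_succ]
        ring
      rw [e, ← Ideal.mem_map_C_iff]
      exact add_mem (Ideal.mem_map_of_mem _ (towc_persist e' (e₁.φ β) h1 𝔟' h𝔟' hβ'))
        (Ideal.mul_mem_left _ _ (Ideal.mem_map_C_iff.2 (h5 𝔟' h𝔟' hβ')))

/-- finitely many polynomials at once: induct on a finset `s` of indices (`w x` arbitrary, e.g. `0`,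
outside `s`), `phaseW` and persistence under `Ext.trans`. -/
theorem phaseMulti {N : ℕ} (hN : 1 ≤ N) {ι : Type} [Fintype ι] (d : ι → ℕ) (T : Tow p l n) (m : ℕ)
    (β : ι → T.B) (hβ : ∀ x, T.aug (β x) = 0) (f : ι → (WittVector p T.U)[X])
    (hf : ∀ x, (f x).Monic) (hd : ∀ x, (f x).natDegree = d x)
    (hf0 : ∀ x, (f x).map T.eh = X ^ d x) :
    ∃ (T' : Tow p l n) (m' : ℕ) (e : Ext T m T' m') (w : ∀ x, Fin (d x) → T'.B),
      (∀ x j, T'.aug (w x j) = 0) ∧ ∀ x, ∀ 𝔟' : Ideal T'.U, T'.nU ≤ 𝔟' →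
        T'.mkU (e.φ (β x)) ∈ 𝔟' → ∀ r,
        ((f x).map e.tw - ∏ j, (X - C (T'.TT m' (w x j)))).coeff r ∈
          Ideal.span {T'.xiW m' (e.φ (β x))} ⊔ T'.SS m' 𝔟' N := by
  classical
  have key : ∀ s : Finset ι,
      ∃ (T' : Tow p l n) (m' : ℕ) (e : Ext T m T' m') (w : ∀ x, Fin (d x) → T'.B),
      (∀ x j, T'.aug (w x j) = 0) ∧ ∀ x ∈ s, ∀ 𝔟' : Ideal T'.U, T'.nU ≤ 𝔟' →
        T'.mkU (e.φ (β x)) ∈ 𝔟' → ∀ r,
        ((f x).map e.tw - ∏ j, (X - C (T'.TT m' (w x j)))).coeff r ∈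
          Ideal.span {T'.xiW m' (e.φ (β x))} ⊔ T'.SS m' 𝔟' N := by
    intro s
    induction s using Finset.induction_on with
    | empty => exact ⟨T, m, Ext.refl T m, fun _ _ => 0, fun _ _ => map_zero _, by simp⟩
    | insert x₀ s hx₀ ih =>
      obtain ⟨T₁, m₁, e₁, w, hw, h⟩ := ih
      obtain ⟨T', m', e', w₀, hw₀, h₀⟩ := phaseW hN (d x₀) T₁ m₁ (e₁.φ (β x₀))
        (by rw [e₁.aug, hβ]) ((f x₀).map e₁.tw) ((hf x₀).map _)
        (by rw [towc_natDegree_map e₁ (hf x₀), hd]) (towc_map_eh e₁ (hf0 x₀))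
      refine ⟨T', m', e₁.trans e', Function.update (fun x j => e'.φ (w x j)) x₀ w₀,
        fun x j => ?_, fun x hx 𝔟' h1 h2 r => ?_⟩
      · by_cases hx : x = x₀
        · subst hx
          rw [Function.update_self, hw₀]
        · rw [Function.update_of_ne hx, e'.aug, hw]
      · rw [towc_tw_trans, ← Polynomial.map_map]
        by_cases hxx : x = x₀
        · subst hxx
          rw [Function.update_self]
          exact h₀ 𝔟' h1 h2 r
        · have hs : x ∈ s := (Finset.mem_insert.1 hx).resolve_left hxx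
          have h3 := towc_persist e' (e₁.φ (β x)) (fun 𝔟 h1 h2 => h x hs 𝔟 h1 h2 r) 𝔟' h1 h2
          rw [← Polynomial.coeff_map, Polynomial.map_sub, Polynomial.map_prod] at h3
          simp only [Polynomial.map_sub, map_X, map_C, e'.tw_TT] at h3
          rw [Function.update_of_ne hxx]
          exact h3
  obtain ⟨T', m', e, w, hw, h⟩ := key Finset.univ
  exact ⟨T', m', e, w, hw, fun x => h x (Finset.mem_univ x)⟩

end Tow

end Crest.Agent.R183
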