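import Crest.Agent.R183.Chain

/-! # R183 / Tower : stable homology of a tower of pairs (levels 1,2,3) and approximate
additivity of the stable Euler characteristic. -/

set_option autoImplicit false

namespace Crest.Agent.R183

section
variable {B : Type*} [CommRing B] {X : Type*} [AddCommGroup X] [Module B X]
  {X' : Type*} [AddCommGroup X'] [Module B X']

structure Tw (D : X →ₗ[B] X) (U L : ℕ → Ch B X) : Prop where
  pair : ∀ j, j ≤ 3 → Pair D (U j) (L j)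
  antiU : Antitone U
  antiL : Antitone L

noncomputable def sig (D : X →ₗ[B] X) (U L : ℕ → Ch B X) (k : ℤ) : ℕ∞ :=
  len (Zc D (U 3) (L 3) k) (Bd D (U 1) (L 1) k)

structure Good (θ : B) (c : ℕ) (D : X →ₗ[B] X) (U L : ℕ → Ch B X) : Prop where
  tw : Tw D U L
  ei : ∀ k, ∀ x ∈ Zc D (U 3) (L 3) k, x ∈ Bd D (U 1) (L 1) k → θ • x ∈ Bd D (U 2) (L 2) k
  es : ∀ k, ∀ x ∈ Zc D (U 2) (L 2) k, θ • x ∈ Zc D (U 3) (L 3) k ⊔ Bd D (U 1) (L 1) k
  sm : ∀ k, HSm (θ ^ 2) (c : ℕ∞) D (U 1) (L 1) k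

/-- sign -/
noncomputable def sg (k : ℤ) : ℝ := (-1 : ℝ) ^ k

noncomputable def schi (a b : ℤ) (D : X →ₗ[B] X) (U L : ℕ → Ch B X) : ℝ :=
  ∑ k ∈ Finset.Icc a b, sg k * ((sig D U L k).toNat : ℝ)

noncomputable def chi (a b : ℤ) (D : X →ₗ[B] X) (U L : Ch B X) : ℝ :=
  ∑ k ∈ Finset.Icc a b, sg k * ((hl D U L k).toNat : ℝ)

variable {D : X →ₗ[B] X}

theorem sig_le_hl {U L : ℕ → Ch B X} (h : Tw D U L) (k : ℤ) : sig D U L k ≤ hl D (U 1) (L 1) k := by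
  exact len_mono (Zc_mono D (h.antiU (by norm_num)) (h.antiL (by norm_num)) k) le_rfl

theorem Good.sig_ne_top {θ : B} {c : ℕ} {U L : ℕ → Ch B X} (h : Good θ c D U L) (k : ℤ) :
    sig D U L k ≠ ⊤ := by
  exact ne_top_of_le_ne_top (h.sm k).1 (sig_le_hl h.tw k)

theorem Good.of_le {θ : B} {c c' : ℕ} {U L : ℕ → Ch B X} (h : Good θ c D U L) (hc : c ≤ c') :
    Good θ c' D U L := by
  exact ⟨h.tw, h.ei, h.es, fun k => (h.sm k).of_le (by exact_mod_cast hc)⟩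

/-- `len_le_kap` with `θ^2`. -/
theorem Good.sig_le {θ : B} {c : ℕ} {U L : ℕ → Ch B X} (h : Good θ c D U L) (k : ℤ)
    (hk : ∀ x ∈ Zc D (U 3) (L 3) k, θ • x ∈ Bd D (U 1) (L 1) k) : sig D U L k ≤ c := by
  refine le_trans (len_le_kap (θ ^ 2) le_rfl ?_ (h.sm k).1 fun x hx => ?_) (h.sm k).2
  · exact le_sup_of_le_left
      (Zc_mono D (h.tw.antiU (by norm_num)) (h.tw.antiL (by norm_num)) k)
  · rw [sq, mul_smul]
    exact Submodule.smul_mem _ _ (hk x hx)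

theorem Good.const {θ : B} {c : ℕ} {U L : Ch B X} (h : Pair D U L)
    (hs : ∀ k, HSm (θ ^ 2) (c : ℕ∞) D U L k) : Good θ c D (fun _ => U) (fun _ => L) := by
  exact ⟨⟨fun _ _ => h, antitone_const, antitone_const⟩, fun _ _ _ hx => Submodule.smul_mem _ _ hx,
    fun _ _ hx => Submodule.mem_sup_left (Submodule.smul_mem _ _ hx), hs⟩

theorem aal_mem_Zc {U L : Ch B X} {k : ℤ} {x : X} :
    x ∈ Zc D U L k ↔ x ∈ U k ∧ D x ∈ L (k - 1) := Iff.rfl

theorem aal_mem_Bd {U L : Ch B X} {k : ℤ} {x : X} :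
    x ∈ Bd D U L k ↔ ∃ u ∈ U (k + 1), ∃ l ∈ L k, D u + l = x := by
  simp only [Bd, Submodule.mem_sup, Submodule.mem_map]
  exact ⟨fun ⟨_, ⟨u, hu, e⟩, l, hl, h⟩ => ⟨u, hu, l, hl, e ▸ h⟩,
    fun ⟨u, hu, l, hl, h⟩ => ⟨_, ⟨u, hu, rfl⟩, l, hl, h⟩⟩

theorem aal_D_mem_Bd {U L : Ch B X} {k : ℤ} {u : X} (h : u ∈ U (k + 1)) : D u ∈ Bd D U L k :=
  Submodule.mem_sup_left (Submodule.mem_map_of_mem h)

theorem aal_L_mem_Bd {U L : Ch B X} {k : ℤ} {l : X} (h : l ∈ L k) : l ∈ Bd D U L k :=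
  Submodule.mem_sup_right h

theorem aal_gen {θ : B} {c : ℕ} {Z Z₁ N W I : Submodule B X} (hs : Sm θ (c : ℕ∞) Z₁ N)
    (hZ : Z ≤ Z₁) (hW : N ≤ W) (hI : I ≤ Z ⊓ W) (hθ : ∀ x ∈ Z, x ∈ W → θ • x ∈ I ⊔ N) :
    ∃ e : ℝ, 0 ≤ e ∧ e ≤ c ∧
      ((len Z N).toNat : ℝ) = (len Z W).toNat + (len I N).toNat + e := by
  have h0 : len Z N ≠ ⊤ := ne_top_of_le_ne_top hs.1 (len_mono hZ le_rfl)
  have h1 : len (Z ⊓ W ⊔ N) (I ⊔ N) ≤ c := by
    refine (len_le_kap θ le_sup_right (sup_le_sup_right (inf_le_left.trans hZ) N) hs.1 ?_).trans hs.2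
    intro x hx
    obtain ⟨y, hy, z, hz, rfl⟩ := Submodule.mem_sup.1 hx
    rw [smul_add]
    exact add_mem (hθ y hy.1 hy.2) (Submodule.mem_sup_right (N.smul_mem θ hz))
  have h2 : len Z N = len Z W + (len (Z ⊓ W ⊔ N) (I ⊔ N) + len I N) := by
    rw [len_split Z hW, ← len_sup_left (Z ⊓ W) N,
      len_add (A' := I ⊔ N) le_sup_right (sup_le_sup_right hI N), len_sup_left]
  rw [h2] at h0 ⊢
  obtain ⟨h3, h4⟩ := WithTop.add_ne_top.1 h0
  obtain ⟨h5, h6⟩ := WithTop.add_ne_top.1 h4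
  refine ⟨(len (Z ⊓ W ⊔ N) (I ⊔ N)).toNat, Nat.cast_nonneg _, ?_, ?_⟩
  · exact_mod_cast ENat.toNat_le_of_le_natCast h1
  · rw [ENat.toNat_add h3 h4, ENat.toNat_add h5 h6]
    push_cast
    ring

theorem aal_A {θ : B} {c : ℕ} {U M L : ℕ → Ch B X} (hA : Good θ c D M L) (hB : Good θ c D U L)
    (hC : Good θ c D U M) (k : ℤ) : ∃ e : ℝ, 0 ≤ e ∧ e ≤ c ∧ ((sig D M L k).toNat : ℝ) =
      (len (Zc D (M 3) (L 3) k) (Bd D (U 1) (L 1) k)).toNat +
      (len (Zc D (U 3) (M 3) (k + 1)) ((Bd D (M 1) (L 1) (k + 1 - 1)).comap D)).toNat + e := by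
  have e1 : k + 1 - 1 = k := by ring
  have e2 : k + 1 - 2 = k - 1 := by ring
  have e3 : k + 1 + 1 - 2 = k := by ring
  rw [e1, ← len_map]
  refine aal_gen (hA.sm k) (Zc_mono D (hA.tw.antiU (by norm_num)) (hA.tw.antiL (by norm_num)) k)
    (Bd_mono D (hC.tw.pair 1 (by norm_num)).le le_rfl k) ?_ ?_
  · rintro _ ⟨u, hu, rfl⟩
    obtain ⟨h1, h2⟩ := aal_mem_Zc.1 hu
    have h3 := (hB.tw.pair 3 le_rfl).dd _ u h1
    rw [e1] at h2
    rw [e2] at h3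
    exact ⟨⟨h2, h3⟩, aal_D_mem_Bd (hB.tw.antiU (show 1 ≤ 3 by norm_num) _ h1)⟩
  · intro x hx hx'
    obtain ⟨u, hu, l, hl, e⟩ := aal_mem_Bd.1
      (hB.ei k x (Zc_mono D (hC.tw.pair 3 le_rfl).le le_rfl k hx) hx')
    have h1 : D u ∈ M 2 (k + 1 - 1) := by
      rw [e1, eq_sub_of_add_eq e]
      exact sub_mem (Submodule.smul_mem _ _ (hA.tw.antiU (show 2 ≤ 3 by norm_num) _ hx.1))
        ((hA.tw.pair 2 (by norm_num)).le _ hl)
    obtain ⟨z, hz, y, hy, e'⟩ := Submodule.mem_sup.1 (hC.es (k + 1) u ⟨hu, h1⟩)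
    obtain ⟨u', hu', m, hm, rfl⟩ := aal_mem_Bd.1 hy
    have h2 := (hB.tw.pair 1 (by norm_num)).dd _ u' hu'
    rw [e3] at h2
    have h3 : θ ^ 2 • x = D z + (D (D u') + D m + θ • l) := by
      rw [pow_two, mul_smul, ← e, smul_add, ← map_smul, ← e', map_add, map_add, add_assoc]
    rw [h3]
    exact Submodule.add_mem_sup (Submodule.mem_map_of_mem hz)
      (add_mem (add_mem (aal_L_mem_Bd h2) (aal_D_mem_Bd hm))
        (aal_L_mem_Bd (Submodule.smul_mem _ _ (hA.tw.antiL (show 1 ≤ 2 by norm_num) _ hl))))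

theorem aal_B {θ : B} {c : ℕ} {U M L : ℕ → Ch B X} (hA : Good θ c D M L) (hB : Good θ c D U L)
    (hC : Good θ c D U M) (k : ℤ) : ∃ e : ℝ, 0 ≤ e ∧ e ≤ c ∧ ((sig D U L k).toNat : ℝ) =
      (len (Zc D (U 3) (L 3) k) (Bd D (U 1) (M 1) k)).toNat +
      (len (Zc D (M 3) (L 3) k) (Bd D (U 1) (L 1) k)).toNat + e := by
  have e2 : k + 1 - 2 = k - 1 := by ring
  refine aal_gen (hB.sm k) (Zc_mono D (hB.tw.antiU (by norm_num)) (hB.tw.antiL (by norm_num)) k)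
    (Bd_mono D le_rfl (hA.tw.pair 1 (by norm_num)).le k) ?_ ?_
  · intro x hx
    exact ⟨Zc_mono D (hC.tw.pair 3 le_rfl).le le_rfl k hx,
      aal_L_mem_Bd (hA.tw.antiU (show 1 ≤ 3 by norm_num) _ hx.1)⟩
  · intro x hx hx'
    obtain ⟨u, hu, m, hm, e⟩ := aal_mem_Bd.1
      (hC.ei k x (Zc_mono D le_rfl (hA.tw.pair 3 le_rfl).le k hx) hx')
    have h1 : D m ∈ L 2 (k - 1) := by
      have h2 := (hB.tw.pair 2 (by norm_num)).dd _ u hu
      rw [e2] at h2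
      rw [eq_sub_of_add_eq' e, map_sub, map_smul]
      exact sub_mem (Submodule.smul_mem _ _ (hB.tw.antiL (show 2 ≤ 3 by norm_num) _ hx.2)) h2
    have h3 := sup_le_sup_left (Bd_mono D (hC.tw.pair 1 (by norm_num)).le le_rfl k) _
      (hA.es k m ⟨hm, h1⟩)
    rw [pow_two, mul_smul, ← e, smul_add]
    exact add_mem (Submodule.mem_sup_right (Submodule.smul_mem _ _
      (aal_D_mem_Bd (hB.tw.antiU (show 1 ≤ 2 by norm_num) _ hu)))) h3

theorem aal_C {θ : B} {c : ℕ} {U M L : ℕ → Ch B X} (hA : Good θ c D M L) (hB : Good θ c D U L)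
    (hC : Good θ c D U M) (k : ℤ) : ∃ e : ℝ, 0 ≤ e ∧ e ≤ c ∧ ((sig D U M k).toNat : ℝ) =
      (len (Zc D (U 3) (M 3) k) ((Bd D (M 1) (L 1) (k - 1)).comap D)).toNat +
      (len (Zc D (U 3) (L 3) k) (Bd D (U 1) (M 1) k)).toNat + e := by
  have e1 : k - 1 + 1 = k := by ring
  have e2 : k + 1 - 2 = k - 1 := by ring
  have e3 : k - 2 = k - 1 - 1 := by ring
  refine aal_gen (hC.sm k) (Zc_mono D (hC.tw.antiU (by norm_num)) (hC.tw.antiL (by norm_num)) k)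
    ?_ ?_ ?_
  · intro x hx
    obtain ⟨u, hu, m, hm, rfl⟩ := aal_mem_Bd.1 hx
    have h2 := (hB.tw.pair 1 (by norm_num)).dd _ u hu
    rw [e2] at h2
    rw [Submodule.mem_comap, map_add]
    exact add_mem (aal_L_mem_Bd h2) (aal_D_mem_Bd (by rwa [e1]))
  · intro x hx
    exact ⟨Zc_mono D le_rfl (hA.tw.pair 3 le_rfl).le k hx,
      aal_L_mem_Bd (hB.tw.antiL (show 1 ≤ 3 by norm_num) _ hx.2)⟩
  · intro x hx hx'
    have h1 := (hB.tw.pair 3 le_rfl).dd _ x hx.1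
    rw [e3] at h1
    obtain ⟨m, hm, l, hl, e⟩ := aal_mem_Bd.1 (hA.ei (k - 1) (D x) ⟨hx.2, h1⟩ hx')
    rw [e1] at hm
    have h2 : θ • x - m ∈ Zc D (U 2) (L 2) k := by
      refine ⟨sub_mem (Submodule.smul_mem _ _ (hC.tw.antiU (show 2 ≤ 3 by norm_num) _ hx.1))
        ((hC.tw.pair 2 (by norm_num)).le _ hm), ?_⟩
      change D (θ • x - m) ∈ L 2 (k - 1)
      rwa [map_sub, map_smul, ← e, add_sub_cancel_left]
    have h3 := sup_le_sup_left (Bd_mono D le_rfl (hA.tw.pair 1 (by norm_num)).le k) _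
      (hB.es k _ h2)
    have h4 : θ ^ 2 • x = θ • (θ • x - m) + θ • m := by
      rw [pow_two, mul_smul, smul_sub, sub_add_cancel]
    rw [h4]
    exact add_mem h3 (Submodule.mem_sup_right (aal_L_mem_Bd (Submodule.smul_mem _ _
      (hA.tw.antiU (show 1 ≤ 2 by norm_num) _ hm))))

theorem aal_tele (r : ℤ → ℝ) {a b : ℤ} (hab : a ≤ b) :
    ∑ k ∈ Finset.Icc a b, sg k * (r (k + 1) + r k) = sg a * r a + sg b * r (b + 1) := by
  induction b, hab using Int.le_induction with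
  | base => simp [mul_add, add_comm]
  | succ b hb ih =>
    rw [← Finset.insert_Icc_right_eq_Icc_add_one (by omega), Finset.sum_insert (by simp), ih]
    have : sg (b + 1) = -sg b := by
      unfold sg
      rw [zpow_add_one₀ (by norm_num)]
      ring
    rw [this]
    ring

theorem aal_abs_sg (k : ℤ) : |sg k| = 1 := by
  unfold sg
  rw [abs_zpow]
  simp

/-- APPROXIMATE ADDITIVITY.  Towers A=(M,L), B=(U,L), C=(U,M).  Put (Z at level 3, Bd at level 1)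
`rAB k = len Z^A Bd^B`, `rBC k = len Z^B Bd^C`, `rCA k = len Z^C (comap D (Bd^A (k-1)))`.  Then
`sig^A k = rAB k + rCA (k+1) + e`, `sig^B k = rBC k + rAB k + e'`, `sig^C k = rCA k + rBC k + e''`
with `e,e',e'' ≤ c`: `len_split`, then `len K Bd = len (K ⊔ Bd) (I ⊔ Bd) + len I Bd`, and the first
term is `≤ c` by `len_le_kap (θ^2)` because `θ² K ≤ I ⊔ Bd`:
* A: `x ∈ Z^A₃ ⊓ Bd^B₁`; `ei` of B: `θx = Du + l`, so `u ∈ Z^C₂ (k+1)`; `es` of C.
* B: `x ∈ Z^B₃ ⊓ Bd^C₁`; `ei` of C: `θx = Du + m`, so `m ∈ Z^A₂`; `es` of A.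
* C: `x ∈ Z^C₃`, `Dx ∈ Bd^A₁`; `ei` of A for `Dx`: `θDx = Dm + l`, so `θx - m ∈ Z^B₂`; `es` of B.
Telescoping: `∑ sg k (rCA (k+1) + rCA k)` only leaves `rCA a`, `rCA (b+1)`, both `0` by `Supp`. -/
theorem aal {θ : B} {c : ℕ} {U M L : ℕ → Ch B X} (hA : Good θ c D M L) (hB : Good θ c D U L)
    (hC : Good θ c D U M) {a b : ℤ} (hab : a ≤ b) (hs : Supp (U 1) a b) :
    |schi a b D U L - schi a b D M L - schi a b D U M| ≤ 3 * ((b : ℝ) - a + 1) * c := by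
  choose eA hA0 hA1 hA2 using aal_A hA hB hC
  choose eB hB0 hB1 hB2 using aal_B hA hB hC
  choose eC hC0 hC1 hC2 using aal_C hA hB hC
  obtain ⟨r, hr⟩ : ∃ r : ℤ → ℝ, r = fun k =>
    ((len (Zc D (U 3) (M 3) k) ((Bd D (M 1) (L 1) (k - 1)).comap D)).toNat : ℝ) := ⟨_, rfl⟩
  have h31 : U 3 ≤ U 1 := hC.tw.antiU (by norm_num)
  have ha : r a = 0 := by
    have : len (Zc D (U 3) (M 3) a) ((Bd D (M 1) (L 1) (a - 1)).comap D) = 0 := by
      refine len_eq_zero_iff.2 fun x hx => ?_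
      have h1 := h31 _ ((hC.tw.pair 3 le_rfl).le _ hx.2)
      rw [hs _ (Or.inl (by omega)), Submodule.mem_bot] at h1
      rw [Submodule.mem_comap, h1]
      exact zero_mem _
    simp [hr, this]
  have hb : r (b + 1) = 0 := by
    have : len (Zc D (U 3) (M 3) (b + 1)) ((Bd D (M 1) (L 1) (b + 1 - 1)).comap D) = 0 := by
      refine len_eq_zero_iff.2 fun x hx => ?_
      have h1 := h31 _ hx.1
      rw [hs _ (Or.inr (by omega)), Submodule.mem_bot] at h1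
      rw [h1]
      exact zero_mem _
    simp only [hr, this]
    simp
  have ht := aal_tele r hab
  rw [ha, hb, mul_zero, mul_zero, add_zero] at ht
  have e : schi a b D U L - schi a b D M L - schi a b D U M =
      ∑ k ∈ Finset.Icc a b, sg k * (eB k - eA k - eC k) -
        ∑ k ∈ Finset.Icc a b, sg k * (r (k + 1) + r k) := by
    unfold schi
    rw [← Finset.sum_sub_distrib, ← Finset.sum_sub_distrib, ← Finset.sum_sub_distrib]
    refine Finset.sum_congr rfl fun k _ => ?_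
    rw [hA2, hB2, hC2, hr]
    ring
  rw [e, ht, sub_zero]
  refine (Finset.abs_sum_le_sum_abs _ _).trans
    ((Finset.sum_le_card_nsmul _ _ (3 * (c : ℝ)) fun k _ => ?_).trans (le_of_eq ?_))
  · rw [abs_mul, aal_abs_sg, one_mul, abs_le]
    constructor <;> linarith [hA0 k, hA1 k, hB0 k, hB1 k, hC0 k, hC1 k]
  · have h1 : (((Finset.Icc a b).card : ℤ) : ℝ) = ((b + 1 - a : ℤ) : ℝ) := by
      rw [Int.card_Icc_of_le _ _ (by omega)]
    push_cast at h1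
    rw [nsmul_eq_mul, h1]
    ring

/-- exact additivity: `aal` with `θ = 1`, `c = 0`, constant towers (`kap_one`). -/
theorem chi_add {U M L : Ch B X} (h : Pair D U L) (hL : L ≤ M) (hU : M ≤ U) (hM : St D M)
    (f₁ : ∀ k, hl D M L k ≠ ⊤) (f₂ : ∀ k, hl D U M k ≠ ⊤) {a b : ℤ} (hab : a ≤ b)
    (hs : Supp U a b) : chi a b D U L = chi a b D M L + chi a b D U M := by
  have g : ∀ {V W : Ch B X}, Pair D V W → (∀ k, hl D V W k ≠ ⊤) →
      Good (1 : B) 0 D (fun _ => V) (fun _ => W) := fun hp hf =>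
    Good.const hp fun k => ⟨hf k, by rw [one_pow, kap_one]; exact zero_le⟩
  have f₃ : ∀ k, hl D U L k ≠ ⊤ := fun k =>
    ne_top_of_le_ne_top (WithTop.add_ne_top.2 ⟨f₁ k, f₂ k⟩) (hl_mid_le h hL hU hM k)
  have := aal (g (h.sub hL hU hM) f₁) (g h f₃) (g (h.quot hL hU hM) f₂) hab hs
  rw [Nat.cast_zero, mul_zero, abs_nonpos_iff] at this
  change chi a b D U L - chi a b D M L - chi a b D U M = 0 at this
  linarith

/-- level `j` of the tail filtration of the pair `(N, N')`. -/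
def lv (N N' : Ch B X) (Y : ℕ → Ch B X) (j : ℕ) : Ch B X := N' ⊔ (N ⊓ Y j)

def TN (θ : B) (D : X →ₗ[B] X) (N N' : Ch B X) (Y : ℕ → Ch B X) : Prop :=
  ∀ j j', j ≤ j' → j' ≤ 3 → ∀ k, ∀ x ∈ Zc D (lv N N' Y (j + 1)) (lv N N' Y (j' + 1)) k,
    θ • x ∈ Bd D (lv N N' Y j) (lv N N' Y j') k

theorem Towerb_mem_lv {N N' : Ch B X} {Y : ℕ → Ch B X} (hle : N' ≤ N) {j : ℕ} {k : ℤ} {x : X}
    (hx : x ∈ N k) (hx' : x ∈ (N' ⊔ Y j) k) : x ∈ lv N N' Y j k := by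
  obtain ⟨n, hn, y, hy, rfl⟩ := Submodule.mem_sup.1 hx'
  refine Submodule.add_mem_sup hn ⟨?_, hy⟩
  simpa using Submodule.sub_mem _ hx (hle k hn)

theorem Towerb_lv_le {N N' : Ch B X} {Y : ℕ → Ch B X} (aY : Antitone Y) {j j' : ℕ} (h : j ≤ j')
    (k : ℤ) : lv N N' Y j' k ≤ (N' ⊔ Y j) k :=
  sup_le_sup_left (inf_le_right.trans (aY h k)) _

theorem Towerb_lv_le_N {N N' : Ch B X} {Y : ℕ → Ch B X} (hle : N' ≤ N) (j : ℕ) (k : ℤ) :
    lv N N' Y j k ≤ N k :=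
  sup_le (hle k) inf_le_left

/-- Tail nullity gives `ei` (use `j=0,j'=2`) and `es` (`j=1,j'=3`).  Modular law:
`(N' ⊔ Y j) ⊓ N = lv N N' Y j`.  `ei`: `x = n + y₃`, `n - D n₁ ∈ lv 1` with `D(n - D n₁) ∈ lv 3`.
`es`: `x = n + y₂`, apply TN to `D n ∈ Zc (lv 2) (lv 4)`. -/
theorem good_of_TN {θ : B} {c : ℕ} {N N' : Ch B X} {Y : ℕ → Ch B X} (hle : N' ≤ N)
    (sN : St D N) (sN' : St D N') (sY : ∀ j, St D (Y j)) (aY : Antitone Y)
    (dd : ∀ k, ∀ x ∈ N k, D (D x) ∈ lv N N' Y 4 (k - 2)) (htn : TN θ D N N' Y)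
    (hs : ∀ k, HSm (θ ^ 2) (c : ℕ∞) D (N ⊔ Y 1) (N' ⊔ Y 1) k) :
    Good θ c D (fun j => N ⊔ Y j) (fun j => N' ⊔ Y j) := by
  have hD : ∀ {j : ℕ} {k : ℤ} {n y : X}, n ∈ N k → y ∈ Y j k → D (n + y) ∈ (N' ⊔ Y j) (k - 1) →
      D n ∈ lv N N' Y j (k - 1) := by
    intro j k n y hn hy h
    refine Towerb_mem_lv hle (sN k n hn) ?_
    have := Submodule.sub_mem _ h (Submodule.mem_sup_right (sY j k y hy))
    simpa using this
  refine ⟨⟨fun j hj => ⟨sup_le_sup_right hle _, sN.sup (sY j), sN'.sup (sY j), fun k x hx => ?_⟩,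
    fun _ _ h => sup_le_sup_left (aY h) _, fun _ _ h => sup_le_sup_left (aY h) _⟩,
    fun k x hx hx' => ?_, fun k x hx => ?_, hs⟩
  · obtain ⟨n, hn, y, hy, rfl⟩ := Submodule.mem_sup.1 hx
    rw [map_add, map_add]
    refine Submodule.add_mem _ (Towerb_lv_le aY (by omega) _ (dd k n hn))
      (Submodule.mem_sup_right ?_)
    have := sY j _ _ (sY j k y hy)
    rwa [show k - 1 - 1 = k - 2 by ring] at this
  · obtain ⟨n, hn, y, hy, rfl⟩ := Submodule.mem_sup.1 hx.1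
    obtain ⟨_, ⟨w, hw, rfl⟩, l, hl, he⟩ := Submodule.mem_sup.1 hx'
    obtain ⟨n₁, hn₁, y₁, hy₁, rfl⟩ := Submodule.mem_sup.1 hw
    have h1 : D n₁ ∈ N k := by simpa using sN _ _ hn₁
    have h2 : D y₁ ∈ Y 1 k := by simpa using sY 1 _ _ hy₁
    have h3 : n - D n₁ ∈ lv N N' Y (0 + 1) k := by
      refine Towerb_mem_lv hle (Submodule.sub_mem _ hn h1) ?_
      have : n - D n₁ = D y₁ + l - y := by
        rw [map_add] at he
        linear_combination (norm := module) -he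
      rw [this]
      exact Submodule.sub_mem _ (Submodule.add_mem _ (Submodule.mem_sup_right h2) hl)
        (Submodule.mem_sup_right (aY (show 1 ≤ 3 by norm_num) k hy))
    have h4 : D (n - D n₁) ∈ lv N N' Y (2 + 1) (k - 1) := by
      rw [map_sub]
      refine Submodule.sub_mem _ (hD hn hy hx.2) ?_
      have h5 := dd _ _ hn₁
      rw [show k + 1 - 2 = k - 1 by ring] at h5
      exact Towerb_mem_lv hle (Towerb_lv_le_N hle _ _ h5) (Towerb_lv_le aY (by norm_num) _ h5)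
    obtain ⟨_, ⟨m, hm, rfl⟩, l', hl', he'⟩ :=
      Submodule.mem_sup.1 (htn 0 2 (by norm_num) (by norm_num) k _ ⟨h3, h4⟩)
    have : θ • (n + y) = D (m + θ • n₁) + (l' + θ • y) := by
      rw [map_add, map_smul]
      linear_combination (norm := module) -he'
    rw [this]
    refine Submodule.add_mem_sup (Submodule.mem_map_of_mem (Submodule.mem_sup_left
      (Submodule.add_mem _ (Towerb_lv_le_N hle _ _ hm) (Submodule.smul_mem _ _ hn₁))))
      (Submodule.add_mem _ (Towerb_lv_le aY le_rfl _ hl') (Submodule.mem_sup_right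
        (Submodule.smul_mem _ _ (aY (show 2 ≤ 3 by norm_num) k hy))))
  · obtain ⟨n, hn, y, hy, rfl⟩ := Submodule.mem_sup.1 hx.1
    have h1 : D (D n) ∈ lv N N' Y (3 + 1) (k - 1 - 1) := by
      rw [show k - 1 - 1 = k - 2 by ring]
      exact dd k n hn
    obtain ⟨_, ⟨m, hm, rfl⟩, l', hl', he'⟩ :=
      Submodule.mem_sup.1 (htn 1 3 (by norm_num) le_rfl (k - 1) _ ⟨hD hn hy hx.2, h1⟩)
    rw [sub_add_cancel] at hm
    have : θ • (n + y) = (θ • n - m) + (m + θ • y) := by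
      rw [smul_add]
      abel
    rw [this]
    refine Submodule.add_mem_sup ⟨Submodule.mem_sup_left (Submodule.sub_mem _
      (Submodule.smul_mem _ _ hn) (Towerb_lv_le_N hle _ _ hm)), ?_⟩
      (Submodule.mem_sup_right (Submodule.add_mem _ (Towerb_lv_le aY le_rfl _ hm)
        (Submodule.mem_sup_right (Submodule.smul_mem _ _ (aY (show 1 ≤ 2 by norm_num) k hy)))))
    have h2 : D (θ • n - m) = l' := by
      rw [map_sub, map_smul, ← he']
      abel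
    show D (θ • n - m) ∈ (N' ⊔ Y 3) (k - 1)
    rw [h2]
    exact Towerb_lv_le aY le_rfl _ hl'

variable {D' : X' →ₗ[B] X'} {Φ : X →ₗ[B] X'} {s : ℤ} {u : Bˣ}

theorem sig_transfer {U L : ℕ → Ch B X} {U' L' : ℕ → Ch B X'} (h : Tw D U L) (h' : Tw D' U' L')
    (hΦ : ∀ x, Φ (D x) = (u : B) • D' (Φ x))
    (hI : ∀ j, j ≤ 3 → Iso Φ s (U j) (L j) (U' j) (L' j)) (k : ℤ) :
    sig D U L k = sig D' U' L' (k + s) := by
  have hL : L' 3 (k + s) ≤ Bd D' (U' 1) (L' 1) (k + s) :=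
    (h'.antiL (show 1 ≤ 3 by norm_num) _).trans le_sup_right
  unfold sig
  rw [(hI 3 le_rfl).zc_le hΦ (h.pair 3 le_rfl) (h'.pair 3 le_rfl)]
  refine Eq.trans ?_ (le_antisymm (len_mono le_sup_left le_rfl)
    ((len_mono (sup_le_sup_left hL _) le_rfl).trans_eq (len_sup_left _ _)))
  rw [len_map, ← len_inf_right, ← len_inf_right _ (Submodule.comap _ _)]
  congr 1
  ext x
  refine and_congr_right fun hx => ?_
  exact (hI 1 (by norm_num)).mem_bd hΦ (h.pair 1 (by norm_num)) (h'.pair 1 (by norm_num))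
    (h.antiU (show 1 ≤ 3 by norm_num) k hx.1)

theorem Good.transfer {θ : B} {c : ℕ} {U L : ℕ → Ch B X} {U' L' : ℕ → Ch B X'} (h : Tw D U L)
    (h' : Good θ c D' U' L') (hΦ : ∀ x, Φ (D x) = (u : B) • D' (Φ x))
    (hI : ∀ j, j ≤ 3 → Iso Φ s (U j) (L j) (U' j) (L' j)) : Good θ c D U L := by
  have hb : ∀ j (hj : j ≤ 3) {k : ℤ} {x : X}, x ∈ U j k →
      (x ∈ Bd D (U j) (L j) k ↔ Φ x ∈ Bd D' (U' j) (L' j) (k + s)) := fun j hj _ _ hx =>
    (hI j hj).mem_bd hΦ (h.pair j hj) (h'.tw.pair j hj) hx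
  refine ⟨h, fun k x hx hx' => ?_, fun k x hx => ?_, fun k => (hI 1 (by norm_num)).hsm hΦ
    (h.pair 1 (by norm_num)) (h'.tw.pair 1 (by norm_num)) (h'.sm _)⟩
  · rw [hb 2 (by norm_num) (Submodule.smul_mem _ _ (h.antiU (show 2 ≤ 3 by norm_num) k hx.1)),
      map_smul]
    exact h'.ei _ _ (((hI 3 le_rfl).mem_zc hΦ (h.pair 3 le_rfl) hx.1).1 hx)
      ((hb 1 (by norm_num) (h.antiU (show 1 ≤ 3 by norm_num) k hx.1)).1 hx')
  · have h1 := h'.es _ _ (((hI 2 (by norm_num)).mem_zc hΦ (h.pair 2 (by norm_num)) hx.1).1 hx)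
    rw [(hI 3 le_rfl).zc_le hΦ (h.pair 3 le_rfl) (h'.tw.pair 3 le_rfl)] at h1
    obtain ⟨_, hz', b, hb', he⟩ := Submodule.mem_sup.1 h1
    obtain ⟨_, ⟨z, hz, rfl⟩, l, hl, rfl⟩ := Submodule.mem_sup.1 hz'
    have h2 : θ • x - z ∈ Bd D (U 1) (L 1) k := by
      rw [hb 1 (by norm_num) (Submodule.sub_mem _
        (Submodule.smul_mem _ _ (h.antiU (show 1 ≤ 2 by norm_num) k hx.1))
        (h.antiU (show 1 ≤ 3 by norm_num) k hz.1)), map_sub, map_smul, ← he,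
        show Φ z + l + b - Φ z = l + b by abel]
      exact Submodule.add_mem _
        (Submodule.mem_sup_right (h'.tw.antiL (show 1 ≤ 3 by norm_num) _ hl)) hb'
    have := Submodule.add_mem_sup hz h2
    rwa [add_sub_cancel] at this

end

end Crest.Agent.R183
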