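import Mathlib

/-! # R183 / ValAuxa : auxiliary lemmas for the valuative criterion -/

set_option autoImplicit false
open IsLocalRing

namespace Crest.Agent.R183

variable {U : Type} [CommRing U]

theorem vala_pow_le (I : Ideal U) (b : U) (n : ℕ) :
    (I ⊔ Ideal.span {b}) ^ (n + 1) ≤ I * (I ⊔ Ideal.span {b}) ^ n ⊔ Ideal.span {b ^ (n + 1)} := by
  induction n with
  | zero => simp
  | succ n ih =>
    rw [pow_succ' _ (n + 1), Ideal.sup_mul]
    refine sup_le le_sup_left ((Ideal.mul_mono_right ih).trans ?_)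
    rw [Ideal.mul_sup, Ideal.span_singleton_mul_span_singleton, ← pow_succ', mul_left_comm,
      pow_succ' _ n]
    exact sup_le_sup_right (Ideal.mul_mono_right (Ideal.mul_mono_left le_sup_right)) _

theorem vala_of_mem {I : Ideal U} {b : U} {s : ℕ}
    (h : b ^ (s + 1) ∈ I * (I ⊔ Ideal.span {b}) ^ s) (t : ℕ) : b ^ (t + s) ∈ I ^ t := by
  have h1 : (I ⊔ Ideal.span {b}) ^ (s + 1) ≤ I * (I ⊔ Ideal.span {b}) ^ s :=
    (vala_pow_le I b s).trans (sup_le le_rfl ((Ideal.span_singleton_le_iff_mem _).2 h))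
  have h2 : ∀ t, (I ⊔ Ideal.span {b}) ^ (t + s) ≤ I ^ t * (I ⊔ Ideal.span {b}) ^ s := by
    intro t
    induction t with
    | zero => simp
    | succ t ih =>
      rw [show t + 1 + s = t + s + 1 by ring, pow_succ]
      refine (Ideal.mul_mono_left ih).trans ?_
      rw [mul_assoc, ← pow_succ, pow_succ I, mul_assoc]
      exact Ideal.mul_mono_right h1
  exact Ideal.mul_le_left (h2 t (Ideal.pow_mem_pow
    (Ideal.mem_sup_right (Ideal.mem_span_singleton_self b)) _))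

theorem vala_prime {I : Ideal U} {b : U}
    (h : ∀ s, b ^ (s + 1) ∉ I * (I ⊔ Ideal.span {b}) ^ s) :
    ∃ 𝔭 : Ideal U, 𝔭.IsPrime ∧ ∀ s, ∀ y ∈ I * (I ⊔ Ideal.span {b}) ^ s, b ^ (s + 1) - y ∉ 𝔭 := by
  set 𝔞 := I ⊔ Ideal.span {b} with h𝔞
  have hb : b ∈ 𝔞 := Ideal.mem_sup_right (Ideal.mem_span_singleton_self b)
  have hm : ∀ {s s' : ℕ} {y z : U}, y ∈ I * 𝔞 ^ s → z ∈ 𝔞 ^ s' → y * z ∈ I * 𝔞 ^ (s + s') :=
    fun hy hz => by rw [pow_add, ← mul_assoc]; exact Ideal.mul_mem_mul hy hz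
  let S : Submonoid U :=
    { carrier := {u | ∃ k s, ∃ y ∈ I * 𝔞 ^ s, u * b ^ k = b ^ (s + 1) - y}
      one_mem' := ⟨1, 0, 0, zero_mem _, by simp⟩
      mul_mem' := by
        rintro u u' ⟨k, s, y, hy, e⟩ ⟨k', s', y', hy', e'⟩
        refine ⟨k + k', s + (s' + 1), y * (b ^ (s' + 1) - y') + y' * b ^ (s + 1), add_mem (hm hy
          (sub_mem (Ideal.pow_mem_pow hb _) ?_)) ?_, ?_⟩
        · rw [pow_succ']
          exact Ideal.mul_mono_left le_sup_left hy'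
        · rw [show s + (s' + 1) = s' + (s + 1) by ring]
          exact hm hy' (Ideal.pow_mem_pow hb _)
        · calc u * u' * b ^ (k + k') = (u * b ^ k) * (u' * b ^ k') := by ring
            _ = _ := by rw [e, e']; ring }
  obtain ⟨𝔭, h1, -, h2⟩ := (⊥ : Ideal U).exists_le_prime_disjoint S (by
    rw [Set.disjoint_left]
    rintro u hu ⟨k, s, y, hy, e⟩
    rw [SetLike.mem_coe, Ideal.mem_bot] at hu
    rw [hu, zero_mul, eq_comm, sub_eq_zero] at e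
    exact h s (e ▸ hy))
  exact ⟨𝔭, h1, fun s y hy hp => Set.disjoint_left.1 h2 hp ⟨0, s, y, hy, by simp⟩⟩

theorem vala_field {K : Type} [Field K] (φ : U →+* K) {I : Ideal U} {b : U}
    (h : ∀ s, ∀ y ∈ I * (I ⊔ Ideal.span {b}) ^ s, φ (b ^ (s + 1) - y) ≠ 0) :
    ∃ (O : ValuationSubring K) (ψ : U →+* O), ψ b ≠ 0 ∧
      ∀ i ∈ I, ∃ μ ∈ maximalIdeal O, ψ i = ψ b * μ := by
  set 𝔞 := I ⊔ Ideal.span {b} with h𝔞
  have hb : b ∈ 𝔞 := Ideal.mem_sup_right (Ideal.mem_span_singleton_self b)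
  have hb0 : φ b ≠ 0 := by simpa using h 0 0 (zero_mem _)
  have hm : ∀ {s s' : ℕ} {y z : U}, y ∈ I * 𝔞 ^ s → z ∈ 𝔞 ^ s' → y * z ∈ I * 𝔞 ^ (s + s') :=
    fun hy hz => by rw [pow_add, ← mul_assoc]; exact Ideal.mul_mem_mul hy hz
  have hm' : ∀ {s s' : ℕ} {y z : U}, y ∈ 𝔞 ^ s → z ∈ 𝔞 ^ s' → y * z ∈ 𝔞 ^ (s + s') :=
    fun hy hz => by rw [pow_add]; exact Ideal.mul_mem_mul hy hz
  let A : Subring K :=
    { carrier := {x | ∃ k, ∃ y ∈ 𝔞 ^ k, x * φ b ^ k = φ y}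
      one_mem' := ⟨0, 1, by simp, by simp⟩
      zero_mem' := ⟨0, 0, by simp, by simp⟩
      mul_mem' := by
        rintro u u' ⟨k, y, hy, e⟩ ⟨k', y', hy', e'⟩
        refine ⟨k + k', y * y', hm' hy hy', ?_⟩
        rw [map_mul, ← e, ← e']; ring
      add_mem' := by
        rintro u u' ⟨k, y, hy, e⟩ ⟨k', y', hy', e'⟩
        refine ⟨k + k', y * b ^ k' + b ^ k * y', add_mem (hm' hy (Ideal.pow_mem_pow hb _))
          (hm' (Ideal.pow_mem_pow hb _) hy'), ?_⟩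
        rw [map_add, map_mul, map_mul, map_pow, map_pow, ← e, ← e']; ring
      neg_mem' := by
        rintro u ⟨k, y, hy, e⟩
        exact ⟨k, -y, neg_mem hy, by rw [map_neg, ← e]; ring⟩ }
  let J : Ideal A :=
    { carrier := {x | ∃ k, ∃ y ∈ I * 𝔞 ^ k, (x : K) * φ b ^ (k + 1) = φ y}
      zero_mem' := ⟨0, 0, by simp, by simp⟩
      add_mem' := by
        rintro u u' ⟨k, y, hy, e⟩ ⟨k', y', hy', e'⟩
        refine ⟨k + k', y * b ^ k' + y' * b ^ k, add_mem (hm hy (Ideal.pow_mem_pow hb _))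
          (add_comm k k' ▸ hm hy' (Ideal.pow_mem_pow hb _)), ?_⟩
        rw [map_add, map_mul, map_mul, map_pow, map_pow, ← e, ← e', Subring.coe_add]; ring
      smul_mem' := by
        rintro u u' ⟨k', y', hy', e'⟩
        obtain ⟨k, y, hy, e⟩ := u.2
        refine ⟨k' + k, y' * y, hm hy' hy, ?_⟩
        rw [map_mul, ← e, ← e', smul_eq_mul, Subring.coe_mul]; ring }
  have hJ : J ≠ ⊤ := by
    rw [Ideal.ne_top_iff_one]
    rintro ⟨k, y, hy, e⟩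
    refine h k y hy ?_
    rw [map_sub, map_pow, ← e, Subring.coe_one, one_mul, sub_self]
  obtain ⟨O, h1, h2⟩ := J.image_subset_nonunits_valuationSubring hJ
  have hO : ∀ u, φ u ∈ O := fun u => h1 ⟨0, u, by simp, by simp⟩
  refine ⟨O, φ.codRestrict O hO, fun e => hb0 (congrArg Subtype.val e), fun i hi => ?_⟩
  have h3 : φ i / φ b ∈ A := ⟨1, i, by simpa using Ideal.mem_sup_left hi, by
    rw [pow_one, div_mul_cancel₀ _ hb0]⟩
  have h4 : φ i / φ b ∈ O.nonunits := h2 ⟨⟨_, h3⟩, ⟨0, i, by simpa using hi, by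
    rw [zero_add, pow_one, div_mul_cancel₀ _ hb0]⟩, rfl⟩
  refine ⟨⟨_, h1 h3⟩, O.coe_mem_nonunits_iff.1 h4, Subtype.ext ?_⟩
  change φ i = φ b * (φ i / φ b)
  rw [mul_div_cancel₀ _ hb0]

theorem vala_sup {𝔫 I J : Ideal U} {a : ℕ} (ha : 1 ≤ a) (hI : ∃ c, ∀ t, I ^ (a * t + c) ≤ 𝔫 ^ t)
    (hJ : ∃ c, ∀ t, J ^ (a * t + c) ≤ 𝔫 ^ t) : ∃ c, ∀ t, (I ⊔ J) ^ (a * t + c) ≤ 𝔫 ^ t := by
  obtain ⟨c, hc⟩ := hI
  obtain ⟨d, hd⟩ := hJ
  refine ⟨c + d + a, fun t => ?_⟩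
  rw [← Ideal.add_eq_sup, add_pow, Ideal.sum_eq_sup]
  refine Finset.sup_le fun m _ => Ideal.mul_le_left.trans ?_
  by_cases h1 : m < c
  · refine Ideal.mul_le_right.trans ((Ideal.pow_le_pow_right ?_).trans (hd t))
    omega
  obtain ⟨k, hk⟩ : ∃ k, k = (m - c) / a := ⟨_, rfl⟩
  have h2 : a * k ≤ m - c := hk ▸ Nat.mul_div_le _ _
  have h3 : m - c < a * (k + 1) := hk ▸ Nat.lt_mul_div_succ _ ha
  rcases le_total t k with h4 | h4
  · have := Nat.mul_le_mul_left a h4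
    refine Ideal.mul_le_left.trans ((Ideal.pow_le_pow_right ?_).trans (hc t))
    omega
  · obtain ⟨l, rfl⟩ := Nat.exists_eq_add_of_le h4
    rw [pow_add 𝔫]
    refine Ideal.mul_mono ((Ideal.pow_le_pow_right ?_).trans (hc k))
      ((Ideal.pow_le_pow_right ?_).trans (hd l))
    · omega
    · rw [mul_add] at h3 ⊢
      omega

end Crest.Agent.R183
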