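import Crest.Agent.R183.WB
import Crest.Agent.R183.ValAuxa

/-! # R183 / Val : valuative criterion and the two "roots lie in the integral closure" lemmas. -/

set_option autoImplicit false
open WittVector IsLocalRing

namespace Crest.Agent.R183

/-- Let `U' ⊆ U[1/b]` be generated by the image of `U` and the `i/b`, `i ∈ I`.  If the `i/b` generate
the unit ideal of `U'`, clearing denominators gives `b^s ∈ I (I + b)^(s-1)` for some `s ≥ 1`, hence
`(I+b)^(s-1+t) ≤ I^t`...  Otherwise take a maximal ideal `𝔐 ∋ i/b` of `U'`, a minimal prime `𝔭 ≤ 𝔐`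
(`Ideal.exists_minimalPrimes_le`); `b ∉ 𝔭` as `b` is a non-zero-divisor of `U'`
(`Ideal.disjoint_nonZeroDivisors_of_mem_minimalPrimes` or similar); `K` = algebraic closure of
`Frac (U'/𝔭)`; a valuation subring of `K` dominating the image of `𝔐`
(`LocalSubring.exists_le_valuationSubring`, `Ideal.image_subset_nonunits_valuationSubring`). -/
theorem val_crit {U : Type} [CommRing U] (I : Ideal U) (b : U)
    (h : ∀ (K : Type) [Field K] [IsAlgClosed K] (O : ValuationSubring K) (ψ : U →+* O), ψ b ≠ 0 →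
      (∀ i ∈ I, ∃ μ ∈ maximalIdeal O, ψ i = ψ b * μ) → False) :
    ∃ c, ∀ t, b ^ (t + c) ∈ I ^ t := by
  by_cases hs : ∃ s, b ^ (s + 1) ∈ I * (I ⊔ Ideal.span {b}) ^ s
  · obtain ⟨s, hs⟩ := hs
    exact ⟨s, vala_of_mem hs⟩
  obtain ⟨𝔭, h1, h2⟩ := vala_prime (not_exists.1 hs)
  obtain ⟨O, ψ, h3, h4⟩ := vala_field
    ((algebraMap (U ⧸ 𝔭) (AlgebraicClosure (FractionRing (U ⧸ 𝔭)))).comp (Ideal.Quotient.mk 𝔭))
    (I := I) (b := b) fun s y hy e => h2 s y hy (by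
      rw [RingHom.comp_apply, IsScalarTower.algebraMap_apply (U ⧸ 𝔭) (FractionRing (U ⧸ 𝔭)),
        map_eq_zero, map_eq_zero_iff _ (IsFractionRing.injective _ _)] at e
      exact Ideal.Quotient.eq_zero_iff_mem.1 e)
  exact (h _ O ψ h3 h4).elim

theorem charP_valuationSubring {p : ℕ} [Fact p.Prime] {U : Type} [CommRing U] [CharP U p]
    {K : Type} [Field K] (O : ValuationSubring K) (ψ : U →+* O) : CharP O p := by
  exact (CharP.charP_iff_prime_eq_zero Fact.out).2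
    (by rw [← map_natCast ψ, CharP.cast_eq_zero, map_zero])

theorem perfect_valuationSubring {p : ℕ} [Fact p.Prime] {K : Type} [Field K] [IsAlgClosed K]
    (O : ValuationSubring K) [CharP O p] : PerfectRing O p := by
  have hp : p.Prime := Fact.out
  refine PerfectRing.ofSurjective O p fun x => ?_
  obtain ⟨y, hy⟩ := IsAlgClosed.exists_pow_nat_eq (x : K) hp.pos
  have h1 : y ∈ O := by
    rw [← O.valuation_le_one_iff, ← pow_le_one_iff hp.ne_zero, ← map_pow, hy]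
    exact O.valuation_le_one x
  exact ⟨⟨y, h1⟩, Subtype.ext hy⟩

/-- If not, `ψ x ∣ b^r` (`ValuationRing.dvd_total`), so `b^(r p^j + 1) ∣ (ψ x)^(p^j) ∣ b^(r p^j)` for
`j` large, and `b` would be a unit. -/
theorem rcl_val {p : ℕ} [Fact p.Prime] {U : Type} [CommRing U] [CharP U p] {K : Type} [Field K]
    (O : ValuationSubring K) (ψ : U →+* O) {𝔟 : Ideal U} {b : O} (hb : b ∈ maximalIdeal O)
    (hb0 : b ≠ 0) {A c r t : ℕ} (h𝔟 : ∀ s, ∀ x ∈ 𝔟 ^ (A * s + c), ψ x ∈ Ideal.span {b ^ s})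
    (ht : A * r < t) {x : U} (hx : x ∈ rcl p 𝔟 t) : ∃ μ ∈ maximalIdeal O, ψ x = b ^ r * μ := by
  have hp : p.Prime := Fact.out
  by_contra hn
  have h1 : ψ x ∣ b ^ r := by
    rcases ValuationRing.dvd_total (ψ x) (b ^ r) with h | ⟨μ, hμ⟩
    · exact h
    · have h2 : IsUnit μ := by
        by_contra h2
        exact hn ⟨μ, h2, hμ⟩
      rw [hμ]
      exact h2.mul_right_dvd.2 dvd_rfl
  obtain ⟨c', hc'⟩ := hx
  obtain ⟨q, hq, hq'⟩ : ∃ q, A + c + c' < q ∧ x ^ q ∈ 𝔟 ^ (t * q - c') :=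
    ⟨_, Nat.lt_pow_self hp.one_lt, hc' (A + c + c')⟩
  have h2 := h𝔟 (r * q + 1) (x ^ q) (Ideal.pow_le_pow_right (by
    have := Nat.mul_le_mul_right q (show A * r + 1 ≤ t from ht)
    rw [add_mul, mul_assoc] at this
    rw [mul_add]
    omega) hq')
  rw [Ideal.mem_span_singleton, map_pow, pow_succ] at h2
  have h3 := h2.trans (pow_dvd_pow_of_dvd h1 q)
  rw [← pow_mul] at h3
  nth_rewrite 2 [← mul_one (b ^ (r * q))] at h3
  exact hb (isUnit_of_dvd_one ((mul_dvd_mul_iff_left (pow_ne_zero _ hb0)).1 h3))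

/-- induct on the family: if `I₁^(a t + c₁) ≤ 𝔫^t` and `I₂^(a t + c₂) ≤ 𝔫^t` for all `t` then
`(I₁ ⊔ I₂)^(a t + c₁ + c₂ + a) ≤ 𝔫^t` (binomial expansion `Ideal.sup_pow`/`add_pow`). -/
theorem sup_span_pow_le {U : Type} [CommRing U] (𝔫 : Ideal U) {a r : ℕ} (ha : 1 ≤ a)
    (β : Fin r → U) (h : ∀ i, ∃ c, ∀ t, (β i ^ a) ^ (t + c) ∈ 𝔫 ^ t) :
    ∃ c, ∀ t, (𝔫 ⊔ Ideal.span (Set.range β)) ^ (a * t + c) ≤ 𝔫 ^ t := by
  classical
  have key : ∀ s : Finset (Fin r), ∃ c, ∀ t, (𝔫 ⊔ Ideal.span (β '' s)) ^ (a * t + c) ≤ 𝔫 ^ t := by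
    intro s
    induction s using Finset.induction_on with
    | empty =>
      refine ⟨0, fun t => ?_⟩
      rw [Finset.coe_empty, Set.image_empty, Ideal.span_empty, sup_bot_eq]
      exact Ideal.pow_le_pow_right (Nat.le_mul_of_pos_left t ha)
    | insert i s _ ih =>
      rw [Finset.coe_insert, Set.image_insert_eq, Ideal.span_insert, sup_left_comm]
      obtain ⟨c, hc⟩ := h i
      refine vala_sup ha ⟨a * c, fun t => ?_⟩ ih
      rw [Ideal.span_singleton_pow, Ideal.span_singleton_le_iff_mem, ← mul_add, pow_mul]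
      exact hc t
  simpa using key Finset.univ

section
variable {p : ℕ} [Fact p.Prime] {U : Type} [CommRing U] [CharP U p] {r : ℕ} (z : Fin r → U)

theorem Valb_dvd_all {O : Type} [CommRing O] [IsDomain O] [ValuationRing O] {ι : Type}
    (s : Finset ι) (hs : s.Nonempty) (f : ι → O) : ∃ i ∈ s, ∀ j ∈ s, f i ∣ f j := by
  induction hs using Finset.Nonempty.cons_induction with
  | singleton a => exact ⟨a, by simp, by simp⟩
  | cons a s ha hs ih =>
    obtain ⟨i, hi, h⟩ := ih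
    rcases ValuationRing.dvd_total (f a) (f i) with h1 | h1
    · refine ⟨a, by simp, fun j hj => ?_⟩
      rcases Finset.mem_cons.1 hj with rfl | hj
      · exact dvd_rfl
      · exact h1.trans (h j hj)
    · refine ⟨i, Finset.mem_cons.2 (Or.inr hi), fun j hj => ?_⟩
      rcases Finset.mem_cons.1 hj with rfl | hj
      · exact h1
      · exact h j hj

theorem Valb_pow_map {O : Type} [CommRing O] (ψ : U →+* O) {𝔟 : Ideal U} {b : O}
    (h : ∀ x ∈ 𝔟, ψ x ∈ Ideal.span {b}) (s : ℕ) : ∀ x ∈ 𝔟 ^ s, ψ x ∈ Ideal.span {b ^ s} := by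
  intro x hx
  have h1 : 𝔟.map ψ ≤ Ideal.span {b} := Ideal.map_le_iff_le_comap.2 h
  rw [← Ideal.span_singleton_pow]
  exact Ideal.pow_right_mono h1 s (Ideal.map_pow ψ 𝔟 s ▸ Ideal.mem_map_of_mem ψ hx)

theorem Valb_small {K : Type} [Field K] (O : ValuationSubring K) (ψ : U →+* O) {𝔟 : Ideal U}
    {b : O} (hb : b ∈ maximalIdeal O) (hb0 : b ≠ 0) {A c r t : ℕ}
    (h𝔟 : ∀ s, ∀ x ∈ 𝔟 ^ (A * s + c), ψ x ∈ Ideal.span {b ^ s}) (ht : A * r < t)
    {w : WittVector p U} (hw : w ∈ WF p 𝔟 t) :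
    ∃ η ∈ WI p (maximalIdeal O), WittVector.map ψ w = teichmuller p (b ^ r) * η := by
  refine exists_teich_mul fun i => ?_
  rw [WittVector.map_coeff, ← pow_mul]
  refine rcl_val O ψ hb hb0 h𝔟 ?_ (hw i)
  rw [← mul_assoc]
  exact Nat.mul_lt_mul_of_pos_right ht (pow_pos (Fact.out : p.Prime).pos i)

theorem Valb_rad {K : Type} [Field K] (O : ValuationSubring K) (ψ : U →+* O) {x : U} {k : ℕ}
    (h : ψ (x ^ k) ∈ maximalIdeal O) : ψ x ∈ maximalIdeal O := by
  rw [map_pow] at h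
  exact (maximalIdeal.isMaximal O).isPrime.mem_of_pow_mem k h

omit [CharP U p] in
theorem Valb_words {O : Type} [CommRing O] (ψ : U →+* O) (𝔪 : Ideal O) (α : O) (m ν : ℕ) :
    ∀ g : U, (∀ x ∈ Ideal.span (Set.range z) ^ ν, ∃ μ ∈ 𝔪, ψ (g * x) = α * μ) →
      ∀ y ∈ Ideal.span (Set.range fun s => teichmuller p (z s ^ p ^ m)) ^ ν,
        WittVector.map ψ (teichmuller p (g ^ p ^ m) * y) ∈
          Ideal.span {teichmuller p (α ^ p ^ m)} * WI p 𝔪 := by
  induction ν with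
  | zero =>
    intro g hg y _
    obtain ⟨μ, hμ, he⟩ := hg 1 (by simp)
    rw [mul_one] at he
    rw [map_mul, WittVector.map_teichmuller, map_pow ψ, he, mul_pow, map_mul]
    exact Ideal.mul_mem_right _ _ (Ideal.mul_mem_mul (Ideal.mem_span_singleton_self _)
      (teich_mem_WI (Ideal.pow_mem_of_mem _ hμ _ (pow_pos (Fact.out : p.Prime).pos m))))
  | succ ν ih =>
    intro g hg y hy
    rw [pow_succ] at hy
    refine Submodule.mul_induction_on hy (fun y₁ h₁ y₂ h₂ => ?_) fun y₁ y₂ h₁ h₂ => ?_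
    · obtain ⟨c, rfl⟩ := Ideal.mem_span_range_iff_exists_fun.1 h₂
      rw [Finset.mul_sum, Finset.mul_sum, map_sum]
      refine Ideal.sum_mem _ fun s _ => ?_
      have h3 := ih (g * z s) (fun x hx => by
        rw [mul_assoc, mul_comm (z s)]
        refine hg _ ?_
        rw [pow_succ]
        exact Ideal.mul_mem_mul hx (Ideal.subset_span ⟨s, rfl⟩)) y₁ h₁
      rw [show teichmuller p (g ^ p ^ m) * (y₁ * (c s * teichmuller p (z s ^ p ^ m))) =
        c s * (teichmuller p ((g * z s) ^ p ^ m) * y₁) by rw [mul_pow, map_mul]; ring, map_mul]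
      exact Ideal.mul_mem_left _ _ h3
    · rw [mul_add, map_add]
      exact add_mem h₁ h₂

/-- `val_crit` for `b = β i ^ a`, `I = 𝔫`.  In `O` pick `i'` with `ψ (β i')` dividing all `ψ (β j)`
(so it is `≠ 0`, and in `𝔪` as `𝔫 ↦ 𝔪`); `b' = ψ(β i')`; `ψ 𝔟 ⊆ (b')`, `ψ (z r) ∈ b'^a 𝔪`.  Map the
hypothesis for `i'` to `𝕎 O`, replace `p^a` by `[b'^(p^m)]^a` modulo `ξ`; `rcl_val` (`A=1,c=0`) and
`exists_teich_mul` write the small term as `[b'^(a p^m)] η`; contradiction with `key_not_mem`. -/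
theorem vp1 {a N m : ℕ} (ha : 1 ≤ a) (hN : a < N) (β : Fin a → U)
    (hβ : ∀ i, β i ∈ (Ideal.span (Set.range z)).radical)
    (h : ∀ i, ∃ c : Fin r → WittVector p U,
      (p : WittVector p U) ^ a + ∑ s, teichmuller p (z s ^ p ^ m) * c s ∈
        Ideal.span {(p : WittVector p U) - teichmuller p (β i ^ p ^ m)} ⊔
          WF p (Ideal.span (Set.range z) ⊔ Ideal.span (Set.range β)) (N * p ^ m)) (i : Fin a) :
    ∃ c, ∀ t, (β i ^ a) ^ (t + c) ∈ Ideal.span (Set.range z) ^ t := by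
  refine val_crit _ _ fun K _ _ O ψ hb0 hI => ?_
  have := charP_valuationSubring (p := p) O ψ
  have := perfect_valuationSubring (p := p) O
  have hpm : 0 < p ^ m := pow_pos (Fact.out : p.Prime).pos m
  obtain ⟨i', -, hi'⟩ := Valb_dvd_all Finset.univ ⟨i, Finset.mem_univ _⟩ fun j => ψ (β j)
  obtain ⟨e, he⟩ := hi' i (Finset.mem_univ _)
  set b := ψ (β i') with hb
  have hbne : b ≠ 0 := by
    intro h0
    apply hb0
    rw [map_pow, he, h0, zero_mul, zero_pow (by omega)]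
  have hz : ∀ x ∈ Ideal.span (Set.range z), ∃ μ ∈ maximalIdeal O, ψ x = b ^ a * μ := by
    intro x hx
    obtain ⟨μ, hμ, h1⟩ := hI x hx
    exact ⟨e ^ a * μ, Ideal.mul_mem_left _ _ hμ, by rw [h1, map_pow, he]; ring⟩
  have hbm : b ∈ maximalIdeal O := by
    obtain ⟨k, hk⟩ := hβ i'
    obtain ⟨μ, hμ, h1⟩ := hz _ hk
    exact Valb_rad O ψ (k := k) (h1 ▸ Ideal.mul_mem_left _ _ hμ)
  have h𝔟 : ∀ x ∈ Ideal.span (Set.range z) ⊔ Ideal.span (Set.range β),
      ψ x ∈ Ideal.span {b} := by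
    intro x hx
    refine (sup_le (fun x hx => ?_) (Ideal.span_le.2 ?_) :
      _ ≤ (Ideal.span {b}).comap ψ) hx
    · obtain ⟨μ, -, h1⟩ := hz x hx
      rw [Ideal.mem_comap, h1, Ideal.mem_span_singleton]
      exact (dvd_pow_self b (by omega)).mul_right μ
    · rintro _ ⟨j, rfl⟩
      exact Ideal.mem_span_singleton.2 (hi' j (Finset.mem_univ _))
  obtain ⟨c, hc⟩ := h i'
  obtain ⟨y, hy, w, hw, hyw⟩ := Submodule.mem_sup.1 hc
  obtain ⟨y, rfl⟩ := Ideal.mem_span_singleton'.1 hy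
  obtain ⟨η, hη, hwη⟩ := Valb_small O ψ hbm hbne (A := 1) (c := 0) (r := p ^ m * a)
    (fun s => by simpa using Valb_pow_map ψ h𝔟 s)
    (by rw [one_mul, mul_comm]; exact Nat.mul_lt_mul_of_pos_right hN hpm) hw
  choose μ hμ hzμ using fun s => hz (z s) (Ideal.subset_span ⟨s, rfl⟩)
  have h1 := congrArg (WittVector.map ψ) hyw
  simp only [map_add, map_mul, map_sub, map_sum, map_pow, map_natCast,
    WittVector.map_teichmuller, hwη, hzμ, ← hb, mul_pow] at h1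
  refine key_not_mem (p := p) (maximalIdeal.isMaximal O).ne_top (b := b ^ (p ^ m * a))
    (ϖ := b ^ p ^ m) (pow_ne_zero _ hbne) (Ideal.pow_mem_of_mem _ hbm _ hpm) (j := a)
    (by rw [← pow_mul]; exact Ideal.mem_span_singleton_self _)
    (η := ∑ s, teichmuller p (μ s) ^ p ^ m * WittVector.map ψ (c s) - η)
    (sub_mem (Ideal.sum_mem _ fun s _ => Ideal.mul_mem_right _ _
      (Ideal.pow_mem_of_mem _ (teich_mem_WI (hμ s)) _ hpm)) hη) ?_
  have h2 : (p : WittVector p O) - teichmuller p b ^ p ^ m ∣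
      (p : WittVector p O) ^ a - (teichmuller p b ^ p ^ m) ^ a := sub_dvd_pow_sub_pow _ _ a
  rw [Ideal.mem_span_singleton, map_pow, map_pow]
  have h3 : ∑ s, (teichmuller p b ^ a) ^ p ^ m * teichmuller p (μ s) ^ p ^ m *
      WittVector.map ψ (c s) = teichmuller p b ^ (p ^ m * a) *
        ∑ s, teichmuller p (μ s) ^ p ^ m * WittVector.map ψ (c s) := by
    rw [Finset.mul_sum]
    exact Finset.sum_congr rfl fun s _ => by rw [← pow_mul, mul_comm a, mul_assoc]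
  rw [h3] at h1
  rw [← pow_mul] at h2
  have h4 : teichmuller p b ^ (p ^ m * a) *
      (1 + (∑ s, teichmuller p (μ s) ^ p ^ m * WittVector.map ψ (c s) - η)) =
      WittVector.map ψ y * ((p : WittVector p O) - teichmuller p b ^ p ^ m) -
        ((p : WittVector p O) ^ a - teichmuller p b ^ (p ^ m * a)) := by
    linear_combination -h1
  rw [h4]
  exact dvd_sub (dvd_mul_left _ _) h2

/-- `val_crit` for `b = α`.  In `O`: `𝔫 ↦ 𝔪`, `ψ α ∈ 𝔪`, `ψ(𝔟^(a L s + c)) ⊆ (ψ α ^ s)`;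
`span{Γ} * (span [z^(p^m)])^ν` maps into `span {A} * WI 𝔪` (`span_pow_eq_words` of `Mono.lean`,
Teichmüller is multiplicative), so every term `Γ^(j+1) b̂ j A^(δ-j-1)` is `A^δ η`; the small term too
(`rcl_val` with `A := a L`, `r = δ p^(m+i)`); `key_not_mem` with `b = ψ α^(δ p^m)`, `ϖ = ψ β^(p^m)`. -/
theorem vp2 {a N m δ ν L : ℕ} (hδ : 1 ≤ δ) (hL : 1 ≤ L) (hN : a * L * δ < N) (𝔟 : Ideal U)
    (h𝔟 : ∃ c, ∀ t, 𝔟 ^ (a * t + c) ≤ Ideal.span (Set.range z) ^ t) {β γ α : U} (hβ : β ∈ 𝔟)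
    (hα : α ∈ (Ideal.span (Set.range z)).radical) (bh : Fin δ → WittVector p U)
    (hb : ∀ j : Fin δ, bh j ∈
      Ideal.span (Set.range fun s => teichmuller p (z s ^ p ^ m)) ^ (((j : ℕ) + 1) * ν))
    (h : teichmuller p (α ^ p ^ m) ^ δ + ∑ j : Fin δ, teichmuller p (γ ^ p ^ m) ^ ((j : ℕ) + 1) *
        bh j * teichmuller p (α ^ p ^ m) ^ (δ - ((j : ℕ) + 1)) ∈
      Ideal.span {(p : WittVector p U) - teichmuller p (β ^ p ^ m)} ⊔ WF p 𝔟 (N * p ^ m)) :
    ∃ c, ∀ t, α ^ (t + c) ∈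
      (Ideal.span {γ} * Ideal.span (Set.range z) ^ ν ⊔ Ideal.span (Set.range z) ^ L) ^ t := by
  refine val_crit _ _ fun K _ _ O ψ hb0 hI => ?_
  have := charP_valuationSubring (p := p) O ψ
  have := perfect_valuationSubring (p := p) O
  have hpm : 0 < p ^ m := pow_pos (Fact.out : p.Prime).pos m
  set b := ψ α with hbα
  have hL' : ∀ x ∈ Ideal.span (Set.range z) ^ L, ∃ μ ∈ maximalIdeal O, ψ x = b * μ :=
    fun x hx => hI x (Ideal.mem_sup_right hx)
  have hbm : b ∈ maximalIdeal O := by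
    obtain ⟨k, hk⟩ := hα
    obtain ⟨μ, hμ, h1⟩ := hL' _ (Ideal.pow_mem_pow hk L)
    exact Valb_rad O ψ (k := k) (Valb_rad O ψ (k := L) (h1 ▸ Ideal.mul_mem_left _ _ hμ))
  obtain ⟨c, hc⟩ := h𝔟
  have h𝔟 : ∀ s, ∀ x ∈ 𝔟 ^ (a * L * s + c), ψ x ∈ Ideal.span {b ^ s} := by
    intro s x hx
    rw [mul_assoc] at hx
    have h1 := hc _ hx
    rw [pow_mul] at h1
    refine Valb_pow_map ψ (fun x hx => ?_) s x h1
    obtain ⟨μ, -, h2⟩ := hL' x hx
    rw [h2]
    exact Ideal.mul_mem_right _ _ (Ideal.mem_span_singleton_self _)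
  have hβm : ψ β ∈ maximalIdeal O := by
    have h1 := h𝔟 1 _ (Ideal.pow_mem_pow hβ _)
    rw [pow_one] at h1
    exact Valb_rad O ψ ((Ideal.span_singleton_le_iff_mem _).2 hbm h1)
  obtain ⟨y, hy, w, hw, hyw⟩ := Submodule.mem_sup.1 h
  obtain ⟨y, rfl⟩ := Ideal.mem_span_singleton'.1 hy
  obtain ⟨η, hη, hwη⟩ := Valb_small O ψ hbm hb0 (r := p ^ m * δ) h𝔟
    (by rw [mul_comm (p ^ m), ← mul_assoc]; exact Nat.mul_lt_mul_of_pos_right hN hpm) hw
  set A := teichmuller p (b ^ p ^ m) with hA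
  have hJ : (Ideal.span {teichmuller p (γ ^ p ^ m)} *
      Ideal.span (Set.range fun s => teichmuller p (z s ^ p ^ m)) ^ ν).map (WittVector.map ψ) ≤
      Ideal.span {A} * WI p (maximalIdeal O) := by
    rw [Ideal.map_le_iff_le_comap]
    intro x hx
    obtain ⟨y, hy, rfl⟩ := Ideal.mem_span_singleton_mul.1 hx
    exact Valb_words z ψ _ b m ν γ (fun x hx => hI _ (Ideal.mem_sup_left
      (Ideal.mul_mem_mul (Ideal.mem_span_singleton_self _) hx))) y hy
  have hterm : ∀ j : Fin δ, ∃ θ ∈ WI p (maximalIdeal O),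
      A ^ ((j : ℕ) + 1) * θ =
        WittVector.map ψ (teichmuller p (γ ^ p ^ m) ^ ((j : ℕ) + 1) * bh j) := by
    intro j
    have h1 : teichmuller p (γ ^ p ^ m) ^ ((j : ℕ) + 1) * bh j ∈
        (Ideal.span {teichmuller p (γ ^ p ^ m)} *
          Ideal.span (Set.range fun s => teichmuller p (z s ^ p ^ m)) ^ ν) ^ ((j : ℕ) + 1) := by
      rw [mul_pow, ← pow_mul, mul_comm ν]
      exact Ideal.mul_mem_mul (Ideal.pow_mem_pow (Ideal.mem_span_singleton_self _) _) (hb j)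
    have h2 := Ideal.mem_map_of_mem (WittVector.map (p := p) ψ) h1
    rw [Ideal.map_pow] at h2
    replace h2 := Ideal.pow_right_mono hJ ((j : ℕ) + 1) h2
    rw [mul_pow, Ideal.span_singleton_pow] at h2
    exact Ideal.mem_span_singleton_mul.1
      (Ideal.mul_mono_right (Ideal.pow_le_self (Nat.succ_ne_zero _)) h2)
  choose θ hθ hθe using hterm
  have h1 := congrArg (WittVector.map ψ) hyw
  have h2 : WittVector.map ψ (teichmuller p (α ^ p ^ m)) = A := by
    rw [WittVector.map_teichmuller, map_pow ψ]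
  have h3 : WittVector.map ψ (∑ j : Fin δ, teichmuller p (γ ^ p ^ m) ^ ((j : ℕ) + 1) *
      bh j * teichmuller p (α ^ p ^ m) ^ (δ - ((j : ℕ) + 1))) = A ^ δ * ∑ j, θ j := by
    rw [map_sum, Finset.mul_sum]
    refine Finset.sum_congr rfl fun j _ => ?_
    rw [map_mul, ← hθe, map_pow (WittVector.map ψ), h2, mul_right_comm, ← pow_add, Nat.add_sub_cancel' j.2]
  rw [map_add, map_add, h3, map_pow (WittVector.map ψ), h2, hwη, map_mul, map_sub, map_natCast,
    WittVector.map_teichmuller, map_pow ψ, pow_mul, map_pow _ (b ^ p ^ m), ← hA] at h1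
  refine key_not_mem (p := p) (maximalIdeal.isMaximal O).ne_top (b := (b ^ p ^ m) ^ δ)
    (ϖ := ψ β ^ p ^ m) (pow_ne_zero _ (pow_ne_zero _ hb0)) (Ideal.pow_mem_of_mem _ hβm _ hpm)
    (j := a * L * (p ^ m * δ) + c) ?_ (η := ∑ j, θ j - η)
    (sub_mem (Ideal.sum_mem _ fun j _ => hθ j) hη) ?_
  · rw [← pow_mul b, pow_right_comm (ψ β), ← map_pow ψ β]
    exact Ideal.pow_mem_of_mem _ (h𝔟 _ _ (Ideal.pow_mem_pow hβ _)) _ hpm
  · rw [Ideal.mem_span_singleton', map_pow _ (b ^ p ^ m), ← hA]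
    exact ⟨WittVector.map ψ y, by linear_combination h1⟩

end

end Crest.Agent.R183
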