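import Mathlib

/-! # R183 / WB : Witt vector basics, root-closed filtrations, the approximation recursion. -/

set_option autoImplicit false
open WittVector

namespace Crest.Agent.R183

section
variable (p : ℕ) [Fact p.Prime] {U : Type} [CommRing U] {U' : Type} [CommRing U']

/-- iterated Frobenius on Witt vectors of a ring of characteristic `p` -/
noncomputable def Fr (U : Type) [CommRing U] [CharP U p] (N : ℕ) :
    WittVector p U →+* WittVector p U := WittVector.map (iterateFrobenius U p N)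

variable {p}

theorem teich_mul_coeff_aux [Invertible (p : U)] (a : U) (y : WittVector p U) (i : ℕ) :
    (teichmuller p a * y).coeff i = a ^ p ^ i * y.coeff i := by
  have h : teichmuller p a * y = WittVector.mk p fun i => a ^ p ^ i * y.coeff i := by
    apply (ghostMap.bijective_of_invertible p U).1
    ext1 n
    rw [ghostMap_apply, ghostMap_apply, map_mul, ghostComponent_teichmuller, ghostComponent_apply,
      ghostComponent_apply, aeval_wittPolynomial, aeval_wittPolynomial, Finset.mul_sum]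
    refine Finset.sum_congr rfl fun k hk => ?_
    rw [coeff_mk, mul_pow, ← pow_mul, ← pow_add,
      Nat.add_sub_cancel' (Nat.lt_succ_iff.1 (Finset.mem_range.1 hk))]
    ring
  rw [h, coeff_mk]

/-- Any commutative ring.  Compare ghost components over `MvPolynomial U ℚ` (ghost map injective as
`p` is invertible), descend to `MvPolynomial U ℤ` (`WittVector.map_injective`) and push to `U` along
`MvPolynomial.counit` (cf. `teichmuller_mul_aux₁/₂` in Mathlib's `Teichmuller.lean`). -/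
theorem teich_mul_coeff (a : U) (y : WittVector p U) (i : ℕ) :
    (teichmuller p a * y).coeff i = a ^ p ^ i * y.coeff i := by
  obtain ⟨a, rfl⟩ := MvPolynomial.counit_surjective U a
  obtain ⟨y, rfl⟩ := WittVector.map_surjective _ (MvPolynomial.counit_surjective U) y
  have h := teich_mul_coeff_aux (MvPolynomial.map (Int.castRingHom ℚ) a)
    (WittVector.map (MvPolynomial.map (Int.castRingHom ℚ)) y) i
  rw [← map_teichmuller, ← map_mul, map_coeff, map_coeff, ← map_pow, ← map_mul] at h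
  rw [← map_teichmuller, ← map_mul, map_coeff, map_coeff, ← map_pow, ← map_mul,
    MvPolynomial.map_injective _ Int.cast_injective h]

/-- `init_add_tail`/`coeff_add_of_disjoint`. -/
theorem witt_decomp (y : WittVector p U) :
    y = teichmuller p (y.coeff 0) + verschiebung (y.shift 1) := by
  ext n
  rw [coeff_add_of_disjoint]
  · cases n with
    | zero => simp
    | succ n =>
      rw [teichmuller_coeff_pos p _ _ n.succ_pos, zero_add, verschiebung_coeff_add_one, shift_coeff,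
        add_comm]
  · rintro (_ | n)
    · exact Or.inr (verschiebung_coeff_zero _)
    · exact Or.inl (teichmuller_coeff_pos p _ _ n.succ_pos)

theorem Fr_coeff [CharP U p] (N : ℕ) (y : WittVector p U) (i : ℕ) :
    (Fr p U N y).coeff i = y.coeff i ^ p ^ N := by
  rw [Fr, map_coeff, iterateFrobenius_def]

theorem Fr_teich [CharP U p] (N : ℕ) (a : U) :
    Fr p U N (teichmuller p a) = teichmuller p (a ^ p ^ N) := by
  rw [Fr, map_teichmuller, iterateFrobenius_def]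

theorem Fr_Fr [CharP U p] (N N' : ℕ) (y : WittVector p U) :
    Fr p U N' (Fr p U N y) = Fr p U (N + N') y := by
  ext i
  rw [Fr_coeff, Fr_coeff, Fr_coeff, ← pow_mul, ← pow_add]

theorem Fr_zero [CharP U p] (y : WittVector p U) : Fr p U 0 y = y := by
  ext i
  rw [Fr_coeff, pow_zero, pow_one]

theorem map_Fr [CharP U p] [CharP U' p] (ψ : U →+* U') (N : ℕ) (y : WittVector p U) :
    WittVector.map ψ (Fr p U N y) = Fr p U' N (WittVector.map ψ y) := by
  ext i
  rw [map_coeff, Fr_coeff, Fr_coeff, map_coeff, map_pow]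

/-- `frobenius_eq_map_frobenius`, `frobenius_verschiebung`, `witt_decomp`. -/
theorem Fr_one_eq [CharP U p] (y : WittVector p U) :
    Fr p U 1 y = teichmuller p (y.coeff 0 ^ p) + (p : WittVector p U) * y.shift 1 := by
  have h : ∀ z : WittVector p U, Fr p U 1 z = WittVector.frobenius z := fun z => by
    ext i
    rw [Fr_coeff, pow_one, coeff_frobenius_charP]
  conv_lhs => rw [witt_decomp y]
  rw [map_add, Fr_teich, pow_one, h, frobenius_verschiebung, mul_comm]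

variable (p) in
/-- Witt vectors with all coefficients in `𝔪` -/
noncomputable def WI (𝔪 : Ideal U) : Ideal (WittVector p U) :=
  RingHom.ker (WittVector.map (Ideal.Quotient.mk 𝔪))

theorem mem_WI {𝔪 : Ideal U} {y : WittVector p U} : y ∈ WI p 𝔪 ↔ ∀ i, y.coeff i ∈ 𝔪 := by
  simp only [WI, RingHom.mem_ker, WittVector.map_eq_zero_iff, Ideal.Quotient.eq_zero_iff_mem]

theorem teich_mem_WI {𝔪 : Ideal U} {a : U} (h : a ∈ 𝔪) : teichmuller p a ∈ WI p 𝔪 := by
  refine mem_WI.2 ?_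
  rintro (_ | i)
  · exact h
  · rw [teichmuller_coeff_pos p _ _ i.succ_pos]
    exact zero_mem _

theorem exists_teich_mul {𝔪 : Ideal U} {b : U} {y : WittVector p U}
    (h : ∀ i, ∃ μ ∈ 𝔪, y.coeff i = b ^ p ^ i * μ) : ∃ η ∈ WI p 𝔪, y = teichmuller p b * η := by
  choose μ hμ h using h
  refine ⟨WittVector.mk p μ, mem_WI.2 hμ, ?_⟩
  ext i
  rw [teich_mul_coeff, h, coeff_mk]

/-- `(y * p).coeff (i+1) = y.coeff i ^ p` (`mul_charP_coeff_succ`) and `teich_mul_coeff`; take `p`-th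
roots (`frobeniusEquiv`); induct on `j`. -/
theorem p_sat [CharP U p] [PerfectRing U p] (b : U) (j : ℕ) (y : WittVector p U)
    (h : (p : WittVector p U) ^ j * y ∈ Ideal.span {teichmuller p b}) :
    y ∈ Ideal.span {teichmuller p b} := by
  induction j generalizing y with
  | zero => simpa using h
  | succ j ih =>
    rw [pow_succ, mul_assoc] at h
    obtain ⟨z, hz⟩ := Ideal.mem_span_singleton.1 (ih _ h)
    obtain ⟨η, -, rfl⟩ := exists_teich_mul (𝔪 := ⊤) (b := b) (y := y) fun i =>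
      ⟨(_root_.frobeniusEquiv U p).symm (z.coeff (i + 1)), trivial, by
        apply (_root_.frobeniusEquiv U p).injective
        rw [map_mul, RingEquiv.apply_symm_apply, frobeniusEquiv_def, frobeniusEquiv_def,
          ← mul_charP_coeff_succ, mul_comm y, hz, teich_mul_coeff, ← pow_mul, ← pow_succ]⟩
    exact Ideal.mul_mem_right _ _ (Ideal.mem_span_singleton_self _)

/-- KEY LEMMA.  If `[b](1+η) = ξ y'`, then `p^j y' ≡ [ϖ^j] y' + ξ(..) y' ∈ ([b])`, so `y' = [b] y''`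
(`p_sat`), cancel `[b]` (`𝕎 O` is a domain), and reduce `1 + η = ξ y''` modulo `WI 𝔪`; the constant
coefficient gives `1 = 0` in `O ⧸ 𝔪` (`(p : 𝕎 O).coeff 0 = 0`, `constantCoeff` is a ring hom). -/
theorem key_not_mem [IsDomain U] [CharP U p] [PerfectRing U p] {𝔪 : Ideal U} (h𝔪 : 𝔪 ≠ ⊤)
    {b ϖ : U} (hb : b ≠ 0) (hϖ : ϖ ∈ 𝔪) {j : ℕ} (hj : ϖ ^ j ∈ Ideal.span {b})
    {η : WittVector p U} (hη : η ∈ WI p 𝔪) :
    teichmuller p b * (1 + η) ∉ Ideal.span {(p : WittVector p U) - teichmuller p ϖ} := by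
  intro h
  obtain ⟨y, hy⟩ := Ideal.mem_span_singleton.1 h
  obtain ⟨c, hc⟩ := sub_dvd_pow_sub_pow (p : WittVector p U) (teichmuller p ϖ) j
  obtain ⟨d, hd⟩ := Ideal.mem_span_singleton.1 hj
  have h1 : (p : WittVector p U) ^ j * y ∈ Ideal.span {teichmuller p b} := by
    refine Ideal.mem_span_singleton.2 ⟨teichmuller p d * y + c * (1 + η), ?_⟩
    rw [← map_pow, hd, map_mul] at hc
    linear_combination y * hc - c * hy
  obtain ⟨z, rfl⟩ := Ideal.mem_span_singleton.1 (p_sat b j y h1)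
  have hb' : teichmuller p b ≠ 0 := fun h0 => hb (by simpa using congrArg (·.coeff 0) h0)
  have h2 : 1 + η = ((p : WittVector p U) - teichmuller p ϖ) * z :=
    mul_left_cancel₀ hb' (by rw [hy]; ring)
  have h3 := congrArg constantCoeff h2
  rw [map_add, map_one, map_mul, map_sub] at h3
  simp only [constantCoeff_apply, coeff_p_zero, teichmuller_coeff_zero] at h3
  refine h𝔪 ((Ideal.eq_top_iff_one _).2 ?_)
  have h4 : (1 : U) = -(η.coeff 0) - ϖ * z.coeff 0 := by linear_combination h3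
  rw [h4]
  exact sub_mem (neg_mem (mem_WI.1 hη 0)) (Ideal.mul_mem_right _ _ hϖ)

/-! ### root-closed filtration -/

variable (p) in
def rcl [CharP U p] (𝔟 : Ideal U) (t : ℕ) : Ideal U where
  carrier := {b | ∃ c, ∀ j, b ^ p ^ j ∈ 𝔟 ^ (t * p ^ j - c)}
  add_mem' := by
    rintro a b ⟨c, hc⟩ ⟨c', hc'⟩
    refine ⟨max c c', fun j => ?_⟩
    rw [add_pow_char_pow]
    exact add_mem (Ideal.pow_le_pow_right (by omega) (hc j))
      (Ideal.pow_le_pow_right (by omega) (hc' j))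
  zero_mem' := ⟨0, fun j => by
    rw [zero_pow (pow_ne_zero _ (Fact.out : p.Prime).ne_zero)]; exact zero_mem _⟩
  smul_mem' := by
    rintro r b ⟨c, hc⟩
    refine ⟨c, fun j => ?_⟩
    rw [smul_eq_mul, mul_pow]
    exact Ideal.mul_mem_left _ _ (hc j)

theorem mem_rcl [CharP U p] {𝔟 : Ideal U} {t : ℕ} {b : U} :
    b ∈ rcl p 𝔟 t ↔ ∃ c, ∀ j, b ^ p ^ j ∈ 𝔟 ^ (t * p ^ j - c) := Iff.rfl

theorem rcl_zero [CharP U p] (𝔟 : Ideal U) : rcl p 𝔟 0 = ⊤ := by
  refine eq_top_iff.2 fun b _ => ⟨0, fun j => ?_⟩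
  simp

theorem rcl_anti [CharP U p] (𝔟 : Ideal U) {s t : ℕ} (h : s ≤ t) : rcl p 𝔟 t ≤ rcl p 𝔟 s := by
  rintro b ⟨c, hc⟩
  exact ⟨c, fun j => Ideal.pow_le_pow_right
    (Nat.sub_le_sub_right (Nat.mul_le_mul_right _ h) c) (hc j)⟩

theorem rcl_mul [CharP U p] {𝔟 : Ideal U} {s t : ℕ} {a b : U} (ha : a ∈ rcl p 𝔟 s)
    (hb : b ∈ rcl p 𝔟 t) : a * b ∈ rcl p 𝔟 (s + t) := by
  obtain ⟨c, hc⟩ := ha
  obtain ⟨c', hc'⟩ := hb
  refine ⟨c + c', fun j => ?_⟩
  have h := Ideal.mul_mem_mul (hc j) (hc' j)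
  rw [← pow_add, ← mul_pow] at h
  refine Ideal.pow_le_pow_right ?_ h
  rw [add_mul]
  omega

theorem pow_le_rcl [CharP U p] (𝔟 : Ideal U) (t : ℕ) : 𝔟 ^ t ≤ rcl p 𝔟 t := by
  intro b hb
  refine ⟨0, fun j => ?_⟩
  rw [Nat.sub_zero, pow_mul]
  exact Ideal.pow_mem_pow hb _

theorem pow_mem_rcl_iff [CharP U p] {𝔟 : Ideal U} {t : ℕ} {b : U} (r : ℕ) :
    b ^ p ^ r ∈ rcl p 𝔟 (t * p ^ r) ↔ b ∈ rcl p 𝔟 t := by
  constructor
  · rintro ⟨c, hc⟩
    refine ⟨c + t * p ^ r, fun j => ?_⟩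
    rcases le_total r j with h | h
    · obtain ⟨j, rfl⟩ := Nat.exists_eq_add_of_le h
      have h1 := hc j
      rw [← pow_mul, ← pow_add, mul_assoc, ← pow_add] at h1
      exact Ideal.pow_le_pow_right (by omega) h1
    · have h1 : t * p ^ j ≤ t * p ^ r :=
        Nat.mul_le_mul_left _ (Nat.pow_le_pow_right (Fact.out : p.Prime).pos h)
      have h2 : t * p ^ j - (c + t * p ^ r) = 0 := by omega
      rw [h2]
      simp
  · rintro ⟨c, hc⟩
    refine ⟨c, fun j => ?_⟩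
    rw [← pow_mul, ← pow_add, mul_assoc, ← pow_add]
    exact hc (r + j)

theorem rcl_map [CharP U p] [CharP U' p] (ψ : U →+* U') {𝔟 : Ideal U} {𝔟' : Ideal U'}
    (h : 𝔟.map ψ ≤ 𝔟') {t : ℕ} {b : U} (hb : b ∈ rcl p 𝔟 t) : ψ b ∈ rcl p 𝔟' t := by
  obtain ⟨c, hc⟩ := hb
  refine ⟨c, fun j => ?_⟩
  have h1 := Ideal.mem_map_of_mem ψ (hc j)
  rw [map_pow, Ideal.map_pow] at h1
  exact Ideal.pow_right_mono h _ h1

theorem rcl_le_radical [CharP U p] (𝔟 : Ideal U) {t : ℕ} (ht : 1 ≤ t) :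
    rcl p 𝔟 t ≤ 𝔟.radical := by
  rintro b ⟨c, hc⟩
  refine ⟨p ^ c, ?_⟩
  have h1 : c < p ^ c := Nat.lt_pow_self (Fact.out : p.Prime).one_lt
  have h2 : 1 * p ^ c ≤ t * p ^ c := Nat.mul_le_mul_right _ ht
  exact Ideal.pow_le_self (by omega) (hc c)

/-- Witt vectors with coefficients in a subring form a subring (range of `WittVector.map`). -/
theorem coeff_mem_subring_add (S : Subring U) {x y : WittVector p U} (hx : ∀ i, x.coeff i ∈ S)
    (hy : ∀ i, y.coeff i ∈ S) : (∀ i, (x + y).coeff i ∈ S) ∧ ∀ i, (x * y).coeff i ∈ S := by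
  have ex : x = WittVector.map S.subtype (WittVector.mk p fun i => ⟨x.coeff i, hx i⟩) := by
    ext i
    simp [map_coeff]
  have ey : y = WittVector.map S.subtype (WittVector.mk p fun i => ⟨y.coeff i, hy i⟩) := by
    ext i
    simp [map_coeff]
  constructor
  · intro i
    rw [ex, ey, ← map_add, map_coeff]
    exact Subtype.property _
  · intro i
    rw [ex, ey, ← map_mul, map_coeff]
    exact Subtype.property _

/-- the Rees ring of the root-closed filtration -/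
def wbb_Rees [CharP U p] (𝔟 : Ideal U) : Subring (Polynomial U) where
  carrier := {F | ∀ s, F.coeff s ∈ rcl p 𝔟 s}
  mul_mem' := fun {F G} hF hG s => by
    rw [Polynomial.coeff_mul]
    refine Ideal.sum_mem _ fun z hz => ?_
    rw [← Finset.HasAntidiagonal.mem_antidiagonal.1 hz]
    exact rcl_mul (hF _) (hG _)
  one_mem' := fun s => by
    rw [Polynomial.coeff_one]
    split_ifs with h
    · rw [h, rcl_zero]
      trivial
    · exact zero_mem _
  add_mem' := fun {F G} hF hG s => by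
    rw [Polynomial.coeff_add]
    exact add_mem (hF s) (hG s)
  zero_mem' := fun s => by
    rw [Polynomial.coeff_zero]
    exact zero_mem _
  neg_mem' := fun {F} hF s => by
    rw [Polynomial.coeff_neg]
    exact neg_mem (hF s)

theorem wbb_mem_Rees [CharP U p] (𝔟 : Ideal U) (a : U) (n : ℕ) :
    Polynomial.X ^ n * Polynomial.C a ∈ wbb_Rees (p := p) 𝔟 ↔ a ∈ rcl p 𝔟 n := by
  rw [Polynomial.X_pow_mul_C, Polynomial.C_mul_X_pow_eq_monomial]
  constructor
  · intro h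
    simpa using h n
  · intro h s
    rw [Polynomial.coeff_monomial]
    split_ifs with e
    · exact e ▸ h
    · exact zero_mem _

theorem wbb_iff [CharP U p] (𝔟 : Ideal U) (t : ℕ) (y : WittVector p U) (i : ℕ) :
    (teichmuller p ((Polynomial.X : Polynomial U) ^ t) * WittVector.map Polynomial.C y).coeff i ∈
      wbb_Rees (p := p) 𝔟 ↔ y.coeff i ∈ rcl p 𝔟 (t * p ^ i) := by
  rw [teich_mul_coeff, map_coeff, ← pow_mul, wbb_mem_Rees]

/-- REES TRICK: `𝓡 = {F : U[T] | ∀ s, F.coeff s ∈ rcl 𝔟 s}` is a subring; `y` has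
`y_i ∈ rcl (t p^i)` iff `[T^t] * map C y` has all coefficients in `𝓡` (`teich_mul_coeff`). -/
theorem WF_add_mul [CharP U p] (𝔟 : Ideal U) {s t : ℕ} {x y : WittVector p U}
    (hx : ∀ i, x.coeff i ∈ rcl p 𝔟 (s * p ^ i)) (hy : ∀ i, y.coeff i ∈ rcl p 𝔟 (t * p ^ i)) :
    (∀ i, (x * y).coeff i ∈ rcl p 𝔟 ((s + t) * p ^ i)) ∧
      (s = t → ∀ i, (x + y).coeff i ∈ rcl p 𝔟 (s * p ^ i)) := by
  have h := coeff_mem_subring_add (wbb_Rees (p := p) 𝔟)
    (fun i => (wbb_iff 𝔟 s x i).2 (hx i)) (fun i => (wbb_iff 𝔟 t y i).2 (hy i))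
  constructor
  · intro i
    rw [← wbb_iff, pow_add, map_mul, map_mul, mul_mul_mul_comm]
    exact h.2 i
  · rintro rfl i
    rw [← wbb_iff, map_add, mul_add]
    exact h.1 i

variable (p) in
def WF [CharP U p] (𝔟 : Ideal U) (t : ℕ) : Ideal (WittVector p U) where
  carrier := {y | ∀ i, y.coeff i ∈ rcl p 𝔟 (t * p ^ i)}
  add_mem' := fun hx hy => (WF_add_mul 𝔟 hx hy).2 rfl
  zero_mem' := fun i => by simp
  smul_mem' := fun r y hy => by
    have := (WF_add_mul 𝔟 (s := 0) (x := r) (fun i => by simp [rcl_zero]) hy).1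
    simpa using this

theorem mem_WF [CharP U p] {𝔟 : Ideal U} {t : ℕ} {y : WittVector p U} :
    y ∈ WF p 𝔟 t ↔ ∀ i, y.coeff i ∈ rcl p 𝔟 (t * p ^ i) := Iff.rfl

theorem WF_mul [CharP U p] {𝔟 : Ideal U} {s t : ℕ} {x y : WittVector p U} (hx : x ∈ WF p 𝔟 s)
    (hy : y ∈ WF p 𝔟 t) : x * y ∈ WF p 𝔟 (s + t) := (WF_add_mul 𝔟 hx hy).1

theorem WF_anti [CharP U p] (𝔟 : Ideal U) {s t : ℕ} (h : s ≤ t) : WF p 𝔟 t ≤ WF p 𝔟 s := by
  exact fun y hy i => rcl_anti 𝔟 (Nat.mul_le_mul_right _ h) (hy i)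

theorem WF_pow_le [CharP U p] (𝔟 : Ideal U) (t r : ℕ) : WF p 𝔟 t ^ r ≤ WF p 𝔟 (r * t) := by
  induction r with
  | zero =>
    intro y _ i
    rw [zero_mul, zero_mul, rcl_zero]
    trivial
  | succ r ih =>
    rw [pow_succ, add_mul, one_mul]
    exact Ideal.mul_le.2 fun x hx y hy => WF_mul (ih hx) hy

theorem teich_mem_WF [CharP U p] {𝔟 : Ideal U} {t : ℕ} {a : U} (h : a ∈ rcl p 𝔟 t) :
    teichmuller p a ∈ WF p 𝔟 t := by
  intro i
  rcases i with _ | i
  · simpa using h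
  · rw [teichmuller_coeff_pos p a _ (Nat.succ_pos i)]
    exact zero_mem _

theorem WF_map [CharP U p] [CharP U' p] (ψ : U →+* U') {𝔟 : Ideal U} {𝔟' : Ideal U'}
    (h : 𝔟.map ψ ≤ 𝔟') {t : ℕ} {y : WittVector p U} (hy : y ∈ WF p 𝔟 t) :
    WittVector.map ψ y ∈ WF p 𝔟' t := by
  intro i
  rw [map_coeff]
  exact rcl_map ψ h (hy i)

theorem WF_Fr [CharP U p] {𝔟 : Ideal U} {t : ℕ} {y : WittVector p U} (hy : y ∈ WF p 𝔟 t)
    (N : ℕ) : Fr p U N y ∈ WF p 𝔟 (t * p ^ N) := by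
  intro i
  rw [Fr_coeff, mul_right_comm, pow_mem_rcl_iff]
  exact hy i

/-! ### the recursion -/

variable (p) in
noncomputable def wrec (ϖ : U) (y : WittVector p U) : ℕ → WittVector p U
  | 0 => y
  | j + 1 => teichmuller p ((wrec ϖ y j).coeff 0 ^ p) +
      teichmuller p (ϖ ^ p ^ (j + 1)) * (wrec ϖ y j).shift 1

/-- induction with `Fr_one_eq`; `Fr 1` maps `p - [ϖ^(p^j)]` to `p - [ϖ^(p^(j+1))]`. -/
theorem wrec_sub_mem [CharP U p] (ϖ : U) (y : WittVector p U) (j : ℕ) :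
    wrec p ϖ y j - Fr p U j y ∈
      Ideal.span {(p : WittVector p U) - teichmuller p (ϖ ^ p ^ j)} := by
  induction j with
  | zero => rw [Fr_zero, wrec, sub_self]; exact zero_mem _
  | succ j ih =>
    obtain ⟨r, hr⟩ := Ideal.mem_span_singleton'.1 ih
    have h1 := congrArg (Fr p U 1) hr
    rw [map_mul, map_sub, map_sub, map_natCast, Fr_teich, Fr_Fr, ← pow_mul, ← pow_add,
      Fr_one_eq (wrec p ϖ y j)] at h1
    refine Ideal.mem_span_singleton'.2 ⟨Fr p U 1 r - (wrec p ϖ y j).shift 1, ?_⟩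
    rw [wrec]
    linear_combination h1

theorem wrec_map (ψ : U →+* U') (ϖ : U) (y : WittVector p U) (j : ℕ) :
    WittVector.map ψ (wrec p ϖ y j) = wrec p (ψ ϖ) (WittVector.map ψ y) j := by
  induction j with
  | zero => rfl
  | succ j ih =>
    have hs : WittVector.map ψ ((wrec p ϖ y j).shift 1) =
        (WittVector.map ψ (wrec p ϖ y j)).shift 1 := by
      ext i
      simp only [WittVector.map_coeff, WittVector.shift_coeff]
    rw [wrec, wrec, map_add, map_mul, WittVector.map_teichmuller, WittVector.map_teichmuller, hs,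
      ← ih, map_pow ψ, map_pow ψ, WittVector.map_coeff]

theorem wrec_teich (ϖ b : U) (j : ℕ) :
    wrec p ϖ (teichmuller p b) j = teichmuller p (b ^ p ^ j) := by
  induction j with
  | zero => rw [wrec, pow_zero, pow_one]
  | succ j ih =>
    have hs : (teichmuller p (b ^ p ^ j)).shift 1 = 0 := by
      ext i
      rw [WittVector.shift_coeff, teichmuller_coeff_pos _ _ _ (by omega), WittVector.zero_coeff]
    rw [wrec, ih, hs, mul_zero, add_zero, teichmuller_coeff_zero, ← pow_mul, ← pow_succ]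

theorem wrecC_pow_mem [CharP U p] {𝔟 : Ideal U} {t : ℕ} {b : U} (h : b ∈ rcl p 𝔟 t) :
    b ^ p ∈ rcl p 𝔟 (t * p) := by
  have := (pow_mem_rcl_iff (p := p) (𝔟 := 𝔟) (t := t) (b := b) 1).2 h
  simpa only [pow_one] using this

theorem wrecC_tail [CharP U p] {𝔟 : Ideal U} {ω j k : ℕ} {ϖ : U} (hϖ : ϖ ∈ rcl p 𝔟 ω)
    {z : WittVector p U} (hz : z ∈ WF p 𝔟 (j * ω * p ^ k)) :
    teichmuller p (ϖ ^ p ^ (k + 1)) * z.shift 1 ∈ WF p 𝔟 ((j + 1) * ω * p ^ (k + 1)) := by
  have h1 : teichmuller p (ϖ ^ p ^ (k + 1)) ∈ WF p 𝔟 (ω * p ^ (k + 1)) :=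
    teich_mem_WF ((pow_mem_rcl_iff (k + 1)).2 hϖ)
  have h2 : z.shift 1 ∈ WF p 𝔟 (j * ω * p ^ (k + 1)) := by
    refine mem_WF.2 fun i => ?_
    have := mem_WF.1 hz (1 + i)
    rw [WittVector.shift_coeff,
      show j * ω * p ^ (k + 1) * p ^ i = j * ω * p ^ k * p ^ (1 + i) by ring]
    exact this
  have h3 := WF_mul h1 h2
  rwa [show ω * p ^ (k + 1) + j * ω * p ^ (k + 1) = (j + 1) * ω * p ^ (k + 1) by ring] at h3

theorem wrecC_head [CharP U p] {𝔟 : Ideal U} {t k : ℕ} {b : U} (hb : b ∈ rcl p 𝔟 (t * p ^ k)) :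
    teichmuller p (b ^ p) ∈ WF p 𝔟 (t * p ^ (k + 1)) := by
  refine teich_mem_WF ?_
  rw [pow_succ, ← mul_assoc]
  exact wrecC_pow_mem hb

theorem wrecC_coeff_zero [CharP U p] {𝔟 : Ideal U} {t : ℕ} {z : WittVector p U}
    (hz : z ∈ WF p 𝔟 t) : z.coeff 0 ∈ rcl p 𝔟 t := by
  simpa only [pow_zero, mul_one] using mem_WF.1 hz 0

theorem wrecC_prop [CharP U p] {𝔟 : Ideal U} {ω j : ℕ} {ϖ : U} (hϖ : ϖ ∈ rcl p 𝔟 ω)
    {y : WittVector p U} (hj : wrec p ϖ y j ∈ WF p 𝔟 (j * ω * p ^ j)) (d : ℕ) :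
    wrec p ϖ y (j + d) ∈ WF p 𝔟 (j * ω * p ^ (j + d)) ∧
      (wrec p ϖ y (j + d)).coeff 0 - (wrec p ϖ y j).coeff 0 ^ p ^ d ∈
        rcl p 𝔟 ((j + 1) * ω * p ^ (j + d)) := by
  induction d with
  | zero =>
    refine ⟨hj, ?_⟩
    simp only [Nat.add_zero, pow_zero, pow_one, sub_self]
    exact zero_mem _
  | succ d ih =>
    obtain ⟨ih1, ih2⟩ := ih
    have ht := wrecC_tail hϖ ih1
    rw [← Nat.add_assoc, wrec]
    refine ⟨add_mem (wrecC_head (wrecC_coeff_zero ih1)) (WF_anti 𝔟 ?_ ht), ?_⟩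
    · exact Nat.mul_le_mul_right _ (Nat.mul_le_mul_right _ (Nat.le_succ j))
    · have h1 := wrecC_pow_mem ih2
      rw [sub_pow_char, ← pow_mul, ← pow_succ, mul_assoc, ← pow_succ] at h1
      rw [WittVector.add_coeff_zero, teichmuller_coeff_zero, add_sub_right_comm]
      exact add_mem h1 (wrecC_coeff_zero ht)

/-- Induct on `j ≤ N`: `y⁽ʲ⁾ ∈ WF (j ω p^j)`.  Step: all `y⁽ʲ'⁾`, `j' ≥ j`, lie in `WF (j ω p^j')`, so
`y⁽ʲ'⁺¹⁾₀ ≡ (y⁽ʲ'⁾₀)^p` mod `rcl ((j+1) ω p^(j'+1))` (constant coefficient is a ring hom); hence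
`y⁽ᴺ⁾₀ ≡ (y⁽ʲ⁾₀)^(p^(N-j))` mod `rcl ((j+1) ω p^N)` and `pow_mem_rcl_iff` gives
`y⁽ʲ⁾₀ ∈ rcl ((j+1) ω p^j)`.  Note `shift 1` maps `WF t` to `WF (t p)`. -/
theorem wrec_small [CharP U p] {𝔟 : Ideal U} {ω N : ℕ} {ϖ : U} (hϖ : ϖ ∈ rcl p 𝔟 ω)
    {y : WittVector p U} (h : (wrec p ϖ y N).coeff 0 ∈ rcl p 𝔟 (N * ω * p ^ N)) :
    wrec p ϖ y N ∈ WF p 𝔟 (N * ω * p ^ N) := by
  have key : ∀ j, j ≤ N → wrec p ϖ y j ∈ WF p 𝔟 (j * ω * p ^ j) := by
    intro j
    induction j with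
    | zero =>
      intro _
      refine mem_WF.2 fun i => ?_
      simp only [zero_mul, rcl_zero, Submodule.mem_top]
    | succ j ih =>
      intro hj
      have ihj := ih (by omega)
      obtain ⟨d, rfl⟩ : ∃ d, N = j + d := ⟨N - j, by omega⟩
      have h2 := (wrecC_prop hϖ ihj d).2
      have h3 : (wrec p ϖ y (j + d)).coeff 0 ∈ rcl p 𝔟 ((j + 1) * ω * p ^ (j + d)) :=
        rcl_anti 𝔟 (Nat.mul_le_mul_right _ (Nat.mul_le_mul_right _ hj)) h
      have h4 := sub_mem h3 h2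
      rw [sub_sub_cancel, pow_add, ← mul_assoc, pow_mem_rcl_iff] at h4
      rw [wrec]
      exact add_mem (wrecC_head h4) (wrecC_tail hϖ ihj)
  exact key N le_rfl

end

end Crest.Agent.R183
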